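import Crest.Agent.R216.ADefs
/-! # R216 (A): finite order classes `ClK` (unfold, use `BdL`, `filter_upwards`; compare `ClL`) -/

set_option autoImplicit false
set_option linter.unusedSectionVars false
set_option linter.unusedVariables false
open scoped Manifold ContDiff Topology Matrix
open Set Filter

namespace Crest.Agent.R216
universe u
variable {M : Type u} [TopologicalSpace M] [ChartedSpace E2 M] [IsManifold (𝓡 2) ∞ M]
  [CompactSpace M]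

variable {F F' : Type} [NormedAddCommGroup F] [NormedSpace ℝ F] [NormedAddCommGroup F']
  [NormedSpace ℝ F']
variable {ι : Type} {V : ι → M → E2} {τ : Type*} {𝓕 : Filter τ} {lam w w' : τ → ℝ} {k : ℕ}

/-- `cx` as a continuous linear map -/
noncomputable def aclk_cx : (Fin 4 → ℝ) →L[ℝ] (Fin 4 → ℂ) :=
  ContinuousLinearMap.pi fun r => Complex.ofRealCLM.comp (ContinuousLinearMap.proj r)

/-- `rp` as a continuous linear map -/
noncomputable def aclk_rp : (Fin 4 → ℂ) →L[ℝ] (Fin 4 → ℝ) :=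
  ContinuousLinearMap.pi fun r => Complex.reCLM.comp (ContinuousLinearMap.proj r)

/-- `cj` as a continuous linear map -/
noncomputable def aclk_cj : (Fin 4 → ℂ) →L[ℝ] (Fin 4 → ℂ) :=
  ContinuousLinearMap.pi fun r =>
    (Complex.conjCLE : ℂ →L[ℝ] ℂ).comp (ContinuousLinearMap.proj r)

/-- passing to a finer scale improves the constant of all positive orders -/
theorem Bd.rescale {l l' c c' : ℝ} {f : M → F} (h : Bd V k l f c) (hl : 0 ≤ l) (hl' : l ≤ l')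
    (h0 : ∀ p, ‖f p‖ ≤ c') (hc : l * c ≤ l' * c') : Bd V k l' f c' := by
  cases k with
  | zero => exact h0
  | succ k => exact ⟨h0, fun a => ((h.zv a).mono_l hl hl').mono (hl.trans hl') hc⟩

theorem Cl.clK {f : τ → M → F} (h : Cl V 𝓕 lam w f) (k : ℕ) : ClK V 𝓕 k lam w f := by
  obtain ⟨c, hc⟩ := h.2 k
  exact ⟨c, h.1.and hc⟩

namespace ClK

theorem of_bd {f : τ → M → F} (c : ℝ) (h : ∀ᶠ t in 𝓕, Sm (f t) ∧ Bd V k (lam t) (f t) (c * w t)) :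
    ClK V 𝓕 k lam w f := by
  exact ⟨c, h⟩

theorem sm {f : τ → M → F} (h : ClK V 𝓕 k lam w f) : ∀ᶠ t in 𝓕, Sm (f t) := by
  obtain ⟨c, hc⟩ := h
  exact hc.mono fun t ht => ht.1

theorem mono_k {k' : ℕ} {f : τ → M → F} (h : ClK V 𝓕 k lam w f) (hk : k' ≤ k) :
    ClK V 𝓕 k' lam w f := by
  obtain ⟨c, hc⟩ := h
  exact ⟨c, hc.mono fun t ht => ⟨ht.1, ht.2.mono_k hk⟩⟩

theorem congr {f f' : τ → M → F} (h : ClK V 𝓕 k lam w f) (e : ∀ᶠ t in 𝓕, f t = f' t) :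
    ClK V 𝓕 k lam w f' := by
  obtain ⟨c, hc⟩ := h
  refine ⟨c, ?_⟩
  filter_upwards [hc, e] with t h1 h2
  exact h2 ▸ h1

theorem sup {f : τ → M → F} (h : ClK V 𝓕 k lam w f) :
    ∃ c, 0 ≤ c ∧ ∀ᶠ t in 𝓕, ∀ p, ‖f t p‖ ≤ c * |w t| := by
  obtain ⟨c, hc⟩ := h
  refine ⟨|c|, abs_nonneg c, ?_⟩
  filter_upwards [hc] with t h1 p
  rw [← abs_mul]
  exact (h1.2.sup p).trans (le_abs_self _)

/-- a nonnegative constant can be chosen -/
theorem bd {f : τ → M → F} (H : Ctx V 𝓕 lam) (h : ClK V 𝓕 k lam w f) (hw : ∀ᶠ t in 𝓕, 0 ≤ w t) :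
    ∃ c, 0 ≤ c ∧ ∀ᶠ t in 𝓕, Sm (f t) ∧ Bd V k (lam t) (f t) (c * w t) := by
  obtain ⟨c, hc⟩ := h
  refine ⟨|c|, abs_nonneg c, ?_⟩
  filter_upwards [hc, hw, H.nonneg] with t h1 h2 h3
  exact ⟨h1.1, h1.2.mono h3 (mul_le_mul_of_nonneg_right (le_abs_self c) h2)⟩

variable (H : Ctx V 𝓕 lam)
include H

theorem weight {f : τ → M → F} (h : ClK V 𝓕 k lam w f) (K : ℝ)
    (e : ∀ᶠ t in 𝓕, 0 ≤ w t ∧ w t ≤ K * w' t) : ClK V 𝓕 k lam w' f := by
  obtain ⟨c, hc⟩ := h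
  refine ⟨|c| * K, ?_⟩
  filter_upwards [hc, e, H.nonneg] with t h1 h2 h3
  refine ⟨h1.1, h1.2.mono h3 ?_⟩
  rw [mul_assoc]
  exact (mul_le_mul_of_nonneg_right (le_abs_self c) h2.1).trans
    (mul_le_mul_of_nonneg_left h2.2 (abs_nonneg c))

theorem scale {lam' : τ → ℝ} {f : τ → M → F} (h : ClK V 𝓕 k lam w f)
    (e : ∀ᶠ t in 𝓕, lam t ≤ lam' t) : ClK V 𝓕 k lam' w f := by
  obtain ⟨c, hc⟩ := h
  refine ⟨c, ?_⟩
  filter_upwards [hc, e, H.nonneg] with t h1 h2 h3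
  exact ⟨h1.1, h1.2.mono_l h3 h2⟩

theorem zv {f : τ → M → F} (h : ClK V 𝓕 (k + 1) lam w f) (a : ι) :
    ClK V 𝓕 k lam (fun t => lam t * w t) fun t => Zv (V a) (f t) := by
  obtain ⟨c, hc⟩ := h
  refine ⟨c, ?_⟩
  filter_upwards [hc] with t h1
  have h2 := h1.2.zv a
  rw [mul_left_comm] at h2
  exact ⟨h1.1.zv (H.sm a), h2⟩

theorem add {f f' : τ → M → F} (h : ClK V 𝓕 k lam w f) (h' : ClK V 𝓕 k lam w f') :
    ClK V 𝓕 k lam w fun t p => f t p + f' t p := by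
  obtain ⟨c, hc⟩ := h
  obtain ⟨c', hc'⟩ := h'
  refine ⟨c + c', ?_⟩
  filter_upwards [hc, hc'] with t h1 h2
  rw [add_mul]
  exact ⟨h1.1.add' h2.1, Bd.add H.sm h1.1 h2.1 h1.2 h2.2⟩

theorem sub {f f' : τ → M → F} (h : ClK V 𝓕 k lam w f) (h' : ClK V 𝓕 k lam w f') :
    ClK V 𝓕 k lam w fun t p => f t p - f' t p := by
  obtain ⟨c, hc⟩ := h
  obtain ⟨c', hc'⟩ := h'
  refine ⟨c + c', ?_⟩
  filter_upwards [hc, hc'] with t h1 h2
  rw [add_mul]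
  exact ⟨h1.1.sub' h2.1, Bd.sub H.sm h1.1 h2.1 h1.2 h2.2⟩

theorem neg {f : τ → M → F} (h : ClK V 𝓕 k lam w f) : ClK V 𝓕 k lam w fun t p => -f t p := by
  obtain ⟨c, hc⟩ := h
  exact ⟨c, hc.mono fun t ht => ⟨ht.1.neg', ht.2.neg⟩⟩

theorem sum {α : Type*} (s : Finset α) {f : α → τ → M → F}
    (h : ∀ i ∈ s, ClK V 𝓕 k lam w (f i)) : ClK V 𝓕 k lam w fun t p => ∑ i ∈ s, f i t p := by
  classical
  induction s using Finset.induction_on with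
  | empty => simpa using (Cl.zero H).clK k
  | insert i s hi ih =>
    simp only [Finset.sum_insert hi]
    exact add H (h i (Finset.mem_insert_self i s))
      (ih fun j hj => h j (Finset.mem_insert_of_mem hj))

theorem clm (L : F →L[ℝ] F') {f : τ → M → F} (h : ClK V 𝓕 k lam w f) :
    ClK V 𝓕 k lam w fun t p => L (f t p) := by
  obtain ⟨c, hc⟩ := h
  refine ⟨‖L‖ * c, ?_⟩
  filter_upwards [hc] with t h1
  rw [mul_assoc]
  exact ⟨h1.1.clm L, Bd.clm H.sm L h1.1 h1.2⟩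

theorem smul {a : τ → M → ℝ} {f : τ → M → F} (h : ClK V 𝓕 k lam w a) (h' : ClK V 𝓕 k lam w' f) :
    ClK V 𝓕 k lam (fun t => w t * w' t) fun t p => a t p • f t p := by
  obtain ⟨c, hc⟩ := h
  obtain ⟨c', hc'⟩ := h'
  refine ⟨2 ^ k * c * c', ?_⟩
  filter_upwards [hc, hc', H.nonneg] with t h1 h2 h5
  exact ⟨h1.1.smul' h2.1, (Bd.smul H.sm h5 h1.1 h2.1 h1.2 h2.2).mono h5 (le_of_eq (by ring))⟩

theorem mul {A : Type} [NormedRing A] [NormedAlgebra ℝ A] {f f' : τ → M → A}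
    (h : ClK V 𝓕 k lam w f) (h' : ClK V 𝓕 k lam w' f') :
    ClK V 𝓕 k lam (fun t => w t * w' t) fun t p => f t p * f' t p := by
  obtain ⟨c, hc⟩ := h
  obtain ⟨c', hc'⟩ := h'
  refine ⟨2 ^ k * c * c', ?_⟩
  filter_upwards [hc, hc', H.nonneg] with t h1 h2 h5
  exact ⟨h1.1.mul' h2.1, (Bd.mul H.sm h5 h1.1 h2.1 h1.2 h2.2).mono h5 (le_of_eq (by ring))⟩

theorem dot {α : Type} [Fintype α] {A : Type} [NormedCommRing A] [NormedAlgebra ℝ A]
    {f f' : τ → M → α → A} (h : ClK V 𝓕 k lam w f) (h' : ClK V 𝓕 k lam w' f') :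
    ClK V 𝓕 k lam (fun t => w t * w' t) fun t p => f t p ⬝ᵥ f' t p := by
  obtain ⟨c, hc⟩ := h
  obtain ⟨c', hc'⟩ := h'
  refine ⟨Fintype.card α * (2 ^ k * c * c'), ?_⟩
  filter_upwards [hc, hc', H.nonneg] with t h1 h2 h5
  exact ⟨h1.1.dot h2.1, (Bd.dot H.sm h5 h1.1 h2.1 h1.2 h2.2).mono h5 (le_of_eq (by ring))⟩

theorem pi {α : Type} [Fintype α] {f : τ → M → α → F} (hw : ∀ᶠ t in 𝓕, 0 ≤ w t)
    (h : ∀ i, ClK V 𝓕 k lam w fun t p => f t p i) : ClK V 𝓕 k lam w f := by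
  choose c hc using h
  obtain ⟨C, hC0, -, hC2⟩ := cll_bound c 0
  refine ⟨C, ?_⟩
  filter_upwards [hw, eventually_all.2 hc, H.nonneg] with t h2 h3 h4
  have h1 : Sm (f t) := sm_pi.2 fun i => (h3 i).1
  exact ⟨h1, Bd.pi H.sm h4 (mul_nonneg hC0 h2) h1 fun i =>
    (h3 i).2.mono h4 (mul_le_mul_of_nonneg_right (hC2 i) h2)⟩

theorem apply {α : Type} [Fintype α] {f : τ → M → α → F} (h : ClK V 𝓕 k lam w f) (i : α) :
    ClK V 𝓕 k lam w fun t p => f t p i := by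
  obtain ⟨c, hc⟩ := h
  refine ⟨c, ?_⟩
  filter_upwards [hc] with t h1
  exact ⟨sm_pi.1 h1.1 i, Bd.apply H.sm h1.1 h1.2 i⟩

end ClK

/-- `cx`, `rp`, `cj` preserve classes (they are continuous linear maps) -/
theorem Cl.cx (H : Ctx V 𝓕 lam) {f : τ → M → Fin 4 → ℝ} (h : Cl V 𝓕 lam w f) :
    Cl V 𝓕 lam w fun t p => cx (f t p) := by
  exact Cl.clm H aclk_cx h

theorem Cl.rp (H : Ctx V 𝓕 lam) {f : τ → M → Fin 4 → ℂ} (h : Cl V 𝓕 lam w f) :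
    Cl V 𝓕 lam w fun t p => rp (f t p) := by
  exact Cl.clm H aclk_rp h

theorem Cl.cj (H : Ctx V 𝓕 lam) {f : τ → M → Fin 4 → ℂ} (h : Cl V 𝓕 lam w f) :
    Cl V 𝓕 lam w fun t p => cj (f t p) := by
  exact Cl.clm H aclk_cj h

theorem Cl.re (H : Ctx V 𝓕 lam) {f : τ → M → ℂ} (h : Cl V 𝓕 lam w f) :
    Cl V 𝓕 lam w fun t p => (f t p).re := by
  exact Cl.clm H Complex.reCLM h

/-- multiplication by a scalar that only depends on the parameter -/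
theorem Cl.cmul (H : Ctx V 𝓕 lam) {c : τ → ℝ} {f : τ → M → F} (h : Cl V 𝓕 lam w f)
    (hc : ∀ᶠ t in 𝓕, |c t| ≤ w' t) :
    Cl V 𝓕 lam (fun t => w' t * w t) fun t p => c t • f t p := by
  exact Cl.smul H (Cl.const H (c := c) hc) h

theorem Sm.cx {f : M → Fin 4 → ℝ} (h : Sm f) : Sm fun p => cx (f p) := by
  exact h.clm aclk_cx
theorem Sm.rp {f : M → Fin 4 → ℂ} (h : Sm f) : Sm fun p => rp (f p) := by
  exact h.clm aclk_rp
theorem dd_cx {f : M → Fin 4 → ℝ} {p : M} (h : Df f p) (v : E2) :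
    dd (fun q => cx (f q)) p v = cx (dd f p v) := by
  exact dd_clm aclk_cx h v
theorem dd_rp {f : M → Fin 4 → ℂ} {p : M} (h : Df f p) (v : E2) :
    dd (fun q => rp (f q)) p v = rp (dd f p v) := by
  exact dd_clm aclk_rp h v

end Crest.Agent.R216
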