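import Crest.Agent.R216.ALin2
/-! # R216 (A): real modes.

`eI_cl`: `Cl.expI` with `Z (om ψ) = om Z ψ`.  `osc_solve`: `lin` for the chart components of `f`
(`push` of them is `f` on `O i ⊇ K`, and both vanish off `K`), `v = rp (eI (om ψ) • W)`, `LL_mode`, `push_cl`.
`quad_expand`: `Re z · Re z' = (Re (z z') + Re (z conj z'))/2` componentwise, `Finset.sum_comm` for the
symmetrisation, `Re z = Re (conj z)`, `eI θ * conj (eI θ') = eI (θ - θ')`. -/

set_option autoImplicit false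
set_option linter.unusedSectionVars false
set_option linter.unusedVariables false
open scoped Manifold ContDiff Topology Matrix
open Set Filter

namespace Crest.Agent.R216
universe u
variable {M : Type u} [TopologicalSpace M] [ChartedSpace E2 M] [IsManifold (𝓡 2) ∞ M]
  [CompactSpace M]
variable {g : Met M} {C : Calc g} {τ : Type*} {𝓕 : Filter τ} {m lb μ w w' om : τ → ℝ}
  {F : τ → M → Fin 4 → ℝ} {i : Fin C.n} {ψ : τ → M → ℝ} {K : τ → Set M}

theorem aosca_deriv (om y : ℝ) :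
    HasDerivAt (fun y : ℝ => eI (om * y)) (eI (om * y) * (Complex.I * om)) y := by
  have h1 : HasDerivAt (fun y : ℝ => Complex.I * ((om * y : ℝ) : ℂ)) (Complex.I * om) y := by
    simpa using (((hasDerivAt_id y).const_mul om).ofReal_comp).const_mul Complex.I
  exact h1.cexp

theorem aosca_sm (om : ℝ) {ψ : M → ℝ} (hψ : Sm ψ) : Sm fun q => eI (om * ψ q) := by
  have h1 : ContDiff ℝ ∞ fun y : ℝ => eI (om * y) :=
    (Complex.contDiff_exp (𝕜 := ℝ)).comp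
      (contDiff_const.mul (Complex.ofRealCLM.contDiff.comp (contDiff_const.mul contDiff_id)))
  exact hψ.comp' h1

theorem aosca_dot (x : Fin 4 → ℝ) (c : ℂ) (y : Fin 4 → ℂ) :
    x ⬝ᵥ rp (c • y) = (c * (cx x ⬝ᵥ y)).re := by
  simp only [dotProduct, rp, cx, Finset.mul_sum, Complex.re_sum, Pi.smul_apply, smul_eq_mul]
  refine Finset.sum_congr rfl fun r _ => ?_
  rw [mul_left_comm, Complex.re_ofReal_mul]

theorem Calc.Z_mode (C : Calc g) (om : ℝ) {ψ : M → ℝ} (hψ : Sm ψ) {W : M → Fin 4 → ℂ} (hW : Sm W)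
    (a : C.I) (p : M) : C.Z a (fun q => rp (eI (om * ψ q) • W q)) p =
      rp (eI (om * ψ p) • C.DD om ψ a W p) := by
  have he := aosca_sm om hψ
  have h1 := dd_bilin (ContinuousLinearMap.lsmul ℝ ℂ : ℂ →L[ℝ] (Fin 4 → ℂ) →L[ℝ] (Fin 4 → ℂ))
    (he.df p) (hW.df p) (C.V a p)
  have h2 := dd_rp ((he.bilin
    (ContinuousLinearMap.lsmul ℝ ℂ : ℂ →L[ℝ] (Fin 4 → ℂ) →L[ℝ] (Fin 4 → ℂ)) hW).df p) (C.V a p)
  rw [h1, dd_comp_deriv (aosca_deriv om (ψ p)) (hψ.df p)] at h2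
  refine h2.trans (congrArg rp ?_)
  ext r
  simp only [DD, Z, Zv, ContinuousLinearMap.lsmul_apply, Pi.add_apply, Pi.smul_apply, smul_eq_mul,
    Complex.real_smul]
  push_cast
  ring

theorem Calc.LL_mode (C : Calc g) (F : M → Fin 4 → ℝ) (om : ℝ) {ψ : M → ℝ} (hψ : Sm ψ)
    {W : M → Fin 4 → ℂ} (hW : Sm W) (a b : C.I) (p : M) :
    C.LL F (fun q => rp (eI (om * ψ q) • W q)) a b p =
      (eI (om * ψ p) * C.LC F om ψ W a b p).re := by
  rw [LL, C.Z_mode om hψ hW, C.Z_mode om hψ hW, aosca_dot, aosca_dot, LC, mul_add, Complex.add_re]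

theorem Calc.eI_cl (hB : C.Base 𝓕 m lb μ F) (hK : C.Frame 𝓕 m lb F i ψ K) (hom : Freq 𝓕 μ om) :
    Cl C.V 𝓕 μ (fun _ => 1) fun t p => eI (om t * ψ t p) := by
  have H := hB.ctx'
  obtain ⟨c, hc⟩ := hom
  refine Cl.expI H (θ := fun t p => om t * ψ t p)
    (hK.sm.mono fun t ht => (sm_const _).mul' ht) fun a => ?_
  have h1 := Cl.cmul (c := om) (w' := fun t => |om t|) H
    (Cl.scale hB.ctx (hK.d1 a) (hB.le.mono fun t ht => ht.2.2)) (.of_forall fun _ => le_rfl)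
  refine Cl.weight H (Cl.congr H h1 ?_) c ?_
  · filter_upwards [hK.sm] with t ht
    funext p
    exact (dd_const_smul (om t) (ht.df p) _).symm
  · filter_upwards [hc] with t h3
    rw [mul_one]
    exact ⟨abs_nonneg _, h3.2⟩

theorem Calc.mode_cl (hB : C.Base 𝓕 m lb μ F) (hK : C.Frame 𝓕 m lb F i ψ K) (hom : Freq 𝓕 μ om)
    {W : τ → M → Fin 4 → ℂ} (hW : Cl C.V 𝓕 lb w W) :
    Cl C.V 𝓕 μ w fun t p => rp (eI (om t * ψ t p) • W t p) := by
  have H := hB.ctx'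
  have h1 := Cl.csmul H (Calc.eI_cl hB hK hom)
    (Cl.scale hB.ctx hW (hB.le.mono fun t ht => ht.2.2))
  simp only [one_mul] at h1
  exact Cl.rp H h1

theorem Calc.osc_solve (hB : C.Base 𝓕 m lb μ F) (hK : C.Frame 𝓕 m lb F i ψ K) (hom : Freq 𝓕 μ om)
    (N : ℕ) {f : τ → C.I → C.I → M → ℂ} (hf : C.TAmp 𝓕 lb w K f) :
    ∃ v : τ → M → Fin 4 → ℝ, Cl C.V 𝓕 μ (fun t => w t / m t) v ∧
      ∀ a b, Cl C.V 𝓕 μ (fun t => w t * (lb t / μ t) ^ N) fun t p =>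
        C.LL (F t) (v t) a b p - (eI (om t * ψ t p) * f t a b p).re := by
  have H := hB.ctx'
  obtain ⟨W, R, hW, hR, h⟩ := Calc.lin hB hK hom N (f := fun t u v => f t (i, u) (i, v))
    ⟨hf.nonneg, fun u v => hf.cl _ _, hf.symm.mono fun t ht u v p => ht _ _ p,
      hf.supp.mono fun t ht p hp u v => ht p hp _ _⟩
  refine ⟨_, Calc.mode_cl hB hK hom hW, fun a b => ?_⟩
  have h1 := Cl.mul H (Calc.eI_cl hB hK hom)
    (Cl.scale hB.ctx (Calc.push_cl hB.ctx i hR.cl a b) (hB.le.mono fun t ht => ht.2.2))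
  simp only [one_mul] at h1
  refine Cl.congr H (Cl.re H h1) ?_
  filter_upwards [h, hK.sm, hW.1, hK.closed, hf.tens, hf.supp] with t h2 h3 h4 h5 h6 h7
  funext p
  have e : f t a b p = C.push i (fun u v => f t (i, u) (i, v)) a b p := by
    by_cases hp : p ∈ K t
    · exact h6 i p (h5.2 hp) a b
    · simp only [Calc.push, h7 p hp, smul_zero, Finset.sum_const_zero]
  rw [C.LL_mode _ _ h3 h4, h2.2, e, ← Complex.sub_re, ← mul_sub]
  congr 2
  simp only [Calc.push, smul_add, Finset.sum_add_distrib, add_sub_cancel_left]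

theorem aoq_dot (e e' : ℂ) (y y' : Fin 4 → ℂ) : rp (e • y) ⬝ᵥ rp (e' • y') =
    1 / 2 * (e * e' * (y ⬝ᵥ y')).re + 1 / 2 * (e * (starRingEnd ℂ) e' * (y ⬝ᵥ cj y')).re := by
  simp only [dotProduct, rp, cj, Finset.mul_sum, Complex.re_sum, ← Finset.sum_add_distrib,
    Pi.smul_apply, smul_eq_mul]
  refine Finset.sum_congr rfl fun r _ => ?_
  simp only [Complex.mul_re, Complex.mul_im, Complex.conj_re, Complex.conj_im]
  ring

theorem aoq_swap (e e' : ℂ) (y y' : Fin 4 → ℂ) : (e * (starRingEnd ℂ) e' * (y' ⬝ᵥ cj y)).re =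
    (e' * (starRingEnd ℂ) e * (y ⬝ᵥ cj y')).re := by
  simp only [dotProduct, cj, Finset.mul_sum, Complex.re_sum]
  refine Finset.sum_congr rfl fun r _ => ?_
  simp only [Complex.mul_re, Complex.mul_im, Complex.conj_re, Complex.conj_im]
  ring

theorem aoq_add (a b : ℝ) : eI (a + 1 * b) = eI a * eI b := by
  rw [eI, eI, eI, ← Complex.exp_add, one_mul, Complex.ofReal_add, mul_add]

theorem aoq_sub (a b : ℝ) : eI (a + -1 * b) = eI a * (starRingEnd ℂ) (eI b) := by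
  rw [eI, eI, eI, ← Complex.exp_conj, ← Complex.exp_add, map_mul, Complex.conj_I,
    Complex.conj_ofReal]
  congr 1
  push_cast
  ring

theorem aoq_self (a : ℝ) : eI a * (starRingEnd ℂ) (eI a) = 1 := by
  rw [← aoq_sub, show a + -1 * a = 0 by ring, eI, Complex.ofReal_zero, mul_zero, Complex.exp_zero]

theorem quad_expand {S : Type} [Fintype S] [DecidableEq S] (θ : S → ℝ) (Y Y' : S → Fin 4 → ℂ) :
    (∑ s, rp (eI (θ s) • Y s)) ⬝ᵥ (∑ s, rp (eI (θ s) • Y' s)) =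
      1 / 2 * ∑ s, (Y s ⬝ᵥ cj (Y' s)).re +
      ∑ s, ∑ s', (eI (θ s + 1 * θ s') * ((1 / 4 : ℝ) • (Y s ⬝ᵥ Y' s' + Y' s ⬝ᵥ Y s'))).re +
      ∑ s, ∑ s' ∈ Finset.univ.erase s,
        (eI (θ s + -1 * θ s') * ((1 / 4 : ℝ) • (Y s ⬝ᵥ cj (Y' s') + Y' s ⬝ᵥ cj (Y s')))).re := by
  obtain ⟨A, hA⟩ : ∃ A : S → S → ℝ, ∀ s s', A s s' = (eI (θ s) * eI (θ s') * (Y s ⬝ᵥ Y' s')).re :=
    ⟨_, fun _ _ => rfl⟩
  obtain ⟨B, hB⟩ : ∃ B : S → S → ℝ, ∀ s s',
    B s s' = (eI (θ s) * (starRingEnd ℂ) (eI (θ s')) * (Y s ⬝ᵥ cj (Y' s'))).re :=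
    ⟨_, fun _ _ => rfl⟩
  have h1 : ∀ s s', (eI (θ s + 1 * θ s') * ((1 / 4 : ℝ) • (Y s ⬝ᵥ Y' s' + Y' s ⬝ᵥ Y s'))).re =
      1 / 4 * A s s' + 1 / 4 * A s' s := fun s s' => by
    rw [aoq_add, mul_smul_comm, Complex.smul_re, mul_add, Complex.add_re, hA, hA,
      dotProduct_comm (Y' s), mul_comm (eI (θ s')), smul_eq_mul, mul_add]
  have h2 : ∀ s s', (eI (θ s + -1 * θ s') *
      ((1 / 4 : ℝ) • (Y s ⬝ᵥ cj (Y' s') + Y' s ⬝ᵥ cj (Y s')))).re =
      1 / 4 * B s s' + 1 / 4 * B s' s := fun s s' => by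
    rw [aoq_sub, mul_smul_comm, Complex.smul_re, mul_add, Complex.add_re, hB, hB,
      aoq_swap _ _ (Y s'), smul_eq_mul, mul_add]
  have h3 : ∀ s, (Y s ⬝ᵥ cj (Y' s)).re = B s s := fun s => by rw [hB, aoq_self, one_mul]
  simp only [sum_dotProduct, dotProduct_sum, aoq_dot, h1, h2, h3, ← hA, ← hB,
    Finset.sum_erase_eq_sub (Finset.mem_univ _), Finset.sum_add_distrib, Finset.sum_sub_distrib,
    ← Finset.mul_sum]
  have hA' : ∑ s, ∑ s', A s' s = ∑ s, ∑ s', A s s' := Finset.sum_comm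
  have hB' : ∑ s, ∑ s', B s' s = ∑ s, ∑ s', B s s' := Finset.sum_comm
  linarith

end Crest.Agent.R216
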