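import Crest.Agent.R216.AKal2
import Crest.Agent.R216.AOsc
/-! # R216 (A): all modes together.

`pair_solve`: `s = s'`: `osc_solve` with `om = 2 om s`, phase `φ s`.  Otherwise `Modes.pair`: first case `om = om s`,
second case `om = ε om s'` (`ε² = 1`; `om ≠ 0` because `1 ≤ μ ≤ |om|`).
`round_core`: `W` from `kallen`, `Y s b = DD b (W s) = O(a)` (`Frame.DD_cl`), covariant (`cov_DD`), zero off `K s`;
`w₁ = ∑ s, rp (eI (om s φ s) • W s)`, `Z b w₁ = ∑ rp (eI • Y s b)` (`Z_mode`), `quad_expand` with `Y s b, Y s c`;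
`v⁺ s s'`, `v⁻ s s'` from `pair_solve` (weight `a²`), `w₂ = ∑∑ v⁺ + ∑∑ v⁻`, `w = w₁ - w₂`.  Then
`LL w + Zw ⬝ Zw - H = LL w₁ + (MM - H) - (LL w₂ - osc) - Zw₁ ⬝ Zw₂ - Zw₂ ⬝ Zw₁ + Zw₂ ⬝ Zw₂`, and
`a ≤ m/μ ≤ 1`, `Z w₂ = O(a² μ/m)`. -/

set_option autoImplicit false
set_option linter.unusedSectionVars false
set_option linter.unusedVariables false
open scoped Manifold ContDiff Topology Matrix
open Set Filter

namespace Crest.Agent.R216
universe u
variable {M : Type u} [TopologicalSpace M] [ChartedSpace E2 M] [IsManifold (𝓡 2) ∞ M]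
  [CompactSpace M]
variable {g : Met M} {C : Calc g} {τ : Type*} {𝓕 : Filter τ} {m lb μ w w' om : τ → ℝ}
  {F : τ → M → Fin 4 → ℝ} {i : Fin C.n} {ψ : τ → M → ℝ} {K : τ → Set M}

variable {S : Type} [Fintype S]

theorem Calc.pair_solve (hB : C.Base 𝓕 m lb μ F) (𝓜 : C.Modes 𝓕 m lb μ F S) (N : ℕ) (s s' : S)
    {ε : ℝ} (hε : ε = 1 ∨ (ε = -1 ∧ s ≠ s')) {f : τ → C.I → C.I → M → ℂ}
    (hf : C.TAmp 𝓕 lb w (𝓜.K s) f) (hf' : C.TAmp 𝓕 lb w (𝓜.K s') f) :
    ∃ v : τ → M → Fin 4 → ℝ, Cl C.V 𝓕 μ (fun t => w t / m t) v ∧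
      ∀ a b, Cl C.V 𝓕 μ (fun t => w t * (lb t / μ t) ^ N) fun t p =>
        C.LL (F t) (v t) a b p -
          (eI (𝓜.om s t * 𝓜.φ s p + ε * (𝓜.om s' t * 𝓜.φ s' p)) * f t a b p).re := by
  have HC := hB.ctx'
  have hne : ∀ s, ∀ᶠ t in 𝓕, 𝓜.om s t ≠ 0 := fun s => by
    obtain ⟨c, hc⟩ := 𝓜.freq s
    filter_upwards [hc, HC.one_le] with t h1 h2
    exact abs_pos.1 (by linarith [h1.1])
  by_cases hs : s = s'
  · subst hs
    have h1 : ε = 1 := hε.elim id fun h => absurd rfl h.2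
    subst h1
    have hfr : Freq 𝓕 μ fun t => 2 * 𝓜.om s t := by
      obtain ⟨c, hc⟩ := 𝓜.freq s
      refine ⟨2 * c, ?_⟩
      filter_upwards [hc, HC.one_le] with t h1 h2
      rw [abs_mul, abs_two]
      constructor <;> linarith [h1.1, h1.2]
    obtain ⟨v, h1, h2⟩ := Calc.osc_solve hB (𝓜.fr s) hfr N hf
    refine ⟨v, h1, fun a b => Cl.congr HC (h2 a b) (Eventually.of_forall fun t => ?_)⟩
    funext p
    congr 4
    ring
  · have hε' : ε = 1 ∨ ε = -1 := hε.imp id fun h => h.1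
    have hε2 : ε * ε = 1 := by rcases hε' with h | h <;> rw [h] <;> norm_num
    have hε3 : |ε| = 1 := by rcases hε' with h | h <;> rw [h] <;> norm_num
    rcases 𝓜.pair s s' hs ε hε' with h | h
    · obtain ⟨v, h1, h2⟩ := Calc.osc_solve hB h (𝓜.freq s) N hf
      refine ⟨v, h1, fun a b => Cl.congr HC (h2 a b) ?_⟩
      filter_upwards [hne s] with t ht
      funext p
      congr 4
      field_simp
    · have hfr : Freq 𝓕 μ fun t => ε * 𝓜.om s' t := by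
        obtain ⟨c, hc⟩ := 𝓜.freq s'
        refine ⟨c, ?_⟩
        filter_upwards [hc] with t h1
        rwa [abs_mul, hε3, one_mul]
      obtain ⟨v, h1, h2⟩ := Calc.osc_solve hB h hfr N hf'
      refine ⟨v, h1, fun a b => Cl.congr HC (h2 a b) ?_⟩
      filter_upwards [hne s'] with t ht
      funext p
      congr 4
      have e : ε * 𝓜.om s' t * (𝓜.φ s' p + ε * (𝓜.om s t / 𝓜.om s' t) * 𝓜.φ s p) =
          ε * ε * (𝓜.om s t * 𝓜.φ s p) + ε * (𝓜.om s' t * 𝓜.φ s' p) := by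
        field_simp
        ring
      rw [e, hε2, one_mul]

theorem Calc.core_Z_sum (C : Calc g) {α : Type*} (s : Finset α) {v : α → M → Fin 4 → ℝ}
    (h : ∀ j ∈ s, Sm (v j)) (b : C.I) (p : M) :
    C.Z b (fun q => ∑ j ∈ s, v j q) p = ∑ j ∈ s, C.Z b (v j) p :=
  dd_sum s (fun j hj => (h j hj).df p) _

theorem Calc.core_LL_sum (C : Calc g) (F : M → Fin 4 → ℝ) {α : Type*} (s : Finset α)
    {v : α → M → Fin 4 → ℝ} (h : ∀ j ∈ s, Sm (v j)) (b c : C.I) (p : M) :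
    C.LL F (fun q => ∑ j ∈ s, v j q) b c p = ∑ j ∈ s, C.LL F (v j) b c p := by
  simp only [Calc.LL, C.core_Z_sum s h, dotProduct_sum, Finset.sum_add_distrib]

theorem Calc.core_LL_add (C : Calc g) (F : M → Fin 4 → ℝ) {v v' : M → Fin 4 → ℝ} (h : Sm v)
    (h' : Sm v') (b c : C.I) (p : M) :
    C.LL F (fun q => v q + v' q) b c p = C.LL F v b c p + C.LL F v' b c p := by
  have e : ∀ a, C.Z a (fun q => v q + v' q) p = C.Z a v p + C.Z a v' p := fun a =>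
    dd_add (h.df p) (h'.df p) _
  simp only [Calc.LL, e, dotProduct_add]
  ring

theorem core_cj_zero : cj 0 = 0 := by
  funext r
  simp [cj]

theorem Calc.round_core (hB : C.Base 𝓕 m lb μ F) (𝓜 : C.Modes 𝓕 m lb μ F S) {a : τ → ℝ}
    {H : τ → C.I → C.I → M → ℝ} (hH : C.Target 𝓕 lb a H) (ha : ∀ᶠ t in 𝓕, a t * μ t ≤ m t)
    (N : ℕ) : ∃ w : τ → M → Fin 4 → ℝ, Cl C.V 𝓕 μ a w ∧
      (∀ b, Cl C.V 𝓕 μ a fun t => C.Z b (w t)) ∧
      ∀ b c, Cl C.V 𝓕 μ (fun t => a t * (lb t / μ t) ^ N + a t ^ 3 * (μ t / m t)) fun t p =>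
        C.LL (F t) (w t) b c p + C.Z b (w t) p ⬝ᵥ C.Z c (w t) p - H t b c p := by
  classical
  have HC := hB.ctx
  have HM := hB.ctx'
  have hn := kal2_num hB hH.pos
  have hlm : ∀ᶠ t in 𝓕, lb t ≤ μ t := hB.le.mono fun t h => h.2.2
  have hnum : ∀ᶠ t in 𝓕, 0 < a t ∧ 1 ≤ μ t ∧ 1 ≤ m t ∧ a t ≤ 1 ∧ 0 ≤ (lb t / μ t) ^ N ∧
      a t * (μ t / m t) ≤ 1 ∧ 0 ≤ μ t / m t := by
    filter_upwards [hn, hB.le, ha] with t h1 h2 h3
    have hm : 0 < m t := by linarith [h2.1]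
    refine ⟨h1.1, by linarith [h2.1, h2.2.1, h2.2.2], h2.1, ?_, pow_nonneg h1.2.2.1 _, ?_,
      div_nonneg h1.2.1.le hm.le⟩
    · by_contra h
      nlinarith [h2.1, h2.2.1, h2.2.2, h1.2.1]
    · rw [← mul_div_assoc, div_le_one hm]
      exact h3
  obtain ⟨W, hW, hLC, hMM, hW0⟩ := Calc.kallen hB 𝓜 hH N
  set Y : S → C.I → τ → M → Fin 4 → ℂ := fun s b t => C.DD (𝓜.om s t) (𝓜.φ s) b (W s t) with hY
  have hYc : ∀ s b, Cl C.V 𝓕 lb a (Y s b) := by
    intro s b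
    have h := Calc.Frame.DD_cl hB (𝓜.fr s) (𝓜.freq s) (w := fun t => a t / μ t)
      (by filter_upwards [hn] with t h using div_nonneg h.1.le h.2.1.le) (hW s) b
    refine Cl.weight HC h 1 ?_
    filter_upwards [hn] with t h
    rw [mul_div_cancel₀ _ h.2.1.ne']
    exact ⟨h.1.le, by linarith⟩
  have hY0 : ∀ s, ∀ᶠ t in 𝓕, ∀ p ∉ 𝓜.K s t, ∀ b, Y s b t p = 0 := by
    intro s
    filter_upwards [hW0 s, (𝓜.fr s).closed] with t h1 h2 p hp b
    exact C.DD_zero _ _ _ h2.1 h1 hp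
  have hYcov : ∀ s t, C.Cov fun b => Y s b t := fun s t => C.cov_DD _ _ _
  have hq : ∀ {f : τ → M → ℂ}, Cl C.V 𝓕 lb (fun t => a t * a t) f →
      Cl C.V 𝓕 lb (fun t => a t ^ 2) fun t p => (1 / 4 : ℝ) • f t p := by
    intro f hf
    refine Cl.weight HC (Cl.cmul HC (c := fun _ => 1 / 4) (w' := fun _ => 1) hf
      (Eventually.of_forall fun _ => by norm_num [abs_of_pos])) 1 ?_
    filter_upwards [hn] with t h
    exact ⟨by have := h.1; positivity, le_of_eq (by ring)⟩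
  set fp : S → S → τ → C.I → C.I → M → ℂ := fun s s' t b c p =>
    (1 / 4 : ℝ) • (Y s b t p ⬝ᵥ Y s' c t p + Y s c t p ⬝ᵥ Y s' b t p) with hfp
  set fm : S → S → τ → C.I → C.I → M → ℂ := fun s s' t b c p =>
    (1 / 4 : ℝ) • (Y s b t p ⬝ᵥ cj (Y s' c t p) + Y s c t p ⬝ᵥ cj (Y s' b t p)) with hfm
  have hTp : ∀ s s' s'', s'' = s ∨ s'' = s' → C.TAmp 𝓕 lb (fun t => a t ^ 2) (𝓜.K s'') (fp s s') := by
    intro s s' s'' hs
    refine ⟨Eventually.of_forall fun t => sq_nonneg _, fun b c => hq (Cl.add HC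
      (Cl.dot HC (hYc s b) (hYc s' c)) (Cl.dot HC (hYc s c) (hYc s' b))),
      Eventually.of_forall fun t => ?_, Eventually.of_forall fun t b c p => ?_, ?_⟩
    · have h := (hYcov s t).dotC (hYcov s' t)
      exact (h.add h.swap).smul fun _ => 1 / 4
    · simp only [hfp]
      rw [add_comm]
    · filter_upwards [hY0 s''] with t ht p hp b c
      rcases hs with rfl | rfl <;> simp [hfp, ht p hp]
  have hTm : ∀ s s' s'', s'' = s ∨ s'' = s' → C.TAmp 𝓕 lb (fun t => a t ^ 2) (𝓜.K s'') (fm s s') := by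
    intro s s' s'' hs
    refine ⟨Eventually.of_forall fun t => sq_nonneg _, fun b c => hq (Cl.add HC
      (Cl.dot HC (hYc s b) (Cl.cj HC (hYc s' c))) (Cl.dot HC (hYc s c) (Cl.cj HC (hYc s' b)))),
      Eventually.of_forall fun t => ?_, Eventually.of_forall fun t b c p => ?_, ?_⟩
    · have h := (hYcov s t).dotC (hYcov s' t).cj
      exact (h.add h.swap).smul fun _ => 1 / 4
    · simp only [hfm]
      rw [add_comm]
    · filter_upwards [hY0 s''] with t ht p hp b c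
      rcases hs with rfl | rfl <;> simp [hfm, ht p hp, core_cj_zero]
  choose vp hvp hvp' using fun s s' => Calc.pair_solve hB 𝓜 N s s' (ε := 1) (Or.inl rfl)
    (hTp s s' s (Or.inl rfl)) (hTp s s' s' (Or.inr rfl))
  have hm : ∀ s s', ∃ v : τ → M → Fin 4 → ℝ, Cl C.V 𝓕 μ (fun t => a t ^ 2 / m t) v ∧ (s' ≠ s →
      ∀ b c, Cl C.V 𝓕 μ (fun t => a t ^ 2 * (lb t / μ t) ^ N) fun t p =>
        C.LL (F t) (v t) b c p -
          (eI (𝓜.om s t * 𝓜.φ s p + -1 * (𝓜.om s' t * 𝓜.φ s' p)) * fm s s' t b c p).re) := by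
    intro s s'
    by_cases hs : s' = s
    · exact ⟨fun _ _ => 0, Cl.zero HM, fun h => absurd hs h⟩
    · obtain ⟨v, h1, h2⟩ := Calc.pair_solve hB 𝓜 N s s' (ε := -1) (Or.inr ⟨rfl, Ne.symm hs⟩)
        (hTm s s' s (Or.inl rfl)) (hTm s s' s' (Or.inr rfl))
      exact ⟨v, h1, fun _ => h2⟩
  choose vm hvm hvm' using hm
  set w₁ : τ → M → Fin 4 → ℝ := fun t p => ∑ s, rp (eI (𝓜.om s t * 𝓜.φ s p) • W s t p) with hw₁
  set w₂ : τ → M → Fin 4 → ℝ := fun t p =>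
    ∑ s, ∑ s', vp s s' t p + ∑ s, ∑ s' ∈ Finset.univ.erase s, vm s s' t p with hw₂
  have hmode : ∀ s, Cl C.V 𝓕 μ (fun t => a t / μ t) fun t p =>
      rp (eI (𝓜.om s t * 𝓜.φ s p) • W s t p) := fun s =>
    Calc.mode_cl hB (𝓜.fr s) (𝓜.freq s) (hW s)
  have h1c : Cl C.V 𝓕 μ (fun t => a t / μ t) w₁ := Cl.sum HM _ fun s _ => hmode s
  have h2p : ∀ s, Cl C.V 𝓕 μ (fun t => a t ^ 2 / m t) fun t p => ∑ s', vp s s' t p := fun s =>
    Cl.sum HM _ fun s' _ => hvp s s'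
  have h2m : ∀ s, Cl C.V 𝓕 μ (fun t => a t ^ 2 / m t) fun t p =>
      ∑ s' ∈ Finset.univ.erase s, vm s s' t p := fun s => Cl.sum HM _ fun s' _ => hvm s s'
  have h2p' := Cl.sum HM Finset.univ fun s _ => h2p s
  have h2m' := Cl.sum HM Finset.univ fun s _ => h2m s
  have h2c : Cl C.V 𝓕 μ (fun t => a t ^ 2 / m t) w₂ := Cl.add HM h2p' h2m'
  have hZ1 : ∀ b, Cl C.V 𝓕 μ a fun t => C.Z b (w₁ t) := by
    intro b
    refine Cl.weight HM (Cl.zv HM h1c b) 1 ?_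
    filter_upwards [hn] with t h
    rw [mul_div_cancel₀ _ h.2.1.ne']
    exact ⟨h.1.le, by linarith⟩
  have hZ2 : ∀ b, Cl C.V 𝓕 μ (fun t => a t ^ 2 * (μ t / m t)) fun t => C.Z b (w₂ t) := by
    intro b
    refine Cl.weight HM (Cl.zv HM h2c b) 1 ?_
    filter_upwards [hnum] with t h
    have e : μ t * (a t ^ 2 / m t) = a t ^ 2 * (μ t / m t) := by ring
    rw [e]
    exact ⟨mul_nonneg (sq_nonneg _) h.2.2.2.2.2.2, by linarith⟩
  have hZ : ∀ᶠ t in 𝓕, ∀ b p, C.Z b (fun q => w₁ t q - w₂ t q) p =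
      C.Z b (w₁ t) p - C.Z b (w₂ t) p := by
    filter_upwards [h1c.1, h2c.1] with t h1 h2 b p
    exact dd_sub (h1.df p) (h2.df p) _
  refine ⟨fun t p => w₁ t p - w₂ t p, Cl.sub HM (Cl.weight HM h1c 1 ?_) (Cl.weight HM h2c 1 ?_),
    fun b => ?_, fun b c => ?_⟩
  · filter_upwards [hnum] with t h
    refine ⟨div_nonneg h.1.le (by linarith [h.2.1]), ?_⟩
    rw [one_mul]
    exact div_le_self h.1.le h.2.1
  · filter_upwards [hnum] with t h
    refine ⟨div_nonneg (sq_nonneg _) (by linarith [h.2.2.1]), ?_⟩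
    refine (div_le_self (sq_nonneg _) h.2.2.1).trans ?_
    nlinarith [h.1, h.2.2.2.1]
  · refine Cl.congr HM (Cl.sub HM (hZ1 b) (Cl.weight HM (hZ2 b) 1 ?_)) ?_
    · filter_upwards [hnum] with t h
      refine ⟨mul_nonneg (sq_nonneg _) h.2.2.2.2.2.2, ?_⟩
      nlinarith [h.1, h.2.2.2.2.2.1]
    · filter_upwards [hZ] with t ht
      funext p
      rw [ht]
  · set ww : τ → ℝ := fun t => a t * (lb t / μ t) ^ N + a t ^ 3 * (μ t / m t) with hww
    have wA : ∀ {f : τ → M → ℝ}, Cl C.V 𝓕 μ (fun t => a t * (lb t / μ t) ^ N) f →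
        Cl C.V 𝓕 μ ww f := fun hf => by
      refine Cl.weight HM hf 1 ?_
      filter_upwards [hnum] with t h
      refine ⟨mul_nonneg h.1.le h.2.2.2.2.1, ?_⟩
      have := mul_nonneg (pow_nonneg h.1.le 3) h.2.2.2.2.2.2
      simp only [hww]
      linarith
    have wB : ∀ {f : τ → M → ℝ}, Cl C.V 𝓕 μ (fun t => a t ^ 2 * (lb t / μ t) ^ N) f →
        Cl C.V 𝓕 μ ww f := fun hf => by
      refine wA (Cl.weight HM hf 1 ?_)
      filter_upwards [hnum] with t h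
      refine ⟨mul_nonneg (sq_nonneg _) h.2.2.2.2.1, ?_⟩
      rw [one_mul]
      exact mul_le_mul_of_nonneg_right (by nlinarith [h.1, h.2.2.2.1]) h.2.2.2.2.1
    have wC : ∀ {f : τ → M → ℝ}, Cl C.V 𝓕 μ (fun t => a t ^ 3 * (μ t / m t)) f →
        Cl C.V 𝓕 μ ww f := fun hf => by
      refine Cl.weight HM hf 1 ?_
      filter_upwards [hnum] with t h
      refine ⟨mul_nonneg (pow_nonneg h.1.le 3) h.2.2.2.2.2.2, ?_⟩
      have := mul_nonneg h.1.le h.2.2.2.2.1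
      simp only [hww]
      linarith
    have t1 : Cl C.V 𝓕 μ ww fun t p => ∑ s, (eI (𝓜.om s t * 𝓜.φ s p) *
        C.LC (F t) (𝓜.om s t) (𝓜.φ s) (W s t) b c p).re := by
      refine Cl.sum HM _ fun s _ => wA (Cl.re HM (Cl.weight HM (Cl.mul HM
        (Calc.eI_cl hB (𝓜.fr s) (𝓜.freq s)) (Cl.scale HC (hLC s b c) hlm)) 1 ?_))
      filter_upwards [hnum] with t h
      rw [one_mul]
      exact ⟨mul_nonneg h.1.le h.2.2.2.2.1, le_rfl⟩
    have t2 := wB (Cl.scale HC (hMM b c) hlm)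
    have t3 := Cl.sum HM Finset.univ fun s _ => Cl.sum HM Finset.univ fun s' _ => wB (hvp' s s' b c)
    have t4 := Cl.sum HM Finset.univ fun s _ => Cl.sum HM (Finset.univ.erase s) fun s' hs' =>
      wB (hvm' s s' (Finset.ne_of_mem_erase hs') b c)
    have t5 := wC (Cl.weight HM (Cl.dot HM (hZ1 b) (hZ2 c)) 1 (by
      filter_upwards [hnum] with t h
      exact ⟨mul_nonneg h.1.le (mul_nonneg (sq_nonneg _) h.2.2.2.2.2.2), le_of_eq (by ring)⟩))
    have t6 := wC (Cl.weight HM (Cl.dot HM (hZ2 b) (hZ1 c)) 1 (by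
      filter_upwards [hnum] with t h
      exact ⟨mul_nonneg (mul_nonneg (sq_nonneg _) h.2.2.2.2.2.2) h.1.le, le_of_eq (by ring)⟩))
    have t7 := wC (Cl.weight HM (Cl.dot HM (hZ2 b) (hZ2 c)) 1 (by
      filter_upwards [hnum] with t h
      refine ⟨mul_self_nonneg _, ?_⟩
      have e : a t ^ 2 * (μ t / m t) * (a t ^ 2 * (μ t / m t)) =
          a t ^ 3 * (μ t / m t) * (a t * (μ t / m t)) := by ring
      rw [e, one_mul]
      exact mul_le_of_le_one_right (mul_nonneg (pow_nonneg h.1.le 3) h.2.2.2.2.2.2) h.2.2.2.2.2.1))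
    refine Cl.congr HM (Cl.add HM (Cl.sub HM (Cl.sub HM (Cl.sub HM (Cl.sub HM (Cl.add HM t1 t2) t3)
      t4) t5) t6) t7) ?_
    filter_upwards [hZ, eventually_all.2 fun s => (𝓜.fr s).sm, eventually_all.2 fun s => (hW s).1,
      eventually_all.2 fun s => (hmode s).1, eventually_all.2 fun s => (h2p s).1,
      eventually_all.2 fun s => (h2m s).1, h2p'.1, h2m'.1,
      eventually_all.2 fun s => eventually_all.2 fun s' => (hvp s s').1,
      eventually_all.2 fun s => eventually_all.2 fun s' => (hvm s s').1]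
      with t hZ' s1 s2 s3 s4 s5 s6 s7 s8 s9
    funext p
    have e1 : ∀ b, C.Z b (w₁ t) p = ∑ s, rp (eI (𝓜.om s t * 𝓜.φ s p) • Y s b t p) := fun b => by
      simp only [hw₁]
      rw [C.core_Z_sum _ fun s _ => s3 s]
      exact Finset.sum_congr rfl fun s _ => C.Z_mode _ (s1 s) (s2 s) b p
    have e2 : C.LL (F t) (w₁ t) b c p = ∑ s, (eI (𝓜.om s t * 𝓜.φ s p) *
        C.LC (F t) (𝓜.om s t) (𝓜.φ s) (W s t) b c p).re := by
      simp only [hw₁]
      rw [C.core_LL_sum _ _ fun s _ => s3 s]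
      exact Finset.sum_congr rfl fun s _ => C.LL_mode _ _ (s1 s) (s2 s) b c p
    have e3 : C.LL (F t) (w₂ t) b c p = ∑ s, ∑ s', C.LL (F t) (vp s s' t) b c p +
        ∑ s, ∑ s' ∈ Finset.univ.erase s, C.LL (F t) (vm s s' t) b c p := by
      simp only [hw₂]
      rw [C.core_LL_add _ s6 s7, C.core_LL_sum _ _ fun s _ => s4 s,
        C.core_LL_sum _ _ fun s _ => s5 s]
      congr 1
      · exact Finset.sum_congr rfl fun s _ => C.core_LL_sum _ _ (fun s' _ => s8 s s') b c p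
      · exact Finset.sum_congr rfl fun s _ => C.core_LL_sum _ _ (fun s' _ => s9 s s') b c p
    have e4 := quad_expand (fun s => 𝓜.om s t * 𝓜.φ s p) (fun s => Y s b t p) fun s => Y s c t p
    rw [← e1 b, ← e1 c] at e4
    have e5 : C.LL (F t) (fun q => w₁ t q - w₂ t q) b c p =
        C.LL (F t) (w₁ t) b c p - C.LL (F t) (w₂ t) b c p := by
      simp only [Calc.LL, hZ', dotProduct_sub]
      ring
    rw [e5, hZ', hZ', e2, e3, sub_dotProduct, dotProduct_sub, dotProduct_sub, e4]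
    simp only [Finset.sum_sub_distrib, Calc.MM, hfp, hfm, hY]
    ring

end Crest.Agent.R216
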