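import Crest.Agent.R216.ClL
/-! # R216 (A): definitions for the perturbation theorem.  FROZEN (helper51).

Plan (notes216/R216.md §A, with an *incremental* Källén iteration):
`AClK` finite order classes, `AJet1/2` jet algebra, `ATens` tensoriality, `ALin1/2` linear WKB solver,
`AOsc` real form, `AKal` mean part, `ACore` all modes, `AModes` the modes exist, `ASm`/`ATarget`
smoothing, `ARoundC`/`ARound` one round, `AIter` iteration, `AStart` start, `Pert` the theorem. -/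

set_option autoImplicit false
open scoped Manifold ContDiff Topology Matrix
open Set Filter

namespace Crest.Agent.R216
universe u

/-! ### jets -/

def d3 (a b c : Fin 4 → ℝ) (i j k : Fin 4) : ℝ :=
  a i * (b j * c k - b k * c j) - a j * (b i * c k - b k * c i) + a k * (b i * c j - b j * c i)

/-- the cross product of three vectors of `ℝ⁴` -/
def cr (a b c : Fin 4 → ℝ) : Fin 4 → ℝ :=
  ![d3 a b c 1 2 3, -d3 a b c 0 2 3, d3 a b c 0 1 3, -d3 a b c 0 1 2]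

/-- first derivatives `P u` and (normalised, symmetrised) second derivatives `H u v` -/
abbrev Jt := (Fin 2 → Fin 4 → ℝ) × (Fin 2 → Fin 2 → Fin 4 → ℝ)

/-- the direction killed by the covector `ξ` -/
def perp (ξ : Fin 2 → ℝ) : Fin 2 → ℝ := ![-ξ 1, ξ 0]

/-- `H(T,T)`, `T = perp ξ` -/
def HT (J : Jt) (ξ : Fin 2 → ℝ) : Fin 4 → ℝ := ∑ u, ∑ v, (perp ξ u * perp ξ v) • J.2 u v

/-- the Gram determinant of `P 0, P 1, H(T,T)` -/
def DJ (J : Jt) (ξ : Fin 2 → ℝ) : ℝ := cr (J.1 0) (J.1 1) (HT J ξ) ⬝ᵥ cr (J.1 0) (J.1 1) (HT J ξ)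

def idm (u v : Fin 2) : ℝ := if u = v then 1 else 0

/-- the first derivatives are almost orthonormal -/
def GOK (J : Jt) : Prop := ∀ u v, |J.1 u ⬝ᵥ J.1 v - idm u v| ≤ 1 / 20

/-- the nine slopes, in three triples -/
noncomputable def sl : Fin 3 → Fin 3 → ℝ := ![![-2, 0, 2], ![-3, 1 / 10, 3], ![-4, -1 / 10, 4]]

noncomputable def xi (T j : Fin 3) : Fin 2 → ℝ := ![1, sl T j]

/-- the linear functional with coefficients `ℓ` -/
def lf (ℓ : Fin 2 → Fin 2 → ℝ) (H : Fin 2 → Fin 2 → ℝ) : ℝ := ∑ u, ∑ v, ℓ u v * H u v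

/-- a nonzero second fundamental form has at most two null directions (quantitative form) -/
def Eta (B c η s : ℝ) : Prop :=
  ∀ (J : Jt) (n : Fin 4 → ℝ) (u : Fin 2), ‖J‖ ≤ B → GOK J → ‖n‖ ≤ 1 → (∀ v, |n ⬝ᵥ J.1 v| ≤ s) →
    c ≤ |n ⬝ᵥ J.2 u u| → ∃ T, ∀ j, 2 * η ≤ DJ J (xi T j)

/-- complexification -/
def cx (v : Fin 4 → ℝ) : Fin 4 → ℂ := fun r => (v r : ℂ)

/-- real part -/
def rp (v : Fin 4 → ℂ) : Fin 4 → ℝ := fun r => (v r).re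

/-- complex conjugate -/
def cj (v : Fin 4 → ℂ) : Fin 4 → ℂ := fun r => (starRingEnd ℂ) (v r)

/-- `exp (i θ)` -/
noncomputable def eI (θ : ℝ) : ℂ := Complex.exp (Complex.I * θ)

/-- the frequency `om` is comparable to `μ` -/
def Freq {τ : Type*} (𝓕 : Filter τ) (μ om : τ → ℝ) : Prop :=
  ∃ c : ℝ, ∀ᶠ t in 𝓕, μ t ≤ |om t| ∧ |om t| ≤ c * μ t

section Basic
variable {M : Type u} [TopologicalSpace M] [ChartedSpace E2 M]

/-- finite order version of `Cl` -/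
def ClK {ι : Type} (V : ι → M → E2) {τ : Type*} (𝓕 : Filter τ) (k : ℕ) (lam wt : τ → ℝ)
    {F : Type} [NormedAddCommGroup F] [NormedSpace ℝ F] (f : τ → M → F) : Prop :=
  ∃ c : ℝ, ∀ᶠ t in 𝓕, Sm (f t) ∧ Bd V k (lam t) (f t) (c * wt t)

end Basic

variable {M : Type u} [TopologicalSpace M] [ChartedSpace E2 M] [IsManifold (𝓡 2) ∞ M]

namespace Calc
variable {g : Met M} (C : Calc g)

/-- indices of the fields -/
abbrev I : Type := Fin C.n × Fin 2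

/-- components of the field `a` in the chart `i` -/
noncomputable def cc (i : Fin C.n) (a : C.I) (u : Fin 2) (p : M) : ℝ := C.Z a (C.x i u) p

/-- `y a` is linear in the field `a` -/
def Cov {E : Type} [AddCommGroup E] [Module ℝ E] (y : C.I → M → E) : Prop :=
  ∀ i, ∀ p ∈ C.O i, ∀ a, y a p = ∑ u, C.cc i a u p • y (i, u) p

/-- the tensor with components `f` in the chart `i` -/
noncomputable def push {E : Type} [AddCommGroup E] [Module ℝ E] (i : Fin C.n)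
    (f : Fin 2 → Fin 2 → M → E) (a b : C.I) (p : M) : E :=
  ∑ u, ∑ v, (C.cc i a u p * C.cc i b v p) • f u v p

/-- `f a b` is bilinear in the fields `a, b` -/
def Tens {E : Type} [AddCommGroup E] [Module ℝ E] (f : C.I → C.I → M → E) : Prop :=
  ∀ i, ∀ p ∈ C.O i, ∀ a b, f a b p = C.push i (fun u v => f (i, u) (i, v)) a b p

/-- `Z a (e^{i om ψ} W) = e^{i om ψ} DD om ψ a W` -/
noncomputable def DD (om : ℝ) (ψ : M → ℝ) (a : C.I) (W : M → Fin 4 → ℂ) (p : M) : Fin 4 → ℂ :=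
  C.Z a W p + (Complex.I * ((om * C.Z a ψ p : ℝ) : ℂ)) • W p

/-- the linearised metric operator on amplitudes -/
noncomputable def LC (F : M → Fin 4 → ℝ) (om : ℝ) (ψ : M → ℝ) (W : M → Fin 4 → ℂ) (a b : C.I)
    (p : M) : ℂ :=
  cx (C.Z a F p) ⬝ᵥ C.DD om ψ b W p + cx (C.Z b F p) ⬝ᵥ C.DD om ψ a W p

/-- the linearised metric operator -/
noncomputable def LL (F w : M → Fin 4 → ℝ) (a b : C.I) (p : M) : ℝ :=
  C.Z a F p ⬝ᵥ C.Z b w p + C.Z b F p ⬝ᵥ C.Z a w p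

/-- the metric defect -/
noncomputable def hh (F : M → Fin 4 → ℝ) (a b : C.I) (p : M) : ℝ :=
  C.G a b p - C.Z a F p ⬝ᵥ C.Z b F p

/-- the normalised `2`-jet in the chart `i` -/
noncomputable def jet (i : Fin C.n) (m : ℝ) (F : M → Fin 4 → ℝ) (p : M) : Jt :=
  (fun u => C.Z (i, u) F p,
    fun u v => (2 * m)⁻¹ • (C.Z (i, u) (C.Z (i, v) F) p + C.Z (i, v) (C.Z (i, u) F) p))

/-- the covector `dψ` in the chart `i` -/
noncomputable def cv (i : Fin C.n) (ψ : M → ℝ) (p : M) : Fin 2 → ℝ := fun u => C.Z (i, u) ψ p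

/-- mean part of the quadratic term (polarised) -/
noncomputable def MM {S : Type} [Fintype S] (om : S → ℝ) (φ : S → M → ℝ) (W W' : S → M → Fin 4 → ℂ)
    (a b : C.I) (p : M) : ℝ :=
  1 / 2 * ∑ s, (C.DD (om s) (φ s) a (W s) p ⬝ᵥ cj (C.DD (om s) (φ s) b (W' s) p)).re

variable {τ : Type*} (𝓕 : Filter τ)

/-- the smoothed background `F`: geometry at scale `1/m`, all derivatives at scale `1/lb`; the modes
will have frequency `≥ μ` -/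
structure Base (m lb μ : τ → ℝ) (F : τ → M → Fin 4 → ℝ) : Prop where
  le : ∀ᶠ t in 𝓕, 1 ≤ m t ∧ m t ≤ lb t ∧ lb t ≤ μ t
  sm : ∀ᶠ t in 𝓕, Sm (F t)
  d1 : ∀ a, Cl C.V 𝓕 lb (fun _ => 1) fun t => C.Z a (F t)
  d2 : ∀ a b, Cl C.V 𝓕 lb m fun t => C.Z a (C.Z b (F t))

/-- the phase `ψ` is non-characteristic on the closed set `K` of the chart `i` -/
structure Frame (m lb : τ → ℝ) (F : τ → M → Fin 4 → ℝ) (i : Fin C.n) (ψ : τ → M → ℝ)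
    (K : τ → Set M) : Prop where
  closed : ∀ᶠ t in 𝓕, IsClosed (K t) ∧ K t ⊆ C.O i
  sm : ∀ᶠ t in 𝓕, Sm (ψ t)
  d1 : ∀ a, Cl C.V 𝓕 lb (fun _ => 1) fun t => C.Z a (ψ t)
  good : ∃ η > 0, ∀ᶠ t in 𝓕, ∀ p ∈ K t, GOK (C.jet i (m t) (F t) p) ∧
    η ≤ DJ (C.jet i (m t) (F t) p) (C.cv i (ψ t) p) ∧ 1 / 2 ≤ C.cv i (ψ t) p ⬝ᵥ C.cv i (ψ t) p

/-- symmetric amplitudes in a chart, vanishing off `K` -/
structure Amp (lb w : τ → ℝ) (K : τ → Set M) (f : τ → Fin 2 → Fin 2 → M → ℂ) : Prop where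
  nonneg : ∀ᶠ t in 𝓕, 0 ≤ w t
  cl : ∀ u v, Cl C.V 𝓕 lb w fun t => f t u v
  symm : ∀ᶠ t in 𝓕, ∀ u v p, f t u v p = f t v u p
  supp : ∀ᶠ t in 𝓕, ∀ p ∉ K t, ∀ u v, f t u v p = 0

/-- symmetric tensorial amplitudes vanishing off `K` -/
structure TAmp (lb w : τ → ℝ) (K : τ → Set M) (f : τ → C.I → C.I → M → ℂ) : Prop where
  nonneg : ∀ᶠ t in 𝓕, 0 ≤ w t
  cl : ∀ a b, Cl C.V 𝓕 lb w fun t => f t a b
  tens : ∀ᶠ t in 𝓕, C.Tens (f t)
  symm : ∀ᶠ t in 𝓕, ∀ a b p, f t a b p = f t b a p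
  supp : ∀ᶠ t in 𝓕, ∀ p ∉ K t, ∀ a b, f t a b p = 0

/-- the unit normal in which the free mode with phase `ψ` oscillates -/
structure Nu (m lb : τ → ℝ) (F : τ → M → Fin 4 → ℝ) (i : Fin C.n) (ψ : τ → M → ℝ)
    (K : τ → Set M) (ν : τ → M → Fin 4 → ℝ) : Prop where
  cl : Cl C.V 𝓕 lb (fun _ => 1) ν
  orth : ∀ᶠ t in 𝓕, ∀ p ∈ K t, (∀ u, C.Z (i, u) (F t) p ⬝ᵥ ν t p = 0) ∧
    HT (C.jet i (m t) (F t) p) (C.cv i (ψ t) p) ⬝ᵥ ν t p = 0 ∧ ν t p ⬝ᵥ ν t p = 1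

/-- a finite system of modes which decomposes every symmetric tensor into squares of phases -/
structure Modes (m lb μ : τ → ℝ) (F : τ → M → Fin 4 → ℝ) (S : Type) [Fintype S] where
  ch : S → Fin C.n
  φ : S → M → ℝ
  om : S → τ → ℝ
  K : S → τ → Set M
  α : S → τ → M → ℝ
  ℓ : S → Fin 2 → Fin 2 → ℝ
  fr : ∀ s, C.Frame 𝓕 m lb F (ch s) (fun _ => φ s) (K s)
  freq : ∀ s, Freq 𝓕 μ (om s)
  pair : ∀ s s', s ≠ s' → ∀ ε : ℝ, ε = 1 ∨ ε = -1 →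
    C.Frame 𝓕 m lb F (ch s) (fun t p => φ s p + ε * (om s' t / om s t) * φ s' p) (K s) ∨
    C.Frame 𝓕 m lb F (ch s') (fun t p => φ s' p + ε * (om s t / om s' t) * φ s p) (K s')
  α_cl : ∀ s, Cl C.V 𝓕 lb (fun _ => 1) (α s)
  α_supp : ∀ s, ∀ᶠ t in 𝓕, ∀ p ∉ K s t, α s t p = 0
  pos : ∀ s (H : Fin 2 → Fin 2 → ℝ), (∀ u v, |H u v - idm u v| ≤ 1 / 20) → 1 / 200 ≤ lf (ℓ s) H
  dec : ∀ᶠ t in 𝓕, ∀ r : C.I → C.I → M → ℝ, C.Tens r → (∀ a b p, r a b p = r b a p) →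
    ∀ a b p, r a b p = ∑ s, α s t p ^ 2 * lf (ℓ s) (fun u v => r (ch s, u) (ch s, v) p) *
      (C.Z a (φ s) p * C.Z b (φ s) p)

/-- the tensor `H ≈ a² g` that the modes have to add -/
structure Target (lb a : τ → ℝ) (H : τ → C.I → C.I → M → ℝ) : Prop where
  pos : ∀ᶠ t in 𝓕, 0 < a t
  tens : ∀ᶠ t in 𝓕, C.Tens (H t) ∧ ∀ b c p, H t b c p = H t c b p
  cl : ∀ b c, Cl C.V 𝓕 lb (fun t => a t ^ 2) fun t => H t b c
  near : ∀ᶠ t in 𝓕, ∀ i, ∀ p ∈ C.O i, ∀ u v,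
    |H t (i, u) (i, v) p - a t ^ 2 * idm u v| ≤ a t ^ 2 / 20

/-- the starting map of the iteration -/
structure Pre (B c s m : ℝ) (F₀ : M → Fin 4 → ℝ) : Prop where
  one_le : 1 ≤ m
  sm : Sm F₀
  n1 : Bd C.V 1 1 F₀ (B - 1)
  n2 : ∀ a b p, ‖C.Z a (C.Z b F₀) p‖ ≤ (B - 1) * m
  geo : C.Geo F₀ m (3 * c / 4) (s / 4)

/-- state of the iteration: scale `m T⁸`, defect `≈ a² g`, bounds of order `k` with the constant `B`
and of order `k'` with the constant `X` -/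
structure St (B e m : ℝ) (F₀ : M → Fin 4 → ℝ) (k k' : ℕ) (a T X : ℝ) (F : M → Fin 4 → ℝ) : Prop where
  sm : Sm F
  n1 : Bd C.V 1 1 (fun p => F p - F₀ p) (e - 2 / T ^ 8)
  n2 : ∀ b c p, ‖C.Z b (C.Z c fun p => F p - F₀ p) p‖ ≤ m * (e - 2 / T ^ 8)
  fK : ∀ b c, Bd C.V k (m * T ^ 8) (C.Z b (C.Z c F)) (B * m)
  fP : ∀ b c, Bd C.V k' (m * T ^ 8) (C.Z b (C.Z c F)) (X * m)
  h0 : ∀ b c p, |C.hh F b c p - a ^ 2 * C.G b c p| ≤ a ^ 2 / 100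
  hK : ∀ b c, Bd C.V k (m * T ^ 8) (C.hh F b c) (B * a ^ 2)
  hP : ∀ b c, Bd C.V k' (m * T ^ 8) (C.hh F b c) (X * a ^ 2)

/-- the constants of the iteration -/
structure Cst (B c η s e : ℝ) : Prop where
  B2 : 2 ≤ B
  GB : ∀ a b p, |C.G a b p| + 1 ≤ B / 2
  c0 : 0 < c
  η0 : 0 < η
  s0 : 0 < s
  eta : Eta (B + 1) (c / 4) η s
  e0 : 0 < e
  e1 : e ≤ 1
  ec : 16 * e ≤ c
  es : 16 * e ≤ s

end Calc

/-- order of the bounds at level `β` -/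
def Kb (β : ℕ) : ℕ := 12 * β + 28

/-- one round at level `β` works above the threshold `T₀` -/
def Calc.RoundP {g : Met M} (C : Calc g) (B c s e : ℝ) (β : ℕ) (T₀ : ℝ) : Prop :=
  ∀ (m : ℝ) (F₀ : M → Fin 4 → ℝ) (T X : ℝ) (F : M → Fin 4 → ℝ) (T' : ℝ) (β' : ℕ),
    C.Pre B c s m F₀ → T₀ ≤ T → B ≤ X →
    C.St B e m F₀ (Kb β) (Kb (β + 1)) (T⁻¹ ^ (8 * β)) T X F → 0 < T' → T' ^ 8 = T ^ 10 →
    (β' = β ∨ β' = β + 1) →
    ∃ F' : M → Fin 4 → ℝ,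
      C.St B e m F₀ (Kb β) (Kb (β + 1)) (T'⁻¹ ^ (8 * β')) T' (max B (X / 2)) F' ∧
      ∀ j : ℕ, 10 * j + 16 ≤ 8 * β → Bd C.V (j + 1) 1 (fun p => F' p - F p) (m ^ j / T ^ 8)

end Crest.Agent.R216
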