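import Crest.Agent.R216.ARound
/-! # R216 (A): the iteration.

`raise`: `T' = T ^ (5/4 : ℝ)` has `T'⁸ = T¹⁰` and `2 T ≤ T'` for `T ≥ 16`.  By induction on `q`: there are `T_q ≥ 2^q T`,
`F_q` in the state of level `β` with `X_q ≤ max B (X/2^q)`, `B ≤ X_q`, and increments `≤ 2 m^j/T⁸ - 2 m^j/T_q⁸`
(`1/T⁸ ≤ 2/T⁸ - 2/T'⁸`).  For `q` large `X_q = B` and `T_q ≥ T₁`; one more round with `β' = β + 1` gives the bounds of
order `Kb (β+1)` with `max B (B/2) = B`; the constant `X''` of order `Kb (β+2)` exists by `Bd.of_compact`.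
`iterate`: choose thresholds `T₀ β`, recursively `(T_n, X_n, F_n)` at level `10 + n` with `T_n ≥ 2^n`; `Calc.complete` for the
components of `F_(n+1) - F_n` (for fixed `j` the bound `2 m^j/T_n⁸` holds for large `n`; for the finitely many other `n`
use `Bd.of_compact`); `G = F_0 + ∑'`, `Z a F_n p → Z a G p`, `|hh F_n| ≤ B a_n² → 0`. -/

set_option autoImplicit false
set_option linter.unusedSectionVars false
set_option linter.unusedVariables false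
open scoped Manifold ContDiff Topology Matrix
open Set Filter

namespace Crest.Agent.R216
universe u
variable {M : Type u} [TopologicalSpace M] [ChartedSpace E2 M] [IsManifold (𝓡 2) ∞ M]
  [CompactSpace M]

variable {g : Met M} {C : Calc g} {B c η s e : ℝ}

theorem aitera_T {T : ℝ} (hT : 16 ≤ T) : ∃ T' : ℝ, 2 * T ≤ T' ∧ T' ^ 8 = T ^ 10 := by
  have h0 : 0 ≤ T := by linarith
  have h1 : (T ^ (5 / 4 : ℝ)) ^ 8 = T ^ 10 := by
    rw [← Real.rpow_natCast, ← Real.rpow_mul h0, ← Real.rpow_natCast]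
    norm_num
  refine ⟨_, (pow_le_pow_iff_left₀ (by linarith) (Real.rpow_nonneg h0 _) (by norm_num : 8 ≠ 0)).1 ?_, h1⟩
  rw [h1]
  have h2 : 256 ≤ T ^ 2 := by nlinarith
  calc (2 * T) ^ 8 = 256 * T ^ 8 := by ring
    _ ≤ T ^ 2 * T ^ 8 := by gcongr
    _ = T ^ 10 := by ring

theorem aitera_step {β : ℕ} {T₀ : ℝ} (hT₀ : 16 ≤ T₀) (hR : C.RoundP B c s e β T₀)
    {m T X : ℝ} {F₀ F G : M → Fin 4 → ℝ} (hP : C.Pre B c s m F₀) (hT : T₀ ≤ T) (hX : B ≤ X)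
    (hS : C.St B e m F₀ (Kb β) (Kb (β + 1)) (T⁻¹ ^ (8 * β)) T X F) (hG : Sm G) {A : ℕ → ℝ}
    (hA : ∀ j : ℕ, 10 * j + 16 ≤ 8 * β → Bd C.V (j + 1) 1 (fun p => F p - G p) (A j - 2 * m ^ j / T ^ 8))
    {β' : ℕ} (hβ : β' = β ∨ β' = β + 1) :
    ∃ (T' : ℝ) (F' : M → Fin 4 → ℝ), 2 * T ≤ T' ∧
      C.St B e m F₀ (Kb β) (Kb (β + 1)) (T'⁻¹ ^ (8 * β')) T' (max B (X / 2)) F' ∧
      ∀ j : ℕ, 10 * j + 16 ≤ 8 * β →
        Bd C.V (j + 1) 1 (fun p => F' p - G p) (A j - 2 * m ^ j / T' ^ 8) := by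
  have hT16 : 16 ≤ T := hT₀.trans hT
  obtain ⟨T', h1, h2⟩ := aitera_T hT16
  obtain ⟨F', hS', hb⟩ := hR m F₀ T X F T' β' hP hT hX hS (by linarith) h2 hβ
  refine ⟨T', F', h1, hS', fun j hj => ?_⟩
  have h3 := Bd.add C.V_sm (hS'.sm.sub' hS.sm) (hS.sm.sub' hG) (hb j hj) (hA j hj)
  simp only [sub_add_sub_cancel] at h3
  refine h3.mono zero_le_one ?_
  have hm : 0 < m ^ j := pow_pos (by linarith [hP.one_le]) j
  have h4 : 2 * m ^ j / T' ^ 8 ≤ m ^ j / T ^ 8 := by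
    have h5 : 2 ≤ T ^ 2 := by nlinarith
    have h6 : 0 < T := by linarith
    rw [h2, div_le_div_iff₀ (by positivity) (by positivity)]
    calc 2 * m ^ j * T ^ 8 ≤ T ^ 2 * m ^ j * T ^ 8 := by gcongr
      _ = m ^ j * T ^ 10 := by ring
  have h7 : 2 * m ^ j / T ^ 8 = 2 * (m ^ j / T ^ 8) := by ring
  linarith

theorem Calc.raise (hB : 2 ≤ B) {β : ℕ} {T₀ : ℝ} (hT₀ : 16 ≤ T₀) (hR : C.RoundP B c s e β T₀)
    {m T X : ℝ} {F₀ F : M → Fin 4 → ℝ} (hP : C.Pre B c s m F₀) (hT : T₀ ≤ T) (hX : B ≤ X)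
    (hS : C.St B e m F₀ (Kb β) (Kb (β + 1)) (T⁻¹ ^ (8 * β)) T X F) (T₁ : ℝ) :
    ∃ (T' X' : ℝ) (F' : M → Fin 4 → ℝ), T₁ ≤ T' ∧ 2 * T ≤ T' ∧ B ≤ X' ∧
      C.St B e m F₀ (Kb (β + 1)) (Kb (β + 1 + 1)) (T'⁻¹ ^ (8 * (β + 1))) T' X' F' ∧
      ∀ j : ℕ, 10 * j + 16 ≤ 8 * β →
        Bd C.V (j + 1) 1 (fun p => F' p - F p) (2 * m ^ j / T ^ 8) := by
  have hT16 : 16 ≤ T := hT₀.trans hT
  have hm := hP.one_le
  have key : ∀ q : ℕ, ∃ (T' X' : ℝ) (F' : M → Fin 4 → ℝ), 2 ^ q * T ≤ T' ∧ B ≤ X' ∧ X' ≤ max B (X / 2 ^ q) ∧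
      C.St B e m F₀ (Kb β) (Kb (β + 1)) (T'⁻¹ ^ (8 * β)) T' X' F' ∧
      ∀ j : ℕ, 10 * j + 16 ≤ 8 * β →
        Bd C.V (j + 1) 1 (fun p => F' p - F p) (2 * m ^ j / T ^ 8 - 2 * m ^ j / T' ^ 8) := by
    intro q
    induction q with
    | zero =>
      refine ⟨T, X, F, by simp, hX, by simp, hS, fun j _ => ?_⟩
      simpa using Bd.const (V := C.V) (M := M) (j + 1) zero_le_one (0 : Fin 4 → ℝ)
    | succ q ih =>
      obtain ⟨T', X', F', h1, h2, h3, h4, h5⟩ := ih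
      have h6 : (1 : ℝ) ≤ 2 ^ q := one_le_pow₀ one_le_two
      obtain ⟨T'', F'', h7, h8, h9⟩ := aitera_step hT₀ hR hP (by nlinarith) h2 h4 hS.sm h5 (.inl rfl)
      refine ⟨T'', _, F'', by rw [pow_succ]; linarith, le_max_left _ _, max_le (le_max_left _ _) ?_, h8, h9⟩
      rcases le_max_iff.1 h3 with h | h
      · exact le_max_of_le_left (by linarith)
      · refine le_max_of_le_right ?_
        rw [pow_succ, ← div_div]
        linarith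
  obtain ⟨q, hq⟩ := pow_unbounded_of_one_lt (max X T₁) (one_lt_two (α := ℝ))
  obtain ⟨T', X', F', h1, h2, h3, h4, h5⟩ := key q
  have h6 : (1 : ℝ) ≤ 2 ^ q := one_le_pow₀ one_le_two
  have h7 : X / 2 ^ q ≤ B := by
    rw [div_le_iff₀ (by positivity)]
    nlinarith [le_max_left X T₁]
  have hTT : T ≤ T' := by nlinarith
  have hT1 : T₁ ≤ T' := by nlinarith [le_max_right X T₁]
  obtain ⟨T'', F'', h8, h9, h10⟩ := aitera_step hT₀ hR hP (hT.trans hTT) h2 h4 hS.sm h5 (.inr rfl)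
  rw [max_eq_left h7] at h3
  rw [max_eq_left (by linarith)] at h9
  have hT2 : 1 ≤ T'' := by linarith
  have hl : 1 ≤ m * T'' ^ 8 := one_le_mul_of_one_le_of_one_le hm (one_le_pow₀ hT2)
  choose c1 hc1 using fun ab : C.I × C.I =>
    Bd.of_compact C.V_sm (((h9.sm.zv (C.V_sm ab.2))).zv (C.V_sm ab.1)) (Kb (β + 1 + 1))
  choose c2 hc2 using fun ab : C.I × C.I =>
    Bd.of_compact C.V_sm (C.hh_sm h9.sm ab.1 ab.2) (Kb (β + 1 + 1))
  obtain ⟨D1, -, hD1, hD1'⟩ := cll_bound c1 B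
  have ha : 0 < (T''⁻¹ ^ (8 * (β + 1))) ^ 2 := by positivity
  obtain ⟨D, hD0, hD, hD'⟩ := cll_bound (fun ab => c2 ab / (T''⁻¹ ^ (8 * (β + 1))) ^ 2) D1
  refine ⟨T'', D, F'', by linarith, by linarith, hD1.trans hD,
    ⟨h9.sm, h9.n1, h9.n2, h9.fP, fun b b' => ?_, h9.h0, h9.hP, fun b b' => ?_⟩, fun j hj => ?_⟩
  · refine ((hc1 (b, b')).mono zero_le_one ?_).mono_l zero_le_one hl
    nlinarith [hD1' (b, b')]
  · exact ((hc2 (b, b')).mono zero_le_one ((div_le_iff₀ ha).1 (hD' (b, b')))).mono_l zero_le_one hl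
  · exact (h10 j hj).mono zero_le_one (sub_le_self _ (by positivity))

theorem aiterb_seq {α : Type*} (P : ℕ → α → Prop) (Q : ℕ → α → α → Prop) (z₀ : α) (h0 : P 0 z₀)
    (step : ∀ n z, P n z → ∃ z', P (n + 1) z' ∧ Q n z z') :
    ∃ z : ℕ → α, ∀ n, P n (z n) ∧ Q n (z n) (z (n + 1)) := by
  choose f hf using step
  let u : (n : ℕ) → {z // P n z} := fun n =>
    Nat.rec ⟨z₀, h0⟩ (fun n z => ⟨f n z.1 z.2, (hf n z.1 z.2).1⟩) n
  exact ⟨fun n => (u n).1, fun n => ⟨(u n).2, (hf n (u n).1 (u n).2).2⟩⟩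

theorem aiterb_lim (F : ℕ → M → Fin 4 → ℝ) (hF : ∀ n, Sm (F n))
    (hb : ∀ j : ℕ, ∃ (K : ℝ) (N : ℕ), ∀ n, N ≤ n →
      Bd C.V j 1 (fun p => F (n + 1) p - F n p) (K * (1 / 2) ^ n)) :
    ∃ G : M → Fin 4 → ℝ, Sm G ∧
      ∀ a p, Tendsto (fun n => C.Z a (F n) p) atTop (𝓝 (C.Z a G p)) := by
  have hw : ∀ k, Sm fun p => F (k + 1) p - F k p := fun k => (hF (k + 1)).sub' (hF k)
  have hs : ∀ j : ℕ, ∃ c : ℕ → ℝ, Summable c ∧
      ∀ k, Bd C.V j 1 (fun p => F (k + 1) p - F k p) (c k) := by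
    intro j
    obtain ⟨K, N, hK⟩ := hb j
    choose d hd using fun k => Bd.of_compact C.V_sm (hw k) j
    refine ⟨fun k => if k < N then d k else K * (1 / 2) ^ k, ?_, fun k => ?_⟩
    · rw [← summable_nat_add_iff N]
      have h1 : Summable fun k : ℕ => K * (1 / 2 : ℝ) ^ (k + N) :=
        (summable_nat_add_iff N).2 (summable_geometric_two.mul_left K)
      refine h1.congr fun k => ?_
      rw [if_neg (by omega)]
    · by_cases hk : k < N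
      · simp only [if_pos hk]; exact hd k
      · simp only [if_neg hk]; exact hK k (by omega)
  have hcomp : ∀ i : Fin 4, Sm (fun p => ∑' k, (F (k + 1) p - F k p) i) ∧
      ∀ a p, HasSum (fun k => Zv (C.V a) (fun p => (F (k + 1) p - F k p) i) p)
        (Zv (C.V a) (fun p => ∑' k, (F (k + 1) p - F k p) i) p) := by
    intro i
    refine C.complete (fun k p => (F (k + 1) p - F k p) i) (fun k => sm_pi.1 (hw k) i) fun j => ?_
    obtain ⟨c, hc, h⟩ := hs j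
    exact ⟨c, hc, fun k => Bd.apply C.V_sm (hw k) (h k) i⟩
  have hS : Sm fun p => fun i : Fin 4 => ∑' k, (F (k + 1) p - F k p) i :=
    sm_pi.2 fun i => (hcomp i).1
  refine ⟨fun p => F 0 p + fun i : Fin 4 => ∑' k, (F (k + 1) p - F k p) i, (hF 0).add' hS,
    fun a p => ?_⟩
  rw [tendsto_pi_nhds]
  intro i
  have e1 : C.Z a (fun p => F 0 p + fun i : Fin 4 => ∑' k, (F (k + 1) p - F k p) i) p i =
      C.Z a (F 0) p i + Zv (C.V a) (fun p => ∑' k, (F (k + 1) p - F k p) i) p := by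
    unfold Calc.Z Zv
    rw [dd_add ((hF 0).df p) (hS.df p), Pi.add_apply, dd_apply (hS.df p)]
  have e2 : ∀ k, Zv (C.V a) (fun p => (F (k + 1) p - F k p) i) p =
      C.Z a (F (k + 1)) p i - C.Z a (F k) p i := by
    intro k
    unfold Calc.Z Zv
    rw [← dd_apply ((hw k).df p), dd_sub ((hF (k + 1)).df p) ((hF k).df p), Pi.sub_apply]
  have e3 : ∀ n, C.Z a (F n) p i = C.Z a (F 0) p i +
      ∑ k ∈ Finset.range n, Zv (C.V a) (fun p => (F (k + 1) p - F k p) i) p := by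
    intro n
    simp only [e2]
    rw [Finset.sum_range_sub (fun k => C.Z a (F k) p i)]
    ring
  rw [e1]
  exact (((hcomp i).2 a p).tendsto_sum_nat.const_add _).congr fun n => (e3 n).symm

theorem Calc.iterate (hC : C.Cst B c η s e) : ∃ T₀ : ℝ, ∀ (m T X : ℝ) (F₀ F : M → Fin 4 → ℝ),
    C.Pre B c s m F₀ → T₀ ≤ T → B ≤ X → C.St B e m F₀ (Kb 10) (Kb 11) (T⁻¹ ^ 80) T X F →
    ∃ G : M → Fin 4 → ℝ, Sm G ∧ ∀ a b p, C.hh G a b p = 0 := by
  have hr : ∀ n : ℕ, ∃ T₀ : ℝ, 16 ≤ T₀ ∧ C.RoundP B c s e (10 + n) T₀ :=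
    fun n => Calc.round hC (by omega)
  choose τ hτ hR using hr
  refine ⟨τ 0, fun m T X F₀ F hP hT hX hS => ?_⟩
  obtain ⟨z, hz⟩ := aiterb_seq (α := ℝ × ℝ × (M → Fin 4 → ℝ))
    (fun n z => τ n ≤ z.1 ∧ 2 ^ n ≤ z.1 ∧ B ≤ z.2.1 ∧
      C.St B e m F₀ (Kb (10 + n)) (Kb (10 + n + 1)) (z.1⁻¹ ^ (8 * (10 + n))) z.1 z.2.1 z.2.2)
    (fun n z z' => ∀ j : ℕ, 10 * j + 16 ≤ 8 * (10 + n) →
      Bd C.V (j + 1) 1 (fun p => z'.2.2 p - z.2.2 p) (2 * m ^ j / z.1 ^ 8))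
    (T, X, F) ⟨hT, by have := hτ 0; simp only [pow_zero]; linarith, hX, hS⟩ (by
      rintro n ⟨T1, X1, F1⟩ ⟨h1, h2, h3, h4⟩
      obtain ⟨T', X', F', k1, k2, k3, k4, k5⟩ :=
        Calc.raise hC.B2 (hτ n) (hR n) hP h1 h3 h4 (τ (n + 1))
      refine ⟨(T', X', F'), ⟨k1, ?_, k3, k4⟩, k5⟩
      simp only at h2 ⊢
      rw [pow_succ]; linarith)
  have hm : 0 ≤ m := le_trans zero_le_one hP.one_le
  have hT1 : ∀ n, (1 : ℝ) ≤ (z n).1 := fun n => le_trans (by linarith [hτ n]) (hz n).1.1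
  have hinv : ∀ n, ((z n).1)⁻¹ ≤ (1 / 2 : ℝ) ^ n := by
    intro n
    rw [one_div, inv_pow]
    exact inv_anti₀ (by positivity) (hz n).1.2.1
  have hinv0 : ∀ n, 0 ≤ ((z n).1)⁻¹ := fun n => inv_nonneg.2 (by linarith [hT1 n])
  have hinv1 : ∀ n, ((z n).1)⁻¹ ≤ 1 := fun n => inv_le_one_of_one_le₀ (hT1 n)
  have hpow : ∀ n k : ℕ, k ≠ 0 → ((z n).1)⁻¹ ^ k ≤ (1 / 2 : ℝ) ^ n := fun n k hk =>
    le_trans (pow_le_of_le_one (hinv0 n) (hinv1 n) hk) (hinv n)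
  obtain ⟨G, hG, hlim⟩ := aiterb_lim (C := C) (fun n => (z n).2.2) (fun n => (hz n).1.2.2.2.sm)
    (fun j => ⟨2 * m ^ j, 2 * j, fun n hn => by
      refine (((hz n).2 j (by omega)).mono_k (Nat.le_succ j)).mono zero_le_one ?_
      rw [div_eq_mul_inv, ← inv_pow]
      exact mul_le_mul_of_nonneg_left (hpow n 8 (by norm_num)) (by positivity)⟩)
  refine ⟨G, hG, fun a b p => ?_⟩
  have l1 : Tendsto (fun n => C.hh (z n).2.2 a b p) atTop (𝓝 (C.hh G a b p)) := by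
    unfold Calc.hh
    refine tendsto_const_nhds.sub ?_
    unfold dotProduct
    exact tendsto_finsetSum _ fun i _ =>
      (tendsto_pi_nhds.1 (hlim a p) i).mul (tendsto_pi_nhds.1 (hlim b p) i)
  have l2 : Tendsto (fun n => C.hh (z n).2.2 a b p) atTop (𝓝 0) := by
    have h0 : Tendsto (fun n : ℕ => B * (1 / 2 : ℝ) ^ n) atTop (𝓝 0) := by
      simpa using (tendsto_pow_atTop_nhds_zero_of_lt_one (r := (1 / 2 : ℝ)) (by norm_num)
        (by norm_num)).const_mul B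
    refine squeeze_zero_norm (fun n => ?_) h0
    refine le_trans (((hz n).1.2.2.2.hK a b).sup p) ?_
    refine mul_le_mul_of_nonneg_left ?_ (by linarith [hC.B2])
    rw [← pow_mul]
    exact hpow n _ (by omega)
  exact tendsto_nhds_unique l1 l2

end Crest.Agent.R216
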