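import Crest.Agent.R216.ADefs
/-! # R216 (A): jet algebra I, globally smooth frames.

`exists_inv`: `φ t = Real.smoothTransition (2 t / c - 1) * t⁻¹` (smooth near `t < c/2` because it vanishes there),
likewise for `√`.  `ν = ψ(D) • cr P0 P1 HT` with `ψ = 1/√`; `nn = ± (φ(D)/2) • cr P0 P1 (cr P0 P1 HT)`
(`HT ⬝ cr P0 P1 ν = ∓ ν ⬝ ν`, by `simp [cr, d3, dotProduct, Fin.sum_univ_four]; ring`);
`Q 0 = φ(det) • (g11 P0 - g01 P1)`, `Q 1 = φ(det) • (g00 P1 - g01 P0)`, `det = g00 g11 - g01² ≥ 1/2`.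
Smoothness: `contDiff_pi`, `fin_cases`, `fun_prop`. -/

set_option autoImplicit false
set_option linter.unusedSectionVars false
set_option linter.unusedVariables false
open scoped Manifold ContDiff Topology Matrix
open Set Filter

namespace Crest.Agent.R216

theorem jet1_cut {c : ℝ} (hc : 0 < c) {f : ℝ → ℝ} (hf : ∀ t, 0 < t → ContDiffAt ℝ ∞ f t) :
    ∃ φ : ℝ → ℝ, ContDiff ℝ ∞ φ ∧ ∀ t, c ≤ t → φ t = f t := by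
  refine ⟨fun t => Real.smoothTransition (2 * t / c - 1) * f t, contDiff_iff_contDiffAt.2 fun t => ?_,
    fun t ht => ?_⟩
  · by_cases ht : 0 < t
    · refine ContDiffAt.mul ?_ (hf t ht)
      exact (Real.smoothTransition.contDiff.comp (by fun_prop)).contDiffAt
    · refine (contDiffAt_const (c := (0 : ℝ))).congr_of_eventuallyEq ?_
      filter_upwards [Iio_mem_nhds (show t < c / 2 by linarith [not_lt.1 ht])] with x hx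
      rw [Real.smoothTransition.zero_of_nonpos, zero_mul]
      rw [sub_nonpos, div_le_one hc]
      linarith [mem_Iio.1 hx]
  · simp only
    rw [Real.smoothTransition.one_of_one_le, one_mul]
    rw [le_sub_iff_add_le, le_div_iff₀ hc]
    linarith

theorem exists_inv {c : ℝ} (hc : 0 < c) :
    ∃ φ : ℝ → ℝ, ContDiff ℝ ∞ φ ∧ ∀ t, c ≤ t → φ t = t⁻¹ :=
  jet1_cut hc fun t ht => contDiffAt_inv ℝ ht.ne'

theorem exists_sqrt {c : ℝ} (hc : 0 < c) : ∃ φ ψ : ℝ → ℝ, ContDiff ℝ ∞ φ ∧ ContDiff ℝ ∞ ψ ∧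
    ∀ t, c ≤ t → φ t ^ 2 = t ∧ φ t * ψ t = 1 := by
  obtain ⟨φ, h1, h2⟩ := jet1_cut hc (f := fun t => √t) fun t ht => Real.contDiffAt_sqrt ht.ne'
  obtain ⟨ψ, h3, h4⟩ := jet1_cut hc (f := fun t => (√t)⁻¹) fun t ht =>
    (Real.contDiffAt_sqrt ht.ne').inv (Real.sqrt_pos.2 ht).ne'
  refine ⟨φ, ψ, h1, h3, fun t ht => ?_⟩
  rw [h2 t ht, h4 t ht]
  exact ⟨Real.sq_sqrt (by linarith), mul_inv_cancel₀ (Real.sqrt_pos.2 (by linarith)).ne'⟩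

theorem dot_cr_left (a b c : Fin 4 → ℝ) : a ⬝ᵥ cr a b c = 0 := by
  simp [cr, d3, dotProduct, Fin.sum_univ_four]
  ring
theorem dot_cr_mid (a b c : Fin 4 → ℝ) : b ⬝ᵥ cr a b c = 0 := by
  simp [cr, d3, dotProduct, Fin.sum_univ_four]
  ring
theorem dot_cr_right (a b c : Fin 4 → ℝ) : c ⬝ᵥ cr a b c = 0 := by
  simp [cr, d3, dotProduct, Fin.sum_univ_four]
  ring

theorem jet1_binet (a b c n : Fin 4 → ℝ) : cr a b c ⬝ᵥ cr a b n =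
    (a ⬝ᵥ a * (b ⬝ᵥ b) - (a ⬝ᵥ b) ^ 2) * (n ⬝ᵥ c) -
      (a ⬝ᵥ a * (b ⬝ᵥ c) - a ⬝ᵥ b * (a ⬝ᵥ c)) * (n ⬝ᵥ b) +
      (a ⬝ᵥ b * (b ⬝ᵥ c) - b ⬝ᵥ b * (a ⬝ᵥ c)) * (n ⬝ᵥ a) := by
  simp [cr, d3, dotProduct, Fin.sum_univ_four]
  ring

/-- Binet–Cauchy, for `n` orthogonal to `a` and `b` -/
theorem cr_dot_cr (a b c n : Fin 4 → ℝ) (ha : n ⬝ᵥ a = 0) (hb : n ⬝ᵥ b = 0) :
    cr a b c ⬝ᵥ cr a b n = (a ⬝ᵥ a * (b ⬝ᵥ b) - (a ⬝ᵥ b) ^ 2) * (n ⬝ᵥ c) := by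
  rw [jet1_binet, ha, hb]
  ring

theorem jet1_dot_cr (a b c n : Fin 4 → ℝ) : c ⬝ᵥ cr a b n = -(n ⬝ᵥ cr a b c) := by
  simp [cr, d3, dotProduct, Fin.sum_univ_four]
  ring

theorem jet1_cr {E : Type} [NormedAddCommGroup E] [NormedSpace ℝ E] {a b c : E → Fin 4 → ℝ}
    (ha : ContDiff ℝ ∞ a) (hb : ContDiff ℝ ∞ b) (hc : ContDiff ℝ ∞ c) :
    ContDiff ℝ ∞ fun z => cr (a z) (b z) (c z) := by
  have ha' := contDiff_pi.1 ha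
  have hb' := contDiff_pi.1 hb
  have hc' := contDiff_pi.1 hc
  have h : ∀ i j k, ContDiff ℝ ∞ fun z => d3 (a z) (b z) (c z) i j k := fun i j k =>
    (((ha' i).mul (((hb' j).mul (hc' k)).sub ((hb' k).mul (hc' j)))).sub
      ((ha' j).mul (((hb' i).mul (hc' k)).sub ((hb' k).mul (hc' i))))).add
      ((ha' k).mul (((hb' i).mul (hc' j)).sub ((hb' j).mul (hc' i))))
  refine contDiff_pi.2 fun r => ?_
  fin_cases r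
  exacts [h 1 2 3, (h 0 2 3).neg, h 0 1 3, (h 0 1 2).neg]

theorem jet1_dot {E : Type} [NormedAddCommGroup E] [NormedSpace ℝ E] {a b : E → Fin 4 → ℝ}
    (ha : ContDiff ℝ ∞ a) (hb : ContDiff ℝ ∞ b) : ContDiff ℝ ∞ fun z => a z ⬝ᵥ b z :=
  ContDiff.sum fun r _ => (contDiff_pi.1 ha r).mul (contDiff_pi.1 hb r)

theorem contDiff_HT : ContDiff ℝ ∞ fun z : Jt × (Fin 2 → ℝ) => HT z.1 z.2 := by
  have h : ∀ u, ContDiff ℝ ∞ fun z : Jt × (Fin 2 → ℝ) => perp z.2 u := fun u => by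
    fin_cases u
    · show ContDiff ℝ ∞ fun z : Jt × (Fin 2 → ℝ) => -z.2 1
      fun_prop
    · show ContDiff ℝ ∞ fun z : Jt × (Fin 2 → ℝ) => z.2 0
      fun_prop
  exact ContDiff.sum fun u _ => ContDiff.sum fun v _ => ((h u).mul (h v)).smul (by fun_prop)

theorem contDiff_crJ :
    ContDiff ℝ ∞ fun z : Jt × (Fin 2 → ℝ) => cr (z.1.1 0) (z.1.1 1) (HT z.1 z.2) :=
  jet1_cr (by fun_prop) (by fun_prop) contDiff_HT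

theorem contDiff_DJ : ContDiff ℝ ∞ fun z : Jt × (Fin 2 → ℝ) => DJ z.1 z.2 :=
  jet1_dot contDiff_crJ contDiff_crJ

theorem exists_nu {η : ℝ} (hη : 0 < η) : ∃ ν : Jt × (Fin 2 → ℝ) → Fin 4 → ℝ, ContDiff ℝ ∞ ν ∧
    ∀ J ξ, η ≤ DJ J ξ → (∀ u, J.1 u ⬝ᵥ ν (J, ξ) = 0) ∧ HT J ξ ⬝ᵥ ν (J, ξ) = 0 ∧
      ν (J, ξ) ⬝ᵥ ν (J, ξ) = 1 := by
  obtain ⟨φ, ψ, -, hψ, h⟩ := exists_sqrt hη
  refine ⟨fun z => ψ (DJ z.1 z.2) • cr (z.1.1 0) (z.1.1 1) (HT z.1 z.2),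
    (hψ.comp contDiff_DJ).smul contDiff_crJ, fun J ξ hJ => ⟨fun u => ?_, ?_, ?_⟩⟩
  · fin_cases u
    · simp [dot_cr_left]
    · simp [dot_cr_mid]
  · simp [dot_cr_right]
  · obtain ⟨h1, h2⟩ := h _ hJ
    simp only [smul_dotProduct, dotProduct_smul, smul_eq_mul]
    change ψ (DJ J ξ) * (ψ (DJ J ξ) * DJ J ξ) = 1
    calc ψ (DJ J ξ) * (ψ (DJ J ξ) * DJ J ξ) = ψ (DJ J ξ) * (ψ (DJ J ξ) * φ (DJ J ξ) ^ 2) := by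
          rw [h1]
      _ = (φ (DJ J ξ) * ψ (DJ J ξ)) ^ 2 := by ring
      _ = 1 := by rw [h2, one_pow]

theorem exists_nn {η : ℝ} (hη : 0 < η) : ∃ nn : Jt × (Fin 2 → ℝ) → Fin 4 → ℝ, ContDiff ℝ ∞ nn ∧
    ∀ J ξ, η ≤ DJ J ξ → (∀ u, J.1 u ⬝ᵥ nn (J, ξ) = 0) ∧ HT J ξ ⬝ᵥ nn (J, ξ) = -1 / 2 := by
  obtain ⟨φ, hφ, h⟩ := exists_inv hη
  refine ⟨fun z => (φ (DJ z.1 z.2) / 2) •
      cr (z.1.1 0) (z.1.1 1) (cr (z.1.1 0) (z.1.1 1) (HT z.1 z.2)),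
    ((hφ.comp contDiff_DJ).div_const 2).smul (jet1_cr (by fun_prop) (by fun_prop) contDiff_crJ),
    fun J ξ hJ => ⟨fun u => ?_, ?_⟩⟩
  · fin_cases u
    · simp [dot_cr_left]
    · simp [dot_cr_mid]
  · simp only [dotProduct_smul, smul_eq_mul]
    rw [jet1_dot_cr, h _ hJ]
    change (DJ J ξ)⁻¹ / 2 * -DJ J ξ = -1 / 2
    have : DJ J ξ ≠ 0 := by linarith
    field_simp

theorem exists_dual : ∃ Q : Jt → Fin 2 → Fin 4 → ℝ, ContDiff ℝ ∞ Q ∧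
    ∀ J, GOK J → ∀ u v, J.1 u ⬝ᵥ Q J v = idm u v := by
  obtain ⟨φ, hφ, h⟩ := exists_inv (c := 1 / 2) (by norm_num)
  have hg : ∀ u v, ContDiff ℝ ∞ fun J : Jt => J.1 u ⬝ᵥ J.1 v := fun u v =>
    jet1_dot (by fun_prop) (by fun_prop)
  have hd : ContDiff ℝ ∞ fun J : Jt =>
      φ (J.1 0 ⬝ᵥ J.1 0 * (J.1 1 ⬝ᵥ J.1 1) - J.1 0 ⬝ᵥ J.1 1 * (J.1 0 ⬝ᵥ J.1 1)) :=
    hφ.comp (((hg 0 0).mul (hg 1 1)).sub ((hg 0 1).mul (hg 0 1)))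
  refine ⟨fun J => ![φ (J.1 0 ⬝ᵥ J.1 0 * (J.1 1 ⬝ᵥ J.1 1) - J.1 0 ⬝ᵥ J.1 1 * (J.1 0 ⬝ᵥ J.1 1)) •
        ((J.1 1 ⬝ᵥ J.1 1) • J.1 0 - (J.1 0 ⬝ᵥ J.1 1) • J.1 1),
      φ (J.1 0 ⬝ᵥ J.1 0 * (J.1 1 ⬝ᵥ J.1 1) - J.1 0 ⬝ᵥ J.1 1 * (J.1 0 ⬝ᵥ J.1 1)) •
        ((J.1 0 ⬝ᵥ J.1 0) • J.1 1 - (J.1 0 ⬝ᵥ J.1 1) • J.1 0)], contDiff_pi.2 fun v => ?_,
    fun J hJ u v => ?_⟩
  · fin_cases v
    · exact hd.smul (((hg 1 1).smul (by fun_prop)).sub ((hg 0 1).smul (by fun_prop)))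
    · exact hd.smul (((hg 0 0).smul (by fun_prop)).sub ((hg 0 1).smul (by fun_prop)))
  · have h00 := abs_le.1 (hJ 0 0)
    have h01 := abs_le.1 (hJ 0 1)
    have h11 := abs_le.1 (hJ 1 1)
    simp only [idm, if_true, Fin.zero_ne_one, if_false] at h00 h01 h11
    have hdet : 1 / 2 ≤ J.1 0 ⬝ᵥ J.1 0 * (J.1 1 ⬝ᵥ J.1 1) - J.1 0 ⬝ᵥ J.1 1 * (J.1 0 ⬝ᵥ J.1 1) := by
      nlinarith [h00.1, h01.1, h01.2, h11.1]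
    have h10 : J.1 1 ⬝ᵥ J.1 0 = J.1 0 ⬝ᵥ J.1 1 := dotProduct_comm _ _
    have hne : J.1 0 ⬝ᵥ J.1 0 * (J.1 1 ⬝ᵥ J.1 1) - J.1 0 ⬝ᵥ J.1 1 * (J.1 0 ⬝ᵥ J.1 1) ≠ 0 := by
      linarith
    have hi := inv_mul_cancel₀ hne
    simp only [h _ hdet]
    fin_cases u <;> fin_cases v <;>
      simp only [idm, Fin.zero_eta, Fin.mk_one, Fin.isValue, Matrix.cons_val_zero, Matrix.cons_val_one,
        Matrix.cons_val_fin_one, dotProduct_smul, dotProduct_sub, smul_eq_mul, h10, if_true,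
        Fin.zero_ne_one, if_false, one_ne_zero] <;>
      first | linear_combination hi | ring

/-- a symmetric form which vanishes on `perp ξ` is a symmetric product with `ξ` -/
theorem beta_solve (ξ : Fin 2 → ℝ) (ι : ℝ) (hι : ι * (ξ ⬝ᵥ ξ) = 1) (f : Fin 2 → Fin 2 → ℂ)
    (hs : ∀ u v, f u v = f v u) (h0 : ∑ u, ∑ v, (perp ξ u * perp ξ v) • f u v = 0)
    (β : Fin 2 → ℂ) (hβ : ∀ v, β v = ι • ∑ u, ξ u • f u v -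
      (ξ v * ι ^ 2 / 2) • ∑ u, ∑ u', (ξ u * ξ u') • f u u') (u v : Fin 2) :
    ξ u • β v + ξ v • β u = f u v := by
  have h10 := hs 1 0
  have hι' : (ι : ℂ) * ((ξ 0 : ℂ) ^ 2 + (ξ 1 : ℂ) ^ 2) = 1 := by
    have : ι * (ξ 0 ^ 2 + ξ 1 ^ 2) = 1 := by
      rw [← hι]
      simp only [dotProduct, Fin.sum_univ_two]
      ring
    exact_mod_cast this
  simp only [perp, Fin.sum_univ_two, Complex.real_smul, Matrix.cons_val_zero, Matrix.cons_val_one,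
    Matrix.cons_val_fin_one, h10] at h0
  push_cast at h0
  rw [hβ, hβ]
  simp only [Fin.sum_univ_two, Complex.real_smul, h10]
  push_cast
  fin_cases u <;> fin_cases v <;> simp only [Fin.zero_eta, Fin.mk_one, Fin.isValue, h10]
  · linear_combination (-(ι : ℂ) ^ 2 * ξ 1 ^ 2) * h0 + (-2 * ι * ξ 0 * (ξ 0 * f 0 0 + ξ 1 * f 0 1) +
      f 0 0 * (ι * (ξ 0 ^ 2 + ξ 1 ^ 2) + 1)) * hι'
  · linear_combination ((ι : ℂ) ^ 2 * ξ 0 * ξ 1) * h0 + (-ι * (ξ 0 * (ξ 0 * f 0 1 + ξ 1 * f 1 1) +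
      ξ 1 * (ξ 0 * f 0 0 + ξ 1 * f 0 1)) + f 0 1 * (ι * (ξ 0 ^ 2 + ξ 1 ^ 2) + 1)) * hι'
  · linear_combination ((ι : ℂ) ^ 2 * ξ 0 * ξ 1) * h0 + (-ι * (ξ 0 * (ξ 0 * f 0 1 + ξ 1 * f 1 1) +
      ξ 1 * (ξ 0 * f 0 0 + ξ 1 * f 0 1)) + f 0 1 * (ι * (ξ 0 ^ 2 + ξ 1 ^ 2) + 1)) * hι'
  · linear_combination (-(ι : ℂ) ^ 2 * ξ 0 ^ 2) * h0 + (-2 * ι * ξ 1 * (ξ 0 * f 0 1 + ξ 1 * f 1 1) +
      f 1 1 * (ι * (ξ 0 ^ 2 + ξ 1 ^ 2) + 1)) * hι'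

end Crest.Agent.R216
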