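import Crest.Agent.R216.AJet1
/-! # R216 (A): jet algebra II, the good directions.

`exists_eta`: on the compact set `{(J,n) | ‖J‖ ≤ B, GOK J, ‖n‖ ≤ 1, ∃ u, c ≤ |n ⬝ J.2 u u|}` the continuous function
`max_T min_j DJ J (xi T j) + ∑ v |n ⬝ J.1 v|` (or `∑_T ∏_j DJ + …` together with an upper bound of `DJ`; `DJ ≥ 0`)
is positive: if `n ⊥ J.1 v` and every triple contains a slope `t` with `DJ = 0`, then `cr_dot_cr` gives
`n ⬝ HT = 0` at three distinct slopes, and `n ⬝ HT J ![1,t] = A t² - (B + B') t + D` with `A = n ⬝ J.2 0 0`,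
`D = n ⬝ J.2 1 1`, so `A = D = 0`.  (`IsCompact.exists_isMinOn`; the empty set is trivial.)
`exists_r0`: uniform continuity of `DJ` on a compact set (`IsCompact.uniformContinuousOn_of_continuous`) or `bdb_lip`.
`exists_rho`: `σ T = ∏ j, smoothTransition (DJ/η - 1)`, `ρ T = σ T * ψ (∑ σ²)` with `ψ` from `exists_sqrt 1`.
`exists_ell`: Lagrange: `ℓ T j H = (H 1 1 - (t_k + t_l) H 0 1 + t_k t_l H 0 0)/((t_j - t_k)(t_j - t_l))`. -/

set_option autoImplicit false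
set_option linter.unusedSectionVars false
set_option linter.unusedVariables false
open scoped Manifold ContDiff Topology Matrix
open Set Filter

namespace Crest.Agent.R216

theorem DJ_nonneg (J : Jt) (ξ : Fin 2 → ℝ) : 0 ≤ DJ J ξ := by
  unfold DJ dotProduct
  exact Finset.sum_nonneg fun _ _ => mul_self_nonneg _

theorem norm_xi (T j : Fin 3) : ‖xi T j‖ ≤ 4 := by
  refine (pi_norm_le_iff_of_nonneg (by norm_num)).2 (Fin.forall_fin_two.2 ⟨?_, ?_⟩)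
  · simp [xi]
  · fin_cases T <;> fin_cases j <;> simp [xi, sl] <;> norm_num [abs_le]

theorem one_le_xi (T j : Fin 3) : 1 ≤ xi T j ⬝ᵥ xi T j := by
  simp [xi, dotProduct, Fin.sum_univ_two, mul_self_nonneg]

theorem ajet2a_quad {A B D x y z : ℝ} (hxy : x ≠ y) (hxz : x ≠ z) (hyz : y ≠ z)
    (hx : A * x ^ 2 - B * x + D = 0) (hy : A * y ^ 2 - B * y + D = 0)
    (hz : A * z ^ 2 - B * z + D = 0) : A = 0 ∧ D = 0 := by
  have h1 : A * (x + y) - B = 0 :=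
    mul_left_cancel₀ (sub_ne_zero.2 hxy) (by linear_combination hx - hy)
  have h2 : A * (x + z) - B = 0 :=
    mul_left_cancel₀ (sub_ne_zero.2 hxz) (by linear_combination hx - hz)
  have h3 : A = 0 := mul_left_cancel₀ (sub_ne_zero.2 hyz) (by linear_combination h1 - h2)
  have h4 : B = 0 := by linear_combination -h1 + (x + y) * h3
  exact ⟨h3, by linear_combination hx - x ^ 2 * h3 + x * h4⟩

theorem ajet2a_null {J : Jt} {n : Fin 4 → ℝ} (hJ : GOK J) (hn : ∀ v, n ⬝ᵥ J.1 v = 0) {t : ℝ}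
    (h : DJ J ![1, t] = 0) :
    n ⬝ᵥ J.2 0 0 * t ^ 2 - (n ⬝ᵥ J.2 0 1 + n ⬝ᵥ J.2 1 0) * t + n ⬝ᵥ J.2 1 1 = 0 := by
  have h1 := cr_dot_cr (J.1 0) (J.1 1) (HT J ![1, t]) n (hn 0) (hn 1)
  rw [dotProduct_self_eq_zero.1 h, zero_dotProduct] at h1
  have h00 := abs_le.1 (hJ 0 0)
  have h01 := abs_le.1 (hJ 0 1)
  have h11 := abs_le.1 (hJ 1 1)
  simp only [idm, if_true, zero_ne_one, if_false, sub_zero] at h00 h01 h11
  have h2 : 0 < J.1 0 ⬝ᵥ J.1 0 * (J.1 1 ⬝ᵥ J.1 1) - (J.1 0 ⬝ᵥ J.1 1) ^ 2 := by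
    nlinarith [h00.1, h11.1, h01.1, h01.2,
      mul_nonneg (show 0 ≤ J.1 0 ⬝ᵥ J.1 0 - 19 / 20 by linarith)
        (show 0 ≤ J.1 1 ⬝ᵥ J.1 1 - 19 / 20 by linarith)]
  have h3 := (mul_eq_zero.1 h1.symm).resolve_left h2.ne'
  simp only [HT, perp, Fin.sum_univ_two, dotProduct_add, dotProduct_smul, smul_eq_mul,
    Matrix.cons_val_zero, Matrix.cons_val_one] at h3
  linear_combination h3

/-- the test function -/
noncomputable def ajet2a_f (z : Jt × (Fin 4 → ℝ)) : ℝ :=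
  ∑ T, min (min (DJ z.1 (xi T 0)) (DJ z.1 (xi T 1))) (DJ z.1 (xi T 2)) + ∑ v, |z.2 ⬝ᵥ z.1.1 v|

theorem ajet2a_cD (ξ : Fin 2 → ℝ) : Continuous fun z : Jt × (Fin 4 → ℝ) => DJ z.1 ξ := by
  have h := contDiff_DJ.continuous.comp
    (f := fun z : Jt × (Fin 4 → ℝ) => (z.1, ξ)) (continuous_fst.prodMk continuous_const)
  exact h

theorem ajet2a_cont : Continuous ajet2a_f :=
  (continuous_finsetSum _ fun T _ => ((ajet2a_cD _).min (ajet2a_cD _)).min (ajet2a_cD _)).add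
    (by fun_prop)

theorem ajet2a_cpt (B c : ℝ) :
    IsCompact ((Metric.closedBall (0 : Jt) B ×ˢ Metric.closedBall (0 : Fin 4 → ℝ) 1) ∩
      ({z | GOK z.1} ∩ {z | c ≤ max |z.2 ⬝ᵥ z.1.2 0 0| |z.2 ⬝ᵥ z.1.2 1 1|})) := by
  refine ((isCompact_closedBall _ _).prod (isCompact_closedBall _ _)).inter_right
    (IsClosed.inter ?_ (isClosed_le continuous_const (by fun_prop)))
  simp only [GOK, ofPred_forall]
  exact isClosed_iInter fun u => isClosed_iInter fun v =>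
    isClosed_le (by fun_prop) continuous_const

theorem ajet2a_pos {c : ℝ} (hc : 0 < c) {J : Jt} {n : Fin 4 → ℝ} (hJ : GOK J)
    (hn : c ≤ max |n ⬝ᵥ J.2 0 0| |n ⬝ᵥ J.2 1 1|) : 0 < ajet2a_f (J, n) := by
  have n1 : ∀ T ∈ Finset.univ, 0 ≤ min (min (DJ J (xi T 0)) (DJ J (xi T 1))) (DJ J (xi T 2)) :=
    fun T _ => le_min (le_min (DJ_nonneg _ _) (DJ_nonneg _ _)) (DJ_nonneg _ _)
  have n2 : ∀ v ∈ Finset.univ, 0 ≤ |n ⬝ᵥ J.1 v| := fun v _ => abs_nonneg _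
  by_contra h
  have h1 := Finset.sum_nonneg n1
  have h2 := Finset.sum_nonneg n2
  have h0 := not_lt.1 h
  unfold ajet2a_f at h0
  dsimp only at h0
  have e1 := (Finset.sum_eq_zero_iff_of_nonneg n1).1 (by linarith)
  have e2 := (Finset.sum_eq_zero_iff_of_nonneg n2).1 (by linarith)
  have e3 : ∀ T, ∃ j, DJ J (xi T j) = 0 := by
    intro T
    rcases min_eq_iff.1 (e1 T (Finset.mem_univ T)) with ⟨h, -⟩ | ⟨h, -⟩
    · rcases min_eq_iff.1 h with ⟨h, -⟩ | ⟨h, -⟩ <;> exact ⟨_, h⟩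
    · exact ⟨_, h⟩
  have e4 : ∀ v, n ⬝ᵥ J.1 v = 0 := fun v => abs_eq_zero.1 (e2 v (Finset.mem_univ v))
  obtain ⟨i, hi⟩ := e3 0
  obtain ⟨j, hj⟩ := e3 1
  obtain ⟨k, hk⟩ := e3 2
  obtain ⟨a1, a2⟩ := ajet2a_quad (x := sl 0 i) (y := sl 1 j) (z := sl 2 k)
    (by fin_cases i <;> fin_cases j <;> simp [sl] <;> norm_num)
    (by fin_cases i <;> fin_cases k <;> simp [sl] <;> norm_num)
    (by fin_cases j <;> fin_cases k <;> simp [sl] <;> norm_num)
    (ajet2a_null hJ e4 hi) (ajet2a_null hJ e4 hj) (ajet2a_null hJ e4 hk)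
  rw [a1, a2, abs_zero, max_self] at hn
  exact absurd hc (not_lt.2 hn)

theorem exists_eta (B : ℝ) {c : ℝ} (hc : 0 < c) : ∃ η > 0, ∃ s > 0, Eta B c η s := by
  obtain ⟨δ, hδ, hle⟩ := (ajet2a_cpt B c).exists_forall_le' (a := 0) ajet2a_cont.continuousOn
    fun z hz => ajet2a_pos hc hz.2.1 hz.2.2
  refine ⟨δ / 12, by positivity, δ / 4, by positivity, fun J n u hJ hG hn hs hu => ?_⟩
  have h1 := hle (J, n) ⟨⟨mem_closedBall_zero_iff.2 hJ, mem_closedBall_zero_iff.2 hn⟩, hG, by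
    fin_cases u
    · exact le_max_of_le_left hu
    · exact le_max_of_le_right hu⟩
  by_contra h
  push Not at h
  have h2 : ∀ T, min (min (DJ J (xi T 0)) (DJ J (xi T 1))) (DJ J (xi T 2)) < δ / 6 := by
    intro T
    obtain ⟨j, hj⟩ := h T
    refine lt_of_le_of_lt ?_ (hj.trans_eq (by ring))
    fin_cases j
    · exact (min_le_left _ _).trans (min_le_left _ _)
    · exact (min_le_left _ _).trans (min_le_right _ _)
    · exact min_le_right _ _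
  simp only [ajet2a_f, Fin.sum_univ_three, Fin.sum_univ_two] at h1
  linarith [h2 0, h2 1, h2 2, hs 0, hs 1]

theorem exists_r0 (B Z : ℝ) {η : ℝ} (hη : 0 < η) : ∃ r₀ > 0, ∀ (J : Jt) (ξ ζ : Fin 2 → ℝ) (r : ℝ),
    ‖J‖ ≤ B → ‖ξ‖ ≤ 4 → 1 ≤ ξ ⬝ᵥ ξ → ‖ζ‖ ≤ Z → |r| ≤ r₀ → η ≤ DJ J ξ →
      η / 2 ≤ DJ J (ξ + r • ζ) ∧ 1 / 2 ≤ (ξ + r • ζ) ⬝ᵥ (ξ + r • ζ) := by
  set G : Jt × (Fin 2 → ℝ) → ℝ × ℝ := fun z => (DJ z.1 z.2, z.2 ⬝ᵥ z.2) with hG
  have hGc : Continuous G := by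
    refine contDiff_DJ.continuous.prodMk ?_
    simp only [dotProduct]
    fun_prop
  have hK : IsCompact (Metric.closedBall (0 : Jt × (Fin 2 → ℝ)) (max B 5)) :=
    isCompact_closedBall _ _
  have hu := hK.uniformContinuousOn_of_continuous hGc.continuousOn
  rw [Metric.uniformContinuousOn_iff] at hu
  obtain ⟨δ, hδ, hu⟩ := hu (min (η / 2) (1 / 2)) (by positivity)
  have hZ : 0 < |Z| + 1 := by positivity
  have hm : 0 < min δ 1 := by positivity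
  refine ⟨min δ 1 / (2 * (|Z| + 1)), by positivity, ?_⟩
  intro J ξ ζ r hJ hξ h1 hζ hr hD
  have hrz : ‖r • ζ‖ < min δ 1 := by
    rw [norm_smul, Real.norm_eq_abs]
    have h2 : ‖ζ‖ ≤ |Z| + 1 := by linarith [le_abs_self Z]
    calc |r| * ‖ζ‖ ≤ min δ 1 / (2 * (|Z| + 1)) * (|Z| + 1) :=
          mul_le_mul hr h2 (norm_nonneg _) (by positivity)
      _ = min δ 1 / 2 := by field_simp
      _ < min δ 1 := by linarith
  have hx : (J, ξ) ∈ Metric.closedBall (0 : Jt × (Fin 2 → ℝ)) (max B 5) := by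
    rw [mem_closedBall_zero_iff, Prod.norm_def]
    exact max_le_max hJ (by simp only; linarith)
  have hy : (J, ξ + r • ζ) ∈ Metric.closedBall (0 : Jt × (Fin 2 → ℝ)) (max B 5) := by
    rw [mem_closedBall_zero_iff, Prod.norm_def]
    refine max_le_max hJ ?_
    have := norm_add_le ξ (r • ζ)
    have := min_le_right δ 1
    simp only; linarith
  have hd : dist (J, ξ + r • ζ) (J, ξ) < δ := by
    rw [Prod.dist_eq, dist_self, dist_eq_norm, add_sub_cancel_left]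
    exact max_lt hδ (hrz.trans_le (min_le_left _ _))
  have h := hu _ hy _ hx hd
  rw [Prod.dist_eq, max_lt_iff, Real.dist_eq, Real.dist_eq, lt_min_iff, lt_min_iff] at h
  simp only [hG] at h
  obtain ⟨⟨h2, -⟩, -, h3⟩ := h
  rw [abs_lt] at h2 h3
  constructor <;> linarith [h2.1, h3.1]

theorem exists_rho {η : ℝ} (hη : 0 < η) : ∃ ρ : Fin 3 → Jt → ℝ, (∀ T, ContDiff ℝ ∞ (ρ T)) ∧
    (∀ T J, ρ T J ≠ 0 → ∀ j, η ≤ DJ J (xi T j)) ∧
    ∀ J, (∃ T, ∀ j, 2 * η ≤ DJ J (xi T j)) → ∑ T, ρ T J ^ 2 = 1 := by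
  obtain ⟨φ, ψ, hφ, hψ, hs⟩ := exists_sqrt (c := 1) one_pos
  set σ : Fin 3 → Jt → ℝ := fun T J => ∏ j, Real.smoothTransition (DJ J (xi T j) / η - 1) with hσ
  have hσc : ∀ T, ContDiff ℝ ∞ (σ T) := by
    intro T
    refine contDiff_prod fun j _ => ?_
    refine Real.smoothTransition.contDiff.comp ?_
    refine ContDiff.sub (ContDiff.div_const ?_ η) contDiff_const
    exact contDiff_DJ.comp (contDiff_id.prodMk contDiff_const)
  refine ⟨fun T J => σ T J * ψ (∑ T', σ T' J ^ 2), fun T => ?_, fun T J h j => ?_, ?_⟩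
  · exact (hσc T).mul (hψ.comp (ContDiff.sum fun T' _ => (hσc T').pow 2))
  · have h1 : σ T J ≠ 0 := left_ne_zero_of_mul h
    have h2 := Finset.prod_ne_zero_iff.1 h1 j (Finset.mem_univ _)
    by_contra hlt
    refine h2 (Real.smoothTransition.zero_of_nonpos ?_)
    have : DJ J (xi T j) / η ≤ 1 := (div_le_one hη).2 (not_le.1 hlt).le
    linarith
  · rintro J ⟨T, hT⟩
    have h1 : σ T J = 1 := by
      refine Finset.prod_eq_one fun j _ => Real.smoothTransition.one_of_one_le ?_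
      have : 2 ≤ DJ J (xi T j) / η := (le_div_iff₀ hη).2 (hT j)
      linarith
    have h2 : 1 ≤ ∑ T', σ T' J ^ 2 := by
      have := Finset.single_le_sum (f := fun T' => σ T' J ^ 2) (fun T' _ => sq_nonneg _)
        (Finset.mem_univ T)
      simpa [h1] using this
    obtain ⟨h3, h4⟩ := hs _ h2
    simp only [mul_pow]
    rw [← Finset.sum_mul]
    generalize ∑ T', σ T' J ^ 2 = S at h3 h4 ⊢
    calc S * ψ S ^ 2 = (φ S * ψ S) ^ 2 := by rw [mul_pow, h3]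
      _ = 1 := by rw [h4]; norm_num

theorem exists_ell : ∃ ℓ : Fin 3 → Fin 3 → Fin 2 → Fin 2 → ℝ,
    (∀ T (H : Fin 2 → Fin 2 → ℝ), H 0 1 = H 1 0 →
      ∀ u v, H u v = ∑ j, lf (ℓ T j) H * (xi T j u * xi T j v)) ∧
    ∀ T j (H : Fin 2 → Fin 2 → ℝ), (∀ u v, |H u v - idm u v| ≤ 1 / 20) →
      1 / 200 ≤ lf (ℓ T j) H := by
  refine ⟨![![![![0, -1 / 4], ![0, 1 / 8]], ![![1, 0], ![0, -1 / 4]], ![![0, 1 / 4], ![0, 1 / 8]]],
    ![![![1 / 62, -1 / 6], ![0, 5 / 93]], ![![900 / 899, 0], ![0, -100 / 899]],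
      ![![-1 / 58, 1 / 6], ![0, 5 / 87]]],
    ![![![-1 / 78, -1 / 8], ![0, 5 / 156]], ![![1600 / 1599, 0], ![0, -100 / 1599]],
      ![![1 / 82, 1 / 8], ![0, 5 / 164]]]], ?_, ?_⟩
  · intro T H hH u v
    fin_cases T <;> fin_cases u <;> fin_cases v <;>
      simp [lf, xi, sl, Fin.sum_univ_two, Fin.sum_univ_three] <;> linarith
  · intro T j H hH
    have h00 := abs_le.1 (hH 0 0)
    have h01 := abs_le.1 (hH 0 1)
    have h11 := abs_le.1 (hH 1 1)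
    simp only [idm, if_true, Fin.zero_eq_one_iff, if_false,
      OfNat.ofNat_ne_one] at h00 h01 h11
    obtain ⟨a1, a2⟩ := h00
    obtain ⟨b1, b2⟩ := h01
    obtain ⟨c1, c2⟩ := h11
    fin_cases T <;> fin_cases j <;> simp only [lf, Fin.sum_univ_two] <;> simp <;> linarith

end Crest.Agent.R216
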