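import Crest.Agent.R216.ALin2
/-! # R216 (A): the mean part of the quadratic term.

`MM_lead`: write `DD b W = L + e`, `DD c W' = L' + e'`; `(L ⬝ cj L').re = A A' Zφ Zφ (ν ⬝ ν)`, and `A (ν ⬝ ν) = A`
everywhere (`ν ⬝ ν = 1` on `K`, `A = 0` off `K`); the other three terms have weight `w w' r` (`r ≤ 1`). -/

set_option autoImplicit false
set_option linter.unusedSectionVars false
set_option linter.unusedVariables false
open scoped Manifold ContDiff Topology Matrix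
open Set Filter

namespace Crest.Agent.R216
universe u
variable {M : Type u} [TopologicalSpace M] [ChartedSpace E2 M] [IsManifold (𝓡 2) ∞ M]
  [CompactSpace M]
variable {g : Met M} {C : Calc g} {τ : Type*} {𝓕 : Filter τ} {m lb μ w w' om : τ → ℝ}
  {F : τ → M → Fin 4 → ℝ} {i : Fin C.n} {ψ : τ → M → ℝ} {K : τ → Set M}

variable {S : Type} [Fintype S]

theorem akal1_cj_add (v v' : Fin 4 → ℂ) : cj (v + v') = cj v + cj v' := Calc.atensCj.map_add v v'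

theorem akal1_half (H : Ctx C.V 𝓕 lb) {f : τ → M → ℝ} (h : Cl C.V 𝓕 lb w f) :
    Cl C.V 𝓕 lb w fun t p => 1 / 2 * f t p :=
  Cl.clm H ((1 / 2 : ℝ) • ContinuousLinearMap.id ℝ ℝ) h

theorem akal1_lead (H : Ctx C.V 𝓕 lb) {φ : M → ℝ} (hφ : Sm φ) {ν : τ → M → Fin 4 → ℝ}
    (hν : Cl C.V 𝓕 lb (fun _ => 1) ν) {A : τ → M → ℝ} (hA : Cl C.V 𝓕 lb w A) (a : C.I) :
    Cl C.V 𝓕 lb w fun t p => (Complex.I * ((A t p * C.Z a φ p : ℝ) : ℂ)) • cx (ν t p) := by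
  have h1 := Cl.mul H hA (Cl.fixed' H (hφ.zv (C.V_sm a)))
  have h2 := Cl.mul H (Cl.const (w := fun _ => 1) (c := fun _ => Complex.I) H (by simp))
    (Cl.ofReal H h1)
  simpa only [one_mul, mul_one] using Cl.csmul H h2 (Cl.cx H hν)

theorem akal1_dot (x y : ℝ) (ν : Fin 4 → ℝ) :
    (((Complex.I * (x : ℂ)) • cx ν) ⬝ᵥ cj ((Complex.I * (y : ℂ)) • cx ν)).re = x * y * (ν ⬝ᵥ ν) := by
  simp [dotProduct, cj, cx, Fin.sum_univ_four]
  ring

theorem akal1_split (D D' L L' : Fin 4 → ℂ) :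
    (D ⬝ᵥ cj D').re = (L ⬝ᵥ cj L').re +
      ((D - L) ⬝ᵥ cj L' + (L ⬝ᵥ cj (D' - L') + (D - L) ⬝ᵥ cj (D' - L'))).re := by
  rw [← Complex.add_re]
  congr 1
  simp only [dotProduct, cj, Pi.sub_apply, map_sub, ← Finset.sum_add_distrib]
  exact Finset.sum_congr rfl fun i _ => by ring

theorem Calc.MM_add (C : Calc g) (om : S → ℝ) (φ : S → M → ℝ) {W W' : S → M → Fin 4 → ℂ}
    (h : ∀ s, Sm (W s)) (h' : ∀ s, Sm (W' s)) (a b : C.I) (p : M) :
    C.MM om φ (fun s q => W s q + W' s q) (fun s q => W s q + W' s q) a b p =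
      C.MM om φ W W a b p + (C.MM om φ W W' a b p + C.MM om φ W' W a b p) +
        C.MM om φ W' W' a b p := by
  simp only [Calc.MM, C.DD_add _ _ _ (h _) (h' _), akal1_cj_add, add_dotProduct, dotProduct_add,
    Complex.add_re, Finset.sum_add_distrib]
  ring

theorem Calc.MM_cl (H : Ctx C.V 𝓕 lb) (om : S → τ → ℝ) (φ : S → M → ℝ)
    {W W' : S → τ → M → Fin 4 → ℂ}
    (h : ∀ s a, Cl C.V 𝓕 lb w fun t => C.DD (om s t) (φ s) a (W s t))
    (h' : ∀ s a, Cl C.V 𝓕 lb w' fun t => C.DD (om s t) (φ s) a (W' s t)) (a b : C.I) :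
    Cl C.V 𝓕 lb (fun t => w t * w' t) fun t =>
      C.MM (fun s => om s t) φ (fun s => W s t) (fun s => W' s t) a b := by
  exact akal1_half H (Cl.sum H Finset.univ fun s _ => Cl.re H (Cl.dot H (h s a) (Cl.cj H (h' s b))))

theorem Calc.MM_lead (H : Ctx C.V 𝓕 lb) (om : S → τ → ℝ) {φ : S → M → ℝ} (hφ : ∀ s, Sm (φ s))
    {r : τ → ℝ} (hr : ∀ᶠ t in 𝓕, 0 ≤ w t ∧ 0 ≤ w' t ∧ 0 ≤ r t ∧ r t ≤ 1)
    {ν : S → τ → M → Fin 4 → ℝ} (hν : ∀ s, Cl C.V 𝓕 lb (fun _ => 1) (ν s))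
    {A A' : S → τ → M → ℝ} (hA : ∀ s, Cl C.V 𝓕 lb w (A s)) (hA' : ∀ s, Cl C.V 𝓕 lb w' (A' s))
    (h1 : ∀ s, ∀ᶠ t in 𝓕, ∀ p, A s t p * (ν s t p ⬝ᵥ ν s t p) = A s t p)
    {W W' : S → τ → M → Fin 4 → ℂ}
    (h : ∀ s a, Cl C.V 𝓕 lb (fun t => w t * r t) fun t p => C.DD (om s t) (φ s) a (W s t) p -
      (Complex.I * ((A s t p * C.Z a (φ s) p : ℝ) : ℂ)) • cx (ν s t p))
    (h' : ∀ s a, Cl C.V 𝓕 lb (fun t => w' t * r t) fun t p => C.DD (om s t) (φ s) a (W' s t) p -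
      (Complex.I * ((A' s t p * C.Z a (φ s) p : ℝ) : ℂ)) • cx (ν s t p)) (a b : C.I) :
    Cl C.V 𝓕 lb (fun t => w t * w' t * r t) fun t p =>
      C.MM (fun s => om s t) φ (fun s => W s t) (fun s => W' s t) a b p -
        1 / 2 * ∑ s, A s t p * A' s t p * (C.Z a (φ s) p * C.Z b (φ s) p) := by
  have k := fun s => Cl.re H (Cl.add H
    (Cl.weight (w' := fun t => w t * w' t * r t) H
      (Cl.dot H (h s a) (Cl.cj H (akal1_lead H (hφ s) (hν s) (hA' s) b))) 1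
      (hr.mono fun t ht => ⟨mul_nonneg (mul_nonneg ht.1 ht.2.2.1) ht.2.1, le_of_eq (by ring)⟩))
    (Cl.add H
      (Cl.weight H (Cl.dot H (akal1_lead H (hφ s) (hν s) (hA s) a) (Cl.cj H (h' s b))) 1
        (hr.mono fun t ht => ⟨mul_nonneg ht.1 (mul_nonneg ht.2.1 ht.2.2.1), le_of_eq (by ring)⟩))
      (Cl.weight H (Cl.dot H (h s a) (Cl.cj H (h' s b))) 1
        (hr.mono fun t ht =>
          ⟨mul_nonneg (mul_nonneg ht.1 ht.2.2.1) (mul_nonneg ht.2.1 ht.2.2.1), by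
            have h2 := mul_le_mul_of_nonneg_left ht.2.2.2
              (mul_nonneg (mul_nonneg ht.1 ht.2.1) ht.2.2.1)
            linarith⟩))))
  refine Cl.congr H (akal1_half H (Cl.sum H Finset.univ fun s _ => k s)) ?_
  filter_upwards [eventually_all.2 h1] with t ht
  funext p
  rw [Calc.MM, ← mul_sub, ← Finset.sum_sub_distrib]
  congr 1
  refine Finset.sum_congr rfl fun s _ => ?_
  rw [akal1_split _ _ ((Complex.I * ((A s t p * C.Z a (φ s) p : ℝ) : ℂ)) • cx (ν s t p))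
    ((Complex.I * ((A' s t p * C.Z b (φ s) p : ℝ) : ℂ)) • cx (ν s t p)), akal1_dot]
  linear_combination (-(C.Z a (φ s) p * (A' s t p * C.Z b (φ s) p))) * ht s p

end Crest.Agent.R216
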