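import Crest.Agent.R216.AKal1
/-! # R216 (A): the Källén iteration (incremental form).

`r = lb/μ ≤ 1`, `ν s` from `frame_nu`, `(φ, ψ)` from `exists_sqrt (1/100)`, `L s = 2 lf (ℓ s) (H in the chart ch s)/a²`
(`Cl 1`; `≥ 1/100` on `K s ⊆ O (ch s)` by `Target.near`, `Modes.pos`), `A s = a α s φ(L s)`.
By `Modes.dec`: `1/2 ∑ A s² Zφ Zφ = H` (off `K s` both `α s` and `A s` vanish).
Claim for every `k`: there is `W` with `W s = O(a/μ)`, `DD W s - i A s Zφ ν = O(a r)`, `LC (W s) = O(a r^N)`, support in `K s`,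
and `ρ = MM W W - H = O(a² r^(k+1))`.  `k = 0`: `free_mode` for `A s`, `MM_lead`.  Step: `ρ` is tensorial and symmetric
(`tens_MM`, `MM_swap`), `A' s = -a⁻¹ α s lf (ℓ s) (ρ in the chart) ψ(L s) = O(a r^(k+1))`, so that
`∑ A s A' s Zφ Zφ = -ρ` (`Modes.dec`); `W' s = free_mode (A' s)`; `MM_add`, `MM_lead` twice (for the pair `(W', W)` the
hypothesis `h1` is about `A'`), `MM_cl` + `Frame.DD_cl` for `MM W' W' = O(a² r^(2k+2))`. -/

set_option autoImplicit false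
set_option linter.unusedSectionVars false
set_option linter.unusedVariables false
open scoped Manifold ContDiff Topology Matrix
open Set Filter

namespace Crest.Agent.R216
universe u
variable {M : Type u} [TopologicalSpace M] [ChartedSpace E2 M] [IsManifold (𝓡 2) ∞ M]
  [CompactSpace M]
variable {g : Met M} {C : Calc g} {τ : Type*} {𝓕 : Filter τ} {m lb μ w w' om : τ → ℝ}
  {F : τ → M → Fin 4 → ℝ} {i : Fin C.n} {ψ : τ → M → ℝ} {K : τ → Set M}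

variable {S : Type} [Fintype S]

theorem kal2_lf_cl (HC : Ctx C.V 𝓕 lb) (ℓ : Fin 2 → Fin 2 → ℝ) {f : τ → Fin 2 → Fin 2 → M → ℝ}
    (hw : ∀ᶠ t in 𝓕, 0 ≤ w t) (h : ∀ u v, Cl C.V 𝓕 lb w fun t => f t u v) :
    Cl C.V 𝓕 lb w fun t p => lf ℓ fun u v => f t u v p := by
  unfold lf
  refine Cl.sum HC _ fun u _ => Cl.sum HC _ fun v _ => ?_
  have h1 : Cl C.V 𝓕 lb (fun _ => |ℓ u v|) fun (t : τ) (_ : M) => ℓ u v :=
    Cl.const HC (Eventually.of_forall fun _ => le_rfl)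
  refine Cl.weight HC (Cl.mul HC h1 (h u v)) |ℓ u v| ?_
  filter_upwards [hw] with t ht
  exact ⟨mul_nonneg (abs_nonneg _) ht, le_rfl⟩

theorem kal2_lf_div (ℓ H : Fin 2 → Fin 2 → ℝ) (d : ℝ) :
    lf ℓ (fun u v => H u v / d) = lf ℓ H / d := by
  simp only [lf, Fin.sum_univ_two]
  ring

/-- the invariant of the Källén iteration -/
structure KInv (𝓜 : C.Modes 𝓕 m lb μ F S) (a : τ → ℝ) (H : τ → C.I → C.I → M → ℝ)
    (ν : S → τ → M → Fin 4 → ℝ) (A : S → τ → M → ℝ) (N k : ℕ) (W : S → τ → M → Fin 4 → ℂ) : Prop where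
  cl : ∀ s, Cl C.V 𝓕 lb (fun t => a t / μ t) (W s)
  lead : ∀ s b, Cl C.V 𝓕 lb (fun t => a t * (lb t / μ t)) fun t p =>
    C.DD (𝓜.om s t) (𝓜.φ s) b (W s t) p -
      (Complex.I * ((A s t p * C.Z b (𝓜.φ s) p : ℝ) : ℂ)) • cx (ν s t p)
  lc : ∀ s b c, Cl C.V 𝓕 lb (fun t => a t * (lb t / μ t) ^ N) fun t =>
    C.LC (F t) (𝓜.om s t) (𝓜.φ s) (W s t) b c
  supp : ∀ s, ∀ᶠ t in 𝓕, ∀ p ∉ 𝓜.K s t, W s t p = 0
  res : ∀ b c, Cl C.V 𝓕 lb (fun t => a t ^ 2 * (lb t / μ t) ^ (k + 1)) fun t p =>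
    C.MM (fun s => 𝓜.om s t) 𝓜.φ (fun s => W s t) (fun s => W s t) b c p - H t b c p

theorem kal2_num (hB : C.Base 𝓕 m lb μ F) {a : τ → ℝ} (ha : ∀ᶠ t in 𝓕, 0 < a t) :
    ∀ᶠ t in 𝓕, 0 < a t ∧ 0 < μ t ∧ 0 ≤ lb t / μ t ∧ lb t / μ t ≤ 1 := by
  filter_upwards [hB.le, ha] with t h1 h2
  have hμ : 0 < μ t := by linarith [h1.1, h1.2.1, h1.2.2]
  refine ⟨h2, hμ, div_nonneg (by linarith [h1.1, h1.2.1]) hμ.le, ?_⟩
  rw [div_le_one hμ]; exact h1.2.2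

theorem kal2_phi_sm (𝓜 : C.Modes 𝓕 m lb μ F S) [𝓕.NeBot] (s : S) : Sm (𝓜.φ s) :=
  ((𝓜.fr s).sm.exists).choose_spec

theorem kal2_step [𝓕.NeBot] (hB : C.Base 𝓕 m lb μ F) (𝓜 : C.Modes 𝓕 m lb μ F S) {a : τ → ℝ}
    {H : τ → C.I → C.I → M → ℝ} (hH : C.Target 𝓕 lb a H) {ν : S → τ → M → Fin 4 → ℝ}
    (hν : ∀ s, C.Nu 𝓕 m lb F (𝓜.ch s) (fun _ => 𝓜.φ s) (𝓜.K s) (ν s))
    {A q : S → τ → M → ℝ} (hA : ∀ s, Cl C.V 𝓕 lb a (A s))
    (hA0 : ∀ s, ∀ᶠ t in 𝓕, ∀ p ∉ 𝓜.K s t, A s t p = 0)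
    (hq : ∀ s, Cl C.V 𝓕 lb (fun _ => 1) (q s))
    (hAq : ∀ s, ∀ᶠ t in 𝓕, ∀ p ∈ 𝓜.K s t, A s t p * q s t p = a t * 𝓜.α s t p)
    {N k : ℕ} {W : S → τ → M → Fin 4 → ℂ} (hW : KInv 𝓜 a H ν A N k W) :
    ∃ W', KInv 𝓜 a H ν A N (k + 1) W' := by
  have HC := hB.ctx
  have hn := kal2_num hB hH.pos
  set r : τ → ℝ := fun t => lb t / μ t with hr
  -- the defect
  set ρ : τ → C.I → C.I → M → ℝ := fun t b c p =>
    C.MM (fun s => 𝓜.om s t) 𝓜.φ (fun s => W s t) (fun s => W s t) b c p - H t b c p with hρ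
  have hρt : ∀ᶠ t in 𝓕, C.Tens (ρ t) ∧ ∀ b c p, ρ t b c p = ρ t c b p := by
    filter_upwards [hH.tens] with t ht
    refine ⟨(C.tens_MM _ _ _ _).sub ht.1, fun b c p => ?_⟩
    simp only [hρ]
    rw [C.MM_swap, ht.2 b c p]
  set A' : S → τ → M → ℝ := fun s t p => (-(a t)⁻¹) • (𝓜.α s t p *
    lf (𝓜.ℓ s) (fun u v => ρ t (𝓜.ch s, u) (𝓜.ch s, v) p) * q s t p) with hA'
  have hw0 : ∀ᶠ t in 𝓕, 0 ≤ a t ^ 2 * r t ^ (k + 1) := by
    filter_upwards [hn] with t h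
    exact mul_nonneg (sq_nonneg _) (pow_nonneg h.2.2.1 _)
  have hw1 : ∀ᶠ t in 𝓕, 0 ≤ a t * r t ^ (k + 1) := by
    filter_upwards [hn] with t h
    exact mul_nonneg h.1.le (pow_nonneg h.2.2.1 _)
  have hA'c : ∀ s, Cl C.V 𝓕 lb (fun t => a t * r t ^ (k + 1)) (A' s) := by
    intro s
    have h1 := kal2_lf_cl HC (𝓜.ℓ s) (f := fun t u v => ρ t (𝓜.ch s, u) (𝓜.ch s, v)) hw0
      fun u v => hW.res (𝓜.ch s, u) (𝓜.ch s, v)
    have h2 := Cl.mul HC (Cl.mul HC (𝓜.α_cl s) h1) (hq s)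
    have h3 := Cl.cmul HC (c := fun t => -(a t)⁻¹) (w' := fun t => (a t)⁻¹) h2 (by
      filter_upwards [hn] with t h
      rw [abs_neg, abs_of_pos (inv_pos.2 h.1)])
    refine Cl.weight HC h3 1 ?_
    filter_upwards [hn, hw1] with t h h'
    have e : (a t)⁻¹ * (1 * (a t ^ 2 * r t ^ (k + 1)) * 1) = a t * r t ^ (k + 1) := by
      have := h.1.ne'
      field_simp
    rw [e]
    exact ⟨h', by linarith⟩
  have hA'0 : ∀ s, ∀ᶠ t in 𝓕, ∀ p ∉ 𝓜.K s t, A' s t p = 0 := by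
    intro s
    filter_upwards [𝓜.α_supp s] with t ht p hp
    simp only [hA', ht p hp, zero_mul, smul_zero]
  have hAA' : ∀ᶠ t in 𝓕, ∀ b c p,
      ∑ s, A s t p * A' s t p * (C.Z b (𝓜.φ s) p * C.Z c (𝓜.φ s) p) = -ρ t b c p := by
    filter_upwards [𝓜.dec, hρt, eventually_all.2 hAq, eventually_all.2 hA0,
      eventually_all.2 𝓜.α_supp, hn] with t h1 h2 h3 h4 h5 h6 b c p
    rw [h1 (ρ t) h2.1 h2.2 b c p, ← Finset.sum_neg_distrib]
    refine Finset.sum_congr rfl fun s _ => ?_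
    by_cases hp : p ∈ 𝓜.K s t
    · have e := h3 s p hp
      have ha := h6.1.ne'
      simp only [hA', smul_eq_mul]
      calc A s t p * (-(a t)⁻¹ * (𝓜.α s t p *
              lf (𝓜.ℓ s) (fun u v => ρ t (𝓜.ch s, u) (𝓜.ch s, v) p) * q s t p)) *
            (C.Z b (𝓜.φ s) p * C.Z c (𝓜.φ s) p)
          = -((a t)⁻¹ * (A s t p * q s t p) * 𝓜.α s t p *
              lf (𝓜.ℓ s) (fun u v => ρ t (𝓜.ch s, u) (𝓜.ch s, v) p) *
              (C.Z b (𝓜.φ s) p * C.Z c (𝓜.φ s) p)) := by ring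
        _ = _ := by rw [e]; field_simp
    · rw [h4 s p hp, h5 s p hp]; ring
  choose W' h1 h2 h3 h4 using fun s =>
    Calc.free_mode hB (𝓜.fr s) (𝓜.freq s) (hν s) N hw1 (hA'c s) (hA'0 s)
  have hDD : ∀ s b, Cl C.V 𝓕 lb (fun t => a t * r t ^ (k + 1)) fun t =>
      C.DD (𝓜.om s t) (𝓜.φ s) b (W' s t) := by
    intro s b
    have h := Calc.Frame.DD_cl hB (𝓜.fr s) (𝓜.freq s) (w := fun t => a t * r t ^ (k + 1) / μ t)
      (by filter_upwards [hw1, hn] with t h h' using div_nonneg h h'.2.1.le) (h1 s) b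
    refine Cl.weight HC h 1 ?_
    filter_upwards [hn, hw1] with t h h'
    have e : μ t * (a t * r t ^ (k + 1) / μ t) = a t * r t ^ (k + 1) := by
      have := h.2.1.ne'
      field_simp
    rw [e]
    exact ⟨h', by linarith⟩
  have hsm : ∀ᶠ t in 𝓕, (∀ s, Sm (W s t)) ∧ ∀ s, Sm (W' s t) :=
    (eventually_all.2 fun s => (hW.cl s).1).and (eventually_all.2 fun s => (h1 s).1)
  have hpow : ∀ᶠ t in 𝓕, r t ^ (k + 1) ≤ r t := by
    filter_upwards [hn] with t h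
    rw [pow_succ]
    exact mul_le_of_le_one_left h.2.2.1 (pow_le_one₀ h.2.2.1 h.2.2.2)
  have hνν : ∀ (B : S → τ → M → ℝ), (∀ s, ∀ᶠ t in 𝓕, ∀ p ∉ 𝓜.K s t, B s t p = 0) →
      ∀ s, ∀ᶠ t in 𝓕, ∀ p, B s t p * (ν s t p ⬝ᵥ ν s t p) = B s t p := by
    intro B hB0 s
    filter_upwards [hB0 s, (hν s).orth] with t h h' p
    by_cases hp : p ∈ 𝓜.K s t
    · rw [(h' p hp).2.2, mul_one]
    · rw [h p hp, zero_mul]
  refine ⟨fun s t p => W s t p + W' s t p, fun s => ?_, fun s b => ?_, fun s b c => ?_,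
    fun s => ?_, fun b c => ?_⟩
  · refine Cl.add HC (hW.cl s) (Cl.weight HC (h1 s) 1 ?_)
    filter_upwards [hn, hw1, hpow] with t h h' h''
    refine ⟨div_nonneg h' h.2.1.le, ?_⟩
    rw [one_mul]
    refine div_le_div_of_nonneg_right ?_ h.2.1.le
    exact mul_le_of_le_one_right h.1.le (h''.trans h.2.2.2)
  · have h := Cl.add HC (hW.lead s b) (Cl.weight HC (w' := fun t => a t * (lb t / μ t)) (hDD s b) 1 (by
      filter_upwards [hn, hw1, hpow] with t h h' h''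
      refine ⟨h', ?_⟩
      rw [one_mul]
      exact mul_le_mul_of_nonneg_left h'' h.1.le))
    refine Cl.congr HC h ?_
    filter_upwards [hsm] with t ht
    funext p
    rw [C.DD_add _ _ _ (ht.1 s) (ht.2 s)]
    abel
  · have h := Cl.add HC (hW.lc s b c) (Cl.weight HC (w' := fun t => a t * (lb t / μ t) ^ N)
      (h3 s b c) 1 (by
      filter_upwards [hn, hw1, hpow] with t h h' h''
      refine ⟨mul_nonneg h' (pow_nonneg h.2.2.1 _), ?_⟩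
      rw [one_mul]
      refine mul_le_mul_of_nonneg_right ?_ (pow_nonneg h.2.2.1 _)
      exact mul_le_of_le_one_right h.1.le (h''.trans h.2.2.2)))
    refine Cl.congr HC h ?_
    filter_upwards [hsm] with t ht
    funext p
    rw [C.LC_add _ _ _ (ht.1 s) (ht.2 s)]
  · filter_upwards [hW.supp s, h4 s] with t h h' p hp
    rw [h p hp, h' p hp, add_zero]
  · have hr1 : ∀ᶠ t in 𝓕, 0 ≤ a t ∧ 0 ≤ a t * r t ^ (k + 1) ∧ 0 ≤ r t ∧ r t ≤ 1 := by
      filter_upwards [hn, hw1] with t h h'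
      exact ⟨h.1.le, h', h.2.2.1, h.2.2.2⟩
    have hr2 : ∀ᶠ t in 𝓕, 0 ≤ a t * r t ^ (k + 1) ∧ 0 ≤ a t ∧ 0 ≤ r t ∧ r t ≤ 1 :=
      hr1.mono fun t h => ⟨h.2.1, h.1, h.2.2⟩
    have m1 := Calc.MM_lead HC 𝓜.om (kal2_phi_sm 𝓜) hr1 (fun s => (hν s).cl) hA hA'c
      (hνν A hA0) hW.lead h2 b c
    have m2 := Calc.MM_lead HC 𝓜.om (kal2_phi_sm 𝓜) hr2 (fun s => (hν s).cl) hA'c hA
      (hνν A' hA'0) h2 hW.lead b c
    have m3 := Calc.MM_cl HC 𝓜.om 𝓜.φ hDD hDD b c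
    have m1' := Cl.weight HC (w' := fun t => a t ^ 2 * r t ^ (k + 1 + 1)) m1 1 (by
      filter_upwards [hr1] with t h
      exact ⟨mul_nonneg (mul_nonneg h.1 h.2.1) h.2.2.1, le_of_eq (by ring)⟩)
    have m2' := Cl.weight HC (w' := fun t => a t ^ 2 * r t ^ (k + 1 + 1)) m2 1 (by
      filter_upwards [hr1] with t h
      exact ⟨mul_nonneg (mul_nonneg h.2.1 h.1) h.2.2.1, le_of_eq (by ring)⟩)
    have m3' := Cl.weight HC (w' := fun t => a t ^ 2 * r t ^ (k + 1 + 1)) m3 1 (by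
      filter_upwards [hr1, hpow] with t h h'
      refine ⟨mul_nonneg h.2.1 h.2.1, ?_⟩
      have e : a t * r t ^ (k + 1) * (a t * r t ^ (k + 1)) =
          a t ^ 2 * r t ^ (k + 1) * r t ^ (k + 1) := by ring
      rw [e, one_mul, pow_succ (r t) (k + 1), ← mul_assoc]
      exact mul_le_mul_of_nonneg_left h' (mul_nonneg (sq_nonneg _) (pow_nonneg h.2.2.1 _)))
    refine Cl.congr HC (Cl.add HC (Cl.add HC m1' m2') m3') ?_
    filter_upwards [hsm, hAA'] with t ht he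
    funext p
    rw [C.MM_add _ _ ht.1 ht.2]
    have e1 := he b c p
    have e2 : ∑ s, A' s t p * A s t p * (C.Z b (𝓜.φ s) p * C.Z c (𝓜.φ s) p) =
        ∑ s, A s t p * A' s t p * (C.Z b (𝓜.φ s) p * C.Z c (𝓜.φ s) p) :=
      Finset.sum_congr rfl fun s _ => by ring
    rw [e2, e1]
    simp only [hρ]
    ring

theorem Calc.kallen (hB : C.Base 𝓕 m lb μ F) (𝓜 : C.Modes 𝓕 m lb μ F S) {a : τ → ℝ}
    {H : τ → C.I → C.I → M → ℝ} (hH : C.Target 𝓕 lb a H) (N : ℕ) :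
    ∃ W : S → τ → M → Fin 4 → ℂ, (∀ s, Cl C.V 𝓕 lb (fun t => a t / μ t) (W s)) ∧
      (∀ s b c, Cl C.V 𝓕 lb (fun t => a t * (lb t / μ t) ^ N) fun t =>
        C.LC (F t) (𝓜.om s t) (𝓜.φ s) (W s t) b c) ∧
      (∀ b c, Cl C.V 𝓕 lb (fun t => a t ^ 2 * (lb t / μ t) ^ N) fun t p =>
        C.MM (fun s => 𝓜.om s t) 𝓜.φ (fun s => W s t) (fun s => W s t) b c p - H t b c p) ∧
      ∀ s, ∀ᶠ t in 𝓕, ∀ p ∉ 𝓜.K s t, W s t p = 0 := by
  rcases eq_or_neBot 𝓕 with rfl | hne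
  · exact ⟨fun _ _ _ => 0, fun s => ⟨by simp, fun k => ⟨0, by simp⟩⟩,
      fun s b c => ⟨by simp, fun k => ⟨0, by simp⟩⟩, fun b c => ⟨by simp, fun k => ⟨0, by simp⟩⟩,
      fun s => by simp⟩
  have HC := hB.ctx
  have hn := kal2_num hB hH.pos
  choose ν hν using fun s => Calc.frame_nu hB (𝓜.fr s)
  obtain ⟨sq, isq, hsq, hisq, hs⟩ := exists_sqrt (c := 1 / 100) (by norm_num)
  set L : S → τ → M → ℝ := fun s t p => (2 * (a t ^ 2)⁻¹) •
    lf (𝓜.ℓ s) (fun u v => H t (𝓜.ch s, u) (𝓜.ch s, v) p) with hL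
  have hLc : ∀ s, Cl C.V 𝓕 lb (fun _ => 1) (L s) := by
    intro s
    have h1 := kal2_lf_cl HC (𝓜.ℓ s) (f := fun t u v => H t (𝓜.ch s, u) (𝓜.ch s, v))
      (Eventually.of_forall fun t => sq_nonneg (a t)) fun u v => hH.cl (𝓜.ch s, u) (𝓜.ch s, v)
    have h3 := Cl.cmul HC (c := fun t => 2 * (a t ^ 2)⁻¹) (w' := fun t => 2 * (a t ^ 2)⁻¹) h1 (by
      filter_upwards [hn] with t h
      rw [abs_of_nonneg (by positivity)])
    refine Cl.weight HC h3 2 ?_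
    filter_upwards [hn] with t h
    have e : 2 * (a t ^ 2)⁻¹ * a t ^ 2 = 2 := by
      have := h.1.ne'
      field_simp
    rw [e]
    norm_num
  have hLlow : ∀ s, ∀ᶠ t in 𝓕, ∀ p ∈ 𝓜.K s t, 1 / 100 ≤ L s t p := by
    intro s
    filter_upwards [hn, hH.near, (𝓜.fr s).closed] with t h h1 h2 p hp
    have ha2 : 0 < a t ^ 2 := pow_pos h.1 2
    have h3 := 𝓜.pos s (fun u v => H t (𝓜.ch s, u) (𝓜.ch s, v) p / a t ^ 2) fun u v => by
      have h4 := h1 _ p (h2.2 hp) u v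
      have e : H t (𝓜.ch s, u) (𝓜.ch s, v) p / a t ^ 2 - idm u v =
          (H t (𝓜.ch s, u) (𝓜.ch s, v) p - a t ^ 2 * idm u v) / a t ^ 2 := by
        rw [sub_div, mul_div_cancel_left₀ _ ha2.ne']
      rw [e, abs_div, abs_of_pos ha2, div_le_iff₀ ha2]
      linarith
    rw [kal2_lf_div] at h3
    simp only [hL, smul_eq_mul]
    rw [div_eq_mul_inv (lf _ _)] at h3
    linarith
  set A : S → τ → M → ℝ := fun s t p => a t • (𝓜.α s t p * sq (L s t p)) with hA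
  have hAc : ∀ s, Cl C.V 𝓕 lb a (A s) := by
    intro s
    have h1 := Cl.cmul HC (c := a) (w' := a) (Cl.mul HC (𝓜.α_cl s) (Cl.comp HC hsq (hLc s))) (by
      filter_upwards [hn] with t h
      rw [abs_of_pos h.1])
    refine Cl.weight HC h1 1 ?_
    filter_upwards [hn] with t h
    exact ⟨by have := h.1; positivity, by simp⟩
  have hA0 : ∀ s, ∀ᶠ t in 𝓕, ∀ p ∉ 𝓜.K s t, A s t p = 0 := by
    intro s
    filter_upwards [𝓜.α_supp s] with t ht p hp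
    simp only [hA, ht p hp, zero_mul, smul_zero]
  have hAq : ∀ s, ∀ᶠ t in 𝓕, ∀ p ∈ 𝓜.K s t, A s t p * isq (L s t p) = a t * 𝓜.α s t p := by
    intro s
    filter_upwards [hLlow s] with t ht p hp
    have e := (hs _ (ht p hp)).2
    simp only [hA, smul_eq_mul]
    calc a t * (𝓜.α s t p * sq (L s t p)) * isq (L s t p)
        = a t * 𝓜.α s t p * (sq (L s t p) * isq (L s t p)) := by ring
      _ = _ := by rw [e, mul_one]
  have hmain : ∀ᶠ t in 𝓕, ∀ b c p,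
      1 / 2 * ∑ s, A s t p * A s t p * (C.Z b (𝓜.φ s) p * C.Z c (𝓜.φ s) p) = H t b c p := by
    filter_upwards [𝓜.dec, hH.tens, eventually_all.2 hLlow, eventually_all.2 hA0,
      eventually_all.2 𝓜.α_supp, hn] with t h1 h2 h3 h4 h5 h6 b c p
    rw [h1 (H t) h2.1 h2.2 b c p, Finset.mul_sum]
    refine Finset.sum_congr rfl fun s _ => ?_
    by_cases hp : p ∈ 𝓜.K s t
    · have e := (hs _ (h3 s p hp)).1
      have ha := h6.1.ne'
      calc 1 / 2 * (A s t p * A s t p * (C.Z b (𝓜.φ s) p * C.Z c (𝓜.φ s) p))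
          = 1 / 2 * a t ^ 2 * 𝓜.α s t p ^ 2 * sq (L s t p) ^ 2 *
              (C.Z b (𝓜.φ s) p * C.Z c (𝓜.φ s) p) := by
            simp only [hA, smul_eq_mul]; ring
        _ = _ := by
            rw [e]
            simp only [hL, smul_eq_mul]
            field_simp
    · rw [h4 s p hp, h5 s p hp]; ring
  have key : ∀ k, ∃ W, KInv 𝓜 a H ν A N k W := by
    intro k
    induction k with
    | zero =>
      choose W h1 h2 h3 h4 using fun s =>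
        Calc.free_mode hB (𝓜.fr s) (𝓜.freq s) (hν s) N (hn.mono fun t h => h.1.le) (hAc s) (hA0 s)
      refine ⟨W, h1, h2, h3, h4, fun b c => ?_⟩
      have hνν : ∀ s, ∀ᶠ t in 𝓕, ∀ p, A s t p * (ν s t p ⬝ᵥ ν s t p) = A s t p := by
        intro s
        filter_upwards [hA0 s, (hν s).orth] with t h h' p
        by_cases hp : p ∈ 𝓜.K s t
        · rw [(h' p hp).2.2, mul_one]
        · rw [h p hp, zero_mul]
      have m1 := Calc.MM_lead HC 𝓜.om (kal2_phi_sm 𝓜) (r := fun t => lb t / μ t)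
        (hn.mono fun t h => ⟨h.1.le, h.1.le, h.2.2.1, h.2.2.2⟩) (fun s => (hν s).cl) hAc hAc
        hνν h2 h2 b c
      have m1' := Cl.weight HC (w' := fun t => a t ^ 2 * (lb t / μ t) ^ (0 + 1)) m1 1 (by
        filter_upwards [hn] with t h
        exact ⟨mul_nonneg (mul_nonneg h.1.le h.1.le) h.2.2.1, le_of_eq (by ring)⟩)
      refine Cl.congr HC m1' ?_
      filter_upwards [hmain] with t ht
      funext p
      rw [ht b c p]
    | succ k ih =>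
      obtain ⟨W, hW⟩ := ih
      exact kal2_step hB 𝓜 hH hν hAc hA0 (q := fun s t p => isq (L s t p))
        (fun s => Cl.comp HC hisq (hLc s)) hAq hW
  obtain ⟨W, hW⟩ := key N
  refine ⟨W, hW.cl, hW.lc, fun b c => Cl.weight HC (hW.res b c) 1 ?_, hW.supp⟩
  filter_upwards [hn] with t h
  refine ⟨mul_nonneg (sq_nonneg _) (pow_nonneg h.2.2.1 _), ?_⟩
  rw [one_mul, pow_succ (lb t / μ t) N]
  exact mul_le_mul_of_nonneg_left (mul_le_of_le_one_right (pow_nonneg h.2.2.1 _) h.2.2.2)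
    (sq_nonneg _)

end Crest.Agent.R216
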