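import Crest.Agent.R216.ATens
import Crest.Agent.R216.AJet1
/-! # R216 (A): one step of the linear WKB solver.

`J = jet`, `ξ = cv i ψ`, `P u = Z (i,u) F`, `H u v = J.2 u v`, `T = perp ξ`; `nn` from `exists_nn`, `Q` from
`exists_dual`, `ι = φ (ξ ⬝ ξ)` (`exists_inv (1/2)`); all of them are `Cl 1` by `Cl.comp` (`jet_cl`, `cv_cl`, `Cl.prod`).
`fTT = ∑ (T u T v) • f u v`, `f' u v = f u v + (2 H u v ⬝ nn) • fTT` (so `f'_TT = 0` on `K`), `β` as in `beta_solve` for `f'`,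
`tan = ∑ v, β v • cx (Q v)`, `W = (m⁻¹ fTT) • cx nn + (i om)⁻¹ • tan`,
`R u v = (i om)⁻¹ (Z u (β v) + Z v (β u) - 2 m cx (H u v) ⬝ tan)`.
`LC_chart` with `b u = cx (P u) ⬝ W`; globally `b u = (i om)⁻¹ β u` (on `K` by the frame identities, off `K` both
sides vanish since `f` does), hence the identity everywhere.  If `fTT = 0` on `K` it vanishes everywhere. -/

set_option autoImplicit false
set_option linter.unusedSectionVars false
set_option linter.unusedVariables false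
open scoped Manifold ContDiff Topology Matrix
open Set Filter

namespace Crest.Agent.R216
universe u
variable {M : Type u} [TopologicalSpace M] [ChartedSpace E2 M] [IsManifold (𝓡 2) ∞ M]
  [CompactSpace M]
variable {g : Met M} {C : Calc g} {τ : Type*} {𝓕 : Filter τ} {m lb μ w w' om : τ → ℝ}
  {F : τ → M → Fin 4 → ℝ} {i : Fin C.n} {ψ : τ → M → ℝ} {K : τ → Set M}

theorem alin1_cx_dot (a b : Fin 4 → ℝ) : cx a ⬝ᵥ cx b = ((a ⬝ᵥ b : ℝ) : ℂ) := by
  simp [cx, dotProduct]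

theorem Calc.LC_chart (C : Calc g) {F : M → Fin 4 → ℝ} (hF : Sm F) {m : ℝ} (hm : m ≠ 0) (om : ℝ)
    (ψ : M → ℝ) {W : M → Fin 4 → ℂ} (hW : Sm W) (i : Fin C.n) (u v : Fin 2) (p : M) :
    C.LC F om ψ W (i, u) (i, v) p =
      Complex.I * om * (C.cv i ψ p u • (cx (C.Z (i, v) F p) ⬝ᵥ W p) +
          C.cv i ψ p v • (cx (C.Z (i, u) F p) ⬝ᵥ W p)) +
        (C.Z (i, u) (fun q => cx (C.Z (i, v) F q) ⬝ᵥ W q) p +
          C.Z (i, v) (fun q => cx (C.Z (i, u) F q) ⬝ᵥ W q) p) -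
        2 * m * (cx ((C.jet i m F p).2 u v) ⬝ᵥ W p) := by
  have key : ∀ a b : C.I, C.Z a (fun q => cx (C.Z b F q) ⬝ᵥ W q) p =
      cx (C.Z b F p) ⬝ᵥ C.Z a W p + cx (C.Z a (C.Z b F) p) ⬝ᵥ W p := by
    intro a b
    have h1 : Sm (C.Z b F) := Sm.zv (C.V_sm b) hF
    show dd (fun q => cx (C.Z b F q) ⬝ᵥ W q) p (C.V a p) = _
    rw [dd_dot (h1.cx.df p) (hW.df p), dd_cx (h1.df p)]
    rfl
  have hm' : (m : ℂ) ≠ 0 := by exact_mod_cast hm
  have hj : cx ((C.jet i m F p).2 u v) = ((2 * (m : ℂ))⁻¹) •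
      (cx (C.Z (i, u) (C.Z (i, v) F) p) + cx (C.Z (i, v) (C.Z (i, u) F) p)) := by
    funext r
    simp [cx, Calc.jet, mul_add]
  rw [key, key, hj]
  simp only [Calc.LC, Calc.DD, Calc.cv, dotProduct_add, dotProduct_smul, smul_dotProduct,
    add_dotProduct, smul_eq_mul, Complex.real_smul, Complex.ofReal_mul]
  field_simp
  ring

/-- `f(T,T)` -/
noncomputable def alin1TT (ξ : Fin 2 → ℝ) (f : Fin 2 → Fin 2 → ℂ) : ℂ :=
  ∑ u, ∑ v, (perp ξ u * perp ξ v) • f u v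

/-- the corrected tensor -/
noncomputable def alin1F (J : Jt) (ξ : Fin 2 → ℝ) (n : Fin 4 → ℝ) (f : Fin 2 → Fin 2 → ℂ)
    (u v : Fin 2) : ℂ :=
  f u v + (2 * (J.2 u v ⬝ᵥ n)) • alin1TT ξ f

/-- the solution of the symbol equation -/
noncomputable def alin1B (ξ : Fin 2 → ℝ) (ι : ℝ) (f : Fin 2 → Fin 2 → ℂ) (v : Fin 2) : ℂ :=
  ι • ∑ u, ξ u • f u v - (ξ v * ι ^ 2 / 2) • ∑ u, ∑ u', (ξ u * ξ u') • f u u'

theorem alin1_TT_F (J : Jt) (ξ : Fin 2 → ℝ) (n : Fin 4 → ℝ) (f : Fin 2 → Fin 2 → ℂ)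
    (h : HT J ξ ⬝ᵥ n = -1 / 2) :
    ∑ u, ∑ v, (perp ξ u * perp ξ v) • alin1F J ξ n f u v = 0 := by
  have h1 : ∑ u, ∑ v, (perp ξ u * perp ξ v) * (J.2 u v ⬝ᵥ n) = -1 / 2 := by
    rw [← h]
    simp only [HT, sum_dotProduct, smul_dotProduct, smul_eq_mul]
  have h2 : ∑ u, ∑ v, (perp ξ u * perp ξ v) • alin1F J ξ n f u v =
      alin1TT ξ f + (2 * ∑ u, ∑ v, (perp ξ u * perp ξ v) * (J.2 u v ⬝ᵥ n)) • alin1TT ξ f := by
    generalize hT : alin1TT ξ f = T
    simp only [alin1F, hT]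
    rw [← hT]
    simp only [alin1TT, Fin.sum_univ_two, Complex.real_smul]
    push_cast
    ring
  rw [h2, h1]
  simp only [Complex.real_smul]
  push_cast
  ring

section ClAux
variable {ι : Type} {V : ι → M → E2} {lam : τ → ℝ} (H : Ctx V 𝓕 lam)
include H

theorem alin1_smul {E : Type} [NormedAddCommGroup E] [NormedSpace ℝ E] {a : τ → M → ℝ}
    {f : τ → M → E} (ha : Cl V 𝓕 lam (fun _ => 1) a) (hf : Cl V 𝓕 lam w f) :
    Cl V 𝓕 lam w fun t p => a t p • f t p := by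
  simpa only [one_mul] using Cl.smul H ha hf

theorem alin1_mul {a b : τ → M → ℝ} (ha : Cl V 𝓕 lam (fun _ => 1) a)
    (hb : Cl V 𝓕 lam (fun _ => 1) b) : Cl V 𝓕 lam (fun _ => 1) fun t p => a t p * b t p := by
  simpa only [one_mul] using Cl.mul H ha hb

theorem alin1_TT_cl {ξ : τ → M → Fin 2 → ℝ} (hξ : Cl V 𝓕 lam (fun _ => 1) ξ)
    {f : τ → Fin 2 → Fin 2 → M → ℂ} (hf : ∀ u v, Cl V 𝓕 lam w fun t => f t u v) :
    Cl V 𝓕 lam w fun t p => alin1TT (ξ t p) fun u v => f t u v p := by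
  have hT : ∀ u, Cl V 𝓕 lam (fun _ => 1) fun t p => perp (ξ t p) u := by
    intro u
    fin_cases u
    · exact Cl.neg H (Cl.apply H hξ 1)
    · exact Cl.apply H hξ 0
  exact Cl.sum H _ fun u _ => Cl.sum H _ fun v _ =>
    alin1_smul H (alin1_mul H (hT u) (hT v)) (hf u v)

theorem alin1_F_cl {J : τ → M → Jt} (hJ : Cl V 𝓕 lam (fun _ => 1) J) {ξ : τ → M → Fin 2 → ℝ}
    (hξ : Cl V 𝓕 lam (fun _ => 1) ξ) {n : τ → M → Fin 4 → ℝ} (hn : Cl V 𝓕 lam (fun _ => 1) n)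
    {f : τ → Fin 2 → Fin 2 → M → ℂ} (hf : ∀ u v, Cl V 𝓕 lam w fun t => f t u v) (u v : Fin 2) :
    Cl V 𝓕 lam w fun t p => alin1F (J t p) (ξ t p) (n t p) (fun u v => f t u v p) u v := by
  have h2 : Cl V 𝓕 lam (fun _ => 1) fun t p => (J t p).2 u v :=
    Cl.apply H (Cl.apply H (Cl.clm H (ContinuousLinearMap.snd ℝ _ _) hJ) u) v
  have h3 : Cl V 𝓕 lam (fun _ => 1) fun t p => (J t p).2 u v ⬝ᵥ n t p := by
    simpa only [one_mul] using Cl.dot H h2 hn
  have h4 : Cl V 𝓕 lam (fun _ => 1) fun t p => 2 * ((J t p).2 u v ⬝ᵥ n t p) :=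
    Cl.comp H (Φ := fun x : ℝ => 2 * x) (by fun_prop) h3
  exact Cl.add H (hf u v) (alin1_smul H h4 (alin1_TT_cl H hξ hf))

theorem alin1_B_cl {ξ : τ → M → Fin 2 → ℝ} (hξ : Cl V 𝓕 lam (fun _ => 1) ξ) {ι' : τ → M → ℝ}
    (hι : Cl V 𝓕 lam (fun _ => 1) ι') {f : τ → Fin 2 → Fin 2 → M → ℂ}
    (hf : ∀ u v, Cl V 𝓕 lam w fun t => f t u v) (v : Fin 2) :
    Cl V 𝓕 lam w fun t p => alin1B (ξ t p) (ι' t p) (fun u v => f t u v p) v := by
  have h1 : Cl V 𝓕 lam (fun _ => 1) fun t p => ι' t p ^ 2 / 2 :=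
    Cl.comp H (Φ := fun x : ℝ => x ^ 2 / 2) (by fun_prop) hι
  have h2 : Cl V 𝓕 lam (fun _ => 1) fun t p => ξ t p v * ι' t p ^ 2 / 2 := by
    simpa only [mul_div_assoc] using alin1_mul H (Cl.apply H hξ v) h1
  exact Cl.sub H
    (alin1_smul H hι (Cl.sum H _ fun u _ => alin1_smul H (Cl.apply H hξ u) (hf u v)))
    (alin1_smul H h2 (Cl.sum H _ fun u _ => Cl.sum H _ fun u' _ =>
      alin1_smul H (alin1_mul H (Cl.apply H hξ u) (Cl.apply H hξ u')) (hf u u')))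

end ClAux

theorem Calc.lin_step (hB : C.Base 𝓕 m lb μ F) (hK : C.Frame 𝓕 m lb F i ψ K)
    (hom : Freq 𝓕 μ om) {f : τ → Fin 2 → Fin 2 → M → ℂ} (hf : C.Amp 𝓕 lb w K f) :
    ∃ (W : τ → M → Fin 4 → ℂ) (R : τ → Fin 2 → Fin 2 → M → ℂ),
      Cl C.V 𝓕 lb (fun t => w t / m t) W ∧ C.Amp 𝓕 lb (fun t => w t * (lb t / μ t)) K R ∧
      (∀ᶠ t in 𝓕, (∀ p ∉ K t, W t p = 0) ∧ ∀ u v p,
        C.LC (F t) (om t) (ψ t) (W t) (i, u) (i, v) p = f t u v p + R t u v p) ∧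
      ((∀ᶠ t in 𝓕, ∀ p ∈ K t, ∑ u, ∑ v,
          (perp (C.cv i (ψ t) p) u * perp (C.cv i (ψ t) p) v) • f t u v p = 0) →
        Cl C.V 𝓕 lb (fun t => w t / μ t) W) := by
  have H := hB.ctx
  obtain ⟨η, hη, hgood⟩ := hK.good
  obtain ⟨nn, hnn, hnn'⟩ := exists_nn hη
  obtain ⟨Q, hQ, hQ'⟩ := exists_dual
  obtain ⟨φ, hφ, hφ'⟩ := exists_inv (c := 1 / 2) (by norm_num)
  obtain ⟨c₀, hom⟩ := hom
  have hJ := hB.jet_cl i
  have hξ := hK.cv_cl hB
  set J : τ → M → Jt := fun t => C.jet i (m t) (F t) with hJdef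
  set ξ : τ → M → Fin 2 → ℝ := fun t => C.cv i (ψ t) with hξdef
  set n : τ → M → Fin 4 → ℝ := fun t p => nn (J t p, ξ t p) with hndef
  have hn : Cl C.V 𝓕 lb (fun _ => 1) n :=
    Cl.comp H hnn (Cl.prod H (Eventually.of_forall fun _ => zero_le_one) hJ hξ)
  have hQc : ∀ v, Cl C.V 𝓕 lb (fun _ => 1) fun t p => Q (J t p) v := fun v =>
    Cl.apply H (Cl.comp H hQ hJ) v
  set ι' : τ → M → ℝ := fun t p => φ (ξ t p ⬝ᵥ ξ t p) with hιdef
  have hι : Cl C.V 𝓕 lb (fun _ => 1) ι' :=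
    Cl.comp H hφ (by simpa only [one_mul] using Cl.dot H hξ hξ)
  set T : τ → M → ℂ := fun t p => alin1TT (ξ t p) fun u v => f t u v p with hTdef
  have hT : Cl C.V 𝓕 lb w T := alin1_TT_cl H hξ hf.cl
  set f' : τ → Fin 2 → Fin 2 → M → ℂ :=
    fun t u v p => alin1F (J t p) (ξ t p) (n t p) (fun u v => f t u v p) u v with hf'def
  have hf' : ∀ u v, Cl C.V 𝓕 lb w fun t => f' t u v := fun u v =>
    alin1_F_cl H hJ hξ hn hf.cl u v
  set β : τ → Fin 2 → M → ℂ :=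
    fun t v p => alin1B (ξ t p) (ι' t p) (fun u v => f' t u v p) v with hβdef
  have hβ : ∀ v, Cl C.V 𝓕 lb w fun t => β t v := fun v => alin1_B_cl H hξ hι hf' v
  set tn : τ → M → Fin 4 → ℂ := fun t p => ∑ v, β t v p • cx (Q (J t p) v) with htndef
  have htn : Cl C.V 𝓕 lb w tn := Cl.sum H _ fun v _ => by
    simpa only [mul_one] using Cl.csmul H (hβ v) (Cl.cx H (hQc v))
  set κ : τ → ℂ := fun t => (Complex.I * om t)⁻¹ with hκdef
  have hκ : Cl C.V 𝓕 lb (fun t => (μ t)⁻¹) fun t (_ : M) => κ t := by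
    refine Cl.const H ?_
    filter_upwards [hom, hB.le] with t h1 h2
    have : 0 < μ t := by linarith [h2.1, h2.2.1, h2.2.2]
    simp only [hκdef, norm_inv, norm_mul, Complex.norm_I, one_mul, Complex.norm_real,
      Real.norm_eq_abs]
    exact inv_anti₀ this h1.1
  have hW2 : Cl C.V 𝓕 lb (fun t => w t / μ t) fun t p => κ t • tn t p := by
    simpa only [div_eq_inv_mul] using Cl.csmul H hκ htn
  have hW1 : Cl C.V 𝓕 lb (fun t => w t / m t) fun t p => ((m t)⁻¹ • T t p) • cx (n t p) := by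
    have h1 : Cl C.V 𝓕 lb (fun t => (m t)⁻¹ * w t) fun t p => (m t)⁻¹ • T t p := by
      refine Cl.cmul H hT ?_
      filter_upwards [hB.le] with t h2
      rw [abs_of_pos (inv_pos.2 (by linarith [h2.1]))]
    simpa only [div_eq_inv_mul, mul_one] using Cl.csmul H h1 (Cl.cx H hn)
  set W : τ → M → Fin 4 → ℂ := fun t p => ((m t)⁻¹ • T t p) • cx (n t p) + κ t • tn t p with hWdef
  have hW : Cl C.V 𝓕 lb (fun t => w t / m t) W := by
    refine Cl.add H hW1 (Cl.weight H hW2 1 ?_)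
    filter_upwards [hB.le, hf.nonneg] with t h2 h3
    have h4 : 0 < m t := by linarith [h2.1]
    refine ⟨div_nonneg h3 (by linarith [h2.2.1, h2.2.2]), ?_⟩
    rw [one_mul]
    exact div_le_div_of_nonneg_left h3 h4 (by linarith [h2.2.1, h2.2.2])
  set R : τ → Fin 2 → Fin 2 → M → ℂ := fun t u v p => κ t * (C.Z (i, u) (β t v) p +
    C.Z (i, v) (β t u) p - (2 * m t) • (cx ((J t p).2 u v) ⬝ᵥ tn t p)) with hRdef
  -- everything vanishes off `K`
  have hoff : ∀ᶠ t in 𝓕, ∀ p ∉ K t, T t p = 0 ∧ (∀ u v, f' t u v p = 0) ∧ (∀ v, β t v p = 0) ∧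
      tn t p = 0 ∧ W t p = 0 := by
    filter_upwards [hf.supp] with t h1 p hp
    have e1 : T t p = 0 := by simp [hTdef, alin1TT, h1 p hp]
    have e2 : ∀ u v, f' t u v p = 0 := fun u v => by
      simp [hf'def, alin1F, alin1TT, h1 p hp]
    have e3 : ∀ v, β t v p = 0 := fun v => by simp [hβdef, alin1B, e2]
    have e4 : tn t p = 0 := by simp [htndef, e3]
    exact ⟨e1, e2, e3, e4, by simp [hWdef, e1, e4]⟩
  have hJs : ∀ t p u v, (J t p).2 u v = (J t p).2 v u := fun t p u v => by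
    simp only [hJdef, Calc.jet, add_comm]
  refine ⟨W, R, hW, ⟨?_, fun u v => ?_, ?_, ?_⟩, ?_, fun h0 => ?_⟩
  · filter_upwards [hB.le, hf.nonneg] with t h2 h3
    exact mul_nonneg h3 (div_nonneg (by linarith [h2.1, h2.2.1]) (by linarith [h2.1, h2.2.1, h2.2.2]))
  · have h2 : Cl C.V 𝓕 lb (fun _ => 1) fun t p => (J t p).2 u v :=
      Cl.apply H (Cl.apply H (Cl.clm H (ContinuousLinearMap.snd ℝ _ _) hJ) u) v
    have h3 : Cl C.V 𝓕 lb w fun t p => cx ((J t p).2 u v) ⬝ᵥ tn t p := by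
      simpa only [one_mul] using Cl.dot H (Cl.cx H h2) htn
    have h4 : Cl C.V 𝓕 lb (fun t => (2 * lb t) * w t)
        fun t p => (2 * m t) • (cx ((J t p).2 u v) ⬝ᵥ tn t p) := by
      refine Cl.cmul H h3 ?_
      filter_upwards [hB.le] with t h2
      rw [abs_of_pos (by linarith [h2.1])]
      linarith [h2.2.1]
    have h5 : Cl C.V 𝓕 lb (fun t => lb t * w t)
        fun t p => (2 * m t) • (cx ((J t p).2 u v) ⬝ᵥ tn t p) := by
      refine Cl.weight H h4 2 ?_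
      filter_upwards [hB.le, hf.nonneg] with t h2 h3
      exact ⟨mul_nonneg (by linarith [h2.1, h2.2.1]) h3, le_of_eq (by ring)⟩
    have h6 := Cl.mul H hκ
      (Cl.sub H (Cl.add H (Cl.zv H (hβ v) (i, u)) (Cl.zv H (hβ u) (i, v))) h5)
    have e : (fun t => w t * (lb t / μ t)) = fun t => (μ t)⁻¹ * (lb t * w t) := by
      funext t; ring
    rw [e]
    exact h6
  · refine Eventually.of_forall fun t u v p => ?_
    simp only [hRdef, hJs t p u v, add_comm]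
  · filter_upwards [hoff, hK.closed] with t h1 h2 p hp u v
    have e : ∀ a v, C.Z a (β t v) p = 0 := fun a v => by
      show dd (β t v) p _ = 0
      rw [dd_zero_of_closed h2.1 (fun q hq => (h1 q hq).2.2.1 v) hp]
      rfl
    simp [hRdef, e, (h1 p hp).2.2.2.1]
  · filter_upwards [hoff, hB.le, hB.sm, hW.1, hom, hgood, hf.symm, (hβ 0).1, (hβ 1).1, hf.supp]
      with t h1 h2 h3 h4 h5 h6 h7 h8 h9 h10
    refine ⟨fun p hp => (h1 p hp).2.2.2.2, fun u v p => ?_⟩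
    have hm0 : m t ≠ 0 := by linarith [h2.1] |> fun h : 0 < m t => h.ne'
    have hom0 : om t ≠ 0 := by
      intro h
      have := h5.1
      rw [h, abs_zero] at this
      linarith [h2.1, h2.2.1, h2.2.2]
    have hβs : ∀ v, Sm (β t v) := fun v => by
      fin_cases v
      · exact h8
      · exact h9
    have hκ1 : Complex.I * om t * κ t = 1 :=
      mul_inv_cancel₀ (mul_ne_zero Complex.I_ne_zero (by exact_mod_cast hom0))
    -- the tangential components of `W`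
    have hb : ∀ v, (fun q => cx (C.Z (i, v) (F t) q) ⬝ᵥ W t q) = fun q => κ t * β t v q := by
      intro v
      funext q
      by_cases hq : q ∈ K t
      · obtain ⟨g1, g2, g3⟩ := h6 q hq
        have e1 : C.Z (i, v) (F t) q ⬝ᵥ n t q = 0 := (hnn' _ _ g2).1 v
        have e2 : ∀ v', C.Z (i, v) (F t) q ⬝ᵥ Q (J t q) v' = idm v v' := fun v' => hQ' _ g1 v v'
        simp only [hWdef, htndef, dotProduct_add, dotProduct_smul, dotProduct_sum, alin1_cx_dot,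
          e1, e2, smul_eq_mul]
        fin_cases v <;> simp [idm]
      · simp [(h1 q hq).2.2.2.2, (h1 q hq).2.2.1]
    have hb' : ∀ v, cx (C.Z (i, v) (F t) p) ⬝ᵥ W t p = κ t * β t v p := fun v => congrFun (hb v) p
    have hZ : ∀ a v, C.Z a (fun q => κ t * β t v q) p = κ t * C.Z a (β t v) p := fun a v => by
      show dd (fun q => κ t * β t v q) p _ = _
      rw [dd_mul ((sm_const _).df p) ((hβs v).df p), dd_const]
      rw [zero_apply, zero_mul, add_zero]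
      rfl
    have hs : ξ t p u • β t v p + ξ t p v • β t u p = f' t u v p := by
      by_cases hp : p ∈ K t
      · obtain ⟨g1, g2, g3⟩ := h6 p hp
        refine beta_solve (ξ t p) (ι' t p) ?_ (fun u v => f' t u v p) (fun u v => ?_)
          (alin1_TT_F _ _ _ _ (hnn' _ _ g2).2) (fun v => β t v p) (fun v => rfl) u v
        · have e : ι' t p = (ξ t p ⬝ᵥ ξ t p)⁻¹ := hφ' _ g3
          rw [e]
          exact inv_mul_cancel₀ (by linarith [show (1 / 2 : ℝ) ≤ ξ t p ⬝ᵥ ξ t p from g3] |>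
            fun h : 0 < ξ t p ⬝ᵥ ξ t p => h.ne')
        · simp only [hf'def, alin1F, h7 u v p, hJs t p u v]
      · simp [(h1 p hp).2.2.1, (h1 p hp).2.1]
    have hH : cx ((J t p).2 u v) ⬝ᵥ W t p = ((m t : ℂ))⁻¹ * T t p * (((J t p).2 u v ⬝ᵥ n t p : ℝ) : ℂ) +
        κ t * (cx ((J t p).2 u v) ⬝ᵥ tn t p) := by
      simp only [hWdef, dotProduct_add, dotProduct_smul, alin1_cx_dot, smul_eq_mul,
        Complex.real_smul, Complex.ofReal_inv]
    have hf'e : f' t u v p = f t u v p + 2 * (((J t p).2 u v ⬝ᵥ n t p : ℝ) : ℂ) * T t p := by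
      simp only [hf'def, alin1F, Complex.real_smul, hTdef]
      push_cast
      ring
    rw [C.LC_chart h3 hm0 (om t) (ψ t) h4 i u v p, hb, hb, hb', hb', hZ, hZ]
    change Complex.I * om t * (ξ t p u • (κ t * β t v p) + ξ t p v • (κ t * β t u p)) + _ -
      2 * m t * (cx ((J t p).2 u v) ⬝ᵥ W t p) = _
    rw [hH]
    have hm' : (m t : ℂ) * (m t : ℂ)⁻¹ = 1 := mul_inv_cancel₀ (by exact_mod_cast hm0)
    simp only [hRdef, Complex.real_smul] at hs ⊢
    push_cast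
    linear_combination hs + hf'e + (ξ t p u * β t v p + ξ t p v * β t u p) * hκ1 -
      2 * T t p * (((J t p).2 u v ⬝ᵥ n t p : ℝ) : ℂ) * hm'
  · refine Cl.congr H hW2 ?_
    filter_upwards [h0, hoff] with t h1 h2
    funext p
    have e : T t p = 0 := by
      by_cases hp : p ∈ K t
      · exact h1 p hp
      · exact (h2 p hp).1
    simp [hWdef, e]

end Crest.Agent.R216
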