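import Crest.Agent.R216.ALin1
/-! # R216 (A): the linear WKB solver to order `N` and the free modes.

`lin`: induction on `N` for the chart identity (`N = 0`: `W = 0`, `R = -f`; step: `lin_step` for `-R`, `LC_add`);
the global form follows from `tens_LC` on `O i ⊇ K`, off `K` both sides vanish (`DD_zero`).
`free_mode`: `W₀ = (A/om) • cx ν`; `cx (P u) ⬝ W₀ = 0` everywhere, so by `LC_chart`
`LC W₀ (i,u) (i,v) = -f₀`, `f₀ u v = 2 m (A/om) (H u v ⬝ ν)` has weight `w m/μ` and `(f₀)_TT = 0` on `K`.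
`lin_step` for `f₀` gives `W₁ = O(w m/μ²)`, `R₁ = O(w (m/μ) (lb/μ))`; `lin N` for `-R₁` gives `W₂ = O(w lb/μ²)`;
`W = W₀ + W₁ + W₂`, `LC W = push R₂` (`tens_LC`), `DD (W₁ + W₂) = O(w lb/μ)` by `Frame.DD_cl`,
`DD a W₀ = Z a W₀ + i A Z a ψ • cx ν`. -/

set_option autoImplicit false
set_option linter.unusedSectionVars false
set_option linter.unusedVariables false
open scoped Manifold ContDiff Topology Matrix
open Set Filter

namespace Crest.Agent.R216
universe u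
variable {M : Type u} [TopologicalSpace M] [ChartedSpace E2 M] [IsManifold (𝓡 2) ∞ M]
  [CompactSpace M]
variable {g : Met M} {C : Calc g} {τ : Type*} {𝓕 : Filter τ} {m lb μ w w' om : τ → ℝ}
  {F : τ → M → Fin 4 → ℝ} {i : Fin C.n} {ψ : τ → M → ℝ} {K : τ → Set M}

theorem alin2a_neg (H : Ctx C.V 𝓕 lb) {f : τ → Fin 2 → Fin 2 → M → ℂ} (hf : C.Amp 𝓕 lb w K f) :
    C.Amp 𝓕 lb w K fun t u v p => -f t u v p := by
  refine ⟨hf.nonneg, fun u v => Cl.neg H (hf.cl u v), ?_, ?_⟩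
  · filter_upwards [hf.symm] with t ht u v p
    rw [ht]
  · filter_upwards [hf.supp] with t ht p hp u v
    rw [ht p hp, neg_zero]

theorem alin2a_chart (hB : C.Base 𝓕 m lb μ F) (hK : C.Frame 𝓕 m lb F i ψ K) (hom : Freq 𝓕 μ om)
    (N : ℕ) {f : τ → Fin 2 → Fin 2 → M → ℂ} (hf : C.Amp 𝓕 lb w K f) :
    ∃ (W : τ → M → Fin 4 → ℂ) (R : τ → Fin 2 → Fin 2 → M → ℂ),
      Cl C.V 𝓕 lb (fun t => w t / m t) W ∧ C.Amp 𝓕 lb (fun t => w t * (lb t / μ t) ^ N) K R ∧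
      ∀ᶠ t in 𝓕, (∀ p ∉ K t, W t p = 0) ∧ ∀ u v p,
        C.LC (F t) (om t) (ψ t) (W t) (i, u) (i, v) p = f t u v p + R t u v p := by
  have H := hB.ctx
  induction N with
  | zero =>
    refine ⟨fun _ _ => 0, fun t u v p => -f t u v p, Cl.zero H, ?_, Eventually.of_forall fun t =>
      ⟨fun _ _ => rfl, fun u v p => ?_⟩⟩
    · simpa only [pow_zero, mul_one] using alin2a_neg H hf
    · have h0 : ∀ a, C.DD (om t) (ψ t) a (fun _ => 0) p = 0 := fun a =>
        C.DD_zero _ _ a isClosed_empty (fun _ _ => rfl) (notMem_empty p)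
      simp only [Calc.LC, h0, dotProduct_zero, add_zero, add_neg_cancel]
  | succ N ih =>
    obtain ⟨W, R, h1, h2, h3⟩ := ih
    obtain ⟨W', R', h1', h2', h3', -⟩ := Calc.lin_step hB hK hom (alin2a_neg H h2)
    refine ⟨fun t p => W t p + W' t p, R', Cl.add H h1 (Cl.weight H h1' 1 ?_), ?_, ?_⟩
    · filter_upwards [hB.le, hf.nonneg] with t ht hw
      have hm : 0 < m t := by linarith [ht.1]
      have hl : 0 ≤ lb t / μ t := div_nonneg (by linarith [ht.1, ht.2.1])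
        (by linarith [ht.1, ht.2.1, ht.2.2])
      have hl1 : lb t / μ t ≤ 1 := div_le_one_of_le₀ ht.2.2 (by linarith [ht.1, ht.2.1, ht.2.2])
      refine ⟨by positivity, ?_⟩
      rw [one_mul]
      exact div_le_div_of_nonneg_right (mul_le_of_le_one_right hw (pow_le_one₀ hl hl1)) hm.le
    · simpa only [pow_succ, mul_assoc] using h2'
    · filter_upwards [h3, h3', h1.1, h1'.1] with t ht ht' s s'
      refine ⟨fun p hp => by rw [ht.1 p hp, ht'.1 p hp, add_zero], fun u v p => ?_⟩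
      rw [C.LC_add _ _ _ s s', ht.2, ht'.2]
      ring

theorem Calc.lin (hB : C.Base 𝓕 m lb μ F) (hK : C.Frame 𝓕 m lb F i ψ K) (hom : Freq 𝓕 μ om)
    (N : ℕ) {f : τ → Fin 2 → Fin 2 → M → ℂ} (hf : C.Amp 𝓕 lb w K f) :
    ∃ (W : τ → M → Fin 4 → ℂ) (R : τ → Fin 2 → Fin 2 → M → ℂ),
      Cl C.V 𝓕 lb (fun t => w t / m t) W ∧ C.Amp 𝓕 lb (fun t => w t * (lb t / μ t) ^ N) K R ∧
      ∀ᶠ t in 𝓕, (∀ p ∉ K t, W t p = 0) ∧ ∀ a b p, C.LC (F t) (om t) (ψ t) (W t) a b p =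
        C.push i (fun u v q => f t u v q + R t u v q) a b p := by
  obtain ⟨W, R, h1, h2, h3⟩ := alin2a_chart hB hK hom N hf
  refine ⟨W, R, h1, h2, ?_⟩
  filter_upwards [h3, hK.closed, hf.supp, h2.supp] with t ht hc s1 s2
  refine ⟨ht.1, fun a b p => ?_⟩
  by_cases hp : p ∈ K t
  · rw [C.tens_LC (F t) (om t) (ψ t) (W t) i p (hc.2 hp) a b]
    simp only [Calc.push, ht.2]
  · simp only [Calc.LC, Calc.push, C.DD_zero _ _ _ hc.1 ht.1 hp, s1 p hp, s2 p hp, dotProduct_zero,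
      add_zero, smul_zero, Finset.sum_const_zero]

theorem Calc.frame_nu (hB : C.Base 𝓕 m lb μ F) (hK : C.Frame 𝓕 m lb F i ψ K) :
    ∃ ν, C.Nu 𝓕 m lb F i ψ K ν := by
  obtain ⟨η, hη, hg⟩ := hK.good
  obtain ⟨ν, hν, h⟩ := exists_nu hη
  refine ⟨fun t p => ν (C.jet i (m t) (F t) p, C.cv i (ψ t) p),
    Cl.comp hB.ctx hν (Cl.prod hB.ctx (Eventually.of_forall fun _ => zero_le_one) (hB.jet_cl i)
      (hK.cv_cl hB)), ?_⟩
  filter_upwards [hg] with t ht p hp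
  exact h _ _ (ht p hp).2.1

theorem al2b_cx_dot (x y : Fin 4 → ℝ) (a b : ℝ) :
    cx x ⬝ᵥ (a • b • cx y) = ((a * (b * (x ⬝ᵥ y)) : ℝ) : ℂ) := by
  simp only [dotProduct, cx, Fin.sum_univ_four, Pi.smul_apply, Complex.real_smul]
  push_cast
  ring

theorem al2b_neg (H : Ctx C.V 𝓕 lb) {f : τ → Fin 2 → Fin 2 → M → ℂ} (hf : C.Amp 𝓕 lb w K f) :
    C.Amp 𝓕 lb w K fun t u v p => -f t u v p where
  nonneg := hf.nonneg
  cl u v := Cl.neg H (hf.cl u v)
  symm := hf.symm.mono fun t ht u v p => by rw [ht]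
  supp := hf.supp.mono fun t ht p hp u v => by rw [ht p hp, neg_zero]

theorem Calc.free_mode (hB : C.Base 𝓕 m lb μ F) (hK : C.Frame 𝓕 m lb F i ψ K) (hom : Freq 𝓕 μ om)
    {ν : τ → M → Fin 4 → ℝ} (hν : C.Nu 𝓕 m lb F i ψ K ν) (N : ℕ) {A : τ → M → ℝ}
    (hw : ∀ᶠ t in 𝓕, 0 ≤ w t) (hA : Cl C.V 𝓕 lb w A) (hA0 : ∀ᶠ t in 𝓕, ∀ p ∉ K t, A t p = 0) :
    ∃ W : τ → M → Fin 4 → ℂ, Cl C.V 𝓕 lb (fun t => w t / μ t) W ∧
      (∀ a, Cl C.V 𝓕 lb (fun t => w t * (lb t / μ t)) fun t p =>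
        C.DD (om t) (ψ t) a (W t) p -
          (Complex.I * ((A t p * C.Z a (ψ t) p : ℝ) : ℂ)) • cx (ν t p)) ∧
      (∀ a b, Cl C.V 𝓕 lb (fun t => w t * (lb t / μ t) ^ N) fun t =>
        C.LC (F t) (om t) (ψ t) (W t) a b) ∧
      ∀ᶠ t in 𝓕, ∀ p ∉ K t, W t p = 0 := by
  have H := hB.ctx
  have hle : ∀ᶠ t in 𝓕, 0 < m t ∧ m t ≤ lb t ∧ lb t ≤ μ t ∧ 0 < μ t ∧ 0 ≤ w t := by
    filter_upwards [hB.le, hw] with t h1 h2
    exact ⟨by linarith [h1.1], h1.2.1, h1.2.2, by linarith [h1.1, h1.2.1, h1.2.2], h2⟩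
  have hinv : ∀ᶠ t in 𝓕, om t ≠ 0 ∧ |(om t)⁻¹| ≤ (μ t)⁻¹ := by
    obtain ⟨c, hc⟩ := hom
    filter_upwards [hc, hle] with t h1 h2
    refine ⟨abs_pos.1 (h2.2.2.2.1.trans_le h1.1), ?_⟩
    rw [abs_inv]
    exact inv_anti₀ h2.2.2.2.1 h1.1
  -- the leading term
  obtain ⟨W₀, hW₀⟩ : ∃ W₀ : τ → M → Fin 4 → ℂ, W₀ = fun t p => (om t)⁻¹ • A t p • cx (ν t p) :=
    ⟨_, rfl⟩
  have cW₀ : Cl C.V 𝓕 lb (fun t => w t / μ t) W₀ := by
    rw [hW₀]
    refine Cl.weight H (Cl.cmul H (Cl.smul H hA (Cl.cx H hν.cl)) (hinv.mono fun t ht => ht.2)) 1 ?_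
    filter_upwards [hle] with t ht
    have := ht.2.2.2.1
    have := ht.2.2.2.2
    exact ⟨by positivity, le_of_eq (by field_simp)⟩
  have sW₀ : ∀ᶠ t in 𝓕, ∀ p ∉ K t, W₀ t p = 0 := by
    filter_upwards [hA0] with t ht p hp
    simp only [hW₀, ht p hp, zero_smul, smul_zero]
  obtain ⟨f₀, hf₀⟩ : ∃ f₀ : τ → Fin 2 → Fin 2 → M → ℂ, f₀ = fun t u v p =>
      (((2 * m t * (om t)⁻¹) • (A t p * ((C.jet i (m t) (F t) p).2 u v ⬝ᵥ ν t p)) : ℝ) : ℂ) :=
    ⟨_, rfl⟩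
  have af₀ : C.Amp 𝓕 lb (fun t => w t * (m t / μ t)) K f₀ := by
    refine ⟨?_, fun u v => ?_, ?_, ?_⟩
    · filter_upwards [hle] with t ht
      have := ht.1
      have := ht.2.2.2.1
      have := ht.2.2.2.2
      positivity
    · rw [hf₀]
      have hJ : Cl C.V 𝓕 lb (fun _ => 1) fun t p => (C.jet i (m t) (F t) p).2 u v :=
        Cl.apply H (Cl.apply H (Cl.clm H (ContinuousLinearMap.snd ℝ _ _) (hB.jet_cl i)) u) v
      refine Cl.ofReal H (Cl.weight H (Cl.cmul (w' := fun t => 2 * m t * (μ t)⁻¹) H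
        (Cl.mul H hA (Cl.dot H hJ hν.cl)) ?_) 2 ?_)
      · filter_upwards [hle, hinv] with t ht hi
        have := ht.1
        rw [abs_mul, abs_of_pos (by positivity : 0 < 2 * m t)]
        exact mul_le_mul_of_nonneg_left hi.2 (by positivity)
      · filter_upwards [hle] with t ht
        have := ht.1
        have := ht.2.2.2.1
        have := ht.2.2.2.2
        exact ⟨by positivity, le_of_eq (by field_simp)⟩
    · refine .of_forall fun t u v p => ?_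
      simp only [hf₀, Calc.jet]
      rw [add_comm]
    · filter_upwards [hA0] with t ht p hp u v
      simp only [hf₀, ht p hp, zero_mul, smul_zero, Complex.ofReal_zero]
  have eW₀ : ∀ᶠ t in 𝓕, ∀ u v p,
      C.LC (F t) (om t) (ψ t) (W₀ t) (i, u) (i, v) p = -f₀ t u v p := by
    filter_upwards [hle, hB.sm, cW₀.1, sW₀, hν.orth] with t ht hF hW hs ho u v p
    have h0 : ∀ u, (fun q => cx (C.Z (i, u) (F t) q) ⬝ᵥ W₀ t q) = fun _ => 0 := by
      intro u
      funext q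
      by_cases hq : q ∈ K t
      · simp only [hW₀, al2b_cx_dot, (ho q hq).1 u, mul_zero, Complex.ofReal_zero]
      · rw [hs q hq, dotProduct_zero]
    have h1 : ∀ u, cx (C.Z (i, u) (F t) p) ⬝ᵥ W₀ t p = 0 := fun u => congrFun (h0 u) p
    rw [C.LC_chart hF ht.1.ne' _ _ hW, h0, h0, h1, h1]
    simp only [hW₀, hf₀, al2b_cx_dot, Calc.Z, Zv, dd_const, zero_apply,
      smul_eq_mul, smul_zero]
    push_cast
    ring
  have tt : ∀ᶠ t in 𝓕, ∀ p ∈ K t, ∑ u, ∑ v,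
      (perp (C.cv i (ψ t) p) u * perp (C.cv i (ψ t) p) v) • f₀ t u v p = 0 := by
    filter_upwards [hν.orth] with t ho p hp
    have h1 := (ho p hp).2.1
    simp only [HT, Fin.sum_univ_two, add_dotProduct, smul_dotProduct, smul_eq_mul] at h1
    simp only [hf₀, Fin.sum_univ_two, smul_eq_mul, Complex.real_smul]
    norm_cast
    linear_combination (2 * m t * (om t)⁻¹ * A t p) * h1
  -- the corrections
  obtain ⟨W₁, R₁, -, aR₁, eW₁, cW₁⟩ := Calc.lin_step hB hK hom af₀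
  replace cW₁ := cW₁ tt
  obtain ⟨W₂, R₂, cW₂, aR₂, eW₂⟩ := Calc.lin hB hK hom N (al2b_neg H aR₁)
  have c12 : Cl C.V 𝓕 lb (fun t => w t * (lb t / μ t) / μ t) fun t p => W₁ t p + W₂ t p := by
    refine Cl.add H (Cl.weight H cW₁ 1 ?_) (Cl.weight H cW₂ 1 ?_)
    · filter_upwards [hle] with t ht
      have := ht.1
      have := ht.2.1
      have := ht.2.2.2.1
      have := ht.2.2.2.2
      refine ⟨by positivity, ?_⟩
      rw [one_mul]
      gcongr
    · filter_upwards [hle] with t ht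
      have := ht.1
      have := ht.1.trans_le ht.2.1
      have := ht.2.2.2.1
      have := ht.2.2.2.2
      exact ⟨by positivity, le_of_eq (by field_simp)⟩
  have n12 : ∀ᶠ t in 𝓕, 0 ≤ w t * (lb t / μ t) / μ t := by
    filter_upwards [hle] with t ht
    have := ht.1.trans_le ht.2.1
    have := ht.2.2.2.1
    have := ht.2.2.2.2
    positivity
  have sW : ∀ᶠ t in 𝓕, ∀ p ∉ K t, W₀ t p + (W₁ t p + W₂ t p) = 0 := by
    filter_upwards [sW₀, eW₁, eW₂] with t h0 h1 h2 p hp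
    rw [h0 p hp, h1.1 p hp, h2.1 p hp, add_zero, add_zero]
  refine ⟨fun t p => W₀ t p + (W₁ t p + W₂ t p), Cl.add H cW₀ (Cl.weight H c12 1 ?_),
    fun a => ?_, fun a b => ?_, sW⟩
  · filter_upwards [hle, n12] with t ht hn
    refine ⟨hn, ?_⟩
    have := ht.2.2.2.1
    have := ht.2.2.2.2
    have h1 : lb t / μ t ≤ 1 := (div_le_one ht.2.2.2.1).2 ht.2.2.1
    calc w t * (lb t / μ t) / μ t ≤ w t * 1 / μ t := by gcongr
      _ = 1 * (w t / μ t) := by ring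
  · have h1 : Cl C.V 𝓕 lb (fun t => w t * (lb t / μ t)) fun t => C.Z a (W₀ t) := by
      refine Cl.weight H (Cl.zv H cW₀ a) 1 ?_
      filter_upwards [hle] with t ht
      have := ht.1.trans_le ht.2.1
      have := ht.2.2.2.1
      have := ht.2.2.2.2
      exact ⟨by positivity, le_of_eq (by field_simp)⟩
    have h2 : Cl C.V 𝓕 lb (fun t => w t * (lb t / μ t)) fun t =>
        C.DD (om t) (ψ t) a fun p => W₁ t p + W₂ t p := by
      refine Cl.weight H (hK.DD_cl hB hom n12 c12 a) 1 ?_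
      filter_upwards [hle] with t ht
      have := ht.1.trans_le ht.2.1
      have := ht.2.2.2.1
      have := ht.2.2.2.2
      exact ⟨by positivity, le_of_eq (by field_simp)⟩
    refine Cl.congr H (Cl.add H h1 h2) ?_
    filter_upwards [cW₀.1, c12.1, hinv] with t s0 s12 hi
    funext p
    rw [C.DD_add _ _ _ s0 s12]
    have e : (Complex.I * ((om t * C.Z a (ψ t) p : ℝ) : ℂ)) • W₀ t p =
        (Complex.I * ((A t p * C.Z a (ψ t) p : ℝ) : ℂ)) • cx (ν t p) := by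
      have : (om t : ℂ) ≠ 0 := Complex.ofReal_ne_zero.2 hi.1
      funext r
      simp only [hW₀, Pi.smul_apply, smul_eq_mul, Complex.real_smul]
      push_cast
      field_simp
    simp only [Calc.DD, e]
    abel
  · refine Cl.congr H (Cl.weight H (Calc.push_cl H i aR₂.cl a b) 1 ?_) ?_
    · filter_upwards [hle, aR₂.nonneg] with t ht hn
      refine ⟨hn, ?_⟩
      have := ht.1
      have := ht.1.trans_le ht.2.1
      have := ht.2.2.2.1
      have := ht.2.2.2.2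
      have h1 : lb t / μ t ≤ 1 := (div_le_one ht.2.2.2.1).2 ht.2.2.1
      have h2 : m t / μ t ≤ 1 := (div_le_one ht.2.2.2.1).2 (ht.2.1.trans ht.2.2.1)
      calc w t * (m t / μ t) * (lb t / μ t) * (lb t / μ t) ^ N
          ≤ w t * 1 * 1 * (lb t / μ t) ^ N := by gcongr
        _ = 1 * (w t * (lb t / μ t) ^ N) := by ring
    · filter_upwards [cW₀.1, cW₁.1, cW₂.1, c12.1, eW₀, eW₁, eW₂, sW, hK.closed, aR₂.supp] with
        t s0 s1 s2 s12 e0 e1 e2 hs hc hR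
      funext p
      by_cases hp : p ∈ C.O i
      · rw [C.tens_LC _ _ _ _ i p hp a b]
        simp only [Calc.push]
        refine Finset.sum_congr rfl fun u _ => Finset.sum_congr rfl fun v _ => ?_
        rw [C.LC_add _ _ _ s0 s12, C.LC_add _ _ _ s1 s2, e0, e1.2, e2.2, C.push_self hp]
        congr 1
        ring
      · have hp' : p ∉ K t := fun h => hp (hc.2 h)
        simp only [Calc.push, Calc.LC, hR p hp', smul_zero, Finset.sum_const_zero,
          C.DD_zero _ _ _ hc.1 hs hp', dotProduct_zero, add_zero]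

end Crest.Agent.R216
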