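import Crest.Agent.R216.ATens
import Crest.Agent.R216.AJet2
/-! # R216 (A): the modes exist.

`s = (i, T, j)`, `φ s = x i 0 + sl T j * x i 1` (`cv i (φ s) = xi T j` on `O i` by `cc_self`, and
`Z a (φ s) = ∑ u, cc i a u * xi T j u` everywhere), `K s t = tsupport (χ i) ∩ {p | ∀ j, η ≤ DJ (jet i p) (xi T j)}`,
`α s = χ i * ρ T (jet i)`, `om s t = L ^ (rank s) * μ t` with an injective `rank : S → ℕ` (`Fintype.equivFin`) and
`L = max 1 r₀⁻¹`, `r₀` from `exists_r0 B Z` where `Z` bounds all `‖cv i (φ s')‖` (compactness).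
`pair`: take the mode of larger rank as the main one, `cv i (φ s + r φ s') = cv i (φ s) + r • cv i (φ s')`; the
constant of `Frame.good` is `η/2`.  `dec`: `Tens.eq_sum`, then for `χ i p ≠ 0` insert `∑ T, ρ T² = 1` and `exists_ell`
(`Fintype.sum_prod_type`). -/

set_option autoImplicit false
set_option linter.unusedSectionVars false
set_option linter.unusedVariables false
open scoped Manifold ContDiff Topology Matrix
open Set Filter

namespace Crest.Agent.R216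
universe u
variable {M : Type u} [TopologicalSpace M] [ChartedSpace E2 M] [IsManifold (𝓡 2) ∞ M]
  [CompactSpace M]
variable {g : Met M} {C : Calc g} {τ : Type*} {𝓕 : Filter τ} {m lb μ w w' om : τ → ℝ}
  {F : τ → M → Fin 4 → ℝ} {i : Fin C.n} {ψ : τ → M → ℝ} {K : τ → Set M}

/-- the phases -/
noncomputable def amodPh (C : Calc g) (s : Fin C.n × Fin 3 × Fin 3) : M → ℝ :=
  fun p => C.x s.1 0 p + sl s.2.1 s.2.2 * C.x s.1 1 p

theorem amodPh_sm (C : Calc g) (s : Fin C.n × Fin 3 × Fin 3) : Sm (amodPh C s) :=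
  (C.x_sm _ _).add' ((sm_const _).mul' (C.x_sm _ _))

theorem amod_Z_lin (C : Calc g) {f f' : M → ℝ} (hf : Sm f) (hf' : Sm f') (r : ℝ) (a : C.I) (p : M) :
    C.Z a (fun q => f q + r * f' q) p = C.Z a f p + r * C.Z a f' p := by
  have h1 : Df (fun q => r * f' q) p := ((sm_const r).mul' hf').df p
  have h2 := dd_const_smul r (hf'.df p) (C.V a p)
  simp only [smul_eq_mul] at h2
  simp only [Calc.Z, Zv]
  rw [dd_add (hf.df p) h1, h2]

theorem amodPh_Z (C : Calc g) (s : Fin C.n × Fin 3 × Fin 3) (a : C.I) (p : M) :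
    C.Z a (amodPh C s) p = ∑ u, C.cc s.1 a u p * xi s.2.1 s.2.2 u := by
  have := amod_Z_lin C (C.x_sm s.1 0) (C.x_sm s.1 1) (sl s.2.1 s.2.2) a p
  unfold amodPh
  rw [this]
  simp [Calc.cc, xi, Fin.sum_univ_two, mul_comm]

theorem amodPh_cv (C : Calc g) (s : Fin C.n × Fin 3 × Fin 3) {p : M} (hp : p ∈ C.O s.1) :
    C.cv s.1 (amodPh C s) p = xi s.2.1 s.2.2 := by
  funext u
  simp only [Calc.cv, amodPh_Z, C.cc_self hp]
  fin_cases u <;> simp [idm]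

theorem amodPh_bound (C : Calc g) : ∃ Z : ℝ, ∀ i s p, ‖C.cv i (amodPh C s) p‖ ≤ Z := by
  have h : ∀ z : (Fin C.n × Fin 2) × (Fin C.n × Fin 3 × Fin 3),
      ∃ c, ∀ p, ‖C.Z z.1 (amodPh C z.2) p‖ ≤ c := fun z => by
    obtain ⟨c, hc⟩ := Bd.of_compact C.V_sm ((amodPh_sm C z.2).zv (C.V_sm z.1)) 0
    exact ⟨c, hc⟩
  choose c hc using h
  obtain ⟨Z, hZ0, -, hZ⟩ := cll_bound c 0
  exact ⟨Z, fun i s p => (pi_norm_le_iff_of_nonneg hZ0).mpr fun u =>
    (hc ((i, u), s) p).trans (hZ _)⟩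

/-- the supports -/
def amodK (C : Calc g) (η : ℝ) (m : τ → ℝ) (F : τ → M → Fin 4 → ℝ) (s : Fin C.n × Fin 3 × Fin 3)
    (t : τ) : Set M :=
  tsupport (C.χ s.1) ∩ {p | ∀ j, η ≤ DJ (C.jet s.1 (m t) (F t) p) (xi s.2.1 j)}

theorem amod_frame (hB : C.Base 𝓕 m lb μ F) {B η Z r₀ : ℝ} (hη : 0 < η)
    (hJ : ∀ᶠ t in 𝓕, ∀ i, ∀ p ∈ C.O i, ‖C.jet i (m t) (F t) p‖ ≤ B ∧ GOK (C.jet i (m t) (F t) p) ∧
      ∃ T, ∀ j, 2 * η ≤ DJ (C.jet i (m t) (F t) p) (xi T j))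
    (hZ : ∀ i s p, ‖C.cv i (amodPh C s) p‖ ≤ Z)
    (hr₀ : ∀ (J : Jt) (ξ ζ : Fin 2 → ℝ) (r : ℝ),
      ‖J‖ ≤ B → ‖ξ‖ ≤ 4 → 1 ≤ ξ ⬝ᵥ ξ → ‖ζ‖ ≤ Z → |r| ≤ r₀ → η ≤ DJ J ξ →
        η / 2 ≤ DJ J (ξ + r • ζ) ∧ 1 / 2 ≤ (ξ + r • ζ) ⬝ᵥ (ξ + r • ζ))
    (s s' : Fin C.n × Fin 3 × Fin 3) {r : τ → ℝ} (hr : ∀ᶠ t in 𝓕, |r t| ≤ r₀) :
    C.Frame 𝓕 m lb F s.1 (fun t p => amodPh C s p + r t * amodPh C s' p) (amodK C η m F s) := by
  have H := hB.ctx
  have hsub : ∀ t, amodK C η m F s t ⊆ C.O s.1 := fun t p hp => C.χ_supp _ hp.1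
  refine ⟨?_, ?_, ?_, min (η / 2) (1 / 2), by positivity, ?_⟩
  · filter_upwards [(hB.jet_cl s.1).1] with t ht
    refine ⟨(isClosed_tsupport _).inter ?_, hsub t⟩
    have : {p | ∀ j, η ≤ DJ (C.jet s.1 (m t) (F t) p) (xi s.2.1 j)} =
        ⋂ j, {p | η ≤ DJ (C.jet s.1 (m t) (F t) p) (xi s.2.1 j)} := by
      ext p; simp
    rw [this]
    refine isClosed_iInter fun j => isClosed_le continuous_const ?_
    exact (Sm.comp' contDiff_DJ (ht.prod' (sm_const (xi s.2.1 j)))).cont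
  · exact Eventually.of_forall fun t =>
      (amodPh_sm C s).add' ((sm_const _).mul' (amodPh_sm C s'))
  · intro a
    have h1 : Cl C.V 𝓕 lb (fun _ => 1) fun _ => C.Z a (amodPh C s) :=
      Cl.fixed' H ((amodPh_sm C s).zv (C.V_sm a))
    have h2 : Cl C.V 𝓕 lb (fun _ => 1) fun _ => C.Z a (amodPh C s') :=
      Cl.fixed' H ((amodPh_sm C s').zv (C.V_sm a))
    have h3 : Cl C.V 𝓕 lb (fun _ => |r₀|) fun t (_ : M) => r t :=
      Cl.const H (hr.mono fun t ht => ht.trans (le_abs_self _))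
    have h4 := Cl.weight H (w' := fun _ => 1) (Cl.mul H h3 h2) |r₀|
      (Eventually.of_forall fun t => ⟨by positivity, le_rfl⟩)
    refine Cl.congr H (Cl.add H h1 h4) (Eventually.of_forall fun t => ?_)
    funext p
    exact (amod_Z_lin C (amodPh_sm C s) (amodPh_sm C s') (r t) a p).symm
  · filter_upwards [hJ, hr] with t ht hrt p hp
    have hpO := hsub t hp
    obtain ⟨h1, h2, -⟩ := ht s.1 p hpO
    have e : C.cv s.1 (fun p => amodPh C s p + r t * amodPh C s' p) p =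
        xi s.2.1 s.2.2 + r t • C.cv s.1 (amodPh C s') p := by
      rw [← amodPh_cv C s hpO]
      funext u
      exact amod_Z_lin C (amodPh_sm C s) (amodPh_sm C s') (r t) (s.1, u) p
    have := hr₀ _ _ _ _ h1 (norm_xi _ _) (one_le_xi _ _) (hZ s.1 s' p) hrt (hp.2 s.2.2)
    rw [e]
    exact ⟨h2, (min_le_left _ _).trans this.1, this.2⟩

theorem amod_ratio {L r₀ x ε : ℝ} (hr₀ : 0 < r₀) (hL1 : 1 ≤ L) (hL : r₀⁻¹ ≤ L) (hx : 0 < x)
    (hε : ε = 1 ∨ ε = -1) {k k' : ℕ} (hk : k' < k) :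
    |ε * (L ^ k' * x / (L ^ k * x))| ≤ r₀ := by
  have hL0 : 0 < L := by linarith
  have h1 : |ε| = 1 := by rcases hε with h | h <;> simp [h]
  rw [abs_mul, h1, one_mul, abs_of_nonneg (by positivity), mul_div_mul_right _ _ hx.ne',
    div_le_iff₀ (by positivity)]
  have h2 : L ^ (k' + 1) ≤ L ^ k := pow_le_pow_right₀ hL1 hk
  have h3 : 1 ≤ r₀ * L := by
    have := mul_le_mul_of_nonneg_left hL hr₀.le
    rwa [mul_inv_cancel₀ hr₀.ne'] at this
  calc L ^ k' = L ^ k' * 1 := by ring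
    _ ≤ L ^ k' * (r₀ * L) := by gcongr
    _ = r₀ * L ^ (k' + 1) := by ring
    _ ≤ r₀ * L ^ k := by gcongr

theorem Calc.modes_exist (hB : C.Base 𝓕 m lb μ F) {B η : ℝ} (hη : 0 < η)
    (hJ : ∀ᶠ t in 𝓕, ∀ i, ∀ p ∈ C.O i, ‖C.jet i (m t) (F t) p‖ ≤ B ∧ GOK (C.jet i (m t) (F t) p) ∧
      ∃ T, ∀ j, 2 * η ≤ DJ (C.jet i (m t) (F t) p) (xi T j)) :
    Nonempty (C.Modes 𝓕 m lb μ F (Fin C.n × Fin 3 × Fin 3)) := by
  classical
  obtain ⟨Z, hZ⟩ := amodPh_bound C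
  obtain ⟨r₀, hr0, hr₀⟩ := exists_r0 B Z hη
  obtain ⟨ρ, hρ1, hρ2, hρ3⟩ := exists_rho hη
  obtain ⟨ℓ, hℓ1, hℓ2⟩ := exists_ell
  have H := hB.ctx
  set rk : Fin C.n × Fin 3 × Fin 3 → ℕ := fun s => (Fintype.equivFin _ s : ℕ) with hrk
  have rk_inj : Function.Injective rk := Fin.val_injective.comp (Fintype.equivFin _).injective
  set L : ℝ := max 1 r₀⁻¹ with hL
  have hL1 : 1 ≤ L := le_max_left _ _
  have hL2 : r₀⁻¹ ≤ L := le_max_right _ _
  have hμ : ∀ᶠ t in 𝓕, 0 < μ t := hB.le.mono fun t ht => by linarith [ht.1, ht.2.1, ht.2.2]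
  refine ⟨{
    ch := fun s => s.1
    φ := amodPh C
    om := fun s t => L ^ rk s * μ t
    K := amodK C η m F
    α := fun s t p => C.χ s.1 p * ρ s.2.1 (C.jet s.1 (m t) (F t) p)
    ℓ := fun s => ℓ s.2.1 s.2.2
    fr := fun s => ?_
    freq := fun s => ⟨L ^ rk s, hμ.mono fun t ht => ?_⟩
    pair := fun s s' hs ε hε => ?_
    α_cl := fun s => ?_
    α_supp := fun s => Eventually.of_forall fun t p hp => ?_
    pos := fun s Hm hH => hℓ2 _ _ Hm hH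
    dec := ?_ }⟩
  · have := amod_frame hB hη hJ hZ hr₀ s s (r := fun _ => 0)
      (Eventually.of_forall fun t => by simpa using hr0.le)
    simpa using this
  · have h1 : 1 ≤ L ^ rk s := one_le_pow₀ hL1
    rw [abs_of_nonneg (by positivity)]
    exact ⟨le_mul_of_one_le_left ht.le h1, le_rfl⟩
  · rcases lt_or_gt_of_ne (rk_inj.ne hs) with h | h
    · exact Or.inr (amod_frame hB hη hJ hZ hr₀ s' s
        (hμ.mono fun t ht => amod_ratio hr0 hL1 hL2 ht hε h))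
    · exact Or.inl (amod_frame hB hη hJ hZ hr₀ s s'
        (hμ.mono fun t ht => amod_ratio hr0 hL1 hL2 ht hε h))
  · have h1 : Cl C.V 𝓕 lb (fun _ => 1) fun _ => C.χ s.1 := Cl.fixed' H (C.χ_sm _)
    have h2 := Cl.comp H (hρ1 s.2.1) (hB.jet_cl s.1)
    simpa using Cl.mul H h1 h2
  · by_contra h
    refine hp ⟨subset_tsupport _ (left_ne_zero_of_mul h), hρ2 _ _ (right_ne_zero_of_mul h)⟩
  · filter_upwards [hJ] with t ht r hr hs a b p
    rw [hr.eq_sum a b p, Fintype.sum_prod_type]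
    refine Finset.sum_congr rfl fun i _ => ?_
    by_cases h0 : C.χ i p = 0
    · simp [h0]
    have hp : p ∈ C.O i := C.χ_supp i (subset_tsupport _ h0)
    have h1 := hρ3 _ (ht i p hp).2.2
    have h2 : ∀ T, C.push i (fun u v => r (i, u) (i, v)) a b p =
        ∑ j, lf (ℓ T j) (fun u v => r (i, u) (i, v) p) *
          (C.Z a (amodPh C (i, T, j)) p * C.Z b (amodPh C (i, T, j)) p) := fun T => by
      have h3 := hℓ1 T (fun u v => r (i, u) (i, v) p) (hs _ _ _)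
      simp only [amodPh_Z, Calc.push, smul_eq_mul]
      obtain ⟨y, hy⟩ : ∃ y : Fin 3 → ℝ, ∀ j, lf (ℓ T j) (fun u v => r (i, u) (i, v) p) = y j :=
        ⟨_, fun _ => rfl⟩
      simp only [hy] at h3 ⊢
      simp only [h3, Fin.sum_univ_two, Fin.sum_univ_three]
      ring
    rw [Fintype.sum_prod_type]
    calc C.χ i p ^ 2 • C.push i (fun u v => r (i, u) (i, v)) a b p
        = ∑ T, C.χ i p ^ 2 * ρ T (C.jet i (m t) (F t) p) ^ 2 *
            C.push i (fun u v => r (i, u) (i, v)) a b p := by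
          rw [← Finset.sum_mul, ← Finset.mul_sum, h1, mul_one, smul_eq_mul]
      _ = _ := Finset.sum_congr rfl fun T _ => by
          rw [h2 T, Finset.mul_sum]
          exact Finset.sum_congr rfl fun j _ => by ring

end Crest.Agent.R216
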