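import Crest.Agent.R216.ARoundC
/-! # R216 (A): one round, explicit form.

`geo_of_st`: `|n ⬝ x| ≤ 4 ‖x‖` (`abs_dot_le`), `Z (F - F₀) = Z F - Z F₀`.
`round_ex`: apply `round_cl` to the type `τ` of all instances (a subtype of
`ℝ × (M → _) × ℝ × ℝ × (M → _) × ℝ` = `(m, F₀, T, X, F, a')` cut out by the hypotheses) with `𝓕 = comap T atTop`,
`lam = m T⁸`, `R = T`; `ClK.bd`, finitely many indices (`cll_bound`, `eventually_all`), `eventually_comap`, `eventually_atTop`.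
`round`: `a = T⁻¹^(8β)`, `a' = T'⁻¹^(8β') = T⁻¹^(10β')`, `m T'⁸ = m T¹⁰`; `a T⁻¹^k ≤ a'² T⁻⁸`, `a³ T¹⁰ ≤ a'² T⁻⁸`,
`a T^(10 j) ≤ T⁻¹⁶` if `10 j + 16 ≤ 8 β`; take `T₀ ≥ 100 D`, and `≥` the order `Kb (β+1)` bounds of `G` (`Bd.of_compact`).
`fK, fP`: order zero from `n2` and `Pre.n2`, positive orders gain `T⁻²` (`Bd.rescale`-type argument on `Z Z F`, then add
`Z Z w`, or unfold `Bd (k+1)`); `hK, hP`: `Bd.rescale` gives `Bd k' (m T¹⁰) G (B/2 - 1/2)`-type bounds from `Cst.GB`;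
`B/2 + X/4 ≤ max B (X/2)`.  The increments: `Bd (j+1) 1 w` from `‖w‖ ≤ D a` and `Bd.unw` for `Z w`. -/

set_option autoImplicit false
set_option linter.unusedSectionVars false
set_option linter.unusedVariables false
open scoped Manifold ContDiff Topology Matrix
open Set Filter

namespace Crest.Agent.R216
universe u
variable {M : Type u} [TopologicalSpace M] [ChartedSpace E2 M] [IsManifold (𝓡 2) ∞ M]
  [CompactSpace M]

variable {g : Met M} {C : Calc g} {B c η s e : ℝ}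

theorem Calc.geo_of_st (hC : C.Cst B c η s e) {m a T X : ℝ} {k k' : ℕ} {F₀ F : M → Fin 4 → ℝ}
    (hP : C.Pre B c s m F₀) (hT : 0 < T) (hS : C.St B e m F₀ k k' a T X F) :
    Bd C.V 1 1 F B ∧ C.Geo F m (c / 2) (s / 2) := by
  have hT8 : 0 < 2 / T ^ 8 := by positivity
  have hD : Sm fun p => F p - F₀ p := hS.sm.sub' hP.sm
  have hm : 0 ≤ m := zero_le_one.trans hP.one_le
  have hZ : ∀ b : C.I, C.Z b (fun p => F p - F₀ p) = fun p => C.Z b F p - C.Z b F₀ p := fun b => by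
    funext p; simp only [Zv, dd_sub (hS.sm.df p) (hP.sm.df p)]
  refine ⟨?_, fun i p hp => ?_⟩
  · have h := Bd.add C.V_sm hP.sm hD hP.n1 hS.n1
    simp only [add_sub_cancel] at h
    exact h.mono zero_le_one (by linarith [hC.e1])
  · obtain ⟨n, u, hn, h1, h2⟩ := hP.geo i p hp
    refine ⟨n, u, hn, fun v => ?_, ?_⟩
    · have h3 := (hS.n1.zv (i, v)).sup p
      have h4 := abs_dot_le n (C.Z (i, v) (fun p => F p - F₀ p) p)
      have h5 : 4 * ‖n‖ * ‖C.Z (i, v) (fun p => F p - F₀ p) p‖ ≤ 4 * 1 * e := by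
        have := hC.e0
        gcongr
        exact h3.trans (by linarith)
      have e1 : n ⬝ᵥ C.Z (i, v) F p =
          n ⬝ᵥ C.Z (i, v) F₀ p + n ⬝ᵥ C.Z (i, v) (fun p => F p - F₀ p) p := by
        rw [hZ]; simp only [dotProduct_sub]; ring
      rw [e1]
      have := abs_add_le (n ⬝ᵥ C.Z (i, v) F₀ p) (n ⬝ᵥ C.Z (i, v) (fun p => F p - F₀ p) p)
      linarith [h1 v, hC.es]
    · have h3 := hS.n2 (i, u) (i, u) p
      have h4 := abs_dot_le n (C.Z (i, u) (C.Z (i, u) fun p => F p - F₀ p) p)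
      have h5 : 4 * ‖n‖ * ‖C.Z (i, u) (C.Z (i, u) fun p => F p - F₀ p) p‖ ≤ 4 * 1 * (m * e) := by
        have := hC.e0
        gcongr
        exact h3.trans (mul_le_mul_of_nonneg_left (by linarith) hm)
      have e1 : n ⬝ᵥ C.Z (i, u) (C.Z (i, u) F₀) p = n ⬝ᵥ C.Z (i, u) (C.Z (i, u) F) p -
          n ⬝ᵥ C.Z (i, u) (C.Z (i, u) fun p => F p - F₀ p) p := by
        have e2 : C.Z (i, u) (C.Z (i, u) fun p => F p - F₀ p) p =
            C.Z (i, u) (C.Z (i, u) F) p - C.Z (i, u) (C.Z (i, u) F₀) p := by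
          rw [hZ]
          exact dd_sub ((hS.sm.zv (C.V_sm _)).df p) ((hP.sm.zv (C.V_sm _)).df p) _
        rw [e2, dotProduct_sub]
        ring
      rw [e1] at h2
      have h6 := abs_sub (n ⬝ᵥ C.Z (i, u) (C.Z (i, u) F) p)
        (n ⬝ᵥ C.Z (i, u) (C.Z (i, u) fun p => F p - F₀ p) p)
      have h7 : m * (16 * e) ≤ m * c := mul_le_mul_of_nonneg_left hC.ec hm
      nlinarith

theorem Calc.round_ex (hC : C.Cst B c η s e) {β : ℕ} (hβ : 10 ≤ β) : ∃ D T₀ : ℝ, 0 ≤ D ∧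
    ∀ (m : ℝ) (F₀ : M → Fin 4 → ℝ) (T X : ℝ) (F : M → Fin 4 → ℝ) (a' : ℝ),
      C.Pre B c s m F₀ → T₀ ≤ T → B ≤ X →
      C.St B e m F₀ (Kb β) (Kb (β + 1)) (T⁻¹ ^ (8 * β)) T X F → 0 ≤ a' → a' ≤ T⁻¹ ^ (10 * β) →
      ∃ w : M → Fin 4 → ℝ, Sm w ∧ (∀ p, ‖w p‖ ≤ D * T⁻¹ ^ (8 * β)) ∧
        (∀ b, Bd C.V (Kb (β + 1) + 1) (m * T ^ 10) (C.Z b w) (D * T⁻¹ ^ (8 * β))) ∧
        (∀ b b', Bd C.V (Kb β) (m * T ^ 10)
          (fun p => C.hh (fun q => F q + w q) b b' p - a' ^ 2 * C.G b b' p)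
          (D * T⁻¹ ^ (20 * β + 28))) ∧
        ∀ b b', Bd C.V (Kb (β + 1)) (m * T ^ 10)
          (fun p => C.hh (fun q => F q + w q) b b' p - a' ^ 2 * C.G b b' p)
          (D * (X * T⁻¹ ^ (20 * β + 28))) := by
  classical
  let τ := {t : ℝ × (M → Fin 4 → ℝ) × ℝ × ℝ × (M → Fin 4 → ℝ) × ℝ //
    C.Pre B c s t.1 t.2.1 ∧ B ≤ t.2.2.2.1 ∧
    C.St B e t.1 t.2.1 (Kb β) (Kb (β + 1)) (t.2.2.1⁻¹ ^ (8 * β)) t.2.2.1 t.2.2.2.1 t.2.2.2.2.1 ∧
    0 ≤ t.2.2.2.2.2 ∧ t.2.2.2.2.2 ≤ t.2.2.1⁻¹ ^ (10 * β)}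
  let m : τ → ℝ := fun t => t.1.1
  let T : τ → ℝ := fun t => t.1.2.2.1
  let X : τ → ℝ := fun t => t.1.2.2.2.1
  let F : τ → M → Fin 4 → ℝ := fun t => t.1.2.2.2.2.1
  let a' : τ → ℝ := fun t => t.1.2.2.2.2.2
  let 𝓕 : Filter τ := comap T atTop
  have hR : Tendsto T 𝓕 atTop := tendsto_comap
  have h10 : ∀ᶠ t in 𝓕, 10 ≤ T t := hR.eventually (eventually_ge_atTop 10)
  have hB2 := hC.B2
  obtain ⟨w, hw, hZ, hK, hP⟩ := Calc.round_cl (C := C) (𝓕 := 𝓕) (m := m)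
    (lam := fun t => m t * T t ^ 8) (R := T) (X := X) (a := fun t => (T t)⁻¹ ^ (8 * β)) (a' := a')
    (k := Kb β) (k' := Kb (β + 1)) (F := F) hC.c0 hC.η0 hC.s0 (by linarith) hC.eta
    (by unfold Kb; omega) (by unfold Kb; omega) hR
    (by
      filter_upwards [h10] with t ht
      obtain ⟨hp, hX, hs, h0, h1⟩ := t.2
      have hm : 1 ≤ m t := hp.one_le
      have hT1 : 1 ≤ T t := by linarith
      have hT0 : 0 < T t := by linarith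
      have hi0 : 0 < (T t)⁻¹ := inv_pos.mpr hT0
      have hi1 : (T t)⁻¹ ≤ 1 := inv_le_one_of_one_le₀ hT1
      refine ⟨hm, le_mul_of_one_le_right (by linarith) (one_le_pow₀ hT1),
        by change 1 ≤ t.1.2.2.2.1; linarith, by positivity, h0, ?_, ?_⟩
      · have h2 : (T t)⁻¹ ^ (10 * β) ≤ (T t)⁻¹ ^ (8 * β + 1) :=
          pow_le_pow_of_le_one hi0.le hi1 (by omega)
        have h3 : 10 * (T t)⁻¹ ≤ 1 := by
          rw [← div_eq_mul_inv, div_le_one hT0]; exact ht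
        have h4 : 0 < (T t)⁻¹ ^ (8 * β) := by positivity
        have h5 : a' t ≤ (T t)⁻¹ ^ (10 * β) := h1
        rw [pow_succ] at h2
        nlinarith
      · have h2 : (T t)⁻¹ ^ (8 * β) ≤ (T t)⁻¹ ^ 10 := pow_le_pow_of_le_one hi0.le hi1 (by omega)
        calc (T t)⁻¹ ^ (8 * β) * (m t * T t ^ 8 * T t ^ 2)
            ≤ (T t)⁻¹ ^ 10 * (m t * T t ^ 8 * T t ^ 2) := by
              have : 0 ≤ m t := by linarith
              gcongr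
          _ = m t := by field_simp)
    (by
      filter_upwards [h10] with t ht
      obtain ⟨hp, hX, hs, h0, h1⟩ := t.2
      obtain ⟨g1, g2⟩ := Calc.geo_of_st hC hp (by change 0 < T t; linarith) hs
      exact ⟨hs.sm, g1, g2, hs.fK, hs.fP, hs.h0, hs.hK, hs.hP⟩)
  obtain ⟨c0, hc0⟩ := hw.2 0
  choose c1 hc1 using fun b => (hZ b).2 (Kb (β + 1) + 1)
  choose c2 hc2 using fun b : C.I × C.I => hK b.1 b.2
  choose c3 hc3 using fun b : C.I × C.I => hP b.1 b.2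
  obtain ⟨D1, -, h01, hD1⟩ := cll_bound c1 c0
  obtain ⟨D2, -, h12, hD2⟩ := cll_bound c2 D1
  obtain ⟨D, hD0, h23, hD3⟩ := cll_bound c3 D2
  have hall := (((hw.1.and hc0).and (eventually_all.mpr hc1)).and (eventually_all.mpr hc2)).and
    (eventually_all.mpr hc3)
  obtain ⟨T₀, hT₀⟩ := eventually_atTop.mp (eventually_comap.mp hall)
  refine ⟨2 * D, max T₀ 1, by positivity, fun m₀ F₀ T₁ X₁ F₁ a₁ hp hT hX hs h0 h1 => ?_⟩
  obtain ⟨⟨⟨⟨g1, g2⟩, g3⟩, g4⟩, g5⟩ := hT₀ T₁ (le_of_max_le_left hT)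
    ⟨(m₀, F₀, T₁, X₁, F₁, a₁), hp, hX, hs, h0, h1⟩ rfl
  have hT1 : 1 ≤ T₁ := le_of_max_le_right hT
  have hT0 : 0 < T₁ := by linarith
  have hi0 : 0 < T₁⁻¹ := inv_pos.mpr hT0
  have hi1 : T₁⁻¹ ≤ 1 := inv_le_one_of_one_le₀ hT1
  have hm1 : 1 ≤ m₀ := hp.one_le
  have hm0 : 0 < m₀ := by linarith
  have el : m₀ * T₁ ^ 8 * T₁ ^ 2 = m₀ * T₁ ^ 10 := by ring
  have hl : 0 ≤ m₀ * T₁ ^ 10 := by positivity
  have ha : 0 ≤ T₁⁻¹ ^ (8 * β) := by positivity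
  have hw0 : 0 ≤ T₁⁻¹ ^ (8 * β) * T₁⁻¹ ^ Kb β + (T₁⁻¹ ^ (8 * β)) ^ 3 * (m₀ * T₁ ^ 10 / m₀) := by
    positivity
  have hw1 : T₁⁻¹ ^ (8 * β) * T₁⁻¹ ^ Kb β + (T₁⁻¹ ^ (8 * β)) ^ 3 * (m₀ * T₁ ^ 10 / m₀) ≤
      2 * T₁⁻¹ ^ (20 * β + 28) := by
    have e1 : T₁⁻¹ ^ (8 * β) * T₁⁻¹ ^ Kb β = T₁⁻¹ ^ (20 * β + 28) := by
      rw [← pow_add]; congr 1; unfold Kb; ring
    have e2 : (T₁⁻¹ ^ (8 * β)) ^ 3 * (m₀ * T₁ ^ 10 / m₀) = T₁⁻¹ ^ (24 * β - 10) := by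
      have : 8 * β * 3 = 24 * β - 10 + 10 := by omega
      rw [← pow_mul, this, pow_add]
      field_simp
    have e3 : T₁⁻¹ ^ (24 * β - 10) ≤ T₁⁻¹ ^ (20 * β + 28) :=
      pow_le_pow_of_le_one hi0.le hi1 (by omega)
    rw [e1, e2]; linarith
  have hX0 : 0 ≤ X₁ := by linarith
  simp only [m, T, X, F, a', el] at g2 g3 g4 g5
  refine ⟨_, g1, fun p => (g2.sup p).trans ?_, fun b => (g3 b).mono hl ?_,
    fun b b' => (g4 (b, b')).2.mono hl ?_, fun b b' => (g5 (b, b')).2.mono hl ?_⟩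
  · exact mul_le_mul_of_nonneg_right (by linarith) ha
  · exact mul_le_mul_of_nonneg_right (by linarith [hD1 b]) ha
  · calc _ ≤ D * _ := mul_le_mul_of_nonneg_right ((hD2 (b, b')).trans h23) hw0
      _ ≤ D * (2 * T₁⁻¹ ^ (20 * β + 28)) := mul_le_mul_of_nonneg_left hw1 hD0
      _ = _ := by ring
  · calc _ ≤ D * _ := mul_le_mul_of_nonneg_right (hD3 (b, b')) (mul_nonneg hX0 hw0)
      _ ≤ D * (X₁ * (2 * T₁⁻¹ ^ (20 * β + 28))) :=
        mul_le_mul_of_nonneg_left (mul_le_mul_of_nonneg_left hw1 hX0) hD0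
      _ = _ := by ring

theorem arb_Z_add (C : Calc g) (b : C.I) {f f' : M → Fin 4 → ℝ} (hf : Sm f) (hf' : Sm f') :
    C.Z b (fun p => f p + f' p) = fun p => C.Z b f p + C.Z b f' p :=
  funext fun p => dd_add (hf.df p) (hf'.df p) _

theorem arb_ZZ_add (C : Calc g) (b b' : C.I) {f f' : M → Fin 4 → ℝ} (hf : Sm f) (hf' : Sm f') :
    C.Z b (C.Z b' fun p => f p + f' p) = fun p => C.Z b (C.Z b' f) p + C.Z b (C.Z b' f') p := by
  rw [arb_Z_add C b' hf hf', arb_Z_add C b (hf.zv (C.V_sm b')) (hf'.zv (C.V_sm b'))]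

theorem arb_key {D T : ℝ} (hD : 0 ≤ D) (hT : 1 ≤ T) (hDT : 100 * D ≤ T) {N n i : ℕ}
    (h : i + n + 1 ≤ N) : T ^ n * (D * T⁻¹ ^ N) ≤ T⁻¹ ^ i / 100 := by
  obtain ⟨r, rfl⟩ := Nat.exists_eq_add_of_le h
  have hT0 : 0 < T := one_pos.trans_le hT
  have hu : 0 < T⁻¹ := inv_pos.2 hT0
  have h1 : T ^ n * T⁻¹ ^ n = 1 := by rw [← mul_pow, mul_inv_cancel₀ hT0.ne', one_pow]
  have h2 : D * T⁻¹ ≤ 1 / 100 := by
    rw [← div_eq_mul_inv, div_le_div_iff₀ hT0 (by norm_num)]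
    linarith
  have h3 : T⁻¹ ^ r ≤ 1 := pow_le_one₀ hu.le (inv_le_one_of_one_le₀ hT)
  calc T ^ n * (D * T⁻¹ ^ (i + n + 1 + r)) =
        (T ^ n * T⁻¹ ^ n) * (T⁻¹ ^ i * (D * T⁻¹ * T⁻¹ ^ r)) := by ring
    _ = T⁻¹ ^ i * (D * T⁻¹ * T⁻¹ ^ r) := by rw [h1, one_mul]
    _ ≤ T⁻¹ ^ i * (1 / 100 * 1) := mul_le_mul_of_nonneg_left
        (mul_le_mul h2 h3 (pow_nonneg hu.le _) (by norm_num)) (pow_nonneg hu.le _)
    _ = T⁻¹ ^ i / 100 := by ring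

theorem arb_G (C : Calc g) (k : ℕ) : ∃ Γ : ℝ, ∀ b b', Bd C.V k 1 (C.G b b') Γ := by
  choose c hc using fun x : C.I × C.I => Bd.of_compact C.V_sm (C.G_sm x.1 x.2) k
  obtain ⟨Γ, hΓ⟩ := (Set.finite_range c).bddAbove
  exact ⟨Γ, fun b b' => (hc (b, b')).mono zero_le_one (hΓ ⟨_, rfl⟩)⟩

theorem Calc.round (hC : C.Cst B c η s e) {β : ℕ} (hβ : 10 ≤ β) :
    ∃ T₀ : ℝ, 16 ≤ T₀ ∧ C.RoundP B c s e β T₀ := by
  obtain ⟨D, T₀, hD, H⟩ := Calc.round_ex hC hβ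
  obtain ⟨Γ, hΓ⟩ := arb_G C (Kb (β + 1))
  refine ⟨max 16 (max T₀ (max (100 * D) Γ)), le_max_left _ _, ?_⟩
  intro m F₀ T X F T' β' hP hT hX hS hT' hTT hβ'
  simp only [max_le_iff] at hT
  obtain ⟨h16, hT₀, hDT, hΓT⟩ := hT
  have hT1 : 1 ≤ T := by linarith
  have hT0 : 0 < T := by linarith
  have hu : 0 < T⁻¹ := inv_pos.2 hT0
  have hu1 : T⁻¹ ≤ 1 := inv_le_one_of_one_le₀ hT1
  have hm := hP.one_le
  have hm0 : 0 ≤ m := zero_le_one.trans hm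
  have hB := hC.B2
  have ea : T'⁻¹ ^ (8 * β') = T⁻¹ ^ (10 * β') := by
    rw [pow_mul, inv_pow, hTT, ← inv_pow, ← pow_mul]
  have e8 : 2 / T ^ 8 = 2 * T⁻¹ ^ 8 := by rw [div_eq_mul_inv, inv_pow]
  have e10 : 2 / T ^ 10 = 2 * T⁻¹ ^ 10 := by rw [div_eq_mul_inv, inv_pow]
  obtain ⟨w, hw, w0, w1, w2, w3⟩ := H m F₀ T X F (T⁻¹ ^ (10 * β')) hP hT₀ hX hS
    (pow_nonneg hu.le _) (pow_le_pow_of_le_one hu.le hu1 (by omega))
  have u8 : 0 < T⁻¹ ^ 8 := pow_pos hu _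
  have u81 : T⁻¹ ^ 8 ≤ 1 := pow_le_one₀ hu.le hu1
  have u10 : T⁻¹ ^ 10 ≤ T⁻¹ ^ 8 / 2 := by
    have h1 : T⁻¹ ≤ 1 / 2 := by
      rw [inv_eq_one_div, div_le_div_iff₀ hT0 (by norm_num)]
      linarith
    have h2 : T⁻¹ ^ 10 ≤ T⁻¹ ^ 9 := pow_le_pow_of_le_one hu.le hu1 (by norm_num)
    have h3 : T⁻¹ ^ 8 * T⁻¹ ≤ T⁻¹ ^ 8 * (1 / 2) := mul_le_mul_of_nonneg_left h1 u8.le
    rw [← pow_succ] at h3
    linarith
  have k0 : D * T⁻¹ ^ (8 * β) ≤ T⁻¹ ^ 8 / 100 := by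
    have := arb_key hD hT1 hDT (N := 8 * β) (n := 0) (i := 8) (by omega)
    rwa [pow_zero, one_mul] at this
  have k1 : m * T ^ 10 * (D * T⁻¹ ^ (8 * β)) ≤ m * (T⁻¹ ^ 8 / 100) := by
    rw [mul_assoc]
    exact mul_le_mul_of_nonneg_left (arb_key hD hT1 hDT (by omega)) hm0
  have k2 : D * T⁻¹ ^ (20 * β + 28) ≤ (T⁻¹ ^ (10 * β')) ^ 2 / 100 := by
    have := arb_key hD hT1 hDT (N := 20 * β + 28) (n := 0) (i := 10 * β' * 2) (by omega)
    rwa [pow_zero, one_mul, pow_mul] at this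
  have hL0 : 0 ≤ m * T ^ 8 := mul_nonneg hm0 (pow_nonneg hT0.le _)
  have hT2 : 4 ≤ T ^ 2 := by nlinarith
  have hLL : m * T ^ 10 = m * T ^ 8 * T ^ 2 := by ring
  have hL : m * T ^ 8 ≤ m * T ^ 10 := by
    rw [hLL]; exact le_mul_of_one_le_right hL0 (by linarith)
  have hLT : T ≤ m * T ^ 10 :=
    (le_self_pow₀ hT1 (by norm_num)).trans (le_mul_of_one_le_left (pow_nonneg hT0.le _) hm)
  have hL1 : 1 ≤ m * T ^ 10 := hT1.trans hLT
  have hL0' : 0 ≤ m * T ^ 10 := zero_le_one.trans hL1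
  have sF := hS.sm
  have sD : Sm fun p => F p - F₀ p := sF.sub' hP.sm
  have eD : (fun p => F p + w p - F₀ p) = fun p => (F p - F₀ p) + w p := by
    funext p; abel
  have eF : F = fun p => F₀ p + (F p - F₀ p) := by
    funext p; abel
  have hw1 : Bd C.V 1 1 w (D * T⁻¹ ^ (8 * β)) :=
    ⟨w0, fun b p => by rw [one_mul]; exact (w1 b).sup p⟩
  have z0 : ∀ b b' p, ‖C.Z b (C.Z b' F) p‖ ≤ m * (B - 2 * T⁻¹ ^ 8) := by
    intro b b' p
    have h1 := hP.n2 b b' p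
    have h2 := hS.n2 b b' p
    have h3 := congrFun (arb_ZZ_add C b b' hP.sm sD) p
    rw [← eF] at h3
    rw [h3]
    refine (norm_add_le_of_le h1 h2).trans ?_
    rw [e8]
    have := mul_le_mul_of_nonneg_left hC.e1 hm0
    linarith
  have fG : ∀ (k : ℕ) (Y Y' : ℝ), k ≤ Kb (β + 1) → B ≤ Y' → Y ≤ 2 * Y' → ∀ b b',
      Bd C.V k (m * T ^ 8) (C.Z b (C.Z b' F)) (Y * m) →
      Bd C.V k (m * T ^ 10) (C.Z b (C.Z b' fun p => F p + w p)) (Y' * m) := by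
    intro k Y Y' hk h1 h2 b b' h
    rw [arb_ZZ_add C b b' sF hw]
    have h3 : Bd C.V k (m * T ^ 10) (C.Z b (C.Z b' F)) (m * (Y' - T⁻¹ ^ 8)) := by
      refine h.rescale hL0 hL (fun p => (z0 b b' p).trans
        (mul_le_mul_of_nonneg_left (by linarith) hm0)) ?_
      have h4 : Y ≤ T ^ 2 * (Y' - T⁻¹ ^ 8) :=
        le_trans (by linarith) (mul_le_mul_of_nonneg_right hT2 (by linarith))
      have h5 := mul_le_mul_of_nonneg_left h4 (mul_nonneg hL0 hm0)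
      rw [hLL]
      linarith
    refine (Bd.add C.V_sm ((sF.zv (C.V_sm b')).zv (C.V_sm b)) ((hw.zv (C.V_sm b')).zv (C.V_sm b))
      h3 (((w1 b').zv b).mono_k hk)).mono hL0' ?_
    have := mul_nonneg hm0 u8.le
    linarith
  have hG : ∀ (k : ℕ) (Y Y' : ℝ), k ≤ Kb (β + 1) → B ≤ Y' → 0 ≤ Y → Y ≤ 2 * Y' → ∀ b b',
      Bd C.V k (m * T ^ 10) (fun p => C.hh (fun q => F q + w q) b b' p -
        (T⁻¹ ^ (10 * β')) ^ 2 * C.G b b' p) (D * (Y * T⁻¹ ^ (20 * β + 28))) →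
      Bd C.V k (m * T ^ 10) (C.hh (fun q => F q + w q) b b') (Y' * (T⁻¹ ^ (10 * β')) ^ 2) := by
    intro k Y Y' hk h1 h0 h2 b b' h
    generalize (T⁻¹ ^ (10 * β')) = a at h k2
    have h3 : Bd C.V k (m * T ^ 10) (C.G b b') (B / 2) := by
      refine ((hΓ b b').mono_k hk).rescale zero_le_one hL1 (fun p => ?_) ?_
      · have := hC.GB b b' p
        rw [Real.norm_eq_abs]
        linarith
      · have := le_mul_of_one_le_right hL0' (show 1 ≤ B / 2 by linarith)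
        linarith
    have h4 := Bd.csmul C.V_sm (a ^ 2) (C.G_sm b b') h3
    have s1 : Sm fun p => a ^ 2 • C.G b b' p := (sm_const _).smul' (C.G_sm b b')
    have h5 := Bd.add C.V_sm ((C.hh_sm (sF.add' hw) b b').sub' s1) s1 h h4
    simp only [sub_add_cancel] at h5
    refine h5.mono hL0' ?_
    rw [abs_of_nonneg (sq_nonneg a)]
    have h6 := mul_le_mul_of_nonneg_left k2 h0
    have h7 := mul_le_mul_of_nonneg_left h1 (sq_nonneg a)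
    have h8 := mul_le_mul_of_nonneg_left h2 (sq_nonneg a)
    have h9 := mul_nonneg (sq_nonneg a) (show 0 ≤ Y' by linarith)
    linarith
  have hK : Kb β ≤ Kb (β + 1) := by unfold Kb; omega
  have hX1 : B ≤ max B (X / 2) := le_max_left _ _
  have hX2 : X ≤ 2 * max B (X / 2) := by linarith [le_max_right B (X / 2)]
  refine ⟨fun p => F p + w p, ⟨sF.add' hw, ?_, fun b b' p => ?_, fun b b' => ?_, fun b b' => ?_,
    fun b b' p => ?_, fun b b' => ?_, fun b b' => ?_⟩, fun j hj => ?_⟩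
  · rw [hTT, eD]
    refine (Bd.add C.V_sm sD hw hS.n1 hw1).mono zero_le_one ?_
    rw [e8, e10]
    linarith
  · rw [hTT, eD, arb_ZZ_add C b b' sD hw]
    refine (norm_add_le_of_le (hS.n2 b b' p) (((w1 b').zv b).sup p)).trans ?_
    rw [e8, e10]
    have h1 := mul_le_mul_of_nonneg_left u10 hm0
    have h2 := mul_nonneg hm0 u8.le
    linarith
  · rw [hTT]
    exact fG _ B B hK le_rfl (by linarith) b b' (hS.fK b b')
  · rw [hTT]
    exact fG _ X _ le_rfl hX1 hX2 b b' (hS.fP b b')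
  · rw [ea]
    exact ((w2 b b').sup p).trans k2
  · rw [hTT, ea]
    exact hG _ 1 B hK le_rfl zero_le_one (by linarith) b b' (by rw [one_mul]; exact w2 b b')
  · rw [hTT, ea]
    exact hG _ X _ le_rfl hX1 (by linarith) hX2 b b' (w3 b b')
  · simp only [add_sub_cancel_left]
    have h1 : 1 ≤ m ^ j := one_le_pow₀ hm
    have e1 : m ^ j / T ^ 8 = m ^ j * T⁻¹ ^ 8 := by rw [div_eq_mul_inv, inv_pow]
    have h2 := le_mul_of_one_le_left u8.le h1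
    rw [e1]
    refine ⟨fun p => (w0 p).trans (by linarith), fun b => ?_⟩
    refine (((w1 b).mono_k (k' := j) (by unfold Kb; omega)).unw hL1).mono zero_le_one ?_
    have h3 := mul_le_mul_of_nonneg_left
      (arb_key hD hT1 hDT (N := 8 * β) (n := 10 * j) (i := 8) (by omega)) (zero_le_one.trans h1)
    rw [mul_pow, ← pow_mul]
    linarith

end Crest.Agent.R216
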