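import Crest.Agent.R216.ATarget
import Crest.Agent.R216.AModes
import Crest.Agent.R216.ACore
/-! # R216 (A): one round, for families.

`F'` from `smooth_map`, `H` from `target` (`h = hh F`), `jet_point` with a fixed small `δ` (eventually, since `R → ∞`
and `a ≤ m/(lam R²) ≤ R⁻²` makes `|hh F| ≤ B a² ≤ 1/100`), `modes_exist`, `round_core` with `N = k`
(`lam R/(lam R²) = R⁻¹`).  With `LL F w = LL F' w + (Z F - Z F') ⬝ Z w + sym`:
`hh (F + w) - a'² G = (hh F - a'² G - H) - ((ZF - ZF') ⬝ Zw + sym) - (LL F' w + Zw ⬝ Zw - H)`; `a ≤ 1 ≤ X`. -/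

set_option autoImplicit false
set_option linter.unusedSectionVars false
set_option linter.unusedVariables false
open scoped Manifold ContDiff Topology Matrix
open Set Filter

namespace Crest.Agent.R216
universe u
variable {M : Type u} [TopologicalSpace M] [ChartedSpace E2 M] [IsManifold (𝓡 2) ∞ M]
  [CompactSpace M]

variable {g : Met M} {C : Calc g} {τ : Type*} {𝓕 : Filter τ} {m lam R X w a a' : τ → ℝ} {k k' : ℕ}

theorem Calc.round_cl {B c η s : ℝ} (hc : 0 < c) (hη : 0 < η) (hs : 0 < s) (hB : 0 ≤ B)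
    (hE : Eta (B + 1) (c / 4) η s) (hk1 : 1 ≤ k) (hk : k ≤ k') (hR : Tendsto R 𝓕 atTop)
    (h1 : ∀ᶠ t in 𝓕, 1 ≤ m t ∧ m t ≤ lam t ∧ 1 ≤ X t ∧ 0 < a t ∧ 0 ≤ a' t ∧ 10 * a' t ≤ a t ∧
      a t * (lam t * R t ^ 2) ≤ m t)
    {F : τ → M → Fin 4 → ℝ} (hF : ∀ᶠ t in 𝓕, Sm (F t) ∧ Bd C.V 1 1 (F t) B ∧
      C.Geo (F t) (m t) (c / 2) (s / 2) ∧
      (∀ b b', Bd C.V k (lam t) (C.Z b (C.Z b' (F t))) (B * m t)) ∧
      (∀ b b', Bd C.V k' (lam t) (C.Z b (C.Z b' (F t))) (X t * m t)) ∧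
      (∀ b b' p, |C.hh (F t) b b' p - a t ^ 2 * C.G b b' p| ≤ a t ^ 2 / 100) ∧
      (∀ b b', Bd C.V k (lam t) (C.hh (F t) b b') (B * a t ^ 2)) ∧
      ∀ b b', Bd C.V k' (lam t) (C.hh (F t) b b') (X t * a t ^ 2)) :
    ∃ w : τ → M → Fin 4 → ℝ, Cl C.V 𝓕 (fun t => lam t * R t ^ 2) a w ∧
      (∀ b, Cl C.V 𝓕 (fun t => lam t * R t ^ 2) a fun t => C.Z b (w t)) ∧
      (∀ b b', ClK C.V 𝓕 k (fun t => lam t * R t ^ 2)
        (fun t => a t * (R t)⁻¹ ^ k + a t ^ 3 * (lam t * R t ^ 2 / m t))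
        fun t p => C.hh (fun q => F t q + w t q) b b' p - a' t ^ 2 * C.G b b' p) ∧
      ∀ b b', ClK C.V 𝓕 k' (fun t => lam t * R t ^ 2)
        (fun t => X t * (a t * (R t)⁻¹ ^ k + a t ^ 3 * (lam t * R t ^ 2 / m t)))
        fun t p => C.hh (fun q => F t q + w t q) b b' p - a' t ^ 2 * C.G b b' p := by
  have hR1 : ∀ᶠ t in 𝓕, 1 ≤ R t := hR.eventually_ge_atTop 1
  have hsmall : ∀ K δ : ℝ, 0 < δ → ∀ᶠ t in 𝓕, K * (R t)⁻¹ ≤ δ := fun K δ hδ => by
    have h := hR.inv_tendsto_atTop.const_mul K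
    rw [mul_zero] at h
    exact h.eventually (ge_mem_nhds hδ)
  have hnum : ∀ᶠ t in 𝓕, 0 < (R t)⁻¹ ∧ (R t)⁻¹ ≤ 1 ∧ a t ≤ (R t)⁻¹ ∧ (R t)⁻¹ ^ k ≤ (R t)⁻¹ ∧
      0 ≤ a t ^ 3 * (lam t * R t ^ 2 / m t) := by
    filter_upwards [h1, hR1] with t h hr
    obtain ⟨hm, hml, -, ha, -, -, hal⟩ := h
    have hr0 : 0 < R t := by linarith
    have hl0 : 0 < lam t := by linarith
    have hi : (R t)⁻¹ ≤ 1 := inv_le_one_of_one_le₀ hr
    have h2 : a t * R t ^ 2 ≤ 1 := by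
      by_contra hc
      nlinarith
    refine ⟨inv_pos.2 hr0, hi, ?_, pow_le_of_le_one (inv_pos.2 hr0).le hi (by omega), ?_⟩
    · rw [← one_div, le_div_iff₀ hr0]
      nlinarith [mul_pos ha hr0]
    · have : 0 < m t := by linarith
      positivity
  obtain ⟨F', hBase, hd1, hd1', hd2⟩ := Calc.smooth_map (C := C) (m := m) (lam := lam) (R := R)
    (X := X) hk1 hk
    (by filter_upwards [h1, hR1] with t h hr using ⟨h.1, h.2.1, hr, h.2.2.1⟩) (F := F)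
    ⟨B, hF.mono fun t h => ⟨h.1, by simpa using h.2.1⟩⟩
    (fun b c => ⟨B, hF.mono fun t h => ⟨(h.1.zv (C.V_sm c)).zv (C.V_sm b), h.2.2.2.1 b c⟩⟩)
    (fun b c => ⟨1, hF.mono fun t h => ⟨(h.1.zv (C.V_sm c)).zv (C.V_sm b), by
      rw [one_mul]; exact h.2.2.2.2.1 b c⟩⟩)
  obtain ⟨H, hH, he1, he1'⟩ := Calc.target (C := C) (lam := lam) (R := R) (X := X) (a := a) (a' := a')
    hk1 hk hR
    (by filter_upwards [h1] with t h using
      ⟨h.1.trans h.2.1, h.2.2.1, h.2.2.2.1, h.2.2.2.2.1, h.2.2.2.2.2.1⟩)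
    (h := fun t => C.hh (F t))
    (hF.mono fun t h => ⟨C.tens_hh _, C.hh_symm _, h.2.2.2.2.2.1⟩)
    (fun b c => ⟨B, hF.mono fun t h => ⟨C.hh_sm h.1 b c, h.2.2.2.2.2.2.1 b c⟩⟩)
    (fun b c => ⟨1, hF.mono fun t h => ⟨C.hh_sm h.1 b c, by
      rw [one_mul]; exact h.2.2.2.2.2.2.2 b c⟩⟩)
  set δ : ℝ := min 1 (min (c / 16) (min (s / 8) (1 / (1000 * (B + 1))))) with hδdef
  have hδ0 : 0 < δ := by positivity
  have hδ : 0 ≤ δ ∧ δ ≤ 1 ∧ 16 * δ ≤ c ∧ 8 * δ ≤ s ∧ 1000 * (B + 1) * δ ≤ 1 := by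
    have e1 : δ ≤ c / 16 := (min_le_right _ _).trans (min_le_left _ _)
    have e2 : δ ≤ s / 8 := (min_le_right _ _).trans ((min_le_right _ _).trans (min_le_left _ _))
    have e3 : δ ≤ 1 / (1000 * (B + 1)) :=
      (min_le_right _ _).trans ((min_le_right _ _).trans (min_le_right _ _))
    rw [le_div_iff₀ (by positivity)] at e3
    exact ⟨hδ0.le, min_le_left _ _, by linarith, by linarith, by linarith⟩
  have d1 : ∀ᶠ t in 𝓕, ∀ b p, ‖C.Z b (F t) p - C.Z b (F' t) p‖ ≤ δ := by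
    refine eventually_all.2 fun b => ?_
    obtain ⟨K, hK, h⟩ := (hd1 b).sup
    filter_upwards [h, hsmall K δ hδ0, hnum] with t h h' hn p
    refine (h p).trans (le_trans ?_ h')
    rw [abs_of_nonneg (pow_nonneg hn.1.le _)]
    exact mul_le_mul_of_nonneg_left hn.2.2.2.1 hK
  have d2 : ∀ᶠ t in 𝓕, ∀ b b' p, ‖C.Z b (C.Z b' (F t)) p - C.Z b (C.Z b' (F' t)) p‖ ≤ δ * m t := by
    refine eventually_all.2 fun b => eventually_all.2 fun b' => ?_
    obtain ⟨K, hK, h⟩ := (hd2 b b').sup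
    filter_upwards [h, hsmall K δ hδ0, hnum, h1] with t h h' hn hm p
    have hm0 : 0 ≤ m t := by linarith [hm.1]
    refine (h p).trans ?_
    rw [abs_of_nonneg (mul_nonneg hm0 hn.1.le)]
    nlinarith [mul_le_mul_of_nonneg_right h' hm0]
  obtain ⟨𝓜⟩ := Calc.modes_exist hBase (B := B + 1) hη (by
    filter_upwards [h1, hF, d1, d2, hnum, hsmall B (1 / 100) (by norm_num)] with t h hf e1 e2 hn hb i p hp
    refine C.jet_point hE h.1 hδ hf.2.2.1 (fun b q => by simpa using (hf.2.1.zv b).sup q)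
      (fun b b' q => (hf.2.2.2.1 b b').sup q) (fun b b' q => ?_) e1 e2 i hp
    refine ((hf.2.2.2.2.2.2.1 b b').sup q).trans (le_trans ?_ hb)
    refine mul_le_mul_of_nonneg_left ?_ hB
    nlinarith [h.2.2.2.1, hn.2.1, hn.2.2.1])
  obtain ⟨w, hw, hZw, hcore⟩ := Calc.round_core hBase 𝓜 hH (h1.mono fun t h => h.2.2.2.2.2.2) k
  have HM := hBase.ctx'
  have key : ∀ (kk : ℕ) (Y : τ → ℝ), (∀ᶠ t in 𝓕, 1 ≤ Y t) →
      (∀ b c, ClK C.V 𝓕 kk (fun t => lam t * R t ^ 2) (fun t => Y t * (a t ^ 2 * (R t)⁻¹ ^ k))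
        fun t p => C.hh (F t) b c p - a' t ^ 2 * C.G b c p - H t b c p) →
      (∀ b, ClK C.V 𝓕 kk (fun t => lam t * R t ^ 2) (fun t => Y t * (R t)⁻¹ ^ k)
        fun t p => C.Z b (F t) p - C.Z b (F' t) p) →
      ∀ b c, ClK C.V 𝓕 kk (fun t => lam t * R t ^ 2)
        (fun t => Y t * (a t * (R t)⁻¹ ^ k + a t ^ 3 * (lam t * R t ^ 2 / m t)))
        fun t p => C.hh (fun q => F t q + w t q) b c p - a' t ^ 2 * C.G b c p := by
    intro kk Y hY g1 g2 b c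
    have a1 := ClK.weight HM (w' := fun t =>
        Y t * (a t * (R t)⁻¹ ^ k + a t ^ 3 * (lam t * R t ^ 2 / m t))) (g1 b c) 1 (by
      filter_upwards [hY, hnum, h1] with t y hn h
      have ha := h.2.2.2.1
      have hp : 0 ≤ (R t)⁻¹ ^ k := pow_nonneg hn.1.le _
      have hy : 0 ≤ Y t := by linarith
      refine ⟨by positivity, ?_⟩
      rw [one_mul]
      refine mul_le_mul_of_nonneg_left ?_ hy
      have : a t ^ 2 ≤ a t := by nlinarith [hn.2.1, hn.2.2.1]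
      nlinarith [hn.2.2.2.2, mul_le_mul_of_nonneg_right this hp])
    have a2 : ∀ b c, ClK C.V 𝓕 kk (fun t => lam t * R t ^ 2)
        (fun t => Y t * (a t * (R t)⁻¹ ^ k + a t ^ 3 * (lam t * R t ^ 2 / m t)))
        fun t p => (C.Z b (F t) p - C.Z b (F' t) p) ⬝ᵥ C.Z c (w t) p := fun b c =>
      ClK.weight HM (ClK.dot HM (g2 b) ((hZw c).clK kk)) 1 (by
        filter_upwards [hY, hnum, h1] with t y hn h
        have ha := h.2.2.2.1
        have hp : 0 ≤ (R t)⁻¹ ^ k := pow_nonneg hn.1.le _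
        have hy : 0 ≤ Y t := by linarith
        refine ⟨by positivity, ?_⟩
        nlinarith [mul_nonneg hy hn.2.2.2.2])
    have a3 := ClK.weight HM (w' := fun t =>
        Y t * (a t * (R t)⁻¹ ^ k + a t ^ 3 * (lam t * R t ^ 2 / m t))) ((hcore b c).clK kk) 1 (by
      filter_upwards [hY, hnum, h1, hR1] with t y hn h hr
      have ha := h.2.2.2.1
      have hp : 0 ≤ (R t)⁻¹ ^ k := pow_nonneg hn.1.le _
      have hl : lam t ≠ 0 := by linarith [h.1, h.2.1] |> fun h : 0 < lam t => h.ne'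
      have hr0 : R t ≠ 0 := by linarith |> fun h : 0 < R t => h.ne'
      have e : lam t * R t / (lam t * R t ^ 2) = (R t)⁻¹ := by field_simp
      rw [e]
      have h0 : 0 ≤ a t * (R t)⁻¹ ^ k + a t ^ 3 * (lam t * R t ^ 2 / m t) :=
        add_nonneg (mul_nonneg ha.le hp) hn.2.2.2.2
      exact ⟨h0, by nlinarith⟩)
    refine (ClK.sub HM (ClK.sub HM a1 (ClK.add HM (a2 b c) (a2 c b))) a3).congr ?_
    filter_upwards [hF, hw.1] with t hf hs
    funext p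
    have e : ∀ b, C.Z b (fun q => F t q + w t q) p = C.Z b (F t) p + C.Z b (w t) p := fun b =>
      dd_add (hf.1.df p) (hs.df p) _
    simp only [Calc.hh, Calc.LL, e, add_dotProduct, dotProduct_add, sub_dotProduct]
    rw [dotProduct_comm (C.Z b (w t) p) (C.Z c (F t) p)]
    ring
  refine ⟨w, hw, hZw, fun b b' => ?_, key k' X (h1.mono fun t h => h.2.2.1) he1' hd1'⟩
  simpa only [one_mul] using key k (fun _ => 1) (.of_forall fun _ => le_rfl)
    (fun b c => by simpa only [one_mul] using he1 b c) (fun b => by simpa only [one_mul] using hd1 b)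
    b b'

end Crest.Agent.R216
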