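import Crest.Agent.R216.ATens
/-! # R216 (A): smoothing of families (`Calc.smooth` at scale `l = lam R`, choice over `t`).

Work with the unweighted norms `N_j f ≤ c ↔ Bd V j 1 f c` (`Bd.unw`, `Bd.of_unw`; bound the finitely many `c j` by
a maximum).  `smooth_fun` (order `k`): `j ≤ k`: `q = k - j`, `N_j (f - f') ≤ c w lam^k/(lam R)^(k-j) ≤ c w R⁻¹^k (lam R²)^j`;
`k < j ≤ k'`: `q = 0`, `lam^j = (lam R²)^j R^(-2j)`.
`smooth_map` (order `k + 1`, componentwise): `N_(j+2) F ≤ c m lam^j` for `j ≤ k` (resp. `c X m lam^j`, `j ≤ k'`);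
`i = 1, 2` in the first part of `Calc.smooth` give `Base.d1`, `Base.d2`; `N_(j+1) (F - F')` with `q = k + 1 - j`
for `j ≤ k`, `q = 1` for `k < j ≤ k'`; `N_2 (F - F')` with `q = k`. -/

set_option autoImplicit false
set_option linter.unusedSectionVars false
set_option linter.unusedVariables false
open scoped Manifold ContDiff Topology Matrix
open Set Filter

namespace Crest.Agent.R216
universe u
variable {M : Type u} [TopologicalSpace M] [ChartedSpace E2 M] [IsManifold (𝓡 2) ∞ M]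
  [CompactSpace M]

variable {g : Met M} {C : Calc g} {τ : Type*} {𝓕 : Filter τ} {m lam R X w a a' : τ → ℝ} {k k' : ℕ}

theorem sma_fun (C : Calc g) (n : ℕ) : ∃ c : ℕ → ℝ, (∀ j, 0 ≤ c j) ∧ Monotone c ∧
    ∀ l : ℝ, 1 ≤ l → ∀ f : M → ℝ, Sm f → ∃ f' : M → ℝ, Sm f' ∧ ∀ j : ℕ,
      (∀ A : ℝ, 0 ≤ A → Bd C.V 0 1 f A → Bd C.V j 1 f' (c j * l ^ j * A)) ∧
      ∀ q ≤ n, ∀ A : ℝ, 0 ≤ A → Bd C.V (j + q) 1 f A →
        Bd C.V j 1 (fun p => f p - f' p) (c j * A / l ^ q) := by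
  obtain ⟨c, hc⟩ := C.smooth n
  have h0 : ∀ j, 0 ≤ ∑ i ∈ Finset.range (j + 1), |c i| := fun j =>
    Finset.sum_nonneg fun i _ => abs_nonneg _
  have h1 : ∀ j, c j ≤ ∑ i ∈ Finset.range (j + 1), |c i| := fun j =>
    (le_abs_self _).trans (Finset.single_le_sum (f := fun i => |c i|) (fun i _ => abs_nonneg _)
      (Finset.self_mem_range_succ j))
  refine ⟨fun j => ∑ i ∈ Finset.range (j + 1), |c i|, h0, fun j j' h =>
    Finset.sum_le_sum_of_subset_of_nonneg (Finset.range_mono (by omega))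
      fun i _ _ => abs_nonneg _, fun l hl f hf => ?_⟩
  obtain ⟨f', hf', H⟩ := hc l hl f hf
  have hl0 : 0 < l := by linarith
  refine ⟨f', hf', fun j => ⟨fun A hA h => ?_, fun q hq A hA h => ?_⟩⟩
  · refine ((H j).1 0 (Nat.zero_le _) A h).mono zero_le_one ?_
    have := h1 j
    rw [Nat.sub_zero]
    gcongr
  · refine ((H j).2 q hq A h).mono zero_le_one ?_
    have := h1 j
    gcongr

theorem sma_num1 {l R : ℝ} (hl : 1 ≤ l) (hR : 1 ≤ R) (j d : ℕ) :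
    l ^ (j + d) / (l * R) ^ d ≤ R⁻¹ ^ (j + d) * (l * R ^ 2) ^ j := by
  have hl0 : 0 < l := by linarith
  have hR0 : 0 < R := by linarith
  have e : R⁻¹ ^ (j + d) * (l * R ^ 2) ^ j = l ^ (j + d) * R ^ j / (l * R) ^ d := by
    rw [inv_pow]
    field_simp
    ring
  rw [e]
  exact div_le_div_of_nonneg_right (le_mul_of_one_le_right (by positivity) (one_le_pow₀ hR))
    (by positivity)

theorem sma_num2 {l R : ℝ} (hl : 1 ≤ l) (hR : 1 ≤ R) (k d : ℕ) :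
    l ^ (k + d) ≤ R⁻¹ ^ k * (l * R ^ 2) ^ (k + d) := by
  have hl0 : 0 < l := by linarith
  have hR0 : 0 < R := by linarith
  have e : R⁻¹ ^ k * (l * R ^ 2) ^ (k + d) = l ^ (k + d) * R ^ (k + 2 * d) := by
    rw [inv_pow]
    field_simp
    ring
  rw [e]
  exact le_mul_of_one_le_right (by positivity) (one_le_pow₀ hR)

theorem sma_pt (C : Calc g) (hk : k ≤ k') : ∃ c : ℕ → ℝ,
    ∀ (l R X w A : ℝ) (f : M → ℝ), ∃ f' : M → ℝ,
      1 ≤ l → 1 ≤ R → 1 ≤ X → 0 ≤ w → 0 ≤ A → Sm f → Bd C.V k l f (A * w) →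
      Bd C.V k' l f (A * (X * w)) →
      Sm f' ∧ (∀ n, Bd C.V n (l * R) f' (c n * A * w)) ∧
      Bd C.V k (l * R ^ 2) (fun p => f p - f' p) (c k * A * (w * R⁻¹ ^ k)) ∧
      Bd C.V k' (l * R ^ 2) (fun p => f p - f' p) (c k' * A * (X * (w * R⁻¹ ^ k))) := by
  obtain ⟨c, hc0, hcm, H⟩ := sma_fun C k
  refine ⟨c, fun l R X w A f => ?_⟩
  by_cases hh : 1 ≤ l * R ∧ Sm f
  swap
  · exact ⟨f, fun hl hR hX hw hA hf => absurd ⟨one_le_mul_of_one_le_of_one_le hl hR, hf⟩ hh⟩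
  obtain ⟨f', hf', H⟩ := H (l * R) hh.1 f hh.2
  refine ⟨f', fun hl hR hX hw hA hf h1 h2 => ?_⟩
  have hl0 : 0 < l := by linarith
  have hR0 : 0 < R := by linarith
  have hX0 : 0 < X := by linarith
  have low : ∀ j ≤ k, Bd C.V j 1 (fun p => f p - f' p)
      (c j * (A * w * (R⁻¹ ^ k * (l * R ^ 2) ^ j))) := by
    intro j hj
    obtain ⟨d, rfl⟩ := Nat.exists_eq_add_of_le hj
    refine ((H j).2 d (by omega) _ (by positivity) (h1.unw hl)).mono zero_le_one ?_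
    have h5 := mul_le_mul_of_nonneg_left (sma_num1 hl hR j d)
      (mul_nonneg (hc0 j) (mul_nonneg hA hw))
    calc _ = c j * (A * w) * (l ^ (j + d) / (l * R) ^ d) := by ring
      _ ≤ _ := h5
      _ = _ := by ring
  have high : ∀ j ≤ k', k ≤ j → Bd C.V j 1 (fun p => f p - f' p)
      (c j * (A * (X * w) * (R⁻¹ ^ k * (l * R ^ 2) ^ j))) := by
    intro j hj hj'
    obtain ⟨d, rfl⟩ := Nat.exists_eq_add_of_le hj'
    refine ((H (k + d)).2 0 (by omega) _ (by positivity)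
      ((h2.mono_k hj).unw hl)).mono zero_le_one ?_
    have h5 := mul_le_mul_of_nonneg_left (sma_num2 hl hR k d)
      (mul_nonneg (hc0 (k + d)) (mul_nonneg hA (mul_nonneg hX0.le hw)))
    calc _ = c (k + d) * (A * (X * w)) * l ^ (k + d) := by ring
      _ ≤ _ := h5
      _ = _ := by ring
  refine ⟨hf', fun n => ?_, ?_, ?_⟩
  · refine Bd.of_unw (by positivity) fun j hj => ?_
    refine ((H j).1 (A * w) (by positivity) fun p => h1.sup p).mono zero_le_one ?_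
    have h3 : c j ≤ c n := hcm hj
    calc _ = c j * (A * w * (l * R) ^ j) := by ring
      _ ≤ c n * (A * w * (l * R) ^ j) := by gcongr
      _ = _ := by ring
  · refine Bd.of_unw (by positivity) fun j hj => (low j hj).mono zero_le_one ?_
    have h3 : c j ≤ c k := hcm hj
    calc _ ≤ c k * (A * w * (R⁻¹ ^ k * (l * R ^ 2) ^ j)) := by gcongr
      _ = _ := by ring
  · refine Bd.of_unw (by positivity) fun j hj => ?_
    have h3 : c j ≤ c k' := hcm hj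
    rcases le_total j k with h | h
    · refine (low j h).mono zero_le_one ?_
      have := hc0 k'
      calc _ = c j * 1 * (A * w * (R⁻¹ ^ k * (l * R ^ 2) ^ j)) := by ring
        _ ≤ c k' * X * (A * w * (R⁻¹ ^ k * (l * R ^ 2) ^ j)) := by gcongr
        _ = _ := by ring
    · refine (high j hj h).mono zero_le_one ?_
      calc _ ≤ c k' * (A * (X * w) * (R⁻¹ ^ k * (l * R ^ 2) ^ j)) := by gcongr
        _ = _ := by ring

theorem Calc.smooth_fun (hk : k ≤ k')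
    (h1 : ∀ᶠ t in 𝓕, 1 ≤ lam t ∧ 1 ≤ R t ∧ 1 ≤ X t ∧ 0 ≤ w t) {f : τ → M → ℝ}
    (hf : ClK C.V 𝓕 k lam w f) (hf' : ClK C.V 𝓕 k' lam (fun t => X t * w t) f) :
    ∃ f' : τ → M → ℝ, Cl C.V 𝓕 (fun t => lam t * R t) w f' ∧
      ClK C.V 𝓕 k (fun t => lam t * R t ^ 2) (fun t => w t * (R t)⁻¹ ^ k)
        (fun t p => f t p - f' t p) ∧
      ClK C.V 𝓕 k' (fun t => lam t * R t ^ 2) (fun t => X t * (w t * (R t)⁻¹ ^ k))
        fun t p => f t p - f' t p := by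
  obtain ⟨c, H⟩ := sma_pt C hk
  obtain ⟨A₁, hA₁⟩ := hf
  obtain ⟨A₂, hA₂⟩ := hf'
  choose f' hf' using fun t => H (lam t) (R t) (X t) (w t) (max |A₁| |A₂|) (f t)
  have key := (h1.and (hA₁.and hA₂)).mono fun t ⟨⟨hl, hR, hX, hw⟩, e1, e2⟩ =>
    And.intro e1.1 (hf' t hl hR hX hw ((abs_nonneg _).trans (le_max_left _ _)) e1.1
      (e1.2.mono (by linarith)
        (mul_le_mul_of_nonneg_right ((le_abs_self _).trans (le_max_left _ _)) hw))
      (e2.2.mono (by linarith)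
        (mul_le_mul_of_nonneg_right ((le_abs_self _).trans (le_max_right _ _))
          (mul_nonneg (by linarith) hw))))
  exact ⟨f', ⟨key.mono fun t h => h.2.1, fun n => ⟨_, key.mono fun t h => h.2.2.1 n⟩⟩,
    ⟨_, key.mono fun t h => ⟨h.1.sub' h.2.1, h.2.2.2.1⟩⟩,
    ⟨_, key.mono fun t h => ⟨h.1.sub' h.2.1, h.2.2.2.2⟩⟩⟩

theorem smb_vec (C : Calc g) (n : ℕ) : ∃ c : ℕ → ℝ, (∀ j, 0 ≤ c j) ∧ Monotone c ∧
    ∀ l : ℝ, 1 ≤ l → ∀ F : M → Fin 4 → ℝ, Sm F → ∃ F' : M → Fin 4 → ℝ, Sm F' ∧ ∀ j : ℕ,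
      (∀ i ≤ j, ∀ A : ℝ, 0 ≤ A → Bd C.V i 1 F A → Bd C.V j 1 F' (c j * l ^ (j - i) * A)) ∧
      ∀ q ≤ n, ∀ A : ℝ, 0 ≤ A → Bd C.V (j + q) 1 F A →
        Bd C.V j 1 (fun p => F p - F' p) (c j * A / l ^ q) := by
  obtain ⟨c, hc⟩ := C.smooth n
  have h0 : ∀ j, 0 ≤ ∑ i ∈ Finset.range (j + 1), |c i| := fun j =>
    Finset.sum_nonneg fun i _ => abs_nonneg _
  have h1 : ∀ j, c j ≤ ∑ i ∈ Finset.range (j + 1), |c i| := fun j =>
    (le_abs_self _).trans (Finset.single_le_sum (f := fun i => |c i|) (fun i _ => abs_nonneg _)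
      (Finset.self_mem_range_succ j))
  refine ⟨fun j => ∑ i ∈ Finset.range (j + 1), |c i|, h0, fun j j' h =>
    Finset.sum_le_sum_of_subset_of_nonneg (Finset.range_mono (by omega))
      fun i _ _ => abs_nonneg _, fun l hl F hF => ?_⟩
  choose f hf hf' using fun r => hc l hl (fun p => F p r) (sm_pi.1 hF r)
  have hF' : Sm fun p r => f r p := sm_pi.2 hf
  have hl0 : 0 < l := by linarith
  refine ⟨fun p r => f r p, hF', fun j => ⟨fun i hi A hA h => ?_, fun q hq A hA h => ?_⟩⟩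
  · refine Bd.pi C.V_sm zero_le_one (by have := h0 j; positivity) hF' fun r => ?_
    refine ((hf' r j).1 i hi A (Bd.apply C.V_sm hF h r)).mono zero_le_one ?_
    have := h1 j
    gcongr
  · refine Bd.pi C.V_sm zero_le_one (by have := h0 j; positivity) (hF.sub' hF') fun r => ?_
    refine ((hf' r j).2 q hq A (Bd.apply C.V_sm hF h r)).mono zero_le_one ?_
    have := h1 j
    gcongr

theorem smb_two {F : M → Fin 4 → ℝ} {l A v : ℝ} {j n : ℕ} (hA : 0 ≤ A) (hv : 1 ≤ v) (hl : 1 ≤ l)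
    (h1 : Bd C.V 1 1 F A) (h2 : ∀ b c, Bd C.V n l (C.Z b (C.Z c F)) (A * v)) (hj : j ≤ n) :
    Bd C.V (j + 2) 1 F (A * v * l ^ j) := by
  have h3 : A ≤ A * v * l ^ j := by
    rw [mul_assoc]
    exact le_mul_of_one_le_right hA (one_le_mul_of_one_le_of_one_le hv (one_le_pow₀ hl))
  refine ⟨fun p => (h1.sup p).trans h3, fun c => ⟨fun p => ((h1.zv c).sup p).trans ?_, fun b => ?_⟩⟩
  · rwa [one_mul, one_mul]
  · rw [one_mul, one_mul]
    exact ((h2 b c).mono_k hj).unw hl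

theorem smb_sub {F F' : M → Fin 4 → ℝ} (hF : Sm F) (hF' : Sm F') (b : Fin C.n × Fin 2) :
    Zv (C.V b) (fun p => F p - F' p) = fun p => C.Z b F p - C.Z b F' p :=
  funext fun p => dd_sub (hF.df p) (hF'.df p) _

theorem smb_num1 {m l R : ℝ} (hm : 1 ≤ m) (hl : m ≤ l) (hR : 1 ≤ R) (j d : ℕ) :
    m * l ^ (j + d) / (l * R) ^ (d + 1) ≤ R⁻¹ ^ (j + d) * (l * R ^ 2) ^ j := by
  have hl0 : 0 < l := by linarith
  have hR0 : 0 < R := by linarith
  have e : R⁻¹ ^ (j + d) * (l * R ^ 2) ^ j = l * l ^ (j + d) * R ^ (j + 1) / (l * R) ^ (d + 1) := by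
    rw [inv_pow]
    field_simp
    ring
  rw [e]
  refine div_le_div_of_nonneg_right ?_ (by positivity)
  calc m * l ^ (j + d) ≤ l * l ^ (j + d) := by gcongr
    _ ≤ _ := le_mul_of_one_le_right (by positivity) (one_le_pow₀ hR)

theorem smb_num2 {m l R : ℝ} (hm : 1 ≤ m) (hl : m ≤ l) (hR : 1 ≤ R) (k d : ℕ) :
    m * l ^ (k + d) / (l * R) ^ 1 ≤ R⁻¹ ^ k * (l * R ^ 2) ^ (k + d) := by
  have hl0 : 0 < l := by linarith
  have hR0 : 0 < R := by linarith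
  have e : R⁻¹ ^ k * (l * R ^ 2) ^ (k + d) = l * l ^ (k + d) * R ^ (k + 2 * d + 1) / (l * R) ^ 1 := by
    rw [inv_pow]
    field_simp
    ring
  rw [e]
  refine div_le_div_of_nonneg_right ?_ (by positivity)
  calc m * l ^ (k + d) ≤ l * l ^ (k + d) := by gcongr
    _ ≤ _ := le_mul_of_one_le_right (by positivity) (one_le_pow₀ hR)

theorem smb_pt (C : Calc g) (hk1 : 1 ≤ k) (hk : k ≤ k') : ∃ c : ℕ → ℝ,
    ∀ (m l R X A : ℝ) (F : M → Fin 4 → ℝ), ∃ F' : M → Fin 4 → ℝ,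
      1 ≤ m → m ≤ l → 1 ≤ R → 1 ≤ X → 0 ≤ A → Sm F → Bd C.V 1 1 F A →
      (∀ b c, Bd C.V k l (C.Z b (C.Z c F)) (A * m)) →
      (∀ b c, Bd C.V k' l (C.Z b (C.Z c F)) (A * (X * m))) →
      Sm F' ∧ (∀ a n, Bd C.V n (l * R) (C.Z a F') (c n * A * 1)) ∧
      (∀ a b n, Bd C.V n (l * R) (C.Z a (C.Z b F')) (c n * A * m)) ∧
      (∀ b, Bd C.V k (l * R ^ 2) (fun p => C.Z b F p - C.Z b F' p) (c k * A * R⁻¹ ^ k)) ∧
      (∀ b, Bd C.V k' (l * R ^ 2) (fun p => C.Z b F p - C.Z b F' p) (c k' * A * (X * R⁻¹ ^ k))) ∧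
      ∀ a b, Bd C.V 0 (l * R ^ 2) (fun p => C.Z a (C.Z b F) p - C.Z a (C.Z b F') p)
        (c 0 * A * (m * R⁻¹)) := by
  obtain ⟨c, hc0, hcm, H⟩ := smb_vec C (k + 1)
  refine ⟨fun n => c (n + 2), fun m l R X A F => ?_⟩
  by_cases hh : 1 ≤ l * R ∧ Sm F
  swap
  · exact ⟨F, fun hm hl hR hX hA hF =>
      absurd ⟨one_le_mul_of_one_le_of_one_le (hm.trans hl) hR, hF⟩ hh⟩
  obtain ⟨F', hF', H⟩ := H (l * R) hh.1 F hh.2
  refine ⟨F', fun hm hl hR hX hA hF h1 h2 h2' => ?_⟩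
  have hl1 : 1 ≤ l := hm.trans hl
  have hl0 : 0 < l := by linarith
  have hR0 : 0 < R := by linarith
  have hm0 : 0 < m := by linarith
  have hX0 : 0 < X := by linarith
  have hXm : 1 ≤ X * m := one_le_mul_of_one_le_of_one_le hX hm
  have low : ∀ b, ∀ j ≤ k, Bd C.V j 1 (fun p => C.Z b F p - C.Z b F' p)
      (c (j + 1) * A * (R⁻¹ ^ k * (l * R ^ 2) ^ j)) := by
    intro b j hj
    obtain ⟨d, rfl⟩ := Nat.exists_eq_add_of_le hj
    have h3 := smb_two hA hm hl1 h1 h2 le_rfl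
    rw [show j + d + 2 = j + 1 + (d + 1) by ring] at h3
    have h4 := ((H (j + 1)).2 (d + 1) (by omega) _ (by positivity) h3).zv b
    rw [smb_sub hF hF'] at h4
    refine h4.mono zero_le_one ?_
    have h5 := mul_le_mul_of_nonneg_left (smb_num1 hm hl hR j d) (mul_nonneg (hc0 (j + 1)) hA)
    refine le_trans (le_of_eq ?_) h5
    ring
  have high : ∀ b, ∀ j ≤ k', k ≤ j → Bd C.V j 1 (fun p => C.Z b F p - C.Z b F' p)
      (c (j + 1) * A * X * (R⁻¹ ^ k * (l * R ^ 2) ^ j)) := by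
    intro b j hj hj'
    obtain ⟨d, rfl⟩ := Nat.exists_eq_add_of_le hj'
    have h3 := smb_two hA hXm hl1 h1 h2' hj
    have h4 := ((H (k + d + 1)).2 1 (by omega) _ (by positivity) h3).zv b
    rw [smb_sub hF hF'] at h4
    refine h4.mono zero_le_one ?_
    have h5 := mul_le_mul_of_nonneg_left (smb_num2 hm hl hR k d)
      (mul_nonneg (mul_nonneg (hc0 (k + d + 1)) hA) hX0.le)
    refine le_trans (le_of_eq ?_) h5
    ring
  refine ⟨hF', fun a n => ?_, fun a b n => ?_, fun b => ?_, fun b => ?_, fun a b => ?_⟩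
  · refine Bd.of_unw (by positivity) fun j hj => ?_
    refine (((H (j + 1)).1 1 (by omega) A hA h1).zv a).mono zero_le_one ?_
    have h3 : c (j + 1) ≤ c (n + 2) := hcm (by omega)
    rw [Nat.add_sub_cancel]
    calc _ = c (j + 1) * (A * (l * R) ^ j) := by ring
      _ ≤ c (n + 2) * (A * (l * R) ^ j) := by gcongr
      _ = _ := by ring
  · refine Bd.of_unw (by positivity) fun j hj => ?_
    have h4 := smb_two (j := 0) hA hm hl1 h1 h2 (Nat.zero_le _)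
    refine ((((H (j + 2)).1 (0 + 2) (by omega) _ (by positivity) h4).zv b).zv a).mono
      zero_le_one ?_
    have h3 : c (j + 2) ≤ c (n + 2) := hcm (by omega)
    rw [show j + 2 - (0 + 2) = j by omega]
    calc _ = c (j + 2) * (A * m * (l * R) ^ j) := by ring
      _ ≤ c (n + 2) * (A * m * (l * R) ^ j) := by gcongr
      _ = _ := by ring
  · refine Bd.of_unw (by positivity) fun j hj => (low b j hj).mono zero_le_one ?_
    have h3 : c (j + 1) ≤ c (k + 2) := hcm (by omega)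
    calc _ = c (j + 1) * (A * (R⁻¹ ^ k * (l * R ^ 2) ^ j)) := by ring
      _ ≤ c (k + 2) * (A * (R⁻¹ ^ k * (l * R ^ 2) ^ j)) := by gcongr
      _ = _ := by ring
  · refine Bd.of_unw (by positivity) fun j hj => ?_
    have h3 : c (j + 1) ≤ c (k' + 2) := hcm (by omega)
    rcases le_total j k with h | h
    · refine (low b j h).mono zero_le_one ?_
      have := hc0 (k' + 2)
      calc _ = c (j + 1) * 1 * (A * (R⁻¹ ^ k * (l * R ^ 2) ^ j)) := by ring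
        _ ≤ c (k' + 2) * X * (A * (R⁻¹ ^ k * (l * R ^ 2) ^ j)) := by gcongr
        _ = _ := by ring
    · refine (high b j hj h).mono zero_le_one ?_
      calc _ = c (j + 1) * (A * X * (R⁻¹ ^ k * (l * R ^ 2) ^ j)) := by ring
        _ ≤ c (k' + 2) * (A * X * (R⁻¹ ^ k * (l * R ^ 2) ^ j)) := by gcongr
        _ = _ := by ring
  · have h3 := smb_two (j := 1) hA hm hl1 h1 h2 hk1
    have h4 := ((H (0 + 1 + 1)).2 1 (by omega) _ (by positivity) h3).zv b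
    rw [smb_sub hF hF'] at h4
    have h5 := h4.zv a
    rw [smb_sub (hF.zv (C.V_sm b)) (hF'.zv (C.V_sm b))] at h5
    intro p
    refine (h5 p).trans (le_of_eq ?_)
    field_simp

theorem Calc.smooth_map (hk1 : 1 ≤ k) (hk : k ≤ k')
    (h1 : ∀ᶠ t in 𝓕, 1 ≤ m t ∧ m t ≤ lam t ∧ 1 ≤ R t ∧ 1 ≤ X t) {F : τ → M → Fin 4 → ℝ}
    (hF : ClK C.V 𝓕 1 (fun _ => 1) (fun _ => 1) F)
    (h2 : ∀ b c, ClK C.V 𝓕 k lam m fun t => C.Z b (C.Z c (F t)))
    (h2' : ∀ b c, ClK C.V 𝓕 k' lam (fun t => X t * m t) fun t => C.Z b (C.Z c (F t))) :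
    ∃ F' : τ → M → Fin 4 → ℝ, C.Base 𝓕 m (fun t => lam t * R t) (fun t => lam t * R t ^ 2) F' ∧
      (∀ b, ClK C.V 𝓕 k (fun t => lam t * R t ^ 2) (fun t => (R t)⁻¹ ^ k)
        fun t p => C.Z b (F t) p - C.Z b (F' t) p) ∧
      (∀ b, ClK C.V 𝓕 k' (fun t => lam t * R t ^ 2) (fun t => X t * (R t)⁻¹ ^ k)
        fun t p => C.Z b (F t) p - C.Z b (F' t) p) ∧
      ∀ b c, ClK C.V 𝓕 0 (fun t => lam t * R t ^ 2) (fun t => m t * (R t)⁻¹)
        fun t p => C.Z b (C.Z c (F t)) p - C.Z b (C.Z c (F' t)) p := by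
  obtain ⟨c, H⟩ := smb_pt C hk1 hk
  obtain ⟨A₁, hA₁⟩ := hF
  choose A₂ hA₂ using h2
  choose A₃ hA₃ using h2'
  obtain ⟨B, -, hB1, hB2⟩ := cll_bound (fun x : C.I × C.I => A₂ x.1 x.2) A₁
  obtain ⟨A, hA, hA1, hA2⟩ := cll_bound (fun x : C.I × C.I => A₃ x.1 x.2) B
  choose F' hF' using fun t => H (m t) (lam t) (R t) (X t) A (F t)
  have key := (h1.and (hA₁.and ((eventually_all.2 fun b => eventually_all.2 fun c => hA₂ b c).and
    (eventually_all.2 fun b => eventually_all.2 fun c => hA₃ b c)))).mono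
    fun t ⟨⟨hm, hl, hR, hX⟩, e1, e2, e3⟩ => And.intro e1.1 (hF' t hm hl hR hX hA e1.1
      (e1.2.mono zero_le_one (by linarith))
      (fun b c => (e2 b c).2.mono (by linarith)
        (mul_le_mul_of_nonneg_right ((hB2 (b, c)).trans hA1) (by linarith)))
      (fun b c => (e3 b c).2.mono (by linarith)
        (mul_le_mul_of_nonneg_right (hA2 (b, c)) (mul_nonneg (by linarith) (by linarith)))))
  refine ⟨F', ⟨?_, key.mono fun t h => h.2.1,
    fun a => ⟨key.mono fun t h => h.2.1.zv (C.V_sm a),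
      fun n => ⟨c n * A, key.mono fun t h => h.2.2.1 a n⟩⟩,
    fun a b => ⟨key.mono fun t h => (h.2.1.zv (C.V_sm b)).zv (C.V_sm a),
      fun n => ⟨c n * A, key.mono fun t h => h.2.2.2.1 a b n⟩⟩⟩,
    fun b => ⟨c k * A, key.mono fun t h =>
      ⟨(h.1.zv (C.V_sm b)).sub' (h.2.1.zv (C.V_sm b)), h.2.2.2.2.1 b⟩⟩,
    fun b => ⟨c k' * A, key.mono fun t h =>
      ⟨(h.1.zv (C.V_sm b)).sub' (h.2.1.zv (C.V_sm b)), h.2.2.2.2.2.1 b⟩⟩,
    fun a b => ⟨c 0 * A, key.mono fun t h =>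
      ⟨((h.1.zv (C.V_sm b)).zv (C.V_sm a)).sub' ((h.2.1.zv (C.V_sm b)).zv (C.V_sm a)),
        h.2.2.2.2.2.2 a b⟩⟩⟩
  filter_upwards [h1] with t ⟨hm, hl, hR, hX⟩
  have hl0 : 0 ≤ lam t := by linarith
  refine ⟨hm, hl.trans (le_mul_of_one_le_right hl0 hR), mul_le_mul_of_nonneg_left ?_ hl0⟩
  nlinarith

end Crest.Agent.R216
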