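import Crest.Agent.R216.ATens
import Crest.Agent.R216.AJet2
/-! # R216 (A): the start of the iteration.

`interp`: `Calc.smooth 1` at scale `l = m L`: `N_j E' ≤ c_j (m L)^j σ`, `N_j (E - E') ≤ c_j D m^(j+1)/(m L)`; choose `L ≥ 1`
large, then `σ` small; `Bd.of_unw`.
`start`: `d = T⁻¹^80`, `θ = √(1 - d²) ∈ [3/4, 1]`, `F₀ = θ • F`, `hh F₀ = d² G + (1 - d²) hh F`; `Bd (K+1) m (hh F) D` with `D`
depending only on `B₀, K` (`Bd (K+1) m (Z a F) B₀` by unfolding, `Bd.dot`, `Bd.of_compact` for `G`); `interp` with `d²`;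
`σ ≤ min (d²/100) (s/4)`; `T` large: `2/T⁸ ≤ e` and `T ≥` the order `K` bounds of `G` (`Bd.rescale`, `Cst.GB`);
`X` by `Bd.of_compact`. -/

set_option autoImplicit false
set_option linter.unusedSectionVars false
set_option linter.unusedVariables false
open scoped Manifold ContDiff Topology Matrix
open Set Filter

namespace Crest.Agent.R216
universe u
variable {M : Type u} [TopologicalSpace M] [ChartedSpace E2 M] [IsManifold (𝓡 2) ∞ M]
  [CompactSpace M]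

variable {g : Met M} (C : Calc g)

theorem Calc.interp (k : ℕ) (D : ℝ) {d : ℝ} (hd : 0 < d) : ∃ σ > 0, ∀ (m : ℝ) (E : M → ℝ),
    1 ≤ m → Sm E → Bd C.V (k + 1) m E D → (∀ p, |E p| ≤ σ) → Bd C.V k m E d := by
  obtain ⟨c, hc⟩ := C.smooth 1
  obtain ⟨cb, hcb0, hcb⟩ : ∃ cb : ℝ, 0 < cb ∧ ∀ j ≤ k, c j ≤ cb :=
    ⟨∑ j ∈ Finset.range (k + 1), |c j| + 1, by positivity, fun j hj =>
      (le_abs_self _).trans ((Finset.single_le_sum (f := fun j => |c j|) (fun _ _ => abs_nonneg _)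
        (Finset.mem_range.2 (Nat.lt_succ_of_le hj))).trans (by linarith))⟩
  obtain ⟨L, hL1, hL⟩ : ∃ L : ℝ, 1 ≤ L ∧ 2 * cb * |D| ≤ d * L :=
    ⟨1 + 2 * cb * |D| / d, le_add_of_nonneg_right (by positivity), by
      rw [mul_add, mul_div_cancel₀ _ hd.ne']; linarith⟩
  have hL0 : 0 < L := by linarith
  refine ⟨d / (2 * cb * L ^ k), by positivity, fun m E hm hE hD hσ => ?_⟩
  have hm0 : 0 < m := by linarith
  obtain ⟨E', hE', h⟩ := hc (m * L) (one_le_mul_of_one_le_of_one_le hm hL1) E hE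
  refine Bd.of_unw hm0.le fun j hj => ?_
  have h1 := (h j).1 0 (Nat.zero_le j) (d / (2 * cb * L ^ k)) (fun p => hσ p)
  have h2 := (h j).2 1 le_rfl _
    (((hD.mono hm0.le (le_abs_self D)).mono_k (Nat.add_le_add_right hj 1)).unw hm)
  have h3 := Bd.add C.V_sm hE' (hE.sub' hE') h1 h2
  simp only [add_sub_cancel] at h3
  refine h3.mono zero_le_one ?_
  have e1 : c j * (m * L) ^ (j - 0) * (d / (2 * cb * L ^ k)) ≤ d / 2 * m ^ j := by
    calc c j * (m * L) ^ (j - 0) * (d / (2 * cb * L ^ k))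
        ≤ cb * (m ^ j * L ^ k) * (d / (2 * cb * L ^ k)) := by
          rw [Nat.sub_zero, mul_pow]
          gcongr
          exact hcb j hj
      _ = d / 2 * m ^ j := by field_simp
  have e2 : c j * (|D| * m ^ (j + 1)) / (m * L) ^ 1 ≤ d / 2 * m ^ j := by
    calc c j * (|D| * m ^ (j + 1)) / (m * L) ^ 1 ≤ cb * (|D| * m ^ (j + 1)) / (m * L) ^ 1 := by
          gcongr
          exact hcb j hj
      _ = 2 * cb * |D| / (2 * L) * m ^ j := by
          field_simp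
          ring
      _ ≤ d * L / (2 * L) * m ^ j := by gcongr
      _ = d / 2 * m ^ j := by field_simp
  linarith

theorem Calc.exists_cst (B₀ : ℝ) {c : ℝ} (hc : 0 < c) :
    ∃ B η s e : ℝ, B₀ + 1 ≤ B ∧ C.Cst B c η s e := by
  have h1 : ∀ ab : C.I × C.I, ∃ b, ∀ p, |C.G ab.1 ab.2 p| ≤ b := fun ab =>
    Bd.of_compact C.V_sm (C.G_sm ab.1 ab.2) 0
  choose b hb using h1
  obtain ⟨G, hG0, -, hG⟩ := cll_bound b 0
  obtain ⟨η, hη, s, hs, hE⟩ := exists_eta (max (B₀ + 1) (2 * (G + 1)) + 1) (c := c / 4) (by positivity)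
  have h2 : 2 * (G + 1) ≤ max (B₀ + 1) (2 * (G + 1)) := le_max_right _ _
  have h3 := min_le_right 1 (min (c / 16) (s / 16))
  have h4 := min_le_left (c / 16) (s / 16)
  have h5 := min_le_right (c / 16) (s / 16)
  refine ⟨max (B₀ + 1) (2 * (G + 1)), η, s, min 1 (min (c / 16) (s / 16)), le_max_left _ _,
    by linarith, fun a a' p => ?_, hc, hη, hs, hE, by positivity, min_le_left _ _, by linarith,
    by linarith⟩
  have := (hb (a, a') p).trans (hG (a, a'))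
  linarith

theorem Calc.start {B₀ B c η s e : ℝ} (hB : B₀ + 1 ≤ B) (hC : C.Cst B c η s e) (T₀ : ℝ) :
    ∃ T σ : ℝ, T₀ ≤ T ∧ 0 < σ ∧ ∀ (mu : ℝ) (F : M → Fin 4 → ℝ), 1 ≤ mu → Sm F →
      Bd C.V 1 1 F B₀ → (∀ a b, Bd C.V (Kb 10) mu (C.Z a (C.Z b F)) (B₀ * mu)) → C.Geo F mu c σ →
      (∀ a b p, |C.Z a F p ⬝ᵥ C.Z b F p - C.G a b p| ≤ σ) →
      ∃ (F₀ : M → Fin 4 → ℝ) (X : ℝ), C.Pre B c s mu F₀ ∧ B ≤ X ∧
        C.St B e mu F₀ (Kb 10) (Kb 11) (T⁻¹ ^ 80) T X F₀ := by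
  have hB2 := hC.B2
  have he0 := hC.e0
  have hs0 := hC.s0
  have hc0 := hC.c0
  choose gb hgb using fun ab : C.I × C.I => Bd.of_compact C.V_sm (C.G_sm ab.1 ab.2) (Kb 10 + 1)
  obtain ⟨Gb, hG0, -, hG⟩ := cll_bound gb 0
  have hGb : ∀ a b, Bd C.V (Kb 10 + 1) 1 (C.G a b) Gb := fun a b =>
    (hgb (a, b)).mono zero_le_one (hG (a, b))
  obtain ⟨T, hT0, hT2, hTG, hTe⟩ : ∃ T : ℝ, T₀ ≤ T ∧ 2 ≤ T ∧ Gb ≤ T ∧ 2 / e ≤ T :=
    ⟨max (max T₀ 2) (max Gb (2 / e)), le_max_of_le_left (le_max_left _ _),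
      le_max_of_le_left (le_max_right _ _), le_max_of_le_right (le_max_left _ _),
      le_max_of_le_right (le_max_right _ _)⟩
  have hT8 : T ≤ T ^ 8 := le_self_pow₀ (by linarith) (by norm_num)
  have hTe' : 0 ≤ e - 2 / T ^ 8 := by
    rw [sub_nonneg, div_le_iff₀ (by linarith)]
    rw [div_le_iff₀ he0] at hTe
    nlinarith
  have hd0 : 0 < T⁻¹ ^ 80 := by positivity
  have hd1 : T⁻¹ ^ 80 ≤ 1 / 2 := by
    have h1 : T⁻¹ ≤ 1 / 2 := by
      rw [one_div]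
      exact inv_anti₀ two_pos hT2
    exact (pow_le_of_le_one (by positivity) (by linarith) (by norm_num)).trans h1
  refine ⟨T, ?_⟩
  generalize T⁻¹ ^ 80 = d at hd0 hd1
  obtain ⟨θ, hθ0, hθ1, hθ⟩ : ∃ θ : ℝ, 3 / 4 ≤ θ ∧ θ ≤ 1 ∧ θ ^ 2 = 1 - d ^ 2 :=
    ⟨√(1 - d ^ 2), Real.le_sqrt_of_sq_le (by nlinarith), Real.sqrt_le_one.2 (by nlinarith),
      Real.sq_sqrt (by nlinarith)⟩
  have hθa : |θ| = θ := abs_of_nonneg (by linarith)
  obtain ⟨σ₁, hσ₁, hint⟩ := C.interp (Kb 10)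
    (Gb + Fintype.card (Fin 4) * (2 ^ (Kb 10 + 1) * (B - 1) * (B - 1))) (d := d ^ 2) (by positivity)
  refine ⟨min σ₁ (min (d ^ 2 / 100) (s / 4)), hT0, by positivity, ?_⟩
  have s1 := min_le_left σ₁ (min (d ^ 2 / 100) (s / 4))
  have s2 := (min_le_right σ₁ _).trans (min_le_left (d ^ 2 / 100) (s / 4))
  have s3 := (min_le_right σ₁ _).trans (min_le_right (d ^ 2 / 100) (s / 4))
  generalize min σ₁ (min (d ^ 2 / 100) (s / 4)) = σ at s1 s2 s3
  intro mu F hmu hF h1 h2 hgeo hσ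
  have hmu0 : 0 ≤ mu := by linarith
  have hl : mu ≤ mu * T ^ 8 := le_mul_of_one_le_right hmu0 (by linarith)
  replace h1 : Bd C.V 1 1 F (B - 1) := h1.mono zero_le_one (by linarith)
  replace h2 : ∀ a b, Bd C.V (Kb 10) mu (C.Z a (C.Z b F)) ((B - 1) * mu) := fun a b =>
    (h2 a b).mono hmu0 (mul_le_mul_of_nonneg_right (by linarith) hmu0)
  have hZ : ∀ a, Sm (C.Z a F) := fun a => hF.zv (C.V_sm a)
  have hF₀ : Sm fun p => θ • F p := (sm_const θ).smul' hF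
  have z1 : ∀ a, C.Z a (fun p => θ • F p) = fun p => θ • C.Z a F p := fun a =>
    funext fun p => dd_const_smul θ (hF.df p) _
  have z2 : ∀ a b, C.Z a (C.Z b fun p => θ • F p) = fun p => θ • C.Z a (C.Z b F) p := fun a b => by
    rw [z1]
    exact funext fun p => dd_const_smul θ ((hZ b).df p) _
  have z3 : ∀ a b, Bd C.V (Kb 10) mu (C.Z a (C.Z b fun p => θ • F p)) ((B - 1) * mu) := fun a b => by
    rw [z2]
    refine (Bd.csmul C.V_sm θ ((hZ b).zv (C.V_sm a)) (h2 a b)).mono hmu0 ?_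
    rw [hθa]
    exact mul_le_of_le_one_left (mul_nonneg (by linarith) hmu0) hθ1
  have z4 : ∀ a b, C.hh (fun p => θ • F p) a b =
      fun p => d ^ 2 • C.G a b p + (1 - d ^ 2) • C.hh F a b p := fun a b => funext fun p => by
    simp only [Calc.hh, z1, smul_dotProduct, dotProduct_smul, smul_eq_mul]
    linear_combination (-(C.Z a F p ⬝ᵥ C.Z b F p)) * hθ
  have z5 : ∀ a b p, |C.hh F a b p| ≤ σ := fun a b p => by
    rw [Calc.hh, abs_sub_comm]
    exact hσ a b p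
  have z6 : ∀ a, Bd C.V (Kb 10 + 1) mu (C.Z a F) (B - 1) := fun a =>
    ⟨fun p => by simpa using h1.2 a p, fun a' => by rw [mul_comm]; exact h2 a' a⟩
  have z7 : ∀ a b, Bd C.V (Kb 10) mu (C.hh F a b) (d ^ 2) := fun a b =>
    hint mu _ hmu (C.hh_sm hF a b) (Bd.sub C.V_sm (C.G_sm a b) ((hZ a).dot (hZ b))
      ((hGb a b).mono_l zero_le_one hmu) (Bd.dot C.V_sm hmu0 (hZ a) (hZ b) (z6 a) (z6 b)))
      fun p => (z5 a b p).trans s1
  have z8 : ∀ a, C.Z a (fun _ : M => (0 : Fin 4 → ℝ)) = fun _ => 0 := fun a =>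
    funext fun p => by simp [Zv, dd_const]
  have hd2 : 0 ≤ 1 - d ^ 2 := by nlinarith
  have hd3 : 0 < d ^ 2 := by positivity
  choose x₁ hx₁ using fun ab : C.I × C.I =>
    Bd.of_compact C.V_sm ((hF₀.zv (C.V_sm ab.2)).zv (C.V_sm ab.1)) (Kb 11)
  choose x₂ hx₂ using fun ab : C.I × C.I => Bd.of_compact C.V_sm (C.hh_sm hF₀ ab.1 ab.2) (Kb 11)
  obtain ⟨X₁, hX0, hXB, hX₁⟩ := cll_bound x₁ B
  obtain ⟨X, -, hX1, hX₂⟩ := cll_bound (fun ab => x₂ ab / d ^ 2) X₁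
  refine ⟨fun p => θ • F p, X, ⟨hmu, hF₀, ?_, fun a b => (z3 a b).sup, fun i p hp => ?_⟩,
    hXB.trans hX1, hF₀, ?_, fun a b p => ?_, fun a b => ?_, fun a b => ?_, fun a b p => ?_,
    fun a b => ?_, fun a b => ?_⟩
  · refine (Bd.csmul C.V_sm θ hF h1).mono zero_le_one ?_
    rw [hθa]
    exact mul_le_of_le_one_left (by linarith) hθ1
  · obtain ⟨n, u, hn, g1, g2⟩ := hgeo i p hp
    refine ⟨n, u, hn, fun v => ?_, ?_⟩
    · rw [z1, dotProduct_smul, smul_eq_mul, abs_mul, hθa]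
      exact (mul_le_of_le_one_left (abs_nonneg _) hθ1).trans ((g1 v).trans s3)
    · rw [z2, dotProduct_smul, smul_eq_mul, abs_mul, hθa]
      calc 3 * c / 4 * mu = 3 / 4 * (c * mu) := by ring
        _ ≤ _ := mul_le_mul hθ0 g2 (by positivity) (by linarith)
  · simp only [sub_self]
    exact (Bd.const 1 zero_le_one 0).mono zero_le_one (by rwa [norm_zero])
  · simp only [sub_self, z8, norm_zero]
    positivity
  · exact ((z3 a b).mono hmu0 (mul_le_mul_of_nonneg_right (by linarith) hmu0)).mono_l hmu0 hl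
  · refine ((hx₁ (a, b)).mono zero_le_one ?_).mono_l zero_le_one (hmu.trans hl)
    exact ((hX₁ _).trans hX1).trans (le_mul_of_one_le_right (hX0.trans hX1) hmu)
  · rw [z4]
    simp only [smul_eq_mul, add_sub_cancel_left, abs_mul, abs_of_nonneg hd2]
    exact (mul_le_of_le_one_left (abs_nonneg _) (by linarith)).trans ((z5 a b p).trans s2)
  · rw [z4]
    have k1 : Bd C.V (Kb 10) (mu * T ^ 8) (C.G a b) (B / 2) := by
      refine (hGb a b).pred.rescale zero_le_one (hmu.trans hl) (fun p => ?_) ?_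
      · have := hC.GB a b p
        rw [Real.norm_eq_abs]
        linarith
      · rw [one_mul]
        calc Gb ≤ T ^ 8 := hTG.trans hT8
          _ ≤ mu * T ^ 8 := le_mul_of_one_le_left (by positivity) hmu
          _ ≤ _ := le_mul_of_one_le_right (by positivity) (by linarith)
    refine (Bd.add C.V_sm ((sm_const _).smul' (C.G_sm a b)) ((sm_const _).smul' (C.hh_sm hF a b))
      (Bd.csmul C.V_sm _ (C.G_sm a b) k1)
      (Bd.csmul C.V_sm _ (C.hh_sm hF a b) ((z7 a b).mono_l hmu0 hl))).mono (hmu0.trans hl) ?_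
    rw [abs_of_pos hd3, abs_of_nonneg hd2]
    nlinarith
  · refine ((hx₂ (a, b)).mono zero_le_one ?_).mono_l zero_le_one (hmu.trans hl)
    exact (div_le_iff₀ hd3).1 (hX₂ (a, b))

end Crest.Agent.R216
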