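import Crest.Agent.R216.ASm
import Crest.Agent.R216.AJet2
/-! # R216 (A): the target tensor, and the jets of the smoothed map.

`target`: `h' i u v` = `smooth_fun` of `h (i,u) (i,v)`, `h'' i u v = (h' i u v + h' i v u)/2`,
`H b c = ∑ i, χ i² • push i (h'' i) b c - a'² G b c`; by `Tens.eq_sum`,
`h - a'² G - H = ∑ i, χ i² • push i (h(i,·)(i,·) - h'' i)`.  `near`: on `O i`,
`|H - a² δ| ≤ a²/100 + a²/100 + (a²/100)(101/100) + c a²/R` (`Calc.near`, `ClK.sup`).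
`jet_point`: `P' ⬝ P' - δ = (G - δ) - hh + (P' ⬝ P' - P ⬝ P)`, `|x ⬝ y| ≤ 4 ‖x‖ ‖y‖`, `(jet).2 u u = m⁻¹ Z u Z u F'`. -/

set_option autoImplicit false
set_option linter.unusedSectionVars false
set_option linter.unusedVariables false
open scoped Manifold ContDiff Topology Matrix
open Set Filter

namespace Crest.Agent.R216
universe u
variable {M : Type u} [TopologicalSpace M] [ChartedSpace E2 M] [IsManifold (𝓡 2) ∞ M]
  [CompactSpace M]

variable {g : Met M} {C : Calc g} {τ : Type*} {𝓕 : Filter τ} {m lam R X w a a' : τ → ℝ} {k k' : ℕ}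

theorem atarget_cl {f : τ → M → ℝ} (h : ∀ k, ClK C.V 𝓕 k lam w f) : Cl C.V 𝓕 lam w f :=
  ⟨(h 0).sm, fun k => (h k).imp fun _ hc => hc.mono fun _ ht => ht.2⟩

theorem atarget_half (H : Ctx C.V 𝓕 lam) {f f' : τ → M → ℝ} (h : ClK C.V 𝓕 k lam w f)
    (h' : ClK C.V 𝓕 k lam w f') : ClK C.V 𝓕 k lam w fun t p => (1 / 2 : ℝ) • (f t p + f' t p) := by
  simpa only [one_mul] using
    ClK.smul H ((Cl.fixed' H (sm_const (1 / 2 : ℝ))).clK k) (ClK.add H h h')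

theorem atarget_loc (H : Ctx C.V 𝓕 lam) {f : τ → Fin C.n → Fin 2 → Fin 2 → M → ℝ}
    (h : ∀ i u v, ClK C.V 𝓕 k lam w fun t => f t i u v) (b c : C.I) :
    ClK C.V 𝓕 k lam w fun t p => ∑ i, C.χ i p ^ 2 • C.push i (f t i) b c p :=
  ClK.sum H _ fun i _ => by
    have h1 : Sm fun p => C.χ i p ^ 2 := by simpa only [sq] using (C.χ_sm i).mul' (C.χ_sm i)
    simpa only [one_mul] using ClK.smul H ((Cl.fixed' H h1).clK k) (Calc.push_clK H i (h i) b c)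

theorem Calc.target (hk1 : 1 ≤ k) (hk : k ≤ k') (hR : Tendsto R 𝓕 atTop)
    (h1 : ∀ᶠ t in 𝓕, 1 ≤ lam t ∧ 1 ≤ X t ∧ 0 < a t ∧ 0 ≤ a' t ∧ 10 * a' t ≤ a t)
    {h : τ → C.I → C.I → M → ℝ} (ht : ∀ᶠ t in 𝓕, C.Tens (h t) ∧ (∀ b c p, h t b c p = h t c b p) ∧
      ∀ b c p, |h t b c p - a t ^ 2 * C.G b c p| ≤ a t ^ 2 / 100)
    (hh : ∀ b c, ClK C.V 𝓕 k lam (fun t => a t ^ 2) fun t => h t b c)
    (hh' : ∀ b c, ClK C.V 𝓕 k' lam (fun t => X t * a t ^ 2) fun t => h t b c) :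
    ∃ H : τ → C.I → C.I → M → ℝ, C.Target 𝓕 (fun t => lam t * R t) a H ∧
      (∀ b c, ClK C.V 𝓕 k (fun t => lam t * R t ^ 2) (fun t => a t ^ 2 * (R t)⁻¹ ^ k)
        fun t p => h t b c p - a' t ^ 2 * C.G b c p - H t b c p) ∧
      ∀ b c, ClK C.V 𝓕 k' (fun t => lam t * R t ^ 2) (fun t => X t * (a t ^ 2 * (R t)⁻¹ ^ k))
        fun t p => h t b c p - a' t ^ 2 * C.G b c p - H t b c p := by
  have hR1 : ∀ᶠ t in 𝓕, 1 ≤ R t := hR.eventually_ge_atTop 1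
  have H1 : Ctx C.V 𝓕 fun t => lam t * R t := ⟨C.V_sm, by
    filter_upwards [h1, hR1] with t h1 h2 using one_le_mul_of_one_le_of_one_le h1.1 h2⟩
  have H2 : Ctx C.V 𝓕 fun t => lam t * R t ^ 2 := ⟨C.V_sm, by
    filter_upwards [h1, hR1] with t h1 h2 using one_le_mul_of_one_le_of_one_le h1.1 (one_le_pow₀ h2)⟩
  choose h' hc e1 e2 using fun b c => Calc.smooth_fun (R := R) hk
    (by filter_upwards [h1, hR1] with t h1 h2 using ⟨h1.1, h2, h1.2.1, sq_nonneg _⟩) (hh b c) (hh' b c)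
  obtain ⟨H, hH⟩ : ∃ H : τ → C.I → C.I → M → ℝ, H = fun t b c p =>
      ∑ i, C.χ i p ^ 2 • C.push i (fun u v q => (1 / 2 : ℝ) • (h' (i, u) (i, v) t q + h' (i, v) (i, u) t q)) b c p -
        a' t ^ 2 • C.G b c p := ⟨_, rfl⟩
  have hd : ∀ b c, ∀ᶠ t in 𝓕, (fun p => ∑ i, C.χ i p ^ 2 • C.push i (fun u v q => (1 / 2 : ℝ) •
      ((h t (i, u) (i, v) q - h' (i, u) (i, v) t q) + (h t (i, v) (i, u) q - h' (i, v) (i, u) t q))) b c p) =
      fun p => h t b c p - a' t ^ 2 * C.G b c p - H t b c p := fun b c => by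
    filter_upwards [ht] with t ht
    funext p
    rw [hH, ht.1.eq_sum b c p]
    simp only [smul_eq_mul]
    rw [sub_sub_sub_cancel_right, ← Finset.sum_sub_distrib]
    refine Finset.sum_congr rfl fun i _ => ?_
    simp only [Calc.push, Fin.sum_univ_two, smul_eq_mul, ht.2.1 (i, 1) (i, 0) p]
    ring
  have hD := fun b c => (atarget_loc H2 (fun i u v => atarget_half H2 (e1 (i, u) (i, v)) (e1 (i, v) (i, u)))
    b c).congr (hd b c)
  refine ⟨H, ⟨h1.mono fun t h => h.2.2.1, .of_forall fun t => ⟨?_, fun b c p => ?_⟩, fun b c => ?_, ?_⟩, hD,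
    fun b c => (atarget_loc H2 (fun i u v => atarget_half H2 (e2 (i, u) (i, v)) (e2 (i, v) (i, u)))
      b c).congr (hd b c)⟩
  · rw [hH]
    exact (Calc.Tens.sum Finset.univ fun i _ => (C.tens_push i _).smul fun p => C.χ i p ^ 2).sub
      (C.tens_G.smul fun _ => a' t ^ 2)
  · rw [hH]
    simp only
    rw [C.G_symm b c p]
    congr 1
    exact Finset.sum_congr rfl fun i _ => by rw [C.push_symm i (fun u v => by rw [add_comm])]
  · rw [hH]
    refine Cl.sub H1 (atarget_cl fun k => atarget_loc H1 (fun i u v =>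
      atarget_half H1 ((hc (i, u) (i, v)).clK k) ((hc (i, v) (i, u)).clK k)) b c) ?_
    have h2 := Cl.cmul (c := fun t => a' t ^ 2) (w' := fun t => a t ^ 2) H1 (Cl.fixed' H1 (C.G_sm b c)) (by
      filter_upwards [h1] with t h1
      rw [abs_of_nonneg (sq_nonneg _)]
      exact pow_le_pow_left₀ h1.2.2.2.1 (by linarith [h1.2.2.2.1, h1.2.2.2.2]) 2)
    simpa only [mul_one] using h2
  · have hs : ∀ b c, ∀ᶠ t in 𝓕, ∀ p, |h t b c p - a' t ^ 2 * C.G b c p - H t b c p| ≤ a t ^ 2 / 100 :=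
      fun b c => by
        obtain ⟨K, hK0, hK⟩ := (hD b c).sup
        have h0 : Tendsto (fun t => K * (R t)⁻¹ ^ k) 𝓕 (𝓝 (K * 0 ^ k)) :=
          ((tendsto_inv_atTop_zero.comp hR).pow k).const_mul K
        rw [zero_pow (by omega), mul_zero] at h0
        filter_upwards [hK, hR1, h0.eventually_le_const (show (0 : ℝ) < 1 / 100 by norm_num)] with t h2 h3 h4 p
        have h5 := h2 p
        rw [Real.norm_eq_abs, abs_of_nonneg (a := a t ^ 2 * (R t)⁻¹ ^ k) (by positivity)] at h5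
        nlinarith [sq_nonneg (a t)]
    filter_upwards [h1, ht, eventually_all.2 fun b => eventually_all.2 (hs b)] with t h1 ht h2 i p hp u v
    have f1 := abs_le.1 (h2 (i, u) (i, v) p)
    have f2 := abs_le.1 (ht.2.2 (i, u) (i, v) p)
    have f3 : |C.G (i, u) (i, v) p - idm u v| ≤ 1 / 100 := C.near i p hp u v
    have f4 : |idm u v| ≤ 1 := by unfold idm; split_ifs <;> simp
    have f5 : a' t ^ 2 ≤ a t ^ 2 / 100 := by nlinarith [h1.2.2.2.1, h1.2.2.2.2]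
    have f6 : |a t ^ 2 * (C.G (i, u) (i, v) p - idm u v)| ≤ a t ^ 2 / 100 := by
      rw [abs_mul, abs_of_nonneg (sq_nonneg _)]
      nlinarith [sq_nonneg (a t)]
    have f7 : |a' t ^ 2 * C.G (i, u) (i, v) p| ≤ a t ^ 2 / 50 := by
      have : |C.G (i, u) (i, v) p| ≤ 2 := by
        linarith [abs_sub_abs_le_abs_sub (C.G (i, u) (i, v) p) (idm u v)]
      rw [abs_mul, abs_of_nonneg (sq_nonneg _)]
      nlinarith [sq_nonneg (a' t), abs_nonneg (C.G (i, u) (i, v) p)]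
    rw [abs_le] at f6 f7 ⊢
    constructor <;> linarith [f1.1, f1.2, f2.1, f2.2, f6.1, f6.2, f7.1, f7.2]

theorem abs_dot_le (x y : Fin 4 → ℝ) : |x ⬝ᵥ y| ≤ 4 * ‖x‖ * ‖y‖ := by
  refine (Finset.abs_sum_le_sum_abs _ _).trans ?_
  refine (Finset.sum_le_card_nsmul _ _ (‖x‖ * ‖y‖) fun r _ => ?_).trans_eq (by simp [mul_assoc])
  rw [abs_mul]
  exact mul_le_mul (norm_le_pi_norm x r) (norm_le_pi_norm y r) (abs_nonneg _) (norm_nonneg _)

theorem Calc.jet_point (C : Calc g) {B c η s δ m : ℝ} (hE : Eta (B + 1) (c / 4) η s) (hm : 1 ≤ m)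
    (hδ : 0 ≤ δ ∧ δ ≤ 1 ∧ 16 * δ ≤ c ∧ 8 * δ ≤ s ∧ 1000 * (B + 1) * δ ≤ 1) {F F' : M → Fin 4 → ℝ}
    (hg : C.Geo F m (c / 2) (s / 2)) (h1 : ∀ b p, ‖C.Z b F p‖ ≤ B)
    (h2 : ∀ b b' p, ‖C.Z b (C.Z b' F) p‖ ≤ B * m) (h0 : ∀ b b' p, |C.hh F b b' p| ≤ 1 / 100)
    (d1 : ∀ b p, ‖C.Z b F p - C.Z b F' p‖ ≤ δ)
    (d2 : ∀ b b' p, ‖C.Z b (C.Z b' F) p - C.Z b (C.Z b' F') p‖ ≤ δ * m) (i : Fin C.n) {p : M}
    (hp : p ∈ C.O i) : ‖C.jet i m F' p‖ ≤ B + 1 ∧ GOK (C.jet i m F' p) ∧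
      ∃ T, ∀ j, 2 * η ≤ DJ (C.jet i m F' p) (xi T j) := by
  obtain ⟨hδ0, hδ1, hδc, hδs, hδB⟩ := hδ
  have hB : 0 ≤ B := (norm_nonneg _).trans (h1 (i, 0) p)
  have hm0 : 0 < m := by linarith
  have hdot : ∀ {x y : Fin 4 → ℝ} {a b : ℝ}, ‖x‖ ≤ a → ‖y‖ ≤ b → |x ⬝ᵥ y| ≤ 4 * a * b := fun hx hy =>
    (abs_dot_le _ _).trans (by
      have := (norm_nonneg _).trans hx
      gcongr)
  have n1 : ∀ b, ‖C.Z b F' p‖ ≤ B + 1 := fun b => by
    linarith [norm_le_insert (C.Z b F p) (C.Z b F' p), h1 b p, d1 b p]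
  have n2 : ∀ b b', ‖C.Z b (C.Z b' F') p‖ ≤ (B + 1) * m := fun b b' => by
    nlinarith [norm_le_insert (C.Z b (C.Z b' F) p) (C.Z b (C.Z b' F') p), h2 b b' p, d2 b b' p]
  have hJ : ‖C.jet i m F' p‖ ≤ B + 1 := by
    refine max_le ((pi_norm_le_iff_of_nonneg (by linarith)).2 fun u => n1 _)
      ((pi_norm_le_iff_of_nonneg (by linarith)).2 fun u =>
        (pi_norm_le_iff_of_nonneg (by linarith)).2 fun v => ?_)
    simp only [Calc.jet]
    rw [norm_smul, Real.norm_of_nonneg (by positivity), inv_mul_le_iff₀ (by positivity)]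
    linarith [norm_add_le (C.Z (i, u) (C.Z (i, v) F') p) (C.Z (i, v) (C.Z (i, u) F') p), n2 (i, u) (i, v),
      n2 (i, v) (i, u)]
  have hG : GOK (C.jet i m F' p) := fun u v => by
    have e1 := abs_le.1 (C.near i p hp u v)
    have e2 := abs_le.1 (h0 (i, u) (i, v) p)
    have e3 := abs_le.1 (hdot (d1 (i, u) p) (n1 (i, v)))
    have e4 := abs_le.1 (hdot (h1 (i, u) p) (d1 (i, v) p))
    simp only [Calc.hh, Calc.G, sub_dotProduct, dotProduct_sub] at e2 e3 e4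
    simp only [Calc.jet, idm]
    rw [abs_le]
    constructor <;> nlinarith [e1.1, e1.2, e2.1, e2.2, e3.1, e3.2, e4.1, e4.2]
  refine ⟨hJ, hG, ?_⟩
  obtain ⟨n, u, hn, hn1, hn2⟩ := hg i p hp
  refine hE _ n u hJ hG hn (fun v => ?_) ?_
  · have e1 := abs_le.1 (hn1 v)
    have e2 := abs_le.1 (hdot hn (d1 (i, v) p))
    rw [dotProduct_sub] at e2
    simp only [Calc.jet]
    rw [abs_le]
    constructor <;> linarith [e1.1, e1.2, e2.1, e2.2]
  · have e2 := hdot hn (d2 (i, u) (i, u) p)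
    rw [dotProduct_sub] at e2
    have e3 := abs_sub_abs_le_abs_sub (n ⬝ᵥ C.Z (i, u) (C.Z (i, u) F) p) (n ⬝ᵥ C.Z (i, u) (C.Z (i, u) F') p)
    simp only [Calc.jet]
    rw [dotProduct_smul, dotProduct_add, smul_eq_mul, abs_mul, abs_of_pos (by positivity), ← two_mul, abs_mul,
      abs_two, le_inv_mul_iff₀ (by positivity)]
    nlinarith

end Crest.Agent.R216
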