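import Crest.Agent.R216.AClK
/-! # R216 (A): tensoriality and the basic classes.

`cov_Z` is `Calc.Z_chart`; `cc i' a u' = ∑ u, cc i a u * cc i' (i,u) u'` on `O i` (`cov_Z` for `x i' u'`) gives
`tens_push`.  Everything else: `simp only [push, Fin.sum_univ_two, …]`, `module`/`ring`. -/

set_option autoImplicit false
set_option linter.unusedSectionVars false
set_option linter.unusedVariables false
open scoped Manifold ContDiff Topology Matrix
open Set Filter

namespace Crest.Agent.R216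
universe u
variable {M : Type u} [TopologicalSpace M] [ChartedSpace E2 M] [IsManifold (𝓡 2) ∞ M]
  [CompactSpace M]

variable {g : Met M} (C : Calc g)
variable {E E' : Type} [AddCommGroup E] [Module ℝ E] [AddCommGroup E'] [Module ℝ E']

namespace Calc

theorem cc_sm (i : Fin C.n) (a : C.I) (u : Fin 2) : Sm (C.cc i a u) := by
  exact (C.x_sm i u).zv (C.V_sm a)

theorem cc_self {i : Fin C.n} {p : M} (hp : p ∈ C.O i) (u v : Fin 2) :
    C.cc i (i, v) u p = idm u v := by
  exact C.dual i p hp u v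

theorem push_self {i : Fin C.n} {p : M} (hp : p ∈ C.O i) (f : Fin 2 → Fin 2 → M → E) (u v : Fin 2) :
    C.push i f (i, u) (i, v) p = f u v p := by
  fin_cases u <;> fin_cases v <;> simp [push, C.cc_self hp, idm]

theorem push_symm (i : Fin C.n) {f : Fin 2 → Fin 2 → M → E} {p : M}
    (h : ∀ u v, f u v p = f v u p) (a b : C.I) : C.push i f a b p = C.push i f b a p := by
  rw [push, push, Finset.sum_comm]
  exact Finset.sum_congr rfl fun u _ => Finset.sum_congr rfl fun v _ => by rw [mul_comm, h]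

theorem cov_Z {F : Type} [NormedAddCommGroup F] [NormedSpace ℝ F] (f : M → F) :
    C.Cov fun a => C.Z a f := by
  exact fun i p hp a => C.Z_chart hp f a

theorem cov_DD (om : ℝ) (ψ : M → ℝ) (W : M → Fin 4 → ℂ) : C.Cov fun a => C.DD om ψ a W := by
  intro i p hp a
  simp only [DD]
  rw [C.Z_chart hp W a, C.Z_chart hp ψ a]
  ext r
  simp only [cc, Fin.sum_univ_two, Pi.add_apply, Pi.smul_apply, smul_eq_mul, Complex.real_smul]
  push_cast
  ring

theorem tens_push (i : Fin C.n) (f : Fin 2 → Fin 2 → M → E) : C.Tens (C.push i f) := by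
  intro i' p hp a b
  have h : ∀ a u, C.cc i a u p = ∑ u', C.cc i' a u' p * C.cc i (i', u') u p := fun a u =>
    C.cov_Z (C.x i u) i' p hp a
  simp only [push, Fin.sum_univ_two]
  rw [h a 0, h a 1, h b 0, h b 1]
  simp only [Fin.sum_univ_two]
  module

theorem tens_G : C.Tens C.G := by
  exact fun i p hp a b => C.g_chart hp _ _

theorem G_symm (a b : C.I) (p : M) : C.G a b p = C.G b a p := by
  exact g.symm _ _ _

variable {C}

theorem Cov.map {y : C.I → M → E} (h : C.Cov y) (L : E →ₗ[ℝ] E') :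
    C.Cov fun a p => L (y a p) := by
  intro i p hp a
  simp only [h i p hp a, map_sum, map_smul]

/-- `cx` as a linear map -/
def atensCx : (Fin 4 → ℝ) →ₗ[ℝ] (Fin 4 → ℂ) where
  toFun := cx
  map_add' v w := by ext r; simp [cx]
  map_smul' c v := by ext r; simp [cx]

/-- `cj` as a linear map -/
def atensCj : (Fin 4 → ℂ) →ₗ[ℝ] (Fin 4 → ℂ) where
  toFun := cj
  map_add' v w := by ext r; simp [cj]
  map_smul' c v := by ext r; simp [cj]

theorem Cov.cx {y : C.I → M → Fin 4 → ℝ} (h : C.Cov y) : C.Cov fun a p => cx (y a p) := by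
  exact h.map atensCx

theorem Cov.cj {y : C.I → M → Fin 4 → ℂ} (h : C.Cov y) : C.Cov fun a p => cj (y a p) := by
  exact h.map atensCj

theorem Cov.dotR {y y' : C.I → M → Fin 4 → ℝ} (h : C.Cov y) (h' : C.Cov y') :
    C.Tens fun a b p => y a p ⬝ᵥ y' b p := by
  intro i p hp a b
  simp only [push]
  rw [h i p hp a, h' i p hp b]
  simp only [Fin.sum_univ_two, add_dotProduct, dotProduct_add, smul_dotProduct, dotProduct_smul]
  module

theorem Cov.dotC {y y' : C.I → M → Fin 4 → ℂ} (h : C.Cov y) (h' : C.Cov y') :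
    C.Tens fun a b p => y a p ⬝ᵥ y' b p := by
  intro i p hp a b
  simp only [push]
  rw [h i p hp a, h' i p hp b]
  simp only [Fin.sum_univ_two, add_dotProduct, dotProduct_add, smul_dotProduct, dotProduct_smul]
  module

theorem Cov.mulR {y y' : C.I → M → ℝ} (h : C.Cov y) (h' : C.Cov y') :
    C.Tens fun a b p => y a p * y' b p := by
  intro i p hp a b
  simp only [push]
  rw [h i p hp a, h' i p hp b]
  simp only [Fin.sum_univ_two, smul_eq_mul]
  ring

theorem Tens.swap {f : C.I → C.I → M → E} (h : C.Tens f) : C.Tens fun a b => f b a := by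
  intro i p hp a b
  simp only [push]
  rw [h i p hp b a, push, Finset.sum_comm]
  simp only [mul_comm]

theorem Tens.add {f f' : C.I → C.I → M → E} (h : C.Tens f) (h' : C.Tens f') :
    C.Tens fun a b p => f a b p + f' a b p := by
  intro i p hp a b
  simp only [push, smul_add, Finset.sum_add_distrib]
  rw [h i p hp a b, h' i p hp a b, push, push]

theorem Tens.sub {f f' : C.I → C.I → M → E} (h : C.Tens f) (h' : C.Tens f') :
    C.Tens fun a b p => f a b p - f' a b p := by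
  intro i p hp a b
  simp only [push, smul_sub, Finset.sum_sub_distrib]
  rw [h i p hp a b, h' i p hp a b, push, push]

theorem Tens.smul {f : C.I → C.I → M → E} (h : C.Tens f) (φ : M → ℝ) :
    C.Tens fun a b p => φ p • f a b p := by
  intro i p hp a b
  simp only [push]
  rw [h i p hp a b, push]
  simp only [Finset.smul_sum, smul_comm (φ p)]

theorem Tens.sum {α : Type*} (s : Finset α) {f : α → C.I → C.I → M → E}
    (h : ∀ j ∈ s, C.Tens (f j)) : C.Tens fun a b p => ∑ j ∈ s, f j a b p := by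
  intro i p hp a b
  simp only [push, Finset.smul_sum]
  rw [Finset.sum_congr rfl fun j hj => h j hj i p hp a b]
  simp only [push]
  rw [Finset.sum_comm]
  exact Finset.sum_congr rfl fun u _ => Finset.sum_comm

theorem Tens.map {f : C.I → C.I → M → E} (h : C.Tens f) (L : E →ₗ[ℝ] E') :
    C.Tens fun a b p => L (f a b p) := by
  intro i p hp a b
  simp only [push]
  rw [h i p hp a b, push]
  simp only [map_sum, map_smul]

/-- a tensor is the sum of its localisations -/
theorem Tens.eq_sum {f : C.I → C.I → M → E} (h : C.Tens f) (a b : C.I) (p : M) :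
    f a b p = ∑ i, C.χ i p ^ 2 • C.push i (fun u v => f (i, u) (i, v)) a b p := by
  rw [← one_smul ℝ (f a b p), ← C.χ_sq p, Finset.sum_smul]
  refine Finset.sum_congr rfl fun i _ => ?_
  by_cases h0 : C.χ i p = 0
  · simp [h0]
  · rw [h i p (C.χ_supp i (subset_tsupport _ h0)) a b]

variable (C)

theorem tens_hh (F : M → Fin 4 → ℝ) : C.Tens (C.hh F) := by
  exact C.tens_G.sub ((C.cov_Z F).dotR (C.cov_Z F))

theorem hh_symm (F : M → Fin 4 → ℝ) (a b : C.I) (p : M) : C.hh F a b p = C.hh F b a p := by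
  rw [hh, hh, C.G_symm, dotProduct_comm]

theorem hh_sm {F : M → Fin 4 → ℝ} (hF : Sm F) (a b : C.I) : Sm (C.hh F a b) := by
  exact (C.G_sm a b).sub' ((hF.zv (C.V_sm a)).dot (hF.zv (C.V_sm b)))

theorem tens_LC (F : M → Fin 4 → ℝ) (om : ℝ) (ψ : M → ℝ) (W : M → Fin 4 → ℂ) :
    C.Tens (C.LC F om ψ W) := by
  have h := (C.cov_Z F).cx.dotC (C.cov_DD om ψ W)
  exact h.add h.swap

theorem tens_MM {S : Type} [Fintype S] (om : S → ℝ) (φ : S → M → ℝ) (W W' : S → M → Fin 4 → ℂ) :
    C.Tens (C.MM om φ W W') := by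
  exact (Tens.sum Finset.univ fun s _ => ((C.cov_DD (om s) (φ s) (W s)).dotC
    (C.cov_DD (om s) (φ s) (W' s)).cj).map Complex.reLm).smul fun _ => 1 / 2

theorem MM_swap {S : Type} [Fintype S] (om : S → ℝ) (φ : S → M → ℝ) (W W' : S → M → Fin 4 → ℂ)
    (a b : C.I) (p : M) : C.MM om φ W W' a b p = C.MM om φ W' W b a p := by
  simp only [MM, dotProduct, cj, Complex.re_sum, Complex.mul_re, Complex.conj_re, Complex.conj_im,
    mul_neg, neg_mul, mul_comm]

theorem DD_add (om : ℝ) (ψ : M → ℝ) (a : C.I) {W W' : M → Fin 4 → ℂ} (h : Sm W) (h' : Sm W')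
    (p : M) : C.DD om ψ a (fun q => W q + W' q) p = C.DD om ψ a W p + C.DD om ψ a W' p := by
  simp only [DD, Z, Zv, dd_add (h.df p) (h'.df p), smul_add]
  abel

theorem LC_add (F : M → Fin 4 → ℝ) (om : ℝ) (ψ : M → ℝ) {W W' : M → Fin 4 → ℂ} (h : Sm W)
    (h' : Sm W') (a b : C.I) (p : M) :
    C.LC F om ψ (fun q => W q + W' q) a b p = C.LC F om ψ W a b p + C.LC F om ψ W' a b p := by
  simp only [LC, C.DD_add om ψ _ h h', dotProduct_add]
  ring

/-- amplitudes that vanish off a closed set -/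
theorem DD_zero (om : ℝ) (ψ : M → ℝ) (a : C.I) {W : M → Fin 4 → ℂ} {K : Set M} (hK : IsClosed K)
    (h : ∀ p ∉ K, W p = 0) {p : M} (hp : p ∉ K) : C.DD om ψ a W p = 0 := by
  simp [DD, Z, Zv, dd_zero_of_closed hK h hp, h p hp]

variable {C} {τ : Type*} {𝓕 : Filter τ} {lam w m lb μ om : τ → ℝ} {F : τ → M → Fin 4 → ℝ}

theorem cc_cl (H : Ctx C.V 𝓕 lam) (i : Fin C.n) (a : C.I) (u : Fin 2) :
    Cl C.V 𝓕 lam (fun _ => 1) fun _ => C.cc i a u := by
  exact Cl.fixed' H (C.cc_sm i a u)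

theorem push_cl {A : Type} [NormedAddCommGroup A] [NormedSpace ℝ A] (H : Ctx C.V 𝓕 lam)
    (i : Fin C.n) {f : τ → Fin 2 → Fin 2 → M → A} (h : ∀ u v, Cl C.V 𝓕 lam w fun t => f t u v)
    (a b : C.I) : Cl C.V 𝓕 lam w fun t => C.push i (f t) a b := by
  exact Cl.sum H _ fun u _ => Cl.sum H _ fun v _ => by
    simpa only [one_mul] using Cl.smul H (Cl.mul H (cc_cl H i a u) (cc_cl H i b v)) (h u v)

theorem push_clK {A : Type} [NormedAddCommGroup A] [NormedSpace ℝ A] (H : Ctx C.V 𝓕 lam) {k : ℕ}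
    (i : Fin C.n) {f : τ → Fin 2 → Fin 2 → M → A} (h : ∀ u v, ClK C.V 𝓕 k lam w fun t => f t u v)
    (a b : C.I) : ClK C.V 𝓕 k lam w fun t => C.push i (f t) a b := by
  exact ClK.sum H _ fun u _ => ClK.sum H _ fun v _ => by
    simpa only [one_mul] using
      ClK.smul H ((Cl.mul H (cc_cl H i a u) (cc_cl H i b v)).clK k) (h u v)

theorem Base.ctx (h : C.Base 𝓕 m lb μ F) : Ctx C.V 𝓕 lb := by
  exact ⟨C.V_sm, h.le.mono fun t ht => ht.1.trans ht.2.1⟩

theorem Base.ctx' (h : C.Base 𝓕 m lb μ F) : Ctx C.V 𝓕 μ := by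
  exact ⟨C.V_sm, h.le.mono fun t ht => ht.1.trans (ht.2.1.trans ht.2.2)⟩

theorem Base.jet_cl (h : C.Base 𝓕 m lb μ F) (i : Fin C.n) :
    Cl C.V 𝓕 lb (fun _ => 1) fun t => C.jet i (m t) (F t) := by
  have H := h.ctx
  have h1 : ∀ᶠ t in 𝓕, 0 ≤ (fun _ => (1 : ℝ)) t := .of_forall fun _ => zero_le_one
  refine Cl.prod H h1 (Cl.pi H h1 fun u => h.d1 _) (Cl.pi H h1 fun u => Cl.pi H h1 fun v => ?_)
  refine Cl.weight H (Cl.cmul (w' := fun t => (m t)⁻¹) H (Cl.add H (h.d2 _ _) (h.d2 _ _)) ?_) 1 ?_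
  · filter_upwards [h.le] with t ht
    have : 0 < m t := by linarith [ht.1]
    rw [abs_of_pos (by positivity)]
    exact inv_anti₀ this (by linarith)
  · filter_upwards [h.le] with t ht
    rw [inv_mul_cancel₀ (by linarith [ht.1])]
    norm_num

theorem Frame.cv_cl {i : Fin C.n} {ψ : τ → M → ℝ} {K : τ → Set M} (hB : C.Base 𝓕 m lb μ F)
    (h : C.Frame 𝓕 m lb F i ψ K) : Cl C.V 𝓕 lb (fun _ => 1) fun t => C.cv i (ψ t) := by
  exact Cl.pi hB.ctx (.of_forall fun _ => zero_le_one) fun u => h.d1 _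

theorem Frame.DD_cl {i : Fin C.n} {ψ : τ → M → ℝ} {K : τ → Set M} (hB : C.Base 𝓕 m lb μ F)
    (h : C.Frame 𝓕 m lb F i ψ K) (hom : Freq 𝓕 μ om) (hw : ∀ᶠ t in 𝓕, 0 ≤ w t)
    {W : τ → M → Fin 4 → ℂ} (hW : Cl C.V 𝓕 lb w W) (a : C.I) :
    Cl C.V 𝓕 lb (fun t => μ t * w t) fun t => C.DD (om t) (ψ t) a (W t) := by
  have H := hB.ctx
  obtain ⟨c, hc⟩ := hom
  refine Cl.add H (Cl.weight H (Cl.zv H hW a) 1 ?_) ?_
  · filter_upwards [hB.le, hw] with t h1 h2
    exact ⟨mul_nonneg (by linarith [h1.1, h1.2.1]) h2, by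
      rw [one_mul]; exact mul_le_mul_of_nonneg_right h1.2.2 h2⟩
  · have h1 := Cl.cmul (c := om) (w' := fun t => |om t|) H (h.d1 a) (.of_forall fun _ => le_rfl)
    have h2 := Cl.mul H (Cl.const (w := fun _ => 1) (c := fun _ => Complex.I) H (by simp))
      (Cl.ofReal H h1)
    refine Cl.weight H (Cl.csmul H h2 hW) c ?_
    filter_upwards [hc, hw] with t h3 h4
    rw [one_mul, mul_one, ← mul_assoc]
    exact ⟨mul_nonneg (abs_nonneg _) h4, mul_le_mul_of_nonneg_right h3.2 h4⟩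

end Calc

end Crest.Agent.R216
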