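import Crest.Agent.R216.Defs
/-! # R216: calculus of `Sm`, `dd`, `Zv` -/

set_option autoImplicit false
open scoped Manifold ContDiff Topology Matrix
open Set Filter

namespace Crest.Agent.R216
universe u
variable {M : Type u} [TopologicalSpace M] [ChartedSpace E2 M]
variable {F F' F'' : Type} [NormedAddCommGroup F] [NormedSpace ℝ F] [NormedAddCommGroup F']
  [NormedSpace ℝ F'] [NormedAddCommGroup F''] [NormedSpace ℝ F'']

/-- differentiability at a point -/
abbrev Df (f : M → F) (p : M) : Prop := MDifferentiableAt (𝓡 2) 𝓘(ℝ, F) f p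

theorem Sm.df {f : M → F} (hf : Sm f) (p : M) : Df f p := hf.mdifferentiableAt (by simp)
theorem Sm.cont {f : M → F} (hf : Sm f) : Continuous f := hf.continuous

theorem sm_plane {f : E2 → F} : Sm f ↔ ContDiff ℝ ∞ f := contMDiff_iff_contDiff
theorem dd_plane (f : E2 → F) (p : E2) : dd f p = fderiv ℝ f p := mfderiv_eq_fderiv
theorem smV_V0 (u : Fin 2) : SmV (V0 u) := contMDiff_vectorSpace_iff_contDiff.mpr contDiff_const

theorem sm_const (c : F) : Sm fun _ : M => c := contMDiff_const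
theorem Sm.comp' {Φ : F → F'} (hΦ : ContDiff ℝ ∞ Φ) {f : M → F} (hf : Sm f) :
    Sm fun p => Φ (f p) := hΦ.comp_contMDiff hf
/-- composition with a function that is only smooth on an open set containing the values -/
theorem Sm.compOn {Φ : F → F'} {U : Set F} (hU : IsOpen U) (hΦ : ContDiffOn ℝ ∞ Φ U) {f : M → F}
    (hf : Sm f) (h : ∀ p, f p ∈ U) : Sm fun p => Φ (f p) := fun p =>
  ((hΦ (f p) (h p)).contDiffAt (hU.mem_nhds (h p))).comp_contMDiffAt (hf p)
theorem Sm.add' {f g : M → F} (hf : Sm f) (hg : Sm g) : Sm fun p => f p + g p := ContMDiff.add hf hg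
theorem Sm.sub' {f g : M → F} (hf : Sm f) (hg : Sm g) : Sm fun p => f p - g p := ContMDiff.sub hf hg
theorem Sm.neg' {f : M → F} (hf : Sm f) : Sm fun p => -f p := ContMDiff.neg hf
theorem Sm.smul' {a : M → ℝ} {f : M → F} (ha : Sm a) (hf : Sm f) : Sm fun p => a p • f p := ContMDiff.smul ha hf
theorem Sm.mul' {A : Type} [NormedRing A] [NormedAlgebra ℝ A] {f g : M → A} (hf : Sm f)
    (hg : Sm g) : Sm fun p => f p * g p :=
  (contDiff_mul (𝕜 := ℝ) (n := ∞) (𝔸 := A)).comp_contMDiff (hf.prodMk_space hg)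
theorem Sm.sum' {ι : Type*} (s : Finset ι) {f : ι → M → F} (hf : ∀ i ∈ s, Sm (f i)) :
    Sm fun p => ∑ i ∈ s, f i p := contMDiff_finsetSum hf
theorem Sm.clm (L : F →L[ℝ] F') {f : M → F} (hf : Sm f) : Sm fun p => L (f p) := hf.comp' L.contDiff
theorem Sm.bilin (L : F →L[ℝ] F' →L[ℝ] F'') {f : M → F} {g : M → F'} (hf : Sm f) (hg : Sm g) :
    Sm fun p => L (f p) (g p) :=
  (L.isBoundedBilinearMap.contDiff (n := ∞)).comp_contMDiff (hf.prodMk_space hg)
theorem Sm.prod' {f : M → F} {g : M → F'} (hf : Sm f) (hg : Sm g) : Sm fun p => (f p, g p) :=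
  hf.prodMk_space hg
theorem sm_pi {ι : Type} [Fintype ι] {f : M → ι → F} : Sm f ↔ ∀ i, Sm fun p => f p i :=
  contMDiff_pi_space
theorem Sm.ofReal {f : M → ℝ} (hf : Sm f) : Sm fun p => (f p : ℂ) := hf.clm Complex.ofRealCLM
theorem Sm.dot {ι : Type} [Fintype ι] {A : Type} [NormedCommRing A] [NormedAlgebra ℝ A]
    {f g : M → ι → A} (hf : Sm f) (hg : Sm g) : Sm fun p => f p ⬝ᵥ g p :=
  Sm.sum' Finset.univ fun i _ => (sm_pi.mp hf i).mul' (sm_pi.mp hg i)
/-- smoothness is local -/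
theorem sm_of_local {f : M → F} (h : ∀ p, ∃ g : M → F, Sm g ∧ f =ᶠ[𝓝 p] g) : Sm f := fun p => by
  obtain ⟨g, hg, e⟩ := h p
  exact (hg p).congr_of_eventuallyEq e
/-- a function smooth on an open set `U` (locally equal to smooth functions) and vanishing off a
closed subset `K` of `U` is smooth -/
theorem sm_of_closed {f : M → F} {U K : Set M} (hK : IsClosed K) (hKU : K ⊆ U)
    (h : ∀ p ∈ U, ∃ g : M → F, Sm g ∧ f =ᶠ[𝓝 p] g) (h0 : ∀ p ∉ K, f p = 0) : Sm f := by
  refine sm_of_local fun p => ?_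
  by_cases hp : p ∈ K
  · exact h p (hKU hp)
  · refine ⟨fun _ => 0, sm_const 0, ?_⟩
    filter_upwards [hK.isOpen_compl.mem_nhds hp] with q hq using h0 q hq

theorem dd_congr {f g : M → F} {p : M} (h : f =ᶠ[𝓝 p] g) : dd f p = dd g p :=
  h.mfderiv_eq
theorem dd_const (c : F) (p : M) : dd (fun _ : M => c) p = 0 := mfderiv_const
theorem dd_zero_of_closed {f : M → F} {K : Set M} (hK : IsClosed K) (h0 : ∀ p ∉ K, f p = 0) {p : M}
    (hp : p ∉ K) : dd f p = 0 := by
  rw [← dd_const (0 : F) p]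
  refine dd_congr ?_
  filter_upwards [hK.isOpen_compl.mem_nhds hp] with q hq using h0 q hq
theorem dd_comp {Φ : F → F'} {f : M → F} {p : M} (hΦ : DifferentiableAt ℝ Φ (f p)) (hf : Df f p)
    (v : E2) : dd (fun q => Φ (f q)) p v = fderiv ℝ Φ (f p) (dd f p v) := by
  have h := (hΦ.hasFDerivAt.hasMFDerivAt.comp p hf.hasMFDerivAt).mfderiv
  exact congrArg (fun L : E2 →L[ℝ] F' => L v) h
theorem dd_comp_deriv {Φ : ℝ → F} {Φ' : F} {f : M → ℝ} {p : M} (hΦ : HasDerivAt Φ Φ' (f p))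
    (hf : Df f p) (v : E2) : dd (fun q => Φ (f q)) p v = dd f p v • Φ' := by
  rw [dd_comp hΦ.differentiableAt hf, hΦ.hasFDerivAt.fderiv]
  simp
theorem basa_prod {f : M → F} {g : M → F'} {p : M} (hf : Df f p) (hg : Df g p) (v : E2) :
    dd (fun q => (f q, g q)) p v = (dd f p v, dd g p v) := by
  have hd : Df (fun q => (f q, g q)) p := hf.prodMk_space hg
  have h1 := dd_comp (Φ := Prod.fst) differentiableAt_fst hd v
  have h2 := dd_comp (Φ := Prod.snd) differentiableAt_snd hd v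
  rw [fderiv_fst] at h1
  rw [fderiv_snd] at h2
  exact Prod.ext h1.symm h2.symm
theorem basa_df_comp {Φ : F → F'} {f : M → F} {p : M} (hΦ : DifferentiableAt ℝ Φ (f p))
    (hf : Df f p) : Df (fun q => Φ (f q)) p :=
  hΦ.mdifferentiableAt.comp p hf
theorem basa_df_clm (L : F →L[ℝ] F') {f : M → F} {p : M} (hf : Df f p) :
    Df (fun q => L (f q)) p := basa_df_comp L.differentiableAt hf
theorem basa_df_bilin (L : F →L[ℝ] F' →L[ℝ] F'') {f : M → F} {g : M → F'} {p : M} (hf : Df f p)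
    (hg : Df g p) : Df (fun q => L (f q) (g q)) p :=
  basa_df_comp (Φ := fun x : F × F' => L x.1 x.2) (f := fun q => (f q, g q))
    (L.isBoundedBilinearMap.differentiableAt _) (hf.prodMk_space hg)
theorem basa_df_sum {ι : Type*} (s : Finset ι) {f : ι → M → F} {p : M} (hf : ∀ i ∈ s, Df (f i) p) :
    Df (fun q => ∑ i ∈ s, f i q) p := by
  classical
  induction s using Finset.induction_on with
  | empty => simpa using (sm_const (M := M) (0 : F)).df p
  | insert a s ha ih =>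
    simp only [Finset.sum_insert ha]
    exact (hf a (Finset.mem_insert_self a s)).add (ih fun i hi => hf i (Finset.mem_insert_of_mem hi))
theorem basa_bilin (L : F →L[ℝ] F' →L[ℝ] F'') {f : M → F} {g : M → F'} {p : M} (hf : Df f p)
    (hg : Df g p) (v : E2) :
    dd (fun q => L (f q) (g q)) p v = L (f p) (dd g p v) + L (dd f p v) (g p) := by
  have h := dd_comp (Φ := fun x : F × F' => L x.1 x.2) (f := fun q => (f q, g q))
    (L.isBoundedBilinearMap.differentiableAt _) (hf.prodMk_space hg) v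
  rw [h, basa_prod hf hg, (L.isBoundedBilinearMap.hasFDerivAt (f p, g p)).fderiv]
  simp
theorem dd_add {f g : M → F} {p : M} (hf : Df f p) (hg : Df g p) (v : E2) :
    dd (fun q => f q + g q) p v = dd f p v + dd g p v := by
  have h := (hf.hasMFDerivAt.add hg.hasMFDerivAt).mfderiv
  exact congrArg (fun L : E2 →L[ℝ] F => L v) h
theorem dd_sub {f g : M → F} {p : M} (hf : Df f p) (hg : Df g p) (v : E2) :
    dd (fun q => f q - g q) p v = dd f p v - dd g p v := by
  have h := (hf.hasMFDerivAt.sub hg.hasMFDerivAt).mfderiv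
  exact congrArg (fun L : E2 →L[ℝ] F => L v) h
theorem dd_neg (f : M → F) (p : M) (v : E2) : dd (fun q => -f q) p v = -dd f p v := by
  have h := mfderiv_neg (I := 𝓡 2) (f := f) (x := p)
  exact congrArg (fun L : E2 →L[ℝ] F => L v) h
theorem dd_smul {a : M → ℝ} {f : M → F} {p : M} (ha : Df a p) (hf : Df f p) (v : E2) :
    dd (fun q => a q • f q) p v = a p • dd f p v + dd a p v • f p := by
  rw [add_comm]
  have h := basa_bilin (ContinuousLinearMap.lsmul ℝ ℝ : ℝ →L[ℝ] F →L[ℝ] F) ha hf v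
  simpa [add_comm] using h
theorem dd_const_smul (a : ℝ) {f : M → F} {p : M} (hf : Df f p) (v : E2) :
    dd (fun q => a • f q) p v = a • dd f p v := by
  rw [dd_smul ((sm_const a).df p) hf, dd_const]
  simp
theorem dd_mul {A : Type} [NormedRing A] [NormedAlgebra ℝ A] {f g : M → A} {p : M} (hf : Df f p)
    (hg : Df g p) (v : E2) : dd (fun q => f q * g q) p v = f p * dd g p v + dd f p v * g p := by
  simpa using basa_bilin (ContinuousLinearMap.mul ℝ A) hf hg v
theorem dd_sum {ι : Type*} (s : Finset ι) {f : ι → M → F} {p : M} (hf : ∀ i ∈ s, Df (f i) p)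
    (v : E2) : dd (fun q => ∑ i ∈ s, f i q) p v = ∑ i ∈ s, dd (f i) p v := by
  classical
  induction s using Finset.induction_on with
  | empty => simp [dd_const]
  | insert a s ha ih =>
    have h1 : ∀ i ∈ s, Df (f i) p := fun i hi => hf i (Finset.mem_insert_of_mem hi)
    simp only [Finset.sum_insert ha]
    rw [dd_add (hf a (Finset.mem_insert_self a s)) (basa_df_sum s h1), ih h1]
theorem dd_clm (L : F →L[ℝ] F') {f : M → F} {p : M} (hf : Df f p) (v : E2) :
    dd (fun q => L (f q)) p v = L (dd f p v) := by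
  rw [dd_comp L.differentiableAt hf, L.fderiv]
theorem dd_bilin (L : F →L[ℝ] F' →L[ℝ] F'') {f : M → F} {g : M → F'} {p : M} (hf : Df f p)
    (hg : Df g p) (v : E2) :
    dd (fun q => L (f q) (g q)) p v = L (f p) (dd g p v) + L (dd f p v) (g p) :=
  basa_bilin L hf hg v
theorem dd_prod {f : M → F} {g : M → F'} {p : M} (hf : Df f p) (hg : Df g p) (v : E2) :
    dd (fun q => (f q, g q)) p v = (dd f p v, dd g p v) := basa_prod hf hg v
theorem dd_apply {ι : Type} [Fintype ι] {f : M → ι → F} {p : M} (hf : Df f p) (v : E2) (i : ι) :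
    dd f p v i = dd (fun q => f q i) p v :=
  (dd_clm (ContinuousLinearMap.proj (R := ℝ) (φ := fun _ : ι => F) i) hf v).symm
theorem dd_ofReal {f : M → ℝ} {p : M} (hf : Df f p) (v : E2) :
    dd (fun q => (f q : ℂ)) p v = ((dd f p v : ℝ) : ℂ) := dd_clm Complex.ofRealCLM hf v
theorem dd_dot {ι : Type} [Fintype ι] {A : Type} [NormedCommRing A] [NormedAlgebra ℝ A]
    {f g : M → ι → A} {p : M} (hf : Df f p) (hg : Df g p) (v : E2) :
    dd (fun q => f q ⬝ᵥ g q) p v = f p ⬝ᵥ dd g p v + dd f p v ⬝ᵥ g p := by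
  have hf' : ∀ i, Df (fun q => f q i) p := fun i =>
    basa_df_clm (ContinuousLinearMap.proj (R := ℝ) (φ := fun _ : ι => A) i) hf
  have hg' : ∀ i, Df (fun q => g q i) p := fun i =>
    basa_df_clm (ContinuousLinearMap.proj (R := ℝ) (φ := fun _ : ι => A) i) hg
  simp only [dotProduct]
  rw [dd_sum Finset.univ (f := fun i q => f q i * g q i)
    fun i _ => basa_df_bilin (ContinuousLinearMap.mul ℝ A) (hf' i) (hg' i),
    ← Finset.sum_add_distrib]
  refine Finset.sum_congr rfl fun i _ => ?_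
  rw [dd_apply hf, dd_apply hg]
  exact dd_mul (hf' i) (hg' i) v
/-- chain rule through the plane: `Θ ∘ z` -/
theorem dd_pull {Θ : E2 → F} {z : M → E2} {p : M} (hΘ : DifferentiableAt ℝ Θ (z p)) (hz : Df z p)
    (v : E2) : dd (fun q => Θ (z q)) p v = ∑ u, dd z p v u • Zv (V0 u) Θ (z p) := by
  rw [dd_comp hΘ hz]
  have h : dd z p v = ∑ u, dd z p v u • (EuclideanSpace.single u 1 : E2) := by
    ext i
    fin_cases i <;> simp
  conv_lhs => rw [h]
  simp only [map_sum, map_smul, Zv, V0, dd_plane]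

section Man
variable [IsManifold (𝓡 2) ∞ M]

theorem Sm.zv {V : M → E2} (hV : SmV V) {f : M → F} (hf : Sm f) : Sm (Zv V f) := by
  have h1 : ContMDiff (𝓡 2).tangent 𝓘(ℝ, F).tangent ∞ (tangentMap (𝓡 2) 𝓘(ℝ, F) f) :=
    ContMDiff.contMDiff_tangentMap hf (by simp)
  have h2 := (contMDiff_snd_tangentBundle_modelSpace F 𝓘(ℝ, F) (n := ∞)).comp (h1.comp hV)
  exact h2
theorem SmV.smul {a : M → ℝ} {V : M → E2} (ha : Sm a) (hV : SmV V) : SmV fun p => a p • V p :=
  ContMDiff.smul_section (V := TangentSpace (𝓡 2)) (s := V) ha hV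
theorem SmV.add {V W : M → E2} (hV : SmV V) (hW : SmV W) : SmV fun p => V p + W p :=
  ContMDiff.add_section (V := TangentSpace (𝓡 2)) (s := V) (t := W) hV hW

/-- smooth cut-off functions -/
theorem exists_cutoff [T2Space M] [CompactSpace M] {K U : Set M} (hK : IsClosed K) (hU : IsOpen U)
    (hKU : K ⊆ U) : ∃ b : M → ℝ, Sm b ∧ (∀ p, 0 ≤ b p ∧ b p ≤ 1) ∧ (∀ᶠ p in 𝓝ˢ K, b p = 1) ∧
      tsupport b ⊆ U := by
  obtain ⟨W, hWo, hKW, hWU⟩ := normal_exists_closure_subset hK hU hKU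
  obtain ⟨f, hf1, hf0, hf⟩ := exists_contMDiffMap_one_nhds_of_subset_interior (n := ⊤) (𝓡 2) hK
    (t := W) (by rwa [hWo.interior_eq])
  refine ⟨f, f.contMDiff, fun p => hf p, hf1, ?_⟩
  refine (closure_mono ?_).trans hWU
  intro p hp
  by_contra h
  exact hp (hf0 p h)

/-- functions whose squares sum to one on `K` (and to at most one everywhere) -/
theorem exists_sq_partition [T2Space M] [CompactSpace M] {ι : Type} [Fintype ι] {K : Set M}
    (hK : IsClosed K) (U : ι → Set M) (hU : ∀ i, IsOpen (U i)) (hKU : K ⊆ ⋃ i, U i) :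
    ∃ ψ : ι → M → ℝ, (∀ i, Sm (ψ i)) ∧ (∀ i p, 0 ≤ ψ i p) ∧ (∀ i, tsupport (ψ i) ⊆ U i) ∧
      (∀ p, ∑ i, ψ i p ^ 2 ≤ 1) ∧ ∀ p ∈ K, ∑ i, ψ i p ^ 2 = 1 := by
  classical
  let U' : Option ι → Set M := fun o => o.elim Kᶜ U
  have hU' : ∀ o, IsOpen (U' o) := by
    rintro (_ | i)
    · exact hK.isOpen_compl
    · exact hU i
  have hc : (univ : Set M) ⊆ ⋃ o, U' o := by
    intro p _
    by_cases hp : p ∈ K
    · obtain ⟨i, hi⟩ := mem_iUnion.1 (hKU hp)
      exact mem_iUnion.2 ⟨some i, hi⟩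
    · exact mem_iUnion.2 ⟨none, hp⟩
  obtain ⟨ρ, hρ⟩ := SmoothPartitionOfUnity.exists_isSubordinate (𝓡 2) isClosed_univ U' hU' hc
  have hsm : ∀ o, Sm (fun p => ρ o p) := fun o => (ρ o).contMDiff
  have hsum : ∀ p, ∑ o, ρ o p = 1 := fun p => by
    rw [← finsum_eq_sum_of_fintype]; exact ρ.sum_eq_one (mem_univ p)
  let S : M → ℝ := fun p => ∑ o, ρ o p ^ 2
  have hS : ∀ p, 0 < S p := by
    intro p
    by_contra h
    have h0 : ∑ o, ρ o p ^ 2 = 0 :=
      le_antisymm (not_lt.1 h) (Finset.sum_nonneg fun o _ => sq_nonneg _)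
    rw [Finset.sum_eq_zero_iff_of_nonneg fun o _ => sq_nonneg _] at h0
    have h1 := hsum p
    rw [Finset.sum_eq_zero fun o ho => pow_eq_zero_iff two_ne_zero |>.1 (h0 o ho)] at h1
    exact zero_ne_one h1
  have hSs : Sm S := Sm.sum' _ fun o _ => by
    simpa only [pow_two] using (hsm o).mul' (hsm o)
  have hinv : Sm fun p => (Real.sqrt (S p))⁻¹ := by
    refine Sm.compOn (Φ := fun t : ℝ => (Real.sqrt t)⁻¹) (U := Ioi 0) isOpen_Ioi ?_ hSs hS
    intro t ht
    exact ((Real.contDiffAt_sqrt (ne_of_gt ht)).inv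
      (Real.sqrt_pos.2 ht).ne').contDiffWithinAt
  have hval : ∀ p, ∑ i, (ρ (some i) p * (Real.sqrt (S p))⁻¹) ^ 2 = 1 - ρ none p ^ 2 / S p := by
    intro p
    have hp := hS p
    have h1 : S p = ρ none p ^ 2 + ∑ i, ρ (some i) p ^ 2 := Fintype.sum_option _
    simp only [mul_pow, inv_pow, Real.sq_sqrt hp.le]
    rw [← Finset.sum_mul]
    field_simp
    linarith
  refine ⟨fun i p => ρ (some i) p * (Real.sqrt (S p))⁻¹, fun i => (hsm _).mul' hinv,
    fun i p => mul_nonneg (ρ.nonneg _ _) (inv_nonneg.2 (Real.sqrt_nonneg _)), fun i => ?_,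
    fun p => ?_, fun p hp => ?_⟩
  · exact (tsupport_mul_subset_left).trans (hρ (some i))
  · rw [hval]
    have := div_nonneg (sq_nonneg (ρ none p)) (hS p).le
    linarith
  · rw [hval]
    have h0 : ρ none p = 0 := by
      by_contra h
      exact hρ none (subset_tsupport _ h) hp
    simp [h0]

namespace Calc
variable {g : Met M} (C : Calc g)

theorem G_sm (a b : Fin C.n × Fin 2) : Sm (C.G a b) := g.sm _ _ (C.V_sm a) (C.V_sm b)
theorem cover (p : M) : ∃ i, p ∈ C.O i := by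
  by_contra h
  push Not at h
  have h1 := C.χ_sq p
  rw [Finset.sum_eq_zero] at h1
  · exact zero_ne_one h1
  · intro i _
    have : C.χ i p = 0 := by
      by_contra h0
      exact h i (C.χ_supp i (subset_tsupport _ h0))
    simp [this]
theorem dd_chart {i : Fin C.n} {p : M} (hp : p ∈ C.O i) (f : M → F) (v : E2) :
    dd f p v = ∑ u, dd (C.x i u) p v • C.Z (i, u) f p := by
  conv_lhs => rw [C.span i p hp v]
  simp only [map_sum, map_smul]
  rfl
theorem Z_chart {i : Fin C.n} {p : M} (hp : p ∈ C.O i) (f : M → F) (a : Fin C.n × Fin 2) :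
    C.Z a f p = ∑ u, C.Z a (C.x i u) p • C.Z (i, u) f p := C.dd_chart hp f (C.V a p)
theorem g_chart {i : Fin C.n} {p : M} (hp : p ∈ C.O i) (v w : E2) :
    g.g p v w = ∑ u, ∑ u', dd (C.x i u) p v * dd (C.x i u') p w * C.G (i, u) (i, u') p := by
  conv_lhs => rw [C.span i p hp v, C.span i p hp w]
  simp only [Fin.sum_univ_two, map_add, map_smul, _root_.add_apply,
    _root_.smul_apply, smul_eq_mul, G]
  ring
/-- on a chart the metric is within `2/100` of the Euclidean metric of the coordinates -/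
theorem g_near {i : Fin C.n} {p : M} (hp : p ∈ C.O i) (v : E2) :
    |g.g p v v - ∑ u, dd (C.x i u) p v ^ 2| ≤ 2 / 100 * ∑ u, dd (C.x i u) p v ^ 2 := by
  rw [C.g_chart hp v v]
  have h00 := abs_le.1 (C.near i p hp 0 0)
  have h01 := abs_le.1 (C.near i p hp 0 1)
  have h10 := abs_le.1 (C.near i p hp 1 0)
  have h11 := abs_le.1 (C.near i p hp 1 1)
  simp only [Fin.sum_univ_two, G]
  simp only [if_true, Fin.isValue, zero_ne_one, one_ne_zero, if_false, sub_zero] at h00 h01 h10 h11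
  set a := dd (C.x i 0) p v
  set b := dd (C.x i 1) p v
  set g00 := g.g p (C.V (i, 0) p) (C.V (i, 0) p)
  set g01 := g.g p (C.V (i, 0) p) (C.V (i, 1) p)
  set g10 := g.g p (C.V (i, 1) p) (C.V (i, 0) p)
  set g11 := g.g p (C.V (i, 1) p) (C.V (i, 1) p)
  have hs : |g01 + g10| ≤ 2 / 100 := abs_le.2 ⟨by linarith, by linarith⟩
  have hab : |a * b * (g01 + g10)| ≤ (a ^ 2 + b ^ 2) / 100 := by
    rw [abs_mul]
    have h1 : |a * b| ≤ (a ^ 2 + b ^ 2) / 2 :=
      abs_le.2 ⟨by nlinarith [sq_nonneg (a + b)], by nlinarith [sq_nonneg (a - b)]⟩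
    calc |a * b| * |g01 + g10| ≤ (a ^ 2 + b ^ 2) / 2 * (2 / 100) :=
          mul_le_mul h1 hs (abs_nonneg _) (by positivity)
      _ = (a ^ 2 + b ^ 2) / 100 := by ring
  have hab' := abs_le.1 hab
  have ha := sq_nonneg a
  have hb := sq_nonneg b
  refine abs_le.2 ⟨?_, ?_⟩
  · nlinarith [mul_nonneg ha (show 0 ≤ g00 - 1 + 1 / 100 by linarith),
      mul_nonneg hb (show 0 ≤ g11 - 1 + 1 / 100 by linarith)]
  · nlinarith [mul_nonneg ha (show 0 ≤ 1 / 100 - (g00 - 1) by linarith),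
      mul_nonneg hb (show 0 ≤ 1 / 100 - (g11 - 1) by linarith)]
/-- a map whose derivatives along the atlas fields have the right inner products is isometric -/
theorem isometric_of {G : M → Fin 4 → ℝ} (h : ∀ a b p, C.Z a G p ⬝ᵥ C.Z b G p = C.G a b p)
    (p : M) (v w : E2) : dd G p v ⬝ᵥ dd G p w = g.g p v w := by
  obtain ⟨i, hp⟩ := C.cover p
  rw [C.g_chart hp v w, C.dd_chart hp G v, C.dd_chart hp G w]
  simp only [Fin.sum_univ_two, add_dotProduct, dotProduct_add, smul_dotProduct, dotProduct_smul,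
    smul_eq_mul, h]
  ring
end Calc
end Man

end Crest.Agent.R216
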