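import Crest.Agent.R216.Basic
/-! # R216: calculus of the seminorm predicate `Bd` -/

set_option autoImplicit false
open scoped Manifold ContDiff Topology Matrix
open Set Filter

namespace Crest.Agent.R216
universe u
variable {M : Type u} [TopologicalSpace M] [ChartedSpace E2 M] [IsManifold (𝓡 2) ∞ M]
variable {F F' F'' : Type} [NormedAddCommGroup F] [NormedSpace ℝ F] [NormedAddCommGroup F']
  [NormedSpace ℝ F'] [NormedAddCommGroup F''] [NormedSpace ℝ F'']
variable {ι : Type} {V : ι → M → E2}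

namespace Bd
omit [IsManifold (𝓡 2) ∞ M]
theorem sup {k : ℕ} {l c : ℝ} {f : M → F} (h : Bd V k l f c) (p : M) : ‖f p‖ ≤ c := by
  cases k with
  | zero => exact h p
  | succ k => exact h.1 p
theorem nonneg {k : ℕ} {l c : ℝ} {f : M → F} (h : Bd V k l f c) (p : M) : 0 ≤ c :=
  (norm_nonneg _).trans (h.sup p)
theorem of_isEmpty [IsEmpty M] (k : ℕ) (l c : ℝ) (f : M → F) : Bd V k l f c := by
  induction k generalizing f c with
  | zero => exact fun p => isEmptyElim p
  | succ k ih => exact ⟨fun p => isEmptyElim p, fun a => ih _ _⟩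
theorem zv {k : ℕ} {l c : ℝ} {f : M → F} (h : Bd V (k + 1) l f c) (a : ι) :
    Bd V k l (Zv (V a) f) (l * c) := h.2 a
theorem mono {k : ℕ} {l c c' : ℝ} {f : M → F} (h : Bd V k l f c) (hl : 0 ≤ l) (hc : c ≤ c') :
    Bd V k l f c' := by
  induction k generalizing f c c' with
  | zero => exact fun p => (h p).trans hc
  | succ k ih =>
    exact ⟨fun p => (h.1 p).trans hc, fun a => ih (h.2 a) (mul_le_mul_of_nonneg_left hc hl)⟩
theorem pred {k : ℕ} {l c : ℝ} {f : M → F} (h : Bd V (k + 1) l f c) : Bd V k l f c := by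
  induction k generalizing f c with
  | zero => exact h.1
  | succ k ih => exact ⟨h.1, fun a => ih (h.2 a)⟩
theorem mono_k {k k' : ℕ} {l c : ℝ} {f : M → F} (h : Bd V k l f c) (hk : k' ≤ k) :
    Bd V k' l f c := by
  induction hk with
  | refl => exact h
  | step _ ih => exact ih h.pred
theorem mono_l {k : ℕ} {l l' c : ℝ} {f : M → F} (h : Bd V k l f c) (hl : 0 ≤ l) (hl' : l ≤ l') :
    Bd V k l' f c := by
  rcases isEmpty_or_nonempty M with hM | ⟨⟨p₀⟩⟩
  · exact of_isEmpty _ _ _ _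
  induction k generalizing f c with
  | zero => exact h
  | succ k ih =>
    exact ⟨h.1, fun a => (ih (h.2 a)).mono (hl.trans hl')
      (mul_le_mul_of_nonneg_right hl' (h.nonneg p₀))⟩
theorem const (k : ℕ) {l : ℝ} (hl : 0 ≤ l) (c : F) : Bd V k l (fun _ : M => c) ‖c‖ := by
  induction k generalizing c with
  | zero => exact fun _ => le_rfl
  | succ k ih =>
    refine ⟨fun _ => le_rfl, fun a => ?_⟩
    have e : Zv (V a) (fun _ : M => c) = fun _ : M => (0 : F) := by
      funext p; simp [Zv, dd_const]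
    rw [e]
    exact (ih 0).mono hl (by rw [norm_zero]; positivity)
theorem neg {k : ℕ} {l c : ℝ} {f : M → F} (h : Bd V k l f c) : Bd V k l (fun p => -f p) c := by
  induction k generalizing f c with
  | zero => exact fun p => by simpa using h p
  | succ k ih =>
    refine ⟨fun p => by simpa using h.1 p, fun a => ?_⟩
    have e : Zv (V a) (fun p => -f p) = fun p => -Zv (V a) f p := by
      funext p; simp only [Zv, dd_neg]
    rw [e]
    exact ih (h.2 a)
/-- weighted bound from unweighted bounds in each order -/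
theorem of_unw {k : ℕ} {l c : ℝ} {f : M → F} (hl : 0 ≤ l)
    (h : ∀ j ≤ k, Bd V j 1 f (c * l ^ j)) : Bd V k l f c := by
  induction k generalizing f c with
  | zero => exact fun p => by simpa using (h 0 le_rfl).sup p
  | succ k ih =>
    refine ⟨fun p => by simpa using (h 0 (Nat.zero_le _)).sup p, fun a => ih fun j hj => ?_⟩
    have := (h (j + 1) (Nat.succ_le_succ hj)).2 a
    rwa [show 1 * (c * l ^ (j + 1)) = l * c * l ^ j by ring] at this
theorem unw {k : ℕ} {l c : ℝ} {f : M → F} (h : Bd V k l f c) (hl : 1 ≤ l) :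
    Bd V k 1 f (c * l ^ k) := by
  induction k generalizing f c with
  | zero => exact fun p => by simpa using h p
  | succ k ih =>
    refine ⟨fun p => (h.1 p).trans ?_, fun a => ?_⟩
    · exact le_mul_of_one_le_right (h.nonneg p) (one_le_pow₀ hl)
    · have := ih (h.2 a)
      rwa [show l * c * l ^ k = 1 * (c * l ^ (k + 1)) by ring] at this
/-- gluing of local bounds: `Bd` is pointwise in `p` and only depends on germs -/
theorem of_local {k : ℕ} {l c : ℝ} {f : M → F}
    (h : ∀ p, ∃ g : M → F, f =ᶠ[𝓝 p] g ∧ Bd V k l g c) : Bd V k l f c := by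
  have h0 : ∀ p, ‖f p‖ ≤ c := fun p => by
    obtain ⟨g, hg, hb⟩ := h p
    rw [hg.eq_of_nhds]; exact hb.sup p
  induction k generalizing f c with
  | zero => exact h0
  | succ k ih =>
    refine ⟨h0, fun a => ?_⟩
    have h1 : ∀ p, ∃ g : M → F, Zv (V a) f =ᶠ[𝓝 p] g ∧ Bd V k l g (l * c) := fun p => by
      obtain ⟨g, hg, hb⟩ := h p
      refine ⟨Zv (V a) g, ?_, hb.2 a⟩
      filter_upwards [hg.eventually_nhds] with q hq
      simp only [Zv, dd_congr hq]
    refine ih h1 fun p => ?_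
    obtain ⟨g, hg, hb⟩ := h1 p
    rw [hg.eq_of_nhds]; exact hb.sup p
end Bd

namespace Bd
variable (hV : ∀ a, SmV (V a))
include hV

theorem add {k : ℕ} {l c c' : ℝ} {f g : M → F} (hf : Sm f) (hg : Sm g) (h : Bd V k l f c)
    (h' : Bd V k l g c') : Bd V k l (fun p => f p + g p) (c + c') := by
  induction k generalizing f g c c' with
  | zero => exact fun p => (norm_add_le _ _).trans (add_le_add (h p) (h' p))
  | succ k ih =>
    refine ⟨fun p => (norm_add_le _ _).trans (add_le_add (h.1 p) (h'.1 p)), fun a => ?_⟩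
    have e : Zv (V a) (fun p => f p + g p) = fun p => Zv (V a) f p + Zv (V a) g p := by
      funext p; simp only [Zv, dd_add (hf.df p) (hg.df p)]
    rw [e, mul_add]
    exact ih (hf.zv (hV a)) (hg.zv (hV a)) (h.2 a) (h'.2 a)
theorem sub {k : ℕ} {l c c' : ℝ} {f g : M → F} (hf : Sm f) (hg : Sm g) (h : Bd V k l f c)
    (h' : Bd V k l g c') : Bd V k l (fun p => f p - g p) (c + c') := by
  simpa only [sub_eq_add_neg] using add hV hf hg.neg' h h'.neg
theorem sum {α : Type*} (s : Finset α) {k : ℕ} {l : ℝ} (hl : 0 ≤ l) {c : α → ℝ} {f : α → M → F}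
    (hf : ∀ i ∈ s, Sm (f i)) (h : ∀ i ∈ s, Bd V k l (f i) (c i)) :
    Bd V k l (fun p => ∑ i ∈ s, f i p) (∑ i ∈ s, c i) := by
  classical
  induction s using Finset.induction_on with
  | empty => simpa using const (V := V) (M := M) k hl (0 : F)
  | insert i s hi ih =>
    simp only [Finset.sum_insert hi]
    exact add hV (hf i (Finset.mem_insert_self _ _))
      (Sm.sum' s fun j hj => hf j (Finset.mem_insert_of_mem hj)) (h i (Finset.mem_insert_self _ _))
      (ih (fun j hj => hf j (Finset.mem_insert_of_mem hj))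
        fun j hj => h j (Finset.mem_insert_of_mem hj))
theorem clm' (L : F →L[ℝ] F') {K : ℝ} (hK : 0 ≤ K) (hL : ∀ x, ‖L x‖ ≤ K * ‖x‖) {k : ℕ} {l c : ℝ}
    {f : M → F} (hf : Sm f) (h : Bd V k l f c) : Bd V k l (fun p => L (f p)) (K * c) := by
  induction k generalizing f c with
  | zero => exact fun p => (hL _).trans (mul_le_mul_of_nonneg_left (h p) hK)
  | succ k ih =>
    refine ⟨fun p => (hL _).trans (mul_le_mul_of_nonneg_left (h.1 p) hK), fun a => ?_⟩
    have e : Zv (V a) (fun p => L (f p)) = fun p => L (Zv (V a) f p) := by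
      funext p; simp only [Zv, dd_clm L (hf.df p)]
    rw [e, mul_left_comm]
    exact ih (hf.zv (hV a)) (h.2 a)
theorem clm (L : F →L[ℝ] F') {k : ℕ} {l c : ℝ} {f : M → F} (hf : Sm f) (h : Bd V k l f c) :
    Bd V k l (fun p => L (f p)) (‖L‖ * c) :=
  clm' hV L (norm_nonneg _) L.le_opNorm hf h
theorem csmul (a : ℝ) {k : ℕ} {l c : ℝ} {f : M → F} (hf : Sm f) (h : Bd V k l f c) :
    Bd V k l (fun p => a • f p) (|a| * c) :=
  clm' hV (a • ContinuousLinearMap.id ℝ F) (abs_nonneg a)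
    (fun x => by simp [norm_smul]) hf h
theorem bilin' (L : F →L[ℝ] F' →L[ℝ] F'') {K : ℝ} (hK : 0 ≤ K)
    (hL : ∀ x y, ‖L x y‖ ≤ K * ‖x‖ * ‖y‖) {k : ℕ} {l c c' : ℝ} {f : M → F} {g : M → F'}
    (hf : Sm f) (hg : Sm g) (h : Bd V k l f c) (h' : Bd V k l g c') :
    Bd V k l (fun p => L (f p) (g p)) (2 ^ k * K * c * c') := by
  have h0 : ∀ {k : ℕ} {c c' : ℝ} {f : M → F} {g : M → F'}, Bd V k l f c → Bd V k l g c' →
      ∀ p, ‖L (f p) (g p)‖ ≤ 2 ^ k * K * c * c' := by
    intro k c c' f g h h' p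
    have hc := h.nonneg p
    have hc' := h'.nonneg p
    calc ‖L (f p) (g p)‖ ≤ K * ‖f p‖ * ‖g p‖ := hL _ _
      _ ≤ K * c * c' := by
        have := h.sup p
        have := h'.sup p
        gcongr
      _ = 1 * K * c * c' := by ring
      _ ≤ 2 ^ k * K * c * c' := by
        have : (1 : ℝ) ≤ 2 ^ k := one_le_pow₀ one_le_two
        gcongr
  induction k generalizing f g c c' with
  | zero => exact h0 h h'
  | succ k ih =>
    refine ⟨h0 h h', fun a => ?_⟩
    have e : Zv (V a) (fun p => L (f p) (g p)) =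
        fun p => L (f p) (Zv (V a) g p) + L (Zv (V a) f p) (g p) := by
      funext p; simp only [Zv, dd_bilin L (hf.df p) (hg.df p)]
    rw [e, show l * (2 ^ (k + 1) * K * c * c') =
      2 ^ k * K * c * (l * c') + 2 ^ k * K * (l * c) * c' by ring]
    exact add hV (Sm.bilin L hf (hg.zv (hV a))) (Sm.bilin L (hf.zv (hV a)) hg)
      (ih hf (hg.zv (hV a)) h.pred (h'.2 a)) (ih (hf.zv (hV a)) hg (h.2 a) h'.pred)
theorem bilin (L : F →L[ℝ] F' →L[ℝ] F'') {k : ℕ} {l c c' : ℝ} (hl : 0 ≤ l) {f : M → F} {g : M → F'}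
    (hf : Sm f) (hg : Sm g) (h : Bd V k l f c) (h' : Bd V k l g c') :
    Bd V k l (fun p => L (f p) (g p)) (2 ^ k * ‖L‖ * c * c') :=
  bilin' hV L (norm_nonneg L) L.le_opNorm₂ hf hg h h'
theorem smul {k : ℕ} {l c c' : ℝ} (hl : 0 ≤ l) {a : M → ℝ} {f : M → F} (ha : Sm a) (hf : Sm f)
    (h : Bd V k l a c) (h' : Bd V k l f c') : Bd V k l (fun p => a p • f p) (2 ^ k * c * c') := by
  have := bilin' hV (ContinuousLinearMap.lsmul ℝ ℝ : ℝ →L[ℝ] F →L[ℝ] F) zero_le_one
    (fun x y => by simp [norm_smul]) ha hf h h'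
  simpa using this
theorem mul {A : Type} [NormedRing A] [NormedAlgebra ℝ A] {k : ℕ} {l c c' : ℝ} (hl : 0 ≤ l)
    {f g : M → A} (hf : Sm f) (hg : Sm g) (h : Bd V k l f c) (h' : Bd V k l g c') :
    Bd V k l (fun p => f p * g p) (2 ^ k * c * c') := by
  have := bilin' hV (ContinuousLinearMap.mul ℝ A) zero_le_one
    (fun x y => by simpa using norm_mul_le x y) hf hg h h'
  simpa using this
theorem apply' {α : Type} [Fintype α] {k : ℕ} {l c : ℝ} {f : M → α → F} (hf : Sm f)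
    (h : Bd V k l f c) (i : α) : Bd V k l (fun p => f p i) c := by
  have := clm' hV (ContinuousLinearMap.proj i : (α → F) →L[ℝ] F) zero_le_one
    (fun x => by simpa using norm_le_pi_norm x i) hf h
  simpa using this
theorem dot {α : Type} [Fintype α] {A : Type} [NormedCommRing A] [NormedAlgebra ℝ A] {k : ℕ}
    {l c c' : ℝ} (hl : 0 ≤ l) {f g : M → α → A} (hf : Sm f) (hg : Sm g) (h : Bd V k l f c)
    (h' : Bd V k l g c') :
    Bd V k l (fun p => f p ⬝ᵥ g p) (Fintype.card α * (2 ^ k * c * c')) := by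
  have := sum hV Finset.univ hl (c := fun _ : α => 2 ^ k * c * c') (f := fun i p => f p i * g p i)
    (fun i _ => (sm_pi.1 hf i).mul' (sm_pi.1 hg i))
    (fun i _ => mul hV hl (sm_pi.1 hf i) (sm_pi.1 hg i) (apply' hV hf h i) (apply' hV hg h' i))
  simpa [dotProduct] using this
theorem pi {α : Type} [Fintype α] {k : ℕ} {l c : ℝ} (hl : 0 ≤ l) (hc : 0 ≤ c) {f : M → α → F}
    (hf : Sm f) (h : ∀ i, Bd V k l (fun p => f p i) c) : Bd V k l f c := by
  induction k generalizing f c with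
  | zero => exact fun p => (pi_norm_le_iff_of_nonneg hc).2 fun i => h i p
  | succ k ih =>
    refine ⟨fun p => (pi_norm_le_iff_of_nonneg hc).2 fun i => (h i).1 p, fun a => ?_⟩
    refine ih (mul_nonneg hl hc) (hf.zv (hV a)) fun i => ?_
    have e : (fun p => Zv (V a) f p i) = Zv (V a) (fun p => f p i) := by
      funext p; simp only [Zv, dd_apply (hf.df p)]
    rw [e]
    exact (h i).2 a
theorem apply {α : Type} [Fintype α] {k : ℕ} {l c : ℝ} {f : M → α → F} (hf : Sm f)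
    (h : Bd V k l f c) (i : α) : Bd V k l (fun p => f p i) c :=
  apply' hV hf h i
theorem prod {k : ℕ} {l c : ℝ} {f : M → F} {g : M → F'} (hf : Sm f) (hg : Sm g)
    (h : Bd V k l f c) (h' : Bd V k l g c) : Bd V k l (fun p => (f p, g p)) c := by
  induction k generalizing f g c with
  | zero => exact fun p => norm_prod_le_iff.2 ⟨h p, h' p⟩
  | succ k ih =>
    refine ⟨fun p => norm_prod_le_iff.2 ⟨h.1 p, h'.1 p⟩, fun a => ?_⟩
    have e : Zv (V a) (fun p => (f p, g p)) = fun p => (Zv (V a) f p, Zv (V a) g p) := by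
      funext p; simp only [Zv, dd_prod (hf.df p) (hg.df p)]
    rw [e]
    exact ih (hf.zv (hV a)) (hg.zv (hV a)) (h.2 a) (h'.2 a)

theorem of_hasCompactSupport' [Finite ι] {f : M → F} (hf : Sm f) (hc : HasCompactSupport f)
    (k : ℕ) : ∃ c, Bd V k 1 f c := by
  induction k generalizing f with
  | zero => exact hf.cont.bounded_above_of_compact_support hc
  | succ k ih =>
    obtain ⟨c₀, h₀⟩ := hf.cont.bounded_above_of_compact_support hc
    have h1 : ∀ a, ∃ c, Bd V k 1 (Zv (V a) f) c := fun a => by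
      refine ih (hf.zv (hV a)) (hc.mono' fun p hp => ?_)
      by_contra hp'
      apply hp
      simp [Zv, dd_zero_of_closed (isClosed_tsupport f)
        (fun q hq => image_eq_zero_of_notMem_tsupport hq) hp']
    choose c hc' using h1
    obtain ⟨C, hC⟩ := (Set.finite_range c).bddAbove
    refine ⟨max c₀ C, fun p => (h₀ p).trans (le_max_left _ _), fun a => ?_⟩
    refine (hc' a).mono zero_le_one ?_
    rw [one_mul]
    exact (hC ⟨a, rfl⟩).trans (le_max_right _ _)

/-- smooth functions on a compact manifold are bounded in every order -/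
theorem of_compact [CompactSpace M] [Finite ι] {f : M → F} (hf : Sm f) (k : ℕ) :
    ∃ c, Bd V k 1 f c :=
  of_hasCompactSupport' hV hf (HasCompactSupport.of_compactSpace f) k
theorem of_hasCompactSupport [Finite ι] {f : M → F} (hf : Sm f) (hc : HasCompactSupport f)
    (k : ℕ) : ∃ c, Bd V k 1 f c :=
  of_hasCompactSupport' hV hf hc k
end Bd

omit [IsManifold (𝓡 2) ∞ M] in
theorem bdb_empty [IsEmpty M] (k : ℕ) (l : ℝ) (f : M → F) (c : ℝ) : Bd V k l f c := by
  induction k generalizing f c with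
  | zero => exact fun p => isEmptyElim p
  | succ k ih => exact ⟨fun p => isEmptyElim p, fun a => ih _ _⟩

omit [IsManifold (𝓡 2) ∞ M] in
theorem bdb_zv_comp {Φ : F → F'} (hΦ : ContDiff ℝ ∞ Φ) {f : M → F} (hf : Sm f) (W : M → E2) :
    Zv W (fun p => Φ (f p)) =
      fun p => ContinuousLinearMap.id ℝ (F →L[ℝ] F') (fderiv ℝ Φ (f p)) (Zv W f p) := by
  funext p
  exact dd_comp (hΦ.differentiable (by simp) _) (hf.df p) _

theorem bdb_fderiv {Φ : F → F'} (hΦ : ContDiff ℝ ∞ Φ) : ContDiff ℝ ∞ (fderiv ℝ Φ) :=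
  hΦ.fderiv_right (m := ∞) le_rfl

omit [NormedSpace ℝ F'] in
theorem bdb_ball [FiniteDimensional ℝ F] {Φ : F → F'} (hΦ : Continuous Φ) (B : ℝ) :
    ∃ C : ℝ, 0 ≤ C ∧ ∀ y, ‖y‖ ≤ B → ‖Φ y‖ ≤ C := by
  obtain ⟨C, hC⟩ := (isCompact_closedBall (0 : F) B).exists_bound_of_continuousOn hΦ.continuousOn
  exact ⟨max C 0, le_max_right _ _, fun y hy =>
    (hC y (mem_closedBall_zero_iff.2 hy)).trans (le_max_left _ _)⟩

theorem bdb_lip [FiniteDimensional ℝ F] {Φ : F → F'} (hΦ : ContDiff ℝ ∞ Φ) (B : ℝ) :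
    ∃ C : ℝ, 0 ≤ C ∧ ∀ x y, ‖x‖ ≤ B → ‖y‖ ≤ B → ‖Φ x - Φ y‖ ≤ C * ‖x - y‖ := by
  obtain ⟨C, h0, hC⟩ := bdb_ball (bdb_fderiv hΦ).continuous B
  refine ⟨C, h0, fun x y hx hy => ?_⟩
  exact (convex_closedBall (0 : F) B).norm_image_sub_le_of_norm_fderiv_le
    (fun z _ => hΦ.differentiable (by simp) z) (fun z hz => hC z (mem_closedBall_zero_iff.1 hz))
    (mem_closedBall_zero_iff.2 hy) (mem_closedBall_zero_iff.2 hx)

/-- composition with a fixed smooth function (induction on `k`, generalising `F'` and `Φ`; the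
constant does not depend on `M`, `V`) -/
theorem bd_comp [FiniteDimensional ℝ F] {Φ : F → F'} (hΦ : ContDiff ℝ ∞ Φ) (k : ℕ) (B : ℝ) :
    ∃ C : ℝ, ∀ (V : ι → M → E2), (∀ a, SmV (V a)) → ∀ (l : ℝ) (f : M → F), 0 ≤ l → Sm f →
      Bd V k l f B → Bd V k l (fun p => Φ (f p)) C := by
  induction k generalizing F' with
  | zero =>
    obtain ⟨C0, -, h0⟩ := bdb_ball hΦ.continuous B
    exact ⟨C0, fun V _ l f _ _ h p => h0 _ (h p)⟩
  | succ k ih =>
    obtain ⟨C0, -, h0⟩ := bdb_ball hΦ.continuous B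
    obtain ⟨C1, h1⟩ := ih (bdb_fderiv hΦ)
    refine ⟨max C0 (2 ^ k * ‖ContinuousLinearMap.id ℝ (F →L[ℝ] F')‖ * C1 * B),
      fun V hV l f hl hf h => ⟨fun p => (h0 _ (h.sup p)).trans (le_max_left _ _), fun a => ?_⟩⟩
    rw [bdb_zv_comp hΦ hf]
    refine (Bd.bilin hV _ hl (hf.comp' (bdb_fderiv hΦ)) (hf.zv (hV a))
      (h1 V hV l f hl hf (h.mono_k k.le_succ)) (h.zv a)).mono hl ?_
    refine le_trans (le_of_eq ?_) (mul_le_mul_of_nonneg_left (le_max_right _ _) hl)
    ring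

/-- Lipschitz version of `bd_comp` -/
theorem bd_comp_sub [FiniteDimensional ℝ F] {Φ : F → F'} (hΦ : ContDiff ℝ ∞ Φ) (k : ℕ) (B : ℝ) :
    ∃ C : ℝ, ∀ (V : ι → M → E2), (∀ a, SmV (V a)) → ∀ (l c : ℝ) (f g : M → F), 0 ≤ l → Sm f →
      Sm g → Bd V k l f B → Bd V k l g B → Bd V k l (fun p => f p - g p) c →
      Bd V k l (fun p => Φ (f p) - Φ (g p)) (C * c) := by
  induction k generalizing F' with
  | zero =>
    obtain ⟨C0, hC0, h0⟩ := bdb_lip hΦ B
    exact ⟨C0, fun V _ l c f g _ _ _ h h' hc p =>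
      (h0 _ _ (h p) (h' p)).trans (mul_le_mul_of_nonneg_left (hc p) hC0)⟩
  | succ k ih =>
    obtain ⟨C0, hC0, h0⟩ := bdb_lip hΦ B
    obtain ⟨C1, h1⟩ := ih (bdb_fderiv hΦ)
    obtain ⟨C2, h2⟩ := bd_comp (M := M) (ι := ι) (bdb_fderiv hΦ) k B
    set L := ContinuousLinearMap.id ℝ (F →L[ℝ] F') with hL
    refine ⟨max C0 (2 ^ k * ‖L‖ * C1 * B + 2 ^ k * ‖L‖ * C2),
      fun V hV l c f g hl hf hg h h' hc => ?_⟩
    rcases isEmpty_or_nonempty M with hM | ⟨⟨p0⟩⟩
    · exact bdb_empty _ _ _ _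
    have hc0 : 0 ≤ c := (norm_nonneg _).trans (hc.sup p0)
    refine ⟨fun p => ((h0 _ _ (h.sup p) (h'.sup p)).trans
      (mul_le_mul_of_nonneg_left (hc.sup p) hC0)).trans
      (mul_le_mul_of_nonneg_right (le_max_left _ _) hc0), fun a => ?_⟩
    have e : Zv (V a) (fun p => Φ (f p) - Φ (g p)) = fun p =>
        L (fderiv ℝ Φ (f p) - fderiv ℝ Φ (g p)) (Zv (V a) f p) +
          L (fderiv ℝ Φ (g p)) (Zv (V a) (fun q => f q - g q) p) := by
      funext p
      have hd := hΦ.differentiable (by simp)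
      simp only [Zv, hL, ContinuousLinearMap.id_apply]
      rw [dd_sub ((hf.comp' hΦ).df p) ((hg.comp' hΦ).df p), dd_comp (hd _) (hf.df p),
        dd_comp (hd _) (hg.df p), dd_sub (hf.df p) (hg.df p), sub_apply, map_sub]
      abel
    rw [e]
    have sf := hf.comp' (bdb_fderiv hΦ)
    have sg := hg.comp' (bdb_fderiv hΦ)
    have b1 := Bd.bilin hV L hl (sf.sub' sg) (hf.zv (hV a))
      (h1 V hV l c f g hl hf hg (h.mono_k k.le_succ) (h'.mono_k k.le_succ) (hc.mono_k k.le_succ))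
      (h.zv a)
    have b2 := Bd.bilin hV L hl sg ((hf.sub' hg).zv (hV a))
      (h2 V hV l g hl hg (h'.mono_k k.le_succ)) (hc.zv a)
    refine (Bd.add hV (Sm.bilin L (sf.sub' sg) (hf.zv (hV a)))
      (Sm.bilin L sg ((hf.sub' hg).zv (hV a))) b1 b2).mono hl ?_
    refine le_trans (le_of_eq ?_) (mul_le_mul_of_nonneg_left
      (mul_le_mul_of_nonneg_right (le_max_right _ _) hc0) hl)
    ring

/-- composition with a function all of whose derivatives are bounded; only the derivatives of the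
inner function need to be bounded (`Z f = O(l)`) -/
theorem bd_comp_bdd {Φ : F → F'} (hΦ : ContDiff ℝ ∞ Φ)
    (hb : ∀ j, ∃ c, ∀ y, ‖iteratedFDeriv ℝ j Φ y‖ ≤ c) (k : ℕ) (B : ℝ) :
    ∃ C : ℝ, ∀ (V : ι → M → E2), (∀ a, SmV (V a)) → ∀ (l : ℝ) (f : M → F), 0 ≤ l → Sm f →
      (∀ a, Bd V k l (Zv (V a) f) (B * l)) → Bd V k l (fun p => Φ (f p)) C := by
  induction k generalizing F' with
  | zero =>
    obtain ⟨C0, h0⟩ := hb 0
    exact ⟨C0, fun V _ l f _ _ _ p => by simpa using h0 (f p)⟩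
  | succ k ih =>
    obtain ⟨C0, h0⟩ := hb 0
    obtain ⟨C1, h1⟩ := ih (bdb_fderiv hΦ) fun j => by
      obtain ⟨c, hc⟩ := hb (j + 1)
      exact ⟨c, fun y => by rw [norm_iteratedFDeriv_fderiv]; exact hc y⟩
    refine ⟨max C0 (2 ^ k * ‖ContinuousLinearMap.id ℝ (F →L[ℝ] F')‖ * C1 * B),
      fun V hV l f hl hf h => ⟨fun p => le_trans (by simpa using h0 (f p)) (le_max_left _ _),
        fun a => ?_⟩⟩
    rw [bdb_zv_comp hΦ hf]
    refine (Bd.bilin hV _ hl (hf.comp' (bdb_fderiv hΦ)) (hf.zv (hV a))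
      (h1 V hV l f hl hf fun b => (h b).mono_k k.le_succ) ((h a).mono_k k.le_succ)).mono hl ?_
    refine le_trans (le_of_eq ?_) (mul_le_mul_of_nonneg_left (le_max_right _ _) hl)
    ring

/-- pull-back of bounds from the plane along `z : M → E2` with bounded derivatives -/
theorem bd_pull (k : ℕ) (B : ℝ) : ∃ C : ℝ, ∀ (V : ι → M → E2), (∀ a, SmV (V a)) →
    ∀ (l l' c : ℝ) (z : M → E2) (Θ : E2 → F), 0 ≤ l → 0 ≤ l' → Sm z → Sm Θ → Bd V0 k l' Θ c →
      (∀ a, Bd V k l (fun p => l' • Zv (V a) z p) (B * l)) →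
      Bd V k l (fun p => Θ (z p)) (C * c) := by
  induction k with
  | zero => exact ⟨1, fun V _ l l' c z Θ _ _ _ _ h _ p => by rw [one_mul]; exact h _⟩
  | succ k ih =>
    obtain ⟨C1, h1⟩ := ih
    refine ⟨max 1 (∑ u : Fin 2, 2 ^ k * (‖(EuclideanSpace.proj u : E2 →L[ℝ] ℝ)‖ * B) * C1),
      fun V hV l l' c z Θ hl hl' hz hΘ h hB => ?_⟩
    have hc0 : 0 ≤ c := (norm_nonneg _).trans (h.sup 0)
    refine ⟨fun p => (h.sup _).trans (le_mul_of_one_le_left hc0 (le_max_left _ _)), fun a => ?_⟩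
    have sΘ : ∀ u, Sm fun y => l'⁻¹ • Zv (V0 u) Θ y := fun u =>
      (sm_const _).smul' (hΘ.zv (smV_V0 u))
    have bΘ : ∀ u, Bd V0 k l' (fun y => l'⁻¹ • Zv (V0 u) Θ y) c := fun u => by
      refine (Bd.csmul smV_V0 l'⁻¹ (hΘ.zv (smV_V0 u)) (h.zv u)).mono hl' ?_
      rcases hl'.eq_or_lt with h0 | h0
      · simp [← h0, hc0]
      · rw [abs_of_pos (inv_pos.2 h0), inv_mul_cancel_left₀ h0.ne']
    have e : Zv (V a) (fun p => Θ (z p)) = fun p => ∑ u : Fin 2,
        (EuclideanSpace.proj u : E2 →L[ℝ] ℝ) (l' • Zv (V a) z p) • l'⁻¹ • Zv (V0 u) Θ (z p) := by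
      funext p
      rw [Zv, dd_pull ((sm_plane.1 hΘ).differentiable (by simp) _) (hz.df p)]
      refine Finset.sum_congr rfl fun u _ => ?_
      rcases hl'.eq_or_lt with h0 | h0
      · have : Zv (V0 u) Θ (z p) = 0 := by
          have := (h.zv u).sup (z p)
          rwa [← h0, zero_mul, norm_le_zero_iff] at this
        simp [this]
      · rw [smul_smul]
        congr 1
        simp only [Zv, map_smul, smul_eq_mul, EuclideanSpace.coe_proj]
        field_simp
    rw [e]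
    have sz : Sm fun p => l' • Zv (V a) z p := (sm_const _).smul' (hz.zv (hV a))
    have sc : ∀ u, Sm fun p => l'⁻¹ • Zv (V0 u) Θ (z p) := fun u => hz.comp' (sm_plane.1 (sΘ u))
    refine (Bd.sum hV Finset.univ hl (fun u _ => (sz.clm _).smul' (sc u)) fun u _ =>
      Bd.smul hV hl (sz.clm _) (sc u) (Bd.clm hV _ sz ((hB a).mono_k k.le_succ))
        (h1 V hV l l' c z _ hl hl' hz (sΘ u) (bΘ u) fun b => (hB b).mono_k k.le_succ)).mono hl ?_
    refine le_trans (le_of_eq ?_) (mul_le_mul_of_nonneg_left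
      (mul_le_mul_of_nonneg_right (le_max_right _ _) hc0) hl)
    rw [Finset.sum_mul, Finset.mul_sum]
    exact Finset.sum_congr rfl fun u _ => by ring

end Crest.Agent.R216
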