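import Crest.Agent.R216.BdL
/-! # R216: smoothing operators of any order from a first order one -/

set_option autoImplicit false
open scoped Manifold ContDiff Topology Matrix
open Set Filter

namespace Crest.Agent.R216
universe u
variable {M : Type u} [TopologicalSpace M] [ChartedSpace E2 M] [IsManifold (𝓡 2) ∞ M]
variable {ι : Type} {V : ι → M → E2}

theorem smooth_of_op (hV : ∀ a, SmV (V a)) (R : ℝ → (M → ℝ) → M → ℝ) (a : ℕ → ℝ)
    (ha : ∀ j, 0 ≤ a j)
    (hR : ∀ l : ℝ, 1 ≤ l → ∀ f, Sm f → Sm (R l f) ∧ ∀ (j : ℕ) (C : ℝ),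
      (∀ i ≤ j, Bd V i 1 f C → Bd V j 1 (R l f) (a j * l ^ (j - i) * C)) ∧
      (Bd V (j + 1) 1 f C → Bd V j 1 (fun p => f p - R l f p) (a j * C / l))) (m : ℕ) :
    ∃ c : ℕ → ℝ, ∀ l : ℝ, 1 ≤ l → ∀ f : M → ℝ, Sm f → ∃ f' : M → ℝ, Sm f' ∧
      ∀ j : ℕ, (∀ i ≤ j, ∀ C : ℝ, Bd V i 1 f C → Bd V j 1 f' (c j * l ^ (j - i) * C)) ∧
        ∀ q ≤ m, ∀ C : ℝ, Bd V (j + q) 1 f C →
          Bd V j 1 (fun p => f p - f' p) (c j * C / l ^ q) := by
  rcases isEmpty_or_nonempty M with hM | ⟨⟨p₀⟩⟩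
  · exact ⟨fun _ => 0, fun l _ f hf => ⟨f, hf, fun j =>
      ⟨fun _ _ _ _ => Bd.of_isEmpty _ _ _ _, fun _ _ _ _ => Bd.of_isEmpty _ _ _ _⟩⟩⟩
  suffices H : ∃ c : ℕ → ℝ, (∀ j, 0 ≤ c j) ∧ ∀ l : ℝ, 1 ≤ l → ∀ f : M → ℝ, Sm f →
      ∃ t : M → ℝ, Sm t ∧ ∀ j : ℕ, (∀ i ≤ j, ∀ C : ℝ, Bd V i 1 f C →
        Bd V j 1 (fun p => f p - t p) (c j * l ^ (j - i) * C)) ∧
        ∀ q ≤ m, ∀ C : ℝ, Bd V (j + q) 1 f C → Bd V j 1 t (c j * C / l ^ q) by
    obtain ⟨c, -, H⟩ := H
    refine ⟨c, fun l hl f hf => ?_⟩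
    obtain ⟨t, ht, h⟩ := H l hl f hf
    refine ⟨fun p => f p - t p, hf.sub' ht, fun j => ⟨(h j).1, fun q hq C hC => ?_⟩⟩
    simpa only [sub_sub_cancel] using (h j).2 q hq C hC
  induction m with
  | zero =>
    refine ⟨fun _ => 1, fun _ => zero_le_one, fun l hl f hf => ⟨f, hf, fun j =>
      ⟨fun i _ C hC => ?_, fun q hq C hC => ?_⟩⟩⟩
    · have hC0 := hC.nonneg p₀
      have hl0 : 0 ≤ l := by linarith
      simp only [sub_self]
      exact (Bd.const j zero_le_one (0 : ℝ)).mono zero_le_one (by rw [norm_zero]; positivity)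
    · obtain rfl : q = 0 := by omega
      simpa using hC
  | succ m ih =>
    obtain ⟨c, hc, H⟩ := ih
    have hs : ∀ j, 0 ≤ ∑ i ∈ Finset.range (j + 2), c i := fun j =>
      Finset.sum_nonneg fun i _ => hc i
    have hle : ∀ i j, i ≤ j + 1 → c i ≤ ∑ i ∈ Finset.range (j + 2), c i := fun i j h =>
      Finset.single_le_sum (fun i _ => hc i) (Finset.mem_range.2 (by omega))
    refine ⟨fun j => c j + a j * ∑ i ∈ Finset.range (j + 2), c i,
      fun j => add_nonneg (hc j) (mul_nonneg (ha j) (hs j)), fun l hl f hf => ?_⟩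
    have hl0 : 0 < l := by linarith
    obtain ⟨t, ht, h⟩ := H l hl f hf
    obtain ⟨hRt, hR'⟩ := hR l hl t ht
    refine ⟨fun p => t p - R l t p, ht.sub' hRt, fun j => ⟨fun i hij C hC => ?_, fun q hq C hC => ?_⟩⟩
    · have hC0 := hC.nonneg p₀
      have h1 := (h j).1 i hij C hC
      have h2 := (h i).2 0 (Nat.zero_le _) C hC
      have h3 := (hR' j _).1 i hij h2
      have e : (fun p => f p - (t p - R l t p)) = fun p => (f p - t p) + R l t p := by
        funext p; ring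
      rw [e]
      refine (Bd.add hV (hf.sub' ht) hRt h1 h3).mono zero_le_one ?_
      have h4 := mul_le_mul_of_nonneg_left (hle i j (by omega))
        (show 0 ≤ a j * l ^ (j - i) * C from mul_nonneg (mul_nonneg (ha j) (by positivity)) hC0)
      simp only [pow_zero, div_one]
      nlinarith
    · have hC0 := hC.nonneg p₀
      rcases q with _ | q
      · have h2 := (h j).2 0 (Nat.zero_le _) C hC
        have h3 := (hR' j _).1 j le_rfl h2
        refine (Bd.sub hV ht hRt h2 h3).mono zero_le_one ?_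
        have h4 := mul_le_mul_of_nonneg_left (hle j j (by omega)) (mul_nonneg (ha j) hC0)
        simp only [pow_zero, div_one, Nat.sub_self]
        nlinarith
      · have h2 := (h (j + 1)).2 q (by omega) C (by rwa [show j + 1 + q = j + (q + 1) by omega])
        refine ((hR' j _).2 h2).mono zero_le_one ?_
        have h4 := mul_le_mul_of_nonneg_left (hle (j + 1) j le_rfl) (mul_nonneg (ha j) hC0)
        have h5 := mul_nonneg (hc j) hC0
        rw [← mul_div_assoc, div_div, ← pow_succ]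
        refine div_le_div_of_nonneg_right ?_ (by positivity)
        nlinarith

end Crest.Agent.R216
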