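import Crest.Agent.R216.TDefs
/-! # R216 (T): calculus in smooth charts -/

set_option autoImplicit false
open scoped Manifold ContDiff Topology Matrix
open Set Filter Function Metric

namespace Crest.Agent.R216
universe u

variable {M : Type u} [TopologicalSpace M] [ChartedSpace E2 M]
variable {F : Type} [NormedAddCommGroup F] [NormedSpace ℝ F]
variable {e : OpenPartialHomeomorph M E2}

theorem vec_eq (v : E2) : v = v 0 • b0 + v 1 • b1 := by
  ext i
  fin_cases i <;> simp [b0, b1]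
theorem det2_map (L : E2 →L[ℝ] E2) (v w : E2) :
    det2 (L v) (L w) = det2 (L b0) (L b1) * det2 v w := by
  have hv : L v = v 0 • L b0 + v 1 • L b1 := by
    conv_lhs => rw [vec_eq v]
    simp only [map_add, map_smul]
  have hw : L w = w 0 • L b0 + w 1 • L b1 := by
    conv_lhs => rw [vec_eq w]
    simp only [map_add, map_smul]
  rw [hv, hw]
  simp only [det2, PiLp.add_apply, PiLp.smul_apply, smul_eq_mul]
  ring
theorem det2_ne_zero {L : E2 →L[ℝ] E2} (hL : Injective L) : det2 (L b0) (L b1) ≠ 0 := by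
  intro h
  have key : ∀ i : Fin 2, L b1 i = 0 ∧ L b0 i = 0 := by
    intro i
    have h1 : L ((L b1 i) • b0 - (L b0 i) • b1) = L 0 := by
      rw [map_sub, map_smul, map_smul, map_zero]
      unfold det2 at h
      ext j
      fin_cases i <;> fin_cases j <;> simp <;> linarith
    have h2 := hL h1
    have h3 := congrArg (fun v : E2 => v 0) h2
    have h4 := congrArg (fun v : E2 => v 1) h2
    simp [b0, b1] at h3 h4
    exact ⟨h3, h4⟩
  have h5 : L b0 = L 0 := by
    rw [map_zero]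
    ext j
    exact (key j).2
  have h6 := congrArg (fun v : E2 => v 0) (hL h5)
  simp [b0] at h6

theorem isCh_chartAt [IsManifold (𝓡 2) ∞ M] (p : M) : IsCh (chartAt E2 p) :=
  ⟨contMDiffOn_chart, contMDiffOn_chart_symm⟩

omit [ChartedSpace E2 M] in
theorem eventually_symm {p : M} (hp : p ∈ e.source) {P : M → Prop} (h : ∀ᶠ q in 𝓝 p, P q) :
    ∀ᶠ z in 𝓝 (e p), P (e.symm z) :=
  (e.tendsto_symm hp).eventually h
omit [ChartedSpace E2 M] in
theorem eventually_chart {p : M} (hp : p ∈ e.source) {P : E2 → Prop} (h : ∀ᶠ z in 𝓝 (e p), P z) :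
    ∀ᶠ q in 𝓝 p, q ∈ e.source ∧ P (e q) :=
  (e.open_source.eventually_mem hp).and ((e.continuousAt hp).eventually h)

namespace IsCh
theorem smAt (he : IsCh e) {q : M} (hq : q ∈ e.source) : ContMDiffAt (𝓡 2) 𝓘(ℝ, E2) ∞ e q :=
  he.sm.contMDiffAt (e.open_source.mem_nhds hq)
theorem df (he : IsCh e) {q : M} (hq : q ∈ e.source) : Df e q :=
  (he.smAt hq).mdifferentiableAt (by simp)
theorem symmAt (he : IsCh e) {z : E2} (hz : z ∈ e.target) :
    ContMDiffAt 𝓘(ℝ, E2) (𝓡 2) ∞ e.symm z :=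
  he.sm_symm.contMDiffAt (e.open_target.mem_nhds hz)
theorem contDiffAt_symm (he : IsCh e) {f : M → F} {q : M} (hq : q ∈ e.source)
    (hf : ContMDiffAt (𝓡 2) 𝓘(ℝ, F) ∞ f q) : ContDiffAt ℝ ∞ (f ∘ e.symm) (e q) := by
  have h1 : ContMDiffAt (𝓡 2) 𝓘(ℝ, F) ∞ f (e.symm (e q)) := by rwa [e.left_inv hq]
  exact contMDiffAt_iff_contDiffAt.1 (h1.comp _ (he.symmAt (e.map_source hq)))
theorem contDiffOn_symm (he : IsCh e) {f : M → F} (hf : Sm f) :
    ContDiffOn ℝ ∞ (f ∘ e.symm) e.target := fun z hz =>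
  (contMDiffAt_iff_contDiffAt.1 ((hf _).comp z (he.symmAt hz))).contDiffWithinAt
theorem dd_eq (he : IsCh e) {f : M → F} {q : M} (hq : q ∈ e.source) (hf : Df f q) (v : E2) :
    dd f q v = fderiv ℝ (f ∘ e.symm) (e q) (dd e q v) := by
  have h1 : Df f (e.symm (e q)) := by rwa [e.left_inv hq]
  have h2 : DifferentiableAt ℝ (f ∘ e.symm) (e q) :=
    mdifferentiableAt_iff_differentiableAt.1
      (h1.comp _ ((he.symmAt (e.map_source hq)).mdifferentiableAt (by simp)))
  rw [← dd_comp h2 (he.df hq)]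
  have h3 : f =ᶠ[𝓝 q] fun x => (f ∘ e.symm) (e x) := by
    filter_upwards [e.open_source.mem_nhds hq] with x hx
    simp only [Function.comp_apply, e.left_inv hx]
  rw [dd_congr h3]
theorem bij (he : IsCh e) {q : M} (hq : q ∈ e.source) : Bijective (dd e q) := by
  have hm : e.MDifferentiable (𝓡 2) (𝓡 2) :=
    ⟨he.sm.mdifferentiableOn (by simp), he.sm_symm.mdifferentiableOn (by simp)⟩
  exact hm.mfderiv_bijective hq
theorem dd_eq_zero (he : IsCh e) {f : M → F} {q : M} (hq : q ∈ e.source) (hf : Df f q) :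
    dd f q = 0 ↔ fderiv ℝ (f ∘ e.symm) (e q) = 0 := by
  constructor
  · intro h
    refine ContinuousLinearMap.ext fun w => ?_
    obtain ⟨v, rfl⟩ := (he.bij hq).2 w
    rw [← he.dd_eq hq hf, h]
    rfl
  · intro h
    refine ContinuousLinearMap.ext fun v => ?_
    rw [he.dd_eq hq hf, h]
    rfl
theorem dd_inj (he : IsCh e) {f : M → F} {q : M} (hq : q ∈ e.source) (hf : Df f q) :
    Injective (dd f q) ↔ Injective (fderiv ℝ (f ∘ e.symm) (e q)) := by
  have h : (dd f q : E2 → F) = fderiv ℝ (f ∘ e.symm) (e q) ∘ dd e q :=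
    funext fun v => he.dd_eq hq hf v
  rw [h]
  exact ⟨fun h' => h'.of_comp_right (he.bij hq).2, fun h' => h'.comp (he.bij hq).1⟩
theorem jac_ne (he : IsCh e) {q : M} (hq : q ∈ e.source) : jac e q ≠ 0 :=
  det2_ne_zero (he.bij hq).1

/-- restriction of a chart to an open set -/
theorem restr (he : IsCh e) {O : Set M} (hO : IsOpen O) :
    ∃ e' : OpenPartialHomeomorph M E2, IsCh e' ∧ e'.source = e.source ∩ O ∧
      (e' : M → E2) = e ∧ (e'.symm : E2 → M) = e.symm :=
  ⟨e.restrOpen O hO, ⟨he.sm.mono inter_subset_left, he.sm_symm.mono inter_subset_left⟩, rfl, rfl,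
    rfl⟩
/-- affine change of a chart -/
theorem affine (he : IsCh e) (L : E2 ≃L[ℝ] E2) (c : E2) :
    ∃ e' : OpenPartialHomeomorph M E2, IsCh e' ∧ e'.source = e.source ∧
      (∀ q, e' q = L (e q - c)) ∧ ∀ z, e'.symm z = e.symm (L.symm z + c) := by
  let h : E2 ≃ₜ E2 := (Homeomorph.subRight c).trans L.toHomeomorph
  refine ⟨e.transHomeomorph h, ⟨?_, ?_⟩, rfl, fun q => rfl, fun z => rfl⟩
  · have h1 : ContDiff ℝ ∞ fun z : E2 => L (z - c) :=
      L.contDiff.comp (contDiff_id.sub contDiff_const)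
    exact h1.contMDiff.comp_contMDiffOn he.sm
  · have h1 : ContDiff ℝ ∞ fun z : E2 => L.symm z + c := L.symm.contDiff.add contDiff_const
    exact he.sm_symm.comp h1.contMDiff.contMDiffOn fun z hz => hz

/-- modification of a function inside a chart -/
theorem exists_patch [T2Space M] (he : IsCh e) {f : M → F} (hf : Sm f) {φ : E2 → F}
    (hφ : ContDiffOn ℝ ∞ φ e.target) {K : Set E2} (hK : IsCompact K) (hKt : K ⊆ e.target)
    (h : ∀ z ∈ e.target, z ∉ K → φ z = f (e.symm z)) :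
    ∃ f' : M → F, Sm f' ∧ (∀ q ∈ e.source, f' q = φ (e q)) ∧
      ∀ q, q ∉ e.symm '' K → f' =ᶠ[𝓝 q] f := by
  classical
  have hc : IsClosed (e.symm '' K) :=
    (hK.image_of_continuousOn (e.continuousOn_symm.mono hKt)).isClosed
  have h2 : ∀ q, q ∉ e.symm '' K →
      (fun q => if q ∈ e.source then φ (e q) else f q) =ᶠ[𝓝 q] f := by
    intro q hq
    filter_upwards [hc.isOpen_compl.mem_nhds hq] with x hx
    split_ifs with hxs
    · rw [h _ (e.map_source hxs) fun hk => hx ⟨_, hk, e.left_inv hxs⟩, e.left_inv hxs]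
    · rfl
  refine ⟨fun q => if q ∈ e.source then φ (e q) else f q, fun q => ?_, fun q hq => if_pos hq, h2⟩
  by_cases hq : q ∈ e.source
  · have h1 : ContMDiffAt (𝓡 2) 𝓘(ℝ, F) ∞ (fun x => φ (e x)) q :=
      (hφ.contDiffAt (e.open_target.mem_nhds (e.map_source hq))).comp_contMDiffAt (he.smAt hq)
    refine h1.congr_of_eventuallyEq ?_
    filter_upwards [e.open_source.mem_nhds hq] with x hx using if_pos hx
  · refine (hf q).congr_of_eventuallyEq (h2 q ?_)
    rintro ⟨z, hz, rfl⟩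
    exact hq (e.map_target (hKt hz))

variable [IsManifold (𝓡 2) ∞ M] [T2Space M] [CompactSpace M]
/-- a global smooth map that agrees with the chart near a compact set -/
theorem exists_ext (he : IsCh e) {K : Set M} (hK : IsCompact K) (hKs : K ⊆ e.source) :
    ∃ x : M → E2, Sm x ∧ ∀ᶠ q in 𝓝ˢ K, x q = e q := by
  obtain ⟨b, hb, -, h1, hs⟩ := exists_cutoff hK.isClosed e.open_source hKs
  refine ⟨fun q => b q • e q, ?_, ?_⟩
  · exact contMDiff_of_tsupport fun q hq =>
      (hb q).smul (he.smAt (hs (tsupport_smul_subset_left _ _ hq)))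
  · filter_upwards [h1] with q hq
    rw [hq, one_smul]
/-- global smooth fields that agree with the coordinate fields near a point -/
theorem exists_frame (he : IsCh e) {p : M} (hp : p ∈ e.source) :
    ∃ V W : M → E2, SmV V ∧ SmV W ∧ ∀ᶠ q in 𝓝 p, dd e q (V q) = b0 ∧ dd e q (W q) = b1 := by
  obtain ⟨b, hb, -, h1, hs⟩ := exists_cutoff (isClosed_singleton (x := p)) e.open_source
    (singleton_subset_iff.2 hp)
  rw [nhdsSet_singleton] at h1
  have hinv : ∀ q ∈ e.source, (mfderiv (𝓡 2) (𝓡 2) e q).IsInvertible := by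
    intro q hq
    have hm : e.MDifferentiable (𝓡 2) (𝓡 2) :=
      ⟨he.sm.mdifferentiableOn (by simp), he.sm_symm.mdifferentiableOn (by simp)⟩
    exact ⟨hm.mfderiv hq, rfl⟩
  have key : ∀ u : Fin 2, ∃ V : M → E2, SmV V ∧
      ∀ᶠ q in 𝓝 p, dd e q (V q) = EuclideanSpace.single u 1 := by
    intro u
    let X : ∀ q : M, TangentSpace (𝓡 2) q := VectorField.mpullback (𝓡 2) (𝓡 2) e (V0 u)
    have hX : ContMDiffOn (𝓡 2) (𝓡 2).tangent ∞
        (fun q => (⟨q, X q⟩ : TangentBundle (𝓡 2) M)) e.source := fun q hq =>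
      (ContMDiffAt.mpullback_vectorField_preimage (smV_V0 u (e q)) (he.smAt hq) (hinv q hq)
        (by simp)).contMDiffWithinAt
    refine ⟨fun q => b q • X q, ?_, ?_⟩
    · exact ContMDiffOn.smul_section_of_tsupport (V := TangentSpace (𝓡 2)) (s := X)
        hb.contMDiffOn e.open_source hs hX
    · filter_upwards [h1, e.open_source.mem_nhds hp] with q hq hqs
      rw [hq, one_smul]
      exact (hinv q hqs).self_apply_inverse _
  obtain ⟨V, hV, hV'⟩ := key 0
  obtain ⟨W, hW, hW'⟩ := key 1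
  exact ⟨V, W, hV, hW, hV'.and hW'⟩
/-- components of a smooth field in a chart -/
theorem field_smAt (he : IsCh e) {V : M → E2} (hV : SmV V) {p : M} (hp : p ∈ e.source) :
    ContMDiffAt (𝓡 2) 𝓘(ℝ, E2) ∞ (fun q => dd e q (V q)) p := by
  obtain ⟨x, hx, h1⟩ := he.exists_ext (isCompact_singleton (x := p)) (singleton_subset_iff.2 hp)
  rw [nhdsSet_singleton] at h1
  refine (hx.zv hV p).congr_of_eventuallyEq ?_
  filter_upwards [h1.eventually_nhds] with q hq
  exact congrArg (fun L : E2 →L[ℝ] E2 => L (V q)) (dd_congr hq).symm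
end IsCh

/-- a chart centred at `p`, inside `O`, with prescribed differential -/
theorem exists_chart [IsManifold (𝓡 2) ∞ M] (p : M) {O : Set M} (hO : IsOpen O) (hp : p ∈ O)
    (L : E2 ≃L[ℝ] E2) : ∃ e : OpenPartialHomeomorph M E2, IsCh e ∧ p ∈ e.source ∧ e.source ⊆ O ∧
      e p = 0 ∧ dd e p = (L : E2 →L[ℝ] E2) := by
  obtain ⟨e₁, he₁, hs₁, -, -⟩ := (isCh_chartAt p).restr hO
  have hp₁ : p ∈ e₁.source := by rw [hs₁]; exact ⟨mem_chart_source E2 p, hp⟩
  let L₀ : E2 ≃L[ℝ] E2 :=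
    (LinearEquiv.ofBijective (dd e₁ p : E2 →ₗ[ℝ] E2) (he₁.bij hp₁)).toContinuousLinearEquiv
  obtain ⟨e₂, he₂, hs₂, ha, -⟩ := he₁.affine (L₀.symm.trans L) (e₁ p)
  refine ⟨e₂, he₂, by rwa [hs₂], by rw [hs₂, hs₁]; exact inter_subset_right, by simp [ha], ?_⟩
  refine ContinuousLinearMap.ext fun v => ?_
  have h1 : (e₂ : M → E2) = fun q => ((L₀.symm.trans L : E2 ≃L[ℝ] E2) : E2 →L[ℝ] E2)
      (e₁ q - e₁ p) := funext ha
  have h2 : Df (fun _ : M => e₁ p) p := (sm_const _).df p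
  rw [h1, dd_clm _ (f := fun q => e₁ q - e₁ p) ((he₁.df hp₁).sub h2), dd_sub (he₁.df hp₁) h2,
    dd_const]
  have h3 : dd e₁ p v = L₀ v := rfl
  simp [h3]

/-- a finite atlas with a partition of unity -/
theorem exists_atlas [IsManifold (𝓡 2) ∞ M] [T2Space M] [CompactSpace M] :
    ∃ (n : ℕ) (e : Fin n → OpenPartialHomeomorph M E2) (ψ : Fin n → M → ℝ), (∀ i, IsCh (e i)) ∧
      (∀ i, Sm (ψ i)) ∧ (∀ i q, 0 ≤ ψ i q) ∧ (∀ q, ∑ i, ψ i q = 1) ∧
      ∀ i, tsupport (ψ i) ⊆ (e i).source := by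
  obtain ⟨t, ht⟩ := isCompact_univ.elim_finite_subcover (fun p : M => (chartAt E2 p).source)
    (fun p => (chartAt E2 p).open_source) fun p _ => mem_iUnion.2 ⟨p, mem_chart_source E2 p⟩
  let c : Fin t.card → M := fun i => (t.equivFin.symm i : M)
  obtain ⟨ψ, h1, -, h3, -, h5⟩ := exists_sq_partition (isClosed_univ (X := M))
    (fun i => (chartAt E2 (c i)).source) (fun i => (chartAt E2 (c i)).open_source) (by
      intro p hp
      obtain ⟨x, hx, hpx⟩ := mem_iUnion₂.1 (ht hp)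
      refine mem_iUnion.2 ⟨t.equivFin ⟨x, hx⟩, ?_⟩
      simpa [c] using hpx)
  refine ⟨t.card, fun i => chartAt E2 (c i), fun i q => ψ i q ^ 2, fun i => isCh_chartAt _,
    fun i => ?_, fun i q => sq_nonneg _, fun q => h5 q (mem_univ q), fun i => ?_⟩
  · simpa only [pow_two] using (h1 i).mul' (h1 i)
  · refine (closure_mono ?_).trans (h3 i)
    intro q hq h0
    exact hq (by simp [h0])

end Crest.Agent.R216
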