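import Crest.Agent.R216.CalcMol
import Crest.Agent.R216.CalcIt
import Crest.Agent.R216.TChart
/-! # R216: almost orthonormal charts, transport of functions to the plane -/

set_option autoImplicit false
open scoped Manifold ContDiff Topology Matrix
open Set Filter

namespace Crest.Agent.R216
universe u
variable {M : Type u} [TopologicalSpace M] [ChartedSpace E2 M] [IsManifold (𝓡 2) ∞ M]

theorem exists_onb (B : E2 →L[ℝ] E2 →L[ℝ] ℝ) (hs : ∀ v w, B v w = B w v)
    (hp : ∀ v, v ≠ 0 → 0 < B v v) :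
    ∃ f : Fin 2 → E2, ∀ u v, B (f u) (f v) = if u = v then 1 else 0 := by
  have nrm : ∀ v : E2, v ≠ 0 → B ((√(B v v))⁻¹ • v) ((√(B v v))⁻¹ • v) = 1 := fun v hv => by
    have h := hp v hv
    simp only [map_smul, _root_.smul_apply, smul_eq_mul]
    have h2 : √(B v v) * √(B v v) = B v v := Real.mul_self_sqrt h.le
    have h3 : √(B v v) ≠ 0 := (Real.sqrt_pos.2 h).ne'
    field_simp
    rw [Real.sq_sqrt h.le]
  have h0 : b0 ≠ 0 := fun h => by simpa [b0] using congrArg (fun v : E2 => v 0) h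
  set f0 : E2 := (√(B b0 b0))⁻¹ • b0 with hf0
  have n0 : B f0 f0 = 1 := nrm b0 h0
  set h : E2 := b1 - B f0 b1 • f0 with hh
  have h1 : h ≠ 0 := fun e => by simpa [hh, hf0, b0, b1] using congrArg (fun v : E2 => v 1) e
  have o1 : B f0 h = 0 := by
    rw [hh, (B f0).map_sub, (B f0).map_smul, n0]
    simp
  have o : B f0 ((√(B h h))⁻¹ • h) = 0 := by
    rw [(B f0).map_smul, o1, smul_zero]
  refine ⟨![f0, (√(B h h))⁻¹ • h], fun u v => ?_⟩
  fin_cases u <;> fin_cases v
  · simpa using n0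
  · simpa using o
  · rw [hs] at o
    simpa using o
  · simpa using nrm h h1

theorem exists_loc [T2Space M] [CompactSpace M] (g : Met M) (p : M) :
    ∃ (e : OpenPartialHomeomorph M E2) (W : Fin 2 → M → E2) (z : M → E2) (O : Set M),
      IsCh e ∧ (∀ u, SmV (W u)) ∧ Sm z ∧ IsOpen O ∧ p ∈ O ∧ O ⊆ e.source ∧
      (∀ q ∈ O, z q = e q) ∧ (∀ q ∈ O, ∀ u, dd e q (W u q) = EuclideanSpace.single u 1) ∧
      ∀ q ∈ O, ∀ u v, |g.g q (W u q) (W v q) - if u = v then 1 else 0| ≤ 1 / 100 := by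
  obtain ⟨f, hf⟩ := exists_onb (g.g p) (g.symm p) (g.pos p)
  let A : E2 →ₗ[ℝ] E2 := ∑ u, (g.g p (f u) : E2 →ₗ[ℝ] ℝ).smulRight (EuclideanSpace.single u 1)
  have hA : ∀ v, A (f v) = EuclideanSpace.single v 1 := fun v => by
    simp only [A, LinearMap.sum_apply, LinearMap.smulRight_apply, ContinuousLinearMap.coe_coe, hf]
    simp
  have hsurj : Function.Surjective A := fun w => ⟨∑ u, w u • f u, by
    simp only [map_sum, map_smul, hA]
    ext i
    fin_cases i <;> simp⟩
  have hinj : Function.Injective A := LinearMap.injective_iff_surjective.2 hsurj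
  let L : E2 ≃L[ℝ] E2 := (LinearEquiv.ofBijective A ⟨hinj, hsurj⟩).toContinuousLinearEquiv
  obtain ⟨e, he, hp, -, -, hd⟩ := exists_chart p isOpen_univ (mem_univ p) L
  obtain ⟨V₀, V₁, hV₀, hV₁, hfr⟩ := he.exists_frame hp
  obtain ⟨z, hz, hze⟩ := he.exists_ext (isCompact_singleton (x := p)) (singleton_subset_iff.2 hp)
  rw [nhdsSet_singleton] at hze
  let W : Fin 2 → M → E2 := ![V₀, V₁]
  have hW : ∀ u, SmV (W u) := fun u => by fin_cases u <;> assumption
  have hfr' : ∀ᶠ q in 𝓝 p, ∀ u, dd e q (W u q) = EuclideanSpace.single u 1 := by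
    filter_upwards [hfr] with q hq u
    fin_cases u
    · exact hq.1
    · exact hq.2
  have hWp : ∀ u, W u p = f u := fun u => by
    apply hinj
    rw [hA, ← hfr'.self_of_nhds u, hd]
    rfl
  have hnear : ∀ᶠ q in 𝓝 p, ∀ u v,
      |g.g q (W u q) (W v q) - if u = v then 1 else 0| ≤ 1 / 100 := by
    simp only [eventually_all]
    intro u v
    have hc : Continuous fun q => |g.g q (W u q) (W v q) - if u = v then (1 : ℝ) else 0| :=
      ((g.sm _ _ (hW u) (hW v)).cont.sub continuous_const).abs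
    refine (hc.continuousAt.eventually_lt continuousAt_const ?_).mono fun q hq => hq.le
    rw [hWp, hWp, hf]
    norm_num
  obtain ⟨O, hO, hOo, hpO⟩ := eventually_nhds_iff.1
    ((e.open_source.eventually_mem hp).and (hze.and (hfr'.and hnear)))
  exact ⟨e, W, z, O, he, hW, hz, hOo, hpO, fun q hq => (hO q hq).1, fun q hq => (hO q hq).2.1,
    fun q hq => (hO q hq).2.2.1, fun q hq => (hO q hq).2.2.2⟩

/-- a function on the surface, read in a chart and extended by zero -/
noncomputable def psh (e : OpenPartialHomeomorph M E2) (f : M → ℝ) : E2 → ℝ :=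
  e.target.indicator (f ∘ e.symm)

section Push
variable {e : OpenPartialHomeomorph M E2} {f : M → ℝ}
omit [IsManifold (𝓡 2) ∞ M]

omit [ChartedSpace E2 M] in
theorem psh_chart {q : M} (hq : q ∈ e.source) : psh e f (e q) = f q := by
  rw [psh, indicator_of_mem (e.map_source hq), Function.comp_apply, e.left_inv hq]

omit [ChartedSpace E2 M] in
theorem psh_ev {y : E2} (hy : y ∈ e.target) : psh e f =ᶠ[𝓝 y] f ∘ e.symm := by
  filter_upwards [e.open_target.mem_nhds hy] with w hw
  rw [psh, indicator_of_mem hw]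

omit [ChartedSpace E2 M] in
theorem psh_zero {K : Set M} (h0 : ∀ q ∉ K, f q = 0) {y : E2} (hy : y ∉ e '' K) :
    psh e f y = 0 := by
  by_cases ht : y ∈ e.target
  · rw [psh, indicator_of_mem ht, Function.comp_apply]
    exact h0 _ fun h => hy ⟨_, h, e.right_inv ht⟩
  · rw [psh, indicator_of_notMem ht]

omit [ChartedSpace E2 M] in
theorem psh_cpt [CompactSpace M] {K : Set M} (hK : IsClosed K) (hs : K ⊆ e.source) :
    IsCompact (e '' K) :=
  hK.isCompact.image_of_continuousOn (e.continuousOn.mono hs)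

theorem psh_smc [CompactSpace M] (he : IsCh e) (hf : Sm f) {K : Set M} (hK : IsClosed K)
    (hs : K ⊆ e.source) (h0 : ∀ q ∉ K, f q = 0) : SmC (psh e f) := by
  have hc := psh_cpt hK hs
  refine ⟨sm_plane.2 (contDiff_iff_contDiffAt.2 fun y => ?_),
    HasCompactSupport.intro hc fun y hy => psh_zero h0 hy⟩
  by_cases hy : y ∈ e '' K
  · obtain ⟨q, hq, rfl⟩ := hy
    exact (he.contDiffAt_symm (hs hq) (hf q)).congr_of_eventuallyEq
      (psh_ev (e.map_source (hs hq)))
  · refine (contDiffAt_const (c := (0 : ℝ))).congr_of_eventuallyEq ?_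
    filter_upwards [hc.isClosed.isOpen_compl.mem_nhds hy] with w hw using psh_zero h0 hw

theorem psh_zv [CompactSpace M] (he : IsCh e) (hf : Sm f) {K : Set M} (hK : IsClosed K)
    (hs : K ⊆ e.source) (h0 : ∀ q ∉ K, f q = 0) {W : M → E2} {u : Fin 2}
    (hW : ∀ q ∈ K, dd e q (W q) = EuclideanSpace.single u 1) :
    Zv (V0 u) (psh e f) = psh e (Zv W f) := by
  funext y
  by_cases hy : y ∈ e '' K
  · obtain ⟨q, hq, rfl⟩ := hy
    rw [psh_chart (hs hq), zv0_eq, Zv, he.dd_eq (hs hq) (hf.df q), hW q hq]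
    simp only
    rw [(psh_ev (e.map_source (hs hq))).fderiv_eq]
  · rw [psh_zero (K := K) (fun q hq => by rw [Zv, dd_zero_of_closed hK h0 hq]; rfl) hy, Zv,
      dd_zero_of_closed (psh_cpt hK hs).isClosed (fun w hw => psh_zero h0 hw) hy]
    rfl

end Push

theorem psh_bd [CompactSpace M] {ι : Type} {V : ι → M → E2} (hV : ∀ a, SmV (V a))
    {e : OpenPartialHomeomorph M E2} (he : IsCh e) {K : Set M} (hK : IsClosed K)
    (hs : K ⊆ e.source) (τ : Fin 2 → ι)
    (hW : ∀ u, ∀ q ∈ K, dd e q (V (τ u) q) = EuclideanSpace.single u 1) {k : ℕ} {c : ℝ}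
    (hc : 0 ≤ c) {f : M → ℝ} (hf : Sm f) (h0 : ∀ q ∉ K, f q = 0) (h : Bd V k 1 f c) :
    Bd V0 k 1 (psh e f) c := by
  have base : ∀ {f : M → ℝ} {k : ℕ}, Bd V k 1 f c → ∀ y, ‖psh e f y‖ ≤ c := fun {f k} h y => by
    by_cases ht : y ∈ e.target
    · rw [psh, indicator_of_mem ht]
      exact h.sup _
    · rw [psh, indicator_of_notMem ht, norm_zero]
      exact hc
  induction k generalizing f with
  | zero => exact base h
  | succ k ih =>
    refine ⟨base h, fun u => ?_⟩
    rw [psh_zv he hf hK hs h0 (hW u), one_mul]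
    have h2 := h.zv (τ u)
    rw [one_mul] at h2
    exact ih (hf.zv (hV _)) (fun q hq => by rw [Zv, dd_zero_of_closed hK h0 hq]; rfl) h2

/-- transport between the surface and finitely many planes -/
theorem exists_transport [CompactSpace M] {n : ℕ} {V : Fin n × Fin 2 → M → E2}
    (hV : ∀ a, SmV (V a)) {e : Fin n → OpenPartialHomeomorph M E2} (he : ∀ i, IsCh (e i))
    {z : Fin n → M → E2} (hz : ∀ i, Sm (z i)) {O : Fin n → Set M} (hO : ∀ i, O i ⊆ (e i).source)
    (hze : ∀ i, ∀ q ∈ O i, z i q = e i q)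
    (hW : ∀ i, ∀ q ∈ O i, ∀ u, dd (e i) q (V (i, u) q) = EuclideanSpace.single u 1)
    {χ : Fin n → M → ℝ} (hχ : ∀ i, Sm (χ i)) (hsupp : ∀ i, tsupport (χ i) ⊆ O i)
    (hsq : ∀ p, ∑ i, χ i p ^ 2 = 1) :
    ∃ (P : Fin n → (M → ℝ) → E2 → ℝ) (b : ℕ → ℝ), (∀ k, 0 ≤ b k) ∧
      (∀ f, Sm f → (∀ i, SmC (P i f)) ∧ (∀ p, f p = ∑ i, χ i p * P i f (z i p)) ∧
        ∀ i k c, 0 ≤ c → Bd V k 1 f c → Bd V0 k 1 (P i f) (b k * c)) ∧
      ∀ (Θ : Fin n → E2 → ℝ), (∀ i, Sm (Θ i)) → Sm (fun p => ∑ i, χ i p * Θ i (z i p)) ∧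
        ∀ k c, 0 ≤ c → (∀ i, Bd V0 k 1 (Θ i) c) →
          Bd V k 1 (fun p => ∑ i, χ i p * Θ i (z i p)) (b k * c) := by
  choose x hx using fun (i : Fin n) (k : ℕ) => Bd.of_compact hV (hχ i) k
  choose B hB using fun (i : Fin n) (k : ℕ) => Bd.of_compact hV (hz i) (k + 1)
  choose D hD using fun (i : Fin n) (k : ℕ) => bd_pull (M := M) (F := ℝ) (ι := Fin n × Fin 2) k (B i k)
  have hx' : ∀ i k, Bd V k 1 (χ i) |x i k| := fun i k => (hx i k).mono zero_le_one (le_abs_self _)
  refine ⟨fun i f => psh (e i) fun p => χ i p * f p,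
    fun k => ∑ i, 2 ^ k * |x i k| * (1 + |D i k|),
    fun k => Finset.sum_nonneg fun i _ => by positivity, fun f hf => ?_, fun Θ hΘ => ?_⟩
  · have h0 : ∀ i, ∀ q ∉ tsupport (χ i), χ i q * f q = 0 := fun i q hq => by
      rw [image_eq_zero_of_notMem_tsupport hq, zero_mul]
    refine ⟨fun i => psh_smc (he i) ((hχ i).mul' hf) (isClosed_tsupport _)
      ((hsupp i).trans (hO i)) (h0 i), fun p => ?_, fun i k c hc h => ?_⟩
    · conv_lhs => rw [← one_mul (f p), ← hsq p, Finset.sum_mul]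
      refine Finset.sum_congr rfl fun i _ => ?_
      by_cases hp : p ∈ tsupport (χ i)
      · simp only
        rw [hze i p (hsupp i hp), psh_chart (hO i (hsupp i hp))]
        ring
      · rw [image_eq_zero_of_notMem_tsupport hp]
        ring
    · refine (psh_bd hV (he i) (isClosed_tsupport _) ((hsupp i).trans (hO i)) (fun u => (i, u))
        (fun u q hq => hW i q (hsupp i hq) u) (by positivity) ((hχ i).mul' hf) (h0 i)
        (Bd.mul hV zero_le_one (hχ i) hf (hx' i k) h)).mono zero_le_one ?_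
      refine mul_le_mul_of_nonneg_right (le_trans ?_ (Finset.single_le_sum
        (f := fun i => 2 ^ k * |x i k| * (1 + |D i k|)) (fun i _ => by positivity)
        (Finset.mem_univ i))) hc
      exact le_mul_of_one_le_right (by positivity) (by simp)
  · have hs : ∀ i, Sm fun p => Θ i (z i p) := fun i => (hz i).comp' (sm_plane.1 (hΘ i))
    refine ⟨Sm.sum' _ fun i _ => (hχ i).mul' (hs i), fun k c hc h => ?_⟩
    refine (Bd.sum hV Finset.univ zero_le_one (fun i _ => (hχ i).mul' (hs i)) fun i _ =>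
      Bd.mul hV zero_le_one (hχ i) (hs i) (hx' i k) (hD i k V hV 1 1 c (z i) (Θ i) zero_le_one
        zero_le_one (hz i) (hΘ i) (h i) fun a => ?_)).mono zero_le_one ?_
    · simpa using (hB i k).zv a
    · rw [Finset.sum_mul]
      refine Finset.sum_le_sum fun i _ => ?_
      rw [mul_assoc _ _ c]
      refine mul_le_mul_of_nonneg_left (mul_le_mul_of_nonneg_right ?_ hc) (by positivity)
      linarith [le_abs_self (D i k)]

end Crest.Agent.R216
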