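import Crest.Agent.R216.CalcAtl
/-! # R216: existence of `Met` and `Calc` -/

set_option autoImplicit false
open scoped Manifold ContDiff Topology Matrix
open Set Filter

namespace Crest.Agent.R216
universe u
variable {M : Type u} [TopologicalSpace M] [ChartedSpace E2 M] [IsManifold (𝓡 2) ∞ M]

/-- unbundling (`ContMDiff.clm_bundle_apply₂` or `ContMDiff.inner_bundle`) -/
theorem exists_met (g : Bundle.ContMDiffRiemannianMetric (𝓡 2) ∞ E2 (TangentSpace (𝓡 2) : M → Type)) :
    ∃ g' : Met M, ∀ (p : M) (v w : TangentSpace (𝓡 2) p), g'.g p v w = g.inner p v w := by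
  refine ⟨⟨fun p => g.inner p, fun p v w => g.symm p v w, fun p v hv => g.pos p v hv,
    fun V W hV hW => ?_⟩, fun _ _ _ => rfl⟩
  have h : ContMDiff (𝓡 2) ((𝓡 2).prod 𝓘(ℝ, ℝ)) ∞ (fun p : M =>
      Bundle.TotalSpace.mk' ℝ (E := Bundle.Trivial M ℝ) p (g.inner p (V p) (W p))) :=
    ContMDiff.clm_bundle_apply₂ (F₁ := E2) (F₂ := E2) g.contMDiff hV hW
  intro p
  have h2 := h p
  simp only [Bundle.contMDiffAt_totalSpace] at h2
  exact h2.2

/-- For each point take the chart composed with a linear map making `g_p` Euclidean, a small ball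
on which `near` holds, a finite subcover by smaller balls; `V (i,u) = χ̂_i ∂_u`, `x i u = χ̂_i x_u`
with `χ̂_i = 1` on `O i`.  Smoothing: `R f = ∑ χ_i² · (ρ_{r₀/l} ⋆ (χ̂_i f ∘ φ_i⁻¹)) ∘ φ_i`,
`f' = f - (1 - R)^m f` (for `m = 0` take `R f`, or use `m + 1`).  Completeness: `contDiff_tsum` for the
functions `(χ_i² w_k) ∘ φ_i⁻¹` on the plane. -/
theorem exists_calc [T2Space M] [CompactSpace M] (g : Met M) : Nonempty (Calc g) := by
  choose e' W' z' O' he' hW' hz' hOo' hpO' hO' hze' hfr' hnear' using exists_loc g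
  obtain ⟨t, ht⟩ := isCompact_univ.elim_finite_subcover O' hOo' fun p _ => mem_iUnion.2 ⟨p, hpO' p⟩
  let σ : Fin t.card → M := fun i => (t.equivFin.symm i : M)
  have hcov : (univ : Set M) ⊆ ⋃ i, O' (σ i) := fun p hp => by
    obtain ⟨q, hq, h⟩ := mem_iUnion₂.1 (ht hp)
    exact mem_iUnion.2 ⟨t.equivFin ⟨q, hq⟩, by simpa [σ] using h⟩
  obtain ⟨χ, hχ, -, hsupp, -, hsq⟩ := exists_sq_partition isClosed_univ (fun i => O' (σ i))
    (fun i => hOo' _) hcov
  let V : Fin t.card × Fin 2 → M → E2 := fun a => W' (σ a.1) a.2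
  have hV : ∀ a, SmV (V a) := fun a => hW' _ _
  have hdz : ∀ i, ∀ p ∈ O' (σ i), ∀ u w,
      dd (fun q => z' (σ i) q u) p w = dd (e' (σ i)) p w u := fun i p hp u w => by
    have h1 : dd (z' (σ i)) p = dd (e' (σ i)) p :=
      dd_congr (eventually_of_mem ((hOo' _).mem_nhds hp) (hze' _))
    rw [← h1]
    exact dd_clm (EuclideanSpace.proj u : E2 →L[ℝ] ℝ) ((hz' _).df p) w
  obtain ⟨P, b, hb, hP, hQ⟩ := exists_transport (V := V) hV (fun i => he' (σ i))
    (fun i => hz' (σ i)) (fun i => hO' (σ i)) (fun i => hze' (σ i)) (fun i => hfr' (σ i)) hχ hsupp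
    fun p => hsq p (mem_univ p)
  refine ⟨{
    n := t.card
    V := V
    V_sm := hV
    x := fun i u q => z' (σ i) q u
    x_sm := fun i u => (hz' _).clm (EuclideanSpace.proj u : E2 →L[ℝ] ℝ)
    O := fun i => O' (σ i)
    O_open := fun i => hOo' _
    χ := χ
    χ_sm := hχ
    χ_supp := hsupp
    χ_sq := fun p => hsq p (mem_univ p)
    dual := fun i p hp u v => ?_
    span := fun i p hp w => ?_
    near := fun i p hp u v => hnear' _ p hp u v
    smooth := fun m => ?_
    complete := fun w hw h => ?_ }⟩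
  · rw [hdz i p hp, hfr' _ p hp v]
    simp
  · apply ((he' (σ i)).bij (hO' _ hp)).1
    simp only [map_sum, map_smul, hdz i p hp, V, hfr' _ p hp]
    ext k
    fin_cases k <;> simp
  · obtain ⟨Mo, A, hA, hMo⟩ := exists_mol
    have hs : ∀ j, 0 ≤ ∑ i ∈ Finset.range (j + 2), b i := fun j =>
      Finset.sum_nonneg fun i _ => hb i
    have hle : ∀ i j, i ≤ j + 1 → b i ≤ ∑ i ∈ Finset.range (j + 2), b i := fun i j h =>
      Finset.single_le_sum (fun i _ => hb i) (Finset.mem_range.2 (by omega))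
    refine smooth_of_op hV (fun l f p => ∑ i, χ i p * Mo l (P i f) (z' (σ i) p))
      (fun j => b j * (A j + 2) * ∑ i ∈ Finset.range (j + 2), b i)
      (fun j => mul_nonneg (mul_nonneg (hb j) (by linarith [hA j])) (hs j)) (fun l hl f hf => ?_) m
    obtain ⟨hc, hf1, hf2⟩ := hP f hf
    have hl0 : 0 < l := by linarith
    have hm := fun i => hMo l hl _ (hc i)
    refine ⟨(hQ _ fun i => (hm i).1).1, fun j C => ?_⟩
    rcases isEmpty_or_nonempty M with hM | ⟨⟨p₀⟩⟩
    · exact ⟨fun _ _ _ => Bd.of_isEmpty _ _ _ _, fun _ => Bd.of_isEmpty _ _ _ _⟩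
    refine ⟨fun i hij h => ?_, fun h => ?_⟩
    · have hC := h.nonneg p₀
      have := hA j
      have := hb i
      refine ((hQ _ fun i => (hm i).1).2 j _ (by positivity) fun k =>
        ((hm k).2 j _).1 i hij (hf2 k i C hC h)).mono zero_le_one ?_
      have h4 := mul_le_mul (show A j ≤ A j + 2 by linarith) (hle i j (by omega)) (hb i)
        (by linarith)
      have h5 := mul_le_mul_of_nonneg_left h4
        (show 0 ≤ b j * l ^ (j - i) * C from mul_nonneg (mul_nonneg (hb j) (by positivity)) hC)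
      nlinarith
    · have hC := h.nonneg p₀
      have := hb (j + 1)
      have e : (fun p => f p - ∑ i, χ i p * Mo l (P i f) (z' (σ i) p)) =
          fun p => ∑ i, χ i p * (fun y => P i f y - Mo l (P i f) y) (z' (σ i) p) := by
        funext p
        conv_lhs => rw [hf1 p]
        simp only [mul_sub, Finset.sum_sub_distrib]
      rw [e]
      refine ((hQ _ fun i => (hc i).sm.sub' (hm i).1).2 j _ (by positivity) fun k =>
        ((hm k).2 j _).2 (hf2 k (j + 1) C hC h)).mono zero_le_one ?_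
      rw [← mul_div_assoc]
      refine div_le_div_of_nonneg_right ?_ hl0.le
      have h4 := mul_le_mul (show 2 ≤ A j + 2 by linarith [hA j]) (hle (j + 1) j le_rfl)
        (hb (j + 1)) (by linarith [hA j])
      have h5 := mul_le_mul_of_nonneg_left h4 (mul_nonneg (hb j) hC)
      nlinarith
  · have hΘ : ∀ i j, ∃ c : ℕ → ℝ, Summable c ∧ ∀ k, Bd V0 j 1 (P i (w k)) (c k) := fun i j => by
      obtain ⟨c, hc, h⟩ := h j
      exact ⟨fun k => b j * |c k|, hc.abs.mul_left _, fun k => (hP _ (hw k)).2.2 i j _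
        (abs_nonneg _) ((h k).mono zero_le_one (le_abs_self _))⟩
    have hsm : ∀ i k, Sm (P i (w k)) := fun i k => ((hP _ (hw k)).1 i).sm
    have hsum : ∀ i y, HasSum (fun k => P i (w k) y) (∑' k, P i (w k) y) := fun i y => by
      obtain ⟨c, hc, h⟩ := hΘ i 0
      exact (Summable.of_norm_bounded hc fun k => (h k).sup y).hasSum
    have hS := fun i => plane_tsum_sm (hsm i) (hΘ i)
    have e : (fun p => ∑' k, w k p) =
        fun p => ∑ i, χ i p * (fun y => ∑' k, P i (w k) y) (z' (σ i) p) := by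
      funext p
      refine HasSum.tsum_eq ?_
      have h1 := hasSum_sum (s := Finset.univ) fun i _ => (hsum i (z' (σ i) p)).mul_left (χ i p)
      exact h1.congr_fun fun k => (hP _ (hw k)).2.1 p
    have key : ∀ (Θ : Fin t.card → E2 → ℝ), (∀ i, Sm (Θ i)) → ∀ a p,
        Zv (V a) (fun p => ∑ i, χ i p * Θ i (z' (σ i) p)) p =
          ∑ i, (χ i p * ∑ u, dd (z' (σ i)) p (V a p) u * Zv (V0 u) (Θ i) (z' (σ i) p) +
            dd (χ i) p (V a p) * Θ i (z' (σ i) p)) := fun Θ hΘ a p => by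
      have hs : ∀ i, Sm fun p => Θ i (z' (σ i) p) := fun i => (hz' _).comp' (sm_plane.1 (hΘ i))
      rw [Zv, dd_sum _ fun i _ => ((hχ i).mul' (hs i)).df p]
      refine Finset.sum_congr rfl fun i _ => ?_
      rw [dd_mul ((hχ i).df p) ((hs i).df p),
        dd_pull ((sm_plane.1 (hΘ i)).differentiable (by simp) _) ((hz' _).df p)]
      rfl
    rw [e]
    refine ⟨(hQ _ hS).1, fun a p => ?_⟩
    rw [key _ hS]
    have h1 := hasSum_sum (s := Finset.univ) fun i _ =>
      ((hasSum_sum (s := Finset.univ) fun u _ =>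
        ((plane_tsum (hsm i) (hΘ i)).2 u (z' (σ i) p)).mul_left
          (dd (z' (σ i)) p (V a p) u)).mul_left (χ i p)).add
        ((hsum i (z' (σ i) p)).mul_left (dd (χ i) p (V a p)))
    refine h1.congr_fun fun k => ?_
    rw [← key (fun i => P i (w k)) (fun i => hsm i k)]
    congr 1
    funext q
    exact (hP _ (hw k)).2.1 q

end Crest.Agent.R216
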