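import Crest.Agent.R216.BdL
/-! # R216: mollification in the plane -/

set_option autoImplicit false
open scoped Manifold ContDiff Topology Matrix Convolution
open Set Filter MeasureTheory ContinuousLinearMap

namespace Crest.Agent.R216

/-- convolution of real functions on the plane -/
noncomputable def cnv (k Θ : E2 → ℝ) : E2 → ℝ := k ⋆[lsmul ℝ ℝ, volume] Θ

/-- smooth with compact support -/
structure SmC (f : E2 → ℝ) : Prop where
  sm : Sm f
  cs : HasCompactSupport f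

theorem SmC.cd {f : E2 → ℝ} (h : SmC f) : ContDiff ℝ ∞ f := sm_plane.1 h.sm

theorem zv0_eq (u : Fin 2) (f : E2 → ℝ) :
    Zv (V0 u) f = fun y => fderiv ℝ f y (EuclideanSpace.single u 1) := by
  funext y
  simp only [Zv, V0, dd_plane]

theorem SmC.zv {f : E2 → ℝ} (h : SmC f) (u : Fin 2) : SmC (Zv (V0 u) f) := by
  refine ⟨h.sm.zv (smV_V0 u), ?_⟩
  rw [zv0_eq]
  exact (h.cs.fderiv ℝ).comp_left
    (g := fun L : E2 →L[ℝ] ℝ => L (EuclideanSpace.single u 1)) rfl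

theorem cnv_comm (k Θ : E2 → ℝ) : cnv k Θ = cnv Θ k := by
  unfold cnv
  rw [← convolution_flip]
  congr 1
  ext
  simp

theorem SmC.cnv_sm {k Θ : E2 → ℝ} (hk : SmC k) (hΘ : SmC Θ) : Sm (cnv k Θ) :=
  sm_plane.2 (hk.cs.contDiff_convolution_left _ hk.cd hΘ.cd.continuous.locallyIntegrable)

theorem cnv_zv_right {k Θ : E2 → ℝ} (hk : SmC k) (hΘ : SmC Θ) (u : Fin 2) :
    Zv (V0 u) (cnv k Θ) = cnv k (Zv (V0 u) Θ) := by
  rw [zv0_eq, zv0_eq]
  funext y
  have h1 : ContDiff ℝ 1 Θ := hΘ.cd.of_le (by simp)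
  have h := hΘ.cs.hasFDerivAt_convolution_right (μ := volume) (lsmul ℝ ℝ : ℝ →L[ℝ] ℝ →L[ℝ] ℝ)
    hk.cd.continuous.locallyIntegrable h1 y
  unfold cnv
  rw [h.fderiv, convolution_precompR_apply _ hk.cd.continuous.locallyIntegrable (hΘ.cs.fderiv ℝ)
    (h1.continuous_fderiv one_ne_zero)]

theorem cnv_zv_left {k Θ : E2 → ℝ} (hk : SmC k) (hΘ : SmC Θ) (u : Fin 2) :
    Zv (V0 u) (cnv k Θ) = cnv (Zv (V0 u) k) Θ := by
  rw [cnv_comm, cnv_zv_right hΘ hk, cnv_comm]

theorem cnv_sup {k Θ : E2 → ℝ} (hk : SmC k) {c A : ℝ} (h : ∀ y, ‖Θ y‖ ≤ c)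
    (hA : ∫ t, ‖k t‖ ≤ A) (y : E2) : ‖cnv k Θ y‖ ≤ A * c := by
  have hc : 0 ≤ c := (norm_nonneg _).trans (h 0)
  have hi : Integrable (fun t => ‖k t‖) := (hk.cd.continuous.integrable_of_hasCompactSupport hk.cs).norm
  unfold cnv
  rw [convolution_def]
  refine (norm_integral_le_of_norm_le (hi.mul_const c) (Eventually.of_forall fun t => ?_)).trans ?_
  · simp only [lsmul_apply, norm_smul]
    exact mul_le_mul_of_nonneg_left (h _) (norm_nonneg _)
  · rw [integral_mul_const]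
    exact mul_le_mul_of_nonneg_right hA hc

/-- `L¹` bounds of the derivatives of a kernel -/
def KB : ℕ → ℝ → (E2 → ℝ) → ℝ → Prop
  | 0, _, k, A => ∫ t, ‖k t‖ ≤ A
  | j + 1, l, k, A => (∫ t, ‖k t‖ ≤ A) ∧ ∀ u, KB j l (Zv (V0 u) k) (l * A)

theorem KB.sup {j : ℕ} {l A : ℝ} {k : E2 → ℝ} (h : KB j l k A) : ∫ t, ‖k t‖ ≤ A := by
  cases j with
  | zero => exact h
  | succ j => exact h.1

theorem KB.mono {j : ℕ} {l A A' : ℝ} {k : E2 → ℝ} (h : KB j l k A) (hl : 0 ≤ l) (hA : A ≤ A') :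
    KB j l k A' := by
  induction j generalizing k A A' with
  | zero => exact le_trans h hA
  | succ j ih => exact ⟨h.1.trans hA, fun u => ih (h.2 u) (mul_le_mul_of_nonneg_left hA hl)⟩

theorem KB.pred {j : ℕ} {l A : ℝ} {k : E2 → ℝ} (h : KB (j + 1) l k A) : KB j l k A := by
  induction j generalizing k A with
  | zero => exact h.1
  | succ j ih => exact ⟨h.1, fun u => ih (h.2 u)⟩

theorem cnv_bd0 {j : ℕ} {l A c : ℝ} {k Θ : E2 → ℝ} (hk : SmC k) (hΘ : SmC Θ) (hK : KB j l k A)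
    (h : ∀ y, ‖Θ y‖ ≤ c) : Bd V0 j l (cnv k Θ) (A * c) := by
  induction j generalizing k A with
  | zero => exact cnv_sup hk h hK
  | succ j ih =>
    refine ⟨cnv_sup hk h hK.1, fun u => ?_⟩
    rw [cnv_zv_left hk hΘ, ← mul_assoc]
    exact ih (hk.zv u) (hK.2 u)

theorem cnv_bd {i j : ℕ} (hij : i ≤ j) {l A c : ℝ} (hl : 1 ≤ l) {k Θ : E2 → ℝ} (hk : SmC k)
    (hΘ : SmC Θ) (hK : KB j l k A) (h : Bd V0 i 1 Θ c) :
    Bd V0 j 1 (cnv k Θ) (A * l ^ (j - i) * c) := by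
  induction i generalizing j Θ with
  | zero =>
    have := (cnv_bd0 hk hΘ hK h).unw hl
    rw [Nat.sub_zero]
    exact this.mono zero_le_one (le_of_eq (by ring))
  | succ i ih =>
    obtain ⟨j, rfl⟩ : ∃ j', j = j' + 1 := ⟨j - 1, by omega⟩
    have hc : 0 ≤ c := h.nonneg 0
    have hA : 0 ≤ A := (integral_nonneg fun t => norm_nonneg _).trans hK.sup
    refine ⟨fun y => (cnv_sup hk h.sup hK.sup y).trans ?_, fun u => ?_⟩
    · exact mul_le_mul_of_nonneg_right (le_mul_of_one_le_right hA (one_le_pow₀ hl)) hc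
    · rw [cnv_zv_right hk hΘ, one_mul, Nat.add_sub_add_right]
      have h2 := h.zv u
      rw [one_mul] at h2
      exact ih (by omega) (hΘ.zv u) hK.pred h2

/-- rescaled kernel -/
noncomputable def scl (l : ℝ) (ρ : E2 → ℝ) : E2 → ℝ := fun t => l ^ 2 * ρ (l • t)

theorem SmC.scl {ρ : E2 → ℝ} (h : SmC ρ) {l : ℝ} (hl : 0 < l) (s : ℝ) :
    SmC fun t => s * scl l ρ t := by
  refine ⟨sm_plane.2 ?_, ?_⟩
  · unfold R216.scl
    exact contDiff_const.mul (contDiff_const.mul (h.cd.comp (contDiff_const_smul l)))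
  · unfold R216.scl
    exact ((h.cs.comp_smul hl.ne').mul_left).mul_left

theorem integral_scl (ρ : E2 → ℝ) {l : ℝ} (hl : 0 < l) : ∫ t, scl l ρ t = ∫ t, ρ t := by
  unfold scl
  rw [integral_const_mul, Measure.integral_comp_smul]
  simp only [finrank_euclideanSpace, Fintype.card_fin, smul_eq_mul]
  rw [abs_of_pos (by positivity), mul_inv_cancel_left₀ (by positivity)]

theorem zv_scl {ρ : E2 → ℝ} (h : SmC ρ) (l s : ℝ) (u : Fin 2) :
    Zv (V0 u) (fun t => s * scl l ρ t) = fun t => (s * l) * scl l (Zv (V0 u) ρ) t := by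
  rw [zv0_eq, zv0_eq]
  funext t
  have h1 : HasFDerivAt (fun t : E2 => s * scl l ρ t)
      (s • (l ^ 2 • ((fderiv ℝ ρ (l • t)).comp (l • ContinuousLinearMap.id ℝ E2)))) t := by
    unfold scl
    refine HasFDerivAt.const_mul (HasFDerivAt.const_mul ?_ _) _
    exact (h.cd.differentiable (by simp) (l • t)).hasFDerivAt.comp t
      ((hasFDerivAt_id t).const_smul l)
  rw [h1.fderiv]
  simp only [scl, _root_.smul_apply, ContinuousLinearMap.comp_apply,
    ContinuousLinearMap.id_apply, map_smul, smul_eq_mul]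
  ring

theorem kb_scl (j : ℕ) {ρ : E2 → ℝ} (h : SmC ρ) : ∃ A : ℝ, 0 ≤ A ∧ ∀ l s : ℝ, 0 < l → 0 ≤ s →
    KB j l (fun t => s * scl l ρ t) (s * A) := by
  have h0 : ∀ {ρ : E2 → ℝ} (l s : ℝ), 0 < l → 0 ≤ s →
      ∫ t, ‖s * scl l ρ t‖ = s * ∫ t, ‖ρ t‖ := fun {ρ} l s hl hs => by
    rw [← integral_scl (fun t => ‖ρ t‖) hl, ← integral_const_mul]
    refine integral_congr_ae (Eventually.of_forall fun t => ?_)
    simp only [scl, norm_mul, Real.norm_eq_abs, abs_of_nonneg hs, abs_pow, abs_of_pos hl]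
  induction j generalizing ρ with
  | zero =>
    exact ⟨∫ t, ‖ρ t‖, integral_nonneg fun t => norm_nonneg _, fun l s hl hs => (h0 l s hl hs).le⟩
  | succ j ih =>
    choose A hA0 hA using fun u => ih (h.zv u)
    have hI : 0 ≤ ∫ t, ‖ρ t‖ := integral_nonneg fun t => norm_nonneg _
    have hS : 0 ≤ ∑ u, A u := Finset.sum_nonneg fun u _ => hA0 u
    refine ⟨(∫ t, ‖ρ t‖) + ∑ u, A u, by positivity, fun l s hl hs => ⟨?_, fun u => ?_⟩⟩
    · rw [h0 l s hl hs]
      exact mul_le_mul_of_nonneg_left (le_add_of_nonneg_right hS) hs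
    · rw [zv_scl h]
      refine (hA u l (s * l) hl (by positivity)).mono hl.le ?_
      have : A u ≤ ∑ u, A u := Finset.single_le_sum (fun u _ => hA0 u) (Finset.mem_univ u)
      calc s * l * A u ≤ s * l * ((∫ t, ‖ρ t‖) + ∑ u, A u) :=
            mul_le_mul_of_nonneg_left (by linarith) (by positivity)
        _ = _ := by ring

theorem norm_fderiv_le_two {Θ : E2 → ℝ} {c : ℝ} {y : E2} (h : ∀ u, ‖Zv (V0 u) Θ y‖ ≤ c) :
    ‖fderiv ℝ Θ y‖ ≤ 2 * c := by
  have hc : 0 ≤ c := (norm_nonneg _).trans (h 0)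
  refine opNorm_le_bound _ (by positivity) fun v => ?_
  have e : v = ∑ u, v u • (EuclideanSpace.single u 1 : E2) := by
    ext i
    fin_cases i <;> simp
  have e2 : fderiv ℝ Θ y v = v 0 • fderiv ℝ Θ y (EuclideanSpace.single 0 1) +
      v 1 • fderiv ℝ Θ y (EuclideanSpace.single 1 1) := by
    conv_lhs => rw [e]
    rw [map_sum, Fin.sum_univ_two, map_smul, map_smul]
  rw [e2]
  simp only [zv0_eq] at h
  have h0 := h 0
  have h1 := h 1
  have v0 : ‖v 0‖ ≤ ‖v‖ := PiLp.norm_apply_le v 0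
  have v1 : ‖v 1‖ ≤ ‖v‖ := PiLp.norm_apply_le v 1
  refine (norm_add_le _ _).trans ?_
  rw [norm_smul, norm_smul]
  have := mul_le_mul v0 h0 (norm_nonneg _) (norm_nonneg _)
  have := mul_le_mul v1 h1 (norm_nonneg _) (norm_nonneg _)
  linarith

theorem cnv_near {j : ℕ} {r c : ℝ} (hr : 0 ≤ r) {k Θ : E2 → ℝ} (hk : SmC k) (hΘ : SmC Θ)
    (hs : Function.support k ⊆ Metric.ball 0 r) (h0 : ∀ t, 0 ≤ k t) (h1 : ∫ t, k t = 1)
    (h : Bd V0 (j + 1) 1 Θ c) : Bd V0 j 1 (fun y => Θ y - cnv k Θ y) (2 * c * r) := by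
  have base : ∀ {Θ : E2 → ℝ} {j : ℕ}, SmC Θ → Bd V0 (j + 1) 1 Θ c → ∀ y,
      ‖Θ y - cnv k Θ y‖ ≤ 2 * c * r := fun {Θ j} hΘ h y => by
    have hc : 0 ≤ c := h.nonneg 0
    rw [norm_sub_rev, ← dist_eq_norm]
    refine dist_convolution_le (by positivity) hs h0 h1 hΘ.cd.continuous.aestronglyMeasurable
      fun x hx => ?_
    rw [dist_eq_norm]
    refine (convex_univ.norm_image_sub_le_of_norm_fderiv_le (𝕜 := ℝ) (C := 2 * c)
      (fun z _ => hΘ.cd.differentiable (by simp) z) (fun z _ => norm_fderiv_le_two fun u => ?_)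
      (mem_univ y) (mem_univ x)).trans ?_
    · simpa using (h.zv u).sup z
    · refine mul_le_mul_of_nonneg_left ?_ (by positivity)
      rw [← dist_eq_norm]
      exact (Metric.mem_ball.1 hx).le
  induction j generalizing Θ with
  | zero => exact base hΘ h
  | succ j ih =>
    refine ⟨base hΘ h, fun u => ?_⟩
    have e : Zv (V0 u) (fun y => Θ y - cnv k Θ y) =
        fun y => Zv (V0 u) Θ y - cnv k (Zv (V0 u) Θ) y := by
      rw [← cnv_zv_right hk hΘ]
      funext y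
      exact dd_sub (hΘ.sm.df y) ((hk.cnv_sm hΘ).df y) _
    rw [e, one_mul]
    have h2 := h.zv u
    rw [one_mul] at h2
    exact ih (hΘ.zv u) h2

/-- mollifiers of the plane -/
theorem exists_mol : ∃ (Mo : ℝ → (E2 → ℝ) → E2 → ℝ) (A : ℕ → ℝ), (∀ j, 0 ≤ A j) ∧
    ∀ l : ℝ, 1 ≤ l → ∀ Θ, SmC Θ → Sm (Mo l Θ) ∧ ∀ (j : ℕ) (c : ℝ),
      (∀ i ≤ j, Bd V0 i 1 Θ c → Bd V0 j 1 (Mo l Θ) (A j * l ^ (j - i) * c)) ∧
      (Bd V0 (j + 1) 1 Θ c → Bd V0 j 1 (fun y => Θ y - Mo l Θ y) (2 * c / l)) := by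
  let φ : ContDiffBump (0 : E2) := ⟨1 / 2, 1, by norm_num, by norm_num⟩
  have hρ : SmC (φ.normed volume) := ⟨sm_plane.2 φ.contDiff_normed, φ.hasCompactSupport_normed⟩
  choose A hA0 hA using fun j => kb_scl j hρ
  refine ⟨fun l Θ => cnv (fun t => 1 * scl l (φ.normed volume) t) Θ, A, hA0, fun l hl Θ hΘ => ?_⟩
  have hl0 : 0 < l := by linarith
  have hk := hρ.scl hl0 1
  refine ⟨hk.cnv_sm hΘ, fun j c => ⟨fun i hij h => ?_, fun h => ?_⟩⟩
  · have := cnv_bd hij hl hk hΘ (hA j l 1 hl0 zero_le_one) h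
    rwa [one_mul] at this
  · rw [div_eq_mul_inv]
    refine cnv_near (by positivity) hk hΘ (fun t ht => ?_) (fun t => ?_) ?_ h
    · have h2 : l • t ∈ Function.support (φ.normed volume) := by
        intro h0
        exact ht (by simp [scl, h0])
      rw [φ.support_normed_eq, mem_ball_zero_iff, norm_smul, Real.norm_eq_abs, abs_of_pos hl0] at h2
      rw [mem_ball_zero_iff, ← one_div, lt_div_iff₀ hl0, mul_comm]
      exact h2
    · have := φ.nonneg_normed (μ := volume) (l • t)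
      unfold scl
      positivity
    · simp only [one_mul]
      rw [integral_scl _ hl0, φ.integral_normed]

/-- termwise differentiation -/
theorem plane_tsum {w : ℕ → E2 → ℝ} (hw : ∀ k, Sm (w k))
    (h : ∀ j : ℕ, ∃ c : ℕ → ℝ, Summable c ∧ ∀ k, Bd V0 j 1 (w k) (c k)) :
    Differentiable ℝ (fun y => ∑' k, w k y) ∧ ∀ u y,
      HasSum (fun k => Zv (V0 u) (w k) y) (Zv (V0 u) (fun y => ∑' k, w k y) y) := by
  obtain ⟨c, hc, hb⟩ := h 1
  have hd : ∀ k y, HasFDerivAt (w k) (fderiv ℝ (w k) y) y := fun k y =>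
    ((sm_plane.1 (hw k)).differentiable (by simp) y).hasFDerivAt
  have hn : ∀ k y, ‖fderiv ℝ (w k) y‖ ≤ 2 * c k := fun k y =>
    norm_fderiv_le_two fun u => by simpa using ((hb k).zv u).sup y
  have h0 : Summable fun k => w k 0 := Summable.of_norm_bounded hc fun k => (hb k).sup 0
  have H := fun y => hasFDerivAt_tsum (hc.mul_left 2) hd hn h0 y
  refine ⟨fun y => (H y).differentiableAt, fun u y => ?_⟩
  simp only [zv0_eq]
  rw [(H y).fderiv]
  have hs : Summable fun k => fderiv ℝ (w k) y :=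
    Summable.of_norm_bounded (hc.mul_left 2) fun k => hn k y
  exact (ContinuousLinearMap.apply ℝ ℝ (EuclideanSpace.single u 1 : E2)).hasSum hs.hasSum

theorem plane_tsum_sm {w : ℕ → E2 → ℝ} (hw : ∀ k, Sm (w k))
    (h : ∀ j : ℕ, ∃ c : ℕ → ℝ, Summable c ∧ ∀ k, Bd V0 j 1 (w k) (c k)) :
    Sm fun y => ∑' k, w k y := by
  rw [sm_plane, contDiff_infty]
  intro n
  induction n generalizing w with
  | zero => simpa using (plane_tsum hw h).1.continuous
  | succ n ih =>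
    obtain ⟨hd, hs⟩ := plane_tsum hw h
    rw [Nat.cast_succ, contDiff_succ_iff_fderiv_apply]
    refine ⟨hd, by simp, fun v => ?_⟩
    have e : (fun y => fderiv ℝ (fun y => ∑' k, w k y) y v) =
        fun y => ∑ u, v u * ∑' k, Zv (V0 u) (w k) y := by
      funext y
      have e : v = ∑ u, v u • (EuclideanSpace.single u 1 : E2) := by
        ext i
        fin_cases i <;> simp
      conv_lhs => rw [e]
      simp only [map_sum, map_smul, smul_eq_mul]
      refine Finset.sum_congr rfl fun u _ => ?_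
      rw [(hs u y).tsum_eq, zv0_eq]
    rw [e]
    refine ContDiff.sum fun u _ => contDiff_const.mul (ih (fun k => (hw k).zv (smV_V0 u)) fun j => ?_)
    obtain ⟨c, hc, hb⟩ := h (j + 1)
    exact ⟨c, hc, fun k => by simpa using (hb k).zv u⟩

end Crest.Agent.R216
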