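import Crest.Agent.R216.BdL
/-! # R216: calculus of bounded families `Cl` (all proofs: unfold, use `BdL`, `filter_upwards`) -/

set_option autoImplicit false
set_option linter.unusedSectionVars false
set_option linter.unusedVariables false
open scoped Manifold ContDiff Topology Matrix
open Set Filter

namespace Crest.Agent.R216
universe u
variable {M : Type u} [TopologicalSpace M] [ChartedSpace E2 M] [IsManifold (𝓡 2) ∞ M]
variable {F F' F'' : Type} [NormedAddCommGroup F] [NormedSpace ℝ F] [NormedAddCommGroup F']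
  [NormedSpace ℝ F'] [NormedAddCommGroup F''] [NormedSpace ℝ F'']
variable {ι : Type} {V : ι → M → E2} {τ : Type*} {𝓕 : Filter τ} {lam w w' : τ → ℝ}

/-- the standing hypotheses of the class calculus -/
structure Ctx (V : ι → M → E2) (𝓕 : Filter τ) (lam : τ → ℝ) : Prop where
  sm : ∀ a, SmV (V a)
  one_le : ∀ᶠ t in 𝓕, 1 ≤ lam t

omit [IsManifold (𝓡 2) ∞ M] in
theorem cll_bound {α : Type} [Finite α] (c : α → ℝ) (c₀ : ℝ) :
    ∃ C, 0 ≤ C ∧ c₀ ≤ C ∧ ∀ a, c a ≤ C := by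
  obtain ⟨B, hB⟩ := (Set.finite_range c).bddAbove
  exact ⟨max (max B c₀) 0, le_max_right _ _, le_max_of_le_left (le_max_right _ _),
    fun a => le_max_of_le_left (le_max_of_le_left (hB ⟨a, rfl⟩))⟩

theorem Ctx.nonneg (H : Ctx V 𝓕 lam) : ∀ᶠ t in 𝓕, 0 ≤ lam t :=
  H.one_le.mono fun _ h => zero_le_one.trans h

theorem cll_iter (j : ℕ) :
    iteratedDeriv j (fun y : ℝ => Complex.exp (Complex.I * y)) =
      fun y : ℝ => Complex.I ^ j * Complex.exp (Complex.I * y) := by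
  induction j with
  | zero => simp
  | succ j ih =>
    rw [iteratedDeriv_succ, ih]
    funext y
    have h1 : HasDerivAt (fun y : ℝ => (y : ℂ)) 1 y := Complex.ofRealCLM.hasDerivAt
    have h2 := ((h1.const_mul Complex.I).cexp).const_mul (Complex.I ^ j)
    rw [h2.deriv]
    ring

namespace Cl
variable (H : Ctx V 𝓕 lam)
include H

theorem congr {f g : τ → M → F} (h : Cl V 𝓕 lam w f) (e : ∀ᶠ t in 𝓕, f t = g t) :
    Cl V 𝓕 lam w g := by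
  refine ⟨?_, fun k => ?_⟩
  · filter_upwards [h.1, e] with t h1 h2
    exact h2 ▸ h1
  · obtain ⟨c, hc⟩ := h.2 k
    refine ⟨c, ?_⟩
    filter_upwards [hc, e] with t h1 h2
    exact h2 ▸ h1

/-- change of weight (`K` is a constant) -/
theorem weight {f : τ → M → F} (h : Cl V 𝓕 lam w f) (K : ℝ)
    (e : ∀ᶠ t in 𝓕, 0 ≤ w t ∧ w t ≤ K * w' t) : Cl V 𝓕 lam w' f := by
  refine ⟨h.1, fun k => ?_⟩
  obtain ⟨c, hc⟩ := h.2 k
  refine ⟨|c| * K, ?_⟩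
  filter_upwards [hc, e, H.nonneg] with t h1 h2 h3
  refine h1.mono h3 ?_
  rw [mul_assoc]
  exact (mul_le_mul_of_nonneg_right (le_abs_self c) h2.1).trans
    (mul_le_mul_of_nonneg_left h2.2 (abs_nonneg c))

theorem scale {lam' : τ → ℝ} {f : τ → M → F} (h : Cl V 𝓕 lam w f)
    (e : ∀ᶠ t in 𝓕, lam t ≤ lam' t) : Cl V 𝓕 lam' w f := by
  refine ⟨h.1, fun k => ?_⟩
  obtain ⟨c, hc⟩ := h.2 k
  refine ⟨c, ?_⟩
  filter_upwards [hc, e, H.nonneg] with t h1 h2 h3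
  exact h1.mono_l h3 h2

theorem sup {f : τ → M → F} (h : Cl V 𝓕 lam w f) :
    ∃ c, 0 ≤ c ∧ ∀ᶠ t in 𝓕, ∀ p, ‖f t p‖ ≤ c * |w t| := by
  obtain ⟨c, hc⟩ := h.2 0
  refine ⟨|c|, abs_nonneg c, ?_⟩
  filter_upwards [hc] with t h1 p
  rw [← abs_mul]
  exact (h1.sup p).trans (le_abs_self _)

theorem zv {f : τ → M → F} (h : Cl V 𝓕 lam w f) (a : ι) :
    Cl V 𝓕 lam (fun t => lam t * w t) fun t => Zv (V a) (f t) := by
  refine ⟨h.1.mono fun t ht => ht.zv (H.sm a), fun k => ?_⟩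
  obtain ⟨c, hc⟩ := h.2 (k + 1)
  refine ⟨c, ?_⟩
  filter_upwards [hc] with t h1
  have h2 := h1.zv a
  rwa [mul_left_comm] at h2

theorem of_sup_zv [Finite ι] {f : τ → M → F} (hs : ∀ᶠ t in 𝓕, Sm (f t))
    (hw : ∀ᶠ t in 𝓕, 0 ≤ w t) (h0 : ∃ c, ∀ᶠ t in 𝓕, ∀ p, ‖f t p‖ ≤ c * w t)
    (h : ∀ a, Cl V 𝓕 lam (fun t => lam t * w t) fun t => Zv (V a) (f t)) :
    Cl V 𝓕 lam w f := by
  refine ⟨hs, fun k => ?_⟩
  obtain ⟨c₀, h0⟩ := h0
  cases k with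
  | zero => exact ⟨c₀, h0⟩
  | succ k =>
    choose c hc using fun a => (h a).2 k
    obtain ⟨C, -, hC1, hC2⟩ := cll_bound c c₀
    refine ⟨C, ?_⟩
    filter_upwards [h0, hw, eventually_all.2 hc, H.nonneg] with t h1 h2 h3 h4
    refine ⟨fun p => (h1 p).trans (mul_le_mul_of_nonneg_right hC1 h2), fun a =>
      (h3 a).mono h4 ?_⟩
    rw [mul_left_comm (lam t)]
    exact mul_le_mul_of_nonneg_right (hC2 a) (mul_nonneg h4 h2)

theorem fixed {f : M → F} (hf : Sm f) (h : ∀ k, ∃ c, Bd V k 1 f c) :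
    Cl V 𝓕 lam (fun _ => 1) fun _ => f := by
  refine ⟨Eventually.of_forall fun _ => hf, fun k => ?_⟩
  obtain ⟨c, hc⟩ := h k
  refine ⟨c, ?_⟩
  filter_upwards [H.one_le] with t h1
  rw [mul_one]
  exact hc.mono_l zero_le_one h1

theorem fixed' [CompactSpace M] [Finite ι] {f : M → F} (hf : Sm f) :
    Cl V 𝓕 lam (fun _ => 1) fun _ => f := by
  exact fixed H hf (Bd.of_compact H.sm hf)

theorem const {c : τ → F} (h : ∀ᶠ t in 𝓕, ‖c t‖ ≤ w t) : Cl V 𝓕 lam w fun t _ => c t := by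
  refine ⟨Eventually.of_forall fun t => sm_const _, fun k => ⟨1, ?_⟩⟩
  filter_upwards [h, H.nonneg] with t h1 h2
  exact (Bd.const k h2 (c t)).mono h2 (by rwa [one_mul])

theorem zero : Cl V 𝓕 lam w fun _ _ => (0 : F) := by
  refine ⟨Eventually.of_forall fun t => sm_const _, fun k => ⟨0, ?_⟩⟩
  filter_upwards [H.nonneg] with t h2
  exact (Bd.const k h2 (0 : F)).mono h2 (by simp)

theorem add {f g : τ → M → F} (h : Cl V 𝓕 lam w f) (h' : Cl V 𝓕 lam w g) :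
    Cl V 𝓕 lam w fun t p => f t p + g t p := by
  refine ⟨(h.1.and h'.1).mono fun t ht => ht.1.add' ht.2, fun k => ?_⟩
  obtain ⟨c, hc⟩ := h.2 k
  obtain ⟨c', hc'⟩ := h'.2 k
  refine ⟨c + c', ?_⟩
  filter_upwards [h.1, h'.1, hc, hc'] with t h1 h2 h3 h4
  rw [add_mul]
  exact Bd.add H.sm h1 h2 h3 h4

theorem sub {f g : τ → M → F} (h : Cl V 𝓕 lam w f) (h' : Cl V 𝓕 lam w g) :
    Cl V 𝓕 lam w fun t p => f t p - g t p := by
  refine ⟨(h.1.and h'.1).mono fun t ht => ht.1.sub' ht.2, fun k => ?_⟩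
  obtain ⟨c, hc⟩ := h.2 k
  obtain ⟨c', hc'⟩ := h'.2 k
  refine ⟨c + c', ?_⟩
  filter_upwards [h.1, h'.1, hc, hc'] with t h1 h2 h3 h4
  rw [add_mul]
  exact Bd.sub H.sm h1 h2 h3 h4

theorem neg {f : τ → M → F} (h : Cl V 𝓕 lam w f) : Cl V 𝓕 lam w fun t p => -f t p := by
  refine ⟨h.1.mono fun t ht => ht.neg', fun k => ?_⟩
  obtain ⟨c, hc⟩ := h.2 k
  exact ⟨c, hc.mono fun t ht => ht.neg⟩

theorem sum {α : Type*} (s : Finset α) {f : α → τ → M → F} (h : ∀ i ∈ s, Cl V 𝓕 lam w (f i)) :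
    Cl V 𝓕 lam w fun t p => ∑ i ∈ s, f i t p := by
  classical
  induction s using Finset.induction_on with
  | empty => simpa using zero H
  | insert i s hi ih =>
    simp only [Finset.sum_insert hi]
    exact add H (h i (Finset.mem_insert_self i s))
      (ih fun j hj => h j (Finset.mem_insert_of_mem hj))

theorem clm (L : F →L[ℝ] F') {f : τ → M → F} (h : Cl V 𝓕 lam w f) :
    Cl V 𝓕 lam w fun t p => L (f t p) := by
  refine ⟨h.1.mono fun t ht => ht.clm L, fun k => ?_⟩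
  obtain ⟨c, hc⟩ := h.2 k
  refine ⟨‖L‖ * c, ?_⟩
  filter_upwards [h.1, hc] with t h1 h3
  rw [mul_assoc]
  exact Bd.clm H.sm L h1 h3

theorem bilin (L : F →L[ℝ] F' →L[ℝ] F'') {f : τ → M → F} {g : τ → M → F'} (h : Cl V 𝓕 lam w f)
    (h' : Cl V 𝓕 lam w' g) : Cl V 𝓕 lam (fun t => w t * w' t) fun t p => L (f t p) (g t p) := by
  refine ⟨(h.1.and h'.1).mono fun t ht => ht.1.bilin L ht.2, fun k => ?_⟩
  obtain ⟨c, hc⟩ := h.2 k
  obtain ⟨c', hc'⟩ := h'.2 k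
  refine ⟨2 ^ k * ‖L‖ * c * c', ?_⟩
  filter_upwards [h.1, h'.1, hc, hc', H.nonneg] with t h1 h2 h3 h4 h5
  exact (Bd.bilin H.sm L h5 h1 h2 h3 h4).mono h5 (le_of_eq (by ring))

theorem smul {a : τ → M → ℝ} {f : τ → M → F} (h : Cl V 𝓕 lam w a) (h' : Cl V 𝓕 lam w' f) :
    Cl V 𝓕 lam (fun t => w t * w' t) fun t p => a t p • f t p := by
  refine ⟨(h.1.and h'.1).mono fun t ht => ht.1.smul' ht.2, fun k => ?_⟩
  obtain ⟨c, hc⟩ := h.2 k
  obtain ⟨c', hc'⟩ := h'.2 k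
  refine ⟨2 ^ k * c * c', ?_⟩
  filter_upwards [h.1, h'.1, hc, hc', H.nonneg] with t h1 h2 h3 h4 h5
  exact (Bd.smul H.sm h5 h1 h2 h3 h4).mono h5 (le_of_eq (by ring))

theorem csmul [NormedSpace ℂ F] [IsScalarTower ℝ ℂ F] {a : τ → M → ℂ} {f : τ → M → F}
    (h : Cl V 𝓕 lam w a) (h' : Cl V 𝓕 lam w' f) :
    Cl V 𝓕 lam (fun t => w t * w' t) fun t p => a t p • f t p := by
  exact bilin H (ContinuousLinearMap.lsmul ℝ ℂ : ℂ →L[ℝ] F →L[ℝ] F) h h'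

theorem mul {A : Type} [NormedRing A] [NormedAlgebra ℝ A] {f g : τ → M → A} (h : Cl V 𝓕 lam w f)
    (h' : Cl V 𝓕 lam w' g) : Cl V 𝓕 lam (fun t => w t * w' t) fun t p => f t p * g t p := by
  refine ⟨(h.1.and h'.1).mono fun t ht => ht.1.mul' ht.2, fun k => ?_⟩
  obtain ⟨c, hc⟩ := h.2 k
  obtain ⟨c', hc'⟩ := h'.2 k
  refine ⟨2 ^ k * c * c', ?_⟩
  filter_upwards [h.1, h'.1, hc, hc', H.nonneg] with t h1 h2 h3 h4 h5
  exact (Bd.mul H.sm h5 h1 h2 h3 h4).mono h5 (le_of_eq (by ring))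

theorem dot {α : Type} [Fintype α] {A : Type} [NormedCommRing A] [NormedAlgebra ℝ A]
    {f g : τ → M → α → A} (h : Cl V 𝓕 lam w f) (h' : Cl V 𝓕 lam w' g) :
    Cl V 𝓕 lam (fun t => w t * w' t) fun t p => f t p ⬝ᵥ g t p := by
  refine ⟨(h.1.and h'.1).mono fun t ht => ht.1.dot ht.2, fun k => ?_⟩
  obtain ⟨c, hc⟩ := h.2 k
  obtain ⟨c', hc'⟩ := h'.2 k
  refine ⟨Fintype.card α * (2 ^ k * c * c'), ?_⟩
  filter_upwards [h.1, h'.1, hc, hc', H.nonneg] with t h1 h2 h3 h4 h5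
  exact (Bd.dot H.sm h5 h1 h2 h3 h4).mono h5 (le_of_eq (by ring))

theorem pi {α : Type} [Fintype α] {f : τ → M → α → F} (hw : ∀ᶠ t in 𝓕, 0 ≤ w t)
    (h : ∀ i, Cl V 𝓕 lam w fun t p => f t p i) : Cl V 𝓕 lam w f := by
  have hs : ∀ᶠ t in 𝓕, Sm (f t) :=
    (eventually_all.2 fun i => (h i).1).mono fun t ht => sm_pi.2 ht
  refine ⟨hs, fun k => ?_⟩
  choose c hc using fun i => (h i).2 k
  obtain ⟨C, hC0, -, hC2⟩ := cll_bound c 0
  refine ⟨C, ?_⟩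
  filter_upwards [hs, hw, eventually_all.2 hc, H.nonneg] with t h1 h2 h3 h4
  exact Bd.pi H.sm h4 (mul_nonneg hC0 h2) h1 fun i =>
    (h3 i).mono h4 (mul_le_mul_of_nonneg_right (hC2 i) h2)

theorem apply {α : Type} [Fintype α] {f : τ → M → α → F} (h : Cl V 𝓕 lam w f) (i : α) :
    Cl V 𝓕 lam w fun t p => f t p i := by
  refine ⟨h.1.mono fun t ht => sm_pi.1 ht i, fun k => ?_⟩
  obtain ⟨c, hc⟩ := h.2 k
  refine ⟨c, ?_⟩
  filter_upwards [h.1, hc] with t h1 h3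
  exact Bd.apply H.sm h1 h3 i

theorem prod {f : τ → M → F} {g : τ → M → F'} (hw : ∀ᶠ t in 𝓕, 0 ≤ w t) (h : Cl V 𝓕 lam w f)
    (h' : Cl V 𝓕 lam w g) : Cl V 𝓕 lam w fun t p => (f t p, g t p) := by
  refine ⟨(h.1.and h'.1).mono fun t ht => ht.1.prod' ht.2, fun k => ?_⟩
  obtain ⟨c, hc⟩ := h.2 k
  obtain ⟨c', hc'⟩ := h'.2 k
  refine ⟨max c c', ?_⟩
  filter_upwards [h.1, h'.1, hc, hc', H.nonneg, hw] with t h1 h2 h3 h4 h5 h6
  exact Bd.prod H.sm h1 h2 (h3.mono h5 (mul_le_mul_of_nonneg_right (le_max_left _ _) h6))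
    (h4.mono h5 (mul_le_mul_of_nonneg_right (le_max_right _ _) h6))

theorem ofReal {f : τ → M → ℝ} (h : Cl V 𝓕 lam w f) : Cl V 𝓕 lam w fun t p => (f t p : ℂ) := by
  exact clm H Complex.ofRealCLM h

theorem comp [FiniteDimensional ℝ F] {Φ : F → F'} (hΦ : ContDiff ℝ ∞ Φ) {f : τ → M → F}
    (h : Cl V 𝓕 lam (fun _ => 1) f) : Cl V 𝓕 lam (fun _ => 1) fun t p => Φ (f t p) := by
  refine ⟨h.1.mono fun t ht => ht.comp' hΦ, fun k => ?_⟩
  obtain ⟨c, hc⟩ := h.2 k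
  obtain ⟨C, hC⟩ := bd_comp (M := M) (ι := ι) hΦ k (c * 1)
  refine ⟨C, ?_⟩
  filter_upwards [h.1, hc, H.nonneg] with t h1 h2 h3
  rw [mul_one]
  exact hC V H.sm _ _ h3 h1 h2

theorem comp_sub [FiniteDimensional ℝ F] {Φ : F → F'} (hΦ : ContDiff ℝ ∞ Φ) {f g : τ → M → F}
    (h : Cl V 𝓕 lam (fun _ => 1) f) (h' : Cl V 𝓕 lam (fun _ => 1) g)
    (hd : Cl V 𝓕 lam w fun t p => f t p - g t p) :
    Cl V 𝓕 lam w fun t p => Φ (f t p) - Φ (g t p) := by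
  refine ⟨(h.1.and h'.1).mono fun t ht => (ht.1.comp' hΦ).sub' (ht.2.comp' hΦ), fun k => ?_⟩
  obtain ⟨c, hc⟩ := h.2 k
  obtain ⟨c', hc'⟩ := h'.2 k
  obtain ⟨e, he⟩ := hd.2 k
  obtain ⟨C, hC⟩ := bd_comp_sub (M := M) (ι := ι) hΦ k (max (c * 1) (c' * 1))
  refine ⟨C * e, ?_⟩
  filter_upwards [h.1, h'.1, hc, hc', he, H.nonneg] with t h1 h2 h3 h4 h5 h6
  rw [mul_assoc]
  exact hC V H.sm _ _ _ _ h6 h1 h2 (h3.mono h6 (le_max_left _ _)) (h4.mono h6 (le_max_right _ _)) h5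

theorem comp_bdd [Finite ι] {Φ : F → F'} (hΦ : ContDiff ℝ ∞ Φ)
    (hb : ∀ j, ∃ c, ∀ y, ‖iteratedFDeriv ℝ j Φ y‖ ≤ c) {f : τ → M → F}
    (hs : ∀ᶠ t in 𝓕, Sm (f t)) (h : ∀ a, Cl V 𝓕 lam lam fun t => Zv (V a) (f t)) :
    Cl V 𝓕 lam (fun _ => 1) fun t p => Φ (f t p) := by
  refine ⟨hs.mono fun t ht => ht.comp' hΦ, fun k => ?_⟩
  choose c hc using fun a => (h a).2 k
  obtain ⟨B, -, -, hB⟩ := cll_bound c 0
  obtain ⟨C, hC⟩ := bd_comp_bdd (M := M) (ι := ι) hΦ hb k B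
  refine ⟨C, ?_⟩
  filter_upwards [hs, eventually_all.2 hc, H.nonneg] with t h1 h2 h3
  rw [mul_one]
  exact hC V H.sm _ _ h3 h1 fun a => (h2 a).mono h3 (mul_le_mul_of_nonneg_right (hB a) h3)

/-- oscillating factors `exp (i θ)` with `Z θ = O(lam)` -/
theorem expI [Finite ι] {θ : τ → M → ℝ} (hs : ∀ᶠ t in 𝓕, Sm (θ t))
    (h : ∀ a, Cl V 𝓕 lam lam fun t => Zv (V a) (θ t)) :
    Cl V 𝓕 lam (fun _ => 1) fun t p => Complex.exp (Complex.I * θ t p) := by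
  have h1 : ContDiff ℝ ∞ fun y : ℝ => Complex.exp (Complex.I * y) :=
    (Complex.contDiff_exp (𝕜 := ℝ)).comp (contDiff_const.mul Complex.ofRealCLM.contDiff)
  refine comp_bdd H h1 (fun j => ⟨1, fun y => ?_⟩) hs h
  rw [norm_iteratedFDeriv_eq_norm_iteratedDeriv, cll_iter]
  simp only [norm_mul, norm_pow, Complex.norm_I, one_pow, one_mul]
  rw [mul_comm, Complex.norm_exp_ofReal_mul_I]

end Cl

theorem Cl.filter_mono {𝓖 : Filter τ} {f : τ → M → F} (h : Cl V 𝓕 lam w f) (e : 𝓖 ≤ 𝓕) :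
    Cl V 𝓖 lam w f := by
  refine ⟨h.1.filter_mono e, fun k => ?_⟩
  obtain ⟨c, hc⟩ := h.2 k
  exact ⟨c, hc.filter_mono e⟩

/-- reindexing -/
theorem Cl.comap {τ' : Type*} {𝓖 : Filter τ'} {φ : τ' → τ} (hφ : Tendsto φ 𝓖 𝓕) {f : τ → M → F}
    (h : Cl V 𝓕 lam w f) : Cl V 𝓖 (fun t => lam (φ t)) (fun t => w (φ t)) fun t => f (φ t) := by
  refine ⟨hφ.eventually h.1, fun k => ?_⟩
  obtain ⟨c, hc⟩ := h.2 k
  exact ⟨c, hφ.eventually hc⟩

/-- Two-level families (outer parameter `d`, then `ε → 0⁺`, scale `1/ε`): a uniform `sup` bound and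
non-uniform bounds of weight `1` (instead of `1/ε`) for the derivatives give uniform bounds. -/
theorem Cl.semislow [Finite ι] (hV : ∀ a, SmV (V a)) {D : Type*} {𝓓 : Filter D}
    {f : D × ℝ → M → F} (hs : ∀ᶠ t in 𝓓.curry (𝓝[>] 0), Sm (f t))
    (h0 : ∃ c, ∀ᶠ t in 𝓓.curry (𝓝[>] 0), ∀ p, ‖f t p‖ ≤ c)
    (h : ∀ᶠ d in 𝓓, ∀ a, Cl V (𝓝[>] 0) (fun e => e⁻¹) (fun _ => 1) fun e => Zv (V a) (f (d, e))) :
    Cl V (𝓓.curry (𝓝[>] 0)) (fun t => t.2⁻¹) (fun _ => 1) f := by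
  refine ⟨hs, fun k => ?_⟩
  obtain ⟨c₀, h0⟩ := h0
  cases k with
  | zero => exact ⟨c₀, h0.mono fun t ht => by rw [mul_one]; exact ht⟩
  | succ k =>
    refine ⟨max c₀ 1, ?_⟩
    rw [eventually_curry_iff] at h0 ⊢
    filter_upwards [h0, h] with d h1 h2
    choose c hc using fun a => (h2 a).2 k
    obtain ⟨B, -, -, hB⟩ := cll_bound c 0
    filter_upwards [h1, eventually_all.2 hc, tendsto_inv_nhdsGT_zero.eventually_ge_atTop B,
      tendsto_inv_nhdsGT_zero.eventually_ge_atTop (0 : ℝ)] with e h3 h4 h5 h6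
    rw [mul_one]
    refine ⟨fun p => (h3 p).trans (le_max_left _ _), fun a => (h4 a).mono h6 ?_⟩
    rw [mul_one]
    exact ((hB a).trans h5).trans (le_mul_of_one_le_right h6 (le_max_right _ _))

end Crest.Agent.R216
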