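import Crest.Agent.R216.Hat
/-! # R216: creasing the folded model -/

set_option autoImplicit false
open scoped Manifold ContDiff Topology Matrix
open Set Filter

namespace Crest.Agent.R216

variable (P : Prof)

/-- the folding map for a crease of width `e Y` -/
noncomputable def fold (e : ℝ → ℝ) (z : E2) : E2 := !₂[e (z 1) * P.G2 (z 0 / e (z 1)), z 1]

/-- the creased map -/
noncomputable def Cr (e : ℝ → ℝ) (Φ N : E2 → Fin 3 → ℝ) (z : E2) : Fin 3 → ℝ :=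
  Φ (fold P e z) + (e (z 1) * P.G1 (z 0 / e (z 1))) • N (fold P e z)

variable {e : ℝ → ℝ} (he : ContDiff ℝ ∞ e) (he0 : ∀ y, 0 < e y)
include he he0

theorem cra_sm {G : ℝ → ℝ} (hG : ContDiff ℝ ∞ G) :
    Sm fun z : E2 => e (z 1) * G (z 0 / e (z 1)) := by
  have h0 := sm_plane.1 (Cut.profb_sm 0)
  have h1 := he.comp (sm_plane.1 (Cut.profb_sm 1))
  exact sm_plane.2 (h1.mul (hG.comp (h0.div h1 fun z => (he0 _).ne')))

theorem cra_dd {G g : ℝ → ℝ} (hG : ∀ t, HasDerivAt G (g t) t) (z v : E2) :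
    dd (fun z : E2 => e (z 1) * G (z 0 / e (z 1))) z v = v 0 * g (z 0 / e (z 1)) +
      v 1 * (deriv e (z 1) * (G (z 0 / e (z 1)) - z 0 / e (z 1) * g (z 0 / e (z 1)))) := by
  have hd : HasDerivAt e (deriv e (z 1)) (z 1) := (Cut.profb_diff he _).hasDerivAt
  have hne := (he0 (z 1)).ne'
  have h1 : Df (fun z : E2 => e (z 1)) z := ((Cut.profb_sm 1).comp' he).df z
  have h2 : Df (fun z : E2 => (e (z 1))⁻¹) z :=
    basa_df_comp (Φ := fun y => (e y)⁻¹) (hd.inv hne).differentiableAt ((Cut.profb_sm 1).df z)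
  have h3 : Df (fun z : E2 => z 0 / e (z 1)) z := by
    simpa only [div_eq_mul_inv] using!
      basa_df_bilin (ContinuousLinearMap.mul ℝ ℝ) ((Cut.profb_sm 0).df z) h2
  have h4 : dd (fun z : E2 => z 0 / e (z 1)) z v =
      z 0 * (v 1 * (-deriv e (z 1) / e (z 1) ^ 2)) + v 0 * (e (z 1))⁻¹ := by
    simp only [div_eq_mul_inv (_ : ℝ) (e _)]
    rw [dd_mul ((Cut.profb_sm 0).df z) h2, Cut.profb_dd,
      dd_comp_deriv (f := fun z : E2 => z 1) (Φ := fun y => (e y)⁻¹) (hd.inv hne)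
        ((Cut.profb_sm 1).df z), Cut.profb_dd, smul_eq_mul]
  rw [dd_mul h1 (basa_df_comp (hG _).differentiableAt h3), dd_comp_deriv (hG _) h3, h4,
    dd_comp_deriv (f := fun z : E2 => z 1) hd ((Cut.profb_sm 1).df z), Cut.profb_dd]
  simp only [smul_eq_mul]
  field_simp
  ring

theorem fold_sm : Sm (fold P e) := by
  refine sm_plane.2 (contDiff_euclidean.2 fun i => ?_)
  fin_cases i
  · exact sm_plane.1 (cra_sm he he0 P.G2_sm)
  · exact sm_plane.1 (Cut.profb_sm 1)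

theorem cra_dd_fold (z v : E2) : dd (fold P e) z v = !₂[v 0 * P.sn (z 0 / e (z 1)) +
    v 1 * (deriv e (z 1) * (P.G2 (z 0 / e (z 1)) - z 0 / e (z 1) * P.sn (z 0 / e (z 1)))), v 1] := by
  have h : ∀ i, dd (fold P e) z v i = dd (fun q => fold P e q i) z v := fun i =>
    (dd_clm (EuclideanSpace.proj (𝕜 := ℝ) i : E2 →L[ℝ] ℝ) ((fold_sm P he he0).df z) v).symm
  ext i
  rw [h]
  fin_cases i
  · exact cra_dd he he0 P.dG2 z v
  · exact Cut.profb_dd 1 z v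

omit he in
theorem fold_mem (z : E2) : fold P e z 1 = z 1 ∧ 0 ≤ fold P e z 0 ∧ fold P e z 0 ≤ |z 0| ∧
    |z 0| - e (z 1) ≤ fold P e z 0 := by
  have h0 := he0 (z 1)
  have h1 : e (z 1) * |z 0 / e (z 1)| = |z 0| := by
    rw [abs_div, abs_of_pos h0]
    field_simp
  refine ⟨rfl, mul_nonneg h0.le (P.G2_nonneg _), ?_, ?_⟩
  · exact (mul_le_mul_of_nonneg_left (P.G2_le _) h0.le).trans h1.le
  · refine le_trans ?_ (mul_le_mul_of_nonneg_left (P.G2_ge _) h0.le)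
    rw [mul_sub, h1, mul_one]
theorem pX_fold (z : E2) : pX (fold P e) z = !₂[P.sn (z 0 / e (z 1)), 0] := by
  rw [pX, Zv, cra_dd_fold P he he0]
  simp [V0]
theorem pY_fold (z : E2) : pY (fold P e) z =
    !₂[deriv e (z 1) * (P.G2 (z 0 / e (z 1)) - z 0 / e (z 1) * P.sn (z 0 / e (z 1))), 1] := by
  rw [pY, Zv, cra_dd_fold P he he0]
  simp [V0]

theorem cra_pull {F : Type} [NormedAddCommGroup F] [NormedSpace ℝ F] {Θ : E2 → F} (hΘ : Sm Θ)
    (z v : E2) : dd (fun q => Θ (fold P e q)) z v =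
      dd (fold P e) z v 0 • pX Θ (fold P e z) + dd (fold P e) z v 1 • pY Θ (fold P e z) := by
  rw [dd_comp ((sm_plane.1 hΘ).differentiable (by simp) _) ((fold_sm P he he0).df z), ← dd_plane,
    dd_plane_eq]

variable {Φ N : E2 → Fin 3 → ℝ} (hΦ : Sm Φ) (hN : Sm N)
include hΦ hN

theorem Cr_sm : Sm (Cr P e Φ N) :=
  ((fold_sm P he he0).comp' (sm_plane.1 hΦ)).add'
    ((cra_sm he he0 P.G1_sm).smul' ((fold_sm P he he0).comp' (sm_plane.1 hN)))

theorem cra_dd_Cr (z v : E2) : dd (Cr P e Φ N) z v =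
    dd (fun q => Φ (fold P e q)) z v +
      ((e (z 1) * P.G1 (z 0 / e (z 1))) • dd (fun q => N (fold P e q)) z v +
        dd (fun z : E2 => e (z 1) * P.G1 (z 0 / e (z 1))) z v • N (fold P e z)) := by
  have h1 := (fold_sm P he he0).comp' (sm_plane.1 hΦ)
  have h2 := (fold_sm P he he0).comp' (sm_plane.1 hN)
  have h3 := cra_sm he he0 P.G1_sm
  rw [← dd_smul (h3.df z) (h2.df z), ← dd_add (h1.df z) ((h3.smul' h2).df z)]
  rfl

theorem pX_Cr (z : E2) : pX (Cr P e Φ N) z =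
    P.sn (z 0 / e (z 1)) • pX Φ (fold P e z) + P.cs (z 0 / e (z 1)) • N (fold P e z) +
      (e (z 1) * P.G1 (z 0 / e (z 1)) * P.sn (z 0 / e (z 1))) • pX N (fold P e z) := by
  rw [pX, Zv, cra_dd_Cr P he he0 hΦ hN, cra_pull P he he0 hΦ, cra_pull P he he0 hN,
    cra_dd he he0 P.dG1, cra_dd_fold P he he0]
  simp only [V0, PiLp.single_apply, Matrix.cons_val_zero, Matrix.cons_val_one,
    if_true, one_ne_zero, if_false]
  module

theorem pY_Cr (z : E2) : pY (Cr P e Φ N) z =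
    pY Φ (fold P e z) +
      (deriv e (z 1) * (P.G2 (z 0 / e (z 1)) - z 0 / e (z 1) * P.sn (z 0 / e (z 1)))) •
        pX Φ (fold P e z) +
      (deriv e (z 1) * (P.G1 (z 0 / e (z 1)) - z 0 / e (z 1) * P.cs (z 0 / e (z 1)))) •
        N (fold P e z) +
      (e (z 1) * P.G1 (z 0 / e (z 1))) • (pY N (fold P e z) +
        (deriv e (z 1) * (P.G2 (z 0 / e (z 1)) - z 0 / e (z 1) * P.sn (z 0 / e (z 1)))) •
          pX N (fold P e z)) := by
  rw [pY, Zv, cra_dd_Cr P he he0 hΦ hN, cra_pull P he he0 hΦ, cra_pull P he he0 hN,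
    cra_dd he he0 P.dG1, cra_dd_fold P he he0]
  simp only [V0, PiLp.single_apply, Matrix.cons_val_zero, Matrix.cons_val_one,
    if_true, zero_ne_one, if_false]
  module

omit he he0 hΦ hN in
theorem cra_bd (t : ℝ) : |P.sn t| ≤ 1 ∧ |P.G2 t - t * P.sn t| ≤ 2 ∧ |P.G1 t - t * P.cs t| ≤ 2 := by
  have h0 := P.sq t
  have hs : |P.sn t| ≤ 1 := abs_le_one_iff_mul_self_le_one.2 (by nlinarith [sq_nonneg (P.cs t)])
  have hc : |P.cs t| ≤ 1 := abs_le_one_iff_mul_self_le_one.2 (by nlinarith [sq_nonneg (P.sn t)])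
  have g1 := abs_le.1 (P.G1_bd t)
  have g2 := P.G2_nonneg t
  have g3 := P.G2_le t
  have g4 := P.G2_ge t
  refine ⟨hs, ?_⟩
  rcases le_total 1 t with h1 | h1
  · obtain ⟨e1, e2, -⟩ := P.pos t h1
    rw [abs_of_nonneg (by linarith)] at g3 g4
    rw [e1, e2, abs_le, abs_le]
    refine ⟨⟨?_, ?_⟩, ?_, ?_⟩ <;> linarith
  rcases le_total t (-1) with h2 | h2
  · obtain ⟨e1, e2, -⟩ := P.neg t h2
    rw [abs_of_nonpos (by linarith)] at g3 g4
    rw [e1, e2, abs_le, abs_le]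
    refine ⟨⟨?_, ?_⟩, ?_, ?_⟩ <;> linarith
  have ht : |t| ≤ 1 := abs_le.2 ⟨h2, h1⟩
  have a1 := abs_le.1 (Zone.zn_abs_mul ht hs)
  have a2 := abs_le.1 (Zone.zn_abs_mul ht hc)
  rw [abs_le, abs_le]
  refine ⟨⟨?_, ?_⟩, ?_, ?_⟩ <;> linarith

omit hΦ hN in
/-- The derivatives of the creased model are close to the ideal ones (`|G2 - t sn| ≤ 2`,
`|G1 - t cs| ≤ 2`, `Zone.norm_le`). -/
theorem Cr_zone {C0 κ t s1 : ℝ} (hκ : κ = 1 ∨ κ = -1) (ht : t ≤ 1) (H : HatP C0 κ t s1 Φ N)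
    {L s : ℝ} (hL1 : 1 ≤ L) (hL : ∀ z : E2, 0 ≤ z 0 → ‖pX N z‖ ≤ L ∧ ‖pY N z‖ ≤ L) (hs : s ≤ 1)
    (hes : ∀ y, e y ≤ s) {L' : ℝ} (hL' : 1 ≤ L') (hes' : ∀ y, |deriv e y| ≤ L' * s) (z : E2) :
    ∃ Z : Zone s1 (fold P e z 0) (z 1),
      ‖pX (Cr P e Φ N) z - Z.DX κ (P.sn (z 0 / e (z 1))) (P.cs (z 0 / e (z 1)))‖ ≤
        t + 10 * L * L' * s ∧
      ‖pY (Cr P e Φ N) z - Z.iY κ‖ ≤ t + 10 * L * L' * s ∧
      ‖pX Φ (fold P e z) - Z.iX κ‖ ≤ t ∧ N (fold P e z) = Z.iN κ := by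
  have hz := (fold_mem P he0 z).2.1
  obtain ⟨Z, h1, h2, h3⟩ := H.zone (fold P e z) hz
  obtain ⟨n1, -, n3⟩ := Z.norm_le hκ H.s_pos H.s_le hz
  obtain ⟨l1, l2⟩ := hL _ hz
  obtain ⟨b1, b2, b3⟩ := cra_bd P (z 0 / e (z 1))
  have e0 := he0 (z 1)
  have hs0 : 0 < s := e0.trans_le (hes _)
  have b4 : |e (z 1) * P.G1 (z 0 / e (z 1))| ≤ s := by
    simpa using Zone.zn_abs_mul ((abs_of_pos e0).le.trans (hes _)) (P.G1_bd (z 0 / e (z 1)))
  have b5 := Zone.zn_abs_mul (hes' (z 1)) b2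
  have b6 := Zone.zn_abs_mul (hes' (z 1)) b3
  have n4 : ‖pX Φ (fold P e z)‖ ≤ 2 := by
    have := norm_le_norm_add_norm_sub' (pX Φ (fold P e z)) (Z.iX κ)
    linarith
  have sm : ∀ {a A B : ℝ} {x : Fin 3 → ℝ}, |a| ≤ A → ‖x‖ ≤ B → ‖a • x‖ ≤ A * B :=
    fun ha hx => by
      rw [norm_smul]
      exact mul_le_mul ha hx (norm_nonneg _) ((abs_nonneg _).trans ha)
  have q1 : s ≤ L' * s := le_mul_of_one_le_left hs0.le hL'
  have q2 : L' * s ≤ L * (L' * s) := le_mul_of_one_le_left (by positivity) hL1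
  have q3 : s * L ≤ L * (L' * s) := by nlinarith
  have q4 : s * (L * (L' * s)) ≤ L * (L' * s) := mul_le_of_le_one_left (by positivity) hs
  refine ⟨Z, ?_, ?_, h1, h3⟩
  · have e1 : pX (Cr P e Φ N) z - Zone.DX Z κ (P.sn (z 0 / e (z 1))) (P.cs (z 0 / e (z 1))) =
        P.sn (z 0 / e (z 1)) • (pX Φ (fold P e z) - Z.iX κ) +
          (e (z 1) * P.G1 (z 0 / e (z 1)) * P.sn (z 0 / e (z 1))) • pX N (fold P e z) := by
      rw [pX_Cr P he he0 H.Φ_sm H.N_sm, Zone.DX, h3]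
      module
    refine (congrArg norm e1).le.trans ((norm_add_le _ _).trans ?_)
    have c1 := sm b1 h1
    have c2 := sm (Zone.zn_abs_mul b4 b1) l1
    nlinarith
  · have e1 : pY (Cr P e Φ N) z - Z.iY κ = (pY Φ (fold P e z) - Z.iY κ) +
        (deriv e (z 1) * (P.G2 (z 0 / e (z 1)) - z 0 / e (z 1) * P.sn (z 0 / e (z 1)))) •
          pX Φ (fold P e z) +
        (deriv e (z 1) * (P.G1 (z 0 / e (z 1)) - z 0 / e (z 1) * P.cs (z 0 / e (z 1)))) •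
          N (fold P e z) +
        (e (z 1) * P.G1 (z 0 / e (z 1))) • (pY N (fold P e z) +
          (deriv e (z 1) * (P.G2 (z 0 / e (z 1)) - z 0 / e (z 1) * P.sn (z 0 / e (z 1)))) •
            pX N (fold P e z)) := by
      rw [pY_Cr P he he0 H.Φ_sm H.N_sm]
      abel
    have c1 := sm b5 n4
    have c2 := sm b6 (h3 ▸ n3 : ‖N (fold P e z)‖ ≤ 1)
    have c3 := sm b4 ((norm_add_le _ _).trans (add_le_add l2 (sm b5 l1)))
    refine (congrArg norm e1).le.trans ((norm_add_le _ _).trans ?_)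
    refine (add_le_add ((norm_add₃_le).trans (add_le_add (add_le_add h2 c1) c2)) c3).trans ?_
    nlinarith

end Crest.Agent.R216
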