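import Mathlib
/-!
# Row 216 (S0335): smooth isometric immersions of closed surfaces in `ℝ⁴` — definitions

Route (details: `notes216/R216.md` in the repository root and the docstrings of the files `R216/*`):
* `F = (W, ε a e^{iu/ε})`, `u` a Morse function, `W : M → ℝ²`, has metric `dW² + a² du² + ε² da²` and
  second fundamental form `≈ a du²/ε`.  `W, u, a` are built (convex integration `Kuiper*`, explicit
  crease model `Model*` at the critical points, topological input `Crit`, file `Top`) so that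
  `dW² + a² du²` is `C⁰`-close to `g`, with all constants of the geometry at scale `ε` uniform.
* `Pert.perturb`: an almost isometric map with bounded geometry at scale `1/μ` and `II ≥ c μ` can be
  corrected to an exact smooth isometric immersion (Nash–Källén iteration with linear WKB modes).
-/

set_option autoImplicit false
open scoped Manifold ContDiff Topology Matrix
open Set Filter

namespace Crest.Agent.R216

universe u

/-- the model plane -/
abbrev E2 := EuclideanSpace ℝ (Fin 2)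

section Basic
variable {M : Type u} [TopologicalSpace M] [ChartedSpace E2 M]
variable {F : Type} [NormedAddCommGroup F] [NormedSpace ℝ F]

/-- smooth functions on the surface -/
abbrev Sm (f : M → F) : Prop := ContMDiff (𝓡 2) 𝓘(ℝ, F) ∞ f

/-- the differential, as a plain continuous linear map on `E2` -/
noncomputable def dd (f : M → F) (p : M) : E2 →L[ℝ] F := mfderiv (𝓡 2) 𝓘(ℝ, F) f p

/-- derivative of `f` along the vector field `V` -/
noncomputable def Zv (V : M → E2) (f : M → F) : M → F := fun p => dd f p (V p)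

/-- `Bd V k l f c`: every word of length `j ≤ k` in the fields `V a`, applied to `f`, is bounded by
`c * l ^ j`. -/
def Bd {ι : Type} (V : ι → M → E2) : ℕ → ℝ → (M → F) → ℝ → Prop
  | 0, _, f, c => ∀ p, ‖f p‖ ≤ c
  | k + 1, l, f, c => (∀ p, ‖f p‖ ≤ c) ∧ ∀ a, Bd V k l (Zv (V a) f) (l * c)

/-- bounded families: along the filter `𝓕`, `f t` is smooth and `O(wt t)` at scale `lam t` in every
order, with constants independent of `t`. -/
def Cl {ι : Type} (V : ι → M → E2) {τ : Type*} (𝓕 : Filter τ) (lam wt : τ → ℝ)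
    (f : τ → M → F) : Prop :=
  (∀ᶠ t in 𝓕, Sm (f t)) ∧ ∀ k : ℕ, ∃ c : ℝ, ∀ᶠ t in 𝓕, Bd V k (lam t) (f t) (c * wt t)

/-- the constant coordinate fields of the plane (`M = E2`) -/
noncomputable def V0 : Fin 2 → E2 → E2 := fun u _ => EuclideanSpace.single u 1

end Basic

section Man
variable (M : Type u) [TopologicalSpace M] [ChartedSpace E2 M] [IsManifold (𝓡 2) ∞ M]

variable {M} in
/-- smooth vector fields -/
def SmV (V : M → E2) : Prop :=
  ContMDiff (𝓡 2) (𝓡 2).tangent ∞ (fun p => (⟨p, V p⟩ : TangentBundle (𝓡 2) M))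

/-- a smooth Riemannian metric, unbundled -/
structure Met where
  g : M → E2 →L[ℝ] E2 →L[ℝ] ℝ
  symm : ∀ p v w, g p v w = g p w v
  pos : ∀ p v, v ≠ 0 → 0 < g p v v
  sm : ∀ V W : M → E2, SmV V → SmV W → Sm fun p => g p (V p) (W p)

variable {M}

/-- Finite atlas of almost orthonormal coordinate frames with a partition of unity, smoothing
operators and completeness of the `Bd` seminorms. -/
structure Calc (g : Met M) where
  n : ℕ
  V : Fin n × Fin 2 → M → E2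
  V_sm : ∀ a, SmV (V a)
  x : Fin n → Fin 2 → M → ℝ
  x_sm : ∀ i u, Sm (x i u)
  O : Fin n → Set M
  O_open : ∀ i, IsOpen (O i)
  χ : Fin n → M → ℝ
  χ_sm : ∀ i, Sm (χ i)
  χ_supp : ∀ i, tsupport (χ i) ⊆ O i
  χ_sq : ∀ p, ∑ i, χ i p ^ 2 = 1
  dual : ∀ i, ∀ p ∈ O i, ∀ u v, dd (x i u) p (V (i, v) p) = if u = v then 1 else 0
  span : ∀ i, ∀ p ∈ O i, ∀ w : E2, w = ∑ u, dd (x i u) p w • V (i, u) p
  near : ∀ i, ∀ p ∈ O i, ∀ u v,
    |g.g p (V (i, u) p) (V (i, v) p) - if u = v then 1 else 0| ≤ 1 / 100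
  /-- smoothing of order `m` at scale `1 / l` -/
  smooth : ∀ m : ℕ, ∃ c : ℕ → ℝ, ∀ l : ℝ, 1 ≤ l → ∀ f : M → ℝ, Sm f → ∃ f' : M → ℝ, Sm f' ∧
    ∀ j : ℕ, (∀ i ≤ j, ∀ C : ℝ, Bd V i 1 f C → Bd V j 1 f' (c j * l ^ (j - i) * C)) ∧
      ∀ q ≤ m, ∀ C : ℝ, Bd V (j + q) 1 f C → Bd V j 1 (fun p => f p - f' p) (c j * C / l ^ q)
  complete : ∀ w : ℕ → M → ℝ, (∀ k, Sm (w k)) →
    (∀ j : ℕ, ∃ c : ℕ → ℝ, Summable c ∧ ∀ k, Bd V j 1 (w k) (c k)) →
    Sm (fun p => ∑' k, w k p) ∧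
      ∀ a p, HasSum (fun k => Zv (V a) (w k) p) (Zv (V a) (fun p => ∑' k, w k p) p)

namespace Calc
variable {g : Met M} (C : Calc g)

/-- the derivations of the atlas -/
noncomputable abbrev Z {F : Type} [NormedAddCommGroup F] [NormedSpace ℝ F]
    (a : Fin C.n × Fin 2) (f : M → F) : M → F := Zv (C.V a) f

/-- components of the metric -/
noncomputable def G (a b : Fin C.n × Fin 2) : M → ℝ := fun p => g.g p (C.V a p) (C.V b p)

/-- second fundamental form `≥ c μ`, in the robust form: an almost normal vector (error `s`) sees a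
second derivative of size `≥ c μ`. -/
def Geo (F : M → Fin 4 → ℝ) (mu c s : ℝ) : Prop :=
  ∀ i, ∀ p ∈ C.O i, ∃ (n : Fin 4 → ℝ) (u : Fin 2), ‖n‖ ≤ 1 ∧
    (∀ v, |n ⬝ᵥ C.Z (i, v) F p| ≤ s) ∧ c * mu ≤ |n ⬝ᵥ C.Z (i, u) (C.Z (i, u) F) p|

end Calc

/-- Topological input: a Morse function in normal form in `g`-orthonormal coordinates `(x j, y j)` on
boxes `B j` around its critical points, and a bundle map `Y : TM → ℝ²` with `(Y, du)` injective,
diagonal on the boxes. -/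
structure Crit (g : Met M) where
  m : ℕ
  u : M → ℝ
  u_sm : Sm u
  x : Fin m → M → ℝ
  y : Fin m → M → ℝ
  x_sm : ∀ j, Sm (x j)
  y_sm : ∀ j, Sm (y j)
  R : ℝ
  R_pos : 0 < R
  B : Fin m → Set M
  B_open : ∀ j, IsOpen (B j)
  B_disj : ∀ j k, j ≠ k → Disjoint (B j) (B k)
  box_closed : ∀ j, ∀ r < R, IsClosed {q | q ∈ B j ∧ |x j q| ≤ r ∧ |y j q| ≤ r}
  surj : ∀ j, ∀ q ∈ B j, ∀ a b : ℝ, ∃ v, dd (x j) q v = a ∧ dd (y j) q v = b
  flat : ∀ t > 0, ∃ r > 0, ∀ j, ∀ q ∈ B j, |x j q| ≤ r → |y j q| ≤ r → ∀ v,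
    |g.g q v v - (dd (x j) q v ^ 2 + dd (y j) q v ^ 2)| ≤ t * (dd (x j) q v ^ 2 + dd (y j) q v ^ 2)
  c : Fin m → ℝ
  η : Fin m → ℝ
  κ : Fin m → ℝ
  ε : Fin m → ℝ
  η_sq : ∀ j, η j = 1 ∨ η j = -1
  κ_sq : ∀ j, κ j = 1 ∨ κ j = -1
  ε_sq : ∀ j, ε j = 1 ∨ ε j = -1
  l1 : Fin m → ℝ
  l2 : Fin m → ℝ
  l1_pos : ∀ j, 0 < l1 j
  l2_pos : ∀ j, 0 < l2 j
  nf : ∀ j, ∀ q ∈ B j, u q = c j + η j * (l1 j * x j q ^ 2 + κ j * (l2 j * y j q ^ 2))
  reg : ∀ q, dd u q = 0 → ∃ j, q ∈ B j ∧ x j q = 0 ∧ y j q = 0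
  Y : M → E2 →L[ℝ] (Fin 2 → ℝ)
  Y_sm : ∀ V : M → E2, SmV V → Sm fun q => Y q (V q)
  y1 : Fin m → ℝ
  y2 : Fin m → ℝ
  y1_pos : ∀ j, 0 < y1 j
  y2_pos : ∀ j, 0 < y2 j
  Y_nf : ∀ j, ∀ q ∈ B j, ∀ v, Y q v = ![y1 j * dd (x j) q v, ε j * (y2 j * dd (y j) q v)]
  Y_inj : ∀ q v, dd u q v = 0 → Y q v = 0 → v = 0

/-- the formal differential `(dW + Y, a du)` of `Φ = (W, u)` -/
noncomputable def Jf (Φ : M → Fin 3 → ℝ) (a : M → ℝ) (Y : M → E2 →L[ℝ] (Fin 2 → ℝ)) (p : M)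
    (v : E2) : Fin 3 → ℝ :=
  ![dd Φ p v 0 + Y p v 0, dd Φ p v 1 + Y p v 1, a p * dd Φ p v 2]

end Man

end Crest.Agent.R216
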