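import Crest.Agent.R216.HatAux
/-! # R216: the folded model, definition and estimates -/

set_option autoImplicit false
open scoped Manifold ContDiff Topology Matrix
open Set Filter

namespace Crest.Agent.R216

/-- all the data of the folded model -/
structure HatD extends HatY where
  χ : Cut
  V : ℝ × ℝ × ℝ → ℂ
  U : ℝ × ℝ × ℝ → ℂ
  Mx : ℝ → ℝ
  κ : ℝ
  s : ℝ
  h : ℝ
  d : ℝ
  C : ℝ
  t : ℝ
  V_sm : ContDiff ℝ ∞ V
  U_sm : ContDiff ℝ ∞ U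
  Mx_sm : ContDiff ℝ ∞ Mx
  V_zero : ∀ r θ, V (r, 0, θ) = 0
  V_bd : ∀ r A θ, |r| ≤ 1 → |A| ≤ 1 → ‖V (r, A, θ)‖ ≤ C ∧ ‖fderiv ℝ V (r, A, θ)‖ ≤ C
  loop : ∀ r A θ, 1 / 2 ≤ r → fderiv ℝ V (r, A, θ) (0, 0, 1) = U (r, A, θ) - r ∧
    ‖U (r, A, θ)‖ ^ 2 = r ^ 2 + A ^ 2 ∧ ‖U (r, A, θ) - r‖ ≤ 5 * |A| ∧
    (3 * A ^ 2 ≤ r ^ 2 → r / 2 ≤ (U (r, A, θ)).re)
  dMx : ∀ X, HasDerivAt Mx (χ.χ (X / s - 1)) X
  Mx_bd : ∀ X, 0 ≤ X → |Mx X| ≤ 3 * s
  κ_abs : |κ| ≤ 1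
  s_pos : 0 < s
  s_le : s ≤ 1
  h_pos : 0 < h
  d_ge : 20 ≤ d
  d_L : 1000 * χ.L ≤ d
  small_s : (6 * B + 3) * s ≤ t / 2
  small_h : h * (C * (χ.L / s)) + 2 * (h * (C * B)) ≤ t / 2
  small_C : h * C ≤ 1

namespace HatD

variable (D : HatD)

/-- the argument of the loops -/
noncomputable def q (X Y : ℝ) : ℝ × ℝ × ℝ := (D.la Y, D.χ.χ (X / D.s) * D.w Y, Y / D.h)

/-- the folded model -/
noncomputable def Φ (X Y : ℝ) : Fin 3 → ℝ :=
  ![D.h * (D.V (D.q X Y)).im,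
    D.χ.χ (X / D.d) * (D.G Y * D.χ.ev 1 (Y / D.d) - D.κ * (D.lb Y * D.sb Y) * D.Mx X) +
      D.h * (D.V (D.q X Y)).re * D.cb Y,
    D.κ * D.Γ Y + D.cb Y * D.Mx X + X - D.Mx X + D.h * (D.V (D.q X Y)).re * (D.κ * D.sb Y)]

/-- the fold direction -/
noncomputable def N (X Y : ℝ) : Fin 3 → ℝ :=
  (D.χ.χ (X / D.s) * D.lb Y) • ![(D.U (D.q X Y)).re, -(D.U (D.q X Y)).im * D.cb Y,
    -D.κ * (D.U (D.q X Y)).im * D.sb Y]

theorem q_sm : ContDiff ℝ ∞ fun p : ℝ × ℝ => D.q p.1 p.2 := by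
  have := D.la_sm
  have := D.w_sm
  have := D.χ.sm
  unfold q
  fun_prop

theorem Φ_sm : Sm fun z : E2 => D.Φ (z 0) (z 1) := by
  have h1 : ContDiff ℝ ∞ fun p : ℝ × ℝ => (D.V (D.q p.1 p.2)).re :=
    Complex.reCLM.contDiff.comp (D.V_sm.comp D.q_sm)
  have h2 : ContDiff ℝ ∞ fun p : ℝ × ℝ => (D.V (D.q p.1 p.2)).im :=
    Complex.imCLM.contDiff.comp (D.V_sm.comp D.q_sm)
  have := D.sb_sm
  have := D.cb_sm
  have := D.lb_sm
  have := D.G_sm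
  have := D.Γ_sm
  have := D.Mx_sm
  have := D.χ.sm
  have := D.χ.ev_sm 1
  exact hat_sm (hat_cd (by fun_prop) (by fun_prop) (by fun_prop))

theorem N_sm : Sm fun z : E2 => D.N (z 0) (z 1) := by
  have h1 : ContDiff ℝ ∞ fun p : ℝ × ℝ => (D.U (D.q p.1 p.2)).re :=
    Complex.reCLM.contDiff.comp (D.U_sm.comp D.q_sm)
  have h2 : ContDiff ℝ ∞ fun p : ℝ × ℝ => (D.U (D.q p.1 p.2)).im :=
    Complex.imCLM.contDiff.comp (D.U_sm.comp D.q_sm)
  have := D.sb_sm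
  have := D.cb_sm
  have := D.lb_sm
  have := D.χ.sm
  have a : ContDiff ℝ ∞ fun p : ℝ × ℝ => D.χ.χ (p.1 / D.s) * D.lb p.2 := by fun_prop
  have b : ContDiff ℝ ∞ fun p : ℝ × ℝ => -(D.U (D.q p.1 p.2)).im * D.cb p.2 := by fun_prop
  have c : ContDiff ℝ ∞ fun p : ℝ × ℝ => -D.κ * (D.U (D.q p.1 p.2)).im * D.sb p.2 := by fun_prop
  exact hat_sm (a.smul (hat_cd h1 b c))

theorem χ_abs (x : ℝ) : |D.χ.χ x| ≤ 1 := (abs_of_nonneg (D.χ.nonneg x)).trans_le (D.χ.le_one x)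
theorem ev_abs (x : ℝ) : |D.χ.ev 1 x| ≤ 1 :=
  (abs_of_nonneg (D.χ.ev_nonneg 1 x)).trans_le (D.χ.ev_le_one 1 x)
theorem sb_abs (Y : ℝ) : |D.sb Y| ≤ 1 := (D.sb_le Y).trans (by norm_num)
theorem cb_abs (Y : ℝ) : |D.cb Y| ≤ 1 :=
  (sq_le_one_iff_abs_le_one _).1 (by nlinarith [D.sc Y, sq_nonneg (D.sb Y)])
theorem la_abs (Y : ℝ) : |D.la Y| ≤ 1 :=
  (sq_le_one_iff_abs_le_one _).1 (by nlinarith [D.lw Y, sq_nonneg (D.w Y)])
theorem lb_abs (Y : ℝ) : |D.lb Y| ≤ 1 := (abs_of_nonneg (D.lb_mem Y).1).trans_le (D.lb_mem Y).2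
theorem w_abs (Y : ℝ) : |D.w Y| ≤ 1 :=
  (abs_of_nonneg (D.w_mem Y).1).trans_le ((D.w_mem Y).2.trans (by norm_num))
theorem la_ge (Y : ℝ) : 1 / 2 ≤ D.la Y := by
  nlinarith [D.lw Y, D.w_mem Y, D.la_pos Y]
theorem A_abs (X Y : ℝ) : |D.χ.χ (X / D.s) * D.w Y| ≤ 1 :=
  (hat_mul (D.χ_abs _) (D.w_abs Y)).trans_eq (one_mul 1)
theorem B_nonneg : 0 ≤ D.B := (abs_nonneg _).trans (D.d_sb 0)
theorem d_pos : 0 < D.d := by linarith [D.d_ge]
theorem h_abs : |D.h| ≤ D.h := (abs_of_pos D.h_pos).le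

theorem V_le (X Y : ℝ) : ‖D.V (D.q X Y)‖ ≤ D.C := (D.V_bd _ _ _ (D.la_abs Y) (D.A_abs X Y)).1

theorem C_nonneg : 0 ≤ D.C := (norm_nonneg _).trans (D.V_le 0 0)

theorem dV_le (X Y : ℝ) {a b K : ℝ} (ha : |a| ≤ K) (hb : |b| ≤ K) :
    ‖fderiv ℝ D.V (D.q X Y) (a, b, 0)‖ ≤ D.C * K := by
  refine ((fderiv ℝ D.V (D.q X Y)).le_opNorm _).trans (mul_le_mul
    (D.V_bd _ _ _ (D.la_abs Y) (D.A_abs X Y)).2 ?_ (norm_nonneg _) D.C_nonneg)
  rw [Prod.norm_mk, Prod.norm_mk, norm_zero]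
  exact max_le ha (max_le hb ((abs_nonneg _).trans ha))

theorem dχ_le (x : ℝ) {c : ℝ} (hc : 0 < c) : |deriv D.χ.χ x / c| ≤ D.χ.L / c := by
  rw [abs_div, abs_of_pos hc]
  exact div_le_div_of_nonneg_right (D.χ.d_bd x) hc.le

theorem dζ1_le (x : ℝ) : |deriv D.χ.χ x / D.d| ≤ 1 / 1000 :=
  (D.dχ_le x D.d_pos).trans (by rw [div_le_iff₀ D.d_pos]; linarith [D.d_L])

theorem dζ2_le (x : ℝ) : |deriv (D.χ.ev 1) x / D.d| ≤ 2 / 1000 := by
  rw [abs_div, abs_of_pos D.d_pos, div_le_iff₀ D.d_pos]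
  linarith [D.d_L, D.χ.ev_d_bd 1 x]

theorem p_zero {X : ℝ} (h : 2 * D.s ≤ X) : D.χ.χ (X / D.s) = 0 :=
  D.χ.zero _ ((le_div_iff₀ D.s_pos).2 h)

theorem m_zero {X : ℝ} (h : 3 * D.s ≤ X) : D.χ.χ (X / D.s - 1) = 0 :=
  D.χ.zero _ (by linarith [(le_div_iff₀ D.s_pos).2 h])

/-- the ideal values -/
noncomputable def zone (X Y : ℝ) : Zone D.s X Y where
  sb := D.sb Y
  cb := D.cb Y
  la := D.la Y
  w := D.w Y
  lb := D.lb Y
  m := D.χ.χ (X / D.s - 1)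
  p0 := D.χ.χ (X / D.s)
  ur := (D.U (D.q X Y)).re
  ui := (D.U (D.q X Y)).im
  z := D.χ.χ (X / D.d) * D.χ.ev 1 (Y / D.d)
  gX := deriv D.χ.χ (X / D.d) / D.d * D.G Y * D.χ.ev 1 (Y / D.d)
  gY := D.χ.χ (X / D.d) * D.G Y * (deriv (D.χ.ev 1) (Y / D.d) / D.d)
  sc := D.sc Y
  sb_le := D.sb_le Y
  cb_pos := D.cb_pos Y
  sb_pos := D.sb_pos Y
  sb_neg := D.sb_neg Y
  lw := D.lw Y
  la_pos := D.la_pos Y
  w_mem := D.w_mem Y
  w_in := D.w_in Y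
  w_out := D.w_out Y
  lb_mem := D.lb_mem Y
  lb_in := D.lb_in Y
  lb_out := D.lb_out Y
  m_mem := ⟨D.χ.nonneg _, D.χ.le_one _⟩
  m_in h := D.χ.one _ (by linarith [(div_le_iff₀ D.s_pos).2 h])
  m_out := D.m_zero
  p_mem := ⟨D.χ.nonneg _, D.χ.le_one _⟩
  p_in h := D.χ.one _ ((div_le_one D.s_pos).2 h)
  p_out := D.p_zero
  u_sq := by
    rw [← (D.loop _ _ (Y / D.h) (D.la_ge Y)).2.1, Complex.sq_norm, Complex.normSq_apply, sq, sq]
    rfl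
  ur_ge := (D.loop _ _ _ (D.la_ge Y)).2.2.2 (by
    have h1 : D.χ.χ (X / D.s) * D.w Y ≤ D.w Y :=
      mul_le_of_le_one_left (D.w_mem Y).1 (D.χ.le_one _)
    have h2 := mul_nonneg (D.χ.nonneg (X / D.s)) (D.w_mem Y).1
    nlinarith [D.lw Y, D.w_mem Y])
  u_triv h := by
    have h1 := (D.loop _ (D.χ.χ (X / D.s) * D.w Y) (Y / D.h) (D.la_ge Y)).2.2.1
    conv_rhs at h1 => rw [h, abs_zero, mul_zero]
    rw [norm_le_zero_iff, sub_eq_zero] at h1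
    exact ⟨congrArg Complex.re h1, congrArg Complex.im h1⟩
  z_mem := ⟨mul_nonneg (D.χ.nonneg _) (D.χ.ev_nonneg _ _),
    mul_le_one₀ (D.χ.le_one _) (D.χ.ev_nonneg _ _) (D.χ.ev_le_one _ _)⟩
  z_in hX hY := by
    have h1 : X / D.d < 1 := (div_lt_one D.d_pos).2 (by linarith [D.d_ge])
    have h2 : |Y / D.d| ≤ 1 := by
      rw [abs_div, abs_of_pos D.d_pos, div_le_one D.d_pos]
      linarith [D.d_ge]
    rw [D.χ.one _ h1.le, D.χ.ev_one h2,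
      hat_deriv_zero isOpen_Iio (fun y hy => D.χ.one y (le_of_lt hy)) h1]
    simp
  gX_le := (hat_mul (hat_mul (D.dζ1_le _) (D.G_bd Y)) (D.ev_abs _)).trans (by norm_num)
  gY_le := (hat_mul (hat_mul (D.χ_abs _) (D.G_bd Y)) (D.dζ2_le _)).trans (by norm_num)
  gY_in hY := by
    have h2 : |Y / D.d| < 1 := by
      rw [abs_div, abs_of_pos D.d_pos, div_lt_one D.d_pos]
      linarith [D.d_ge]
    rw [hat_deriv_zero (isOpen_lt continuous_abs continuous_const)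
      (fun y hy => D.χ.ev_one (le_of_lt hy)) h2]
    simp

theorem dV_X (X Y : ℝ) : ∃ E : ℂ, ‖E‖ ≤ D.C * (D.χ.L / D.s) ∧
    HasDerivAt (fun X => D.V (D.q X Y)) E X := by
  have h1 := (hasDerivAt_const X (D.la Y)).prodMk
    (((hat_dsc D.χ.sm D.s X).mul_const (D.w Y)).prodMk (hasDerivAt_const X (Y / D.h)))
  refine ⟨_, D.dV_le X Y ?_ ((hat_mul (D.dχ_le _ D.s_pos) (D.w_abs Y)).trans_eq (mul_one _)),
    (D.V_sm.differentiable (by simp) (D.q X Y)).hasFDerivAt.comp_hasDerivAt X h1⟩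
  rw [abs_zero]
  exact div_nonneg D.χ.L_nonneg D.s_pos.le

theorem dV_Y (X Y : ℝ) : ∃ E : ℂ, ‖E‖ ≤ D.C * D.B ∧
    HasDerivAt (fun Y => D.V (D.q X Y)) (E + D.h⁻¹ • (D.U (D.q X Y) - D.la Y)) Y := by
  have h1 := (hat_d D.la_sm Y).prodMk
    (((hat_d D.w_sm Y).const_mul (D.χ.χ (X / D.s))).prodMk ((hasDerivAt_id Y).div_const D.h))
  refine ⟨_, D.dV_le X Y (D.d_la Y) ((hat_mul (D.χ_abs (X / D.s)) (D.d_w Y)).trans_eq (one_mul _)),
    ((D.V_sm.differentiable (by simp) (D.q X Y)).hasFDerivAt.comp_hasDerivAt Y h1).congr_deriv ?_⟩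
  have h2 : fderiv ℝ D.V (D.q X Y) (0, 0, 1) = D.U (D.q X Y) - D.la Y :=
    (D.loop _ _ _ (D.la_ge Y)).1
  rw [← h2, ← map_smul, ← map_add]
  simp

theorem dX {X : ℝ} (hX : 0 ≤ X) (Y : ℝ) : ∃ T, HasDerivAt (fun X => D.Φ X Y) T X ∧
    ‖T - (D.zone X Y).iX D.κ‖ ≤ D.t := by
  obtain ⟨E, hE, dE⟩ := D.dV_X X Y
  have dr : HasDerivAt (fun X => (D.V (D.q X Y)).re) E.re X :=
    Complex.reCLM.hasFDerivAt.comp_hasDerivAt X dE
  have di : HasDerivAt (fun X => (D.V (D.q X Y)).im) E.im X :=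
    Complex.imCLM.hasFDerivAt.comp_hasDerivAt X dE
  have br := hat_mul D.h_abs ((Complex.abs_re_le_norm E).trans hE)
  have bi := hat_mul D.h_abs ((Complex.abs_im_le_norm E).trans hE)
  have p1 := mul_nonneg D.h_pos.le (mul_nonneg D.C_nonneg D.B_nonneg)
  have p2 := mul_nonneg D.B_nonneg D.s_pos.le
  have p3 := D.small_s
  have p4 := D.small_h
  have p5 := D.s_pos
  refine hat_vec (di.const_mul D.h)
    (((hat_dsc D.χ.sm D.d X).mul (((D.dMx X).const_mul _).const_sub _)).add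
      ((dr.const_mul D.h).mul_const _))
    ((((((D.dMx X).const_mul _).const_add _).add (hasDerivAt_id X)).sub (D.dMx X)).add
      ((dr.const_mul D.h).mul_const _)) ?_ ?_ ?_
  · rw [sub_zero]
    linarith
  · have e0 : (1 - D.χ.χ (X / D.d)) * D.χ.χ (X / D.s - 1) = 0 := by
      rcases le_total X (3 * D.s) with h | h
      · rw [D.χ.one (X / D.d) ((div_le_one D.d_pos).2 (by linarith [D.d_ge, D.s_le])), sub_self,
          zero_mul]
      · rw [D.m_zero h, mul_zero]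
    have b1 := hat_mul (D.dζ1_le (X / D.d)) (hat_mul (hat_mul D.κ_abs
      (hat_mul (D.lb_abs Y) (D.sb_abs Y))) (D.Mx_bd X hX))
    have b2 := hat_mul br (D.cb_abs Y)
    refine le_trans (le_of_eq (congrArg abs ?_)) ((abs_sub _ _).trans
      ((add_le_add b2 b1).trans (by linarith)))
    simp only [zone]
    linear_combination (D.κ * D.lb Y * D.sb Y) * e0
  · have b2 := hat_mul br (hat_mul D.κ_abs (D.sb_abs Y))
    refine le_trans (le_of_eq (congrArg abs ?_)) (b2.trans (by linarith))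
    simp only [zone]
    ring

theorem dY {X : ℝ} (hX : 0 ≤ X) (Y : ℝ) : ∃ T, HasDerivAt (fun Y => D.Φ X Y) T Y ∧
    ‖T - (D.zone X Y).iY D.κ‖ ≤ D.t := by
  obtain ⟨E, hE, dE⟩ := D.dV_Y X Y
  have hh := D.h_pos.ne'
  have dr : HasDerivAt (fun Y => D.h * (D.V (D.q X Y)).re)
      (D.h * E.re + ((D.U (D.q X Y)).re - D.la Y)) Y :=
    ((Complex.reCLM.hasFDerivAt.comp_hasDerivAt Y dE).const_mul D.h).congr_deriv (by
      simp only [Complex.reCLM_apply, Complex.add_re, Complex.smul_re, Complex.sub_re,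
        Complex.ofReal_re, smul_eq_mul]
      field_simp)
  have di : HasDerivAt (fun Y => D.h * (D.V (D.q X Y)).im) (D.h * E.im + (D.U (D.q X Y)).im) Y :=
    ((Complex.imCLM.hasFDerivAt.comp_hasDerivAt Y dE).const_mul D.h).congr_deriv (by
      simp only [Complex.imCLM_apply, Complex.add_im, Complex.smul_im, Complex.sub_im,
        Complex.ofReal_im, smul_eq_mul, sub_zero]
      field_simp)
  have br := hat_mul D.h_abs ((Complex.abs_re_le_norm E).trans hE)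
  have bi := hat_mul D.h_abs ((Complex.abs_im_le_norm E).trans hE)
  have bv := hat_mul D.h_abs ((Complex.abs_re_le_norm _).trans (D.V_le X Y))
  have p1 := mul_nonneg D.h_pos.le (mul_nonneg D.C_nonneg D.B_nonneg)
  have p1' := mul_nonneg D.h_pos.le (mul_nonneg D.C_nonneg (div_nonneg D.χ.L_nonneg D.s_pos.le))
  have p2 := mul_nonneg D.B_nonneg D.s_pos.le
  have p3 := D.small_s
  have p4 := D.small_h
  have p5 := D.s_pos
  refine hat_vec di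
    (((((D.dG Y).mul (hat_dsc (D.χ.ev_sm 1) D.d Y)).sub
      ((((hat_d D.lb_sm Y).mul (hat_d D.sb_sm Y)).const_mul D.κ).mul_const _)).const_mul _).add
      (dr.mul (hat_d D.cb_sm Y)))
    (((((((D.dΓ Y).const_mul D.κ).add ((hat_d D.cb_sm Y).mul_const _)).add_const X).sub_const _)).add
      (dr.mul ((hat_d D.sb_sm Y).const_mul D.κ))) ?_ ?_ ?_
  · refine le_trans (le_of_eq (congrArg abs ?_)) (bi.trans (by linarith))
    simp only [zone]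
    ring
  · have b1 := hat_mul (D.χ_abs (X / D.d)) (hat_mul (hat_mul D.κ_abs ((abs_add_le _ _).trans
      (add_le_add (hat_mul (D.d_lb Y) (D.sb_abs Y)) (hat_mul (D.lb_abs Y) (D.d_sb Y)))))
      (D.Mx_bd X hX))
    have b2 := (abs_add_le _ _).trans (add_le_add (hat_mul br (D.cb_abs Y)) (hat_mul bv (D.d_cb Y)))
    refine le_trans (le_of_eq (congrArg abs ?_)) ((abs_sub _ _).trans
      ((add_le_add b2 b1).trans (by linarith)))
    simp only [zone]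
    ring
  · have b1 := hat_mul (D.d_cb Y) (D.Mx_bd X hX)
    have b2 := (abs_add_le _ _).trans (add_le_add (hat_mul br (hat_mul D.κ_abs (D.sb_abs Y)))
      (hat_mul bv (hat_mul D.κ_abs (D.d_sb Y))))
    refine le_trans (le_of_eq (congrArg abs ?_)) ((abs_add_le _ _).trans
      ((add_le_add b2 b1).trans (by linarith)))
    simp only [zone]
    ring

theorem N_zero {X Y : ℝ} (h : 5 ≤ X ∨ 5 ≤ |Y|) : D.N X Y = 0 := by
  unfold N
  rcases h with h | h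
  · rw [D.p_zero (by linarith [D.s_le]), zero_mul, zero_smul]
  · rw [D.lb_out Y h, mul_zero, zero_smul]

theorem V_far {X Y : ℝ} (h : 5 ≤ X ∨ 5 ≤ |Y|) : D.V (D.q X Y) = 0 := by
  unfold q
  rcases h with h | h
  · rw [D.p_zero (by linarith [D.s_le]), zero_mul, D.V_zero]
  · rw [D.w_out Y (by linarith), mul_zero, D.V_zero]

theorem Φ_far {X Y : ℝ} (h : 2 * D.d + 10 ≤ X ∨ 2 * D.d + 10 ≤ |Y|) :
    D.Φ X Y 0 = 0 ∧ D.Φ X Y 1 = 0 := by
  have hd := D.d_ge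
  have h1 := D.V_far (h.imp (fun h => by linarith) fun h => by linarith)
  simp only [Φ, h1, Matrix.cons_val_zero, Matrix.cons_val_one, Complex.zero_im, Complex.zero_re,
    mul_zero, zero_mul, add_zero, true_and]
  rcases h with h | h
  · rw [D.χ.zero _ ((le_div_iff₀ D.d_pos).2 (by linarith)), zero_mul]
  · rw [D.lb_out Y (by linarith), D.χ.ev_zero (by
      rw [abs_div, abs_of_pos D.d_pos, le_div_iff₀ D.d_pos]; linarith)]
    simp

theorem Φ_bd {X : ℝ} (hX : 0 ≤ X) (Y : ℝ) :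
    |D.Φ X Y 0| ≤ 10 ∧ |D.Φ X Y 1| ≤ 10 ∧ |D.Φ X Y 2| ≤ 10 + X + |Y| := by
  have br := (hat_mul D.h_abs ((Complex.abs_re_le_norm _).trans (D.V_le X Y))).trans D.small_C
  have bi := (hat_mul D.h_abs ((Complex.abs_im_le_norm _).trans (D.V_le X Y))).trans D.small_C
  have bM := D.Mx_bd X hX
  have hs := D.s_le
  refine ⟨bi.trans (by norm_num), ?_, ?_⟩
  · exact ((abs_add_le _ _).trans (add_le_add (hat_mul (D.χ_abs _) ((abs_sub _ _).trans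
      (add_le_add (hat_mul (D.G_bd Y) (D.ev_abs _)) (hat_mul (hat_mul D.κ_abs
        (hat_mul (D.lb_abs Y) (D.sb_abs Y))) bM)))) (hat_mul br (D.cb_abs Y)))).trans (by linarith)
  · exact ((abs_add_le _ _).trans (add_le_add ((abs_sub _ _).trans (add_le_add
      ((abs_add_le _ _).trans (add_le_add ((abs_add_le _ _).trans (add_le_add
        (hat_mul D.κ_abs (D.Γ_bd Y)) (hat_mul (D.cb_abs Y) bM))) (abs_of_nonneg hX).le)) bM))
      (hat_mul br (hat_mul D.κ_abs (D.sb_abs Y))))).trans (by linarith)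

end HatD

end Crest.Agent.R216
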