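import Crest.Agent.R216.Defs
/-! # R216: the Kuiper loops.
With `r' = √(r²+A²)`, `τ = A / √((r'+r)(3r'+r))` (so `τ² (3r'+r) = r' - r`, `τ² < 1/3`), `w = e^{iθ}`:
`U = r' (1 - τ² + 2iτ cos θ) / (1 - τ² - 2iτ cos θ)` (Poisson kernel with parameter `iτ`),
`V = i (r + r') (log (1 - iτ w) - log (1 - iτ / w))`, `∂_θ V = U - r`.
To get globally smooth functions replace `r` by `ρ r`, `ρ` smooth positive, `ρ r = r` for `r ≥ r₀`. -/

set_option autoImplicit false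
open scoped ContDiff Topology
open Set Filter

namespace Crest.Agent.R216

open Complex

noncomputable def klU (r' τ θ : ℝ) : ℂ :=
  r' * (((1 - τ ^ 2 : ℝ) + (2 * τ * Real.cos θ : ℝ) * I) *
    ((1 - τ ^ 2 : ℝ) - (2 * τ * Real.cos θ : ℝ) * I)⁻¹)

noncomputable def klV (a τ θ : ℝ) : ℂ :=
  I * a * (log (1 + -(I * τ * exp (θ * I))) - log (1 + -(I * τ * exp (-(θ * I)))))

theorem kl_ne {p : ℝ} (hp : 0 < p) (q : ℝ) : (p : ℂ) - q * I ≠ 0 := fun h => by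
  have := congrArg re h
  simp at this
  linarith

theorem kl_slit {τ : ℝ} (h : τ ^ 2 < 1) {w : ℂ} (hw : ‖w‖ = 1) : 1 + -(I * τ * w) ∈ slitPlane :=
  mem_slitPlane_of_norm_lt_one (by simpa [hw] using (sq_lt_one_iff_abs_lt_one τ).1 h)

theorem kl_norm1 (θ : ℝ) : ‖exp (-(θ * I))‖ = 1 := by
  rw [exp_neg, norm_inv, norm_exp_ofReal_mul_I, inv_one]

theorem kl_deriv {r r' τ : ℝ} (h : τ ^ 2 < 1) (e : τ ^ 2 * (3 * r' + r) = r' - r) (θ : ℝ) :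
    HasDerivAt (klV (r' + r) τ) (klU r' τ θ - r) θ := by
  have h1 := kl_slit h (norm_exp_ofReal_mul_I θ)
  have h2 := kl_slit h (kl_norm1 θ)
  have d0 : HasDerivAt (fun t : ℝ => (t : ℂ) * I) I θ := by
    simpa using (hasDerivAt_id θ).ofReal_comp.mul_const I
  have d1 := (((d0.cexp.const_mul (I * τ)).neg.const_add 1).clog_real h1).sub
    (((d0.neg.cexp.const_mul (I * τ)).neg.const_add 1).clog_real h2)
  refine (d1.const_mul (I * (r' + r : ℝ))).congr_deriv ?_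
  have h3 := kl_ne (sub_pos.2 h) (2 * τ * Real.cos θ)
  have h4 := slitPlane_ne_zero h1
  have h5 := slitPlane_ne_zero h2
  have e1 : exp (θ * I) * exp (-(θ * I)) = 1 := by rw [← exp_add, add_neg_cancel, exp_zero]
  have e2 : 2 * (Real.cos θ : ℂ) = exp (θ * I) + exp (-(θ * I)) := by
    rw [ofReal_cos, two_cos, neg_mul]
  have e3 : (τ : ℂ) ^ 2 * (3 * r' + r) = r' - r := by exact_mod_cast e
  have e4 : ((1 - τ ^ 2 : ℝ) - (2 * τ * Real.cos θ : ℝ) * I : ℂ) =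
      (1 + -(I * τ * exp (θ * I))) * (1 + -(I * τ * exp (-(θ * I)))) := by
    simp only [ofReal_sub, ofReal_mul, ofReal_one, ofReal_pow, ofReal_ofNat]
    linear_combination (-τ * I) * e2 + τ ^ 2 * e1 -
      τ ^ 2 * exp (θ * I) * exp (-(θ * I)) * I_mul_I
  simp only [Pi.neg_apply]
  rw [klU, e4]
  simp only [ofReal_sub, ofReal_mul, ofReal_one, ofReal_pow, ofReal_ofNat, ofReal_add]
  generalize exp (θ * I) = w at *
  generalize exp (-(θ * I)) = w' at *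
  field_simp
  linear_combination e3 + (2 * r' + r) * τ ^ 2 * e1 - I * τ * r' * e2 +
    (-I * (r' + r) * τ * (w + w') + 2 * (r' + r) * τ ^ 2 * (w * w') * (I ^ 2 - 1) +
      r * τ ^ 2 * (w * w')) * I_mul_I

theorem kl_alg {r r' A τ : ℝ} (hr : 0 < r) (hr' : r ≤ r') (e0 : r' ^ 2 = r ^ 2 + A ^ 2)
    (e : τ ^ 2 * (3 * r' + r) = r' - r) (θ : ℝ) :
    ‖klU r' τ θ‖ ^ 2 = r ^ 2 + A ^ 2 ∧ ‖klU r' τ θ - r‖ ≤ 5 * |A| ∧
      (3 * A ^ 2 ≤ r ^ 2 → r / 2 ≤ (klU r' τ θ).re) := by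
  have h1 : τ ^ 2 ≤ 1 / 3 := by nlinarith [sq_nonneg τ]
  have hc := Real.cos_sq_le_one θ
  rw [klU]
  generalize Real.cos θ = c at *
  have hp : 0 < 1 - τ ^ 2 := by linarith
  have h3 := kl_ne hp (2 * τ * c)
  have hN : 0 < (1 - τ ^ 2) ^ 2 + (2 * τ * c) ^ 2 := by positivity
  have n1 : ‖((1 - τ ^ 2 : ℝ) - (2 * τ * c : ℝ) * I : ℂ)‖ ^ 2 =
      (1 - τ ^ 2) ^ 2 + (2 * τ * c) ^ 2 := by
    rw [Complex.sq_norm, sub_eq_add_neg, ← neg_mul, ← ofReal_neg, normSq_add_mul_I, neg_sq]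
  refine ⟨?_, ?_, fun hA => ?_⟩
  · rw [norm_mul, norm_mul, norm_inv, mul_pow, mul_pow, inv_pow, n1, Complex.sq_norm (_ + _),
      normSq_add_mul_I, mul_inv_cancel₀ hN.ne', mul_one, norm_real, Real.norm_eq_abs, sq_abs, e0]
  · have e3 : (τ : ℂ) ^ 2 * (3 * r' + r) = r' - r := by exact_mod_cast e
    have e4 : (r' : ℂ) * (((1 - τ ^ 2 : ℝ) + (2 * τ * c : ℝ) * I) *
        ((1 - τ ^ 2 : ℝ) - (2 * τ * c : ℝ) * I)⁻¹) - r = (2 * (r' + r) * τ : ℝ) * ((τ + c * I) *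
        ((1 - τ ^ 2 : ℝ) - (2 * τ * c : ℝ) * I)⁻¹) := by
      rw [← mul_assoc, ← mul_assoc, eq_mul_inv_iff_mul_eq₀ h3, sub_mul, inv_mul_cancel_right₀ h3]
      push_cast
      linear_combination -e3
    rw [e4, ← sq_le_sq₀ (norm_nonneg _) (by positivity), norm_mul, norm_mul, norm_inv, mul_pow,
      mul_pow, inv_pow, n1, Complex.sq_norm (_ + _), normSq_add_mul_I, norm_real, Real.norm_eq_abs,
      sq_abs, mul_pow 5, sq_abs, ← div_eq_mul_inv]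
    have a1 : (2 * (r' + r) * τ) ^ 2 ≤ 4 * A ^ 2 := by
      have : A ^ 2 = τ ^ 2 * (3 * r' + r) * (r' + r) := by rw [e]; linarith
      rw [this]
      nlinarith [mul_nonneg (sq_nonneg τ) (mul_pos (hr.trans_le hr') (add_pos (hr.trans_le hr') hr)).le]
    have a2 : (τ ^ 2 + c ^ 2) / ((1 - τ ^ 2) ^ 2 + (2 * τ * c) ^ 2) ≤ 3 := by
      rw [div_le_iff₀ hN]
      nlinarith [sq_nonneg (2 * τ * c)]
    nlinarith [mul_le_mul a1 a2 (by positivity) (by positivity), sq_nonneg A]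
  · have e4 : ((r' : ℂ) * (((1 - τ ^ 2 : ℝ) + (2 * τ * c : ℝ) * I) *
        ((1 - τ ^ 2 : ℝ) - (2 * τ * c : ℝ) * I)⁻¹)).re =
        r' * (((1 - τ ^ 2) ^ 2 - (2 * τ * c) ^ 2) / ((1 - τ ^ 2) ^ 2 + (2 * τ * c) ^ 2)) := by
      rw [re_ofReal_mul, ← div_eq_mul_inv, div_re, ← Complex.sq_norm, n1]
      simp only [add_re, sub_re, add_im, sub_im, ofReal_re, ofReal_im, re_ofReal_mul,
        im_ofReal_mul, I_re, I_im]
      ring
    have a1 : τ ^ 2 ≤ 1 / 24 := by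
      have : A ^ 2 = τ ^ 2 * ((3 * r' + r) * (r' + r)) := by rw [← mul_assoc, e]; linarith
      have a0 : 8 * r ^ 2 ≤ (3 * r' + r) * (r' + r) := by nlinarith
      have := mul_le_mul_of_nonneg_left a0 (sq_nonneg τ)
      by_contra hc
      nlinarith [mul_pos (sub_pos.2 (not_le.1 hc)) (pow_pos hr 2)]
    have a2 : 1 / 2 ≤ ((1 - τ ^ 2) ^ 2 - (2 * τ * c) ^ 2) / ((1 - τ ^ 2) ^ 2 + (2 * τ * c) ^ 2) := by
      rw [le_div_iff₀ hN]
      nlinarith [mul_le_mul_of_nonneg_left hc (sq_nonneg τ), sq_nonneg τ]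
    rw [e4]
    nlinarith

theorem kl_rho {r0 : ℝ} (h0 : 0 < r0) :
    ∃ ρ : ℝ → ℝ, ContDiff ℝ ∞ ρ ∧ (∀ r, 0 < ρ r) ∧ ∀ r, r0 ≤ r → ρ r = r := by
  have h1 : ∀ r, r0 ≤ r → r + (1 - Real.smoothTransition (r / r0)) * (r0 - r) = r := fun r h => by
    rw [Real.smoothTransition.one_of_one_le ((one_le_div h0).2 h), sub_self, zero_mul, add_zero]
  refine ⟨fun r => r + (1 - Real.smoothTransition (r / r0)) * (r0 - r), contDiff_id.add
    ((contDiff_const.sub (Real.smoothTransition.contDiff.comp (contDiff_id.div_const _))).mul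
      (contDiff_const.sub contDiff_id)), fun r => ?_, h1⟩
  rcases le_or_gt r 0 with h | h
  · simpa [Real.smoothTransition.zero_of_nonpos (div_nonpos_of_nonpos_of_nonneg h h0.le)] using h0
  rcases le_total r r0 with h' | h'
  · exact add_pos_of_pos_of_nonneg h
      (mul_nonneg (sub_nonneg.2 (Real.smoothTransition.le_one _)) (sub_nonneg.2 h'))
  · exact h.trans_eq (h1 r h').symm

theorem kl_bdd {F : Type} [NormedAddCommGroup F] {f : ℝ × ℝ × ℝ → F} (hf : Continuous f)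
    (hp : ∀ r A θ, f (r, A, θ + 2 * Real.pi) = f (r, A, θ)) (R : ℝ) :
    ∃ C : ℝ, ∀ r A θ, |r| ≤ R → |A| ≤ R → ‖f (r, A, θ)‖ ≤ C := by
  obtain ⟨C, hC⟩ := ((isCompact_Icc (a := -R) (b := R)).prod ((isCompact_Icc (a := -R) (b := R)).prod
    (isCompact_Icc (a := 0) (b := 2 * Real.pi)))).exists_bound_of_continuousOn hf.continuousOn
  refine ⟨C, fun r A θ hr hA => ?_⟩
  obtain ⟨y, hy, e⟩ := Function.Periodic.exists_mem_Ico₀ (f := fun θ => f (r, A, θ)) (hp r A)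
    Real.two_pi_pos θ
  rw [e]
  exact hC _ ⟨abs_le.1 hr, abs_le.1 hA, Ico_subset_Icc_self hy⟩

theorem exists_loop {r0 : ℝ} (h0 : 0 < r0) : ∃ V U : ℝ × ℝ × ℝ → ℂ,
    ContDiff ℝ ∞ V ∧ ContDiff ℝ ∞ U ∧
    (∀ r A θ, V (r, A, θ + 2 * Real.pi) = V (r, A, θ)) ∧
    (∀ r A θ, U (r, A, θ + 2 * Real.pi) = U (r, A, θ)) ∧
    (∀ r θ, V (r, 0, θ) = 0) ∧
    (∀ R : ℝ, ∃ C : ℝ, ∀ r A θ, |r| ≤ R → |A| ≤ R →
      ‖V (r, A, θ)‖ ≤ C ∧ ‖fderiv ℝ V (r, A, θ)‖ ≤ C) ∧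
    ∀ r A θ, r0 ≤ r → fderiv ℝ V (r, A, θ) (0, 0, 1) = U (r, A, θ) - r ∧
      ‖U (r, A, θ)‖ ^ 2 = r ^ 2 + A ^ 2 ∧ ‖U (r, A, θ) - r‖ ≤ 5 * |A| ∧
      (3 * A ^ 2 ≤ r ^ 2 → r / 2 ≤ (U (r, A, θ)).re) := by
  obtain ⟨ρ, hρ, hρ0, hρ1⟩ := kl_rho h0
  set q : ℝ × ℝ × ℝ → ℝ := fun x => √(ρ x.1 ^ 2 + x.2.1 ^ 2) with hq
  set τ : ℝ × ℝ × ℝ → ℝ := fun x => x.2.1 / √((q x + ρ x.1) * (3 * q x + ρ x.1)) with hτ
  have a0 : ∀ x : ℝ × ℝ × ℝ, 0 < ρ x.1 ^ 2 + x.2.1 ^ 2 := fun x => by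
    have := hρ0 x.1
    positivity
  have a1 : ∀ x, q x ^ 2 = ρ x.1 ^ 2 + x.2.1 ^ 2 := fun x => Real.sq_sqrt (a0 x).le
  have a2 : ∀ x, ρ x.1 ≤ q x := fun x => Real.le_sqrt_of_sq_le (le_add_of_nonneg_right (sq_nonneg _))
  have a3 : ∀ x, 0 < q x + ρ x.1 := fun x => by linarith [hρ0 x.1, a2 x]
  have a3' : ∀ x, 0 < 3 * q x + ρ x.1 := fun x => by linarith [hρ0 x.1, a2 x]
  have a4 : ∀ x, τ x ^ 2 * (3 * q x + ρ x.1) = q x - ρ x.1 := fun x => by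
    rw [hτ, div_pow, Real.sq_sqrt (mul_pos (a3 x) (a3' x)).le, ← div_div,
      div_mul_cancel₀ _ (a3' x).ne', div_eq_iff (a3 x).ne']
    linarith [a1 x]
  have a5 : ∀ x, τ x ^ 2 < 1 := fun x => by nlinarith [a4 x, hρ0 x.1, a2 x, sq_nonneg (τ x)]
  have s0 : ContDiff ℝ ∞ fun x : ℝ × ℝ × ℝ => ρ x.1 := hρ.comp contDiff_fst
  have s1 : ContDiff ℝ ∞ q := ContDiff.sqrt (by fun_prop) fun x => (a0 x).ne'
  have s2 : ContDiff ℝ ∞ τ := ContDiff.div (by fun_prop) (ContDiff.sqrt (by fun_prop)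
    fun x => (mul_pos (a3 x) (a3' x)).ne') fun x => (Real.sqrt_pos.2 (mul_pos (a3 x) (a3' x))).ne'
  have co : ∀ {f : ℝ × ℝ × ℝ → ℝ}, ContDiff ℝ ∞ f → ContDiff ℝ ∞ fun x => (f x : ℂ) :=
    fun hf => ofRealCLM.contDiff.comp hf
  have s3 : ContDiff ℝ ∞ fun x : ℝ × ℝ × ℝ => (x.2.2 : ℂ) * I :=
    (co (by fun_prop)).mul contDiff_const
  have lg : ∀ {w : ℝ × ℝ × ℝ → ℂ}, ContDiff ℝ ∞ w → (∀ x, ‖w x‖ = 1) →
      ContDiff ℝ ∞ fun x => log (1 + -(I * τ x * w x)) := fun hw h1 =>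
    contDiff_iff_contDiffAt.2 fun x => ContDiffAt.comp (g := log) x
      ((contDiffAt_log (kl_slit (a5 x) (h1 x))).restrict_scalars ℝ)
      (contDiff_const.add ((contDiff_const.mul (co s2)).mul hw).neg).contDiffAt
  set V : ℝ × ℝ × ℝ → ℂ := fun x => klV (q x + ρ x.1) (τ x) x.2.2 with hV
  have sV : ContDiff ℝ ∞ V := (contDiff_const.mul (co (s1.add s0))).mul
    ((lg s3.cexp fun x => norm_exp_ofReal_mul_I _).sub (lg s3.neg.cexp fun x => kl_norm1 _))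
  have pV : ∀ r A θ, V (r, A, θ + 2 * Real.pi) = V (r, A, θ) := fun r A θ => by
    simp only [hV, hτ, hq, klV, exp_neg, ofReal_add, add_mul, exp_add, ofReal_mul, ofReal_ofNat,
      exp_two_pi_mul_I, mul_one]
  refine ⟨V, fun x => klU (q x) (τ x) x.2.2, sV, (co s1).mul (((co (by fun_prop)).add
    ((co (by fun_prop)).mul contDiff_const)).mul (((co (by fun_prop)).sub
    ((co (by fun_prop)).mul contDiff_const)).inv fun x => kl_ne (sub_pos.2 (a5 x)) _)), pV,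
    fun r A θ => by simp only [hτ, hq, klU, Real.cos_add_two_pi], fun r θ => by simp [hV, hτ, klV],
    fun R => ?_, fun r A θ hr => ?_⟩
  · obtain ⟨C, hC⟩ := kl_bdd sV.continuous pV R
    obtain ⟨C', hC'⟩ := kl_bdd (sV.continuous_fderiv (by simp)) (fun r A θ => by
      have : (fun x => V (x + (0, 0, 2 * Real.pi))) = V := funext fun ⟨r, A, θ⟩ => by
        simpa using pV r A θ
      simpa [this] using (fderiv_comp_add_right (𝕜 := ℝ) (f := V) (x := (r, A, θ))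
        (0, 0, 2 * Real.pi)).symm) R
    exact ⟨max C C', fun r A θ hr hA =>
      ⟨(hC r A θ hr hA).trans (le_max_left _ _), (hC' r A θ hr hA).trans (le_max_right _ _)⟩⟩
  · have e : ρ (r, A, θ).1 = r := hρ1 r hr
    have b1 := a1 (r, A, θ)
    have b2 := a2 (r, A, θ)
    have b4 := a4 (r, A, θ)
    rw [e] at b1 b2 b4
    refine ⟨?_, kl_alg (h0.trans_le hr) b2 b1 b4 θ⟩
    have d1 := ((sV.differentiable (by simp)) (r, A, θ)).hasFDerivAt.comp_hasDerivAt θ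
      ((hasDerivAt_const θ r).prodMk ((hasDerivAt_const θ A).prodMk (hasDerivAt_id θ)))
    have d2 := kl_deriv (a5 (r, A, θ)) (a4 _) θ
    exact (d1.unique d2).trans (by rw [e])

end Crest.Agent.R216
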