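import Crest.Agent.R216.Defs
/-! # R216: the ideal values of the derivatives of the folded model and their algebra.
`X ≥ 0` is the folded coordinate.  `DX = sn iX + cs iN`, `DY = iY` are the ideal partial derivatives
of the creased model; components `0,1` are `W`, component `2` is `u`. -/

set_option autoImplicit false
set_option linter.unusedSectionVars false
open scoped Matrix

namespace Crest.Agent.R216

structure Zone (s1 X Y : ℝ) where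
  sb : ℝ
  cb : ℝ
  la : ℝ
  w : ℝ
  lb : ℝ
  m : ℝ
  p0 : ℝ
  ur : ℝ
  ui : ℝ
  z : ℝ
  gX : ℝ
  gY : ℝ
  sc : sb ^ 2 + cb ^ 2 = 1
  sb_le : |sb| ≤ 1 / 4
  cb_pos : 0 < cb
  sb_pos : 1 ≤ Y → sb = 1 / 4
  sb_neg : Y ≤ -1 → sb = -1 / 4
  lw : la ^ 2 + w ^ 2 = 1
  la_pos : 0 < la
  w_mem : 0 ≤ w ∧ w ≤ 1 / 2
  w_in : |Y| ≤ 1 → w = 1 / 2
  w_out : 2 ≤ |Y| → w = 0
  lb_mem : 0 ≤ lb ∧ lb ≤ 1
  lb_in : |Y| ≤ 4 → lb = 1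
  lb_out : 5 ≤ |Y| → lb = 0
  m_mem : 0 ≤ m ∧ m ≤ 1
  m_in : X ≤ 2 * s1 → m = 1
  m_out : 3 * s1 ≤ X → m = 0
  p_mem : 0 ≤ p0 ∧ p0 ≤ 1
  p_in : X ≤ s1 → p0 = 1
  p_out : 2 * s1 ≤ X → p0 = 0
  u_sq : ur ^ 2 + ui ^ 2 = la ^ 2 + (p0 * w) ^ 2
  ur_ge : la / 2 ≤ ur
  u_triv : p0 * w = 0 → ur = la ∧ ui = 0
  z_mem : 0 ≤ z ∧ z ≤ 1
  z_in : X ≤ 10 → |Y| ≤ 10 → z = 1 ∧ gX = 0
  gX_le : |gX| ≤ 1 / 100
  gY_le : |gY| ≤ 1 / 100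
  gY_in : |Y| ≤ 10 → gY = 0

namespace Zone
variable {s1 X Y : ℝ} (Z : Zone s1 X Y) (κ : ℝ)

def iX : Fin 3 → ℝ := ![0, -κ * Z.lb * Z.m * Z.sb + Z.gX, Z.m * Z.cb + 1 - Z.m]
def iY : Fin 3 → ℝ :=
  ![Z.ui, (Z.ur - Z.la) * Z.cb + Z.la * Z.lb * Z.cb * Z.z + Z.gY, κ * Z.ur * Z.sb]
def iN : Fin 3 → ℝ := (Z.p0 * Z.lb) • ![Z.ur, -Z.ui * Z.cb, -κ * Z.ui * Z.sb]
def DX (sn cs : ℝ) : Fin 3 → ℝ := sn • Z.iX κ + cs • Z.iN κ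

theorem sb_sq : Z.sb ^ 2 ≤ 1 / 16 := by
  have := abs_le.1 Z.sb_le
  nlinarith
theorem sb_sq_eq (h : 1 ≤ |Y|) : Z.sb ^ 2 = 1 / 16 := by
  rcases le_abs.1 h with h | h
  · rw [Z.sb_pos h]; norm_num
  · rw [Z.sb_neg (by linarith)]; norm_num
theorem cb_ge : 24 / 25 ≤ Z.cb := by nlinarith [Z.sc, Z.sb_sq, Z.cb_pos]
theorem cb_le : Z.cb ≤ 1 := by nlinarith [Z.sc, sq_nonneg Z.sb, Z.cb_pos]
theorem la_sq : 3 / 4 ≤ Z.la ^ 2 := by nlinarith [Z.lw, Z.w_mem.1, Z.w_mem.2]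
theorem la_ge : 43 / 50 ≤ Z.la := by nlinarith [Z.la_sq, Z.la_pos]
theorem la_le : Z.la ≤ 1 := by nlinarith [Z.lw, sq_nonneg Z.w, Z.la_pos]
theorem u_le : Z.ur ^ 2 + Z.ui ^ 2 ≤ 1 := by
  have h1 : Z.p0 ^ 2 ≤ 1 := by nlinarith [Z.p_mem.1, Z.p_mem.2]
  rw [Z.u_sq, ← Z.lw, mul_pow]
  nlinarith [sq_nonneg Z.w]
theorem u_ge : 3 / 4 ≤ Z.ur ^ 2 + Z.ui ^ 2 := by
  rw [Z.u_sq]; nlinarith [Z.la_sq, sq_nonneg (Z.p0 * Z.w)]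
theorem ur_pos : 0 < Z.ur := by linarith [Z.ur_ge, Z.la_pos]
theorem ur_le : Z.ur ≤ 1 := by nlinarith [Z.u_le, sq_nonneg Z.ui]
theorem ui_le : |Z.ui| ≤ 23 / 25 := by
  refine abs_le_of_sq_le_sq ?_ (by norm_num)
  nlinarith [Z.u_le, Z.ur_ge, Z.la_ge]
theorem triv {s1 X Y : ℝ} (Z : Zone s1 X Y) (h : 2 * s1 ≤ X ∨ 2 ≤ |Y|) : Z.ur = Z.la ∧ Z.ui = 0 := by
  refine Z.u_triv ?_
  rcases h with h | h
  · rw [Z.p_out h, zero_mul]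
  · rw [Z.w_out h, mul_zero]

theorem zn_abs_mul {a b A B : ℝ} (ha : |a| ≤ A) (hb : |b| ≤ B) : |a * b| ≤ A * B := by
  rw [abs_mul]; exact mul_le_mul ha hb (abs_nonneg _) ((abs_nonneg _).trans ha)

theorem zn_unit {a : ℝ} (h : 0 ≤ a ∧ a ≤ 1) : |a| ≤ 1 := abs_le.2 ⟨by linarith [h.1], h.2⟩

/-- the case of a rank one `dW` -/
theorem zn_rank_one {r0 r1 u0 u1 : ℝ} (hr : r0 ^ 2 + r1 ^ 2 ≤ 1) (hu : u0 ^ 2 + u1 ^ 2 ≤ 2)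
    (h : |r0 * u0 + r1 * u1| ≤ 100 * (1 - (r0 ^ 2 + r1 ^ 2))) :
    (∀ a b : ℝ, (a * 0 + b * 0) ^ 2 + (a * r0 + b * r1) ^ 2 ≤ a ^ 2 + b ^ 2) ∧
    ∃ τ0 τ1 : ℝ, τ0 ^ 2 + τ1 ^ 2 ≤ 10 ^ 6 ∧
      (1 - 0 ^ 2 - r0 ^ 2) * τ0 - (0 * 0 + r0 * r1) * τ1 = u0 ∧
      -(0 * 0 + r0 * r1) * τ0 + (1 - 0 ^ 2 - r1 ^ 2) * τ1 = u1 := by
  constructor
  · intro a b
    nlinarith [sq_nonneg (a * r1 - b * r0),
      mul_le_mul_of_nonneg_left hr (add_nonneg (sq_nonneg a) (sq_nonneg b))]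
  · obtain ⟨c, hc, e⟩ : ∃ c : ℝ, |c| ≤ 100 ∧ c * (1 - (r0 ^ 2 + r1 ^ 2)) = r0 * u0 + r1 * u1 := by
      rcases hr.eq_or_lt with h1 | h1
      · refine ⟨0, by norm_num, ?_⟩
        rw [h1, sub_self, mul_zero] at h
        rw [zero_mul, abs_nonpos_iff.1 h]
      · have h2 : 0 < 1 - (r0 ^ 2 + r1 ^ 2) := by linarith
        refine ⟨(r0 * u0 + r1 * u1) / (1 - (r0 ^ 2 + r1 ^ 2)), ?_, div_mul_cancel₀ _ h2.ne'⟩
        rw [abs_div, abs_of_pos h2, div_le_iff₀ h2]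
        exact h
    refine ⟨u0 + c * r0, u1 + c * r1, ?_, by linear_combination r0 * e, by linear_combination r1 * e⟩
    have hc2 : c ^ 2 ≤ 100 ^ 2 := sq_le_sq' (abs_le.1 hc).1 (abs_le.1 hc).2
    nlinarith [sq_nonneg (u0 - c * r0), sq_nonneg (u1 - c * r1),
      mul_le_mul_of_nonneg_left hr (sq_nonneg c)]

theorem zn_small {r0 r1 u0 u1 : ℝ} (hr : r0 ^ 2 + r1 ^ 2 ≤ 97 / 100) (hu : u0 ^ 2 + u1 ^ 2 ≤ 2) :
    |r0 * u0 + r1 * u1| ≤ 100 * (1 - (r0 ^ 2 + r1 ^ 2)) := by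
  refine abs_le.2 ⟨?_, ?_⟩
  · nlinarith [sq_nonneg (r0 + u0), sq_nonneg (r1 + u1)]
  · nlinarith [sq_nonneg (r0 - u0), sq_nonneg (r1 - u1)]

theorem DX_0 (sn cs : ℝ) : Z.DX κ sn cs 0 = cs * (Z.p0 * Z.lb * Z.ur) := by simp [DX, iX, iN]
theorem DX_1 (sn cs : ℝ) : Z.DX κ sn cs 1 =
    sn * (-κ * Z.lb * Z.m * Z.sb + Z.gX) - cs * (Z.p0 * Z.lb * (Z.ui * Z.cb)) := by
  simp [DX, iX, iN]; ring
theorem DX_2 (sn cs : ℝ) : Z.DX κ sn cs 2 =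
    sn * (Z.m * Z.cb + 1 - Z.m) - cs * (Z.p0 * Z.lb * (κ * Z.ui * Z.sb)) := by
  simp [DX, iX, iN]; ring
theorem iY_0 : Z.iY κ 0 = Z.ui := rfl
theorem iY_1 : Z.iY κ 1 = (Z.ur - Z.la) * Z.cb + Z.la * Z.lb * Z.cb * Z.z + Z.gY := rfl
theorem iY_2 : Z.iY κ 2 = κ * Z.ur * Z.sb := rfl
theorem uX_mem : 24 / 25 ≤ Z.m * Z.cb + 1 - Z.m ∧ Z.m * Z.cb + 1 - Z.m ≤ 1 := by
  constructor <;> nlinarith [Z.m_mem.1, Z.m_mem.2, Z.cb_ge, Z.cb_le]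

variable {κ} (hκ : κ = 1 ∨ κ = -1) (hs0 : 0 < s1) (hs1 : s1 ≤ 1) (hX : 0 ≤ X)
include hκ hs0 hs1 hX

theorem norm_le : ‖Z.iX κ‖ ≤ 1 ∧ ‖Z.iY κ‖ ≤ 2 ∧ ‖Z.iN κ‖ ≤ 1 := by
  have hk : |κ| ≤ 1 := by rcases hκ with rfl | rfl <;> simp
  have hk' : |-κ| ≤ 1 := by rwa [abs_neg]
  have hlb := zn_unit Z.lb_mem
  have hm := zn_unit Z.m_mem
  have hp := zn_unit Z.p_mem
  have hz := zn_unit Z.z_mem
  have hcb := zn_unit ⟨Z.cb_pos.le, Z.cb_le⟩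
  have hla := zn_unit ⟨Z.la_pos.le, Z.la_le⟩
  have hur := zn_unit ⟨Z.ur_pos.le, Z.ur_le⟩
  have hui : |-Z.ui| ≤ 23 / 25 := by rw [abs_neg]; exact Z.ui_le
  have hd : |Z.ur - Z.la| ≤ 1 / 2 :=
    abs_le.2 ⟨by linarith [Z.ur_ge, Z.la_le], by linarith [Z.ur_le, Z.la_ge]⟩
  refine ⟨(pi_norm_le_iff_of_nonneg zero_le_one).2 fun i => ?_,
    (pi_norm_le_iff_of_nonneg zero_le_two).2 fun i => ?_,
    (pi_norm_le_iff_of_nonneg zero_le_one).2 fun i => ?_⟩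
  · fin_cases i
    · simp [iX]
    · change |-κ * Z.lb * Z.m * Z.sb + Z.gX| ≤ 1
      have := zn_abs_mul (zn_abs_mul (zn_abs_mul hk' hlb) hm) Z.sb_le
      linarith [abs_add_le (-κ * Z.lb * Z.m * Z.sb) Z.gX, Z.gX_le]
    · change |Z.m * Z.cb + 1 - Z.m| ≤ 1
      exact zn_unit ⟨by linarith [Z.uX_mem.1], Z.uX_mem.2⟩
  · fin_cases i
    · change |Z.ui| ≤ 2
      linarith [Z.ui_le]
    · change |(Z.ur - Z.la) * Z.cb + Z.la * Z.lb * Z.cb * Z.z + Z.gY| ≤ 2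
      have h1 := abs_le.1 (zn_abs_mul hd hcb)
      have h2 := abs_le.1 (zn_abs_mul (zn_abs_mul (zn_abs_mul hla hlb) hcb) hz)
      have h3 := abs_le.1 Z.gY_le
      exact abs_le.2 ⟨by linarith [h1.1, h2.1, h3.1], by linarith [h1.2, h2.2, h3.2]⟩
    · change |κ * Z.ur * Z.sb| ≤ 2
      linarith [zn_abs_mul (zn_abs_mul hk hur) Z.sb_le]
  · fin_cases i
    · change |Z.p0 * Z.lb * Z.ur| ≤ 1
      linarith [zn_abs_mul (zn_abs_mul hp hlb) hur]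
    · change |Z.p0 * Z.lb * (-Z.ui * Z.cb)| ≤ 1
      linarith [zn_abs_mul (zn_abs_mul hp hlb) (zn_abs_mul hui hcb)]
    · change |Z.p0 * Z.lb * (-κ * Z.ui * Z.sb)| ≤ 1
      linarith [zn_abs_mul (zn_abs_mul hp hlb) (zn_abs_mul (zn_abs_mul hk' Z.ui_le) Z.sb_le)]

/-- near the crease the three ideal vectors are orthonormal -/
theorem orthonormal (h1 : X ≤ s1) (h2 : |Y| ≤ 4) :
    Z.iX κ ⬝ᵥ Z.iX κ = 1 ∧ Z.iY κ ⬝ᵥ Z.iY κ = 1 ∧ Z.iN κ ⬝ᵥ Z.iN κ = 1 ∧ Z.iX κ ⬝ᵥ Z.iY κ = 0 ∧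
      Z.iX κ ⬝ᵥ Z.iN κ = 0 ∧ Z.iY κ ⬝ᵥ Z.iN κ = 0 := by
  have hk : κ ^ 2 = 1 := by rcases hκ with rfl | rfl <;> norm_num
  have e1 := Z.lb_in h2
  have e2 := Z.m_in (by linarith)
  have e3 := Z.p_in h1
  obtain ⟨e4, e5⟩ := Z.z_in (by linarith) (by linarith)
  have e6 := Z.gY_in (by linarith)
  have e7 : Z.ur ^ 2 + Z.ui ^ 2 = 1 := by rw [Z.u_sq, e3, one_mul, Z.lw]
  have e8 := Z.sc
  simp only [iX, iY, iN, e1, e2, e3, e4, e5, e6, dotProduct, Fin.sum_univ_three, Pi.smul_apply,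
    smul_eq_mul, Matrix.cons_val_zero, Matrix.cons_val_one, Matrix.cons_val]
  refine ⟨?_, ?_, ?_, ?_, ?_, ?_⟩
  · linear_combination Z.sb ^ 2 * hk + e8
  · linear_combination Z.ur ^ 2 * Z.sb ^ 2 * hk + Z.ur ^ 2 * e8 + e7
  · linear_combination Z.ui ^ 2 * Z.sb ^ 2 * hk + Z.ui ^ 2 * e8 + e7
  · ring
  · ring
  · linear_combination -Z.ur * Z.ui * Z.sb ^ 2 * hk - Z.ur * Z.ui * e8

theorem uX_ge : 9 / 10 ≤ Z.iX κ 2 := by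
  change 9 / 10 ≤ Z.m * Z.cb + 1 - Z.m
  linarith [Z.uX_mem.1]
theorem uY_ge : (1 ≤ Y → 1 / 10 ≤ κ * Z.iY κ 2) ∧ (Y ≤ -1 → κ * Z.iY κ 2 ≤ -1 / 10) := by
  have hk : κ * κ = 1 := by rcases hκ with rfl | rfl <;> norm_num
  rw [iY_2, ← mul_assoc, ← mul_assoc, hk]
  constructor
  · intro h
    rw [Z.sb_pos h]
    linarith [Z.ur_ge, Z.la_ge]
  · intro h
    rw [Z.sb_neg h]
    linarith [Z.ur_ge, Z.la_ge]
theorem uN_le : |Z.iN κ 2| ≤ 23 / 100 := by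
  have hk' : |-κ| ≤ 1 := by rcases hκ with rfl | rfl <;> simp
  change |Z.p0 * Z.lb * (-κ * Z.ui * Z.sb)| ≤ 23 / 100
  linarith [zn_abs_mul (zn_abs_mul (zn_unit Z.p_mem) (zn_unit Z.lb_mem))
    (zn_abs_mul (zn_abs_mul hk' Z.ui_le) Z.sb_le)]

variable {sn cs : ℝ} (hsc : sn ^ 2 + cs ^ 2 = 1) (hcs : 0 ≤ cs)
include hsc hcs

/-- `W` is short and `γ = e - W*e` maps a bounded vector to `du`.  Cases:
* `cs ≠ 0`, `|Y| ≤ 5`: `γ = (1-lb²) e + lb² du²`, `τ = du / (1 - lb² + lb²|du|²)`, `|du|² ≥ sb² = 1/16`;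
* `cs = 0`, `X ≤ 2 s1`, `|Y| ≤ 2`: `γ = du² + Λ dY²`, `τ = (1/u_X, 0)`;
* otherwise `W₀` is constant, `dW₁ = r`, `τ = du + r (r·du)/(1-|r|²)`; if `|Y| ≥ 5` or `X ≥ 3 s1` then
  `|r|² ≤ 0.97`; else `r = lb(-κ sn m sb, la cb)`, `|r·du| ≤ |sb| (w² + 3(1-m))`,
  `1 - |r|² ≥ (1-m) sb² + w² cb²` (if this vanishes, `r·du = 0`). -/
theorem kpt (h : cs ≠ 0 → X ≤ s1 ∧ 7 / 2 ≤ |Y|) :
    (∀ a b : ℝ, (a * Z.DX κ sn cs 0 + b * Z.iY κ 0) ^ 2 + (a * Z.DX κ sn cs 1 + b * Z.iY κ 1) ^ 2 ≤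
      a ^ 2 + b ^ 2) ∧
    ∃ τ0 τ1 : ℝ, τ0 ^ 2 + τ1 ^ 2 ≤ 10 ^ 6 ∧
      (1 - Z.DX κ sn cs 0 ^ 2 - Z.DX κ sn cs 1 ^ 2) * τ0 -
        (Z.DX κ sn cs 0 * Z.iY κ 0 + Z.DX κ sn cs 1 * Z.iY κ 1) * τ1 = Z.DX κ sn cs 2 ∧
      -(Z.DX κ sn cs 0 * Z.iY κ 0 + Z.DX κ sn cs 1 * Z.iY κ 1) * τ0 +
        (1 - Z.iY κ 0 ^ 2 - Z.iY κ 1 ^ 2) * τ1 = Z.iY κ 2 := by
  have hk : κ ^ 2 = 1 := by rcases hκ with rfl | rfl <;> norm_num
  have e8 := Z.sc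
  have hsn : sn ^ 2 ≤ 1 := by nlinarith [sq_nonneg cs]
  have hgX : Z.gX ^ 2 ≤ (1 / 100) ^ 2 := sq_le_sq' (abs_le.1 Z.gX_le).1 (abs_le.1 Z.gX_le).2
  have hgY : Z.gY ^ 2 ≤ (1 / 100) ^ 2 := sq_le_sq' (abs_le.1 Z.gY_le).1 (abs_le.1 Z.gY_le).2
  have hgX' : (sn * Z.gX) ^ 2 ≤ (1 / 100) ^ 2 := by
    rw [mul_pow]; nlinarith [sq_nonneg Z.gX]
  have hla2 : Z.la ^ 2 ≤ 1 := by nlinarith [Z.lw, sq_nonneg Z.w]
  have hcb2 : Z.cb ^ 2 ≤ 1 := by nlinarith [sq_nonneg Z.sb]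
  have hlb2 : Z.lb ^ 2 ≤ 1 := by nlinarith [Z.lb_mem.1, Z.lb_mem.2]
  have hu : (sn * (Z.m * Z.cb + 1 - Z.m)) ^ 2 + (κ * Z.la * Z.sb) ^ 2 ≤ 2 := by
    have h1 : (Z.m * Z.cb + 1 - Z.m) ^ 2 ≤ 1 := by nlinarith [Z.uX_mem.1, Z.uX_mem.2]
    have h2 := mul_le_one₀ hsn (sq_nonneg _) h1
    have h3 := mul_le_mul hla2 Z.sb_sq (sq_nonneg _) zero_le_one
    rw [mul_pow, mul_pow, mul_pow, hk]
    linarith
  rw [DX_0, DX_1, DX_2, iY_0, iY_1, iY_2]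
  by_cases h5 : 5 ≤ |Y|
  · obtain ⟨e1, e2⟩ := Z.triv (.inr (by linarith))
    have e3 := Z.lb_out h5
    simp only [e1, e2, e3, mul_zero, zero_mul, sub_zero, sub_self, zero_add]
    have hr : (sn * Z.gX) ^ 2 + Z.gY ^ 2 ≤ 97 / 100 := by linarith
    simpa only [mul_zero, zero_mul, sub_zero, zero_add] using
      zn_rank_one (hr.trans (by norm_num)) hu (zn_small hr hu)
  have e6 := Z.gY_in (by linarith)
  by_cases hc : cs = 0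
  swap
  · obtain ⟨h1, h2⟩ := h hc
    obtain ⟨e1, e2⟩ := Z.triv (.inr (by linarith))
    have e0 : Z.la = 1 := by
      have h3 := Z.lw
      rw [Z.w_out (by linarith)] at h3
      nlinarith [Z.la_pos]
    have e3 := Z.m_in (by linarith)
    have e4 := Z.p_in h1
    obtain ⟨e5, e7⟩ := Z.z_in (by linarith) (by linarith)
    have e9 := Z.sb_sq_eq (by linarith)
    rw [e1, e2, e0, e3, e4, e5, e6, e7]
    constructor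
    · intro a b
      have e : (a * (cs * (1 * Z.lb * 1)) + b * 0) ^ 2 +
          (a * (sn * (-κ * Z.lb * 1 * Z.sb + 0) - cs * (1 * Z.lb * (0 * Z.cb))) +
            b * ((1 - 1) * Z.cb + 1 * Z.lb * Z.cb * 1 + 0)) ^ 2 =
          Z.lb ^ 2 * (a ^ 2 + b ^ 2 - (a * sn * Z.cb + b * κ * Z.sb) ^ 2) := by
        linear_combination Z.lb ^ 2 * ((a ^ 2 * sn ^ 2 + b ^ 2) * Z.sb ^ 2 * hk +
          (a ^ 2 * sn ^ 2 + b ^ 2) * e8 + a ^ 2 * hsc)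
      rw [e]
      nlinarith [mul_nonneg (sq_nonneg Z.lb) (sq_nonneg (a * sn * Z.cb + b * κ * Z.sb)),
        mul_le_mul_of_nonneg_right hlb2 (add_nonneg (sq_nonneg a) (sq_nonneg b))]
    · set D := 1 - Z.lb ^ 2 + Z.lb ^ 2 * (sn ^ 2 * Z.cb ^ 2 + Z.sb ^ 2) with hD
      have hD1 : 1 / 16 ≤ D := by
        rw [hD, e9]
        nlinarith [mul_nonneg (sq_nonneg Z.lb) (mul_nonneg (sq_nonneg sn) (sq_nonneg Z.cb))]
      have hD0 : 0 < D := by linarith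
      have hi : D⁻¹ ≤ 16 := inv_le_of_inv_le₀ (by norm_num) (by linarith)
      have hi0 := inv_pos.2 hD0
      have hi1 : D * D⁻¹ = 1 := mul_inv_cancel₀ hD0.ne'
      generalize D⁻¹ = d at hi hi0 hi1
      refine ⟨sn * Z.cb * d, κ * Z.sb * d, ?_, ?_, ?_⟩
      · have h3 := mul_le_one₀ hsn (sq_nonneg _) hcb2
        have h4 : d ^ 2 ≤ 16 ^ 2 := pow_le_pow_left₀ hi0.le hi 2
        have h6 := mul_le_mul h3 h4 (sq_nonneg _) zero_le_one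
        simp only [mul_pow, hk, e9]
        linarith
      · rw [hD] at hi1
        linear_combination sn * Z.cb * hi1 - d * sn * Z.cb * Z.lb ^ 2 * (hsc + sn ^ 2 * e8) +
          d * sn * Z.cb * Z.lb ^ 2 * Z.sb ^ 2 * (1 - sn ^ 2) * hk
      · rw [hD] at hi1
        linear_combination κ * Z.sb * hi1 - d * κ * Z.sb * Z.lb ^ 2 * e8
  subst hc
  have hsn1 : sn ^ 2 = 1 := by linarith
  by_cases hin : X ≤ 2 * s1 ∧ |Y| ≤ 2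
  · obtain ⟨h1, h2⟩ := hin
    have e1 := Z.lb_in (by linarith)
    have e3 := Z.m_in h1
    obtain ⟨e5, e7⟩ := Z.z_in (by linarith) (by linarith)
    rw [e1, e3, e5, e6, e7]
    constructor
    · intro a b
      have e : (a * (0 * (Z.p0 * 1 * Z.ur)) + b * Z.ui) ^ 2 +
          (a * (sn * (-κ * 1 * 1 * Z.sb + 0) - 0 * (Z.p0 * 1 * (Z.ui * Z.cb))) +
            b * ((Z.ur - Z.la) * Z.cb + Z.la * 1 * Z.cb * 1 + 0)) ^ 2 =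
          a ^ 2 + b ^ 2 * (Z.ur ^ 2 + Z.ui ^ 2) - (a * sn * Z.cb + b * κ * Z.ur * Z.sb) ^ 2 := by
        linear_combination (a ^ 2 * sn ^ 2 + b ^ 2 * Z.ur ^ 2) * Z.sb ^ 2 * hk +
          (a ^ 2 * sn ^ 2 + b ^ 2 * Z.ur ^ 2) * e8 + a ^ 2 * hsn1
      rw [e]
      nlinarith [sq_nonneg (a * sn * Z.cb + b * κ * Z.ur * Z.sb),
        mul_le_mul_of_nonneg_left Z.u_le (sq_nonneg b)]
    · have hi : Z.cb⁻¹ ≤ 2 := inv_le_of_inv_le₀ (by norm_num) (by linarith [Z.cb_ge])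
      have hi0 := inv_pos.2 Z.cb_pos
      have hi1 : Z.cb * Z.cb⁻¹ = 1 := mul_inv_cancel₀ Z.cb_pos.ne'
      generalize Z.cb⁻¹ = d at hi hi0 hi1
      refine ⟨sn * d, 0, ?_, ?_, ?_⟩
      · rw [mul_pow, hsn1]
        nlinarith
      · linear_combination sn * Z.cb * hi1 - sn * d * e8 - sn * d * Z.sb ^ 2 * hk -
          sn * d * κ ^ 2 * Z.sb ^ 2 * hsn1
      · linear_combination κ * Z.ur * Z.sb * hi1 + κ * Z.ur * Z.sb * Z.cb * d * hsn1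
  obtain ⟨e1, e2⟩ := Z.triv (by
    by_contra h1
    push Not at h1
    exact hin ⟨h1.1.le, h1.2.le⟩)
  simp only [e1, e2, e6, mul_zero, zero_mul, sub_zero, sub_self, zero_add, add_zero]
  by_cases h3 : 3 * s1 ≤ X
  · have e3 := Z.m_out h3
    have hz2 : Z.z ^ 2 ≤ 1 := by nlinarith [Z.z_mem.1, Z.z_mem.2]
    have h6 : Z.la ^ 2 * Z.cb ^ 2 ≤ 15 / 16 := by
      rcases le_total 1 |Y| with h7 | h7
      · have := Z.sb_sq_eq h7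
        nlinarith [mul_le_mul_of_nonneg_right hla2 (sq_nonneg Z.cb)]
      · have h8 := Z.lw
        rw [Z.w_in h7] at h8
        nlinarith [mul_le_mul_of_nonneg_left hcb2 (sq_nonneg Z.la)]
    have hr : (sn * (-κ * Z.lb * Z.m * Z.sb + Z.gX)) ^ 2 + (Z.la * Z.lb * Z.cb * Z.z) ^ 2 ≤
        97 / 100 := by
      have h7 := mul_le_mul h6 (mul_le_one₀ hlb2 (sq_nonneg _) hz2) (by positivity) (by norm_num)
      have e : (Z.la * Z.lb * Z.cb * Z.z) ^ 2 = Z.la ^ 2 * Z.cb ^ 2 * (Z.lb ^ 2 * Z.z ^ 2) := by ring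
      rw [e, e3, mul_zero, zero_mul, zero_add]
      linarith
    simpa only [mul_zero, zero_mul, sub_zero, zero_add] using
      zn_rank_one (hr.trans (by norm_num)) hu (zn_small hr hu)
  · obtain ⟨e5, e7⟩ := Z.z_in (by linarith) (by linarith)
    obtain ⟨hm0, hm1⟩ := Z.m_mem
    have hw := Z.lw
    have hcb3 : 15 / 16 ≤ Z.cb ^ 2 := by linarith [Z.sb_sq]
    have h6 : (1 - Z.m) * Z.sb ^ 2 + 15 / 16 * Z.w ^ 2 ≤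
        1 - ((sn * (-κ * Z.lb * Z.m * Z.sb + Z.gX)) ^ 2 + (Z.la * Z.lb * Z.cb * Z.z) ^ 2) := by
      have e : (sn * (-κ * Z.lb * Z.m * Z.sb + Z.gX)) ^ 2 + (Z.la * Z.lb * Z.cb * Z.z) ^ 2 =
          Z.lb ^ 2 * (Z.m ^ 2 * Z.sb ^ 2 + Z.la ^ 2 * Z.cb ^ 2) := by
        rw [e5, e7]
        linear_combination Z.lb ^ 2 * Z.m ^ 2 * Z.sb ^ 2 * (κ ^ 2 * hsn1 + hk)
      have h7 : Z.lb ^ 2 * (Z.m ^ 2 * Z.sb ^ 2 + Z.la ^ 2 * Z.cb ^ 2) ≤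
          Z.m ^ 2 * Z.sb ^ 2 + Z.la ^ 2 * Z.cb ^ 2 := mul_le_of_le_one_left (by positivity) hlb2
      have h8 : Z.m ^ 2 * Z.sb ^ 2 ≤ Z.m * Z.sb ^ 2 :=
        mul_le_mul_of_nonneg_right (by nlinarith) (sq_nonneg _)
      have h9 := mul_le_mul_of_nonneg_right hcb3 (sq_nonneg Z.w)
      have e' : Z.la ^ 2 * Z.cb ^ 2 = Z.cb ^ 2 - Z.cb ^ 2 * Z.w ^ 2 := by
        linear_combination Z.cb ^ 2 * hw
      rw [e]
      linarith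
    have h7 : |sn * (-κ * Z.lb * Z.m * Z.sb + Z.gX) * (sn * (Z.m * Z.cb + 1 - Z.m)) +
        Z.la * Z.lb * Z.cb * Z.z * (κ * Z.la * Z.sb)| ≤ 1 / 4 * (Z.w ^ 2 + 3 * (1 - Z.m)) := by
      have e : sn * (-κ * Z.lb * Z.m * Z.sb + Z.gX) * (sn * (Z.m * Z.cb + 1 - Z.m)) +
          Z.la * Z.lb * Z.cb * Z.z * (κ * Z.la * Z.sb) =
          κ * Z.lb * Z.sb * ((1 - Z.m) * ((1 + Z.m) * Z.cb - Z.m) - Z.w ^ 2 * Z.cb) := by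
        rw [e5, e7]
        linear_combination -κ * Z.lb * Z.m * Z.sb * (Z.m * Z.cb + 1 - Z.m) * hsn1 +
          κ * Z.lb * Z.sb * Z.cb * hw
      have hk1 : |κ| ≤ 1 := by rcases hκ with rfl | rfl <;> simp
      have h8 : |(1 - Z.m) * ((1 + Z.m) * Z.cb - Z.m) - Z.w ^ 2 * Z.cb| ≤ Z.w ^ 2 + 3 * (1 - Z.m) := by
        have h9 : |(1 + Z.m) * Z.cb - Z.m| ≤ 3 :=
          abs_le.2 ⟨by nlinarith [Z.cb_pos], by nlinarith [Z.cb_le, Z.cb_pos]⟩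
        have h10 := abs_le.1 (zn_abs_mul (abs_of_nonneg (sub_nonneg.2 hm1)).le h9)
        have h11 := mul_le_mul_of_nonneg_left Z.cb_le (sq_nonneg Z.w)
        have h12 := mul_nonneg (sq_nonneg Z.w) Z.cb_pos.le
        exact abs_le.2 ⟨by linarith [h10.1], by linarith [h10.2, sq_nonneg Z.w]⟩
      rw [e]
      simpa only [one_mul] using
        zn_abs_mul (zn_abs_mul (zn_abs_mul hk1 (zn_unit Z.lb_mem)) Z.sb_le) h8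
    have h8 := mul_nonneg (sub_nonneg.2 hm1) (sq_nonneg Z.sb)
    have h9 := sq_nonneg Z.w
    have h10 : 1 / 4 * (Z.w ^ 2 + 3 * (1 - Z.m)) ≤
        100 * ((1 - Z.m) * Z.sb ^ 2 + 15 / 16 * Z.w ^ 2) := by
      rcases le_total 1 |Y| with h11 | h11
      · rw [Z.sb_sq_eq h11]; linarith
      · rw [Z.w_in h11]; linarith
    simpa only [mul_zero, zero_mul, sub_zero, zero_add] using
      zn_rank_one (by linarith) hu (h7.trans (h10.trans (by linarith)))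

/-- (a) `X ≤ 2 s1, |Y| ≤ 4`; (b) `|Y| ≤ 5` otherwise; (c) `|Y| ≥ 5` -/
theorem inj (h : cs ≠ 0 → X ≤ s1) :
    (∀ a b : ℝ, 3 / 4 * (a ^ 2 + b ^ 2) ≤
      (a • Z.DX κ sn cs + b • Z.iY κ) ⬝ᵥ (a • Z.DX κ sn cs + b • Z.iY κ)) ∨
    (0 ≤ Z.DX κ sn cs 0 ∧ Z.iY κ 0 = 0 ∧ 0 ≤ Z.iY κ 1) ∨
    (Z.DX κ sn cs 0 = 0 ∧ Z.iY κ 0 = 0 ∧ 1 ≤ |Y|) := by
  have hk : κ ^ 2 = 1 := by rcases hκ with rfl | rfl <;> norm_num
  by_cases h5 : 5 ≤ |Y|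
  · refine .inr (.inr ⟨?_, (Z.triv (.inr (by linarith))).2, by linarith⟩)
    rw [DX_0, Z.lb_out h5]
    ring
  have e6 := Z.gY_in (by linarith)
  by_cases hin : X ≤ 2 * s1 ∧ |Y| ≤ 4
  · obtain ⟨h1, h2⟩ := hin
    have e1 := Z.lb_in h2
    have e3 := Z.m_in h1
    obtain ⟨e5, e7⟩ := Z.z_in (by linarith) (by linarith)
    have e8 := Z.sc
    refine .inl fun a b => ?_
    have e : (a • Z.DX κ sn cs + b • Z.iY κ) ⬝ᵥ (a • Z.DX κ sn cs + b • Z.iY κ) =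
        a ^ 2 * sn ^ 2 + (a ^ 2 * (cs * Z.p0) ^ 2 + b ^ 2) * (Z.ur ^ 2 + Z.ui ^ 2) := by
      simp only [dotProduct, Fin.sum_univ_three, Pi.add_apply, Pi.smul_apply, smul_eq_mul, DX_0,
        DX_1, DX_2, iY_0, iY_1, iY_2, e1, e3, e5, e6, e7]
      linear_combination (a ^ 2 * sn ^ 2 + (b * Z.ur - a * cs * Z.p0 * Z.ui) ^ 2) *
        (Z.sb ^ 2 * hk + e8)
    have e9 : cs * Z.p0 = cs := by
      by_cases hc : cs = 0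
      · simp [hc]
      · rw [Z.p_in (h hc), mul_one]
    rw [e, e9]
    have h3 := mul_le_mul_of_nonneg_left Z.u_ge
      (add_nonneg (mul_nonneg (sq_nonneg a) (sq_nonneg cs)) (sq_nonneg b))
    have e10 : a ^ 2 * sn ^ 2 + a ^ 2 * cs ^ 2 = a ^ 2 := by linear_combination a ^ 2 * hsc
    nlinarith [mul_nonneg (sq_nonneg a) (sq_nonneg sn)]
  · obtain ⟨e1, e2⟩ := Z.triv (by
      by_contra h1
      push Not at h1
      exact hin ⟨h1.1.le, by linarith [h1.2]⟩)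
    refine .inr (.inl ⟨?_, e2, ?_⟩)
    · rw [DX_0]
      exact mul_nonneg hcs (mul_nonneg (mul_nonneg Z.p_mem.1 Z.lb_mem.1) Z.ur_pos.le)
    · rw [iY_1, e1, e6, sub_self, zero_mul, zero_add, add_zero]
      exact mul_nonneg (mul_nonneg (mul_nonneg Z.la_pos.le Z.lb_mem.1) Z.cb_pos.le) Z.z_mem.1

end Zone

/-- perturbation of quadratic forms -/
theorem quad_pert {ι : Type} [Fintype ι] (hι : Fintype.card ι ≤ 3) {A B A' B' : ι → ℝ} {δ : ℝ}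
    (hδ : δ ≤ 1) (hA : ‖A‖ ≤ 2) (hB : ‖B‖ ≤ 2) (hA' : ‖A' - A‖ ≤ δ) (hB' : ‖B' - B‖ ≤ δ) (a b : ℝ) :
    |(a • A' + b • B') ⬝ᵥ (a • A' + b • B') - (a • A + b • B) ⬝ᵥ (a • A + b • B)| ≤
      30 * δ * (a ^ 2 + b ^ 2) := by
  have hδ0 : 0 ≤ δ := (norm_nonneg _).trans hA'
  have key : ∀ i, |(a • A' + b • B') i * (a • A' + b • B') i - (a • A + b • B) i * (a • A + b • B) i| ≤
      10 * δ * (a ^ 2 + b ^ 2) := by
    intro i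
    have h1 : |A i| ≤ 2 := (norm_le_pi_norm A i).trans hA
    have h2 : |B i| ≤ 2 := (norm_le_pi_norm B i).trans hB
    have h3 : |A' i - A i| ≤ δ := (norm_le_pi_norm (A' - A) i).trans hA'
    have h4 : |B' i - B i| ≤ δ := (norm_le_pi_norm (B' - B) i).trans hB'
    have h5 : |A' i + A i| ≤ 5 := by
      obtain ⟨h1a, h1b⟩ := abs_le.1 h1
      obtain ⟨h3a, h3b⟩ := abs_le.1 h3
      exact abs_le.2 ⟨by linarith, by linarith⟩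
    have h6 : |B' i + B i| ≤ 5 := by
      obtain ⟨h1a, h1b⟩ := abs_le.1 h2
      obtain ⟨h3a, h3b⟩ := abs_le.1 h4
      exact abs_le.2 ⟨by linarith, by linarith⟩
    have e : (a • A' + b • B') i * (a • A' + b • B') i - (a • A + b • B) i * (a • A + b • B) i =
        (a * (A' i - A i) + b * (B' i - B i)) * (a * (A' i + A i) + b * (B' i + B i)) := by
      simp only [Pi.add_apply, Pi.smul_apply, smul_eq_mul]; ring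
    have h7 := (abs_add_le _ _).trans
      (add_le_add (Zone.zn_abs_mul (le_refl |a|) h3) (Zone.zn_abs_mul (le_refl |b|) h4))
    have h8 := (abs_add_le _ _).trans
      (add_le_add (Zone.zn_abs_mul (le_refl |a|) h5) (Zone.zn_abs_mul (le_refl |b|) h6))
    rw [e]
    refine (Zone.zn_abs_mul h7 h8).trans ?_
    rw [← sq_abs a, ← sq_abs b]
    nlinarith [mul_nonneg hδ0 (sq_nonneg (|a| - |b|))]
  simp only [dotProduct]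
  rw [← Finset.sum_sub_distrib]
  refine (Finset.abs_sum_le_sum_abs _ _).trans ((Finset.sum_le_sum fun i _ => key i).trans ?_)
  rw [Finset.sum_const, Finset.card_univ, nsmul_eq_mul]
  have h1 : (Fintype.card ι : ℝ) ≤ 3 := by exact_mod_cast hι
  have h2 : 0 ≤ 10 * δ * (a ^ 2 + b ^ 2) := by positivity
  nlinarith

end Crest.Agent.R216
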