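import Crest.Agent.R216.Prof
import Crest.Agent.R216.Zone
import Crest.Agent.R216.KLoop
import Crest.Agent.R216.HatAuxB
/-! # R216: the folded model -/

set_option autoImplicit false
open scoped Manifold ContDiff Topology Matrix
open Set Filter

namespace Crest.Agent.R216

/-- properties of the folded model `Φ` and of the fold direction `N` on the half plane `X ≥ 0` -/
structure HatP (C0 κ t s1 : ℝ) (Φ N : E2 → Fin 3 → ℝ) : Prop where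
  s_pos : 0 < s1
  s_le : s1 ≤ 1
  Φ_sm : Sm Φ
  N_sm : Sm N
  dN : ∃ L : ℝ, ∀ z : E2, 0 ≤ z 0 → ‖pX N z‖ ≤ L ∧ ‖pY N z‖ ≤ L
  supp : ∀ z : E2, 0 ≤ z 0 → C0 ≤ z 0 ∨ C0 ≤ |z 1| → Φ z 0 = 0 ∧ Φ z 1 = 0 ∧ N z = 0
  bd : ∀ z : E2, 0 ≤ z 0 → |Φ z 0| ≤ C0 ∧ |Φ z 1| ≤ C0 ∧ |Φ z 2| ≤ C0 * (1 + z 0 + |z 1|)
  zone : ∀ z : E2, 0 ≤ z 0 → ∃ Z : Zone s1 (z 0) (z 1),
    ‖pX Φ z - Z.iX κ‖ ≤ t ∧ ‖pY Φ z - Z.iY κ‖ ≤ t ∧ N z = Z.iN κ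

theorem HatD.hatP (D : HatD) : HatP (2 * D.d + 10) D.κ D.t D.s (fun z => D.Φ (z 0) (z 1))
    fun z => D.N (z 0) (z 1) := by
  have hd := D.d_ge
  refine ⟨D.s_pos, D.s_le, D.Φ_sm, D.N_sm, ?_, fun z _ h => ?_, fun z hz => ?_, fun z hz => ?_⟩
  · obtain ⟨L0, h0⟩ := hat_dN D.N_sm (fun z h => D.N_zero h) 0
    obtain ⟨L1, h1⟩ := hat_dN D.N_sm (fun z h => D.N_zero h) 1
    exact ⟨max L0 L1, fun z hz =>
      ⟨(h0 z hz).trans (le_max_left _ _), (h1 z hz).trans (le_max_right _ _)⟩⟩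
  · exact ⟨(D.Φ_far h).1, (D.Φ_far h).2,
      D.N_zero (h.imp (fun h => by linarith) fun h => by linarith)⟩
  · obtain ⟨h0, h1, h2⟩ := D.Φ_bd hz (z 1)
    refine ⟨h0.trans (by linarith), h1.trans (by linarith), h2.trans ?_⟩
    nlinarith [abs_nonneg (z 1)]
  · obtain ⟨T, h1, h2⟩ := D.dX hz (z 1)
    obtain ⟨T', h3, h4⟩ := D.dY hz (z 1)
    refine ⟨D.zone (z 0) (z 1), ?_, ?_, rfl⟩
    · rwa [hat_pX D.Φ_sm h1]
    · rwa [hat_pY D.Φ_sm h3]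

/-- Recipe (`χ : Cut`, loops `V, U` from `exists_loop` with `r0 = 1/2`):
`sb = (χ(2-Y) - χ(2+Y))/4`, `cb = √(1-sb²)`, `w = ev 1 Y / 2`, `la = √(1-w²)`, `lb = ev 4 Y`,
`m = χ(X/s1 - 1)`, `p0 = χ(X/s1)`, `G, Γ, Mx` primitives (`exists_primitive`) of `la lb cb`, `la sb`,
`m` (`|G| ≤ 5`, `0 ≤ Mx ≤ 3 s1` for `X ≥ 0`), `d = max 20 (1000 L)`, `ζ1 = χ(X/d)`, `ζ2 = ev 1 (Y/d)`,
`c̃ = (0, cb, κ sb)`, `e₀ = (1,0,0)`, `V = V(la, p0 w, Y/h)`, `U = U(la, p0 w, Y/h)`,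
`Φ = (0, ζ1 (G ζ2 - κ lb sb Mx), κ Γ + cb Mx + X - Mx) + h (Re V c̃ + Im V e₀)`,
`N = p0 lb (Re U, -Im U cb, -κ Im U sb)`;
`z = ζ1 ζ2`, `gX = ζ1' G ζ2`, `gY = ζ1 G ζ2'`, `ur + i ui = U`.  The errors are `O(s1) + O(h/s1)`:
choose `s1`, then `h`.  `C0 = 2 d + 10`. -/
theorem exists_hat : ∃ C0 : ℝ, 10 ≤ C0 ∧ ∀ κ : ℝ, κ = 1 ∨ κ = -1 → ∀ t > 0,
    ∃ (s1 : ℝ) (Φ N : E2 → Fin 3 → ℝ), HatP C0 κ t s1 Φ N := by
  obtain ⟨χ⟩ := exists_cut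
  obtain ⟨P⟩ := exists_hatY
  obtain ⟨V, U, hV, hU, -, -, h0, hb, hl⟩ := exists_loop (r0 := 1 / 2) (by norm_num)
  obtain ⟨C, hC⟩ := hb 1
  refine ⟨2 * max 20 (1000 * χ.L) + 10, by linarith [le_max_left 20 (1000 * χ.L)],
    fun κ hκ t ht => ?_⟩
  have hB : 0 ≤ P.B := (abs_nonneg _).trans (P.d_sb 0)
  have hC0 : 0 ≤ C := (norm_nonneg _).trans (hC 0 0 0 (by simp) (by simp)).1
  have hL := χ.L_nonneg
  obtain ⟨s, s0, s1, s2⟩ : ∃ s : ℝ, 0 < s ∧ s ≤ 1 ∧ (6 * P.B + 3) * s ≤ t / 2 :=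
    ⟨min 1 (t / 2 / (6 * P.B + 3)), by positivity, min_le_left _ _,
      (le_div_iff₀' (by positivity)).1 (min_le_right _ _)⟩
  obtain ⟨h, h1, h2⟩ : ∃ h : ℝ, 0 < h ∧ h * (C * (χ.L / s) + 2 * (C * P.B) + C + 1) ≤ min (t / 2) 1 :=
    ⟨min (t / 2) 1 / (C * (χ.L / s) + 2 * (C * P.B) + C + 1), by positivity,
      (div_mul_cancel₀ _ (by positivity)).le⟩
  have h3 := h2.trans (min_le_left _ _)
  have h4 := h2.trans (min_le_right _ _)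
  have h5 : 0 ≤ h * (C * (χ.L / s)) := by positivity
  have h6 : 0 ≤ h * (C * P.B) := by positivity
  have h7 : 0 ≤ h * C := by positivity
  obtain ⟨Mx, m1, m2, m3⟩ := exists_primitive (f := fun X => χ.χ (X / s - 1))
    (χ.sm.comp ((contDiff_id.div_const s).sub contDiff_const))
  exact ⟨_, _, _, HatD.hatP ⟨P, χ, V, U, Mx, κ, s, h, max 20 (1000 * χ.L), C, t, hV, hU, m1, h0, hC,
    hl, m3, fun X hX => hat_prim_pos m3 m2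
      (fun x => (abs_of_nonneg (χ.nonneg _)).trans_le (χ.le_one _)) (by positivity)
      (fun x hx => χ.zero _ (by linarith [(le_div_iff₀ s0).2 hx])) hX,
    by rcases hκ with rfl | rfl <;> simp, s0, s1, h1, le_max_left _ _, le_max_right _ _, s2,
    by linarith, by linarith⟩⟩

end Crest.Agent.R216
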