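import Crest.Agent.R216.Prof
import Crest.Agent.R216.Zone
import Crest.Agent.R216.KLoop
/-! # R216: the folded model, data and derivative computations -/

set_option autoImplicit false
open scoped Manifold ContDiff Topology Matrix
open Set Filter

namespace Crest.Agent.R216

theorem hat_mvt {F f : ℝ → ℝ} (hF : ∀ t, HasDerivAt F (f t) t) {s : Set ℝ} (hs : Convex ℝ s) {C : ℝ}
    (hC : ∀ t ∈ s, |f t| ≤ C) {x y : ℝ} (hx : x ∈ s) (hy : y ∈ s) : |F y - F x| ≤ C * |y - x| :=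
  hs.norm_image_sub_le_of_norm_hasDerivWithin_le (fun t _ => (hF t).hasDerivWithinAt) hC hx hy

theorem hat_prim {F f : ℝ → ℝ} (hF : ∀ t, HasDerivAt F (f t) t) (h0 : F 0 = 0)
    (h1 : ∀ t, |f t| ≤ 1) (y : ℝ) : |F y| ≤ |y| := by
  simpa [h0] using hat_mvt hF convex_univ (fun t _ => h1 t) (mem_univ 0) (mem_univ y)

theorem hat_prim_pos {F f : ℝ → ℝ} (hF : ∀ t, HasDerivAt F (f t) t) (h0 : F 0 = 0)
    (h1 : ∀ t, |f t| ≤ 1) {R : ℝ} (hR : 0 ≤ R) (h2 : ∀ t, R ≤ t → f t = 0) {y : ℝ} (hy : 0 ≤ y) :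
    |F y| ≤ R := by
  rcases le_total y R with h | h
  · exact (hat_prim hF h0 h1 y).trans ((abs_of_nonneg hy).trans_le h)
  · have := hat_mvt hF (convex_Ici R) (C := 0) (fun t ht => by rw [h2 t ht, abs_zero])
      self_mem_Ici h
    rw [zero_mul, abs_nonpos_iff, sub_eq_zero] at this
    rw [this]
    exact (hat_prim hF h0 h1 R).trans (abs_of_nonneg hR).le

theorem hat_prim_abs {F f : ℝ → ℝ} (hF : ∀ t, HasDerivAt F (f t) t) (h0 : F 0 = 0)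
    (h1 : ∀ t, |f t| ≤ 1) {R : ℝ} (hR : 0 ≤ R) (h2 : ∀ t, R ≤ |t| → f t = 0) (y : ℝ) :
    |F y| ≤ R := by
  rcases le_total 0 y with hy | hy
  · exact hat_prim_pos hF h0 h1 hR (fun t ht => h2 t (ht.trans (le_abs_self t))) hy
  · have := hat_prim_pos (F := fun t => F (-t)) (f := fun t => -f (-t))
      (fun t => ((hF (-t)).comp t (hasDerivAt_neg t)).congr_deriv (mul_neg_one _)) (by simpa using h0)
      (fun t => by simpa using h1 (-t)) hR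
      (fun t ht => by rw [h2 (-t) (by rw [abs_neg]; exact ht.trans (le_abs_self t)), neg_zero])
      (neg_nonneg.2 hy)
    simpa using this

theorem hat_deriv_zero {f : ℝ → ℝ} {U : Set ℝ} (hU : IsOpen U) {a : ℝ} (h : ∀ y ∈ U, f y = a)
    {y : ℝ} (hy : y ∈ U) : deriv f y = 0 := by
  have : f =ᶠ[𝓝 y] fun _ => a := by
    filter_upwards [hU.mem_nhds hy] with z hz using h z hz
  rw [this.deriv_eq, deriv_const]

theorem hat_dbd {f : ℝ → ℝ} (hf : ContDiff ℝ ∞ f) {R a b : ℝ} (h1 : ∀ y, R ≤ y → f y = a)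
    (h2 : ∀ y, y ≤ -R → f y = b) : ∃ B, ∀ y, |deriv f y| ≤ B := by
  refine HasCompactSupport.exists_bound_of_continuous (f := deriv f)
    (HasCompactSupport.intro (isCompact_Icc (a := -R) (b := R)) fun y hy => ?_)
    (hf.continuous_deriv (by simp))
  rcases not_and_or.1 hy with h | h
  · exact hat_deriv_zero isOpen_Iio (fun z hz => h2 z (le_of_lt hz)) (not_le.1 h)
  · exact hat_deriv_zero isOpen_Ioi (fun z hz => h1 z (le_of_lt hz)) (not_le.1 h)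

theorem hat_d {f : ℝ → ℝ} (hf : ContDiff ℝ ∞ f) (x : ℝ) : HasDerivAt f (deriv f x) x :=
  (hf.differentiable (by simp) x).hasDerivAt

theorem hat_dsc {f : ℝ → ℝ} (hf : ContDiff ℝ ∞ f) (c x : ℝ) :
    HasDerivAt (fun x => f (x / c)) (deriv f (x / c) / c) x :=
  ((hat_d hf (x / c)).comp x ((hasDerivAt_id x).div_const c)).congr_deriv (mul_one_div _ _)

theorem hat_mul {x y a b : ℝ} (hx : |x| ≤ a) (hy : |y| ≤ b) : |x * y| ≤ a * b := by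
  rw [abs_mul]
  exact mul_le_mul hx hy (abs_nonneg _) ((abs_nonneg _).trans hx)

theorem hat_vec {a b c : ℝ → ℝ} {a' b' c' T0 T1 T2 x t : ℝ} (ha : HasDerivAt a a' x)
    (hb : HasDerivAt b b' x) (hc : HasDerivAt c c' x) (h0 : |a' - T0| ≤ t) (h1 : |b' - T1| ≤ t)
    (h2 : |c' - T2| ≤ t) :
    ∃ D, HasDerivAt (fun x => ![a x, b x, c x]) D x ∧ ‖D - ![T0, T1, T2]‖ ≤ t := by
  refine ⟨![a', b', c'], hasDerivAt_pi.2 fun i => ?_,
    (pi_norm_le_iff_of_nonneg ((abs_nonneg _).trans h0)).2 fun i => ?_⟩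
  · fin_cases i
    exacts [ha, hb, hc]
  · fin_cases i
    exacts [h0, h1, h2]

theorem hat_cd {a b c : ℝ × ℝ → ℝ} (ha : ContDiff ℝ ∞ a) (hb : ContDiff ℝ ∞ b)
    (hc : ContDiff ℝ ∞ c) : ContDiff ℝ ∞ fun p => ![a p, b p, c p] := by
  refine contDiff_pi.2 fun i => ?_
  fin_cases i
  exacts [ha, hb, hc]

theorem hat_sm {F : ℝ → ℝ → Fin 3 → ℝ} (hF : ContDiff ℝ ∞ fun p : ℝ × ℝ => F p.1 p.2) :
    Sm fun z : E2 => F (z 0) (z 1) :=
  sm_plane.2 (hF.comp ((EuclideanSpace.proj (𝕜 := ℝ) (0 : Fin 2)).contDiff.prodMk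
    (EuclideanSpace.proj (𝕜 := ℝ) (1 : Fin 2)).contDiff))

theorem hat_pX {F : ℝ → ℝ → Fin 3 → ℝ} (hF : Sm fun z : E2 => F (z 0) (z 1)) {z : E2}
    {D : Fin 3 → ℝ} (h : HasDerivAt (fun X => F X (z 1)) D (z 0)) :
    pX (fun z : E2 => F (z 0) (z 1)) z = D := by
  have h1 : HasDerivAt (fun s : ℝ => z + (s - z 0) • EuclideanSpace.single (0 : Fin 2) (1 : ℝ))
      (EuclideanSpace.single 0 1) (z 0) := by
    simpa using (((hasDerivAt_id (z 0)).sub_const (z 0)).smul_const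
      (EuclideanSpace.single (0 : Fin 2) (1 : ℝ))).const_add z
  have h2 := HasFDerivAt.comp_hasDerivAt_of_eq (z 0)
    ((sm_plane.1 hF).differentiable (by simp) z).hasFDerivAt h1 (by simp)
  change dd _ z _ = D
  rw [dd_plane]
  exact h2.unique (h.congr_of_eventuallyEq (Eventually.of_forall fun s => by simp))

theorem hat_pY {F : ℝ → ℝ → Fin 3 → ℝ} (hF : Sm fun z : E2 => F (z 0) (z 1)) {z : E2}
    {D : Fin 3 → ℝ} (h : HasDerivAt (fun Y => F (z 0) Y) D (z 1)) :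
    pY (fun z : E2 => F (z 0) (z 1)) z = D := by
  have h1 : HasDerivAt (fun s : ℝ => z + (s - z 1) • EuclideanSpace.single (1 : Fin 2) (1 : ℝ))
      (EuclideanSpace.single 1 1) (z 1) := by
    simpa using (((hasDerivAt_id (z 1)).sub_const (z 1)).smul_const
      (EuclideanSpace.single (1 : Fin 2) (1 : ℝ))).const_add z
  have h2 := HasFDerivAt.comp_hasDerivAt_of_eq (z 1)
    ((sm_plane.1 hF).differentiable (by simp) z).hasFDerivAt h1 (by simp)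
  change dd _ z _ = D
  rw [dd_plane]
  exact h2.unique (h.congr_of_eventuallyEq (Eventually.of_forall fun s => by simp))

/-- a smooth function vanishing far out has bounded derivatives on the half plane -/
theorem hat_dN {N : E2 → Fin 3 → ℝ} (hN : Sm N) {R : ℝ}
    (h : ∀ z : E2, R ≤ z 0 ∨ R ≤ |z 1| → N z = 0) (u : Fin 2) :
    ∃ L : ℝ, ∀ z : E2, 0 ≤ z 0 → ‖Zv (V0 u) N z‖ ≤ L := by
  obtain ⟨L, hL⟩ := (isCompact_closedBall (0 : E2) (2 * |R|)).exists_bound_of_continuousOn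
    (Sm.zv (smV_V0 u) hN).cont.continuousOn
  refine ⟨max L 0, fun z hz => ?_⟩
  by_cases h1 : z 0 ≤ R ∧ |z 1| ≤ R
  · refine (hL z ?_).trans (le_max_left _ _)
    rw [mem_closedBall_zero_iff, EuclideanSpace.norm_eq, Real.sqrt_le_left (by positivity),
      Fin.sum_univ_two, Real.norm_eq_abs, Real.norm_eq_abs, abs_of_nonneg hz]
    have h2 := le_abs_self R
    nlinarith [abs_nonneg (z 1), abs_nonneg R, h1.1, h1.2]
  · have h2 : N =ᶠ[𝓝 z] fun _ => 0 := by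
      have c0 : Continuous fun z : E2 => z 0 := by fun_prop
      have c1 : Continuous fun z : E2 => |z 1| := by fun_prop
      rcases not_and_or.1 h1 with h3 | h3
      · filter_upwards [(isOpen_lt continuous_const c0).mem_nhds (not_le.1 h3)] with y hy
        exact h y (.inl (le_of_lt hy))
      · filter_upwards [(isOpen_lt continuous_const c1).mem_nhds (not_le.1 h3)] with y hy
        exact h y (.inr (le_of_lt hy))
    change ‖dd N z _‖ ≤ _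
    rw [dd_congr h2, dd_const]
    simp

/-- the profile functions of `Y` -/
structure HatY where
  sb : ℝ → ℝ
  cb : ℝ → ℝ
  w : ℝ → ℝ
  la : ℝ → ℝ
  lb : ℝ → ℝ
  G : ℝ → ℝ
  Γ : ℝ → ℝ
  B : ℝ
  sb_sm : ContDiff ℝ ∞ sb
  cb_sm : ContDiff ℝ ∞ cb
  w_sm : ContDiff ℝ ∞ w
  la_sm : ContDiff ℝ ∞ la
  lb_sm : ContDiff ℝ ∞ lb
  G_sm : ContDiff ℝ ∞ G
  Γ_sm : ContDiff ℝ ∞ Γ
  sc : ∀ Y, sb Y ^ 2 + cb Y ^ 2 = 1
  sb_le : ∀ Y, |sb Y| ≤ 1 / 4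
  cb_pos : ∀ Y, 0 < cb Y
  sb_pos : ∀ Y, 1 ≤ Y → sb Y = 1 / 4
  sb_neg : ∀ Y, Y ≤ -1 → sb Y = -1 / 4
  lw : ∀ Y, la Y ^ 2 + w Y ^ 2 = 1
  la_pos : ∀ Y, 0 < la Y
  w_mem : ∀ Y, 0 ≤ w Y ∧ w Y ≤ 1 / 2
  w_in : ∀ Y, |Y| ≤ 1 → w Y = 1 / 2
  w_out : ∀ Y, 2 ≤ |Y| → w Y = 0
  lb_mem : ∀ Y, 0 ≤ lb Y ∧ lb Y ≤ 1
  lb_in : ∀ Y, |Y| ≤ 4 → lb Y = 1
  lb_out : ∀ Y, 5 ≤ |Y| → lb Y = 0
  dG : ∀ Y, HasDerivAt G (la Y * lb Y * cb Y) Y
  dΓ : ∀ Y, HasDerivAt Γ (la Y * sb Y) Y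
  G_bd : ∀ Y, |G Y| ≤ 5
  Γ_bd : ∀ Y, |Γ Y| ≤ |Y|
  d_sb : ∀ Y, |deriv sb Y| ≤ B
  d_cb : ∀ Y, |deriv cb Y| ≤ B
  d_w : ∀ Y, |deriv w Y| ≤ B
  d_la : ∀ Y, |deriv la Y| ≤ B
  d_lb : ∀ Y, |deriv lb Y| ≤ B

theorem hat_co {f : ℝ → ℝ} (hf : ContDiff ℝ ∞ f) (h : ∀ y, |f y| ≤ 1 / 2) :
    ContDiff ℝ ∞ (fun y => √(1 - f y ^ 2)) ∧ (∀ y, √(1 - f y ^ 2) ^ 2 = 1 - f y ^ 2) ∧
      (∀ y, 0 < √(1 - f y ^ 2)) ∧ ∀ y, |√(1 - f y ^ 2)| ≤ 1 := by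
  have h1 : ∀ y, 0 < 1 - f y ^ 2 := fun y => by nlinarith [abs_le.1 (h y)]
  refine ⟨(contDiff_const.sub (hf.pow 2)).sqrt fun y => (h1 y).ne', fun y => Real.sq_sqrt (h1 y).le,
    fun y => Real.sqrt_pos.2 (h1 y), fun y => ?_⟩
  rw [abs_of_nonneg (Real.sqrt_nonneg _)]
  exact Real.sqrt_le_one.2 (sub_le_self _ (sq_nonneg _))

theorem exists_hatY : Nonempty HatY := by
  obtain ⟨χ⟩ := exists_cut
  obtain ⟨sb, hsb⟩ : ∃ sb : ℝ → ℝ, sb = fun Y => (χ.χ (2 - Y) - χ.χ (2 + Y)) / 4 := ⟨_, rfl⟩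
  obtain ⟨w, hw⟩ : ∃ w : ℝ → ℝ, w = fun Y => χ.ev 1 Y / 2 := ⟨_, rfl⟩
  have s1 : ContDiff ℝ ∞ sb := hsb ▸ ((χ.sm.comp (contDiff_const.sub contDiff_id)).sub
    (χ.sm.comp (contDiff_const.add contDiff_id))).div_const 4
  have s2 : ContDiff ℝ ∞ w := hw ▸ (χ.ev_sm 1).div_const 2
  have a1 : ∀ Y, |sb Y| ≤ 1 / 4 := fun Y => by
    rw [hsb, abs_le]
    constructor <;>
      linarith [χ.nonneg (2 - Y), χ.nonneg (2 + Y), χ.le_one (2 - Y), χ.le_one (2 + Y)]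
  have a2 : ∀ Y, 1 ≤ Y → sb Y = 1 / 4 := fun Y h => by
    simp only [hsb, χ.one (2 - Y) (by linarith), χ.zero (2 + Y) (by linarith), sub_zero]
  have a3 : ∀ Y, Y ≤ -1 → sb Y = -1 / 4 := fun Y h => by
    simp only [hsb, χ.one (2 + Y) (by linarith), χ.zero (2 - Y) (by linarith), zero_sub]
  have b1 : ∀ Y, 0 ≤ w Y ∧ w Y ≤ 1 / 2 := fun Y => by
    rw [hw]
    constructor <;> linarith [χ.ev_nonneg 1 Y, χ.ev_le_one 1 Y]
  have b2 : ∀ Y, 2 ≤ |Y| → w Y = 0 := fun Y h => by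
    simp only [hw, χ.ev_zero (a := 1) (y := Y) (by linarith), zero_div]
  have b3 : ∀ Y, 5 ≤ |Y| → χ.ev 4 Y = 0 := fun Y h => χ.ev_zero (by linarith)
  obtain ⟨c1, c2, c3, c4⟩ := hat_co s1 fun Y => (a1 Y).trans (by norm_num)
  obtain ⟨d1, d2, d3, d4⟩ := hat_co s2 fun Y => (abs_of_nonneg (b1 Y).1).trans_le (b1 Y).2
  obtain ⟨G, g1, g2, g3⟩ := exists_primitive ((d1.mul (χ.ev_sm 4)).mul c1)
  obtain ⟨Γ, h1, h2, h3⟩ := exists_primitive (d1.mul s1)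
  obtain ⟨B1, e1⟩ := hat_dbd s1 a2 a3
  obtain ⟨B2, e2⟩ := hat_dbd c1 (R := 1) (fun Y h => by rw [a2 Y h]) fun Y h => by rw [a3 Y h]
  have b4 : ∀ Y, 2 ≤ Y → w Y = 0 := fun Y h => b2 Y (h.trans (le_abs_self Y))
  have b5 : ∀ Y, Y ≤ -2 → w Y = 0 := fun Y h => b2 Y (by linarith [neg_le_abs Y])
  obtain ⟨B4, e4⟩ := hat_dbd d1 (R := 2) (fun Y h => by rw [b4 Y h]) fun Y h => by rw [b5 Y h]
  obtain ⟨B3, e3⟩ := hat_dbd s2 b4 b5
  have p1 := (abs_nonneg _).trans (e1 0)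
  have p2 := (abs_nonneg _).trans (e2 0)
  have p3 := (abs_nonneg _).trans (e3 0)
  have p4 := (abs_nonneg _).trans (e4 0)
  have p5 := χ.L_nonneg
  have l1 : ∀ Y, |χ.ev 4 Y| ≤ 1 := fun Y => (abs_of_nonneg (χ.ev_nonneg 4 Y)).trans_le (χ.ev_le_one 4 Y)
  exact ⟨⟨sb, _, w, _, χ.ev 4, G, Γ, B1 + B2 + B3 + B4 + 2 * χ.L, s1, c1, s2, d1, χ.ev_sm 4, g1, h1,
    fun Y => by rw [c2]; ring, a1, c3, a2, a3, fun Y => by rw [d2]; ring, d3, b1,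
    fun Y h => by simp only [hw, χ.ev_one h], b2, fun Y => ⟨χ.ev_nonneg 4 Y, χ.ev_le_one 4 Y⟩,
    fun Y h => χ.ev_one h, b3, g3, h3,
    hat_prim_abs g3 g2 (fun Y => (hat_mul (hat_mul (d4 Y) (l1 Y)) (c4 Y)).trans (by norm_num))
      (by norm_num) fun Y h => by rw [b3 Y h, mul_zero, zero_mul],
    hat_prim h3 h2 fun Y => (hat_mul (d4 Y) (a1 Y)).trans (by norm_num),
    fun Y => by linarith [e1 Y], fun Y => by linarith [e2 Y], fun Y => by linarith [e3 Y],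
    fun Y => by linarith [e4 Y], fun Y => by linarith [χ.ev_d_bd 4 Y]⟩⟩

end Crest.Agent.R216
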