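import Crest.Agent.R216.Defs
/-! # R216: pointwise linear algebra for the convex integration.
`g` is a positive definite symmetric form on `E2`, `w₀, w₁, ℓ` are linear forms (`dW₀, dW₁, du`),
`gp s = (1+s) g - w₀² - w₁²`.  Tool: for symmetric `b` with `|b v v| ≤ c g v v` one has
`|b v w| ≤ c √(g v v) √(g w w)` (polarisation), Cauchy–Schwarz for `g` and for psd forms. -/

set_option autoImplicit false
open scoped Matrix
open Set

namespace Crest.Agent.R216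

/-- `(1+s) g - w₀² - w₁²` -/
noncomputable def gp (g : E2 →L[ℝ] E2 →L[ℝ] ℝ) (w0 w1 : E2 → ℝ) (s : ℝ) (v w : E2) : ℝ :=
  (1 + s) * g v w - (w0 v * w0 w + w1 v * w1 w)

/-- hypothesis of `kuiper` at a point outside `Q0` -/
def KPt (g : E2 →L[ℝ] E2 →L[ℝ] ℝ) (w0 w1 l : E2 → ℝ) (B t : ℝ) : Prop :=
  (∀ v, l v ^ 2 ≤ B ^ 2 * g v v) ∧ (∃ v, g v v ≤ 1 ∧ B⁻¹ ≤ l v) ∧
    ∃ (γ : E2 →ₗ[ℝ] E2 →ₗ[ℝ] ℝ) (τ : E2), (∀ v w, γ v w = γ w v) ∧ (∀ v, 0 ≤ γ v v) ∧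
      g τ τ ≤ B ^ 2 ∧ (∀ v, (γ τ v - l v) ^ 2 ≤ t * g v v) ∧
      ∀ v, |g v v - (w0 v ^ 2 + w1 v ^ 2) - γ v v| ≤ t * g v v

theorem kalg_exp (g : E2 →L[ℝ] E2 →L[ℝ] ℝ) (w0 w1 : E2 →L[ℝ] ℝ) (s : ℝ)
    (hs : ∀ v w, g v w = g w v) (r : ℝ) (a b : E2) :
    gp g w0 w1 s (r • a + b) (r • a + b) =
      gp g w0 w1 s a a * (r * r) + 2 * gp g w0 w1 s a b * r + gp g w0 w1 s b b := by
  simp only [gp, map_add, map_smul, add_apply, smul_apply, smul_eq_mul, hs b a]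
  ring

theorem kalg_cs (g : E2 →L[ℝ] E2 →L[ℝ] ℝ) (w0 w1 : E2 →L[ℝ] ℝ) (s : ℝ)
    (hs : ∀ v w, g v w = g w v) (hp : ∀ v, 0 ≤ gp g w0 w1 s v v) (a b : E2) :
    gp g w0 w1 s a b ^ 2 ≤ gp g w0 w1 s a a * gp g w0 w1 s b b := by
  have h := discrim_le_zero fun r => kalg_exp g w0 w1 s hs r a b ▸ hp (r • a + b)
  unfold discrim at h
  nlinarith

theorem kalg_dir_real {A C D p q s δ : ℝ} (hA0 : 0 ≤ A) (hA : A ≤ 51 / 25)
    (k1 : p * A + q * C = 0) (k2 : p * C + q * D = 0) (hne : p ≠ 0 ∨ q ≠ 0) (hs : |s| ≤ 1)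
    (hδ : 0 ≤ δ) (hδ1 : δ ≤ 1 / 4) (h : |p + s * q| ≤ δ * √(p ^ 2 + q ^ 2)) (a b : ℝ) :
    |A * (a + s * b) ^ 2 - (a * a * A + (a * b + b * a) * C + b * b * D)| ≤
      25 * δ * (a ^ 2 + b ^ 2) := by
  have h1 : √(p ^ 2 + q ^ 2) ≤ |p| + |q| := by
    rw [Real.sqrt_le_left (by positivity)]
    nlinarith [sq_abs p, sq_abs q, mul_nonneg (abs_nonneg p) (abs_nonneg q)]
  have h2 : |p + s * q| ≤ δ * (|p| + |q|) := h.trans (mul_le_mul_of_nonneg_left h1 hδ)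
  have h3 : |p| ≤ 5 / 3 * |q| := by
    have h4 : |p| ≤ |p + s * q| + |s| * |q| := by
      rw [← abs_mul]
      simpa using abs_sub (p + s * q) (s * q)
    have h5 := mul_le_mul_of_nonneg_right hs (abs_nonneg q)
    have h6 := mul_le_mul_of_nonneg_right hδ1 (add_nonneg (abs_nonneg p) (abs_nonneg q))
    linarith
  have hq : q ≠ 0 := by
    rintro rfl
    rw [abs_zero, mul_zero] at h3
    exact hne.elim (fun h => h (abs_nonpos_iff.1 h3)) fun h => h rfl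
  have hq' : 0 < |q| := abs_pos.2 hq
  obtain ⟨r, rfl⟩ : ∃ r, p = r * q := ⟨p / q, by field_simp⟩
  have hC : C = -(r * A) := mul_left_cancel₀ hq (by linarith)
  have hD : D = r * r * A := mul_left_cancel₀ hq (by rw [hC] at k2; linarith)
  have hr : |r| ≤ 5 / 3 := by
    rw [abs_mul] at h3
    exact le_of_mul_le_mul_right h3 hq'
  have hrs : |r + s| ≤ 8 / 3 * δ := by
    rw [← add_mul, abs_mul, abs_mul] at h2
    refine le_of_mul_le_mul_right (h2.trans ?_) hq'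
    nlinarith [mul_le_mul_of_nonneg_right hr (mul_nonneg hδ hq'.le)]
  have e : A * (a + s * b) ^ 2 - (a * a * A + (a * b + b * a) * C + b * b * D) =
      A * ((r + s) * (2 * (a * b) + (s - r) * b ^ 2)) := by
    rw [hC, hD]
    ring
  have h7 : |2 * (a * b) + (s - r) * b ^ 2| ≤ 11 / 3 * (a ^ 2 + b ^ 2) := by
    obtain ⟨s1, s2⟩ := abs_le.1 hs
    obtain ⟨r1, r2⟩ := abs_le.1 hr
    rw [abs_le]
    constructor
    · nlinarith [sq_nonneg (a + b), sq_nonneg a, sq_nonneg b,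
        mul_nonneg (show 0 ≤ s - r + 8 / 3 by linarith) (sq_nonneg b)]
    · nlinarith [sq_nonneg (a - b), sq_nonneg a, sq_nonneg b,
        mul_nonneg (show 0 ≤ 8 / 3 - (s - r) by linarith) (sq_nonneg b)]
  rw [e, abs_mul, abs_mul, abs_of_nonneg hA0]
  have h8 := mul_le_mul hA (mul_le_mul hrs h7 (abs_nonneg _) (by positivity)) (by positivity)
    (by norm_num)
  refine h8.trans ?_
  nlinarith [mul_nonneg hδ (add_nonneg (sq_nonneg a) (sq_nonneg b))]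

/-- `gp (√t) ≥ (√t - t) g ≥ (√t/2) g`, so `τs - τ = gp⁻¹((ℓ - γτ) - (gp - γ)τ)` is bounded;
`ℓ τs = gp τs τs`, and `ℓ v = gp τs v ≤ √(gp τs τs) √(2 g v v)` gives the lower bound. -/
theorem kalg_bound (B : ℝ) (hB : 0 < B) : ∃ B1 : ℝ, 1 ≤ B1 ∧ ∀ (g : E2 →L[ℝ] E2 →L[ℝ] ℝ)
    (w0 w1 l : E2 →L[ℝ] ℝ) (t : ℝ), (∀ v w, g v w = g w v) → (∀ v, 0 ≤ g v v) → 0 < t →
    t ≤ 1 / 4 → KPt g w0 w1 l B t →
    (∀ v, √t / 2 * g v v ≤ gp g w0 w1 √t v v) ∧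
    ∀ τs : E2, (∀ v, gp g w0 w1 √t τs v = l v) →
      g τs τs ≤ B1 ^ 2 ∧ B1⁻¹ ≤ l τs ∧ l τs ≤ B1 := by
  have hA1 : 1 ≤ 16 + 38 * B ^ 2 := by nlinarith [sq_nonneg B]
  refine ⟨(16 + 38 * B ^ 2) * (1 + B), by nlinarith, ?_⟩
  rintro g w0 w1 l t hs hg ht ht4 ⟨hl, ⟨v₀, hv1, hv2⟩, γ, τ, hγs, hγ, hτ, hγl, herr⟩
  set s := √t with hsdef
  have hs0 : 0 < s := Real.sqrt_pos.2 ht
  have hst : s ^ 2 = t := Real.sq_sqrt ht.le
  have hs2 : s ≤ 1 / 2 := by nlinarith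
  have hts : t ≤ s / 2 := by nlinarith
  have hb : ∀ v, s / 2 * g v v ≤ gp g w0 w1 s v v - γ v v ∧
      gp g w0 w1 s v v - γ v v ≤ 3 / 2 * s * g v v := by
    intro v
    have h1 := abs_le.1 (herr v)
    have h2 := mul_le_mul_of_nonneg_right hts (hg v)
    unfold gp
    constructor <;> nlinarith
  have hlow : ∀ v, s / 2 * g v v ≤ gp g w0 w1 s v v := fun v => by linarith [(hb v).1, hγ v]
  have hp : ∀ v, 0 ≤ gp g w0 w1 s v v := fun v =>
    (mul_nonneg (by positivity) (hg v)).trans (hlow v)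
  refine ⟨hlow, fun τs hτs => ?_⟩
  obtain ⟨d, rfl⟩ : ∃ d, τs = τ + d := ⟨τs - τ, by abel⟩
  have hD : g d d ≤ 8 + 18 * B ^ 2 := by
    have e1 : gp g w0 w1 s τ d + gp g w0 w1 s d d = l d := by
      rw [← hτs d]
      simp only [gp, map_add, add_apply]
      ring
    have e2 : l d - γ τ d ≤ s * (g d d / 8 + 2) := by
      refine le_of_sq_le_sq ?_ (by have := hg d; positivity)
      have h1 := hγl d
      have h2 : g d d ≤ (g d d / 8 + 2) ^ 2 := by nlinarith [sq_nonneg (g d d / 8 - 2)]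
      have h3 := mul_le_mul_of_nonneg_left h2 ht.le
      rw [mul_pow, hst]
      nlinarith
    have e3 : gp g w0 w1 s ((6 : ℝ) • τ + d) ((6 : ℝ) • τ + d) -
        γ ((6 : ℝ) • τ + d) ((6 : ℝ) • τ + d) = 36 * (gp g w0 w1 s τ τ - γ τ τ) +
        12 * (gp g w0 w1 s τ d - γ τ d) + (gp g w0 w1 s d d - γ d d) := by
      rw [kalg_exp g w0 w1 s hs]
      simp only [map_add, map_smul, LinearMap.add_apply, LinearMap.smul_apply, smul_eq_mul,
        hγs d τ]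
      ring
    have e4 := (mul_nonneg (by positivity) (hg _)).trans (hb ((6 : ℝ) • τ + d)).1
    rw [e3] at e4
    have e5 := mul_le_mul_of_nonneg_left hτ hs0.le
    have e6 : s * (g d d / 4) ≤ s * (2 + 9 / 2 * B ^ 2) := by
      nlinarith [(hb τ).2, (hb d).2, hlow d]
    have := le_of_mul_le_mul_left e6 hs0
    linarith
  have hG : g (τ + d) (τ + d) ≤ 16 + 38 * B ^ 2 := by
    have h1 := hg (τ - d)
    simp only [map_add, map_sub, add_apply, sub_apply] at h1 ⊢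
    linarith
  have hAB : 16 + 38 * B ^ 2 ≤ (16 + 38 * B ^ 2) * (1 + B) := by nlinarith
  refine ⟨by nlinarith, ?_, ?_⟩
  · have h1 := kalg_cs g w0 w1 s hs hp (τ + d) v₀
    rw [hτs, hτs] at h1
    have h2 : gp g w0 w1 s v₀ v₀ ≤ 2 := by
      unfold gp
      nlinarith [mul_self_nonneg (w0 v₀), mul_self_nonneg (w1 v₀), hg v₀]
    have h3 : 0 ≤ l (τ + d) := hτs (τ + d) ▸ hp (τ + d)
    have h4 : B⁻¹ ^ 2 ≤ l (τ + d) * 2 :=
      (pow_le_pow_left₀ (by positivity) hv2 2).trans (h1.trans (mul_le_mul_of_nonneg_left h2 h3))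
    have h5 : 1 ≤ l (τ + d) * (2 * B ^ 2) := by
      have := mul_le_mul_of_nonneg_right h4 (sq_nonneg B)
      rw [← mul_pow, inv_mul_cancel₀ hB.ne'] at this
      linarith
    rw [inv_le_iff_one_le_mul₀ (by positivity)]
    refine h5.trans (mul_le_mul_of_nonneg_left ?_ h3)
    nlinarith [sq_nonneg B]
  · have h1 : l (τ + d) ≤ B * (16 + 38 * B ^ 2) := by
      refine le_of_sq_le_sq ((hl _).trans ?_) (by positivity)
      rw [mul_pow]
      exact mul_le_mul_of_nonneg_left (by nlinarith) (sq_nonneg B)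
    nlinarith

/-- where `(w₀, w₁, a₀ ℓ)` is already almost isometric, `a₀² ℓ(τs)` is almost `1`:
`ℓ τs = gp τs τs = a₀² (ℓ τs)² + O(√t) g τs τs`. -/
theorem kalg_near (B1 : ℝ) (hB : 1 ≤ B1) (g : E2 →L[ℝ] E2 →L[ℝ] ℝ) (w0 w1 l : E2 →L[ℝ] ℝ)
    (t a0 : ℝ) (hg : ∀ v, 0 ≤ g v v) (ht : 0 < t) (ht1 : t ≤ 1)
    (h : ∀ v, |w0 v ^ 2 + w1 v ^ 2 + (a0 * l v) ^ 2 - g v v| ≤ t * g v v) (τs : E2)
    (hτ : ∀ v, gp g w0 w1 √t τs v = l v) (h1 : g τs τs ≤ B1 ^ 2) (h2 : B1⁻¹ ≤ l τs) :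
    |a0 ^ 2 * l τs - 1| ≤ 2 * B1 ^ 3 * √t := by
  set s := √t with hsdef
  have hs0 : 0 < s := Real.sqrt_pos.2 ht
  have hst : s ^ 2 = t := Real.sq_sqrt ht.le
  have hs1 : s ≤ 1 := by nlinarith
  have hts : t ≤ s := by nlinarith
  have hB0 : 0 < B1 := by linarith
  have hL : 0 < l τs := (inv_pos.2 hB0).trans_le h2
  have h3 : 1 ≤ l τs * B1 := (inv_le_iff_one_le_mul₀ hB0).1 h2
  have e := hτ τs
  unfold gp at e
  have h4 := abs_le.1 (h τs)
  have h5 := mul_le_mul_of_nonneg_right hts (hg τs)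
  have h6 := mul_le_mul_of_nonneg_left h1 hs0.le
  have h7 := mul_nonneg hs0.le (hg τs)
  have h8 : |a0 ^ 2 * l τs - 1| * l τs ≤ 2 * B1 ^ 2 * s := by
    rw [← abs_of_pos hL, ← abs_mul, abs_of_pos hL, abs_le]
    constructor <;> nlinarith
  have h9 := mul_le_mul_of_nonneg_right h8 hB0.le
  have h10 := mul_le_mul_of_nonneg_left h3 (abs_nonneg (a0 ^ 2 * l τs - 1))
  nlinarith

/-- the deficiency `ω = gp - ℓ²/ℓ(τs)` is positive semidefinite with kernel `τs` -/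
theorem kalg_psd (g : E2 →L[ℝ] E2 →L[ℝ] ℝ) (w0 w1 l : E2 →L[ℝ] ℝ) (s : ℝ)
    (hs : ∀ v w, g v w = g w v) (hp : ∀ v, 0 ≤ gp g w0 w1 s v v) (τs : E2)
    (hτ : ∀ v, gp g w0 w1 s τs v = l v) (h2 : 0 < l τs) (v : E2) :
    0 ≤ gp g w0 w1 s v v - l v ^ 2 / l τs := by
  have h1 := kalg_cs g w0 w1 s hs hp τs v
  rw [hτ, hτ] at h1
  rw [sub_nonneg, div_le_iff₀ h2]
  linarith

/-- Approximation of a psd form `ω ≤ 2 g` with kernel vector `τs` by `ω(S,S) ξ²` when the linear phase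
`ξ = x_u + s x_{u'}` almost kills `τs`.  `(x₀,x₁)` are coordinates with dual basis `(e₀,e₁)`;
`v = ξ(v) e_u + x_{u'}(v) T`, `T = e_{u'} - s e_u`, and `T = τs / x_{u'}(τs) - (ξ τs / x_{u'} τs) e_u`. -/
theorem kalg_dir (g : E2 →L[ℝ] E2 →L[ℝ] ℝ) (ω : E2 →ₗ[ℝ] E2 →ₗ[ℝ] ℝ) (x : Fin 2 → E2 →L[ℝ] ℝ)
    (e : Fin 2 → E2) (hx : ∀ u v, x u (e v) = if u = v then 1 else 0)
    (he : ∀ w : E2, w = ∑ u, x u w • e u)
    (hg : ∀ v, |g v v - ∑ u, x u v ^ 2| ≤ 2 / 100 * ∑ u, x u v ^ 2)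
    (hs : ∀ v w, ω v w = ω w v) (hp : ∀ v, 0 ≤ ω v v) (hb : ∀ v, ω v v ≤ 2 * g v v) (τs : E2)
    (hτ0 : τs ≠ 0) (hk : ∀ v, ω τs v = 0) (u u' : Fin 2) (huu : u ≠ u') (s δ : ℝ) (hs1 : |s| ≤ 1)
    (hδ : 0 ≤ δ) (hδ1 : δ ≤ 1 / 4) (h : |x u τs + s * x u' τs| ≤ δ * √(∑ u, x u τs ^ 2)) (v : E2) :
    |ω (e u) (e u) * (x u v + s * x u' v) ^ 2 - ω v v| ≤ 100 * δ * g v v := by
  have hsum : ∀ {β : Type} [AddCommMonoid β] (f : Fin 2 → β), ∑ i, f i = f u + f u' := by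
    intro β _ f
    rw [Fin.sum_univ_two]
    fin_cases u <;> fin_cases u'
    · exact absurd rfl huu
    · rfl
    · exact add_comm _ _
    · exact absurd rfl huu
  have hA : ω (e u) (e u) ≤ 51 / 25 := by
    have h1 := abs_le.1 (hg (e u))
    rw [hsum, hx, hx, if_pos rfl, if_neg huu.symm] at h1
    linarith [hb (e u)]
  have hexp : ∀ a b : E2, ω a b = x u a * x u b * ω (e u) (e u) +
      (x u a * x u' b + x u' a * x u b) * ω (e u) (e u') + x u' a * x u' b * ω (e u') (e u') := by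
    intro a b
    conv_lhs => rw [he a, he b, hsum, hsum]
    simp only [map_add, map_smul, LinearMap.add_apply, LinearMap.smul_apply, smul_eq_mul,
      hs (e u') (e u)]
    ring
  have k1 := hexp τs (e u)
  have k2 := hexp τs (e u')
  rw [hk, hx, hx, if_pos rfl, if_neg huu.symm] at k1
  rw [hk, hx, hx, if_pos rfl, if_neg huu] at k2
  have hgv := abs_le.1 (hg v)
  rw [hsum] at h hgv
  have hne : x u τs ≠ 0 ∨ x u' τs ≠ 0 := by
    by_contra hc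
    push Not at hc
    apply hτ0
    rw [he τs, hsum, hc.1, hc.2]
    simp
  rw [hexp v v]
  have hA0 := hp (e u)
  generalize ω (e u) (e u) = A at *
  generalize ω (e u) (e u') = C at *
  generalize ω (e u') (e u') = D at *
  generalize x u τs = p at *
  generalize x u' τs = q at *
  generalize x u v = a at *
  generalize x u' v = b at *
  refine (kalg_dir_real hA0 hA (by linarith) (by linarith) hne hs1 hδ hδ1 h a b).trans ?_
  nlinarith [mul_le_mul_of_nonneg_left hgv.1 hδ, mul_nonneg hδ (sq_nonneg a),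
    mul_nonneg hδ (sq_nonneg b)]

/-- a grid slope almost kills any given vector -/
theorem kalg_grid (N : ℕ) (hN : 0 < N) (τ : Fin 2 → ℝ) (hτ : τ ≠ 0) :
    ∃ (u u' : Fin 2) (k : Fin (N + 1)), u ≠ u' ∧
      |τ u + (2 * (k : ℝ) / N - 1) * τ u'| < 2 / N * √(∑ u, τ u ^ 2) := by
  have key : ∀ u u' : Fin 2, |τ u| ≤ |τ u'| → τ u' ≠ 0 → ∃ k : Fin (N + 1),
      |τ u + (2 * (k : ℝ) / N - 1) * τ u'| < 2 / N * √(∑ u, τ u ^ 2) := by
    intro u u' hle hne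
    have hN' : (0 : ℝ) < N := by exact_mod_cast hN
    have hq : 0 < |τ u'| := abs_pos.2 hne
    set r := -τ u / τ u' with hr
    have hr1 : |r| ≤ 1 := by
      rw [hr, abs_div, abs_neg, div_le_one hq]
      exact hle
    obtain ⟨hr2, hr3⟩ := abs_le.1 hr1
    have hy0 : 0 ≤ (r + 1) * N / 2 := by
      have : 0 ≤ r + 1 := by linarith
      positivity
    have hk : ⌊(r + 1) * N / 2⌋₊ < N + 1 := by
      rw [Nat.floor_lt hy0]
      push_cast
      nlinarith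
    refine ⟨⟨_, hk⟩, ?_⟩
    have h1 := Nat.floor_le hy0
    have h2 := Nat.lt_floor_add_one ((r + 1) * N / 2)
    show |τ u + (2 * (⌊(r + 1) * N / 2⌋₊ : ℝ) / N - 1) * τ u'| < _
    generalize (⌊(r + 1) * N / 2⌋₊ : ℝ) = k at *
    have e : τ u + (2 * k / N - 1) * τ u' = (2 * k - (r + 1) * N) / N * τ u' := by
      rw [hr]
      field_simp
      ring
    have h3 : |τ u'| ≤ √(∑ u, τ u ^ 2) := Real.abs_le_sqrt
      (Finset.single_le_sum (f := fun u => τ u ^ 2) (fun _ _ => sq_nonneg _) (Finset.mem_univ u'))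
    rw [e, abs_mul, abs_div, abs_of_pos hN']
    refine lt_of_lt_of_le (mul_lt_mul_of_pos_right (div_lt_div_of_pos_right ?_ hN') hq)
      (mul_le_mul_of_nonneg_left h3 (by positivity))
    rw [abs_lt]
    constructor <;> linarith
  have hne : ∀ u u' : Fin 2, (∀ i, i = u ∨ i = u') → |τ u| ≤ |τ u'| → τ u' ≠ 0 := by
    intro u u' hall hle h0
    apply hτ
    funext i
    rcases hall i with rfl | rfl
    · rw [h0, abs_zero] at hle
      exact abs_nonpos_iff.1 hle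
    · exact h0
  rcases le_total |τ 0| |τ 1| with hle | hle
  · obtain ⟨k, hk⟩ := key 0 1 hle (hne 0 1 (by decide) hle)
    exact ⟨0, 1, k, by decide, hk⟩
  · obtain ⟨k, hk⟩ := key 1 0 hle (hne 1 0 (by decide) hle)
    exact ⟨1, 0, k, by decide, hk⟩

end Crest.Agent.R216
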