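import Crest.Agent.R216.BdL
import Crest.Agent.R216.KLoop
/-! # R216: auxiliary lemmas for `kuiper_step` (frame, bounds, algebra) -/

set_option autoImplicit false
open scoped Manifold ContDiff Topology Matrix
open Set Filter

namespace Crest.Agent.R216
universe u
variable {M : Type u} [TopologicalSpace M] [ChartedSpace E2 M] [IsManifold (𝓡 2) ∞ M]
  [T2Space M] [CompactSpace M]

/-- differentials of smooth functions are bounded by the metric -/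
theorem ksa_dd_bound {g : Met M} (C : Calc g) {F : Type} [NormedAddCommGroup F] [NormedSpace ℝ F]
    {f : M → F} (hf : Sm f) : ∃ B : ℝ, 0 ≤ B ∧ ∀ q v, ‖dd f q v‖ ≤ B * √(g.g q v v) := by
  have h1 : ∀ a : Fin C.n × Fin 2, ∃ c : ℝ, ∀ q, ‖C.Z a f q‖ ≤ c := fun a =>
    (hf.zv (C.V_sm a)).cont.bounded_above_of_compact_support (HasCompactSupport.of_compactSpace _)
  choose c hc using h1
  have hS : 0 ≤ ∑ a, |c a| := Finset.sum_nonneg fun _ _ => abs_nonneg _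
  refine ⟨4 * ∑ a, |c a|, by positivity, fun q v => ?_⟩
  obtain ⟨i, hq⟩ := C.cover q
  have h2 : ∀ a, ‖C.Z a f q‖ ≤ ∑ a, |c a| := fun a =>
    (hc a q).trans ((le_abs_self _).trans
      (Finset.single_le_sum (f := fun a => |c a|) (fun _ _ => abs_nonneg _) (Finset.mem_univ a)))
  have h3 := abs_le.1 (C.g_near hq v)
  simp only [Fin.sum_univ_two] at h3
  have h4 : ∀ u, |dd (C.x i u) q v| ≤ 2 * √(g.g q v v) := by
    intro u
    have h5 : dd (C.x i u) q v ^ 2 ≤ 4 * g.g q v v := by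
      have := sq_nonneg (dd (C.x i 0) q v)
      have := sq_nonneg (dd (C.x i 1) q v)
      fin_cases u
      · simp only [Fin.zero_eta]; linarith [h3.1]
      · simp only [Fin.mk_one]; linarith [h3.1]
    have h6 := Real.abs_le_sqrt h5
    rwa [Real.sqrt_mul (by norm_num), show √(4 : ℝ) = 2 by
      rw [show (4 : ℝ) = 2 ^ 2 by norm_num, Real.sqrt_sq (by norm_num)]] at h6
  rw [C.dd_chart hq f v, Fin.sum_univ_two]
  refine (norm_add_le _ _).trans ?_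
  rw [norm_smul, norm_smul, Real.norm_eq_abs, Real.norm_eq_abs]
  have h7 := mul_le_mul (h4 0) (h2 (i, 0)) (norm_nonneg _) (by positivity)
  have h8 := mul_le_mul (h4 1) (h2 (i, 1)) (norm_nonneg _) (by positivity)
  linarith

omit [IsManifold (𝓡 2) ∞ M] [T2Space M] in
theorem ksa_sup {F : Type} [NormedAddCommGroup F] [NormedSpace ℝ F] {f : M → F} (hf : Sm f) :
    ∃ B : ℝ, 0 ≤ B ∧ ∀ q, ‖f q‖ ≤ B := by
  obtain ⟨c, hc⟩ :=
    hf.cont.bounded_above_of_compact_support (HasCompactSupport.of_compactSpace _)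
  exact ⟨|c|, abs_nonneg _, fun q => (hc q).trans (le_abs_self _)⟩

omit [IsManifold (𝓡 2) ∞ M] [T2Space M] [CompactSpace M] in
theorem ksa_sm_cross {f g : M → Fin 3 → ℝ} (hf : Sm f) (hg : Sm g) :
    Sm fun q => crossProduct (f q) (g q) := by
  have hf' := sm_pi.1 hf
  have hg' := sm_pi.1 hg
  refine sm_pi.2 fun i => ?_
  fin_cases i
  · simpa [cross_apply] using ((hf' 1).mul' (hg' 2)).sub' ((hf' 2).mul' (hg' 1))
  · simpa [cross_apply] using ((hf' 2).mul' (hg' 0)).sub' ((hf' 0).mul' (hg' 2))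
  · simpa [cross_apply] using ((hf' 0).mul' (hg' 1)).sub' ((hf' 1).mul' (hg' 0))

omit [IsManifold (𝓡 2) ∞ M] [T2Space M] [CompactSpace M] in
theorem ksa_sm_isqrt {f : M → ℝ} (hf : Sm f) (h : ∀ q, 0 < f q) : Sm fun q => (√(f q))⁻¹ := by
  refine Sm.compOn (Φ := fun t : ℝ => (√t)⁻¹) (U := Ioi 0) isOpen_Ioi ?_ hf h
  intro t ht
  exact ((Real.contDiffAt_sqrt (ne_of_gt ht)).inv (Real.sqrt_pos.2 ht).ne').contDiffWithinAt

/-- the frame adapted to the phase, for two smooth vector functions independent on `K` -/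
theorem ksa_frame {J0 J1 : M → Fin 3 → ℝ} (h0 : Sm J0) (h1 : Sm J1) {K : Set M} (hK : IsClosed K)
    (hi : ∀ q ∈ K, ∀ s t : ℝ, s • J0 q + t • J1 q = 0 → s = 0 ∧ t = 0) (ξ : Fin 2 → ℝ)
    (hξ : ξ ≠ 0) :
    ∃ (r : M → ℝ) (P ν : M → Fin 3 → ℝ) (r0 : ℝ), 0 < r0 ∧ Sm r ∧ Sm P ∧ Sm ν ∧
      ∀ q ∈ K, r0 ≤ r q ∧ P q ⬝ᵥ P q = 1 ∧ ν q ⬝ᵥ ν q = 1 ∧ P q ⬝ᵥ ν q = 0 ∧
        ∀ s t : ℝ, (s • J0 q + t • J1 q) ⬝ᵥ P q = (ξ 0 * s + ξ 1 * t) * r q ∧
          (s • J0 q + t • J1 q) ⬝ᵥ ν q = 0 := by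
  set w : M → Fin 3 → ℝ := fun q => crossProduct (J1 q) (J0 q) with hw
  set T : M → Fin 3 → ℝ := fun q => (-ξ 1) • J0 q + ξ 0 • J1 q with hT
  have sw : Sm w := ksa_sm_cross h1 h0
  have sT : Sm T := ((sm_const _).smul' h0).add' ((sm_const _).smul' h1)
  have hnn : ∀ x : Fin 3 → ℝ, 0 ≤ x ⬝ᵥ x := fun x =>
    Finset.sum_nonneg fun i _ => mul_self_nonneg (x i)
  have hpos : ∀ x : Fin 3 → ℝ, x ≠ 0 → 0 < x ⬝ᵥ x := fun x hx =>
    lt_of_le_of_ne (hnn x) fun h => hx (dotProduct_self_eq_zero.1 h.symm)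
  have hKw : ∀ q ∈ K, 0 < w q ⬝ᵥ w q := fun q hq => by
    refine hpos _ (crossProduct_ne_zero_iff_linearIndependent.2 ?_)
    rw [LinearIndependent.pair_iff]
    intro s t hst
    exact (hi q hq t s (by rw [add_comm]; exact hst)).symm
  have hKT : ∀ q ∈ K, 0 < T q ⬝ᵥ T q := fun q hq => by
    refine hpos _ fun h => hξ ?_
    obtain ⟨e1, e0⟩ := hi q hq _ _ h
    ext u
    fin_cases u
    · exact e0
    · simpa using e1
  have hU : IsOpen {q | 0 < w q ⬝ᵥ w q ∧ 0 < T q ⬝ᵥ T q} :=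
    (isOpen_lt continuous_const (sw.dot sw).cont).inter
      (isOpen_lt continuous_const (sT.dot sT).cont)
  obtain ⟨b, sb, -, hb1, hbU⟩ := exists_cutoff hK hU fun q hq => ⟨hKw q hq, hKT q hq⟩
  have hb : ∀ q ∈ K, b q = 1 := fun q hq => hb1.self_of_nhdsSet q hq
  have hb0 : ∀ q, (0 < w q ⬝ᵥ w q ∧ 0 < T q ⬝ᵥ T q) ∨ b q = 0 := fun q => by
    by_cases h : b q = 0
    · exact Or.inr h
    · exact Or.inl (hbU (subset_tsupport _ h))
  have s1 : Sm fun q => (1 - b q) * (1 - b q) :=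
    ((sm_const _).sub' sb).mul' ((sm_const _).sub' sb)
  have p1 : ∀ q, 0 < w q ⬝ᵥ w q + (1 - b q) * (1 - b q) := fun q => by
    rcases hb0 q with h | h
    · linarith [h.1, mul_self_nonneg (1 - b q)]
    · rw [h]; linarith [hnn (w q)]
  have p2 : ∀ q, 0 < T q ⬝ᵥ T q + (1 - b q) * (1 - b q) := fun q => by
    rcases hb0 q with h | h
    · linarith [h.2, mul_self_nonneg (1 - b q)]
    · rw [h]; linarith [hnn (T q)]
  set α : M → ℝ := fun q => (√(w q ⬝ᵥ w q + (1 - b q) * (1 - b q)))⁻¹ with hα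
  set β : M → ℝ := fun q => (√(T q ⬝ᵥ T q + (1 - b q) * (1 - b q)))⁻¹ with hβ
  have sα : Sm α := ksa_sm_isqrt ((sw.dot sw).add' s1) p1
  have sβ : Sm β := ksa_sm_isqrt ((sT.dot sT).add' s1) p2
  have hα0 : ∀ q, 0 < α q := fun q => inv_pos.2 (Real.sqrt_pos.2 (p1 q))
  have hβ0 : ∀ q, 0 < β q := fun q => inv_pos.2 (Real.sqrt_pos.2 (p2 q))
  have hα1 : ∀ q ∈ K, α q * α q * (w q ⬝ᵥ w q) = 1 := fun q hq => by
    have := hKw q hq
    simp only [hα, hb q hq, sub_self, mul_zero, add_zero]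
    rw [← mul_inv, Real.mul_self_sqrt this.le, inv_mul_cancel₀ this.ne']
  have hβ1 : ∀ q ∈ K, β q * β q * (T q ⬝ᵥ T q) = 1 := fun q hq => by
    have := hKT q hq
    simp only [hβ, hb q hq, sub_self, mul_zero, add_zero]
    rw [← mul_inv, Real.mul_self_sqrt this.le, inv_mul_cancel₀ this.ne']
  have sr : Sm fun q => α q * β q * (w q ⬝ᵥ w q) := (sα.mul' sβ).mul' (sw.dot sw)
  have hr0 : ∃ r0 : ℝ, 0 < r0 ∧ ∀ q ∈ K, r0 ≤ α q * β q * (w q ⬝ᵥ w q) := by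
    rcases K.eq_empty_or_nonempty with rfl | hne
    · exact ⟨1, one_pos, fun q hq => hq.elim⟩
    · obtain ⟨q0, hq0, hmin⟩ := hK.isCompact.exists_isMinOn hne sr.cont.continuousOn
      exact ⟨_, mul_pos (mul_pos (hα0 q0) (hβ0 q0)) (hKw q0 hq0), fun q hq => hmin hq⟩
  obtain ⟨r0, hr0, hr⟩ := hr0
  refine ⟨fun q => α q * β q * (w q ⬝ᵥ w q), fun q => (α q * β q) • crossProduct (w q) (T q),
    fun q => α q • w q, r0, hr0, sr, (sα.mul' sβ).smul' (ksa_sm_cross sw sT), sα.smul' sw,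
    fun q hq => ⟨hr q hq, ?_, ?_, ?_, fun s t => ⟨?_, ?_⟩⟩⟩
  · have e : crossProduct (w q) (T q) ⬝ᵥ crossProduct (w q) (T q) =
        (w q ⬝ᵥ w q) * (T q ⬝ᵥ T q) := by
      simp only [hw, hT, cross_apply, dotProduct, Fin.sum_univ_three, Pi.add_apply, Pi.smul_apply,
        smul_eq_mul, Matrix.cons_val_zero, Matrix.cons_val_one, Matrix.cons_val_two,
        Matrix.head_cons, Matrix.tail_cons]
      ring
    simp only [smul_dotProduct, dotProduct_smul, smul_eq_mul, e]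
    linear_combination (β q * β q * (T q ⬝ᵥ T q)) * hα1 q hq + hβ1 q hq
  · simp only [smul_dotProduct, dotProduct_smul, smul_eq_mul]
    linear_combination hα1 q hq
  · have e : crossProduct (w q) (T q) ⬝ᵥ w q = 0 := by
      rw [dotProduct_comm]; exact dot_self_cross _ _
    simp only [smul_dotProduct, dotProduct_smul, smul_eq_mul, e, mul_zero]
  · have e : (s • J0 q + t • J1 q) ⬝ᵥ crossProduct (w q) (T q) =
        (ξ 0 * s + ξ 1 * t) * (w q ⬝ᵥ w q) := by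
      simp only [hw, hT, cross_apply, dotProduct, Fin.sum_univ_three, Pi.add_apply, Pi.smul_apply,
        smul_eq_mul, Matrix.cons_val_zero, Matrix.cons_val_one, Matrix.cons_val_two,
        Matrix.head_cons, Matrix.tail_cons]
      ring
    simp only [dotProduct_smul, smul_eq_mul, e]
    ring
  · have e : (s • J0 q + t • J1 q) ⬝ᵥ w q = 0 := by
      simp only [hw, cross_apply, dotProduct, Fin.sum_univ_three, Pi.add_apply, Pi.smul_apply,
        smul_eq_mul, Matrix.cons_val_zero, Matrix.cons_val_one, Matrix.cons_val_two,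
        Matrix.head_cons, Matrix.tail_cons]
      ring
    simp only [dotProduct_smul, smul_eq_mul, e, mul_zero]

/-- the algebra of one corrugation -/
theorem ksa_alg {J P ν : Fin 3 → ℝ} {r A s : ℝ} {U : ℂ} (hP : P ⬝ᵥ P = 1) (hν : ν ⬝ᵥ ν = 1)
    (hPν : P ⬝ᵥ ν = 0) (hJP : J ⬝ᵥ P = s * r) (hJν : J ⬝ᵥ ν = 0)
    (hU : ‖U‖ ^ 2 = r ^ 2 + A ^ 2) :
    (J + s • ((U - r).re • P + (U - r).im • ν)) ⬝ᵥ (J + s • ((U - r).re • P + (U - r).im • ν)) =
      J ⬝ᵥ J + (A * s) ^ 2 := by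
  have hνP : ν ⬝ᵥ P = 0 := by rw [dotProduct_comm, hPν]
  have hPJ : P ⬝ᵥ J = s * r := by rw [dotProduct_comm, hJP]
  have hνJ : ν ⬝ᵥ J = 0 := by rw [dotProduct_comm, hJν]
  rw [Complex.sq_norm, Complex.normSq_apply] at hU
  simp only [add_dotProduct, dotProduct_add, smul_dotProduct, dotProduct_smul, smul_eq_mul, hP, hν,
    hPν, hνP, hJP, hPJ, hJν, hνJ, Complex.sub_re, Complex.sub_im, Complex.ofReal_re,
    Complex.ofReal_im]
  linear_combination s ^ 2 * hU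

theorem ksa_alg' {P ν : Fin 3 → ℝ} {z : ℂ} (hP : P ⬝ᵥ P = 1) (hν : ν ⬝ᵥ ν = 1)
    (hPν : P ⬝ᵥ ν = 0) : (z.re • P + z.im • ν) ⬝ᵥ (z.re • P + z.im • ν) = ‖z‖ ^ 2 := by
  have hνP : ν ⬝ᵥ P = 0 := by rw [dotProduct_comm, hPν]
  rw [Complex.sq_norm, Complex.normSq_apply]
  simp only [add_dotProduct, dotProduct_add, smul_dotProduct, dotProduct_smul, smul_eq_mul, hP, hν,
    hPν, hνP]
  ring

theorem ksa_norm {P ν : Fin 3 → ℝ} {z : ℂ} {c B : ℝ} (hz : ‖z‖ ≤ c) (hP : ‖P‖ ≤ B)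
    (hν : ‖ν‖ ≤ B) : ‖z.re • P + z.im • ν‖ ≤ 2 * (c * B) := by
  refine (norm_add_le _ _).trans ?_
  rw [norm_smul, norm_smul, Real.norm_eq_abs, Real.norm_eq_abs]
  have hc : 0 ≤ c := (norm_nonneg _).trans hz
  have h1 := mul_le_mul ((Complex.abs_re_le_norm z).trans hz) hP (norm_nonneg _) hc
  have h2 := mul_le_mul ((Complex.abs_im_le_norm z).trans hz) hν (norm_nonneg _) hc
  linarith

omit [IsManifold (𝓡 2) ∞ M] [T2Space M] [CompactSpace M] in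
theorem ksa_Jf_lin (Φ : M → Fin 3 → ℝ) (a : M → ℝ) (Y : M → E2 →L[ℝ] (Fin 2 → ℝ)) (q : M)
    (s t : ℝ) (v w : E2) :
    Jf Φ a Y q (s • v + t • w) = s • Jf Φ a Y q v + t • Jf Φ a Y q w := by
  ext k
  fin_cases k <;> simp [Jf] <;> ring

omit [IsManifold (𝓡 2) ∞ M] [T2Space M] [CompactSpace M] in
theorem ksa_Jf_add {Φ Φ' : M → Fin 3 → ℝ} (a : M → ℝ) (Y : M → E2 →L[ℝ] (Fin 2 → ℝ)) {q : M}
    {v : E2} {e : Fin 3 → ℝ} (h : dd Φ' q v = dd Φ q v + e) :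
    Jf Φ' a Y q v = Jf Φ a Y q v + ![1, 1, a q] * e := by
  ext k
  fin_cases k <;> simp [Jf, h] <;> ring

omit [T2Space M] [CompactSpace M] in
theorem ksa_sm_Jf {Φ : M → Fin 3 → ℝ} {a : M → ℝ} {Y : M → E2 →L[ℝ] (Fin 2 → ℝ)} (hΦ : Sm Φ)
    (ha : Sm a) (hY : ∀ V, SmV V → Sm fun q => Y q (V q)) {V : M → E2} (hV : SmV V) :
    Sm fun q => Jf Φ a Y q (V q) := by
  have h1 := sm_pi.1 (hΦ.zv hV)
  have h2 := sm_pi.1 (hY V hV)
  refine sm_pi.2 fun k => ?_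
  fin_cases k
  · exact (h1 0).add' (h2 0)
  · exact (h1 1).add' (h2 1)
  · exact ha.mul' (h1 2)

end Crest.Agent.R216
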