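import Crest.Agent.R216.Basic
/-! # R216: comparison of `Jf` with the metric -/

set_option autoImplicit false
open scoped Manifold ContDiff Topology Matrix
open Set Filter

namespace Crest.Agent.R216
universe u
variable {M : Type u} [TopologicalSpace M] [ChartedSpace E2 M] [IsManifold (𝓡 2) ∞ M]

theorem ksb_g_nonneg (g : Met M) (q : M) (v : E2) : 0 ≤ g.g q v v := by
  by_cases hv : v = 0
  · simp [hv]
  · exact (g.pos q v hv).le

omit [IsManifold (𝓡 2) ∞ M] in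
theorem ksb_Jf_comb (Φ : M → Fin 3 → ℝ) (a : M → ℝ) (Y : M → E2 →L[ℝ] (Fin 2 → ℝ)) (q : M)
    (s t : ℝ) (v w : E2) :
    Jf Φ a Y q (s • v + t • w) = s • Jf Φ a Y q v + t • Jf Φ a Y q w := by
  funext k
  fin_cases k <;> simp [Jf] <;> ring

theorem ksb_Jf_cont {Φ : M → Fin 3 → ℝ} {a : M → ℝ} {Y : M → E2 →L[ℝ] (Fin 2 → ℝ)} (hΦ : Sm Φ)
    (ha : Sm a) (hY : ∀ V, SmV V → Sm fun q => Y q (V q)) {V : M → E2} (hV : SmV V) :
    Continuous fun q => Jf Φ a Y q (V q) := by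
  have h1 : Continuous fun q => dd Φ q (V q) := (hΦ.zv hV).cont
  have h2 := (hY V hV).cont
  have h3 := ha.cont
  have h4 := fun k => (continuous_apply k).comp h1
  have h5 := fun k => (continuous_apply k).comp h2
  refine continuous_pi fun k => ?_
  fin_cases k
  · exact (h4 0).add (h5 0)
  · exact (h4 1).add (h5 1)
  · exact h3.mul (h4 2)

/-- upper bound of a family of linear forms -/
theorem ksb_upper [CompactSpace M] {g : Met M} (C : Calc g) (L : M → E2 → ℝ)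
    (hL : ∀ q s t v w, L q (s • v + t • w) = s * L q v + t * L q w)
    (hc : ∀ b, Continuous fun q => L q (C.V b q)) :
    ∃ B : ℝ, 0 ≤ B ∧ ∀ q v, L q v ^ 2 ≤ B * g.g q v v := by
  have h1 : Continuous fun q => ∑ b, L q (C.V b q) ^ 2 :=
    continuous_finsetSum _ fun b _ => (hc b).pow 2
  obtain ⟨B, hB⟩ := (isCompact_univ.image h1).bddAbove
  have hB' : ∀ q b, L q (C.V b q) ^ 2 ≤ max B 0 := fun q b =>
    ((Finset.single_le_sum (f := fun b => L q (C.V b q) ^ 2) (fun _ _ => sq_nonneg _)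
      (Finset.mem_univ b)).trans (hB ⟨q, mem_univ _, rfl⟩)).trans (le_max_left _ _)
  have h0 : 0 ≤ max B 0 := le_max_right _ _
  refine ⟨4 * max B 0, by positivity, fun q v => ?_⟩
  obtain ⟨i, hq⟩ := C.cover q
  have h2 := abs_le.1 (C.g_near hq v)
  have h3 : L q v = dd (C.x i 0) q v * L q (C.V (i, 0) q) + dd (C.x i 1) q v * L q (C.V (i, 1) q) := by
    rw [← hL]
    congr 1
    conv_lhs => rw [C.span i q hq v, Fin.sum_univ_two]
  simp only [Fin.sum_univ_two] at h2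
  have h4 := hB' q (i, 0)
  have h5 := hB' q (i, 1)
  rw [h3]
  set c₀ := dd (C.x i 0) q v
  set c₁ := dd (C.x i 1) q v
  set l₀ := L q (C.V (i, 0) q)
  set l₁ := L q (C.V (i, 1) q)
  have h6 : (c₀ * l₀ + c₁ * l₁) ^ 2 ≤ (c₀ ^ 2 + c₁ ^ 2) * (l₀ ^ 2 + l₁ ^ 2) := by
    nlinarith [sq_nonneg (c₀ * l₁ - c₁ * l₀)]
  have h7 : c₀ ^ 2 + c₁ ^ 2 ≤ 2 * g.g q v v := by nlinarith [sq_nonneg c₀, sq_nonneg c₁]
  calc (c₀ * l₀ + c₁ * l₁) ^ 2 ≤ (c₀ ^ 2 + c₁ ^ 2) * (l₀ ^ 2 + l₁ ^ 2) := h6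
    _ ≤ (2 * g.g q v v) * (2 * max B 0) :=
        mul_le_mul h7 (by linarith) (by positivity) (by linarith [ksb_g_nonneg g q v])
    _ = 4 * max B 0 * g.g q v v := by ring

theorem ksb_Jf_upper [CompactSpace M] {g : Met M} (C : Calc g) {Φ : M → Fin 3 → ℝ} {a : M → ℝ}
    {Y : M → E2 →L[ℝ] (Fin 2 → ℝ)} (hΦ : Sm Φ) (ha : Sm a)
    (hY : ∀ V, SmV V → Sm fun q => Y q (V q)) :
    ∃ B : ℝ, 0 ≤ B ∧ ∀ q v, Jf Φ a Y q v ⬝ᵥ Jf Φ a Y q v ≤ B * g.g q v v := by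
  have h : ∀ k, ∃ B : ℝ, 0 ≤ B ∧ ∀ q v, Jf Φ a Y q v k ^ 2 ≤ B * g.g q v v := fun k =>
    ksb_upper C (fun q v => Jf Φ a Y q v k) (fun q s t v w => by rw [ksb_Jf_comb]; rfl)
      fun b => (continuous_apply k).comp (ksb_Jf_cont hΦ ha hY (C.V_sm b))
  choose B hB0 hB using h
  refine ⟨∑ k, B k, Finset.sum_nonneg fun k _ => hB0 k, fun q v => ?_⟩
  rw [Finset.sum_mul, dotProduct]
  exact Finset.sum_le_sum fun k _ => by rw [← sq]; exact hB k q v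

theorem ksb_Jf_lower [T2Space M] [CompactSpace M] {g : Met M} (C : Calc g) {Φ : M → Fin 3 → ℝ}
    {a : M → ℝ} {Y : M → E2 →L[ℝ] (Fin 2 → ℝ)} (hΦ : Sm Φ) (ha : Sm a)
    (hY : ∀ V, SmV V → Sm fun q => Y q (V q)) {K : Set M} (hK : IsClosed K)
    (hinj : ∀ q ∈ K, ∀ v, Jf Φ a Y q v = 0 → v = 0) :
    ∃ m : ℝ, 0 < m ∧ ∀ q ∈ K, ∀ v, m * g.g q v v ≤ Jf Φ a Y q v ⬝ᵥ Jf Φ a Y q v := by
  let P : Fin C.n → M × (Fin 2 → ℝ) → Fin 3 → ℝ := fun i z =>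
    z.2 0 • Jf Φ a Y z.1 (C.V (i, 0) z.1) + z.2 1 • Jf Φ a Y z.1 (C.V (i, 1) z.1)
  have hP : ∀ i, Continuous (P i) := fun i =>
    (((continuous_apply 0).comp continuous_snd).smul
      ((ksb_Jf_cont hΦ ha hY (C.V_sm (i, 0))).comp continuous_fst)).add
    (((continuous_apply 1).comp continuous_snd).smul
      ((ksb_Jf_cont hΦ ha hY (C.V_sm (i, 1))).comp continuous_fst))
  have h1 : ∀ i, ∃ m : ℝ, 0 < m ∧ ∀ z ∈ (K ∩ tsupport (C.χ i)) ×ˢ Metric.sphere (0 : Fin 2 → ℝ) 1,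
      m ≤ P i z ⬝ᵥ P i z := by
    intro i
    refine ((hK.inter (isClosed_tsupport _)).isCompact.prod (isCompact_sphere _ _)).exists_forall_le'
      ((hP i).dotProduct (hP i)).continuousOn ?_
    rintro ⟨q, c⟩ ⟨⟨hq, hq'⟩, hc⟩
    have hO := C.χ_supp i hq'
    refine lt_of_le_of_ne (Finset.sum_nonneg fun k _ => mul_self_nonneg _) fun h0 => ?_
    have h2 : P i (q, c) = 0 := dotProduct_self_eq_zero.1 h0.symm
    have h3 := hinj q hq _ ((ksb_Jf_comb Φ a Y q _ _ _ _).trans h2)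
    have h4 : ∀ u, c u = 0 := by
      intro u
      have h5 := congrArg (dd (C.x i u) q) h3
      simp only [map_add, map_smul, map_zero, C.dual i q hO, smul_eq_mul] at h5
      fin_cases u <;> simpa using h5
    have h6 : c = 0 := funext h4
    simp [h6] at hc
  choose m hm0 hm using h1
  obtain ⟨m₀, hm₀, hm₁⟩ : ∃ m₀ : ℝ, 0 < m₀ ∧ ∀ i, m₀ ≤ m i := by
    obtain ⟨m₀, h1, h2⟩ := (Set.finite_range m).isCompact.exists_forall_le' continuousOn_id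
      (a := 0) (by rintro _ ⟨i, rfl⟩; exact hm0 i)
    exact ⟨m₀, h1, fun i => h2 _ ⟨i, rfl⟩⟩
  refine ⟨m₀ / 4, by positivity, fun q hq v => ?_⟩
  obtain ⟨i, hi⟩ : ∃ i, q ∈ tsupport (C.χ i) := by
    by_contra h
    push Not at h
    have h1 := C.χ_sq q
    rw [Finset.sum_eq_zero] at h1
    · exact zero_ne_one h1
    · intro i _
      have : C.χ i q = 0 := by
        by_contra h0
        exact h i (subset_tsupport _ h0)
      simp [this]
  have hO := C.χ_supp i hi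
  have h2 := abs_le.1 (C.g_near hO v)
  let c : Fin 2 → ℝ := fun u => dd (C.x i u) q v
  have h3 : Jf Φ a Y q v = P i (q, c) := by
    refine Eq.trans ?_ (ksb_Jf_comb Φ a Y q _ _ _ _)
    congr 1
    conv_lhs => rw [C.span i q hO v, Fin.sum_univ_two]
  have h4 : ∑ u, dd (C.x i u) q v ^ 2 ≤ 2 * ‖c‖ ^ 2 := by
    have h5 : ∀ u, c u ^ 2 ≤ ‖c‖ ^ 2 := fun u => by
      rw [← sq_abs]
      exact pow_le_pow_left₀ (abs_nonneg _) (norm_le_pi_norm c u) 2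
    rw [Fin.sum_univ_two]
    linarith [h5 0, h5 1]
  have h5 : m₀ * ‖c‖ ^ 2 ≤ P i (q, c) ⬝ᵥ P i (q, c) := by
    by_cases hc : c = 0
    · rw [hc, norm_zero]
      simp only [ne_eq, OfNat.ofNat_ne_zero, not_false_eq_true, zero_pow, mul_zero]
      exact Finset.sum_nonneg fun k _ => mul_self_nonneg _
    · have hn : ‖c‖ ≠ 0 := norm_ne_zero_iff.2 hc
      have h6 := hm i (q, ‖c‖⁻¹ • c) ⟨⟨hq, hi⟩, by simp [norm_smul, hn]⟩
      have h7 : P i (q, c) = ‖c‖ • P i (q, ‖c‖⁻¹ • c) := by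
        simp only [P, Pi.smul_apply, smul_eq_mul, smul_add, smul_smul, mul_inv_cancel_left₀ hn]
      rw [h7, smul_dotProduct, dotProduct_smul, smul_eq_mul, smul_eq_mul]
      nlinarith [hm₁ i, sq_nonneg ‖c‖, mul_le_mul_of_nonneg_left ((hm₁ i).trans h6) (sq_nonneg ‖c‖)]
  rw [h3]
  have h6 : g.g q v v ≤ 4 * ‖c‖ ^ 2 := by nlinarith [sq_nonneg ‖c‖]
  nlinarith

theorem ksb_dot_err {X E : Fin 3 → ℝ} {G B t : ℝ} (hG : 0 ≤ G) (ht : 0 ≤ t)
    (hX : X ⬝ᵥ X ≤ B * G) (hE : ‖E‖ ≤ t * √G) :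
    |(X + E) ⬝ᵥ (X + E) - X ⬝ᵥ X| ≤ t * (B + 3 + 3 * t) * G := by
  obtain ⟨r, hr, rfl⟩ : ∃ r : ℝ, 0 ≤ r ∧ G = r ^ 2 := ⟨√G, Real.sqrt_nonneg _, (Real.sq_sqrt hG).symm⟩
  rw [Real.sqrt_sq hr] at hE
  have h1 : ∀ k, |2 * X k * E k + E k * E k| ≤ t * (X k * X k) + t * r ^ 2 + t ^ 2 * r ^ 2 := by
    intro k
    have h2 : |E k| ≤ t * r := (norm_le_pi_norm E k).trans hE
    have h3 : |2 * X k * E k| ≤ t * (X k * X k) + t * r ^ 2 := by
      rw [abs_mul, abs_mul, abs_two, ← abs_mul_abs_self (X k)]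
      have h4 := mul_le_mul_of_nonneg_left h2 (abs_nonneg (X k))
      nlinarith [mul_nonneg ht (sq_nonneg (|X k| - r))]
    have h4 : |E k * E k| ≤ t ^ 2 * r ^ 2 := by
      rw [abs_mul]
      nlinarith [abs_nonneg (E k)]
    exact (abs_add_le _ _).trans (add_le_add h3 h4)
  have h5 : (X + E) ⬝ᵥ (X + E) - X ⬝ᵥ X = ∑ k, (2 * X k * E k + E k * E k) := by
    simp only [dotProduct, Fin.sum_univ_three, Pi.add_apply]
    ring
  rw [h5]
  refine (Finset.abs_sum_le_sum_abs _ _).trans ((Finset.sum_le_sum fun k _ => h1 k).trans ?_)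
  simp only [dotProduct, Fin.sum_univ_three] at hX ⊢
  nlinarith [mul_le_mul_of_nonneg_left hX ht]

theorem ksb_norm_le {D : Fin 3 → ℝ} {A : ℝ} (h : D ⬝ᵥ D ≤ 25 * A ^ 2) : ‖D‖ ≤ 5 * |A| := by
  refine (pi_norm_le_iff_of_nonneg (by positivity)).2 fun k => ?_
  have h1 : D k * D k ≤ D ⬝ᵥ D :=
    Finset.single_le_sum (f := fun k => D k * D k) (fun _ _ => mul_self_nonneg _) (Finset.mem_univ k)
  refine abs_le_of_sq_le_sq' ?_ (by positivity) |> abs_le.2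
  rw [mul_pow, sq_abs]
  nlinarith

end Crest.Agent.R216
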