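import Crest.Agent.R216.BdL
import Crest.Agent.R216.KLoop
import Crest.Agent.R216.KStepAuxA
import Crest.Agent.R216.KStepAuxB
/-! # R216: one Kuiper corrugation of the formal immersion `Jf Φ a Y` -/

set_option autoImplicit false
open scoped Manifold ContDiff Topology Matrix
open Set Filter

namespace Crest.Agent.R216
universe u
variable {M : Type u} [TopologicalSpace M] [ChartedSpace E2 M] [IsManifold (𝓡 2) ∞ M]
  [T2Space M] [CompactSpace M]

/-- differential of the linear phase `ξ · x^i` -/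
noncomputable def Calc.dph {g : Met M} (C : Calc g) (i : Fin C.n) (ξ : Fin 2 → ℝ) (q : M) (v : E2) :
    ℝ := ∑ u, ξ u * dd (C.x i u) q v

/-- Recipe: `φ = ∑ ξ_u x^i_u`; fields `T = -ξ₁ V(i,0) + ξ₀ V(i,1)`, `S = (ξ₀ V(i,0) + ξ₁ V(i,1))/|ξ|²`
(on `O i`: `dφ T = 0`, `dφ S = 1`, `v = dφ(v) S + β(v) T`).  `J_S, J_T : M → ℝ³` smooth,
`|J_T × J_S|` and `|J_T|` are `≥ m > 0` on the compact `tsupport A`; `ν = J_T × J_S / |·|`,
`p = J_S - (J_S·J_T/|J_T|²) J_T`, `r = |p|`, `p̂ = p / r` (globally smooth through cut-off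
inverses/square roots, `r ≥ r₀` on `tsupport A`), `N = Re V(r,A,φ/h) p̂ + Im V(r,A,φ/h) ν`,
`Φ' = Φ + h (N₀, N₁, N₂ / a)`, `D = (Re U - r) p̂ + Im U ν` on `tsupport A` and `0` elsewhere.
The error term is `h` times a bounded quantity (compare with `g` through `C.cover`, `C.dd_chart`,
`C.g_near`). -/
theorem kuiper_step {g : Met M} (C : Calc g) {Φ : M → Fin 3 → ℝ} {a A : M → ℝ}
    {Y : M → E2 →L[ℝ] (Fin 2 → ℝ)} (hΦ : Sm Φ) (ha : Sm a) (ha0 : ∀ q, 0 < a q)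
    (hY : ∀ V, SmV V → Sm fun q => Y q (V q)) (hA : Sm A) (i : Fin C.n)
    (hAi : tsupport A ⊆ C.O i) (ξ : Fin 2 → ℝ) (hξ : ξ ≠ 0)
    (hinj : ∀ q ∈ tsupport A, ∀ v, Jf Φ a Y q v = 0 → v = 0) {τ : ℝ} (hτ : 0 < τ) :
    ∃ (Φ' D : M → Fin 3 → ℝ), Sm Φ' ∧ (∀ q ∉ tsupport A, Φ' q = Φ q) ∧ (∀ q, ‖Φ' q - Φ q‖ ≤ τ) ∧
      ∀ q, D q ⬝ᵥ D q ≤ 25 * A q ^ 2 ∧ ∀ v,
        (Jf Φ a Y q v + C.dph i ξ q v • D q) ⬝ᵥ (Jf Φ a Y q v + C.dph i ξ q v • D q) =
          Jf Φ a Y q v ⬝ᵥ Jf Φ a Y q v + (A q * C.dph i ξ q v) ^ 2 ∧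
        ‖Jf Φ' a Y q v - (Jf Φ a Y q v + C.dph i ξ q v • D q)‖ ≤ τ * √(g.g q v v) := by
  classical
  have hK : IsClosed (tsupport A) := isClosed_tsupport A
  -- the frame
  obtain ⟨r, P, ν, r0, hr0, sr, sP, sν, hF⟩ := ksa_frame
    (J0 := fun q => Jf Φ a Y q (C.V (i, 0) q)) (J1 := fun q => Jf Φ a Y q (C.V (i, 1) q))
    (ksa_sm_Jf hΦ ha hY (C.V_sm _)) (ksa_sm_Jf hΦ ha hY (C.V_sm _)) hK (fun q hq s t h => by
      rw [← ksa_Jf_lin] at h
      have h1 := hinj q hq _ h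
      have h2 : ∀ u, dd (C.x i u) q (s • C.V (i, 0) q + t • C.V (i, 1) q) = 0 := fun u => by
        rw [h1, map_zero]
      have h3 := h2 0
      have h4 := h2 1
      simp only [map_add, map_smul, C.dual i q (hAi hq), smul_eq_mul] at h3 h4
      exact ⟨by simpa using h3, by simpa using h4⟩) ξ hξ
  have hJ : ∀ q ∈ tsupport A, ∀ v, Jf Φ a Y q v ⬝ᵥ P q = C.dph i ξ q v * r q ∧
      Jf Φ a Y q v ⬝ᵥ ν q = 0 := fun q hq v => by
    have e := C.span i q (hAi hq) v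
    rw [Fin.sum_univ_two] at e
    have h := (hF q hq).2.2.2.2 (dd (C.x i 0) q v) (dd (C.x i 1) q v)
    rw [← ksa_Jf_lin, ← e] at h
    simpa only [Calc.dph, Fin.sum_univ_two] using h
  -- the phase and the rescaled frame
  set φ : M → ℝ := fun q => ∑ u, ξ u * C.x i u q with hφ
  have sφ : Sm φ := Sm.sum' _ fun u _ => (sm_const _).mul' (C.x_sm i u)
  have dφ : ∀ q v, dd φ q v = C.dph i ξ q v := fun q v => by
    rw [hφ, dd_sum Finset.univ (f := fun u q => ξ u * C.x i u q)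
      fun u _ => ((sm_const _).mul' (C.x_sm i u)).df q]
    refine Finset.sum_congr rfl fun u _ => ?_
    exact dd_const_smul (ξ u) ((C.x_sm i u).df q) v
  have sai : Sm fun q => (a q)⁻¹ :=
    Sm.compOn (Φ := fun t : ℝ => t⁻¹) (U := Ioi 0) isOpen_Ioi
      (fun t ht => (contDiffAt_id.inv (ne_of_gt ht)).contDiffWithinAt) ha ha0
  have se : Sm fun q => (![1, 1, (a q)⁻¹] : Fin 3 → ℝ) := sm_pi.2 fun k => by
    fin_cases k
    · exact sm_const (1 : ℝ)
    · exact sm_const (1 : ℝ)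
    · exact sai
  have sm : Sm fun q => (![1, 1, a q] : Fin 3 → ℝ) := sm_pi.2 fun k => by
    fin_cases k
    · exact sm_const (1 : ℝ)
    · exact sm_const (1 : ℝ)
    · exact ha
  set P' : M → Fin 3 → ℝ := fun q => ![1, 1, (a q)⁻¹] * P q with hP'
  set ν' : M → Fin 3 → ℝ := fun q => ![1, 1, (a q)⁻¹] * ν q with hν'
  have sP' : Sm P' := se.mul' sP
  have sν' : Sm ν' := se.mul' sν
  have hme : ∀ q (x : Fin 3 → ℝ), (![1, 1, a q] : Fin 3 → ℝ) * (![1, 1, (a q)⁻¹] * x) = x :=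
    fun q x => by
      have := (ha0 q).ne'
      ext k
      fin_cases k <;> simp
      field_simp
  -- bounds
  obtain ⟨V, U, sV, -, -, -, hV0, hVb, hVU⟩ := exists_loop hr0
  obtain ⟨B, hB0, hB⟩ := ksa_sup ((sr.prod' hA).prod' (((sP.prod' sν).prod' (sP'.prod' sν')).prod' sm))
  simp only [norm_prod_le_iff, Real.norm_eq_abs] at hB
  obtain ⟨B1, hB10, hB1⟩ := ksa_dd_bound C ((sr.prod' hA).prod' (sP'.prod' sν'))
  have hB2 : ∀ q v, (‖dd r q v‖ ≤ B1 * √(g.g q v v) ∧ ‖dd A q v‖ ≤ B1 * √(g.g q v v)) ∧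
      ‖dd P' q v‖ ≤ B1 * √(g.g q v v) ∧ ‖dd ν' q v‖ ≤ B1 * √(g.g q v v) := fun q v => by
    have h := hB1 q v
    rw [dd_prod ((sr.prod' hA).df q) ((sP'.prod' sν').df q), dd_prod (sr.df q) (hA.df q),
      dd_prod (sP'.df q) (sν'.df q)] at h
    simpa only [norm_prod_le_iff] using h
  obtain ⟨c₀, hc₀⟩ := hVb B
  set c := |c₀| with hc
  have hc0 : 0 ≤ c := abs_nonneg _
  have hV : ∀ q θ, ‖V (r q, A q, θ)‖ ≤ c ∧ ‖fderiv ℝ V (r q, A q, θ)‖ ≤ c := fun q θ =>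
    ⟨(hc₀ _ _ θ (hB q).1.1 (hB q).1.2).1.trans (le_abs_self _),
      (hc₀ _ _ θ (hB q).1.1 (hB q).1.2).2.trans (le_abs_self _)⟩
  set E : ℝ := 1 + 2 * (c * B) + 4 * (c * B1 * B) with hE
  have hE0 : 0 < E := by positivity
  set h : ℝ := τ / E with hh
  have hh0 : 0 < h := div_pos hτ hE0
  have hhE : h * E = τ := div_mul_cancel₀ _ hE0.ne'
  -- the corrugation
  set z : M → ℝ × ℝ × ℝ := fun q => (r q, A q, h⁻¹ • φ q) with hz
  have sz : Sm z := sr.prod' (hA.prod' ((sm_const _).smul' sφ))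
  set w : M → ℂ := fun q => V (z q) with hw
  have sw : Sm w := sz.comp' sV
  have swr : Sm fun q => (w q).re := sw.clm Complex.reCLM
  have swi : Sm fun q => (w q).im := sw.clm Complex.imCLM
  set N : M → Fin 3 → ℝ := fun q => (w q).re • P' q + (w q).im • ν' q with hN
  have sN : Sm N := (swr.smul' sP').add' (swi.smul' sν')
  have hA0 : ∀ q ∉ tsupport A, A q = 0 := fun q hq => by
    by_contra h0
    exact hq (subset_tsupport _ h0)
  have hN0 : ∀ q ∉ tsupport A, N q = 0 := fun q hq => by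
    simp only [hN, hw, hz, hA0 q hq, hV0, Complex.zero_re, Complex.zero_im, zero_smul, add_zero]
  have dΦ' : ∀ q v, dd (fun q => Φ q + h • N q) q v = dd Φ q v + h • dd N q v := fun q v => by
    rw [dd_add (hΦ.df q) (((sm_const h).smul' sN).df q), dd_const_smul h (sN.df q)]
  refine ⟨fun q => Φ q + h • N q, fun q => if q ∈ tsupport A then
    (U (z q) - r q).re • P q + (U (z q) - r q).im • ν q else 0,
    hΦ.add' ((sm_const h).smul' sN), fun q hq => by simp only [hN0 q hq, smul_zero, add_zero],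
    fun q => ?_, fun q => ?_⟩
  · rw [add_sub_cancel_left, norm_smul, Real.norm_eq_abs, abs_of_pos hh0, ← hhE]
    refine mul_le_mul_of_nonneg_left ?_ hh0.le
    have h1 := ksa_norm (hV q (h⁻¹ • φ q)).1 (hB q).2.1.2.1 (hB q).2.1.2.2
    have h2 : 0 ≤ c * B1 * B := by positivity
    exact h1.trans (by linarith)
  by_cases hq : q ∈ tsupport A
  swap
  · simp only [if_neg hq, hA0 q hq, smul_zero, add_zero, zero_mul]
    refine ⟨by simp, fun v => ⟨by simp, ?_⟩⟩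
    rw [ksa_Jf_add a Y (dΦ' q v), dd_zero_of_closed hK hN0 hq]
    simp only [ContinuousLinearMap.zero_apply, smul_zero, mul_zero, add_zero, sub_self, norm_zero]
    positivity
  simp only [if_pos hq]
  obtain ⟨f0, f1, f2, f3, -⟩ := hF q hq
  obtain ⟨u1, u2, u3, -⟩ := hVU (r q) (A q) (h⁻¹ • φ q) f0
  refine ⟨?_, fun v => ⟨ksa_alg f1 f2 f3 (hJ q hq v).1 (hJ q hq v).2 u2, ?_⟩⟩
  · rw [ksa_alg' f1 f2 f3]
    have := pow_le_pow_left₀ (norm_nonneg _) u3 2
    rw [mul_pow, sq_abs] at this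
    exact this.trans (by norm_num)
  set L : ℂ := fderiv ℝ V (z q) (dd r q v, dd A q v, 0) with hL
  have dw : dd w q v = L + (h⁻¹ * C.dph i ξ q v) • (U (z q) - r q) := by
    rw [hw, dd_comp (sV.differentiable (by simp) _) (sz.df q), hz,
      dd_prod (sr.df q) ((hA.prod' ((sm_const _).smul' sφ)).df q),
      dd_prod (hA.df q) (((sm_const _).smul' sφ).df q), dd_const_smul _ (sφ.df q), dφ, ← u1,
      ← map_smul, hL, ← map_add]
    congr 1
    simp
  have dN : dd N q v = ((w q).re • dd P' q v + (w q).im • dd ν' q v) +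
      ((dd w q v).re • P' q + (dd w q v).im • ν' q) := by
    have e1 : dd (fun q => (w q).re) q v = (dd w q v).re := dd_clm Complex.reCLM (sw.df q) v
    have e2 : dd (fun q => (w q).im) q v = (dd w q v).im := dd_clm Complex.imCLM (sw.df q) v
    rw [hN, dd_add ((swr.smul' sP').df q) ((swi.smul' sν').df q), dd_smul (swr.df q) (sP'.df q),
      dd_smul (swi.df q) (sν'.df q), e1, e2]
    abel
  have key : Jf (fun q => Φ q + h • N q) a Y q v - (Jf Φ a Y q v + C.dph i ξ q v •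
      ((U (z q) - r q).re • P q + (U (z q) - r q).im • ν q)) =
      h • (![1, 1, a q] * ((w q).re • dd P' q v + (w q).im • dd ν' q v) +
        (L.re • P q + L.im • ν q)) := by
    rw [ksa_Jf_add a Y (dΦ' q v), dN, dw]
    simp only [mul_smul_comm, mul_add, hP', hν', hme, Complex.add_re, Complex.add_im,
      Complex.smul_re, Complex.smul_im, smul_eq_mul, add_smul, smul_add, smul_smul,
      mul_inv_cancel_left₀ hh0.ne', mul_assoc]
    abel
  rw [key, norm_smul, Real.norm_eq_abs, abs_of_pos hh0, ← hhE, mul_assoc]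
  refine mul_le_mul_of_nonneg_left ?_ hh0.le
  set s := √(g.g q v v) with hs
  have hs0 : 0 ≤ s := Real.sqrt_nonneg _
  have b1 : ‖L‖ ≤ c * (B1 * s) := by
    refine (ContinuousLinearMap.le_opNorm _ _).trans
      (mul_le_mul (hV q _).2 ?_ (norm_nonneg _) hc0)
    rw [norm_prod_le_iff, norm_prod_le_iff]
    exact ⟨(hB2 q v).1.1, (hB2 q v).1.2, by rw [norm_zero]; positivity⟩
  have b2 := ksa_norm b1 (hB q).2.1.1.1 (hB q).2.1.1.2
  have b3 := ksa_norm (hV q (h⁻¹ • φ q)).1 (hB2 q v).2.1 (hB2 q v).2.2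
  have b4 := (norm_mul_le _ _).trans (mul_le_mul (hB q).2.2 b3 (norm_nonneg _) hB0)
  refine (norm_add_le _ _).trans ((add_le_add b4 b2).trans ?_)
  have b5 : 0 ≤ c * B * s := by positivity
  rw [hE]
  nlinarith

/-- Finitely many steps (induction on `s`, the quantifier over `τ` inside).  Injectivity on the
compact `K` is quantitative (`J·J ≥ m g` on `K`, via charts and compactness) and survives since the
form `J·J` only increases up to small errors. -/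
theorem kuiper_steps {g : Met M} (C : Calc g) {Φ : M → Fin 3 → ℝ} {a : M → ℝ}
    {Y : M → E2 →L[ℝ] (Fin 2 → ℝ)} (hΦ : Sm Φ) (ha : Sm a) (ha0 : ∀ q, 0 < a q)
    (hY : ∀ V, SmV V → Sm fun q => Y q (V q)) {K : Set M} (hK : IsClosed K)
    (hinj : ∀ q ∈ K, ∀ v, Jf Φ a Y q v = 0 → v = 0) {α : Type} (s : Finset α) (A : α → M → ℝ)
    (i : α → Fin C.n) (ξ : α → Fin 2 → ℝ) (hA : ∀ j, Sm (A j))
    (hAi : ∀ j, tsupport (A j) ⊆ C.O (i j)) (hAK : ∀ j, tsupport (A j) ⊆ K) (hξ : ∀ j, ξ j ≠ 0)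
    {τ : ℝ} (hτ : 0 < τ) :
    ∃ Φ' : M → Fin 3 → ℝ, Sm Φ' ∧ (∀ q ∉ K, Φ' q = Φ q) ∧ (∀ q, ‖Φ' q - Φ q‖ ≤ τ) ∧
      ∀ q v, |Jf Φ' a Y q v ⬝ᵥ Jf Φ' a Y q v - Jf Φ a Y q v ⬝ᵥ Jf Φ a Y q v -
          ∑ j ∈ s, (A j q * C.dph (i j) (ξ j) q v) ^ 2| ≤ τ * g.g q v v ∧
        ‖Jf Φ' a Y q v - Jf Φ a Y q v‖ ≤
          5 * ∑ j ∈ s, |A j q * C.dph (i j) (ξ j) q v| + τ * √(g.g q v v) := by
  classical
  obtain ⟨m, hm, hlow⟩ := ksb_Jf_lower C hΦ ha hY hK hinj
  induction s using Finset.induction_on generalizing τ with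
  | empty =>
    refine ⟨Φ, hΦ, fun _ _ => rfl, fun q => by simpa using hτ.le, fun q v => ⟨?_, ?_⟩⟩
    · simpa using mul_nonneg hτ.le (ksb_g_nonneg g q v)
    · simpa using mul_nonneg hτ.le (Real.sqrt_nonneg _)
  | insert j s hj ih =>
    have hτ₁ : 0 < min (τ / 2) (m / 2) := lt_min (by positivity) (by positivity)
    obtain ⟨Φ₁, h1, h2, h3, h4⟩ := ih hτ₁
    have hinj₁ : ∀ q ∈ tsupport (A j), ∀ v, Jf Φ₁ a Y q v = 0 → v = 0 := by
      intro q hq v hv
      by_contra h0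
      have h5 := (abs_le.1 (h4 q v).1).1
      have h6 := hlow q (hAK j hq) v
      have h7 := g.pos q v h0
      have h8 : 0 ≤ ∑ j ∈ s, (A j q * C.dph (i j) (ξ j) q v) ^ 2 :=
        Finset.sum_nonneg fun _ _ => sq_nonneg _
      have h9 := mul_le_mul_of_nonneg_right (min_le_right (τ / 2) (m / 2)) h7.le
      rw [hv, dotProduct_zero] at h5
      nlinarith [mul_pos hm h7]
    obtain ⟨B₁, hB₁, hJ⟩ := ksb_Jf_upper C h1 ha hY
    obtain ⟨B₂, hB₂, hφ⟩ := ksb_upper C (fun q v => A j q * C.dph (i j) (ξ j) q v)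
      (fun q s t v w => by
        simp only [Calc.dph, Fin.sum_univ_two, map_add, map_smul, smul_eq_mul]
        ring)
      (fun b => (hA j).cont.mul (continuous_finsetSum _ fun u _ =>
        continuous_const.mul ((C.x_sm (i j) u).zv (C.V_sm b)).cont))
    have hτ₂ : 0 < min 1 (τ / 2 / (B₁ + B₂ + 6)) := lt_min one_pos (by positivity)
    obtain ⟨Φ₂, D, k1, k2, k3, k4⟩ := kuiper_step C h1 ha ha0 hY (hA j) (i j) (hAi j) (ξ j) (hξ j)
      hinj₁ hτ₂
    set t := min 1 (τ / 2 / (B₁ + B₂ + 6)) with ht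
    have ht1 : t ≤ 1 := min_le_left _ _
    have ht2 : t * (B₁ + B₂ + 6) ≤ τ / 2 := (le_div_iff₀ (by positivity)).1 (min_le_right _ _)
    have ht3 : t ≤ τ / 2 := by nlinarith
    have ht4 : min (τ / 2) (m / 2) ≤ τ / 2 := min_le_left _ _
    refine ⟨Φ₂, k1, fun q hq => (k2 q fun h => hq (hAK j h)).trans (h2 q hq), fun q => ?_,
      fun q v => ?_⟩
    · calc ‖Φ₂ q - Φ q‖ ≤ ‖Φ₂ q - Φ₁ q‖ + ‖Φ₁ q - Φ q‖ := norm_sub_le_norm_sub_add_norm_sub _ _ _
        _ ≤ τ := by linarith [k3 q, h3 q]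
    · obtain ⟨l1, l2⟩ := k4 q
      obtain ⟨l2, l3⟩ := l2 v
      obtain ⟨l4, l5⟩ := h4 q v
      have hG := ksb_g_nonneg g q v
      have hr := Real.sqrt_nonneg (g.g q v v)
      rw [Finset.sum_insert hj, Finset.sum_insert hj]
      constructor
      · have l6 := ksb_dot_err (B := B₁ + B₂) hG hτ₂.le
          (l2.trans_le (by linarith [hJ q v, hφ q v])) l3
        rw [add_sub_cancel, l2] at l6
        have l7 : t * (B₁ + B₂ + 3 + 3 * t) * g.g q v v ≤ τ / 2 * g.g q v v :=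
          mul_le_mul_of_nonneg_right (by nlinarith) hG
        have l8 := mul_le_mul_of_nonneg_right ht4 hG
        have l9 := abs_le.1 l6
        have l10 := abs_le.1 l4
        refine abs_le.2 ⟨?_, ?_⟩ <;> linarith
      · have l6 : ‖C.dph (i j) (ξ j) q v • D q‖ ≤ 5 * |A j q * C.dph (i j) (ξ j) q v| := by
          rw [norm_smul, abs_mul, Real.norm_eq_abs]
          nlinarith [mul_le_mul_of_nonneg_left (ksb_norm_le l1) (abs_nonneg (C.dph (i j) (ξ j) q v))]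
        have l7 : Jf Φ₂ a Y q v - Jf Φ a Y q v =
            (Jf Φ₂ a Y q v - (Jf Φ₁ a Y q v + C.dph (i j) (ξ j) q v • D q)) +
              C.dph (i j) (ξ j) q v • D q + (Jf Φ₁ a Y q v - Jf Φ a Y q v) := by abel
        have l8 := mul_le_mul_of_nonneg_right ht4 hr
        have l9 := mul_le_mul_of_nonneg_right ht3 hr
        rw [l7]
        refine (norm_add₃_le).trans ?_
        linarith

end Crest.Agent.R216
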