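import Crest.Agent.R216.KAlg
/-! # R216: pointwise estimates for the assembly of `kuiper` -/

set_option autoImplicit false
open scoped Matrix
open Set

namespace Crest.Agent.R216

theorem kx_dot_nonneg (J : Fin 3 → ℝ) : 0 ≤ J ⬝ᵥ J :=
  Finset.sum_nonneg fun _ _ => mul_self_nonneg _

theorem kx_dot (J y : Fin 3 → ℝ) {s G : ℝ} (hs : 0 < s) (hs1 : s ≤ 1) (hG : 0 ≤ G)
    (hy : y ⬝ᵥ y ≤ 2 * s ^ 2 * G) (hJ : J ⬝ᵥ J ≤ 2 * G) :
    |(J + y) ⬝ᵥ (J + y) - J ⬝ᵥ J| ≤ 6 * s * G := by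
  have h1 := kx_dot_nonneg (s • J + y)
  have h2 := kx_dot_nonneg (s • J - y)
  have h3 := kx_dot_nonneg y
  simp only [add_dotProduct, dotProduct_add, sub_dotProduct, dotProduct_sub, smul_dotProduct,
    dotProduct_smul, smul_eq_mul, dotProduct_comm y J] at h1 h2 ⊢
  have h4 : s * (s * J ⬝ᵥ J) ≤ 2 * s ^ 2 * G := by nlinarith [mul_pos hs hs]
  have h5 : s ^ 2 * G ≤ s * G := by nlinarith [mul_nonneg hs.le hG]
  have h6 : J ⬝ᵥ y ≤ 2 * s * G := le_of_mul_le_mul_left (by nlinarith) hs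
  have h7 : -(2 * s * G) ≤ J ⬝ᵥ y := le_of_mul_le_mul_left (by nlinarith) hs
  have h8 := mul_nonneg hs.le hG
  exact abs_le.2 ⟨by linarith, by linarith⟩

/-- the deficiency form -/
noncomputable def kom (g : E2 →L[ℝ] E2 →L[ℝ] ℝ) (w0 w1 l : E2 →L[ℝ] ℝ) (s lam : ℝ) :
    E2 →ₗ[ℝ] E2 →ₗ[ℝ] ℝ :=
  LinearMap.mk₂ ℝ (fun v w => gp g w0 w1 s v w - l v * l w / lam)
    (fun a b c => by simp only [gp, map_add, _root_.add_apply]; ring)
    (fun a b c => by simp only [gp, map_smul, _root_.smul_apply, smul_eq_mul]; ring)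
    (fun a b c => by simp only [gp, map_add]; ring)
    (fun a b c => by simp only [gp, map_smul, smul_eq_mul]; ring)

theorem kom_apply (g : E2 →L[ℝ] E2 →L[ℝ] ℝ) (w0 w1 l : E2 →L[ℝ] ℝ) (s lam : ℝ) (v w : E2) :
    kom g w0 w1 l s lam v w = (1 + s) * g v w - (w0 v * w0 w + w1 v * w1 w) - l v * l w / lam := rfl

section
variable {g : E2 →L[ℝ] E2 →L[ℝ] ℝ} {w0 w1 l : E2 →L[ℝ] ℝ} {s : ℝ} {τs : E2}

theorem kom_nonneg (hs : ∀ v w, g v w = g w v) (hp : ∀ v, 0 ≤ gp g w0 w1 s v v)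
    (hτ : ∀ v, gp g w0 w1 s τs v = l v) (h2 : 0 < l τs) (v : E2) :
    0 ≤ kom g w0 w1 l s (l τs) v v := by
  have := kalg_psd g w0 w1 l s hs hp τs hτ h2 v
  rw [pow_two] at this
  exact this

theorem kom_le (hg : ∀ v, 0 ≤ g v v) (hs1 : s ≤ 1) {lam : ℝ} (h2 : 0 < lam) (v : E2) :
    kom g w0 w1 l s lam v v ≤ 2 * g v v := by
  rw [kom_apply]
  have h1 := div_nonneg (mul_self_nonneg (l v)) h2.le
  nlinarith [mul_self_nonneg (w0 v), mul_self_nonneg (w1 v), hg v,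
    mul_le_mul_of_nonneg_right hs1 (hg v)]

theorem kx_dir (hs : ∀ v w, g v w = g w v) (hg0 : ∀ v, 0 ≤ g v v)
    (hp : ∀ v, 0 ≤ gp g w0 w1 s v v) (hτ : ∀ v, gp g w0 w1 s τs v = l v) (h2 : 0 < l τs)
    (hs1 : s ≤ 1) (x : Fin 2 → E2 →L[ℝ] ℝ) (e : Fin 2 → E2)
    (hx : ∀ u v, x u (e v) = if u = v then 1 else 0) (he : ∀ w : E2, w = ∑ u, x u w • e u)
    (hg : ∀ v, |g v v - ∑ u, x u v ^ 2| ≤ 2 / 100 * ∑ u, x u v ^ 2) {N : ℝ} (hN : 8 ≤ N)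
    (u u' : Fin 2) (huu : u ≠ u') {r : ℝ} (hr : |r| ≤ 1)
    (h : |x u τs + r * x u' τs| ≤ 2 / N * √(∑ u, x u τs ^ 2)) {B1 : ℝ} (hB1 : 0 ≤ B1)
    (h1 : g τs τs ≤ B1 ^ 2) :
    (∀ v, |(kom g w0 w1 l s (l τs) (e u) (e u) + 1 / N) * (x u v + r * x u' v) ^ 2 -
      kom g w0 w1 l s (l τs) v v| ≤ 203 / N * g v v) ∧
    |√(kom g w0 w1 l s (l τs) (e u) (e u) + 1 / N) * (x u τs + r * x u' τs)| ≤ 8 / N * B1 := by
  have hN0 : 0 < N := by linarith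
  have hsum : ∀ v, ∑ u, x u v ^ 2 ≤ 3 / 2 * g v v := fun v => by
    have := (abs_le.1 (hg v)).1
    have h0 := hg0 v
    linarith
  constructor
  · intro v
    have hτ0 : τs ≠ 0 := by
      rintro rfl
      simp at h2
    have hk : ∀ v, kom g w0 w1 l s (l τs) τs v = 0 := fun v => by
      have := hτ v
      rw [gp] at this
      rw [kom_apply, this]
      field_simp
      ring
    have hsym : ∀ v w, kom g w0 w1 l s (l τs) v w = kom g w0 w1 l s (l τs) w v := fun v w => by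
      rw [kom_apply, kom_apply, hs v w]; ring
    have hδ : 2 / N ≤ 1 / 4 := by rw [div_le_iff₀ hN0]; linarith
    have h3 := kalg_dir g _ x e hx he hg hsym (kom_nonneg hs hp hτ h2) (kom_le hg0 hs1 h2) τs hτ0 hk
      u u' huu r (2 / N) hr (by positivity) hδ h v
    have h4 : x u v ^ 2 + x u' v ^ 2 = ∑ u, x u v ^ 2 := by
      rw [Fin.sum_univ_two]
      revert huu
      fin_cases u <;> fin_cases u' <;> simp [add_comm]
    have hr2 : r ^ 2 ≤ 1 := by rwa [sq_le_one_iff_abs_le_one]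
    have h5 : (x u v + r * x u' v) ^ 2 ≤ 3 * g v v := by
      have := hsum v
      nlinarith [sq_nonneg (x u v - r * x u' v), mul_le_mul_of_nonneg_right hr2 (sq_nonneg (x u' v))]
    have h6 : 1 / N * (x u v + r * x u' v) ^ 2 ≤ 1 / N * (3 * g v v) :=
      mul_le_mul_of_nonneg_left h5 (by positivity)
    have h7 : 0 ≤ 1 / N * (x u v + r * x u' v) ^ 2 := by positivity
    have h8 : 0 ≤ 1 / N * g v v := mul_nonneg (by positivity) (hg0 v)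
    have e1 : 100 * (2 / N) * g v v = 200 * (1 / N * g v v) := by ring
    have e2 : 203 / N * g v v = 203 * (1 / N * g v v) := by ring
    rw [e1] at h3
    rw [e2]
    obtain ⟨h3a, h3b⟩ := abs_le.1 h3
    exact abs_le.2 ⟨by nlinarith, by nlinarith⟩
  · have ha : √(kom g w0 w1 l s (l τs) (e u) (e u) + 1 / N) ≤ 2 := by
      refine Real.sqrt_le_iff.2 ⟨by norm_num, ?_⟩
      have h3 := kom_le (w0 := w0) (w1 := w1) (l := l) hg0 hs1 h2 (e u)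
      have h4 := (abs_le.1 (hg (e u))).2
      have h5 : ∑ u', x u' (e u) ^ 2 = 1 := by simp [hx]
      have h6 : 1 / N ≤ 1 := by rw [div_le_iff₀ hN0]; linarith
      rw [h5] at h4
      linarith
    have hb : √(∑ u, x u τs ^ 2) ≤ 2 * B1 := by
      refine Real.sqrt_le_iff.2 ⟨by positivity, ?_⟩
      have := hsum τs
      nlinarith [sq_nonneg B1]
    rw [abs_mul, abs_of_nonneg (Real.sqrt_nonneg _)]
    calc _ ≤ 2 * (2 / N * (2 * B1)) :=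
          mul_le_mul ha (h.trans (mul_le_mul_of_nonneg_left hb (by positivity))) (abs_nonneg _)
            (by norm_num)
      _ = 8 / N * B1 := by ring

/-- the estimate in the transition zone -/
theorem kx_near {B B1 t a0 b Ψ : ℝ} (hB1 : 1 ≤ B1) (hg : ∀ v, 0 ≤ g v v) (ht : 0 < t) (ht1 : t ≤ 1)
    (h : ∀ v, |w0 v ^ 2 + w1 v ^ 2 + (a0 * l v) ^ 2 - g v v| ≤ t * g v v)
    (hτ : ∀ v, gp g w0 w1 √t τs v = l v) (h1 : g τs τs ≤ B1 ^ 2) (h2 : B1⁻¹ ≤ l τs)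
    (hl : ∀ v, l v ^ 2 ≤ B ^ 2 * g v v) (ha0 : 0 ≤ a0) (hb0 : 0 ≤ b) (hb1 : b ≤ 1) (hΨ0 : 0 ≤ Ψ)
    (hΨ1 : Ψ ≤ 1) (v : E2) :
    |w0 v ^ 2 + w1 v ^ 2 + ((b * a0 + (1 - b) * (√(l τs))⁻¹) * l v) ^ 2 +
      Ψ * kom g w0 w1 l √t (l τs) v v - g v v| ≤ (3 + 4 * B1 ^ 4 * B ^ 2) * √t * g v v := by
  have hB0 : 0 < B1 := by linarith
  have hlam : 0 < l τs := (inv_pos.2 hB0).trans_le h2
  have h3 := kalg_near B1 hB1 g w0 w1 l t a0 hg ht ht1 h τs hτ h1 h2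
  set lam := l τs with hlam_def
  set c := (√lam)⁻¹ with hc
  have hc0 : 0 ≤ c := by positivity
  have hc2 : c ^ 2 = lam⁻¹ := by rw [hc, inv_pow, Real.sq_sqrt hlam.le]
  have hinv : lam⁻¹ ≤ B1 := inv_le_of_inv_le₀ hB0 h2
  have hst : 0 < √t := Real.sqrt_pos.2 ht
  have hts : t ≤ √t := by
    refine Real.le_sqrt_of_sq_le ?_
    nlinarith
  set D := 2 * B1 ^ 4 * √t with hD
  have h4 : |a0 ^ 2 - c ^ 2| ≤ D := by
    have e : a0 ^ 2 - c ^ 2 = (a0 ^ 2 * lam - 1) * lam⁻¹ := by rw [hc2]; field_simp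
    rw [e, abs_mul, abs_of_pos (inv_pos.2 hlam)]
    calc _ ≤ 2 * B1 ^ 3 * √t * B1 := mul_le_mul h3 hinv (by positivity) (by positivity)
      _ = D := by ring
  set a := b * a0 + (1 - b) * c with ha
  have h5 : |a ^ 2 - a0 ^ 2| ≤ D := by
    refine le_trans ?_ h4
    have e1 : a ^ 2 - a0 ^ 2 = (1 - b) * (c - a0) * (a + a0) := by rw [ha]; ring
    have e2 : a0 ^ 2 - c ^ 2 = -((c - a0) * (c + a0)) := by ring
    have ha' : 0 ≤ a := add_nonneg (mul_nonneg hb0 ha0) (mul_nonneg (by linarith) hc0)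
    rw [e1, e2, abs_neg, mul_comm (1 - b), mul_assoc, abs_mul, abs_mul (c - a0)]
    refine mul_le_mul_of_nonneg_left ?_ (abs_nonneg _)
    rw [abs_of_nonneg (mul_nonneg (by linarith) (by linarith)), abs_of_nonneg (by linarith)]
    rw [ha]
    nlinarith [mul_nonneg hb0 ha0, mul_nonneg hb0 hc0, mul_nonneg (mul_nonneg hb0 hb0) ha0,
      mul_nonneg (mul_nonneg hb0 (sub_nonneg.2 hb1)) hc0]
  have hD0 : 0 ≤ D := by positivity
  have hG := hg v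
  have h6 : |(a ^ 2 - a0 ^ 2) * l v ^ 2| ≤ D * (B ^ 2 * g v v) := by
    rw [abs_mul, abs_of_nonneg (sq_nonneg (l v))]
    exact mul_le_mul h5 (hl v) (sq_nonneg _) hD0
  have h7 : |(a0 ^ 2 - c ^ 2) * l v ^ 2| ≤ D * (B ^ 2 * g v v) := by
    rw [abs_mul, abs_of_nonneg (sq_nonneg (l v))]
    exact mul_le_mul h4 (hl v) (sq_nonneg _) hD0
  have h8 : t * g v v ≤ √t * g v v := mul_le_mul_of_nonneg_right hts hG
  have h9 : 0 ≤ √t * g v v := mul_nonneg hst.le hG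
  obtain ⟨h0a, h0b⟩ := abs_le.1 (h v)
  obtain ⟨h6a, h6b⟩ := abs_le.1 h6
  obtain ⟨h7a, h7b⟩ := abs_le.1 h7
  have h10 : |kom g w0 w1 l √t lam v v| ≤ 2 * (√t * g v v) + D * (B ^ 2 * g v v) := by
    have e : kom g w0 w1 l √t lam v v = √t * g v v -
        (w0 v ^ 2 + w1 v ^ 2 + (a0 * l v) ^ 2 - g v v) + (a0 ^ 2 - c ^ 2) * l v ^ 2 := by
      rw [kom_apply, hc2]; ring
    rw [e]
    exact abs_le.2 ⟨by linarith, by linarith⟩
  have h11 : |Ψ * kom g w0 w1 l √t lam v v| ≤ 2 * (√t * g v v) + D * (B ^ 2 * g v v) := by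
    rw [abs_mul, abs_of_nonneg hΨ0]
    exact (mul_le_of_le_one_left (abs_nonneg _) hΨ1).trans h10
  obtain ⟨h11a, h11b⟩ := abs_le.1 h11
  have e1 : (a * l v) ^ 2 = (a0 * l v) ^ 2 + (a ^ 2 - a0 ^ 2) * l v ^ 2 := by ring
  have e2 : (3 + 4 * B1 ^ 4 * B ^ 2) * √t * g v v =
      3 * (√t * g v v) + 2 * (D * (B ^ 2 * g v v)) := by rw [hD]; ring
  rw [e1, e2]
  exact abs_le.2 ⟨by linarith, by linarith⟩

/-- away from the transition zone -/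
theorem kx_far {lam : ℝ} (hlam : 0 < lam) (v : E2) :
    w0 v ^ 2 + w1 v ^ 2 + ((√lam)⁻¹ * l v) ^ 2 + kom g w0 w1 l s lam v v - g v v = s * g v v := by
  rw [kom_apply, mul_pow, inv_pow, Real.sq_sqrt hlam.le]
  ring

end

/-- weighted average of approximations -/
theorem kx_avg {α : Type} [Fintype α] (ψ X : α → ℝ) (ω ε : ℝ) (hε : 0 ≤ ε)
    (h1 : ∑ j, ψ j ^ 2 ≤ 1) (h : ∀ j, ψ j ≠ 0 → |X j - ω| ≤ ε) :
    |∑ j, ψ j ^ 2 * X j - (∑ j, ψ j ^ 2) * ω| ≤ ε := by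
  rw [Finset.sum_mul, ← Finset.sum_sub_distrib]
  refine (Finset.abs_sum_le_sum_abs _ _).trans ?_
  calc _ ≤ ∑ j, ψ j ^ 2 * ε := Finset.sum_le_sum fun j _ => by
        rw [← mul_sub, abs_mul, abs_of_nonneg (sq_nonneg _)]
        by_cases hj : ψ j = 0
        · simp [hj]
        · exact mul_le_mul_of_nonneg_left (h j hj) (sq_nonneg _)
    _ ≤ ε := by
        rw [← Finset.sum_mul]
        exact mul_le_of_le_one_left hε h1

theorem kx_sum {n N : ℕ} (ψ X : Fin n × Fin 2 × Fin (N + 1) → ℝ) {η : ℝ} (hη : 0 < η) (hN : 1 ≤ N)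
    (hN2 : 6400 * n / η ^ 2 ≤ N) (h0 : ∀ j, 0 ≤ ψ j) (h1 : ∑ j, ψ j ^ 2 ≤ 1)
    (h : ∀ j, ψ j ≠ 0 → |X j| ≤ 8 / N) : 5 * ∑ j, |ψ j * X j| ≤ η := by
  have hN0 : (0 : ℝ) < N := by exact_mod_cast hN
  have hN1 : (1 : ℝ) ≤ N := by exact_mod_cast hN
  have h2 : ∑ j, |ψ j * X j| ≤ (∑ j, ψ j) * (8 / N) := by
    rw [Finset.sum_mul]
    refine Finset.sum_le_sum fun j _ => ?_
    rw [abs_mul, abs_of_nonneg (h0 j)]
    by_cases hj : ψ j = 0
    · simp [hj]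
    · exact mul_le_mul_of_nonneg_left (h j hj) (h0 j)
  have h3 : (∑ j, ψ j) ^ 2 ≤ 4 * n * N := by
    refine sq_sum_le_card_mul_sum_sq.trans ?_
    simp only [Finset.card_univ, Fintype.card_prod, Fintype.card_fin]
    refine (mul_le_of_le_one_right (by positivity) h1).trans ?_
    push_cast
    nlinarith [mul_le_mul_of_nonneg_left hN1 (Nat.cast_nonneg (α := ℝ) n)]
  have h4 : (5 * ((∑ j, ψ j) * (8 / N))) ^ 2 ≤ η ^ 2 := by
    rw [div_le_iff₀ (by positivity)] at hN2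
    have e : (5 * ((∑ j, ψ j) * (8 / N))) ^ 2 = 1600 * (∑ j, ψ j) ^ 2 / N ^ 2 := by ring
    rw [e, div_le_iff₀ (by positivity)]
    nlinarith [mul_le_mul_of_nonneg_right hN2 hN0.le]
  have h5 := (abs_le_of_sq_le_sq' h4 hη.le).2
  linarith

end Crest.Agent.R216
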