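import Crest.Agent.R216.KStep
import Crest.Agent.R216.KAlg
import Crest.Agent.R216.KuiperAux
/-! # R216: global convex integration (K) -/

set_option autoImplicit false
open scoped Manifold ContDiff Topology Matrix
open Set Filter

namespace Crest.Agent.R216
universe u
variable {M : Type u} [TopologicalSpace M] [ChartedSpace E2 M] [IsManifold (𝓡 2) ∞ M]
  [T2Space M] [CompactSpace M]

/-- the `c`-th component of `dΦ` -/
noncomputable def dc (Φ : M → Fin 3 → ℝ) (c : Fin 3) (q : M) : E2 →L[ℝ] ℝ :=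
  (ContinuousLinearMap.proj c).comp (dd Φ q)

section kua
variable {g : E2 →L[ℝ] E2 →L[ℝ] ℝ} {w0 w1 : E2 →L[ℝ] ℝ} {s : ℝ} {x : Fin 2 → E2 →L[ℝ] ℝ}
  {e : Fin 2 → E2}

theorem kua_left (a b : ℝ) (v v' w : E2) :
    gp g w0 w1 s (a • v + b • v') w = a * gp g w0 w1 s v w + b * gp g w0 w1 s v' w := by
  simp only [gp, map_add, map_smul, _root_.add_apply, _root_.smul_apply, smul_eq_mul]
  ring

theorem kua_right (a b : ℝ) (v v' w : E2) :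
    gp g w0 w1 s w (a • v + b • v') = a * gp g w0 w1 s w v + b * gp g w0 w1 s w v' := by
  simp only [gp, map_add, map_smul, smul_eq_mul]
  ring

theorem kua_symm (hs : ∀ v w, g v w = g w v) (v w : E2) :
    gp g w0 w1 s v w = gp g w0 w1 s w v := by
  simp only [gp, hs v w]
  ring

theorem kua_det (hs : ∀ v w, g v w = g w v) (hx : ∀ u v, x u (e v) = if u = v then 1 else 0)
    (hp : ∀ v, v ≠ 0 → 0 < gp g w0 w1 s v v) :
    0 < gp g w0 w1 s (e 0) (e 0) * gp g w0 w1 s (e 1) (e 1) -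
      gp g w0 w1 s (e 0) (e 1) * gp g w0 w1 s (e 0) (e 1) := by
  have h0 : 0 < gp g w0 w1 s (e 0) (e 0) := hp _ fun h => by simpa [h] using hx 0 0
  have h1 := hp ((-gp g w0 w1 s (e 0) (e 1)) • e 0 + gp g w0 w1 s (e 0) (e 0) • e 1) fun h => by
    have := congrArg (x 1) h
    simp only [map_add, map_smul, hx, smul_eq_mul, map_zero] at this
    simp at this
    exact h0.ne' this
  rw [kua_left, kua_right, kua_right, kua_symm hs (e 1) (e 0)] at h1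
  refine pos_of_mul_pos_left (b := gp g w0 w1 s (e 0) (e 0)) ?_ h0.le
  linarith

theorem kua_exists (hs : ∀ v w, g v w = g w v) (hx : ∀ u v, x u (e v) = if u = v then 1 else 0)
    (he : ∀ w : E2, w = ∑ u, x u w • e u) (hp : ∀ v, v ≠ 0 → 0 < gp g w0 w1 s v v)
    (l : E2 →L[ℝ] ℝ) : ∃ τ : E2, ∀ v, gp g w0 w1 s τ v = l v := by
  have hD := (kua_det hs hx hp).ne'
  refine ⟨((gp g w0 w1 s (e 1) (e 1) * l (e 0) - gp g w0 w1 s (e 0) (e 1) * l (e 1)) /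
      (gp g w0 w1 s (e 0) (e 0) * gp g w0 w1 s (e 1) (e 1) -
        gp g w0 w1 s (e 0) (e 1) * gp g w0 w1 s (e 0) (e 1))) • e 0 +
    ((gp g w0 w1 s (e 0) (e 0) * l (e 1) - gp g w0 w1 s (e 0) (e 1) * l (e 0)) /
      (gp g w0 w1 s (e 0) (e 0) * gp g w0 w1 s (e 1) (e 1) -
        gp g w0 w1 s (e 0) (e 1) * gp g w0 w1 s (e 0) (e 1))) • e 1, fun v => ?_⟩
  rw [he v, Fin.sum_univ_two, kua_left, kua_right, kua_right, kua_symm hs (e 1) (e 0), map_add,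
    map_smul, map_smul, smul_eq_mul, smul_eq_mul, div_mul_eq_mul_div, div_mul_eq_mul_div,
    ← add_div, div_eq_iff hD]
  ring

theorem kua_cramer (hs : ∀ v w, g v w = g w v) (he : ∀ w : E2, w = ∑ u, x u w • e u)
    (hD : gp g w0 w1 s (e 0) (e 0) * gp g w0 w1 s (e 1) (e 1) -
      gp g w0 w1 s (e 0) (e 1) * gp g w0 w1 s (e 0) (e 1) ≠ 0)
    {l : E2 →L[ℝ] ℝ} {τ : E2} (hτ : ∀ v, gp g w0 w1 s τ v = l v) :
    x 0 τ = (gp g w0 w1 s (e 1) (e 1) * l (e 0) - gp g w0 w1 s (e 0) (e 1) * l (e 1)) /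
      (gp g w0 w1 s (e 0) (e 0) * gp g w0 w1 s (e 1) (e 1) -
        gp g w0 w1 s (e 0) (e 1) * gp g w0 w1 s (e 0) (e 1)) ∧
    x 1 τ = (gp g w0 w1 s (e 0) (e 0) * l (e 1) - gp g w0 w1 s (e 0) (e 1) * l (e 0)) /
      (gp g w0 w1 s (e 0) (e 0) * gp g w0 w1 s (e 1) (e 1) -
        gp g w0 w1 s (e 0) (e 1) * gp g w0 w1 s (e 0) (e 1)) := by
  have h0 := hτ (e 0)
  have h1 := hτ (e 1)
  rw [he τ, Fin.sum_univ_two, kua_left] at h0 h1
  rw [kua_symm hs (e 1) (e 0)] at h0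
  rw [eq_div_iff hD, eq_div_iff hD, ← h0, ← h1]
  constructor <;> ring

end kua

theorem kua_div {N D : M → ℝ} (hN : Sm N) (hD : Sm D) {p : M} (h : D p ≠ 0) :
    ∃ f : M → ℝ, Sm f ∧ (fun q => N q / D q) =ᶠ[𝓝 p] f := by
  have hV : IsOpen {q | D q ≠ 0} := isOpen_ne_fun hD.cont continuous_const
  obtain ⟨b, hb, -, hb1, hbs⟩ := exists_cutoff (K := {p}) isClosed_singleton hV
    (singleton_subset_iff.2 h)
  refine ⟨fun q => b q * (N q / D q), contMDiff_of_tsupport fun q hq => ?_, ?_⟩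
  · have hq' : D q ≠ 0 := hbs (tsupport_mul_subset_left hq)
    exact (hb q).mul ((hN q).div₀ (hD q) hq')
  · rw [nhdsSet_singleton] at hb1
    filter_upwards [hb1] with q hq
    rw [hq, one_mul]

/-- The vector `τs` with `gp τs = du` on an open set where `gp` is positive definite; its chart
components are locally smooth (Cramer's rule in the frame `V (i,·)`, uniqueness of `τs`). -/
theorem exists_taus {g : Met M} (C : Calc g) {Φ : M → Fin 3 → ℝ} (hΦ : Sm Φ) (s : ℝ) {U : Set M}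
    (hU : IsOpen U) (hp : ∀ q ∈ U, ∀ v, v ≠ 0 → 0 < gp (g.g q) (dc Φ 0 q) (dc Φ 1 q) s v v) :
    ∃ τs : M → E2, (∀ q ∈ U, ∀ v, gp (g.g q) (dc Φ 0 q) (dc Φ 1 q) s (τs q) v = dc Φ 2 q v) ∧
      (∀ i u, ∀ q ∈ U ∩ C.O i, ∃ f : M → ℝ, Sm f ∧ (fun q => dd (C.x i u) q (τs q)) =ᶠ[𝓝 q] f) ∧
      ∀ q ∈ U, ∃ f : M → ℝ, Sm f ∧ (fun q => dc Φ 2 q (τs q)) =ᶠ[𝓝 q] f := by
  classical
  have hex : ∀ q ∈ U, ∃ τ : E2, ∀ v,
      gp (g.g q) (dc Φ 0 q) (dc Φ 1 q) s τ v = dc Φ 2 q v := fun q hq => by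
    obtain ⟨i, hi⟩ := C.cover q
    exact kua_exists (x := fun u => dd (C.x i u) q) (e := fun u => C.V (i, u) q) (g.symm q)
      (C.dual i q hi) (C.span i q hi) (hp q hq) _
  let τs : M → E2 := fun q => if h : q ∈ U then (hex q h).choose else 0
  have hτ : ∀ q ∈ U, ∀ v, gp (g.g q) (dc Φ 0 q) (dc Φ 1 q) s (τs q) v = dc Φ 2 q v := by
    intro q hq
    simp only [τs, dif_pos hq]
    exact (hex q hq).choose_spec
  have hdc : ∀ c a, Sm fun q => dc Φ c q (C.V a q) := fun c a =>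
    sm_pi.1 (Sm.zv (C.V_sm a) hΦ) c
  have hP : ∀ a b, Sm fun q => gp (g.g q) (dc Φ 0 q) (dc Φ 1 q) s (C.V a q) (C.V b q) :=
    fun a b => ((sm_const _).mul' (C.G_sm a b)).sub'
      (((hdc 0 a).mul' (hdc 0 b)).add' ((hdc 1 a).mul' (hdc 1 b)))
  have h2 : ∀ i u, ∀ q ∈ U ∩ C.O i, ∃ f : M → ℝ, Sm f ∧
      (fun q => dd (C.x i u) q (τs q)) =ᶠ[𝓝 q] f := by
    intro i u q hq
    have hD := fun q (hq : q ∈ U ∩ C.O i) =>
      kua_det (x := fun u => dd (C.x i u) q) (e := fun u => C.V (i, u) q) (g.symm q)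
        (C.dual i q hq.2) (hp q hq.1)
    have hc := fun q (hq : q ∈ U ∩ C.O i) =>
      kua_cramer (x := fun u => dd (C.x i u) q) (e := fun u => C.V (i, u) q) (g.symm q)
        (C.span i q hq.2) (hD q hq).ne' (hτ q hq.1)
    have hDs := ((hP (i, 0) (i, 0)).mul' (hP (i, 1) (i, 1))).sub'
      ((hP (i, 0) (i, 1)).mul' (hP (i, 0) (i, 1)))
    have hnb := (hU.inter (C.O_open i)).mem_nhds hq
    fin_cases u
    · obtain ⟨f, hf, e⟩ := kua_div (((hP (i, 1) (i, 1)).mul' (hdc 2 (i, 0))).sub'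
        ((hP (i, 0) (i, 1)).mul' (hdc 2 (i, 1)))) hDs (hD q hq).ne'
      refine ⟨f, hf, EventuallyEq.trans ?_ e⟩
      filter_upwards [hnb] with q' hq' using (hc q' hq').1
    · obtain ⟨f, hf, e⟩ := kua_div (((hP (i, 0) (i, 0)).mul' (hdc 2 (i, 1))).sub'
        ((hP (i, 0) (i, 1)).mul' (hdc 2 (i, 0)))) hDs (hD q hq).ne'
      refine ⟨f, hf, EventuallyEq.trans ?_ e⟩
      filter_upwards [hnb] with q' hq' using (hc q' hq').2
  refine ⟨τs, hτ, h2, fun q hq => ?_⟩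
  obtain ⟨i, hi⟩ := C.cover q
  obtain ⟨f0, hf0, e0⟩ := h2 i 0 q ⟨hq, hi⟩
  obtain ⟨f1, hf1, e1⟩ := h2 i 1 q ⟨hq, hi⟩
  refine ⟨_, (hf0.mul' (hdc 2 (i, 0))).add' (hf1.mul' (hdc 2 (i, 1))), ?_⟩
  filter_upwards [e0, e1, (C.O_open i).mem_nhds hi] with q' a0 a1 hq'
  rw [← a0, ← a1]
  conv_lhs => rw [C.span i q' hq' (τs q')]
  simp only [Fin.sum_univ_two, map_add, map_smul, smul_eq_mul]

section KuiperAux
omit [IsManifold (𝓡 2) ∞ M] [T2Space M] [CompactSpace M]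

theorem kx_sm_a {a0 b lam : M → ℝ} {Q0 : Set M} (ha0 : Sm a0) (hb : Sm b)
    (hb1 : ∀ᶠ p in 𝓝ˢ Q0, b p = 1) (hl : ∀ q ∈ Q0ᶜ, ∃ f : M → ℝ, Sm f ∧ lam =ᶠ[𝓝 q] f)
    (hpos : ∀ q ∉ Q0, 0 < lam q) : Sm fun q => b q * a0 q + (1 - b q) * (√(lam q))⁻¹ := by
  intro p
  by_cases hp : p ∈ Q0
  · refine (ha0 p).congr_of_eventuallyEq ?_
    filter_upwards [hb1.filter_mono (nhds_le_nhdsSet hp)] with q hq
    simp [hq]
  · obtain ⟨f, hf, e⟩ := hl p hp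
    have h1 : ContMDiffAt (𝓡 2) 𝓘(ℝ, ℝ) ∞ lam p := (hf p).congr_of_eventuallyEq e
    have h2 : ContMDiffAt (𝓡 2) 𝓘(ℝ, ℝ) ∞ (fun q => (√(lam q))⁻¹) p :=
      ContDiffAt.comp_contMDiffAt (g := fun t : ℝ => (√t)⁻¹)
        ((Real.contDiffAt_sqrt (hpos p hp).ne').inv (Real.sqrt_pos.2 (hpos p hp)).ne') h1
    exact ((hb.mul' ha0) p).add ((((sm_const 1).sub' hb) p).mul h2)

theorem kx_sm_A {ψ G z lam : M → ℝ} {U : Set M} (hψ : Sm ψ) (hψU : tsupport ψ ⊆ U) (hG : Sm G)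
    (hz : Sm z) (hl : ∀ q ∈ U, ∃ f : M → ℝ, Sm f ∧ lam =ᶠ[𝓝 q] f) (hpos : ∀ q ∈ U, 0 < lam q)
    (c : ℝ) (hpos2 : ∀ q ∈ U, 0 < G q - z q / lam q + c) :
    Sm fun q => ψ q * √(G q - z q / lam q + c) := by
  intro p
  by_cases hp : p ∈ tsupport ψ
  · obtain ⟨f, hf, e⟩ := hl p (hψU hp)
    have h1 : ContMDiffAt (𝓡 2) 𝓘(ℝ, ℝ) ∞ lam p := (hf p).congr_of_eventuallyEq e
    have h2 : ContMDiffAt (𝓡 2) 𝓘(ℝ, ℝ) ∞ (fun q => (lam q)⁻¹) p :=
      ContDiffAt.comp_contMDiffAt (g := fun t : ℝ => t⁻¹)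
        (contDiffAt_inv ℝ (hpos p (hψU hp)).ne') h1
    have h3 : ContMDiffAt (𝓡 2) 𝓘(ℝ, ℝ) ∞ (fun q => G q - z q / lam q + c) p := by
      simp only [div_eq_mul_inv]
      exact ((hG p).sub ((hz p).mul h2)).add contMDiffAt_const
    have h4 : ContMDiffAt (𝓡 2) 𝓘(ℝ, ℝ) ∞ (fun q => √(G q - z q / lam q + c)) p :=
      ContDiffAt.comp_contMDiffAt (g := fun t : ℝ => √t)
        (Real.contDiffAt_sqrt (hpos2 p (hψU hp)).ne') h3
    exact (hψ p).mul h4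
  · refine (sm_const (0 : ℝ) p).congr_of_eventuallyEq ?_
    filter_upwards [(isClosed_tsupport ψ).isOpen_compl.mem_nhds hp] with q hq
    simp [image_eq_zero_of_notMem_tsupport hq]

theorem kx_open {W : Set M} (hW : IsOpen W) {f : Fin 2 → M → ℝ}
    (hf : ∀ u, ∀ q ∈ W, ∃ f' : M → ℝ, Sm f' ∧ f u =ᶠ[𝓝 q] f') (u u' : Fin 2) (r c : ℝ) :
    IsOpen {q | q ∈ W ∧ |f u q + r * f u' q| < c * √(∑ w, f w q ^ 2)} := by
  refine isOpen_iff_mem_nhds.2 fun q hq => ?_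
  have hc : ∀ u, ContinuousAt (f u) q := fun u => by
    obtain ⟨f', h1, h2⟩ := hf u q hq.1
    exact h1.cont.continuousAt.congr h2.symm
  have h1 : ContinuousAt (fun q => |f u q + r * f u' q|) q :=
    ((hc u).add (continuousAt_const.mul (hc u'))).abs
  have h2 : ContinuousAt (fun q => c * √(∑ w, f w q ^ 2)) q := by
    simp only [Fin.sum_univ_two]
    exact continuousAt_const.mul (((hc 0).pow 2).add ((hc 1).pow 2)).sqrt
  filter_upwards [hW.mem_nhds hq.1, h1.eventually_lt h2 hq.2] with p h3 h4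
  exact ⟨h3, h4⟩

theorem kx_J0 (Φ : M → Fin 3 → ℝ) (a : M → ℝ) (q : M) (v : E2) :
    Jf Φ a 0 q v ⬝ᵥ Jf Φ a 0 q v = dc Φ 0 q v ^ 2 + dc Φ 1 q v ^ 2 + (a q * dc Φ 2 q v) ^ 2 := by
  simp [Jf, dc, dotProduct, Fin.sum_univ_three, pow_two]

theorem kx_JY (Φ : M → Fin 3 → ℝ) (a : M → ℝ) (Y : M → E2 →L[ℝ] (Fin 2 → ℝ)) (q : M) (v : E2) :
    Jf Φ a Y q v = Jf Φ a 0 q v + ![Y q v 0, Y q v 1, 0] := by
  ext c
  fin_cases c <;> simp [Jf]

theorem kx_yy (y : Fin 2 → ℝ) : ![y 0, y 1, 0] ⬝ᵥ ![y 0, y 1, 0] ≤ 2 * ‖y‖ ^ 2 := by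
  have h0 := sq_le_sq' (abs_le.1 (norm_le_pi_norm y 0)).1 (abs_le.1 (norm_le_pi_norm y 0)).2
  have h1 := sq_le_sq' (abs_le.1 (norm_le_pi_norm y 1)).1 (abs_le.1 (norm_le_pi_norm y 1)).2
  simp only [dotProduct, Fin.sum_univ_three, Matrix.cons_val_zero, Matrix.cons_val_one,
    Matrix.cons_val]
  nlinarith

/-- removing the formal part `Y` -/
theorem kx_remove (J0 J0' y : Fin 3 → ℝ) {s G R e τ σ : ℝ} (hs : 0 < s) (hs1 : s ≤ 1) (hG : 0 ≤ G)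
    (hR : 0 ≤ R) (hy : y ⬝ᵥ y ≤ 2 * s ^ 2 * G) (h1 : |J0 ⬝ᵥ J0 + R - G| ≤ e * G)
    (h2 : |(J0' + y) ⬝ᵥ (J0' + y) - (J0 + y) ⬝ᵥ (J0 + y) - R| ≤ τ * G) (hτ : 0 ≤ τ)
    (h3 : τ + e + 12 * s ≤ σ) (hσ : σ ≤ 1) : |J0' ⬝ᵥ J0' - G| ≤ σ * G := by
  have h4 := mul_le_mul_of_nonneg_right h3 hG
  have h5 := mul_le_mul_of_nonneg_right hσ hG
  have h6 := mul_nonneg hτ hG
  have h7 := mul_nonneg hs.le hG
  obtain ⟨h1a, h1b⟩ := abs_le.1 h1
  obtain ⟨h2a, h2b⟩ := abs_le.1 h2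
  obtain ⟨h8a, h8b⟩ := abs_le.1 (kx_dot J0 y hs hs1 hG hy (by linarith))
  have h9 := kx_dot (J0' + y) (-y) hs hs1 hG (by simpa using hy) (by linarith)
  rw [add_neg_cancel_right] at h9
  obtain ⟨h9a, h9b⟩ := abs_le.1 h9
  exact abs_le.2 ⟨by linarith, by linarith⟩

end KuiperAux

omit [T2Space M] [CompactSpace M] in
theorem kx_dph {g : Met M} (C : Calc g) (i : Fin C.n) (u : Fin 2) (r : ℝ) (q : M) (v : E2) :
    C.dph i (fun w => if w = u then 1 else r) q v =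
      dd (C.x i u) q v + r * dd (C.x i u.rev) q v := by
  fin_cases u <;> simp [Calc.dph, add_comm]

/-- Recipe.  `B1` from `kalg_bound`; `s = √t`; `τs` from `exists_taus` on `U = Q0ᶜ`;
`as = (du τs)^{-1/2}`; `b` cut-off (`= 1` near `Q0`, support in `Q1`), `a = b a0 + (1-b) as`;
`ω = gp - du²/du(τs)`.  Index set `α = Fin n × (u ≠ u') × Fin (N+1)` (e.g. `Fin n × Fin 2 × Fin (N+1)`,
`u' = 1 - u`), `ξ = e_u + s_k e_{u'}`, `U_j = O i \ Q0 ∩ {|ξ τs| < (2/N) |τs|}` is open and these cover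
`Q1ᶜ` (`kalg_grid`); `ψ_j` from `exists_sq_partition`; `A_j = ψ_j √(ω(V(i,u),V(i,u)) + 1/N)`;
`K = ⋃ tsupport ψ_j`; `kuiper_steps`.  Metric: `∑ A_j² ξ_j² = (∑ ψ_j²) ω + O(1/N) g` (`kalg_dir`);
on `Q1ᶜ` the total is `(1+√t) g`, on `Q1 \ Q0` both `ω` and the initial error are `O(√t)` (`kalg_near`),
removing `Y` costs `O(√t)`.  Lower bound: at `v = τs/B1`, `a du v ≥ c(B)` and the change is at most
`5 ∑ |A_j ξ_j v| + τ ≤ C √(card α) / N + τ` (Cauchy–Schwarz with `∑ ψ_j² ≤ 1`), `card α = 2n(N+1)`. -/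
theorem kuiper {g : Met M} (C : Calc g) (B : ℝ) (hB : 0 < B) : ∃ B' : ℝ, 0 < B' ∧ ∀ σ > 0, ∃ t > 0,
    ∀ (Φ : M → Fin 3 → ℝ) (a0 : M → ℝ) (Y : M → E2 →L[ℝ] (Fin 2 → ℝ)) (Q0 Q1 : Set M),
      Sm Φ → Sm a0 → (∀ V, SmV V → Sm fun q => Y q (V q)) → IsClosed Q0 → IsOpen Q1 → Q0 ⊆ Q1 →
      (∀ q v, ‖Y q v‖ ^ 2 ≤ t * g.g q v v) →
      (∀ q ∈ Q1, B⁻¹ ≤ a0 q ∧ a0 q ≤ B ∧
        ∀ v, |Jf Φ a0 0 q v ⬝ᵥ Jf Φ a0 0 q v - g.g q v v| ≤ t * g.g q v v) →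
      (∀ q ∉ Q0, KPt (g.g q) (dc Φ 0 q) (dc Φ 1 q) (dc Φ 2 q) B t) →
      (∀ q ∉ Q0, ∀ v, Jf Φ (fun _ => 1) Y q v = 0 → v = 0) →
      ∃ (Φ' : M → Fin 3 → ℝ) (a : M → ℝ), Sm Φ' ∧ Sm a ∧
        (∀ᶠ q in 𝓝ˢ Q0, Φ' q = Φ q ∧ a q = a0 q) ∧ (∀ q, ‖Φ' q - Φ q‖ ≤ 1) ∧
        (∀ q, B'⁻¹ ≤ a q ∧ a q ≤ B') ∧
        (∀ q v, |Jf Φ' a 0 q v ⬝ᵥ Jf Φ' a 0 q v - g.g q v v| ≤ σ * g.g q v v) ∧
        ∀ q ∉ Q0, ∃ v, g.g q v v ≤ 1 ∧ B'⁻¹ ≤ dd Φ' q v 2 := by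
  obtain ⟨B1, hB1, hK⟩ := kalg_bound B hB
  have hB10 : 0 < B1 := by linarith
  set B' := B + 2 * B1 ^ 2 with hB'
  have hB'0 : 0 < B' := by positivity
  have hBB' : B ≤ B' := by nlinarith
  have hB1B' : B1 ≤ B' := by nlinarith
  refine ⟨B', hB'0, fun σ hσ => ?_⟩
  set σ' := min σ 1 with hσ'
  have hσ'0 : 0 < σ' := lt_min hσ one_pos
  set E := 3 + 4 * B1 ^ 4 * B ^ 2 with hE
  have hE0 : 3 ≤ E := by rw [hE]; exact le_add_of_nonneg_right (by positivity)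
  set η := B'⁻¹ ^ 2 / 2 with hη
  have hη0 : 0 < η := by positivity
  obtain ⟨s, hs0, hs1, hs2⟩ : ∃ s : ℝ, 0 < s ∧ s ≤ 1 / 2 ∧ (E + 12) * s ≤ σ' / 3 := by
    refine ⟨min (1 / 2) (σ' / 3 / (E + 12)), lt_min (by norm_num) (by positivity), min_le_left _ _, ?_⟩
    rw [← le_div_iff₀' (by linarith)]
    exact min_le_right _ _
  obtain ⟨N, hN1, hN2, hN3⟩ : ∃ N : ℕ, (8 : ℝ) ≤ N ∧ 203 / (N : ℝ) ≤ σ' / 3 ∧
      6400 * C.n / η ^ 2 ≤ N := by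
    obtain ⟨N, hN⟩ := exists_nat_ge (max (max 8 (203 / (σ' / 3))) (6400 * C.n / η ^ 2))
    have h8 : (8 : ℝ) ≤ N := ((le_max_left _ _).trans (le_max_left _ _)).trans hN
    refine ⟨N, h8, ?_, (le_max_right _ _).trans hN⟩
    have h2 := ((le_max_right _ _).trans (le_max_left _ _)).trans hN
    rw [div_le_iff₀ (by positivity)] at h2
    rw [div_le_iff₀ (by linarith)]
    linarith
  have hN0 : (0 : ℝ) < N := by linarith
  have hN0' : 0 < N := by exact_mod_cast hN0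
  obtain ⟨t, ht0, ht1, hts⟩ : ∃ t : ℝ, 0 < t ∧ t ≤ 1 / 4 ∧ √t = s :=
    ⟨s ^ 2, by positivity, by nlinarith, Real.sqrt_sq hs0.le⟩
  have ht2 : t = s ^ 2 := by rw [← hts, Real.sq_sqrt ht0.le]
  refine ⟨t, ht0, fun Φ a0 Y Q0 Q1 hΦ ha0 hY hQ0 hQ1 hQ hYt hnear hKP hinj => ?_⟩
  have hg0 : ∀ q v, 0 ≤ g.g q v v := fun q v => by
    by_cases hv : v = 0
    · simp [hv]
    · exact (g.pos q v hv).le
  have hKq := fun q (hq : q ∉ Q0) =>
    hK (g.g q) (dc Φ 0 q) (dc Φ 1 q) (dc Φ 2 q) t (g.symm q) (hg0 q) ht0 ht1 (hKP q hq)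
  have hgp : ∀ q ∉ Q0, ∀ v, 0 ≤ gp (g.g q) (dc Φ 0 q) (dc Φ 1 q) √t v v := fun q hq v =>
    (mul_nonneg (by positivity) (hg0 q v)).trans ((hKq q hq).1 v)
  obtain ⟨τs, hτ1, hτ2, hτ3⟩ := exists_taus C hΦ √t hQ0.isOpen_compl fun q hq v hv =>
    (mul_pos (by positivity) (g.pos q v hv)).trans_le ((hKq q hq).1 v)
  have hτb := fun q (hq : q ∉ Q0) => (hKq q hq).2 (τs q) (hτ1 q hq)
  have hlam : ∀ q ∉ Q0, 0 < dc Φ 2 q (τs q) := fun q hq =>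
    (inv_pos.2 hB10).trans_le (hτb q hq).2.1
  obtain ⟨b, hb, hb01, hb1, hbs⟩ := exists_cutoff hQ0 hQ1 hQ
  set a : M → ℝ := fun q => b q * a0 q + (1 - b q) * (√(dc Φ 2 q (τs q)))⁻¹ with ha_def
  have ha : Sm a := kx_sm_a ha0 hb hb1 hτ3 hlam
  have hbQ0 : ∀ q ∈ Q0, b q = 1 := fun q hq => hb1.self_of_nhdsSet q hq
  have hbQ1 : ∀ q ∉ Q1, b q = 0 := fun q hq =>
    image_eq_zero_of_notMem_tsupport fun h => hq (hbs h)
  have has : ∀ q ∉ Q0, B'⁻¹ ≤ (√(dc Φ 2 q (τs q)))⁻¹ ∧ (√(dc Φ 2 q (τs q)))⁻¹ ≤ B' := by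
    intro q hq
    obtain ⟨-, h1, h2⟩ := hτb q hq
    have h3 := Real.sqrt_pos.2 (hlam q hq)
    constructor
    · refine inv_anti₀ h3 (Real.sqrt_le_iff.2 ⟨hB'0.le, ?_⟩)
      nlinarith
    · refine inv_le_of_inv_le₀ hB'0 (Real.le_sqrt_of_sq_le (le_trans ?_ h1))
      rw [inv_pow]
      exact inv_anti₀ hB10 (by nlinarith)
  have ha0b : ∀ q ∈ Q1, B'⁻¹ ≤ a0 q ∧ a0 q ≤ B' := fun q hq =>
    ⟨(inv_anti₀ hB hBB').trans (hnear q hq).1, (hnear q hq).2.1.trans hBB'⟩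
  have hab : ∀ q, B'⁻¹ ≤ a q ∧ a q ≤ B' := by
    intro q
    by_cases h0 : q ∈ Q0
    · simpa [ha_def, hbQ0 q h0] using ha0b q (hQ h0)
    by_cases h1 : q ∈ Q1
    · obtain ⟨h2, h3⟩ := ha0b q h1
      obtain ⟨h4, h5⟩ := has q h0
      obtain ⟨h6, h7⟩ := hb01 q
      have h8 := sub_nonneg.2 h7
      simp only [ha_def]
      constructor
      · nlinarith [mul_le_mul_of_nonneg_left h2 h6, mul_le_mul_of_nonneg_left h4 h8]
      · nlinarith [mul_le_mul_of_nonneg_left h3 h6, mul_le_mul_of_nonneg_left h5 h8]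
    · simpa [ha_def, hbQ1 q h1] using has q h0
  have hapos : ∀ q, 0 < a q := fun q => (inv_pos.2 hB'0).trans_le (hab q).1
  let r : Fin (N + 1) → ℝ := fun k => 2 * (k : ℝ) / N - 1
  have hr : ∀ k, |r k| ≤ 1 := fun k => by
    have h1 : ((k : ℕ) : ℝ) ≤ N := by exact_mod_cast Nat.lt_succ_iff.1 k.2
    have h2 : 2 * ((k : ℕ) : ℝ) / N ≤ 2 := by rw [div_le_iff₀ hN0]; linarith
    have h3 : 0 ≤ 2 * ((k : ℕ) : ℝ) / N := by positivity
    exact abs_le.2 ⟨by simp only [r]; linarith, by simp only [r]; linarith⟩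
  let U : Fin C.n × Fin 2 × Fin (N + 1) → Set M := fun j =>
    {q | q ∈ Q0ᶜ ∩ C.O j.1 ∧ |dd (C.x j.1 j.2.1) q (τs q) + r j.2.2 * dd (C.x j.1 j.2.1.rev) q (τs q)| <
      2 / N * √(∑ w, dd (C.x j.1 w) q (τs q) ^ 2)}
  have hUo : ∀ j, IsOpen (U j) := fun j =>
    kx_open (hQ0.isOpen_compl.inter (C.O_open j.1)) (f := fun w q => dd (C.x j.1 w) q (τs q))
      (hτ2 j.1) _ _ _ _
  have hUc : Q1ᶜ ⊆ ⋃ j, U j := by
    intro q hq
    have h0 : q ∉ Q0 := fun h => hq (hQ h)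
    obtain ⟨i, hi⟩ := C.cover q
    have hne : (fun w => dd (C.x i w) q (τs q)) ≠ 0 := by
      intro h
      have h1 := C.span i q hi (τs q)
      have h2 : ∀ w, dd (C.x i w) q (τs q) = 0 := congrFun h
      simp only [h2, zero_smul, Finset.sum_const_zero] at h1
      have h3 := hlam q h0
      rw [h1, map_zero] at h3
      exact lt_irrefl _ h3
    obtain ⟨u, u', k, huu, h⟩ := kalg_grid N hN0' _ hne
    obtain rfl : u' = u.rev := by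
      revert huu
      fin_cases u <;> fin_cases u' <;> simp
    exact mem_iUnion.2 ⟨(i, u, k), ⟨h0, hi⟩, h⟩
  obtain ⟨ψ, hψ, hψ0, hψU, hψ1, hψ2⟩ := exists_sq_partition hQ1.isClosed_compl U hUo hUc
  let om : M → E2 →ₗ[ℝ] E2 →ₗ[ℝ] ℝ := fun q =>
    kom (g.g q) (dc Φ 0 q) (dc Φ 1 q) (dc Φ 2 q) √t (dc Φ 2 q (τs q))
  have hom0 : ∀ q ∉ Q0, ∀ v, 0 ≤ om q v v := fun q hq =>
    kom_nonneg (g.symm q) (hgp q hq) (hτ1 q hq) (hlam q hq)
  let A : Fin C.n × Fin 2 × Fin (N + 1) → M → ℝ := fun j q =>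
    ψ j q * √(om q (C.V (j.1, j.2.1) q) (C.V (j.1, j.2.1) q) + 1 / N)
  have hA : ∀ j, Sm (A j) := fun j => by
    have hz : ∀ c, Sm fun q => dc Φ c q (C.V (j.1, j.2.1) q) := fun c =>
      sm_pi.1 (hΦ.zv (C.V_sm _)) c
    refine kx_sm_A (U := Q0ᶜ) (hψ j) (fun q hq => (hψU j hq).1.1)
      (((sm_const (1 + √t)).mul' (C.G_sm (j.1, j.2.1) (j.1, j.2.1))).sub'
        (((hz 0).mul' (hz 0)).add' ((hz 1).mul' (hz 1)))) ((hz 2).mul' (hz 2)) hτ3 hlam (1 / N)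
      fun q hq => ?_
    exact add_pos_of_nonneg_of_pos (hom0 q hq _) (by positivity)
  have hAψ : ∀ j, tsupport (A j) ⊆ tsupport (ψ j) := fun j => tsupport_mul_subset_left
  have hKc : IsClosed (⋃ j, tsupport (ψ j)) := isClosed_iUnion_of_finite fun j => isClosed_tsupport _
  have hKQ : ∀ q ∈ ⋃ j, tsupport (ψ j), q ∉ Q0 := fun q hq => by
    obtain ⟨j, hj⟩ := mem_iUnion.1 hq
    exact (hψU j hj).1.1
  set τ := min (σ' / 3) η with hτ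
  have hτ0 : 0 < τ := lt_min (by positivity) hη0
  have hσ'1 : σ' ≤ 1 := min_le_right _ _
  obtain ⟨Φ', hΦ', h1, h2, h3⟩ := kuiper_steps C hΦ ha hapos hY hKc
    (fun q hq v hv => hinj q (hKQ q hq) v (by
      have e0 := congrFun hv 0
      have e1 := congrFun hv 1
      have e2 := congrFun hv 2
      simp only [Jf, Matrix.cons_val_zero, Matrix.cons_val_one, Matrix.cons_val, Pi.zero_apply,
        mul_eq_zero, (hapos q).ne', false_or] at e0 e1 e2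
      ext c
      fin_cases c <;> simp [Jf, e0, e1, e2]))
    Finset.univ A (fun j => j.1) (fun j w => if w = j.2.1 then 1 else r j.2.2) hA
    (fun j q hq => (hψU j (hAψ j hq)).1.2)
    (fun j => (hAψ j).trans (subset_iUnion (fun j => tsupport (ψ j)) j))
    (fun j h => by simpa using congrFun h j.2.1) hτ0
  have hdir := fun j q (hq : ψ j q ≠ 0) =>
    have hq' : q ∈ U j := hψU j (subset_tsupport _ hq)
    kx_dir (g.symm q) (hg0 q) (hgp q hq'.1.1) (hτ1 q hq'.1.1) (hlam q hq'.1.1)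
      (by rw [hts]; linarith) (fun w => dd (C.x j.1 w) q) (fun w => C.V (j.1, w) q)
      (C.dual j.1 q hq'.1.2) (C.span j.1 q hq'.1.2) (C.g_near hq'.1.2) hN1 j.2.1 j.2.1.rev
      (by generalize j.2.1 = u; fin_cases u <;> simp) (hr j.2.2) hq'.2.le hB10.le
      (hτb q hq'.1.1).1
  refine ⟨Φ', a, hΦ', ha, ?_, fun q => (h2 q).trans ((min_le_left _ _).trans (by linarith)), hab,
    fun q v => ?_, fun q hq => ?_⟩
  · have h4 : ∀ᶠ q in 𝓝ˢ Q0, q ∈ (⋃ j, tsupport (ψ j))ᶜ :=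
      hKc.isOpen_compl.mem_nhdsSet.2 fun q hq h => hKQ q h hq
    filter_upwards [h4, hb1] with q h5 h6
    exact ⟨h1 q h5, by simp [ha_def, h6]⟩
  · have hG := hg0 q v
    have h4 := (h3 q v).1
    simp only [kx_dph] at h4
    set R := ∑ j, (A j q * (dd (C.x j.1 j.2.1) q v + r j.2.2 * dd (C.x j.1 j.2.1.rev) q v)) ^ 2
      with hR
    have hR0 : 0 ≤ R := Finset.sum_nonneg fun _ _ => sq_nonneg _
    have h5 : |R - (∑ j, ψ j q ^ 2) * om q v v| ≤ 203 / N * g.g q v v := by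
      have e : R = ∑ j, ψ j q ^ 2 * ((om q (C.V (j.1, j.2.1) q) (C.V (j.1, j.2.1) q) + 1 / N) *
          (dd (C.x j.1 j.2.1) q v + r j.2.2 * dd (C.x j.1 j.2.1.rev) q v) ^ 2) := by
        refine Finset.sum_congr rfl fun j _ => ?_
        by_cases hj : ψ j q = 0
        · simp [A, hj]
        · have hq' : q ∈ U j := hψU j (subset_tsupport _ hj)
          simp only [A, mul_pow]
          rw [Real.sq_sqrt (add_nonneg (hom0 q hq'.1.1 _) (by positivity)), mul_assoc]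
      rw [e]
      exact kx_avg _ _ _ _ (mul_nonneg (by positivity) hG) (hψ1 q) fun j hj => (hdir j q hj).1 v
    have hsG := mul_nonneg hs0.le hG
    have h6 : |Jf Φ a 0 q v ⬝ᵥ Jf Φ a 0 q v + (∑ j, ψ j q ^ 2) * om q v v - g.g q v v| ≤
        E * s * g.g q v v := by
      have hEs : s * g.g q v v ≤ E * s * g.g q v v := by nlinarith
      by_cases h0 : q ∈ Q0
      · have e1 : ∑ j, ψ j q ^ 2 = 0 := Finset.sum_eq_zero fun j _ => by
          have : ψ j q = 0 := by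
            by_contra h
            exact (hψU j (subset_tsupport _ h)).1.1 h0
          simp [this]
        have e2 : a q = a0 q := by simp [ha_def, hbQ0 q h0]
        have h7 := (hnear q (hQ h0)).2.2 v
        rw [kx_J0] at h7
        rw [e1, zero_mul, add_zero, kx_J0, e2]
        refine h7.trans (le_trans ?_ hEs)
        exact mul_le_mul_of_nonneg_right (by nlinarith) hG
      by_cases h1 : q ∈ Q1
      · rw [kx_J0, ← hts]
        exact kx_near hB1 (hg0 q) ht0 (by linarith)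
          (fun v => by rw [← kx_J0]; exact (hnear q h1).2.2 v) (hτ1 q h0) (hτb q h0).1
          (hτb q h0).2.1 (hKP q h0).1 ((inv_pos.2 hB).le.trans (hnear q h1).1) (hb01 q).1 (hb01 q).2
          (Finset.sum_nonneg fun _ _ => sq_nonneg _) (hψ1 q) v
      · have e2 : a q = (√(dc Φ 2 q (τs q)))⁻¹ := by simp [ha_def, hbQ1 q h1]
        rw [kx_J0, hψ2 q h1, one_mul, e2, kx_far (hlam q h0), hts, abs_of_nonneg hsG]
        exact hEs
    have h7 : |Jf Φ a 0 q v ⬝ᵥ Jf Φ a 0 q v + R - g.g q v v| ≤ (E * s + 203 / N) * g.g q v v := by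
      obtain ⟨h5a, h5b⟩ := abs_le.1 h5
      obtain ⟨h6a, h6b⟩ := abs_le.1 h6
      exact abs_le.2 ⟨by linarith, by linarith⟩
    rw [kx_JY Φ', kx_JY Φ] at h4
    have h8 : τ ≤ σ' / 3 := min_le_left _ _
    refine (kx_remove _ _ _ hs0 (by linarith) hG hR0 ((kx_yy _).trans ?_) h7 h4 hτ0.le
      (σ := σ') (by linarith) hσ'1).trans (mul_le_mul_of_nonneg_right (min_le_left _ _) hG)
    have := hYt q v
    rw [ht2] at this
    linarith
  · obtain ⟨h4, h5, -⟩ := hτb q hq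
    have hv : g.g q (B1⁻¹ • τs q) (B1⁻¹ • τs q) ≤ 1 := by
      simp only [map_smul, _root_.smul_apply, smul_eq_mul]
      rw [← mul_assoc, ← mul_inv, inv_mul_le_iff₀ (by positivity)]
      linarith
    refine ⟨B1⁻¹ • τs q, hv, ?_⟩
    have h6 := (h3 q (B1⁻¹ • τs q)).2
    simp only [kx_dph, A, mul_assoc] at h6
    have h7 := kx_sum (fun j => ψ j q) (fun j =>
      √(om q (C.V (j.1, j.2.1) q) (C.V (j.1, j.2.1) q) + 1 / N) *
        (dd (C.x j.1 j.2.1) q (B1⁻¹ • τs q) + r j.2.2 * dd (C.x j.1 j.2.1.rev) q (B1⁻¹ • τs q)))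
      hη0 hN0' hN3 (fun j => hψ0 j q) (hψ1 q) fun j hj => by
        have h8 := (hdir j q hj).2
        simp only [map_smul, smul_eq_mul]
        rw [mul_left_comm (r j.2.2), ← mul_add, mul_left_comm, abs_mul, abs_of_pos (inv_pos.2 hB10),
          inv_mul_le_iff₀ hB10, mul_comm B1]
        exact h8
    have h8 : τ * √(g.g q (B1⁻¹ • τs q) (B1⁻¹ • τs q)) ≤ η :=
      (mul_le_of_le_one_right hτ0.le (Real.sqrt_le_one.2 hv)).trans (min_le_right _ _)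
    have h9 := (abs_le.1 ((norm_le_pi_norm _ 2).trans (h6.trans (add_le_add h7 h8)))).1
    simp only [Jf, Pi.sub_apply, Matrix.cons_val] at h9
    have h10 : dd Φ q (B1⁻¹ • τs q) 2 = B1⁻¹ * dc Φ 2 q (τs q) := by simp [dc]
    rw [h10] at h9
    have h11 : 2 * B'⁻¹ ≤ B1⁻¹ * dc Φ 2 q (τs q) := by
      refine le_trans ?_ (mul_le_mul_of_nonneg_left h5 (inv_pos.2 hB10).le)
      rw [← mul_inv, ← div_eq_mul_inv, div_le_iff₀ hB'0, ← div_eq_inv_mul, le_div_iff₀ (by positivity)]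
      nlinarith
    have h12 := mul_le_mul_of_nonneg_left h11 (hapos q).le
    have h13 := mul_le_mul_of_nonneg_right (hab q).1 (inv_pos.2 hB'0).le
    refine le_of_mul_le_mul_left ?_ (hapos q)
    rw [hη] at h9
    nlinarith

end Crest.Agent.R216
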