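import Crest.Agent.R216.Crease
import Crest.Agent.R216.ClL
/-! # R216: bounded and slow families for `mod_del3` -/

set_option autoImplicit false
open scoped Manifold ContDiff Topology Matrix
open Set Filter

namespace Crest.Agent.R216

variable {F : Type} [NormedAddCommGroup F] [NormedSpace ℝ F]
variable {τ : Type} {𝓕 : Filter τ} {s ε : τ → ℝ}

/-- `O(1)` families at scale `1/ε` -/
abbrev MC (𝓕 : Filter τ) (ε : τ → ℝ) (f : τ → E2 → F) : Prop :=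
  Cl V0 𝓕 (fun t => (ε t)⁻¹) (fun _ => 1) f

/-- families whose first derivatives are still `O(1)` -/
def MSlow (𝓕 : Filter τ) (ε : τ → ℝ) (f : τ → E2 → F) : Prop :=
  MC 𝓕 ε f ∧ ∀ a, MC 𝓕 ε fun t => Zv (V0 a) (f t)

/-- the box seen by the sharpening -/
def mdK : Set E2 := {z | |z 0| ≤ 1 ∧ |z 1| ≤ 4}

theorem mdK_closed : IsClosed mdK :=
  (isClosed_le (Cut.profb_sm 0).cont.abs continuous_const).inter
    (isClosed_le (Cut.profb_sm 1).cont.abs continuous_const)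

theorem mdd_norm (v : E2) : ‖v‖ ≤ |v 0| + |v 1| := by
  rw [EuclideanSpace.norm_eq, Fin.sum_univ_two, Real.norm_eq_abs, Real.norm_eq_abs]
  refine Real.sqrt_le_iff.2 ⟨by positivity, ?_⟩
  nlinarith [mul_nonneg (abs_nonneg (v 0)) (abs_nonneg (v 1))]

omit [NormedSpace ℝ F] in
theorem mdK_supp {g : E2 → F} (h : ∀ z ∉ mdK, g z = 0) : HasCompactSupport g :=
  HasCompactSupport.intro (isCompact_closedBall (0 : E2) 5) fun z hz => h z fun hK =>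
    hz (mem_closedBall_zero_iff.2 ((mdd_norm z).trans (by linarith [hK.1, hK.2])))

theorem mdK_zv {g : E2 → F} (h : ∀ z ∉ mdK, g z = 0) (a : Fin 2) : ∀ z ∉ mdK, Zv (V0 a) g z = 0 :=
  fun z hz => by rw [Zv, dd_zero_of_closed mdK_closed h hz, _root_.zero_apply]

theorem mdd_zv_smul {a : E2 → ℝ} {f : E2 → F} (ha : Sm a) (hf : Sm f) (u : Fin 2) :
    Zv (V0 u) (fun z => a z • f z) = fun z => a z • Zv (V0 u) f z + Zv (V0 u) a z • f z :=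
  funext fun z => dd_smul (ha.df z) (hf.df z) _

section Calc
variable (H : Ctx V0 𝓕 fun t => (ε t)⁻¹)
include H

theorem MC.smul {a : τ → E2 → ℝ} {f : τ → E2 → F} (ha : MC 𝓕 ε a) (hf : MC 𝓕 ε f) :
    MC 𝓕 ε fun t z => a t z • f t z := by
  simpa only [mul_one] using Cl.smul H ha hf

theorem MC.const (c : F) : MC 𝓕 ε fun _ _ => c :=
  Cl.fixed H (sm_const c) fun k => ⟨_, Bd.const k zero_le_one c⟩

theorem MSlow.congr {f g : τ → E2 → F} (hf : MSlow 𝓕 ε f) (e : ∀ᶠ t in 𝓕, f t = g t) : MSlow 𝓕 ε g :=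
  ⟨Cl.congr H hf.1 e, fun a => Cl.congr H (hf.2 a) (e.mono fun t ht => by rw [ht])⟩

theorem MSlow.smul {a : τ → E2 → ℝ} {f : τ → E2 → F} (ha : MSlow 𝓕 ε a) (hf : MSlow 𝓕 ε f) :
    MSlow 𝓕 ε fun t z => a t z • f t z := by
  refine ⟨ha.1.smul H hf.1, fun u => Cl.congr H
    (Cl.add H (ha.1.smul H (hf.2 u)) ((ha.2 u).smul H hf.1)) ?_⟩
  filter_upwards [ha.1.1, hf.1.1] with t h1 h2
  exact (mdd_zv_smul h1 h2 u).symm

theorem MSlow.add {f g : τ → E2 → F} (hf : MSlow 𝓕 ε f) (hg : MSlow 𝓕 ε g) :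
    MSlow 𝓕 ε fun t z => f t z + g t z := by
  refine ⟨Cl.add H hf.1 hg.1, fun u => Cl.congr H (Cl.add H (hf.2 u) (hg.2 u)) ?_⟩
  filter_upwards [hf.1.1, hg.1.1] with t h1 h2
  exact funext fun z => (dd_add (h1.df z) (h2.df z) _).symm

theorem MSlow.sub {f g : τ → E2 → F} (hf : MSlow 𝓕 ε f) (hg : MSlow 𝓕 ε g) :
    MSlow 𝓕 ε fun t z => f t z - g t z := by
  refine ⟨Cl.sub H hf.1 hg.1, fun u => Cl.congr H (Cl.sub H (hf.2 u) (hg.2 u)) ?_⟩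
  filter_upwards [hf.1.1, hg.1.1] with t h1 h2
  exact funext fun z => (dd_sub (h1.df z) (h2.df z) _).symm

theorem MSlow.fixed {g : E2 → F} (hg : Sm g) (h : ∀ z ∉ mdK, g z = 0) : MSlow 𝓕 ε fun _ => g :=
  ⟨Cl.fixed H hg (Bd.of_hasCompactSupport smV_V0 hg (mdK_supp h)), fun a =>
    Cl.fixed H (hg.zv (smV_V0 a))
      (Bd.of_hasCompactSupport smV_V0 (hg.zv (smV_V0 a)) (mdK_supp (mdK_zv h a)))⟩

theorem MSlow.of_sup {f : τ → E2 → F} (hs : ∀ᶠ t in 𝓕, Sm (f t)) {c : ℝ}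
    (h0 : ∀ᶠ t in 𝓕, ∀ z, ‖f t z‖ ≤ c) (h : ∀ a, MC 𝓕 ε fun t => Zv (V0 a) (f t)) : MSlow 𝓕 ε f := by
  refine ⟨Cl.of_sup_zv H hs (Eventually.of_forall fun _ => zero_le_one)
    ⟨c, by simpa only [mul_one] using h0⟩ fun a => Cl.weight H (h a) 1 ?_, h⟩
  filter_upwards [H.one_le] with t ht
  exact ⟨zero_le_one, by rwa [mul_one, one_mul]⟩

end Calc

theorem MC.semi {D : Type} {𝓓 : Filter D} {f : D × ℝ → E2 → F} (c : ℝ)
    (h : ∀ᶠ d in 𝓓, MSlow (𝓝[>] 0) (fun e => e) (fun e => f (d, e)) ∧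
      ∀ᶠ e in 𝓝[>] (0 : ℝ), ∀ z, ‖f (d, e) z‖ ≤ c) : MC (𝓓.curry (𝓝[>] 0)) Prod.snd f :=
  Cl.semislow smV_V0 (eventually_curry_iff.2 (h.mono fun _ hd => hd.1.1.1))
    ⟨c, eventually_curry_iff.2 (h.mono fun _ hd => hd.2)⟩ (h.mono fun _ hd => hd.1.2)

variable (P : Prof) (χ : Cut) (h : ∀ᶠ t in 𝓕, 0 < ε t ∧ ε t ≤ s t ∧ s t ≤ 1)
include h

theorem mdd_ctx : Ctx V0 𝓕 fun t => (ε t)⁻¹ :=
  ⟨smV_V0, h.mono fun _ ht => (one_le_inv₀ ht.1).2 (ht.2.1.trans ht.2.2)⟩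

theorem mdd_scaled {Θ : ℝ → ℝ} (hΘ : ContDiff ℝ ∞ Θ) (h1 : ∀ t, 1 < |t| → deriv Θ t = 0) :
    MC 𝓕 ε fun t z => Θ (z 0 / χ.ef (s t) (ε t) (z 1)) := by
  refine ⟨h.mono fun t ht => ?_, fun k => ?_⟩
  · exact sm_plane.2 (hΘ.comp ((sm_plane.1 (Cut.profb_sm 0)).div
      ((χ.ef_sm _ _).comp (sm_plane.1 (Cut.profb_sm 1))) fun z => (χ.profb_pos ht.1 ht.2.1 _).ne'))
  · obtain ⟨C, hC⟩ := χ.bd_scaled hΘ h1 k
    exact ⟨C, h.mono fun t ht => by simpa only [mul_one] using hC _ _ ht.1 ht.2.1 ht.2.2⟩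

theorem mdd_def : MC 𝓕 ε fun t z => deriv (χ.ef (s t) (ε t)) (z 1) := by
  refine ⟨Eventually.of_forall fun t => (Cut.profb_sm 1).comp' (Cut.profb_deriv (χ.ef_sm _ _)),
    fun k => ?_⟩
  obtain ⟨C, -, hC⟩ := χ.profb_def k
  exact ⟨C, h.mono fun t ht => by simpa only [mul_one] using hC _ _ ht.1 ht.2.1 ht.2.2⟩

omit h in
theorem mdd_out {t : ℝ} (ht : 1 < |t|) : P.cs t = 0 ∧ P.om t = 0 := by
  rcases lt_abs.1 ht with h | h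
  · exact ⟨(P.pos t h.le).2.1, (P.pos t h.le).2.2.1⟩
  · exact ⟨(P.neg t (by linarith)).2.1, (P.neg t (by linarith)).2.2.1⟩

theorem mdd_sn : MC 𝓕 ε fun t z => P.sn (z 0 / χ.ef (s t) (ε t) (z 1)) :=
  mdd_scaled χ h P.sn_sm fun t ht => by rw [(P.dsn t).deriv, (mdd_out P ht).2, zero_mul]

theorem mdd_cs : MC 𝓕 ε fun t z => P.cs (z 0 / χ.ef (s t) (ε t) (z 1)) :=
  mdd_scaled χ h P.cs_sm fun t ht => by rw [(P.dcs t).deriv, (mdd_out P ht).2, zero_mul, neg_zero]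

theorem mdd_G1 : MC 𝓕 ε fun t z => P.G1 (z 0 / χ.ef (s t) (ε t) (z 1)) :=
  mdd_scaled χ h P.G1_sm fun t ht => by rw [(P.dG1 t).deriv, (mdd_out P ht).1]

theorem mdd_b4 : MC 𝓕 ε fun t z => deriv (χ.ef (s t) (ε t)) (z 1) *
    (P.G2 (z 0 / χ.ef (s t) (ε t) (z 1)) -
      z 0 / χ.ef (s t) (ε t) (z 1) * P.sn (z 0 / χ.ef (s t) (ε t) (z 1))) :=
  (mdd_def χ h).smul (mdd_ctx h) (mdd_scaled χ h (Θ := fun x => P.G2 x - x * P.sn x)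
    (P.G2_sm.sub (contDiff_id.mul P.sn_sm)) fun t ht => by
      have := ((P.dG2 t).sub ((hasDerivAt_id t).mul (P.dsn t))).deriv
      rw [(mdd_out P ht).2] at this
      simpa using! this)

theorem mdd_b5 : MC 𝓕 ε fun t z => deriv (χ.ef (s t) (ε t)) (z 1) *
    (P.G1 (z 0 / χ.ef (s t) (ε t) (z 1)) -
      z 0 / χ.ef (s t) (ε t) (z 1) * P.cs (z 0 / χ.ef (s t) (ε t) (z 1))) :=
  (mdd_def χ h).smul (mdd_ctx h) (mdd_scaled χ h (Θ := fun x => P.G1 x - x * P.cs x)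
    (P.G1_sm.sub (contDiff_id.mul P.cs_sm)) fun t ht => by
      have := ((P.dG1 t).sub ((hasDerivAt_id t).mul (P.dcs t))).deriv
      rw [(mdd_out P ht).2] at this
      simpa using! this)

theorem mdd_zfold (a : Fin 2) : MC 𝓕 ε fun t => Zv (V0 a) (fold P (χ.ef (s t) (ε t))) := by
  have H := mdd_ctx h
  revert a
  rw [Fin.forall_fin_two]
  constructor
  · refine Cl.congr H ((mdd_sn P χ h).smul H (MC.const H (!₂[1, 0] : E2))) (h.mono fun t ht => ?_)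
    funext z
    refine Eq.trans ?_ (pX_fold P (χ.ef_sm _ _) (χ.profb_pos ht.1 ht.2.1) z).symm
    ext i
    fin_cases i <;> simp
  · refine Cl.congr H (Cl.add H ((mdd_b4 P χ h).smul H (MC.const H (!₂[1, 0] : E2)))
      (MC.const H (!₂[0, 1] : E2))) (h.mono fun t ht => ?_)
    funext z
    refine Eq.trans ?_ (pY_fold P (χ.ef_sm _ _) (χ.profb_pos ht.1 ht.2.1) z).symm
    ext i
    fin_cases i <;> simp

theorem mdd_pull {Θ : E2 → F} (hΘ : Sm Θ) (hc : HasCompactSupport Θ) :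
    MC 𝓕 ε fun t z => Θ (fold P (χ.ef (s t) (ε t)) z) := by
  have H := mdd_ctx h
  have hf : ∀ᶠ t in 𝓕, Sm (fold P (χ.ef (s t) (ε t))) :=
    h.mono fun t ht => fold_sm P (χ.ef_sm _ _) (χ.profb_pos ht.1 ht.2.1)
  refine ⟨hf.mono fun t ht => ht.comp' (sm_plane.1 hΘ), fun k => ?_⟩
  choose c hc' using fun a => (mdd_zfold P χ h a).2 k
  obtain ⟨B, hB0, -, hB⟩ := cll_bound c 0
  obtain ⟨C, hC⟩ := bd_pull (M := E2) (F := F) (ι := Fin 2) k B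
  obtain ⟨c0, hc0⟩ := Bd.of_hasCompactSupport smV_V0 hΘ hc k
  refine ⟨C * c0, ?_⟩
  filter_upwards [hf, eventually_all.2 hc', H.one_le] with t h1 h2 h3
  rw [mul_one]
  refine hC V0 smV_V0 _ 1 c0 _ Θ (zero_le_one.trans h3) zero_le_one h1 hΘ hc0 fun a => ?_
  simp only [one_smul]
  refine (h2 a).mono (zero_le_one.trans h3) ?_
  rw [mul_one]
  exact (hB a).trans (le_mul_of_one_le_right hB0 h3)

theorem mdd_cut {g : E2 → ℝ} (hg : Sm g) (hK : ∀ z ∉ mdK, g z = 0) {Θ : E2 → F} (hΘ : Sm Θ) :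
    MC 𝓕 ε fun t z => g z • Θ (fold P (χ.ef (s t) (ε t)) z) := by
  have H := mdd_ctx h
  let β : ContDiffBump (0 : E2) := ⟨5, 6, by norm_num, by norm_num⟩
  have hβ : Sm (β : E2 → ℝ) := sm_plane.2 β.contDiff
  refine Cl.congr H ((MSlow.fixed H hg hK).1.smul H (mdd_pull P χ h (hβ.smul' hΘ)
    (β.hasCompactSupport.smul_right (f' := Θ)))) (h.mono fun t ht => ?_)
  funext z
  by_cases hz : z ∈ mdK
  · obtain ⟨a1, a2, a3, -⟩ := fold_mem P (χ.profb_pos ht.1 ht.2.1) z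
    rw [β.one_of_mem_closedBall (mem_closedBall_zero_iff.2 ((mdd_norm _).trans ?_)), one_smul]
    rw [a1, abs_of_nonneg a2]
    change _ ≤ (5 : ℝ)
    linarith [hz.1, hz.2]
  · rw [hK z hz, zero_smul, zero_smul]

theorem mdd_slow_cut {g : E2 → ℝ} (hg : Sm g) (hK : ∀ z ∉ mdK, g z = 0) {Θ : E2 → F} (hΘ : Sm Θ) :
    MSlow 𝓕 ε fun t z => g z • Θ (fold P (χ.ef (s t) (ε t)) z) := by
  have H := mdd_ctx h
  refine ⟨mdd_cut P χ h hg hK hΘ, fun a => ?_⟩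
  have hz := fun i : Fin 2 => Cl.clm H (EuclideanSpace.proj (𝕜 := ℝ) i : E2 →L[ℝ] ℝ) (mdd_zfold P χ h a)
  refine Cl.congr H (Cl.add H (Cl.add H (MC.smul H (hz 0) (mdd_cut P χ h hg hK (hΘ.zv (smV_V0 0))))
    (MC.smul H (hz 1) (mdd_cut P χ h hg hK (hΘ.zv (smV_V0 1)))))
    (mdd_cut P χ h (hg.zv (smV_V0 a)) (mdK_zv hK a) hΘ)) (h.mono fun t ht => ?_)
  have he := χ.ef_sm (s t) (ε t)
  have he0 := χ.profb_pos ht.1 ht.2.1
  rw [mdd_zv_smul hg ((fold_sm P he he0).comp' (sm_plane.1 hΘ))]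
  funext z
  have e := cra_pull P he he0 hΘ z (V0 a z)
  rw [show Zv (V0 a) (fun p => Θ (fold P (χ.ef (s t) (ε t)) p)) z = _ from e, smul_add,
    smul_comm (g z), smul_comm (g z)]
  rfl

theorem mdd_slow_e : MSlow 𝓕 ε fun t z => χ.ef (s t) (ε t) (z 1) := by
  have H := mdd_ctx h
  refine MSlow.of_sup H (Eventually.of_forall fun t => (Cut.profb_sm 1).comp' (χ.ef_sm _ _)) (c := 1)
    (h.mono fun t ht z => ?_) (Fin.forall_fin_two.2 ⟨?_, ?_⟩)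
  · rw [Real.norm_of_nonneg (χ.profb_pos ht.1 ht.2.1 _).le]
    exact (χ.ef_mem ht.2.1 _).2.trans ht.2.2
  · exact Cl.congr H (Cl.zero H) (Eventually.of_forall fun t =>
      (Cut.profb_zv (Cut.profb_diff (χ.ef_sm _ _))).1.symm)
  · exact Cl.congr H (mdd_def χ h) (Eventually.of_forall fun t =>
      (Cut.profb_zv (Cut.profb_diff (χ.ef_sm _ _))).2.symm)

theorem mdd_slow_eG :
    MSlow 𝓕 ε fun t z => χ.ef (s t) (ε t) (z 1) * P.G1 (z 0 / χ.ef (s t) (ε t) (z 1)) := by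
  have H := mdd_ctx h
  refine ⟨(mdd_slow_e χ h).1.smul H (mdd_G1 P χ h), Fin.forall_fin_two.2 ⟨?_, ?_⟩⟩
  · refine Cl.congr H (mdd_cs P χ h) (h.mono fun t ht => funext fun z => ?_)
    rw [Zv, cra_dd (χ.ef_sm _ _) (χ.profb_pos ht.1 ht.2.1) P.dG1]
    simp [V0]
  · refine Cl.congr H (mdd_b5 P χ h) (h.mono fun t ht => funext fun z => ?_)
    rw [Zv, cra_dd (χ.ef_sm _ _) (χ.profb_pos ht.1 ht.2.1) P.dG1]
    simp [V0]

theorem mdd_slow_Cr {g : E2 → ℝ} (hg : Sm g) (hK : ∀ z ∉ mdK, g z = 0) {Φ N : E2 → Fin 3 → ℝ}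
    (hΦ : Sm Φ) (hN : Sm N) : MSlow 𝓕 ε fun t z => g z • Cr P (χ.ef (s t) (ε t)) Φ N z := by
  have H := mdd_ctx h
  refine MSlow.congr H (MSlow.add H (mdd_slow_cut P χ h hg hK hΦ)
    (MSlow.smul H (mdd_slow_eG P χ h) (mdd_slow_cut P χ h hg hK hN)))
    (Eventually.of_forall fun t => funext fun z => ?_)
  rw [Cr, smul_add, smul_comm (g z)]

end Crest.Agent.R216

namespace Crest.Agent.R216

/-- the data of `mod_del3` -/
structure MD where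
  C0 : ℝ
  κ : ℝ
  t : ℝ
  s1 : ℝ
  Φ : E2 → Fin 3 → ℝ
  N : E2 → Fin 3 → ℝ
  hκ : κ = 1 ∨ κ = -1
  ht : t ≤ 1
  H : HatP C0 κ t s1 Φ N

/-- all data, then `s → 0⁺`, then `ε → 0⁺` -/
def mdF : Filter ((MD × ℝ) × ℝ) := ((⊤ : Filter MD).curry (𝓝[>] 0)).curry (𝓝[>] 0)

theorem mdF_iff {p : (MD × ℝ) × ℝ → Prop} :
    (∀ᶠ t in mdF, p t) ↔ ∀ d, ∀ᶠ s in 𝓝[>] (0 : ℝ), ∀ᶠ e in 𝓝[>] (0 : ℝ), p ((d, s), e) := by
  simp only [mdF, eventually_curry_iff, eventually_top]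

theorem mdd_ev : ∀ᶠ s in 𝓝[>] (0 : ℝ), (0 < s ∧ s ≤ 1) ∧ ∀ᶠ e in 𝓝[>] (0 : ℝ), 0 < e ∧ e ≤ s ∧ s ≤ 1 := by
  filter_upwards [Ioc_mem_nhdsGT (zero_lt_one' ℝ)] with s hs
  refine ⟨hs, ?_⟩
  filter_upwards [Ioc_mem_nhdsGT hs.1] with e he
  exact ⟨he.1, he.2, hs.2⟩

theorem mdF_ev : ∀ᶠ t in mdF, 0 < t.2 ∧ t.2 ≤ t.1.2 ∧ t.1.2 ≤ 1 :=
  mdF_iff.2 fun _ => mdd_ev.mono fun _ hs => hs.2

theorem mdF_semi {F : Type} [NormedAddCommGroup F] [NormedSpace ℝ F] {f : (MD × ℝ) × ℝ → E2 → F} (c : ℝ)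
    (h : ∀ d, ∀ᶠ s in 𝓝[>] (0 : ℝ), MSlow (𝓝[>] 0) (fun e => e) (fun e => f ((d, s), e)) ∧
      ∀ᶠ e in 𝓝[>] (0 : ℝ), ∀ z, ‖f ((d, s), e) z‖ ≤ c) : MC mdF Prod.snd f :=
  MC.semi c (eventually_curry_iff.2 (eventually_top.2 h))

/-- the cut-off -/
noncomputable def mdW (χ : Cut) (s1 : ℝ) (z : E2) : ℝ := χ.ev 1 (8 * z 0 / s1) * χ.ev 3 (z 1)

theorem mdW_sm (χ : Cut) (s1 : ℝ) : Sm (mdW χ s1) :=
  ((Cut.profb_sm 0).comp' ((χ.ev_sm 1).comp ((contDiff_const.mul contDiff_id).div_const s1))).mul'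
    ((Cut.profb_sm 1).comp' (χ.ev_sm 3))

theorem mdW_le (χ : Cut) (s1 : ℝ) (z : E2) : |mdW χ s1 z| ≤ 1 := by
  rw [mdW, abs_of_nonneg (mul_nonneg (χ.ev_nonneg _ _) (χ.ev_nonneg _ _))]
  exact mul_le_one₀ (χ.ev_le_one _ _) (χ.ev_nonneg _ _) (χ.ev_le_one _ _)

theorem mdW_zero (χ : Cut) {s1 : ℝ} (h0 : 0 < s1) (h1 : s1 ≤ 1) : ∀ z ∉ mdK, mdW χ s1 z = 0 := by
  intro z hz
  rcases not_and_or.1 hz with h | h
  · rw [mdW, χ.ev_zero, zero_mul]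
    rw [abs_div, abs_mul, abs_of_pos h0, abs_of_pos (by norm_num : (0 : ℝ) < 8), le_div_iff₀ h0]
    linarith [not_le.1 h]
  · rw [mdW, χ.ev_zero (a := 3) (by linarith [not_le.1 h]), mul_zero]

theorem mdd_smul_le {a α M : ℝ} {v : Fin 3 → ℝ} (ha : |a| ≤ α) (hv : ‖v‖ ≤ M) : ‖a • v‖ ≤ α * M := by
  rw [norm_smul]
  exact mul_le_mul ha hv (norm_nonneg _) ((abs_nonneg _).trans ha)

variable (P : Prof) (χ : Cut)

theorem mdd_A {Θ : MD → E2 → Fin 3 → ℝ} (hΘ : ∀ d, Sm (Θ d)) (hb : ∀ d (z : E2), 0 ≤ z 0 → ‖Θ d z‖ ≤ 3) :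
    MC mdF Prod.snd fun t z => mdW χ t.1.1.s1 z • Θ t.1.1 (fold P (χ.ef t.1.2 t.2) z) := by
  refine mdF_semi (1 * 3) fun d => mdd_ev.mono fun s hs => ⟨?_, hs.2.mono fun e he z => ?_⟩
  · exact mdd_slow_cut P χ (s := fun _ => s) hs.2 (mdW_sm χ _) (mdW_zero χ d.H.s_pos d.H.s_le) (hΘ d)
  · exact mdd_smul_le (mdW_le χ _ _) (hb d _ (fold_mem P (χ.profb_pos he.1 he.2.1) z).2.1)

theorem mdd_B {Θ : MD → E2 → Fin 3 → ℝ} (hΘ : ∀ d, Sm (Θ d))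
    (hb : ∀ d, ∃ L, ∀ z : E2, 0 ≤ z 0 → ‖Θ d z‖ ≤ L) :
    MC mdF Prod.snd fun t z =>
      χ.ef t.1.2 t.2 (z 1) • mdW χ t.1.1.s1 z • Θ t.1.1 (fold P (χ.ef t.1.2 t.2) z) := by
  refine mdF_semi 1 fun d => ?_
  obtain ⟨L, hL⟩ := hb d
  have hL0 : 0 ≤ L := (norm_nonneg _).trans (hL 0 le_rfl)
  filter_upwards [mdd_ev, Ioc_mem_nhdsGT (show 0 < 1 / (L + 1) by positivity)] with s hs hsL
  refine ⟨?_, hs.2.mono fun e he z => ?_⟩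
  · exact MSlow.smul (mdd_ctx (s := fun _ => s) hs.2) (mdd_slow_e χ (s := fun _ => s) hs.2)
      (mdd_slow_cut P χ (s := fun _ => s) hs.2 (mdW_sm χ _) (mdW_zero χ d.H.s_pos d.H.s_le) (hΘ d))
  · have h1 := (le_div_iff₀ (by positivity)).1 hsL.2
    refine (mdd_smul_le ((abs_of_pos (χ.profb_pos he.1 he.2.1 _)).trans_le (χ.ef_mem he.2.1 _).2)
      (mdd_smul_le (mdW_le χ _ _) (hL _ (fold_mem P (χ.profb_pos he.1 he.2.1) z).2.1))).trans ?_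
    nlinarith [hs.1.1]

theorem MD.bd (d : MD) (z : E2) (hz : 0 ≤ z 0) : ‖pX d.Φ z‖ ≤ 3 ∧ ‖pY d.Φ z‖ ≤ 3 ∧ ‖d.N z‖ ≤ 3 := by
  obtain ⟨Z, h1, h2, h3⟩ := d.H.zone z hz
  obtain ⟨n1, n2, n3⟩ := Z.norm_le d.hκ d.H.s_pos d.H.s_le hz
  have a1 := norm_le_norm_add_norm_sub' (pX d.Φ z) (Z.iX d.κ)
  have a2 := norm_le_norm_add_norm_sub' (pY d.Φ z) (Z.iY d.κ)
  have := d.ht
  exact ⟨by linarith, by linarith, by rw [h3]; linarith⟩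

/-- the main term -/
theorem mdd_T1 (u : Fin 2) : MC mdF Prod.snd fun t z =>
    mdW χ t.1.1.s1 z • Zv (V0 u) (Cr P (χ.ef t.1.2 t.2) t.1.1.Φ t.1.1.N) z := by
  have H := mdd_ctx mdF_ev
  have a1 := mdd_A P χ (Θ := fun d => pX d.Φ) (fun d => d.H.Φ_sm.zv (smV_V0 0)) fun d z hz => (d.bd z hz).1
  have a2 := mdd_A P χ (Θ := fun d => pY d.Φ) (fun d => d.H.Φ_sm.zv (smV_V0 1))
    fun d z hz => (d.bd z hz).2.1
  have a3 := mdd_A P χ (Θ := fun d => d.N) (fun d => d.H.N_sm) fun d z hz => (d.bd z hz).2.2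
  have a4 := mdd_B P χ (Θ := fun d => pX d.N) (fun d => d.H.N_sm.zv (smV_V0 0))
    fun d => d.H.dN.imp fun L hL z hz => (hL z hz).1
  have a5 := mdd_B P χ (Θ := fun d => pY d.N) (fun d => d.H.N_sm.zv (smV_V0 1))
    fun d => d.H.dN.imp fun L hL z hz => (hL z hz).2
  have b1 := mdd_sn P χ mdF_ev
  have b2 := mdd_cs P χ mdF_ev
  have b3 := mdd_G1 P χ mdF_ev
  have b4 := mdd_b4 P χ mdF_ev
  have b5 := mdd_b5 P χ mdF_ev
  revert u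
  rw [Fin.forall_fin_two]
  constructor
  · refine Cl.congr H (Cl.add H (Cl.add H (b1.smul H a1) (b2.smul H a3)) (b3.smul H (b1.smul H a4)))
      (mdF_ev.mono fun t ht => funext fun z => ?_)
    rw [show Zv (V0 0) (Cr P (χ.ef t.1.2 t.2) t.1.1.Φ t.1.1.N) z = _ from
      pX_Cr P (χ.ef_sm _ _) (χ.profb_pos ht.1 ht.2.1) t.1.1.H.Φ_sm t.1.1.H.N_sm z]
    module
  · refine Cl.congr H (Cl.add H (Cl.add H (Cl.add H a2 (b4.smul H a1)) (b5.smul H a3))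
      (b3.smul H (Cl.add H a5 (b4.smul H a4)))) (mdF_ev.mono fun t ht => funext fun z => ?_)
    rw [show Zv (V0 1) (Cr P (χ.ef t.1.2 t.2) t.1.1.Φ t.1.1.N) z = _ from
      pY_Cr P (χ.ef_sm _ _) (χ.profb_pos ht.1 ht.2.1) t.1.1.H.Φ_sm t.1.1.H.N_sm z]
    module

end Crest.Agent.R216
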