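import Crest.Agent.R216.Crease
import Crest.Agent.R216.ModelAuxD
/-! # R216: the plane model at unit scale.
`Q0 = {|X| ≤ s1/2, |Y| ≤ 7/2}`, `Q1 = {|X| < s1, |Y| < 4}`. -/

set_option autoImplicit false
open scoped Manifold ContDiff Topology Matrix
open Set Filter

namespace Crest.Agent.R216

/-- `(A, B)` is `t`-almost an orthonormal pair -/
def AIso (A B : Fin 3 → ℝ) (t : ℝ) : Prop :=
  ∀ a b : ℝ, |(a • A + b • B) ⬝ᵥ (a • A + b • B) - (a ^ 2 + b ^ 2)| ≤ t * (a ^ 2 + b ^ 2)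

/-- planar form of `KPt` for `dW₀ = (A 0, B 0)`, `dW₁ = (A 1, B 1)`, `du = (A 2, B 2)` -/
def PKPt (A B : Fin 3 → ℝ) (C t : ℝ) : Prop :=
  ∃ g00 g01 g11 τ0 τ1 : ℝ, (∀ a b : ℝ, 0 ≤ g00 * a ^ 2 + 2 * g01 * a * b + g11 * b ^ 2) ∧
    τ0 ^ 2 + τ1 ^ 2 ≤ C ^ 2 ∧ |g00 * τ0 + g01 * τ1 - A 2| ≤ t ∧ |g01 * τ0 + g11 * τ1 - B 2| ≤ t ∧
    ∀ a b : ℝ, |a ^ 2 + b ^ 2 - ((a * A 0 + b * B 0) ^ 2 + (a * A 1 + b * B 1) ^ 2) -
      (g00 * a ^ 2 + 2 * g01 * a * b + g11 * b ^ 2)| ≤ t * (a ^ 2 + b ^ 2)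

/-- properties of the slow model -/
structure SlowP (C1 κ t s1 : ℝ) (Ψ : E2 → Fin 3 → ℝ) : Prop where
  sm : Sm Ψ
  supp : ∀ z : E2, C1 ≤ |z 0| ∨ C1 ≤ |z 1| → Ψ z 0 = 0 ∧ Ψ z 1 = 0
  bd : ∀ z : E2, |Ψ z 0| ≤ C1 ∧ |Ψ z 1| ≤ C1 ∧ |Ψ z 2| ≤ C1 * (1 + |z 0| + |z 1|)
  d_bd : ∀ z, ‖pX Ψ z‖ ≤ 3 ∧ ‖pY Ψ z‖ ≤ 3
  iso : ∀ z : E2, |z 0| ≤ s1 → |z 1| ≤ 4 → AIso (pX Ψ z) (pY Ψ z) t
  kpt : ∀ z : E2, s1 / 2 < |z 0| ∨ 7 / 2 < |z 1| → PKPt (pX Ψ z) (pY Ψ z) 1000 t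
  uX : ∀ z : E2, (s1 / 4 ≤ z 0 → 1 / 20 ≤ pX Ψ z 2) ∧ (z 0 ≤ -(s1 / 4) → pX Ψ z 2 ≤ -1 / 20)
  uY : ∀ z : E2, (1 ≤ z 1 → 1 / 20 ≤ κ * pY Ψ z 2) ∧ (z 1 ≤ -1 → κ * pY Ψ z 2 ≤ -1 / 20)
  inj : ∀ z : E2,
    (∀ a b : ℝ, (a ^ 2 + b ^ 2) / 2 ≤ (a • pX Ψ z + b • pY Ψ z) ⬝ᵥ (a • pX Ψ z + b • pY Ψ z)) ∨
    (-t ≤ pX Ψ z 0 ∧ |pY Ψ z 0| ≤ t ∧ -t ≤ pY Ψ z 1) ∨
    (|pX Ψ z 0| ≤ t ∧ |pY Ψ z 0| ≤ t ∧ 1 ≤ |z 1|)

theorem moda_comp {A A' : Fin 3 → ℝ} {δ : ℝ} (h : ‖A' - A‖ ≤ δ) (i : Fin 3) :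
    A i - δ ≤ A' i ∧ A' i ≤ A i + δ := by
  have h1 := abs_le.1 ((norm_le_pi_norm (A' - A) i).trans h)
  rw [Pi.sub_apply] at h1
  exact ⟨by linarith [h1.1], by linarith [h1.2]⟩

theorem moda_two {A : Fin 3 → ℝ} {δ : ℝ} (h : ‖A‖ ≤ δ) : ‖fun i : Fin 2 => A i.castSucc‖ ≤ δ :=
  (pi_norm_le_iff_of_nonneg ((norm_nonneg _).trans h)).2 fun _ => (norm_le_pi_norm A _).trans h

theorem moda_DX {s1 X Y κ sn cs : ℝ} (Z : Zone s1 X Y) (hκ : κ = 1 ∨ κ = -1) (hs0 : 0 < s1)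
    (hs1 : s1 ≤ 1) (hX : 0 ≤ X) (hsc : sn ^ 2 + cs ^ 2 = 1) : ‖Z.DX κ sn cs‖ ≤ 2 := by
  obtain ⟨h1, -, h3⟩ := Z.norm_le hκ hs0 hs1 hX
  have h4 : |sn| ≤ 1 := abs_le_one_iff_mul_self_le_one.2 (by nlinarith [sq_nonneg cs])
  have h5 : |cs| ≤ 1 := abs_le_one_iff_mul_self_le_one.2 (by nlinarith [sq_nonneg sn])
  refine (norm_add_le _ _).trans ?_
  rw [norm_smul, norm_smul, Real.norm_eq_abs, Real.norm_eq_abs]
  linarith [mul_le_one₀ h4 (norm_nonneg _) h1, mul_le_one₀ h5 (norm_nonneg _) h3]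

theorem moda_orth {s1 X Y κ sn cs : ℝ} (Z : Zone s1 X Y) (hκ : κ = 1 ∨ κ = -1) (hs0 : 0 < s1)
    (hs1 : s1 ≤ 1) (hX : 0 ≤ X) (hsc : sn ^ 2 + cs ^ 2 = 1) (h1 : X ≤ s1) (h2 : |Y| ≤ 4) (a b : ℝ) :
    (a • Z.DX κ sn cs + b • Z.iY κ) ⬝ᵥ (a • Z.DX κ sn cs + b • Z.iY κ) = a ^ 2 + b ^ 2 := by
  obtain ⟨e1, e2, e3, e4, e5, e6⟩ := Z.orthonormal hκ hs0 hs1 hX h1 h2
  have e4' := (dotProduct_comm _ _).trans e4
  have e5' := (dotProduct_comm _ _).trans e5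
  have e6' := (dotProduct_comm _ _).trans e6
  simp only [Zone.DX, add_dotProduct, dotProduct_add, smul_dotProduct, dotProduct_smul, e1, e2, e3,
    e4, e5, e6, e4', e5', e6', smul_eq_mul]
  linear_combination a ^ 2 * hsc

/-- `Cr_zone` with constant `e = s` (`cs ≠ 0` forces `|X| < s`), `Zone.*`, `quad_pert` (for `kpt` apply
it to the first two components, `γ = e - W*e` of the ideal vectors). -/
theorem mod_slow (P : Prof) {C0 κ t s1 : ℝ} (hC : 10 ≤ C0) (hκ : κ = 1 ∨ κ = -1) (ht0 : 0 < t)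
    (ht : t ≤ 1 / 100) {Φ N : E2 → Fin 3 → ℝ} (H : HatP C0 κ (t / 100) s1 Φ N) :
    ∀ᶠ s in 𝓝[>] (0 : ℝ), SlowP (C0 + 1) κ t s1 (Cr P (fun _ => s) Φ N) := by
  obtain ⟨L0, hL0⟩ := H.dN
  have hL1 : 1 ≤ max L0 1 := le_max_right _ _
  have hL : ∀ z : E2, 0 ≤ z 0 → ‖pX N z‖ ≤ max L0 1 ∧ ‖pY N z‖ ≤ max L0 1 := fun z hz =>
    ⟨(hL0 z hz).1.trans (le_max_left _ _), (hL0 z hz).2.trans (le_max_left _ _)⟩
  generalize max L0 1 = L at hL1 hL
  have hs0 := H.s_pos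
  have hs1 := H.s_le
  filter_upwards [Ioc_mem_nhdsGT (show (0 : ℝ) < min (s1 / 4) (t / (1000 * L)) by positivity)]
    with s hs
  have hs' := hs.1
  have hsa : s ≤ s1 / 4 := hs.2.trans (min_le_left _ _)
  have hsb : s * (1000 * L) ≤ t := (le_div_iff₀ (by positivity)).1 (hs.2.trans (min_le_right _ _))
  have hδ : t / 100 + 10 * L * 1 * s ≤ t / 50 := by linarith
  have he : ContDiff ℝ ∞ fun _ : ℝ => s := contDiff_const
  have hf := fold_mem P (e := fun _ => s) fun _ => hs'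
  have hZ : ∀ z : E2, ∃ Z : Zone s1 (fold P (fun _ => s) z 0) (z 1),
      ‖pX (Cr P (fun _ => s) Φ N) z - Z.DX κ (P.sn (z 0 / s)) (P.cs (z 0 / s))‖ ≤ t / 50 ∧
      ‖pY (Cr P (fun _ => s) Φ N) z - Z.iY κ‖ ≤ t / 50 ∧ N (fold P (fun _ => s) z) = Z.iN κ := by
    intro z
    obtain ⟨Z, h1, h2, -, h3⟩ := Cr_zone P he (fun _ => hs') hκ (by linarith) H hL1 hL
      (s := s) (by linarith) (fun _ => le_rfl) le_rfl (fun y => by simpa using hs'.le) z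
    exact ⟨Z, h1.trans hδ, h2.trans hδ, h3⟩
  have hp : ∀ x : ℝ, s ≤ x → P.sn (x / s) = 1 ∧ P.cs (x / s) = 0 := fun x hx =>
    ⟨(P.pos _ ((one_le_div hs').2 hx)).1, (P.pos _ ((one_le_div hs').2 hx)).2.1⟩
  have hn : ∀ x : ℝ, x ≤ -s → P.sn (x / s) = -1 ∧ P.cs (x / s) = 0 := fun x hx => by
    have := P.neg (x / s) ((div_le_iff₀ hs').2 (by linarith))
    exact ⟨this.1, this.2.1⟩
  have hcs : ∀ x : ℝ, P.cs (x / s) ≠ 0 → |x| < s := fun x hx => by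
    by_contra hle
    rcases le_abs'.1 (not_lt.1 hle) with h | h
    · exact hx (hn x h).2
    · exact hx (hp x h).2
  refine ⟨Cr_sm P he (fun _ => hs') H.Φ_sm H.N_sm, fun z hz => ?_, fun z => ?_, fun z => ?_,
    fun z h1 h2 a b => ?_, fun z hz => ?_, fun z => ?_, fun z => ?_, fun z => ?_⟩
  · obtain ⟨f1, f2, f3, f4⟩ := hf z
    obtain ⟨h1, h2, h3⟩ := H.supp _ f2 (hz.imp (fun h => by linarith) fun h => by
      rw [f1]; linarith)
    simp [Cr, h1, h2, h3]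
  · obtain ⟨f1, f2, f3, f4⟩ := hf z
    obtain ⟨Z, -, -, hN⟩ := hZ z
    obtain ⟨b1, b2, b3⟩ := H.bd _ f2
    have h1 : ∀ i, |Cr P (fun _ => s) Φ N z i| ≤ |Φ (fold P (fun _ => s) z) i| + 1 := by
      intro i
      refine (abs_add_le _ _).trans (add_le_add le_rfl ?_)
      have h2 : |N (fold P (fun _ => s) z) i| ≤ 1 := by
        rw [hN]
        exact (norm_le_pi_norm (Z.iN κ) i).trans (Z.norm_le hκ hs0 hs1 f2).2.2
      rw [Pi.smul_apply, smul_eq_mul, abs_mul, abs_mul, abs_of_pos hs']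
      exact mul_le_one₀ (mul_le_one₀ (by linarith) (abs_nonneg _) (P.G1_bd _)) (abs_nonneg _) h2
    refine ⟨by linarith [h1 0], by linarith [h1 1], (h1 2).trans ?_⟩
    rw [f1] at b3
    nlinarith [abs_nonneg (z 0), abs_nonneg (z 1)]
  · obtain ⟨f1, f2, f3, f4⟩ := hf z
    obtain ⟨Z, h1, h2, -⟩ := hZ z
    have h3 := moda_DX Z hκ hs0 hs1 f2 (P.sq (z 0 / s))
    have h4 := (Z.norm_le hκ hs0 hs1 f2).2.1
    exact ⟨(norm_le_norm_add_norm_sub' _ _).trans ((add_le_add h3 h1).trans (by linarith)),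
      (norm_le_norm_add_norm_sub' _ _).trans ((add_le_add h4 h2).trans (by linarith))⟩
  · obtain ⟨f1, f2, f3, f4⟩ := hf z
    obtain ⟨Z, h3, h4, -⟩ := hZ z
    have h5 := quad_pert (by simp) (by linarith) (moda_DX Z hκ hs0 hs1 f2 (P.sq (z 0 / s)))
      (Z.norm_le hκ hs0 hs1 f2).2.1 h3 h4 a b
    rw [moda_orth Z hκ hs0 hs1 f2 (P.sq _) (f3.trans h1) h2] at h5
    refine h5.trans (mul_le_mul_of_nonneg_right (by linarith) (by positivity))
  · obtain ⟨f1, f2, f3, f4⟩ := hf z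
    obtain ⟨Z, h3, h4, -⟩ := hZ z
    obtain ⟨k1, τ0, τ1, k2, k3, k4⟩ := Z.kpt hκ hs0 hs1 f2 (P.sq (z 0 / s)) (P.cs_nonneg _)
      fun h => by
        have := hcs _ h
        exact ⟨by linarith, (hz.resolve_left (by linarith)).le⟩
    have hD := moda_DX Z hκ hs0 hs1 f2 (P.sq (z 0 / s))
    have hY := (Z.norm_le hκ hs0 hs1 f2).2.1
    generalize Z.DX κ (P.sn (z 0 / s)) (P.cs (z 0 / s)) = D at *
    generalize Z.iY κ = Y at *
    generalize pX (Cr P (fun _ => s) Φ N) z = A at *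
    generalize pY (Cr P (fun _ => s) Φ N) z = B at *
    refine ⟨1 - D 0 ^ 2 - D 1 ^ 2, -(D 0 * Y 0 + D 1 * Y 1), 1 - Y 0 ^ 2 - Y 1 ^ 2, τ0, τ1,
      fun a b => by nlinarith [k1 a b], by linarith, ?_, ?_, fun a b => ?_⟩
    · have := moda_comp h3 2
      rw [abs_le]
      constructor <;> linarith [this.1, this.2]
    · have := moda_comp h4 2
      rw [abs_le]
      constructor <;> linarith [this.1, this.2]
    · have h5 := quad_pert (ι := Fin 2) (by simp) (by linarith) (moda_two hD) (moda_two hY)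
        (A' := fun i => A i.castSucc) (B' := fun i => B i.castSucc) (moda_two h3) (moda_two h4) a b
      simp only [dotProduct, Fin.sum_univ_two, Pi.add_apply, Pi.smul_apply, smul_eq_mul,
        Fin.castSucc_zero, Fin.castSucc_one] at h5
      rw [abs_sub_comm] at h5
      refine le_trans (le_of_eq ?_)
        (h5.trans (mul_le_mul_of_nonneg_right (by linarith) (by positivity)))
      congr 1
      ring
  · obtain ⟨f1, f2, f3, f4⟩ := hf z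
    obtain ⟨Z, h3, -, -⟩ := hZ z
    have h4 := moda_comp h3 2
    have h5 := Z.uX_ge hκ hs0 hs1 f2
    constructor
    · intro h
      obtain ⟨e1, e2⟩ := hp (z 0) (by linarith)
      simp only [e1, e2, Zone.DX, one_smul, zero_smul, add_zero] at h4
      linarith [h4.1]
    · intro h
      obtain ⟨e1, e2⟩ := hn (z 0) (by linarith)
      simp only [e1, e2, Zone.DX, neg_smul, one_smul, zero_smul, add_zero, Pi.neg_apply] at h4
      linarith [h4.2]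
  · obtain ⟨f1, f2, f3, f4⟩ := hf z
    obtain ⟨Z, -, h3, -⟩ := hZ z
    have h4 := moda_comp h3 2
    have h5 := Z.uY_ge hκ hs0 hs1 f2
    rcases hκ with rfl | rfl
    · exact ⟨fun h => by linarith [h5.1 h, h4.1], fun h => by linarith [h5.2 h, h4.2]⟩
    · exact ⟨fun h => by linarith [h5.1 h, h4.2], fun h => by linarith [h5.2 h, h4.1]⟩
  · obtain ⟨f1, f2, f3, f4⟩ := hf z
    obtain ⟨Z, h3, h4, -⟩ := hZ z
    have a0 := moda_comp h3 0
    have b0 := moda_comp h4 0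
    have b1 := moda_comp h4 1
    rcases Z.inj hκ hs0 hs1 f2 (P.sq (z 0 / s)) (P.cs_nonneg _) (fun h => by
      linarith [hcs _ h]) with h | ⟨k1, k2, k3⟩ | ⟨k1, k2, k3⟩
    · refine Or.inl fun a b => ?_
      have h5 := abs_le.1 (quad_pert (by simp) (by linarith)
        (moda_DX Z hκ hs0 hs1 f2 (P.sq (z 0 / s))) (Z.norm_le hκ hs0 hs1 f2).2.1 h3 h4 a b)
      have h6 : 30 * (t / 50) * (a ^ 2 + b ^ 2) ≤ 1 / 4 * (a ^ 2 + b ^ 2) :=
        mul_le_mul_of_nonneg_right (by linarith) (by positivity)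
      linarith [h a b, h5.1]
    · exact Or.inr (Or.inl ⟨by linarith [a0.1], abs_le.2 ⟨by linarith [b0.1], by linarith [b0.2]⟩,
        by linarith [b1.1]⟩)
    · exact Or.inr (Or.inr ⟨abs_le.2 ⟨by linarith [a0.1], by linarith [a0.2]⟩,
        abs_le.2 ⟨by linarith [b0.1], by linarith [b0.2]⟩, k3⟩)

/-- the sharpening of the crease -/
noncomputable def Del (P : Prof) (χ : Cut) (s1 s : ℝ) (Φ N : E2 → Fin 3 → ℝ) (ε : ℝ) (z : E2) :
    Fin 3 → ℝ :=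
  χ.ev 1 (8 * z 0 / s1) • (Cr P (χ.ef s ε) Φ N z - Cr P (fun _ => s) Φ N z)

/-- first order properties of the sharpened model `Ψ + Δ` -/
structure DelP (t s1 : ℝ) (Ψ Δ : E2 → Fin 3 → ℝ) : Prop where
  sm : Sm Δ
  supp : ∀ z : E2, s1 / 4 ≤ |z 0| ∨ 3 ≤ |z 1| → Δ z = 0
  bd : ∀ z, ‖Δ z‖ ≤ 1
  iso : ∀ z : E2, |z 0| ≤ s1 / 2 → |z 1| ≤ 7 / 2 →
    AIso (pX (fun z => Ψ z + Δ z) z) (pY (fun z => Ψ z + Δ z) z) t

theorem modb_norm (v : E2) : ‖v‖ ≤ |v 0| + |v 1| := by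
  rw [EuclideanSpace.norm_eq, Fin.sum_univ_two, Real.norm_eq_abs, Real.norm_eq_abs]
  refine Real.sqrt_le_iff.2 ⟨by positivity, ?_⟩
  nlinarith [mul_nonneg (abs_nonneg (v 0)) (abs_nonneg (v 1))]

theorem modb_smul {a α M : ℝ} {v : Fin 3 → ℝ} (ha : |a| ≤ α) (hv : ‖v‖ ≤ M) : ‖a • v‖ ≤ α * M := by
  rw [norm_smul]
  exact mul_le_mul ha hv (norm_nonneg _) ((abs_nonneg _).trans ha)

theorem modb_small (C : ℝ) {η : ℝ} (hη : 0 < η) : ∀ᶠ s in 𝓝[>] (0 : ℝ), C * s < η := by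
  have h : Tendsto (fun s : ℝ => C * s) (𝓝 0) (𝓝 (C * 0)) := tendsto_id.const_mul C
  rw [mul_zero] at h
  exact (h.eventually (gt_mem_nhds hη)).filter_mono nhdsWithin_le_nhds

/-- the creased map is close to the folded map, in `C¹` away from the crease -/
theorem modb_est (P : Prof) {e : ℝ → ℝ} (he : ContDiff ℝ ∞ e) (he0 : ∀ y, 0 < e y)
    {Φ N : E2 → Fin 3 → ℝ} (hΦ : Sm Φ) (hN : Sm N) {s L M : ℝ} (hs : s ≤ 1) (hes : ∀ y, e y ≤ s)
    (hL : 0 ≤ L) (hes' : ∀ y, |deriv e y| ≤ L * s) {z : E2} (h1 : ‖pX Φ (fold P e z)‖ ≤ M)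
    (h2 : ‖N (fold P e z)‖ ≤ M) (h3 : ‖pX N (fold P e z)‖ ≤ M) (h4 : ‖pY N (fold P e z)‖ ≤ M) :
    ‖Cr P e Φ N z - Φ (fold P e z)‖ ≤ (3 * L + 1) * M * s ∧ (s ≤ |z 0| →
      ‖pX (Cr P e Φ N) z - (if 0 ≤ z 0 then 1 else -1 : ℝ) • pX Φ (fold P e z)‖ ≤
        (3 * L + 1) * M * s ∧
      ‖pY (Cr P e Φ N) z - pY Φ (fold P e z)‖ ≤ (3 * L + 1) * M * s) := by
  have hM : 0 ≤ M := (norm_nonneg _).trans h1
  have e0 := he0 (z 1)
  have hs0 : 0 < s := e0.trans_le (hes _)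
  have hG : |e (z 1) * P.G1 (z 0 / e (z 1))| ≤ s := by
    simpa only [mul_one] using Zone.zn_abs_mul ((abs_of_pos e0).trans_le (hes _)) (P.G1_bd _)
  have hLM : 0 ≤ L * M * s := by positivity
  refine ⟨?_, fun hz => ?_⟩
  · rw [Cr, add_sub_cancel_left]
    linarith [modb_smul hG h2]
  have hγ : |-P.γ| ≤ 1 := by
    have h5 := P.G2_le 1
    have h6 := P.G2_nonneg 1
    rw [(P.pos 1 le_rfl).2.2.2] at h5 h6
    rw [abs_one] at h5
    exact abs_le.2 ⟨by linarith, by linarith⟩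
  obtain ⟨σ, hσ, a1, a2, a3, a4⟩ : ∃ σ : ℝ, |σ| ≤ 1 ∧ (if 0 ≤ z 0 then 1 else -1 : ℝ) = σ ∧
      P.sn (z 0 / e (z 1)) = σ ∧ P.cs (z 0 / e (z 1)) = 0 ∧
      P.G2 (z 0 / e (z 1)) - z 0 / e (z 1) * σ = -P.γ := by
    split_ifs with h
    · rw [abs_of_nonneg h] at hz
      obtain ⟨b1, b2, -, b3⟩ := P.pos _ ((one_le_div e0).2 ((hes _).trans hz))
      exact ⟨1, by simp, rfl, b1, b2, by linarith⟩
    · rw [abs_of_neg (not_le.1 h)] at hz
      obtain ⟨b1, b2, -, b3⟩ := P.neg (z 0 / e (z 1))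
        ((div_le_iff₀ e0).2 (by linarith [hes (z 1)]))
      exact ⟨-1, by simp, rfl, b1, b2, by linarith⟩
  rw [pX_Cr P he he0 hΦ hN, pY_Cr P he he0 hΦ hN, a1, a2, a3, a4, zero_smul, add_zero,
    add_sub_cancel_left, mul_zero, sub_zero, add_assoc, add_assoc, add_sub_cancel_left]
  have b1 := Zone.zn_abs_mul (hes' (z 1)) hγ
  have b2 := Zone.zn_abs_mul (hes' (z 1)) (P.G1_bd (z 0 / e (z 1)))
  refine ⟨?_, ?_⟩
  · linarith [modb_smul (Zone.zn_abs_mul hG hσ) h3]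
  · have b3 := modb_smul hG ((norm_add_le _ _).trans (add_le_add h4 (modb_smul b1 h3)))
    refine (norm_add_le _ _).trans ((add_le_add (modb_smul b1 h1) ((norm_add_le _ _).trans
      (add_le_add (modb_smul b2 h2) b3))).trans ?_)
    nlinarith [mul_le_mul_of_nonneg_left hs hLM]

/-- two creases of small width are `C⁰`-close, and `C¹`-close away from the crease -/
theorem modb_close (P : Prof) {Φ N : E2 → Fin 3 → ℝ} (hΦ : Sm Φ) (hN : Sm N) {L η : ℝ} (hL : 0 ≤ L)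
    (hη : 0 < η) : ∀ᶠ s in 𝓝[>] (0 : ℝ), ∀ e : ℝ → ℝ, ContDiff ℝ ∞ e → (∀ y, 0 < e y) →
      (∀ y, e y ≤ s) → (∀ y, |deriv e y| ≤ L * s) → ∀ z : E2, |z 0| ≤ 1 → |z 1| ≤ 4 →
      ‖Cr P e Φ N z - Cr P (fun _ => s) Φ N z‖ ≤ η ∧ (s ≤ |z 0| → ∀ u,
        ‖Zv (V0 u) (Cr P e Φ N) z - Zv (V0 u) (Cr P (fun _ => s) Φ N) z‖ ≤ η) := by
  have hK := isCompact_closedBall (0 : E2) 5
  have c1 := (hΦ.zv (smV_V0 0)).cont
  have c2 := (hΦ.zv (smV_V0 1)).cont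
  obtain ⟨M, hM⟩ := hK.exists_bound_of_continuousOn (c1.prodMk (hN.cont.prodMk
    ((hN.zv (smV_V0 0)).cont.prodMk (hN.zv (smV_V0 1)).cont))).continuousOn
  obtain ⟨δ, hδ, hu⟩ := Metric.uniformContinuousOn_iff.1 (hK.uniformContinuousOn_of_continuous
    (hΦ.cont.prodMk (c1.prodMk c2)).continuousOn) (η / 3) (by positivity)
  simp only [norm_prod_le_iff] at hM
  simp only [Prod.dist_eq, max_lt_iff] at hu
  simp only [dist_eq_norm] at hu
  filter_upwards [self_mem_nhdsWithin, modb_small 1 one_pos, modb_small 1 hδ,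
    modb_small ((3 * L + 1) * M) (show 0 < η / 3 by positivity)] with s hs0 hs1 hsδ hsM e he he0 hes
    hes' z hz0 hz1
  rw [one_mul] at hs1 hsδ
  have hs0 : 0 < s := hs0
  have hw : ∀ e : ℝ → ℝ, (∀ y, 0 < e y) → fold P e z ∈ Metric.closedBall (0 : E2) 5 := fun e h => by
    obtain ⟨a1, a2, a3, -⟩ := fold_mem P h z
    refine mem_closedBall_zero_iff.2 ((modb_norm _).trans ?_)
    rw [a1, abs_of_nonneg a2]
    linarith
  have hw1 := hw e he0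
  have hw2 := hw (fun _ => s) fun _ => hs0
  obtain ⟨u1, u2, u3⟩ := hu _ hw1 _ hw2 (by
    obtain ⟨a1, -, a2, a3⟩ := fold_mem P he0 z
    obtain ⟨b1, -, b2, b3⟩ := fold_mem P (e := fun _ => s) (fun _ => hs0) z
    refine (modb_norm _).trans_lt ?_
    rw [PiLp.sub_apply, PiLp.sub_apply, a1, b1, sub_self, abs_zero, add_zero]
    exact (abs_le.2 ⟨by linarith [hes (z 1)], by linarith⟩).trans_lt hsδ)
  obtain ⟨a1, a2⟩ := modb_est P he he0 hΦ hN hs1.le hes hL hes' (hM _ hw1).1 (hM _ hw1).2.1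
    (hM _ hw1).2.2.1 (hM _ hw1).2.2.2
  obtain ⟨b1, b2⟩ := modb_est P (e := fun _ => s) contDiff_const (fun _ => hs0) hΦ hN hs1.le
    (fun _ => le_rfl) hL (fun _ => by rw [deriv_const, abs_zero]; positivity) (hM _ hw2).1
    (hM _ hw2).2.1 (hM _ hw2).2.2.1 (hM _ hw2).2.2.2
  have tri : ∀ {a b c d : Fin 3 → ℝ}, ‖a - b‖ ≤ (3 * L + 1) * M * s → ‖b - c‖ ≤ η / 3 →
      ‖d - c‖ ≤ (3 * L + 1) * M * s → ‖a - d‖ ≤ η := fun {a b c d} h1 h2 h3 => by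
    have h4 := norm_sub_le_norm_sub_add_norm_sub a b d
    have h5 := norm_sub_le_norm_sub_add_norm_sub b c d
    rw [norm_sub_rev] at h3
    linarith
  refine ⟨tri a1 u1.le b1, fun hz => Fin.forall_fin_two.2 ⟨tri (a2 hz).1 ?_ (b2 hz).1,
    tri (a2 hz).2 u3.le (b2 hz).2⟩⟩
  rw [← smul_sub, ← one_mul (η / 3)]
  exact modb_smul (by split_ifs <;> simp) u2.le

theorem modb_iso {s1 X Y κ sn cs δ t : ℝ} (Z : Zone s1 X Y) (hκ : κ = 1 ∨ κ = -1) (hs0 : 0 < s1)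
    (hs1 : s1 ≤ 1) (hX : 0 ≤ X) (h1 : X ≤ s1) (h2 : |Y| ≤ 4) (hsc : sn ^ 2 + cs ^ 2 = 1)
    {A B : Fin 3 → ℝ} (hA : ‖A - Z.DX κ sn cs‖ ≤ δ) (hB : ‖B - Z.iY κ‖ ≤ δ) (hδ : δ ≤ 1)
    (ht : 30 * δ ≤ t) : AIso A B t := by
  intro a b
  obtain ⟨n1, n2, n3⟩ := Z.norm_le hκ hs0 hs1 hX
  obtain ⟨o1, o2, o3, o4, o5, o6⟩ := Z.orthonormal hκ hs0 hs1 hX h1 h2
  have hn : ‖Z.DX κ sn cs‖ ≤ 2 := by
    have b1 := modb_smul (abs_le_of_sq_le_sq (a := sn) (b := 1) (by nlinarith) zero_le_one) n1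
    have b2 := modb_smul (abs_le_of_sq_le_sq (a := cs) (b := 1) (by nlinarith) zero_le_one) n3
    exact (norm_add_le _ _).trans (by linarith)
  have h := quad_pert (by simp) hδ hn n2 hA hB a b
  have e : (a • Z.DX κ sn cs + b • Z.iY κ) ⬝ᵥ (a • Z.DX κ sn cs + b • Z.iY κ) = a ^ 2 + b ^ 2 := by
    simp only [Zone.DX, add_dotProduct, dotProduct_add, smul_dotProduct, dotProduct_smul,
      smul_eq_mul, o1, o2, o3, o4, o5, o6, dotProduct_comm (Z.iY κ) (Z.iX κ),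
      dotProduct_comm (Z.iN κ) (Z.iX κ), dotProduct_comm (Z.iN κ) (Z.iY κ)]
    linear_combination a ^ 2 * hsc
  rw [e] at h
  exact h.trans (mul_le_mul_of_nonneg_right ht (by positivity))

/-- For `|X| < s1/8` the sum is `Cr e` near the point (`Cr_zone`, `Zone.orthonormal`); for `|X| ≥ s`,
`|fold e - fold s| ≤ s`, so `Cr e - Cr s` is `C¹`-small by uniform continuity of `dΦ` on a compact
set (and `pX_Cr, pY_Cr`), while the cut-off has derivative `≤ 16 L / s1`. -/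
theorem mod_del1 (P : Prof) (χ : Cut) {C0 κ t s1 : ℝ} (hκ : κ = 1 ∨ κ = -1) (ht0 : 0 < t)
    (ht : t ≤ 1 / 100) {Φ N : E2 → Fin 3 → ℝ} (H : HatP C0 κ (t / 100) s1 Φ N) :
    ∀ᶠ s in 𝓝[>] (0 : ℝ), ∀ ε, 0 < ε → ε ≤ s →
      DelP t s1 (Cr P (fun _ => s) Φ N) (Del P χ s1 s Φ N ε) := by
  obtain ⟨L, hL⟩ := H.dN
  have hs1 := H.s_pos
  have hs2 := H.s_le
  have hχ := χ.L_nonneg
  obtain ⟨η, hη, hη1⟩ : ∃ η : ℝ, 0 < η ∧ η + 2 * χ.L * (8 / s1) * η = t / 100 :=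
    ⟨t / 100 / (1 + 2 * χ.L * (8 / s1)), by positivity, by field_simp⟩
  have hη2 : η ≤ t / 100 := by
    have : 0 ≤ 2 * χ.L * (8 / s1) * η := by positivity
    linarith
  filter_upwards [self_mem_nhdsWithin, modb_small 8 hs1,
    modb_small (10 * max L 1 * (2 * χ.L + 1)) (show 0 < t / 100 by positivity),
    modb_close P H.Φ_sm H.N_sm (L := 2 * χ.L + 1) (by positivity) hη] with s hs0 h8 hsL hcl ε hε hεs
  have hs0 : 0 < s := hs0
  have he := χ.ef_sm s ε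
  have he0 := χ.profb_pos hε hεs
  have hes : ∀ y, χ.ef s ε y ≤ s := fun y => (χ.ef_mem hεs y).2
  have hes' : ∀ y, |deriv (χ.ef s ε) y| ≤ (2 * χ.L + 1) * s := fun y =>
    (χ.ef_d_bd hε.le hεs y).trans (by linarith)
  replace hcl := hcl _ he he0 hes hes'
  have hA := Cr_sm P he he0 H.Φ_sm H.N_sm
  have hB := Cr_sm P (e := fun _ => s) contDiff_const (fun _ => hs0) H.Φ_sm H.N_sm
  have hφ : ContDiff ℝ ∞ fun x : ℝ => χ.ev 1 (8 * x / s1) :=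
    (χ.ev_sm 1).comp ((contDiff_const.mul contDiff_id).div_const s1)
  have hc : Sm fun z : E2 => χ.ev 1 (8 * z 0 / s1) := (Cut.profb_sm 0).comp' hφ
  have habs : ∀ x : ℝ, |8 * x / s1| = 8 * |x| / s1 := fun x => by
    rw [abs_div, abs_mul, abs_of_pos hs1, abs_of_pos (by norm_num : (0 : ℝ) < 8)]
  have hc1 : ∀ x, |χ.ev 1 x| ≤ 1 := fun x => (abs_of_nonneg (χ.ev_nonneg _ _)).trans_le (χ.ev_le_one _ _)
  have hsupp : ∀ z : E2, s1 / 4 ≤ |z 0| ∨ 3 ≤ |z 1| → Del P χ s1 s Φ N ε z = 0 := by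
    rintro z (h | h)
    · rw [Del, χ.ev_zero (by rw [habs, le_div_iff₀ hs1]; linarith), zero_smul]
    · have h1 : χ.ef s ε (z 1) = s := by
        rw [Cut.ef, χ.ev_zero (by linarith)]
        ring
      simp only [Del, Cr, fold, h1, sub_self, smul_zero]
  refine ⟨hc.smul' (hA.sub' hB), hsupp, fun z => ?_, fun z hz0 hz1 => ?_⟩
  · by_cases h : s1 / 4 ≤ |z 0| ∨ 3 ≤ |z 1|
    · rw [hsupp z h, norm_zero]
      exact zero_le_one
    · push Not at h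
      linarith [show ‖Del P χ s1 s Φ N ε z‖ ≤ 1 * η from
        modb_smul (hc1 _) (hcl z (by linarith [h.1]) (by linarith [h.2])).1]
  have key : ∀ u, ‖Zv (V0 u) (fun z => Cr P (fun _ => s) Φ N z + Del P χ s1 s Φ N ε z) z -
      Zv (V0 u) (Cr P (χ.ef s ε) Φ N) z‖ ≤ t / 100 := by
    intro u
    rcases lt_or_ge |z 0| (s1 / 8) with h | h
    · have e : (fun z => Cr P (fun _ => s) Φ N z + Del P χ s1 s Φ N ε z) =ᶠ[𝓝 z]
          Cr P (χ.ef s ε) Φ N := by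
        filter_upwards [(Cut.profb_sm 0).cont.abs.continuousAt.eventually (gt_mem_nhds h)] with y hy
        rw [Del, χ.ev_one (by rw [habs, div_le_one hs1]; linarith), one_smul, add_sub_cancel]
      rw [Zv, Zv, dd_congr e, sub_self, norm_zero]
      positivity
    · obtain ⟨a1, a2⟩ := hcl z (by linarith) (by linarith)
      have a3 := a2 (by linarith) u
      have hd : HasDerivAt (fun x : ℝ => χ.ev 1 (8 * x / s1))
          (deriv (χ.ev 1) (8 * z 0 / s1) * (8 * 1 / s1)) (z 0) :=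
        (Cut.profb_diff (χ.ev_sm 1) _).hasDerivAt.comp (z 0)
          (((hasDerivAt_id (z 0)).const_mul 8).div_const s1)
      have a4 : |dd (fun z : E2 => χ.ev 1 (8 * z 0 / s1)) z (V0 u z)| ≤ 2 * χ.L * (8 / s1) := by
        rw [dd_comp_deriv (f := fun z : E2 => z 0) hd ((Cut.profb_sm 0).df z), Cut.profb_dd, smul_eq_mul,
          ← one_mul (2 * χ.L * _), mul_one]
        refine Zone.zn_abs_mul ?_ (Zone.zn_abs_mul (χ.ev_d_bd _ _) (abs_of_pos (by positivity)).le)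
        fin_cases u <;> simp [V0]
      have a5 : |χ.ev 1 (8 * z 0 / s1) - 1| ≤ 1 :=
        abs_le.2 ⟨by linarith [χ.ev_nonneg 1 (8 * z 0 / s1)],
          by linarith [χ.ev_le_one 1 (8 * z 0 / s1)]⟩
      have a6 := (norm_add_le _ _).trans (add_le_add (modb_smul a5 a3) (modb_smul a4 a1))
      rw [one_mul, hη1] at a6
      refine le_of_eq_of_le (congrArg _ ?_) a6
      simp only [Zv, Del]
      rw [dd_add (hB.df z) ((hc.smul' (hA.sub' hB)).df z), dd_smul (hc.df z) ((hA.sub' hB).df z),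
        dd_sub (hA.df z) (hB.df z)]
      module
  obtain ⟨Z, z1, z2, -⟩ := Cr_zone P he he0 hκ (by linarith) H (le_max_right L 1)
    (fun z hz => ⟨(hL z hz).1.trans (le_max_left _ _), (hL z hz).2.trans (le_max_left _ _)⟩)
    (by linarith) hes (by linarith) hes' z
  obtain ⟨-, f1, f2, -⟩ := fold_mem P he0 z
  refine modb_iso Z hκ hs1 hs2 f1 (by linarith) (by linarith) (P.sq _) (δ := 3 * (t / 100))
    ((norm_sub_le_norm_sub_add_norm_sub _ _ _).trans ((add_le_add (key 0) z1).trans ?_))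
    ((norm_sub_le_norm_sub_add_norm_sub _ _ _).trans ((add_le_add (key 1) z2).trans ?_)) ?_ ?_ <;>
    linarith

/-- lower bound for the second fundamental form: `du` is large, or the crease is seen -/
def IIP (c t ε : ℝ) (Ψ : E2 → Fin 3 → ℝ) (z : E2) : Prop :=
  1 / 20 ≤ |pX Ψ z 2| ∨ 1 / 20 ≤ |pY Ψ z 2| ∨
    ∃ m : Fin 3 → ℝ, m ⬝ᵥ m ≤ 1 ∧ |m ⬝ᵥ pX Ψ z| ≤ t ∧ |m ⬝ᵥ pY Ψ z| ≤ t ∧
      c / ε ≤ |m ⬝ᵥ pX (pX Ψ) z| ∧ |m ⬝ᵥ pX (pY Ψ) z| ≤ t / ε ∧ |m ⬝ᵥ pY (pX Ψ) z| ≤ t / ε ∧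
      |m ⬝ᵥ pY (pY Ψ) z| ≤ t / ε

theorem modc_ev (b : ℝ) {a : ℝ} (ha : 0 < a) : ∀ᶠ s in 𝓝[>] (0 : ℝ), b * s ≤ a := by
  have h : Tendsto (fun s : ℝ => b * s) (𝓝 0) (𝓝 (b * 0)) := (continuous_const.mul continuous_id).tendsto 0
  rw [mul_zero] at h
  exact (h.eventually (Iic_mem_nhds ha)).filter_mono nhdsWithin_le_nhds

theorem modc_zv_congr {f g : E2 → Fin 3 → ℝ} {z : E2} (h : f =ᶠ[𝓝 z] g) (u : Fin 2) :
    Zv (V0 u) f =ᶠ[𝓝 z] Zv (V0 u) g := by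
  filter_upwards [h.eventually_nhds] with w hw
  exact congrArg (fun L : E2 →L[ℝ] (Fin 3 → ℝ) => L (V0 u w)) (dd_congr hw)

theorem modc_IIP_congr {f g : E2 → Fin 3 → ℝ} {z : E2} (h : f =ᶠ[𝓝 z] g) {c t ε : ℝ}
    (hg : IIP c t ε g z) : IIP c t ε f z := by
  simp only [IIP, pX, pY] at hg ⊢
  rwa [(modc_zv_congr h 0).self_of_nhds, (modc_zv_congr h 1).self_of_nhds,
    (modc_zv_congr (modc_zv_congr h 0) 0).self_of_nhds,
    (modc_zv_congr (modc_zv_congr h 1) 0).self_of_nhds,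
    (modc_zv_congr (modc_zv_congr h 0) 1).self_of_nhds,
    (modc_zv_congr (modc_zv_congr h 1) 1).self_of_nhds]

theorem modc_bd {h : E2 → Fin 3 → ℝ} (hh : Sm h) : ∃ M : ℝ, 0 ≤ M ∧ ∀ (u v : Fin 2) (z : E2),
    |z 0| ≤ 1 → |z 1| ≤ 1 → ‖Zv (V0 u) (Zv (V0 v) h) z‖ ≤ M := by
  have hc : Continuous fun (z : E2) (p : Fin 2 × Fin 2) => Zv (V0 p.1) (Zv (V0 p.2) h) z :=
    continuous_pi fun p => ((hh.zv (smV_V0 _)).zv (smV_V0 _)).cont
  obtain ⟨M, hM⟩ := (isCompact_closedBall (0 : E2) 2).exists_bound_of_continuousOn hc.continuousOn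
  refine ⟨M, (norm_nonneg _).trans (hM 0 (Metric.mem_closedBall_self (by norm_num))),
    fun u v z h0 h1 => (norm_le_pi_norm _ (u, v)).trans (hM z ?_)⟩
  rw [mem_closedBall_zero_iff]
  refine (sq_le_sq₀ (norm_nonneg _) (by norm_num)).1 ?_
  rw [EuclideanSpace.real_norm_sq_eq, Fin.sum_univ_two, ← sq_abs (z 0), ← sq_abs (z 1)]
  nlinarith [abs_nonneg (z 0), abs_nonneg (z 1)]

theorem modc_dot {m v : Fin 3 → ℝ} (hm : m ⬝ᵥ m ≤ 1) : |m ⬝ᵥ v| ≤ 3 * ‖v‖ := by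
  simp only [dotProduct, Fin.sum_univ_three] at hm ⊢
  have key : ∀ i, m i * m i ≤ 1 → |m i * v i| ≤ ‖v‖ := fun i hi => by
    rw [abs_mul]
    exact (mul_le_of_le_one_left (abs_nonneg _) (abs_le_one_iff_mul_self_le_one.2 hi)).trans
      (norm_le_pi_norm v i)
  have h0 := key 0 (by nlinarith [mul_self_nonneg (m 1), mul_self_nonneg (m 2)])
  have h1 := key 1 (by nlinarith [mul_self_nonneg (m 0), mul_self_nonneg (m 2)])
  have h2 := key 2 (by nlinarith [mul_self_nonneg (m 1), mul_self_nonneg (m 0)])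
  linarith [abs_add_three (m 0 * v 0) (m 1 * v 1) (m 2 * v 2)]

theorem modc_smul_le {a A B : ℝ} {v : Fin 3 → ℝ} (ha : |a| ≤ A) (hv : ‖v‖ ≤ B) :
    ‖a • v‖ ≤ A * B := by
  rw [norm_smul]
  exact mul_le_mul ha hv (norm_nonneg _) ((abs_nonneg _).trans ha)

theorem modc_sc (P : Prof) (θ : ℝ) : |P.sn θ| ≤ 1 ∧ |P.cs θ| ≤ 1 :=
  ⟨abs_le_one_iff_mul_self_le_one.2 (by nlinarith [P.sq θ, sq_nonneg (P.cs θ)]),
    abs_le_one_iff_mul_self_le_one.2 (by nlinarith [P.sq θ, sq_nonneg (P.sn θ)])⟩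

section
variable (P : Prof) {ε : ℝ} (hε : 0 < ε) {h : E2 → Fin 3 → ℝ} (hh : Sm h) {a : ℝ → ℝ}
  (ha : ContDiff ℝ ∞ a)
include hε hh ha

theorem modc_sm : Sm fun z : E2 => a (z 0 / ε) • h (fold P (fun _ => ε) z) :=
  ((Cut.profb_sm 0).comp' (Φ := fun x => a (x / ε)) (ha.comp (contDiff_id.div_const ε))).smul'
    ((fold_sm P contDiff_const fun _ => hε).comp' (sm_plane.1 hh))

theorem modc_dd {a' : ℝ} (z : E2) (ha' : HasDerivAt a a' (z 0 / ε)) :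
    pX (fun z : E2 => a (z 0 / ε) • h (fold P (fun _ => ε) z)) z =
      (a (z 0 / ε) * P.sn (z 0 / ε)) • pX h (fold P (fun _ => ε) z) +
        (a' / ε) • h (fold P (fun _ => ε) z) ∧
    pY (fun z : E2 => a (z 0 / ε) • h (fold P (fun _ => ε) z)) z =
      a (z 0 / ε) • pY h (fold P (fun _ => ε) z) := by
  have hF := fold_sm P (e := fun _ => ε) contDiff_const fun _ => hε
  have hX := pX_fold P (e := fun _ => ε) contDiff_const (fun _ => hε) z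
  have hY := pY_fold P (e := fun _ => ε) contDiff_const (fun _ => hε) z
  have h1 : HasDerivAt (fun x => a (x / ε)) (a' / ε) (z 0) := by
    have := ha'.comp (z 0) ((hasDerivAt_id (z 0)).div_const ε)
    rwa [mul_one_div] at this
  have key : ∀ v : E2, dd (fun z : E2 => a (z 0 / ε) • h (fold P (fun _ => ε) z)) z v =
      a (z 0 / ε) • (dd (fold P fun _ => ε) z v 0 • pX h (fold P (fun _ => ε) z) +
        dd (fold P fun _ => ε) z v 1 • pY h (fold P (fun _ => ε) z)) +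
        (v 0 * (a' / ε)) • h (fold P (fun _ => ε) z) := by
    intro v
    rw [dd_smul (((Cut.profb_sm 0).comp' (Φ := fun x => a (x / ε))
        (ha.comp (contDiff_id.div_const ε))).df z) ((hF.comp' (sm_plane.1 hh)).df z),
      dd_pull ((sm_plane.1 hh).differentiable (by simp) _) (hF.df z), Fin.sum_univ_two,
      dd_comp_deriv (Φ := fun x => a (x / ε)) (f := fun z : E2 => z 0) h1 ((Cut.profb_sm 0).df z),
      Cut.profb_dd, smul_eq_mul]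
  constructor
  · change dd _ z _ = _
    change dd _ z _ = _ at hX
    rw [key, hX]
    simp [V0, smul_smul]
  · change dd _ z _ = _
    change dd _ z _ = _ at hY
    rw [key, hY]
    simp [V0]
end

theorem modc_zv_add {f g : E2 → Fin 3 → ℝ} (hf : Sm f) (hg : Sm g) (u : Fin 2) (z : E2) :
    Zv (V0 u) (fun z => f z + g z) z = Zv (V0 u) f z + Zv (V0 u) g z :=
  dd_add (hf.df z) (hg.df z) _

/-- second derivatives of the crease of constant width -/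
theorem modc_second (P : Prof) {Φ N : E2 → Fin 3 → ℝ} (hΦ : Sm Φ) (hN : Sm N) {L : ℝ}
    (hL : ∀ z : E2, 0 ≤ z 0 → ‖pX N z‖ ≤ L ∧ ‖pY N z‖ ≤ L) : ∃ R : ℝ, ∀ ε : ℝ, 0 < ε → ε ≤ 1 →
    ∀ z : E2, |z 0 / ε| ≤ 1 → |z 1| ≤ 1 →
      ‖pX (pX (Cr P (fun _ => ε) Φ N)) z - (P.om (z 0 / ε) / ε) •
        (P.cs (z 0 / ε) • pX Φ (fold P (fun _ => ε) z) -
          P.sn (z 0 / ε) • N (fold P (fun _ => ε) z))‖ ≤ R ∧
      ‖pX (pY (Cr P (fun _ => ε) Φ N)) z‖ ≤ R ∧ ‖pY (pX (Cr P (fun _ => ε) Φ N)) z‖ ≤ R ∧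
      ‖pY (pY (Cr P (fun _ => ε) Φ N)) z‖ ≤ R := by
  obtain ⟨M₁, hM₁0, hM₁⟩ := modc_bd hΦ
  obtain ⟨M₂, hM₂0, hM₂⟩ := modc_bd hN
  obtain ⟨O, hO⟩ := (isCompact_Icc (a := (-1 : ℝ)) (b := 1)).exists_bound_of_continuousOn
    P.om_sm.continuous.continuousOn
  have hO0 : 0 ≤ O := (norm_nonneg _).trans (hO 0 (by norm_num))
  have hL0 : 0 ≤ L := (norm_nonneg _).trans (hL 0 le_rfl).1
  refine ⟨M₁ + M₂ + (2 + O) * L, fun ε hε hε1 z hz0 hz1 => ?_⟩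
  have hom : |P.om (z 0 / ε)| ≤ O := hO _ (abs_le.1 hz0)
  obtain ⟨hsn, hcs⟩ := modc_sc P (z 0 / ε)
  have hG := P.G1_bd (z 0 / ε)
  have hεG : |ε * P.G1 (z 0 / ε)| ≤ 1 := by
    simpa using Zone.zn_abs_mul (show |ε| ≤ 1 by rwa [abs_of_pos hε]) hG
  have hεGs : |ε * P.G1 (z 0 / ε) * P.sn (z 0 / ε)| ≤ 1 := by simpa using Zone.zn_abs_mul hεG hsn
  obtain ⟨f1, f2, f3, -⟩ := fold_mem P (e := fun _ => ε) (fun _ => hε) z
  have hz0' : |z 0| ≤ 1 := by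
    rw [abs_div, abs_of_pos hε, div_le_one hε] at hz0
    linarith
  have g0 : |fold P (fun _ => ε) z 0| ≤ 1 := by rw [abs_of_nonneg f2]; linarith
  have g1 : |fold P (fun _ => ε) z 1| ≤ 1 := by rwa [f1]
  have hXΦ := hΦ.zv (smV_V0 0)
  have hYΦ := hΦ.zv (smV_V0 1)
  have hXN := hN.zv (smV_V0 0)
  have hYN := hN.zv (smV_V0 1)
  have a3 : ContDiff ℝ ∞ fun θ => ε * P.G1 θ * P.sn θ := (contDiff_const.mul P.G1_sm).mul P.sn_sm
  have a4 : ContDiff ℝ ∞ fun θ => ε * P.G1 θ := contDiff_const.mul P.G1_sm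
  have a5 : ContDiff ℝ ∞ fun _ : ℝ => (1 : ℝ) := contDiff_const
  have eX : pX (Cr P (fun _ => ε) Φ N) = fun z =>
      P.sn (z 0 / ε) • pX Φ (fold P (fun _ => ε) z) + P.cs (z 0 / ε) • N (fold P (fun _ => ε) z) +
        (ε * P.G1 (z 0 / ε) * P.sn (z 0 / ε)) • pX N (fold P (fun _ => ε) z) :=
    funext fun z => pX_Cr P contDiff_const (fun _ => hε) hΦ hN z
  have eY : pY (Cr P (fun _ => ε) Φ N) = fun z => (1 : ℝ) • pY Φ (fold P (fun _ => ε) z) +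
      (ε * P.G1 (z 0 / ε)) • pY N (fold P (fun _ => ε) z) := funext fun z => by
    rw [pY_Cr P contDiff_const (fun _ => hε) hΦ hN z]
    simp
  have s1 := modc_sm P hε hXΦ P.sn_sm
  have s2 := modc_sm P hε hN P.cs_sm
  have s3 := modc_sm P hε hXN a3
  have s4 := modc_sm P hε hYN a4
  have s5 := modc_sm P hε hYΦ a5
  have d1 := modc_dd P hε hXΦ P.sn_sm z (P.dsn _)
  have d2 := modc_dd P hε hN P.cs_sm z (P.dcs _)
  have d3 := modc_dd P hε hXN a3 z (((P.dG1 _).const_mul ε).mul (P.dsn _))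
  have d4 := modc_dd P hε hYN a4 z ((P.dG1 _).const_mul ε)
  have d5 := modc_dd P hε hYΦ a5 z (hasDerivAt_const _ _)
  have hOL : 0 ≤ O * L := mul_nonneg hO0 hL0
  have bX := (hL _ f2).1
  have bY := (hL _ f2).2
  simp only [pX, pY] at eX eY d1 d2 d3 d4 d5 bX bY ⊢
  refine ⟨?_, ?_, ?_, ?_⟩
  · rw [eX, modc_zv_add (s1.add' s2) s3, modc_zv_add s1 s2, d1.1, d2.1, d3.1]
    have e : ∀ (A B C D E : Fin 3 → ℝ) (sn cs om G : ℝ),
        (sn * sn) • A + (om * cs / ε) • B + ((cs * sn) • C + (-(om * sn) / ε) • D) +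
          ((ε * G * sn * sn) • E + ((ε * cs * sn + ε * G * (om * cs)) / ε) • C) -
          (om / ε) • (cs • B - sn • D) =
        (sn * sn) • A + (ε * G * sn * sn) • E + (cs * sn + cs * sn + G * cs * om) • C := by
      intro A B C D E sn cs om G
      ext i
      simp only [Pi.add_apply, Pi.sub_apply, Pi.smul_apply, smul_eq_mul]
      field_simp
      ring
    rw [e]
    have b1 := modc_smul_le (Zone.zn_abs_mul hsn hsn) (hM₁ 0 0 _ g0 g1)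
    have b2 := modc_smul_le (Zone.zn_abs_mul hεGs hsn) (hM₂ 0 0 _ g0 g1)
    have b3 : |P.cs (z 0 / ε) * P.sn (z 0 / ε) + P.cs (z 0 / ε) * P.sn (z 0 / ε) +
        P.G1 (z 0 / ε) * P.cs (z 0 / ε) * P.om (z 0 / ε)| ≤ 2 + O := by
      refine (abs_add_three _ _ _).trans ?_
      linarith [Zone.zn_abs_mul hcs hsn, Zone.zn_abs_mul (Zone.zn_abs_mul hG hcs) hom]
    refine norm_add₃_le.trans ?_
    linarith [modc_smul_le b3 bX]
  · rw [eY, modc_zv_add s5 s4, d5.1, d4.1, zero_div, zero_smul, add_zero, one_mul,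
      mul_div_cancel_left₀ _ hε.ne', ← add_assoc]
    refine norm_add₃_le.trans ?_
    linarith [modc_smul_le hsn (hM₁ 0 1 _ g0 g1), modc_smul_le hεGs (hM₂ 0 1 _ g0 g1),
      modc_smul_le hcs bY]
  · rw [eX, modc_zv_add (s1.add' s2) s3, modc_zv_add s1 s2, d1.2, d2.2, d3.2]
    refine norm_add₃_le.trans ?_
    linarith [modc_smul_le hsn (hM₁ 1 0 _ g0 g1), modc_smul_le hεGs (hM₂ 1 0 _ g0 g1),
      modc_smul_le hcs bY]
  · rw [eY, modc_zv_add s5 s4, d5.2, d4.2, one_smul]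
    refine (norm_add_le _ _).trans ?_
    linarith [hM₁ 1 1 _ g0 g1, modc_smul_le hεG (hM₂ 1 1 _ g0 g1)]

/-- creases of different widths are close -/
theorem modc_close (P : Prof) {C0 κ t s1 : ℝ} (hκ : κ = 1 ∨ κ = -1) (ht : t ≤ 1)
    {Φ N : E2 → Fin 3 → ℝ} (H : HatP C0 κ t s1 Φ N) {e : ℝ → ℝ} {s : ℝ} (he0 : ∀ y, 0 < e y)
    (hes : ∀ y, e y ≤ s) (z : E2) : ‖Cr P e Φ N z - Cr P (fun _ => s) Φ N z‖ ≤ 4 * s := by
  have hs : 0 < s := (he0 0).trans_le (hes 0)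
  obtain ⟨f1, f2, f3, f4⟩ := fold_mem P he0 z
  obtain ⟨g1, g2, g3, g4⟩ := fold_mem P (e := fun _ => s) (fun _ => hs) z
  have hN : ∀ w : E2, 0 ≤ w 0 → ‖N w‖ ≤ 1 := fun w hw => by
    obtain ⟨Z, -, -, h3⟩ := H.zone w hw
    rw [h3]
    exact (Z.norm_le hκ H.s_pos H.s_le hw).2.2
  have hX : ∀ w : E2, 0 ≤ w 0 → ‖pX Φ w‖ ≤ 2 := fun w hw => by
    obtain ⟨Z, h1, -, -⟩ := H.zone w hw
    linarith [(Z.norm_le hκ H.s_pos H.s_le hw).1, norm_le_norm_sub_add (pX Φ w) (Z.iX κ)]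
  have hd : ∀ x : ℝ, HasDerivAt (fun x : ℝ => Φ !₂[x, z 1]) (pX Φ !₂[x, z 1]) x := by
    intro x
    have h1 : HasDerivAt (fun x : ℝ => (!₂[x, z 1] : E2)) (EuclideanSpace.single 0 1) x := by
      have h2 := ((hasDerivAt_id x).smul_const (EuclideanSpace.single 0 1 : E2)).add_const !₂[0, z 1]
      rw [one_smul] at h2
      refine h2.congr_of_eventuallyEq (Eventually.of_forall fun x => ?_)
      ext i
      fin_cases i <;> simp
    have h3 := ((sm_plane.1 H.Φ_sm).differentiable (by simp) _).hasFDerivAt.comp_hasDerivAt x h1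
    rw [← dd_plane] at h3
    exact h3
  have h1 : ‖Φ (fold P e z) - Φ (fold P (fun _ => s) z)‖ ≤
      2 * ‖fold P e z 0 - fold P (fun _ => s) z 0‖ :=
    (convex_Ici (0 : ℝ)).norm_image_sub_le_of_norm_hasDerivWithin_le
      (fun x _ => (hd x).hasDerivWithinAt) (fun x hx => hX _ hx) g2 f2
  have h2 : ‖fold P e z 0 - fold P (fun _ => s) z 0‖ ≤ s :=
    abs_le.2 ⟨by linarith [hes (z 1)], by linarith⟩
  have h3 := modc_smul_le (Zone.zn_abs_mul (show |e (z 1)| ≤ s by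
    rw [abs_of_pos (he0 _)]; exact hes _) (P.G1_bd (z 0 / e (z 1)))) (hN _ f2)
  have h4 := modc_smul_le (Zone.zn_abs_mul (abs_of_pos hs).le (P.G1_bd (z 0 / s))) (hN _ g2)
  rw [Cr, Cr, add_sub_add_comm]
  refine (norm_add_le _ _).trans ?_
  linarith [norm_sub_le ((e (z 1) * P.G1 (z 0 / e (z 1))) • N (fold P e z))
    ((s * P.G1 (z 0 / s)) • N (fold P (fun _ => s) z))]

/-- away from the crease `u_X` has a sign -/
theorem modc_far (P : Prof) {κ s1 X Y θ δ : ℝ} (hκ : κ = 1 ∨ κ = -1) (hs0 : 0 < s1) (hs1 : s1 ≤ 1)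
    (hX : 0 ≤ X) (Z : Zone s1 X Y) {v : Fin 3 → ℝ} (hv : ‖v - Z.DX κ (P.sn θ) (P.cs θ)‖ ≤ δ) :
    (1 ≤ θ → 9 / 10 - δ ≤ v 2) ∧ (θ ≤ -1 → v 2 ≤ -(9 / 10 - δ)) := by
  have h1 := abs_le.1 ((norm_le_pi_norm _ 2).trans hv)
  have h2 := Z.uX_ge hκ hs0 hs1 hX
  simp only [Zone.DX, Pi.sub_apply, Pi.add_apply, Pi.smul_apply, smul_eq_mul] at h1
  constructor
  · intro h
    rw [(P.pos θ h).1, (P.pos θ h).2.1] at h1
    linarith [h1.1]
  · intro h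
    rw [(P.neg θ h).1, (P.neg θ h).2.1] at h1
    linarith [h1.2]

/-- `|X| ≥ s`: `u_X ≈ ± iX 2` (as in `mod_del1`).  `|X| < s`: the sum is `Cr e` near the point;
`|Y| ≥ 1`: `uY_ge`; `|Y| < 1` and `|sn| ≥ 1/2`: `uX_ge, uN_le`; otherwise `e = ε` near the point,
`m = cs iX - sn iN`, `pX pX (Cr) = (om/ε)(cs pX Φ - sn N) + O(1)`, the other second derivatives
are `O(1)` (bounds of the derivatives of `Φ, N` up to order two on a compact set). -/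
theorem mod_del2 (P : Prof) (χ : Cut) {C0 κ t s1 : ℝ} (hκ : κ = 1 ∨ κ = -1) (ht0 : 0 < t)
    (ht : t ≤ 1 / 100) {Φ N : E2 → Fin 3 → ℝ} (H : HatP C0 κ (t / 100) s1 Φ N) :
    ∀ᶠ s in 𝓝[>] (0 : ℝ), ∀ᶠ ε in 𝓝[>] (0 : ℝ), ∀ z : E2, |z 0| ≤ s1 / 2 → |z 1| ≤ 7 / 2 →
      IIP (P.c / 2) t ε (fun z => Cr P (fun _ => s) Φ N z + Del P χ s1 s Φ N ε z) z := by
  obtain ⟨L₀, hL₀⟩ := H.dN
  have hL : ∀ z : E2, 0 ≤ z 0 → ‖pX N z‖ ≤ max L₀ 1 ∧ ‖pY N z‖ ≤ max L₀ 1 := fun z hz =>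
    ⟨(hL₀ z hz).1.trans (le_max_left _ _), (hL₀ z hz).2.trans (le_max_left _ _)⟩
  have hL1 : 1 ≤ max L₀ 1 := le_max_right _ _
  generalize max L₀ 1 = L at hL hL1
  obtain ⟨R, hR⟩ := modc_second P H.Φ_sm H.N_sm hL
  have hs1 := H.s_pos
  have hχL := χ.L_nonneg
  have hc := P.c_pos
  have ht1 : t / 100 ≤ 1 := by linarith
  filter_upwards [self_mem_nhdsWithin, modc_ev 8 hs1,
    modc_ev (10 * L * (2 * χ.L + 1)) (show 0 < t / 100 by positivity),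
    modc_ev (2 * χ.L * (8 / s1) * 4) (show (0 : ℝ) < 1 / 10 by norm_num)] with s hs hs8 hsL hsχ
  replace hs : 0 < s := hs
  have hs' : s ≤ 1 := by linarith [H.s_le]
  filter_upwards [self_mem_nhdsWithin, modc_ev 1 hs, modc_ev (3 * R) ht0,
    modc_ev (3 * R) (show 0 < P.c / 4 by positivity)] with ε hε hεs hεt hεc z hz0 hz1
  replace hε : 0 < ε := hε
  rw [one_mul] at hεs
  have he := χ.ef_sm s ε
  have he0 := χ.profb_pos hε hεs
  have hes : ∀ y, χ.ef s ε y ≤ s := fun y => (χ.ef_mem hεs y).2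
  have hL' : 1 ≤ 2 * χ.L + 1 := by linarith
  have hconst : ∀ (a y : ℝ), |deriv (fun _ : ℝ => a) y| ≤ (2 * χ.L + 1) * s := fun a y => by
    rw [deriv_const, abs_zero]; positivity
  obtain ⟨Z, z1, z2, -, -⟩ := Cr_zone P he he0 hκ ht1 H hL1 hL hs' hes hL'
    (fun y => (χ.ef_d_bd hε.le hεs y).trans (by nlinarith)) z
  have hf := fold_mem P he0 z
  by_cases hA : |z 0| < s1 / 8
  · -- near the crease the cut-off is one
    have hev : (fun z => Cr P (fun _ => s) Φ N z + Del P χ s1 s Φ N ε z) =ᶠ[𝓝 z]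
        Cr P (χ.ef s ε) Φ N := by
      filter_upwards [(isOpen_lt (Cut.profb_sm 0).cont.abs continuous_const).mem_nhds hA] with w hw
      have h1 : |8 * w 0 / s1| ≤ 1 := by
        replace hw : |w 0| < s1 / 8 := hw
        rw [abs_div, abs_mul, abs_of_pos hs1, div_le_one hs1, abs_of_pos (by norm_num : (0 : ℝ) < 8)]
        linarith
      rw [Del, χ.ev_one h1, one_smul, add_sub_cancel]
    refine modc_IIP_congr hev ?_
    by_cases hY : 1 ≤ |z 1|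
    · refine Or.inr (Or.inl ?_)
      have h1 := abs_le.1 ((norm_le_pi_norm _ 2).trans z2)
      have h2 := Z.uY_ge hκ hs1 H.s_le hf.2.1
      rw [Pi.sub_apply] at h1
      rw [le_abs']
      rcases le_abs'.1 hY with h | h <;> rcases hκ with rfl | rfl
      · left; linarith [h2.2 h, h1.2]
      · right; linarith [h2.2 h, h1.1]
      · right; linarith [h2.1 h, h1.1]
      · left; linarith [h2.1 h, h1.2]
    by_cases hsn : 1 / 2 ≤ |P.sn (z 0 / χ.ef s ε (z 1))|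
    · refine Or.inl ?_
      have h1 := abs_le.1 ((norm_le_pi_norm _ 2).trans z1)
      have h2 := Z.uX_ge hκ hs1 H.s_le hf.2.1
      have h3 := abs_le.1 (Zone.zn_abs_mul (modc_sc P (z 0 / χ.ef s ε (z 1))).2
        (Z.uN_le hκ hs1 H.s_le hf.2.1))
      simp only [Zone.DX, Pi.sub_apply, Pi.add_apply, Pi.smul_apply, smul_eq_mul] at h1
      rw [le_abs']
      rcases le_abs'.1 hsn with h | h
      · left; nlinarith [h1.2, h3.2]
      · right; nlinarith [h1.1, h3.1]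
    rw [not_le] at hY hsn
    have hev2 : Cr P (χ.ef s ε) Φ N =ᶠ[𝓝 z] Cr P (fun _ => ε) Φ N := by
      filter_upwards [(isOpen_lt (Cut.profb_sm 1).cont.abs continuous_const).mem_nhds hY] with w hw
      replace hw : |w 1| < 1 := hw
      have h1 : χ.ef s ε (w 1) = ε := by
        rw [Cut.ef, χ.ev_one (by linarith)]; ring
      simp only [Cr, fold, h1]
    have h1 : χ.ef s ε (z 1) = ε := by
      rw [Cut.ef, χ.ev_one (by linarith)]; ring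
    rw [h1] at hsn
    refine modc_IIP_congr hev2 (Or.inr (Or.inr ?_))
    obtain ⟨W, w1, w2, w3, w4⟩ := Cr_zone P (e := fun _ => ε) contDiff_const (fun _ => hε) hκ ht1 H
      hL1 hL hs' (fun _ => hεs) hL' (hconst ε) z
    have hg := fold_mem P (e := fun _ => ε) (fun _ => hε) z
    have hθ : |z 0 / ε| ≤ 1 := by
      by_contra h
      rcases le_abs'.1 (not_le.1 h).le with h | h
      · rw [(P.neg _ h).1] at hsn; norm_num at hsn
      · rw [(P.pos _ h).1] at hsn; norm_num at hsn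
    obtain ⟨r1, r2, r3, r4⟩ := hR ε hε (by linarith) z hθ hY.le
    obtain ⟨o1, o2, o3, o4, o5, o6⟩ := W.orthonormal hκ hs1 H.s_le hg.2.1
      (by linarith [hg.2.2.1]) (by linarith)
    have hom := P.om_ge _ hsn.le
    have hsq := P.sq (z 0 / ε)
    have hcs := (modc_sc P (z 0 / ε)).2
    rw [w4] at r1
    generalize P.sn (z 0 / ε) = sn at *
    generalize P.cs (z 0 / ε) = cs at *
    generalize P.om (z 0 / ε) = om at *
    have o5' : W.iN κ ⬝ᵥ W.iX κ = 0 := by rw [dotProduct_comm, o5]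
    have o6' : W.iN κ ⬝ᵥ W.iY κ = 0 := by rw [dotProduct_comm, o6]
    have m1 : (cs • W.iX κ - sn • W.iN κ) ⬝ᵥ (cs • W.iX κ - sn • W.iN κ) = 1 := by
      simp only [sub_dotProduct, dotProduct_sub, smul_dotProduct, dotProduct_smul, o1, o3, o5, o5',
        smul_eq_mul]
      linarith
    have m2 : (cs • W.iX κ - sn • W.iN κ) ⬝ᵥ W.DX κ sn cs = 0 := by
      simp only [Zone.DX, sub_dotProduct, dotProduct_add, smul_dotProduct, dotProduct_smul, o1, o3,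
        o5, o5', smul_eq_mul]
      ring
    have m3 : (cs • W.iX κ - sn • W.iN κ) ⬝ᵥ W.iY κ = 0 := by
      simp only [sub_dotProduct, smul_dotProduct, o4, o6', smul_eq_mul]
      ring
    have hRε : 3 * R ≤ t / ε := by rwa [le_div_iff₀ hε]
    refine ⟨cs • W.iX κ - sn • W.iN κ, m1.le, ?_, ?_, ?_, ?_, ?_, ?_⟩
    · have h2 := modc_dot (v := pX (Cr P (fun _ => ε) Φ N) z - W.DX κ sn cs) m1.le
      rw [dotProduct_sub, m2, sub_zero] at h2
      linarith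
    · have h2 := modc_dot (v := pY (Cr P (fun _ => ε) Φ N) z - W.iY κ) m1.le
      rw [dotProduct_sub, m3, sub_zero] at h2
      linarith
    · have h2 := (modc_dot m1.le).trans (mul_le_mul_of_nonneg_left r1 (by norm_num))
      have h3 := (modc_dot m1.le).trans (mul_le_mul_of_nonneg_left (modc_smul_le hcs w3) (by norm_num))
      have e : cs • pX Φ (fold P (fun _ => ε) z) - sn • W.iN κ = (cs • W.iX κ - sn • W.iN κ) +
          cs • (pX Φ (fold P (fun _ => ε) z) - W.iX κ) := by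
        rw [smul_sub]; abel
      rw [e, dotProduct_sub, dotProduct_smul, dotProduct_add, m1, smul_eq_mul] at h2
      have h4 : 3 * R ≤ P.c / ε / 4 := by
        rw [div_right_comm, le_div_iff₀ hε]; exact hεc
      have h5 : P.c / ε ≤ om / ε := div_le_div_of_nonneg_right hom hε.le
      have h6 : 0 < P.c / ε := by positivity
      rw [div_right_comm]
      refine le_trans ?_ (le_abs_self _)
      nlinarith [(abs_le.1 h2).1, (abs_le.1 h3).1]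
    · linarith [modc_dot (v := pX (pY (Cr P (fun _ => ε) Φ N)) z) m1.le]
    · linarith [modc_dot (v := pY (pX (Cr P (fun _ => ε) Φ N)) z) m1.le]
    · linarith [modc_dot (v := pY (pY (Cr P (fun _ => ε) Φ N)) z) m1.le]
  · -- away from the crease
    refine Or.inl ?_
    rw [not_lt] at hA
    obtain ⟨W, w1, -, -, -⟩ := Cr_zone P (e := fun _ => s) contDiff_const (fun _ => hs) hκ ht1 H
      hL1 hL hs' (fun _ => le_rfl) hL' (hconst s) z
    have hg := fold_mem P (e := fun _ => s) (fun _ => hs) z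
    have c1 := Cr_sm P he he0 H.Φ_sm H.N_sm
    have c2 := Cr_sm P (e := fun _ => s) contDiff_const (fun _ => hs) H.Φ_sm H.N_sm
    have hφ : ContDiff ℝ ∞ fun x => χ.ev 1 (8 * x / s1) :=
      (χ.ev_sm 1).comp ((contDiff_const.mul contDiff_id).div_const s1)
    have hφ' : HasDerivAt (fun x => χ.ev 1 (8 * x / s1)) (deriv (χ.ev 1) (8 * z 0 / s1) * (8 / s1))
        (z 0) := by
      have h1 : HasDerivAt (fun x : ℝ => 8 * x / s1) (8 / s1) (z 0) := by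
        simpa using ((hasDerivAt_id (z 0)).const_mul 8).div_const s1
      exact (Cut.profb_diff (χ.ev_sm 1) _).hasDerivAt.comp (z 0) h1
    have hφs := (Cut.profb_sm 0).comp' hφ
    have e : pX (fun z => Cr P (fun _ => s) Φ N z + Del P χ s1 s Φ N ε z) z =
        pX (Cr P (fun _ => s) Φ N) z + (χ.ev 1 (8 * z 0 / s1) •
          (pX (Cr P (χ.ef s ε) Φ N) z - pX (Cr P (fun _ => s) Φ N) z) +
          (deriv (χ.ev 1) (8 * z 0 / s1) * (8 / s1)) •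
            (Cr P (χ.ef s ε) Φ N z - Cr P (fun _ => s) Φ N z)) := by
      change dd _ z _ = _
      unfold Del
      rw [dd_add (c2.df z) ((hφs.smul' (c1.sub' c2)).df z), dd_smul (hφs.df z) ((c1.sub' c2).df z),
        dd_sub (c1.df z) (c2.df z),
        dd_comp_deriv (Φ := fun x => χ.ev 1 (8 * x / s1)) (f := fun z : E2 => z 0) hφ'
          ((Cut.profb_sm 0).df z), Cut.profb_dd]
      simp [V0, Zv]
    have b1 : |deriv (χ.ev 1) (8 * z 0 / s1) * (8 / s1)| ≤ 2 * χ.L * (8 / s1) :=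
      Zone.zn_abs_mul (χ.ev_d_bd _ _) (abs_of_pos (by positivity)).le
    have b2 := abs_le.1 ((norm_le_pi_norm _ 2).trans
      (modc_smul_le b1 (modc_close P hκ ht1 H he0 hes z)))
    have u1 := modc_far P hκ hs1 H.s_le hf.2.1 Z z1
    have u2 := modc_far P hκ hs1 H.s_le hg.2.1 W w1
    have p0 := χ.ev_nonneg 1 (8 * z 0 / s1)
    have p1 := χ.ev_le_one 1 (8 * z 0 / s1)
    rw [e, Pi.add_apply, Pi.add_apply, Pi.smul_apply, Pi.sub_apply, smul_eq_mul, le_abs']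
    rcases le_abs'.1 hA with h | h
    · left
      have v1 := u1.2 (by rw [div_le_iff₀ (he0 _)]; linarith [hes (z 1)])
      have v2 := u2.2 (by rw [div_le_iff₀ hs]; linarith)
      nlinarith [b2.2]
    · right
      have v1 := u1.1 (by rw [le_div_iff₀ (he0 _)]; linarith [hes (z 1)])
      have v2 := u2.1 (by rw [le_div_iff₀ hs]; linarith)
      nlinarith [b2.1]

theorem modd_T2 (P : Prof) (χ : Cut) (u : Fin 2) : MC mdF Prod.snd fun t z =>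
    mdW χ t.1.1.s1 z • Zv (V0 u) (Cr P (fun _ => t.1.2) t.1.1.Φ t.1.1.N) z := by
  refine mdF_semi (1 * 4) fun d => ?_
  obtain ⟨L, hL⟩ := d.H.dN
  filter_upwards [mdd_ev, modb_small (10 * max L 1 * 1) one_pos] with s hs hsL
  have hB := Cr_sm P (e := fun _ => s) contDiff_const (fun _ => hs.1.1) d.H.Φ_sm d.H.N_sm
  refine ⟨MSlow.fixed (mdd_ctx (s := fun _ => s) hs.2) ((mdW_sm χ _).smul' (hB.zv (smV_V0 u)))
    fun z hz => by rw [mdW_zero χ d.H.s_pos d.H.s_le z hz, zero_smul],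
    Eventually.of_forall fun e z => modb_smul (mdW_le χ _ _) ?_⟩
  obtain ⟨Z, z1, z2, -⟩ := Cr_zone P (e := fun _ => s) contDiff_const (fun _ => hs.1.1) d.hκ d.ht d.H
    (le_max_right L 1)
    (fun z hz => ⟨(hL z hz).1.trans (le_max_left _ _), (hL z hz).2.trans (le_max_left _ _)⟩)
    hs.1.2 (fun _ => le_rfl) le_rfl (fun y => by simpa using hs.1.1.le) z
  have f2 := (fold_mem P (e := fun _ => s) (fun _ => hs.1.1) z).2.1
  have h3 := moda_DX Z d.hκ d.H.s_pos d.H.s_le f2 (P.sq (z 0 / s))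
  have h4 := (Z.norm_le d.hκ d.H.s_pos d.H.s_le f2).2.1
  have := d.ht
  revert u
  rw [Fin.forall_fin_two]
  exact ⟨(norm_le_norm_add_norm_sub' _ _).trans ((add_le_add h3 z1).trans (by linarith)),
    (norm_le_norm_add_norm_sub' _ _).trans ((add_le_add h4 z2).trans (by linarith))⟩

theorem modd_T3 (P : Prof) (χ : Cut) (u : Fin 2) : MC mdF Prod.snd fun t z =>
    Zv (V0 u) (mdW χ t.1.1.s1) z •
      (Cr P (χ.ef t.1.2 t.2) t.1.1.Φ t.1.1.N z - Cr P (fun _ => t.1.2) t.1.1.Φ t.1.1.N z) := by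
  refine mdF_semi 1 fun d => ?_
  have hg := (mdW_sm χ d.s1).zv (smV_V0 u)
  have hK := mdK_zv (mdW_zero χ d.H.s_pos d.H.s_le) u
  obtain ⟨M, hM⟩ := hg.cont.bounded_above_of_compact_support (mdK_supp hK)
  have hM0 : 0 ≤ M := (norm_nonneg _).trans (hM 0)
  have hχ := χ.L_nonneg
  filter_upwards [mdd_ev, modb_close P d.H.Φ_sm d.H.N_sm (L := 2 * χ.L) (η := 1 / (M + 1))
    (by positivity) (by positivity)] with s hs hcl
  have hB := Cr_sm P (e := fun _ => s) contDiff_const (fun _ => hs.1.1) d.H.Φ_sm d.H.N_sm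
  have H := mdd_ctx (s := fun _ => s) hs.2
  refine ⟨MSlow.congr H (MSlow.sub H (mdd_slow_Cr P χ (s := fun _ => s) hs.2 hg hK d.H.Φ_sm d.H.N_sm)
    (MSlow.fixed H (hg.smul' hB) fun z hz => by rw [hK z hz, zero_smul]))
    (Eventually.of_forall fun e => funext fun z => (smul_sub _ _ _).symm),
    hs.2.mono fun e he z => ?_⟩
  by_cases hz : z ∈ mdK
  · refine (modb_smul (hM z) (hcl _ (χ.ef_sm s e) (χ.profb_pos he.1 he.2.1)
      (fun y => (χ.ef_mem he.2.1 y).2) (χ.ef_d_bd he.1.le he.2.1) z hz.1 hz.2).1).trans ?_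
    rw [mul_one_div, div_le_one (by positivity)]
    linarith
  · rw [hK z hz, zero_smul, norm_zero]
    exact zero_le_one

theorem modd_main (P : Prof) (χ : Cut) (u : Fin 2) : MC mdF Prod.snd fun t =>
    Zv (V0 u) (Del P χ t.1.1.s1 t.1.2 t.1.1.Φ t.1.1.N t.2) := by
  have H := mdd_ctx mdF_ev
  refine Cl.congr H (Cl.add H (Cl.sub H (mdd_T1 P χ u) (modd_T2 P χ u)) (modd_T3 P χ u))
    (mdF_ev.mono fun t ht => ?_)
  obtain ⟨⟨d, s⟩, e⟩ := t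
  have hA := Cr_sm P (χ.ef_sm s e) (χ.profb_pos ht.1 ht.2.1) d.H.Φ_sm d.H.N_sm
  have hB := Cr_sm P (e := fun _ => s) contDiff_const (fun _ => ht.1.trans_le ht.2.1) d.H.Φ_sm d.H.N_sm
  have e1 : Del P χ d.s1 s d.Φ d.N e =
      fun z => mdW χ d.s1 z • (Cr P (χ.ef s e) d.Φ d.N z - Cr P (fun _ => s) d.Φ d.N z) := by
    funext z
    rcases le_total |z 1| 3 with h | h
    · rw [mdW, χ.ev_one h, mul_one, Del]
    · have h1 : χ.ef s e (z 1) = s := by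
        rw [Cut.ef, χ.ev_zero (by linarith)]
        ring
      simp only [Del, Cr, fold, h1, sub_self, smul_zero]
  simp only [e1]
  rw [mdd_zv_smul (mdW_sm χ _) (hA.sub' hB)]
  funext z
  rw [show Zv (V0 u) (fun z => Cr P (χ.ef s e) d.Φ d.N z - Cr P (fun _ => s) d.Φ d.N z) z = _ from
    dd_sub (hA.df z) (hB.df z) _, smul_sub (mdW χ d.s1 z)]
  rfl

/-- Uniform bounds at scale `ε`.  `Δ` only sees `Φ, N` on a compact set: multiply by cut-offs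
(`ev 1 (8X/s1)`, `ev 3 Y`, or replace `Φ, N` by compactly supported functions).  By `pX_Cr, pY_Cr` the
derivatives of `Δ` are sums of products of functions `Θ(X/e)` (`Cut.bd_scaled`, constants depending
only on `P, χ, k`) with functions whose `sup` is bounded by an absolute constant (for `s` small) and
whose derivatives are `O(1)` at scale `ε` with non-uniform constants (`bd_pull` with `l' = 1`,
`Bd.of_hasCompactSupport`), hence `≤ 1/ε` for small `ε`. -/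
theorem mod_del3 (P : Prof) (χ : Cut) (k : ℕ) : ∃ C : ℝ, ∀ (C0 κ t s1 : ℝ) (Φ N : E2 → Fin 3 → ℝ),
    κ = 1 ∨ κ = -1 → t ≤ 1 → HatP C0 κ t s1 Φ N → ∀ᶠ s in 𝓝[>] (0 : ℝ), ∀ᶠ ε in 𝓝[>] (0 : ℝ),
      ∀ u, Bd V0 k ε⁻¹ (Zv (V0 u) (Del P χ s1 s Φ N ε)) C := by
  choose c hc using fun u => (modd_main P χ u).2 k
  obtain ⟨C, -, -, hC⟩ := cll_bound c 0
  refine ⟨C, fun C0 κ t s1 Φ N hκ ht H => ?_⟩
  refine (mdF_iff.1 (mdF_ev.and (eventually_all.2 hc)) ⟨C0, κ, t, s1, Φ, N, hκ, ht, H⟩).mono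
    fun s hs => hs.mono fun e he u => (he.2 u).mono (inv_nonneg.2 he.1.1.le) ?_
  rw [mul_one]
  exact hC u

/-- the model (assembly; for the bounds only finitely many orders `k ≤ K` are needed) -/
theorem exists_mod (K : ℕ) : ∃ c C1 CK : ℝ, 0 < c ∧ 1 ≤ C1 ∧ ∀ κ : ℝ, κ = 1 ∨ κ = -1 → ∀ t > 0,
    t ≤ 1 / 100 → ∃ (s1 : ℝ) (Ψ : E2 → Fin 3 → ℝ) (Δ : ℝ → E2 → Fin 3 → ℝ), 0 < s1 ∧ s1 ≤ 1 ∧
      SlowP C1 κ t s1 Ψ ∧ ∀ᶠ ε in 𝓝[>] (0 : ℝ), DelP t s1 Ψ (Δ ε) ∧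
        (∀ z : E2, |z 0| ≤ s1 / 2 → |z 1| ≤ 7 / 2 → IIP c t ε (fun z => Ψ z + Δ ε z) z) ∧
        ∀ u, Bd V0 K ε⁻¹ (Zv (V0 u) (Δ ε)) CK := by
  obtain ⟨P⟩ := exists_prof
  obtain ⟨χ⟩ := exists_cut
  obtain ⟨C0, hC, hH⟩ := exists_hat
  obtain ⟨CK, hK⟩ := mod_del3 P χ K
  refine ⟨P.c / 2, C0 + 1, CK, half_pos P.c_pos, by linarith, fun κ hκ t ht0 ht => ?_⟩
  obtain ⟨s1, Φ, N, H⟩ := hH κ hκ (t / 100) (by positivity)
  obtain ⟨s, ⟨⟨⟨h1, h2⟩, h3⟩, h4⟩, hs⟩ := (((((mod_slow P hC hκ ht0 ht H).and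
    (mod_del1 P χ hκ ht0 ht H)).and (mod_del2 P χ hκ ht0 ht H)).and
    (hK C0 κ (t / 100) s1 Φ N hκ (by linarith) H)).and self_mem_nhdsWithin).exists
  refine ⟨s1, _, Del P χ s1 s Φ N, H.s_pos, H.s_le, h1, ?_⟩
  filter_upwards [h3, h4, Ioc_mem_nhdsGT (show (0 : ℝ) < s from hs)] with ε k3 k4 hε
  exact ⟨h2 ε hε.1 hε.2, k3, k4⟩

end Crest.Agent.R216
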