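import Crest.Agent.R216.PModAux
/-! # R216: the plane model at the physical scale, added to the quadratic normal form -/

set_option autoImplicit false
open scoped Manifold ContDiff Topology Matrix
open Set Filter

namespace Crest.Agent.R216

/-- the quadratic normal form as third component -/
def qf (η κ l1 l2 : ℝ) (z : E2) : Fin 3 → ℝ := ![0, 0, η * (l1 * z 0 ^ 2 + κ * (l2 * z 1 ^ 2))]

/-- physical form of `IIP` (amplitude `a`) -/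
def IIQ (a B t ε : ℝ) (Ψ : E2 → Fin 3 → ℝ) (z : E2) : Prop :=
  B⁻¹ ≤ |pX Ψ z 2| ∨ B⁻¹ ≤ |pY Ψ z 2| ∨
    ∃ m : Fin 3 → ℝ, m ⬝ᵥ m ≤ 1 ∧ |m ⬝ᵥ sc a (pX Ψ z)| ≤ t ∧ |m ⬝ᵥ sc a (pY Ψ z)| ≤ t ∧
      B⁻¹ / ε ≤ |m ⬝ᵥ sc a (pX (pX Ψ) z)| ∧ |m ⬝ᵥ sc a (pX (pY Ψ) z)| ≤ t / ε ∧
      |m ⬝ᵥ sc a (pY (pX Ψ) z)| ≤ t / ε ∧ |m ⬝ᵥ sc a (pY (pY Ψ) z)| ≤ t / ε

/-- `Θ` is the perturbation, `Ψ = Θ + qf`; `Q0 = {|x| ≤ a/2, |y| ≤ 7b/2}`, `Q1 = {|x| < a, |y| < 4b}` -/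
structure PModP (η κ σ l1 l2 y1 y2 R0 k B CK : ℝ) (K : ℕ) (t r η' a b : ℝ)
    (Θ : E2 → Fin 3 → ℝ) (Δ : ℝ → E2 → Fin 3 → ℝ) : Prop where
  a_pos : 0 < a
  b_pos : 0 < b
  a_le : a ≤ r
  b_le : 4 * b ≤ r
  sm : Sm Θ
  supp : ∀ z : E2, 2 * R0 ≤ |z 0| ∨ 2 * R0 ≤ |z 1| → Θ z = 0
  suppW : ∀ z : E2, r / 2 ≤ |z 0| ∨ r / 2 ≤ |z 1| → Θ z 0 = 0 ∧ Θ z 1 = 0
  bdW : ∀ z, |Θ z 0| ≤ 1 ∧ |Θ z 1| ≤ 1
  iso : ∀ z : E2, |z 0| ≤ a → |z 1| ≤ 4 * b →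
    AIso (sc k⁻¹ (pX (fun z => Θ z + qf η κ l1 l2 z) z))
      (sc k⁻¹ (pY (fun z => Θ z + qf η κ l1 l2 z) z)) t
  kpt : ∀ z : E2, |z 0| ≤ r → |z 1| ≤ r → a / 2 < |z 0| ∨ 7 * b / 2 < |z 1| →
    PKPt (pX (fun z => Θ z + qf η κ l1 l2 z) z) (pY (fun z => Θ z + qf η κ l1 l2 z) z) B t
  up : ∀ z : E2, |z 0| ≤ 3 * R0 → |z 1| ≤ 3 * R0 →
    |pX (fun z => Θ z + qf η κ l1 l2 z) z 2| ≤ B ∧ |pY (fun z => Θ z + qf η κ l1 l2 z) z 2| ≤ B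
  low : ∀ z : E2, |z 0| ≤ 3 * R0 → |z 1| ≤ 3 * R0 → a / 2 < |z 0| ∨ 7 * b / 2 < |z 1| →
    B⁻¹ ≤ |pX (fun z => Θ z + qf η κ l1 l2 z) z 2| ∨ B⁻¹ ≤ |pY (fun z => Θ z + qf η κ l1 l2 z) z 2|
  inj : ∀ z : E2, |z 0| ≤ 3 * R0 → |z 1| ≤ 3 * R0 → ∀ α β : ℝ,
    α * pX Θ z 0 + β * pY Θ z 0 + η' * (y1 * α) = 0 →
    α * pX Θ z 1 + β * pY Θ z 1 + η' * (σ * (y2 * β)) = 0 →
    α * pX (fun z => Θ z + qf η κ l1 l2 z) z 2 + β * pY (fun z => Θ z + qf η κ l1 l2 z) z 2 = 0 →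
    α = 0 ∧ β = 0
  del : ∀ᶠ ε in 𝓝[>] (0 : ℝ), Sm (Δ ε) ∧ (∀ z : E2, a / 4 ≤ |z 0| ∨ 3 * b ≤ |z 1| → Δ ε z = 0) ∧
    (∀ z, ‖Δ ε z‖ ≤ 1) ∧ (∀ u, Bd V0 K ε⁻¹ (Zv (V0 u) (Δ ε)) CK) ∧
    ∀ z : E2, |z 0| ≤ a / 2 → |z 1| ≤ 7 * b / 2 →
      AIso (sc k⁻¹ (pX (fun z => Θ z + qf η κ l1 l2 z + Δ ε z) z))
        (sc k⁻¹ (pY (fun z => Θ z + qf η κ l1 l2 z + Δ ε z) z)) t ∧
      IIQ k⁻¹ B t ε (fun z => Θ z + qf η κ l1 l2 z + Δ ε z) z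

/-- the cut-off -/
noncomputable def pmz (χ : Cut) (R0 : ℝ) (z : E2) : ℝ :=
  χ.ev 3 (2 / R0 * z 0) * χ.ev 3 (2 / R0 * z 1)

theorem pmz_sm1 (χ : Cut) (R0 : ℝ) (i : Fin 2) : Sm fun z : E2 => χ.ev 3 (2 / R0 * z i) :=
  ((sm_const _).mul' (pm_coord_sm i)).comp' (χ.ev_sm 3)

theorem pmz_sm (χ : Cut) (R0 : ℝ) : Sm (pmz χ R0) := (pmz_sm1 χ R0 0).mul' (pmz_sm1 χ R0 1)

theorem pmz_mem (χ : Cut) (R0 : ℝ) (z : E2) : 0 ≤ pmz χ R0 z ∧ pmz χ R0 z ≤ 1 :=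
  ⟨mul_nonneg (χ.ev_nonneg _ _) (χ.ev_nonneg _ _),
    mul_le_one₀ (χ.ev_le_one _ _) (χ.ev_nonneg _ _) (χ.ev_le_one _ _)⟩

theorem pmz_zero (χ : Cut) {R0 : ℝ} (hR : 0 < R0) {z : E2} (h : 2 * R0 ≤ |z 0| ∨ 2 * R0 ≤ |z 1|) :
    pmz χ R0 z = 0 := by
  have key : ∀ x : ℝ, 2 * R0 ≤ |x| → χ.ev 3 (2 / R0 * x) = 0 := fun x hx => by
    refine χ.ev_zero ?_
    rw [abs_mul, abs_of_pos (by positivity : 0 < 2 / R0), div_mul_eq_mul_div, le_div_iff₀ hR]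
    linarith
  rcases h with h | h <;> simp [pmz, key _ h]

theorem pmz_one (χ : Cut) {R0 : ℝ} (hR : 0 < R0) {z : E2} (h0 : |z 0| ≤ R0) (h1 : |z 1| ≤ R0) :
    ∀ᶠ y in 𝓝 z, pmz χ R0 y = 1 := by
  have key : ∀ x : ℝ, |x| < 3 / 2 * R0 → χ.ev 3 (2 / R0 * x) = 1 := fun x hx => by
    refine χ.ev_one ?_
    rw [abs_mul, abs_of_pos (by positivity : 0 < 2 / R0), div_mul_eq_mul_div, div_le_iff₀ hR]
    linarith
  have hc : ∀ i : Fin 2, |z i| ≤ R0 → ∀ᶠ y : E2 in 𝓝 z, |y i| < 3 / 2 * R0 := fun i hi =>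
    ((pm_coord_sm i).cont.abs.continuousAt (x := z)).eventually_lt continuousAt_const (by linarith)
  filter_upwards [hc 0 h0, hc 1 h1] with y e0 e1
  simp [pmz, key _ e0, key _ e1]

theorem pmz_d (χ : Cut) {R0 : ℝ} (hR : 0 < R0) (u : Fin 2) (z : E2) :
    |Zv (V0 u) (pmz χ R0) z| ≤ 8 * χ.L / R0 := by
  have hL := χ.L_nonneg
  have key : ∀ i : Fin 2, |Zv (V0 u) (fun z : E2 => χ.ev 3 (2 / R0 * z i)) z| ≤ 4 * χ.L / R0 := by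
    intro i
    have h1 := dd_comp_deriv (f := fun z : E2 => 2 / R0 * z i) (p := z)
      (Cut.profb_diff (χ.ev_sm 3) _).hasDerivAt (((sm_const _).mul' (pm_coord_sm i)).df z) (V0 u z)
    have h2 := pm_zv_coord (2 / R0) i u z
    rw [Zv] at h2
    rw [Zv, h1, h2, smul_eq_mul, abs_mul]
    have h3 : |if i = u then 2 / R0 else 0| ≤ 2 / R0 := by
      split_ifs
      · exact (abs_of_pos (by positivity)).le
      · simp; positivity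
    calc _ ≤ 2 / R0 * (2 * χ.L) := mul_le_mul h3 (χ.ev_d_bd _ _) (abs_nonneg _) (by positivity)
      _ = _ := by ring
  have h := dd_mul ((pmz_sm1 χ R0 0).df z) ((pmz_sm1 χ R0 1).df z) (V0 u z)
  have k0 := key 0
  have k1 := key 1
  rw [Zv] at k0 k1 ⊢
  unfold pmz
  rw [h]
  refine (abs_add_le _ _).trans ?_
  rw [abs_mul, abs_mul, abs_of_nonneg (χ.ev_nonneg _ _), abs_of_nonneg (χ.ev_nonneg _ _)]
  have e1 := mul_le_mul (χ.ev_le_one 3 (2 / R0 * z 0)) k1 (abs_nonneg _) zero_le_one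
  have e2 := mul_le_mul k0 (χ.ev_le_one 3 (2 / R0 * z 1)) (χ.ev_nonneg _ _) (by positivity)
  calc _ ≤ 1 * (4 * χ.L / R0) + 4 * χ.L / R0 * 1 := add_le_add e1 e2
    _ = _ := by ring

noncomputable def pmR (χ : Cut) (R0 k ρ : ℝ) (Ψ : E2 → Fin 3 → ℝ) (z : E2) : ℝ :=
  k * ((pmz χ R0 z - 1) * (ρ * Ψ (ρ⁻¹ • z) 2))

theorem pmR_sm1 (ρ : ℝ) {Ψ : E2 → Fin 3 → ℝ} (hΨ : Sm Ψ) : Sm fun z : E2 => ρ * Ψ (ρ⁻¹ • z) 2 :=
  (sm_const _).mul' (sm_pi.1 (pm_dil_sm ρ⁻¹ hΨ) 2)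

theorem pmR_sm (χ : Cut) (R0 k ρ : ℝ) {Ψ : E2 → Fin 3 → ℝ} (hΨ : Sm Ψ) : Sm (pmR χ R0 k ρ Ψ) :=
  (sm_const _).mul' (((pmz_sm χ R0).sub' (sm_const 1)).mul' (pmR_sm1 ρ hΨ))

theorem pmR_germ (χ : Cut) {R0 : ℝ} (hR : 0 < R0) (k ρ : ℝ) (Ψ : E2 → Fin 3 → ℝ) {z : E2}
    (h0 : |z 0| ≤ R0) (h1 : |z 1| ≤ R0) : pmR χ R0 k ρ Ψ =ᶠ[𝓝 z] fun _ => 0 := by
  filter_upwards [pmz_one χ hR h0 h1] with y hy
  simp [pmR, hy]

theorem pm_abs_dil {ρ : ℝ} (hρ : 0 < ρ) (z : E2) (i : Fin 2) : |(ρ⁻¹ • z) i| = |z i| / ρ := by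
  rw [PiLp.smul_apply, smul_eq_mul, abs_mul, abs_of_pos (inv_pos.2 hρ), inv_mul_eq_div]

theorem pmR_d (χ : Cut) {R0 k ρ C1 κ t s1 : ℝ} (hR : 0 < R0) (hk : 0 ≤ k) (hρ : 0 < ρ) (hρ1 : ρ ≤ 1)
    (hC : 0 ≤ C1) {Ψ : E2 → Fin 3 → ℝ} (H : SlowP C1 κ t s1 Ψ) (u : Fin 2) {z : E2}
    (h0 : |z 0| ≤ 3 * R0) (h1 : |z 1| ≤ 3 * R0) :
    |Zv (V0 u) (pmR χ R0 k ρ Ψ) z| ≤ k * (3 + 8 * χ.L / R0 * (C1 * (1 + 6 * R0))) := by
  have hL := χ.L_nonneg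
  have s1 := (pmz_sm χ R0).sub' (sm_const 1)
  have s2 := pmR_sm1 ρ H.sm
  have e1 := dd_const_smul k ((s1.mul' s2).df z) (V0 u z)
  have e2 := dd_mul (s1.df z) (s2.df z) (V0 u z)
  have e3 := dd_sub ((pmz_sm χ R0).df z) ((sm_const (1 : ℝ)).df z) (V0 u z)
  have e4 := dd_const_smul ρ ((sm_pi.1 (pm_dil_sm ρ⁻¹ H.sm) 2).df z) (V0 u z)
  have e5 := dd_apply ((pm_dil_sm ρ⁻¹ H.sm).df z) (V0 u z) 2
  have e6 := congrFun (pm_dil_zv ρ⁻¹ H.sm u) z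
  rw [Zv] at e6
  rw [dd_const] at e3
  simp only [smul_eq_mul] at e1 e4
  rw [← e5, e6, Pi.smul_apply, smul_eq_mul, mul_inv_cancel_left₀ hρ.ne'] at e4
  rw [e2, e3, e4] at e1
  unfold pmR
  rw [Zv, e1, abs_mul, abs_of_nonneg hk]
  refine mul_le_mul_of_nonneg_left ((abs_add_le _ _).trans (add_le_add ?_ ?_)) hk
  · have b1 : |pmz χ R0 z - 1| ≤ 1 := by
      have := pmz_mem χ R0 z
      rw [abs_le]; constructor <;> linarith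
    have b2 : |Zv (V0 u) Ψ (ρ⁻¹ • z) 2| ≤ 3 := by
      refine (norm_le_pi_norm (Zv (V0 u) Ψ (ρ⁻¹ • z)) 2).trans ?_
      fin_cases u
      · exact (H.d_bd _).1
      · exact (H.d_bd _).2
    rw [abs_mul]
    nlinarith [abs_nonneg (pmz χ R0 z - 1), abs_nonneg (Zv (V0 u) Ψ (ρ⁻¹ • z) 2)]
  · have b1 := pmz_d χ hR u z
    rw [Zv] at b1
    have b2 := (H.bd (ρ⁻¹ • z)).2.2
    rw [pm_abs_dil hρ, pm_abs_dil hρ] at b2
    have b3 : |ρ * Ψ (ρ⁻¹ • z) 2| ≤ C1 * (1 + 6 * R0) := by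
      rw [abs_mul, abs_of_pos hρ]
      calc _ ≤ ρ * (C1 * (1 + |z 0| / ρ + |z 1| / ρ)) := mul_le_mul_of_nonneg_left b2 hρ.le
        _ = C1 * (ρ + |z 0| + |z 1|) := by field_simp
        _ ≤ _ := mul_le_mul_of_nonneg_left (by linarith) hC
    rw [zero_apply, sub_zero, abs_mul]
    exact mul_le_mul b1 b3 (abs_nonneg _) (by positivity)

theorem SlowP.dW_zero {C1 κ t s1 : ℝ} {Ψ : E2 → Fin 3 → ℝ} (H : SlowP C1 κ t s1 Ψ) {z : E2}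
    (h : C1 < |z 0| ∨ C1 < |z 1|) (u : Fin 2) : Zv (V0 u) Ψ z 0 = 0 ∧ Zv (V0 u) Ψ z 1 = 0 := by
  have hc : ∀ i : Fin 2, C1 < |z i| → ∀ᶠ y : E2 in 𝓝 z, C1 < |y i| := fun i hi =>
    continuousAt_const.eventually_lt ((pm_coord_sm i).cont.abs.continuousAt (x := z)) hi
  have he : ∀ᶠ y : E2 in 𝓝 z, Ψ y 0 = 0 ∧ Ψ y 1 = 0 := by
    rcases h with h | h
    · filter_upwards [hc 0 h] with y hy using H.supp y (Or.inl hy.le)
    · filter_upwards [hc 1 h] with y hy using H.supp y (Or.inr hy.le)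
  constructor
  · rw [Zv, dd_apply (H.sm.df z)]
    exact (pm_zv_germ (he.mono fun y hy => hy.1) u).eq_of_nhds
  · rw [Zv, dd_apply (H.sm.df z)]
    exact (pm_zv_germ (he.mono fun y hy => hy.2) u).eq_of_nhds

theorem pm_add_qf (σ η κ k ρ l1 l2 : ℝ) (f : E2 → Fin 3 → ℝ) (q : E2 → ℝ) :
    (fun z => pmH σ η k ρ f q z + qf η κ l1 l2 z) =
      pmH σ η k ρ f fun z => q z + pmq κ l1 l2 z := by
  funext z i
  fin_cases i <;> simp [pmH, pmV, qf, pmq]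
  ring

theorem pm_add_del (σ η k ρ : ℝ) (f g : E2 → Fin 3 → ℝ) (q : E2 → ℝ) :
    (fun z => pmH σ η k ρ (fun z => ρ • f z) q z + pmH σ η k ρ (fun z => ρ • g z) (fun _ => 0) z) =
      pmH σ η k ρ (fun z => ρ • (f z + g z)) q := by
  funext z i
  fin_cases i <;> simp [pmH, pmV] <;> ring

section der
variable (σ η κ k l1 l2 : ℝ) {ρ : ℝ} (hρ : ρ ≠ 0) {Ψ : E2 → Fin 3 → ℝ} {R : E2 → ℝ} (hΨ : Sm Ψ)
  (hR : Sm R)
include hρ hΨ hR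

theorem pm_pX : pX (pmH σ η k ρ (fun z => ρ • Ψ z) fun z => R z + pmq κ l1 l2 z) =
    pmH σ η k ρ (pX Ψ) fun z => pX R z + 2 * l1 * z 0 := by
  rw [pX, pmH_zv' σ η k hρ hΨ (hR.add' (pmq_sm κ l1 l2)), pm_zv_add hR (pmq_sm κ l1 l2)]
  have := pmq_pX κ l1 l2
  rw [pX] at this
  rw [this]

theorem pm_pY : pY (pmH σ η k ρ (fun z => ρ • Ψ z) fun z => R z + pmq κ l1 l2 z) =
    pmH σ η k ρ (pY Ψ) fun z => pY R z + κ * (2 * l2) * z 1 := by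
  rw [pY, pmH_zv' σ η k hρ hΨ (hR.add' (pmq_sm κ l1 l2)), pm_zv_add hR (pmq_sm κ l1 l2)]
  have := pmq_pY κ l1 l2
  rw [pY] at this
  rw [this]

omit hρ in
theorem pm_d2 {z : E2} (h : R =ᶠ[𝓝 z] fun _ => 0) (c : ℝ) (i u v : Fin 2) :
    Zv (V0 u) (pmH σ η k ρ (Zv (V0 v) Ψ) fun z => Zv (V0 v) R z + c * z i) z =
      pmV σ η k (ρ⁻¹ • Zv (V0 u) (Zv (V0 v) Ψ) (ρ⁻¹ • z)) (if i = u then c else 0) := by
  have s1 := hR.zv (smV_V0 v)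
  have s2 : Sm fun z : E2 => c * z i := (sm_const _).mul' (pm_coord_sm i)
  rw [pmH_zv σ η k ρ (hΨ.zv (smV_V0 v)) (s1.add' s2), pm_zv_add s1 s2]
  simp only [pmH]
  rw [pm_zv_coord, (pm_zv_germ (pm_zv_germ h v) u).eq_of_nhds, zero_add]

end der

/-- the sharpened model in physical units, at a point of the small box -/
theorem pm_II {σ η κ k l1 l2 ρ c B t t' δ ε : ℝ} (hσ : σ = 1 ∨ σ = -1) (hη : η = 1 ∨ η = -1)
    (hκ : κ = 1 ∨ κ = -1) (hk : 0 < k) (hl1 : 0 < l1) (hl2 : 0 < l2) (hρ : 0 < ρ) (hε : 0 < ε)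
    {Ψ : E2 → Fin 3 → ℝ} {R : E2 → ℝ} (hΨ : Sm Ψ) (hR : Sm R) {z : E2}
    (h : R =ᶠ[𝓝 z] fun _ => 0) (hx : |2 * l1 * z 0| ≤ k * δ) (hy : |κ * (2 * l2) * z 1| ≤ k * δ)
    (hδ : δ ≤ 1 / 40) (hB1 : B⁻¹ ≤ k / 40) (hB2 : B⁻¹ ≤ c / 2) (ht1 : t' + δ ≤ t) (ht2 : t' ≤ t / 2)
    (hε1 : 2 * (l1 + l2) / k * ε ≤ t / 2) (hε2 : 2 * (l1 + l2) / k * ε ≤ c / 2)
    (H : IIP c t' (ε / ρ) Ψ (ρ⁻¹ • z)) :
    IIQ k⁻¹ B t ε (pmH σ η k ρ (fun z => ρ • Ψ z) fun z => R z + pmq κ l1 l2 z) z := by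
  have e1 : |η| = 1 := by rcases hη with rfl | rfl <;> simp
  have e2 : |κ| = 1 := by rcases hκ with rfl | rfl <;> simp
  unfold IIQ
  rw [pm_pX σ η κ k l1 l2 hρ.ne' hΨ hR, pm_pY σ η κ k l1 l2 hρ.ne' hΨ hR]
  simp only [pX, pY, pm_d2 σ η k hΨ hR h]
  simp only [pmH, (pm_zv_germ h 0).eq_of_nhds, (pm_zv_germ h 1).eq_of_nhds, zero_add]
  have key : ∀ (A : Fin 3 → ℝ) (x : ℝ), |x| ≤ k * δ → 1 / 20 ≤ |A 2| → B⁻¹ ≤ |pmV σ η k A x 2| := by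
    intro A x hx hA
    simp only [pmV, Matrix.cons_val]
    rw [abs_mul, e1, one_mul]
    have := abs_sub (k * A 2 + x) x
    rw [add_sub_cancel_right, abs_mul, abs_of_pos hk] at this
    nlinarith
  rcases H with H | H | ⟨m, m1, m2, m3, m4, m5, m6, m7⟩
  · exact Or.inl (key _ _ hx H)
  · exact Or.inr (Or.inl (key _ _ hy H))
  refine Or.inr (Or.inr ⟨![m 0, σ * m 1, η * m 2], (pm_dot_self hσ hη m).trans_le m1,
    (pm_dot_le hσ hη hk m1 _ hx).1.trans (by linarith),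
    (pm_dot_le hσ hη hk m1 _ hy).1.trans (by linarith), ?_⟩)
  set δ' := 2 * (l1 + l2) / k with hδ'
  have hk' : k * δ' = 2 * (l1 + l2) := by rw [hδ']; field_simp
  have hup : ∀ (A : Fin 3 → ℝ) (x : ℝ), |x| ≤ k * δ' → |m ⬝ᵥ A| ≤ t' / (ε / ρ) →
      |![m 0, σ * m 1, η * m 2] ⬝ᵥ sc k⁻¹ (pmV σ η k (ρ⁻¹ • A) x)| ≤ t / ε := by
    intro A x hx hA
    refine (pm_dot_le hσ hη hk m1 _ hx).1.trans ?_
    rw [dotProduct_smul, smul_eq_mul, abs_mul, abs_of_pos (inv_pos.2 hρ), le_div_iff₀ hε]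
    rw [div_div_eq_mul_div, le_div_iff₀ hε] at hA
    have : ρ⁻¹ * |m ⬝ᵥ A| * ε ≤ t' := by
      rw [mul_assoc, inv_mul_le_iff₀ hρ]; linarith
    linarith
  refine ⟨le_trans ?_ (pm_dot_le hσ hη hk m1 _ (δ := δ') ?_).2, hup _ _ ?_ m5, hup _ _ ?_ m6,
    hup _ _ ?_ m7⟩
  · rw [dotProduct_smul, smul_eq_mul, abs_mul, abs_of_pos (inv_pos.2 hρ), div_le_iff₀ hε]
    rw [div_div_eq_mul_div, div_le_iff₀ hε] at m4
    have : c ≤ ρ⁻¹ * |m ⬝ᵥ Zv (V0 0) (Zv (V0 0) Ψ) (ρ⁻¹ • z)| * ε := by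
      rw [mul_assoc, le_inv_mul_iff₀ hρ]; linarith
    linarith
  · rw [if_pos trivial, hk', abs_of_pos (by positivity)]; linarith
  · rw [if_neg (by decide), hk', abs_zero]; positivity
  · rw [if_neg (by decide), hk', abs_zero]; positivity
  · rw [if_pos trivial, hk', abs_mul, e2, abs_of_pos (by positivity)]; linarith

/-- Recipe: `Ψ, Δ'` from `exists_mod` with precision `t' ≪ t, η'², η' k`; `ζ z = ev 1 (x/R0) ev 1 (y/R0)`;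
`Θ z = (ρ Ψ₀(z/ρ), σ ρ Ψ₁(z/ρ), η k ζ(z) ρ Ψ₂(z/ρ))`, `Δ ε z = (ρ, σ ρ, η k ρ) · Δ' (ε/ρ) (z/ρ)`,
`a = ρ s1`, `b = ρ`, with `ρ` small (`ρ (C1+4) ≤ r/2`, `ρ C1 ≤ 1`, `|d qf| ≤ 2 (l1+l2) ρ (C1+4) ≪ k t'` on the box
of size `ρ (C1+4)`).  `low`: on the box `R0`, `ζ = 1` and `d qf` has the sign of `uX, uY`; outside it
`2 l R0` beats `k |ρ Ψ₂| |dζ| ≤ k C1 (1 + 6 R0) 2L/R0` (this fixes `k0`, `ρ ≤ 1`).
`inj`: the three cases of `SlowP.inj` (injective / triangular with determinant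
`≥ (η' y1 - t')(η' y2 - t') - 3 t' > 0` / `|u_y| ≥ k/20`, `|u_x| ≤ 4k` give `|β| ≤ 80|α|` and the first row
`η' y1 |α| ≤ 81 t' |α|`); trivial where `dW = 0` (outside the box `ρ (C1+1)`); case (a) needs `η' ≤ η0`. -/
theorem exists_pmod (K : ℕ) {η κ σ l1 l2 y1 y2 R0 : ℝ} (hη : η = 1 ∨ η = -1) (hκ : κ = 1 ∨ κ = -1)
    (hσ : σ = 1 ∨ σ = -1) (hl1 : 0 < l1) (hl2 : 0 < l2) (hy1 : 0 < y1) (hy2 : 0 < y2)
    (hR : 0 < R0) : ∃ k0 > 0, ∀ k, 0 < k → k ≤ k0 → ∃ B0 CK0 η0 : ℝ, 0 < η0 ∧ ∀ B ≥ B0, ∀ CK ≥ CK0,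
      ∀ t > 0, ∀ r > 0, r ≤ R0 → ∀ η' > 0, η' ≤ η0 →
        ∃ a b Θ Δ, PModP η κ σ l1 l2 y1 y2 R0 k B CK K t r η' a b Θ Δ := by
  obtain ⟨c, C1, CK0, hc, hC1, hmod⟩ := exists_mod K
  obtain ⟨χ⟩ := exists_cut
  have hL := χ.L_nonneg
  have e1 : |η| = 1 := by rcases hη with rfl | rfl <;> simp
  have e2 : |κ| = 1 := by rcases hκ with rfl | rfl <;> simp
  obtain ⟨E, hE⟩ : ∃ E, E = 3 + 8 * χ.L / R0 * (C1 * (1 + 6 * R0)) := ⟨_, rfl⟩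
  have hE3 : 3 ≤ E := by rw [hE]; exact le_add_of_nonneg_right (by positivity)
  refine ⟨min 1 (min (l1 * R0 / (3 + E)) (l2 * R0 / (3 + E))), by positivity, fun k hk hk0 => ?_⟩
  have hk1 : k ≤ 1 := hk0.trans (min_le_left _ _)
  have hkl1 : k * (3 + E) ≤ l1 * R0 := (le_div_iff₀ (by positivity)).1
    (hk0.trans ((min_le_right _ _).trans (min_le_left _ _)))
  have hkl2 : k * (3 + E) ≤ l2 * R0 := (le_div_iff₀ (by positivity)).1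
    (hk0.trans ((min_le_right _ _).trans (min_le_right _ _)))
  refine ⟨1000 + 40 / k + 2 / c + 1 / (l1 * R0) + 1 / (l2 * R0) + 14 * (l1 * R0) + 14 * (l2 * R0),
    CK0, 1 / (2 * (y1 + y2)), by positivity, fun B hB CK hCK t ht r hr hrR η' hη' hη0 => ?_⟩
  have p1 : 0 < 40 / k := by positivity
  have p2 : 0 < 2 / c := by positivity
  have p3 : 0 < 1 / (l1 * R0) := by positivity
  have p4 : 0 < 1 / (l2 * R0) := by positivity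
  have p5 : 0 < l1 * R0 := by positivity
  have p6 : 0 < l2 * R0 := by positivity
  have hinv : ∀ x y : ℝ, 0 < x → 0 < y → x / y ≤ B → B⁻¹ ≤ y / x := fun x y hx hy h => by
    rw [← inv_div]; exact inv_anti₀ (by positivity) h
  have hB1 : B⁻¹ ≤ k / 40 := hinv _ _ (by norm_num) hk (by linarith)
  have hB2 : B⁻¹ ≤ c / 2 := hinv _ _ (by norm_num) hc (by linarith)
  have hB3 : B⁻¹ ≤ l1 * R0 := by simpa using hinv 1 _ one_pos p5 (by linarith)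
  have hB4 : B⁻¹ ≤ l2 * R0 := by simpa using hinv 1 _ one_pos p6 (by linarith)
  have hB5 : 1000 ≤ B := by linarith
  have hB6 : 14 * (l1 * R0) ≤ B := by linarith
  have hB7 : 14 * (l2 * R0) ≤ B := by linarith
  clear hB hk0 p1 p2 p3 p4 hinv
  rw [le_div_iff₀ (by positivity)] at hη0
  obtain ⟨t', ht'0, ht'1, ht'2, ht'3⟩ : ∃ t' : ℝ, 0 < t' ∧ t' ≤ 1 / 100 ∧ t' ≤ t / 62 ∧
      t' ≤ η' * y1 * (η' * y2) / 100 :=
    ⟨min (1 / 100) (min (t / 62) (η' * y1 * (η' * y2) / 100)), by positivity, min_le_left _ _,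
      (min_le_right _ _).trans (min_le_left _ _), (min_le_right _ _).trans (min_le_right _ _)⟩
  obtain ⟨δ, hδ0, hδ1, hδ2⟩ : ∃ δ : ℝ, 0 < δ ∧ δ ≤ 1 / 40 ∧ δ ≤ t / 62 :=
    ⟨min (1 / 40) (t / 62), by positivity, min_le_left _ _, min_le_right _ _⟩
  obtain ⟨D, hD⟩ : ∃ D, D = C1 + 4 := ⟨_, rfl⟩
  have hD0 : 0 < D := by linarith
  obtain ⟨ρ, hρ, hρ1, hρ2, hρ3⟩ : ∃ ρ : ℝ, 0 < ρ ∧ ρ * D ≤ 1 ∧ ρ * D ≤ r / 2 ∧
      ρ * (2 * (l1 + l2) * D) ≤ k * δ :=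
    ⟨min (1 / D) (min (r / 2 / D) (k * δ / (2 * (l1 + l2) * D))), by positivity,
      (le_div_iff₀ hD0).1 (min_le_left _ _),
      (le_div_iff₀ hD0).1 ((min_le_right _ _).trans (min_le_left _ _)),
      (le_div_iff₀ (by positivity)).1 ((min_le_right _ _).trans (min_le_right _ _))⟩
  have hρ4 : ρ * 5 ≤ ρ * D := mul_le_mul_of_nonneg_left (by linarith) hρ.le
  have hρ5 : ρ * C1 < ρ * D := mul_lt_mul_of_pos_left (by linarith) hρ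
  obtain ⟨s1, Ψ, Δ, hs0, hs1, H, hΔ⟩ := hmod κ hκ t' ht'0 ht'1
  have hρs : ρ * s1 ≤ ρ := mul_le_of_le_one_right hρ.le hs1
  set R := pmR χ R0 k ρ Ψ with hRdef
  have sR : Sm R := pmR_sm χ R0 k ρ H.sm
  have hRd : ∀ (u : Fin 2) (z : E2), |z 0| ≤ 3 * R0 → |z 1| ≤ 3 * R0 → |Zv (V0 u) R z| ≤ k * E :=
    fun u z h0 h1 => hE ▸ pmR_d χ hR hk.le hρ (by linarith) (by linarith) H u h0 h1
  have hR0 : ∀ z : E2, |z 0| ≤ R0 → |z 1| ≤ R0 → R =ᶠ[𝓝 z] fun _ => 0 :=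
    fun z h0 h1 => pmR_germ χ hR k ρ Ψ h0 h1
  have hRX : ∀ z : E2, |z 0| ≤ R0 → |z 1| ≤ R0 → pX R z = 0 := fun z h0 h1 =>
    (pm_zv_germ (hR0 z h0 h1) 0).eq_of_nhds
  have hRY : ∀ z : E2, |z 0| ≤ R0 → |z 1| ≤ R0 → pY R z = 0 := fun z h0 h1 =>
    (pm_zv_germ (hR0 z h0 h1) 1).eq_of_nhds
  have hx : ∀ x : ℝ, |x| ≤ ρ * D → |2 * l1 * x| ≤ k * δ := fun x h => by
    rw [abs_mul, abs_of_pos (by positivity)]
    have := mul_le_mul_of_nonneg_left h (by positivity : 0 ≤ 2 * l1)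
    linarith [mul_pos hl2 (mul_pos hρ hD0)]
  have hy : ∀ x : ℝ, |x| ≤ ρ * D → |κ * (2 * l2) * x| ≤ k * δ := fun x h => by
    rw [abs_mul, abs_mul, e2, one_mul, abs_of_pos (by positivity)]
    have := mul_le_mul_of_nonneg_left h (by positivity : 0 ≤ 2 * l2)
    linarith [mul_pos hl1 (mul_pos hρ hD0)]
  have hle : ∀ (z : E2) (i : Fin 2) (a : ℝ), |z i| ≤ ρ * a → |(ρ⁻¹ • z) i| ≤ a := fun z i a h => by
    rw [pm_abs_dil hρ, div_le_iff₀ hρ]; linarith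
  have hge : ∀ (z : E2) (i : Fin 2) (a : ℝ), ρ * a ≤ |z i| → a ≤ |(ρ⁻¹ • z) i| := fun z i a h => by
    rw [pm_abs_dil hρ, le_div_iff₀ hρ]; linarith
  have hgt : ∀ (z : E2) (i : Fin 2) (a : ℝ), ρ * a < |z i| → a < |(ρ⁻¹ • z) i| := fun z i a h => by
    rw [pm_abs_dil hρ, lt_div_iff₀ hρ]; linarith
  have hout : ∀ z : E2, ¬ (|z 0| ≤ ρ * D ∧ |z 1| ≤ ρ * D) → ∀ u,
      Zv (V0 u) Ψ (ρ⁻¹ • z) 0 = 0 ∧ Zv (V0 u) Ψ (ρ⁻¹ • z) 1 = 0 := fun z h u => by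
    rw [not_and_or, not_le, not_le] at h
    exact H.dW_zero (h.imp (fun h => hgt z 0 _ (hρ5.trans h)) fun h => hgt z 1 _ (hρ5.trans h)) u
  have hFX := pm_pX σ η κ k l1 l2 hρ.ne' H.sm sR
  have hFY := pm_pY σ η κ k l1 l2 hρ.ne' H.sm sR
  have hA2 : ∀ z, |pX Ψ z 2| ≤ 3 := fun z => (norm_le_pi_norm (pX Ψ z) 2).trans (H.d_bd z).1
  have hB2' : ∀ z, |pY Ψ z 2| ≤ 3 := fun z => (norm_le_pi_norm (pY Ψ z) 2).trans (H.d_bd z).2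
  have hsm : ∀ a x : ℝ, |a| ≤ 3 → |x| ≤ k * E → |k * a + x| ≤ k * (3 + E) := fun a x ha hx => by
    refine (abs_add_le _ _).trans ?_
    rw [abs_mul, abs_of_pos hk]
    linarith [mul_le_mul_of_nonneg_left ha hk.le]
  have hup : ∀ z : E2, |z 0| ≤ 3 * R0 → |z 1| ≤ 3 * R0 →
      |pmV σ η k (pX Ψ (ρ⁻¹ • z)) (pX R z + 2 * l1 * z 0) 2| ≤ B / 2 ∧
      |pmV σ η k (pY Ψ (ρ⁻¹ • z)) (pY R z + κ * (2 * l2) * z 1) 2| ≤ B / 2 := fun z h0 h1 => by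
    simp only [pmV, Matrix.cons_val]
    rw [abs_mul, abs_mul, e1, one_mul, one_mul, ← add_assoc, ← add_assoc]
    constructor
    · refine (abs_add_le _ _).trans ?_
      have := hsm _ _ (hA2 (ρ⁻¹ • z)) (hRd 0 z h0 h1)
      rw [abs_mul, abs_of_pos (by positivity : 0 < 2 * l1)]
      linarith [mul_le_mul_of_nonneg_left h0 hl1.le]
    · refine (abs_add_le _ _).trans ?_
      have := hsm _ _ (hB2' (ρ⁻¹ • z)) (hRd 1 z h0 h1)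
      rw [abs_mul, abs_mul, e2, one_mul, abs_of_pos (by positivity : 0 < 2 * l2)]
      linarith [mul_le_mul_of_nonneg_left h1 hl2.le]
  have hsgn : ∀ (z : E2) (i : Fin 2), (0 ≤ (ρ⁻¹ • z) i → 0 ≤ z i) ∧ ((ρ⁻¹ • z) i ≤ 0 → z i ≤ 0) :=
    fun z i => by
    rw [PiLp.smul_apply, smul_eq_mul]
    exact ⟨fun h => (mul_nonneg_iff_of_pos_left (inv_pos.2 hρ)).1 h,
      fun h => nonpos_of_mul_nonpos_right h (inv_pos.2 hρ)⟩
  have hlowX : ∀ z : E2, s1 / 4 ≤ |(ρ⁻¹ • z) 0| → k / 20 ≤ |k * pX Ψ (ρ⁻¹ • z) 2 + 2 * l1 * z 0| :=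
    fun z h => by
    rcases le_abs'.1 h with h | h
    · have a1 := (H.uX _).2 h
      have a2 := (hsgn z 0).2 (by linarith)
      refine le_abs'.2 (Or.inl ?_)
      linarith [mul_nonneg hl1.le (neg_nonneg.2 a2), mul_le_mul_of_nonneg_left a1 hk.le]
    · have a1 := (H.uX _).1 h
      have a2 := (hsgn z 0).1 (by linarith)
      refine le_abs'.2 (Or.inr ?_)
      linarith [mul_nonneg hl1.le a2, mul_le_mul_of_nonneg_left a1 hk.le]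
  have hlowY : ∀ z : E2, 1 ≤ |(ρ⁻¹ • z) 1| →
      k / 20 ≤ |k * pY Ψ (ρ⁻¹ • z) 2 + κ * (2 * l2) * z 1| := fun z h => by
    have e : k * pY Ψ (ρ⁻¹ • z) 2 + κ * (2 * l2) * z 1 =
        κ * (k * (κ * pY Ψ (ρ⁻¹ • z) 2) + 2 * l2 * z 1) := by
      rcases hκ with rfl | rfl <;> ring
    rw [e, abs_mul, e2, one_mul]
    rcases le_abs'.1 h with h | h
    · have a1 := (H.uY _).2 h
      have a2 := (hsgn z 1).2 (by linarith)
      refine le_abs'.2 (Or.inl ?_)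
      linarith [mul_nonneg hl2.le (neg_nonneg.2 a2), mul_le_mul_of_nonneg_left a1 hk.le]
    · have a1 := (H.uY _).1 h
      have a2 := (hsgn z 1).1 (by linarith)
      refine le_abs'.2 (Or.inr ?_)
      linarith [mul_nonneg hl2.le a2, mul_le_mul_of_nonneg_left a1 hk.le]
  refine ⟨ρ * s1, ρ, pmH σ η k ρ (fun z => ρ • Ψ z) R,
    fun ε => pmH σ η k ρ (fun z => ρ • Δ (ε / ρ) z) fun _ => 0, by positivity, hρ, by linarith,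
    by linarith, pmH_sm σ η k ρ ((sm_const ρ).smul' H.sm) sR, fun z hz => ?_, fun z hz => ?_,
    fun z => ?_, fun z h0 h1 => ?_, fun z h0 h1 hz => ?_, fun z h0 h1 => ?_, fun z h0 h1 hz => ?_,
    fun z h0 h1 α β => ?_, ?_⟩
  · have a := H.supp (ρ⁻¹ • z) (hz.imp (fun h => hge z 0 _ (by linarith)) fun h =>
      hge z 1 _ (by linarith))
    ext i
    fin_cases i <;> simp [pmH, pmV, a.1, a.2, hRdef, pmR, pmz_zero χ hR hz]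
  · have a := H.supp (ρ⁻¹ • z) (hz.imp (fun h => hge z 0 _ (by linarith)) fun h =>
      hge z 1 _ (by linarith))
    simp [pmH, pmV, a.1, a.2]
  · have a := H.bd (ρ⁻¹ • z)
    have e3 : |σ| = 1 := by rcases hσ with rfl | rfl <;> simp
    simp only [pmH, pmV, Matrix.cons_val_zero, Matrix.cons_val_one, Pi.smul_apply, smul_eq_mul,
      abs_mul, e3, one_mul, abs_of_pos hρ]
    exact ⟨(mul_le_mul_of_nonneg_left a.1 hρ.le).trans (by linarith),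
      (mul_le_mul_of_nonneg_left a.2.1 hρ.le).trans (by linarith)⟩
  · rw [pm_add_qf, hFX, hFY]
    simp only [pmH, hRX z (by linarith) (by linarith), hRY z (by linarith) (by linarith), zero_add]
    exact pm_iso hσ hη hk (H.iso _ (hle z 0 _ h0) (hle z 1 _ (by linarith))) (by linarith)
      (by linarith) (hx _ (by linarith)) (hy _ (by linarith)) (by linarith)
  · rw [pm_add_qf, hFX, hFY]
    by_cases hb : |z 0| ≤ ρ * D ∧ |z 1| ≤ ρ * D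
    · simp only [pmH, hRX z (by linarith) (by linarith), hRY z (by linarith) (by linarith), zero_add]
      exact pm_kpt hσ hη hk (H.kpt _ (hz.imp (fun h => hgt z 0 _ (by linarith)) fun h =>
        hgt z 1 _ (by linarith))) hk1 (hx _ hb.1) (hy _ hb.2) (by linarith) hB5
    · have a := hout z hb
      have b := hup z (by linarith) (by linarith)
      exact pm_kpt0 ht.le (a 0).1 (by simp [pmH, pmV, (a 0).2]) (a 1).1
        (by simp [pmH, pmV, (a 1).2]) b.1 b.2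
  · rw [pm_add_qf, hFX, hFY]
    have b := hup z h0 h1
    exact ⟨b.1.trans (by linarith), b.2.trans (by linarith)⟩
  · rw [pm_add_qf, hFX, hFY]
    simp only [pmH, pmV, Matrix.cons_val]
    rw [abs_mul, abs_mul, e1, one_mul, one_mul]
    rcases lt_or_ge R0 |z 0| with c0 | c0
    · left
      have a := hsm _ _ (hA2 (ρ⁻¹ • z)) (hRd 0 z h0 h1)
      have b := abs_sub (k * pX Ψ (ρ⁻¹ • z) 2 + (pX R z + 2 * l1 * z 0))
        (k * pX Ψ (ρ⁻¹ • z) 2 + pX R z)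
      rw [show k * pX Ψ (ρ⁻¹ • z) 2 + (pX R z + 2 * l1 * z 0) - (k * pX Ψ (ρ⁻¹ • z) 2 + pX R z) =
        2 * l1 * z 0 by ring, abs_mul, abs_of_pos (by positivity : 0 < 2 * l1)] at b
      linarith [mul_le_mul_of_nonneg_left c0.le hl1.le]
    rcases lt_or_ge R0 |z 1| with c1 | c1
    · right
      have a := hsm _ _ (hB2' (ρ⁻¹ • z)) (hRd 1 z h0 h1)
      have b := abs_sub (k * pY Ψ (ρ⁻¹ • z) 2 + (pY R z + κ * (2 * l2) * z 1))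
        (k * pY Ψ (ρ⁻¹ • z) 2 + pY R z)
      rw [show k * pY Ψ (ρ⁻¹ • z) 2 + (pY R z + κ * (2 * l2) * z 1) -
        (k * pY Ψ (ρ⁻¹ • z) 2 + pY R z) = κ * (2 * l2) * z 1 by ring, abs_mul, abs_mul, e2, one_mul,
        abs_of_pos (by positivity : 0 < 2 * l2)] at b
      linarith [mul_le_mul_of_nonneg_left c1.le hl2.le]
    rw [hRX z c0 c1, hRY z c0 c1, zero_add, zero_add]
    exact hz.imp (fun h => le_trans (by linarith) (hlowX z (hge z 0 _ (by linarith [mul_pos hρ hs0])))) fun h =>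
      le_trans (by linarith) (hlowY z (hge z 1 _ (by linarith)))
  · rw [pm_add_qf, hFX, hFY, pX, pY, pmH_zv' σ η k hρ.ne' H.sm sR, pmH_zv' σ η k hρ.ne' H.sm sR]
    by_cases hb : |z 0| ≤ ρ * D ∧ |z 1| ≤ ρ * D
    · simp only [pmH, hRX z (by linarith) (by linarith), hRY z (by linarith) (by linarith), zero_add]
      intro a0 a1 a2
      refine pm_inj hσ hη hk (p := η' * y1) (q := η' * y2) (by linarith) (hx _ hb.1) (hy _ hb.2)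
        (by positivity) (by positivity) (by linarith [mul_pos hη' hy2])
        (by linarith [mul_pos hη' hy1]) ht'0.le ht'3 (H.d_bd _).1
        ((H.inj (ρ⁻¹ • z)).imp_right fun h => h.imp_right fun h => ⟨h.1, h.2.1, hlowY z h.2.2⟩)
        ?_ ?_ a2
      · simp only [pmV, Matrix.cons_val_zero] at a0 ⊢
        linarith
      · simp only [pmV, Matrix.cons_val_zero, Matrix.cons_val_one] at a1 ⊢
        linarith
    · have a := hout z hb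
      have hσ0 : σ ≠ 0 := by rcases hσ with rfl | rfl <;> norm_num
      simp [pmH, pmV, (a 0).1, (a 0).2, (a 1).1, (a 1).2, hη'.ne', hy1.ne', hy2.ne', hσ0]
      tauto
  · have hT : Tendsto (fun ε : ℝ => ε / ρ) (𝓝[>] 0) (𝓝[>] 0) := by
      refine tendsto_nhdsWithin_iff.2 ⟨?_, ?_⟩
      · have : Tendsto (fun ε : ℝ => ε / ρ) (𝓝 0) (𝓝 (0 / ρ)) := tendsto_id.div_const ρ
        rw [zero_div] at this
        exact this.mono_left nhdsWithin_le_nhds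
      · filter_upwards [self_mem_nhdsWithin] with ε hε using div_pos hε hρ
    have hs : ∀ a : ℝ, 0 < a → ∀ᶠ ε in 𝓝[>] (0 : ℝ), 2 * (l1 + l2) / k * ε ≤ a := fun a ha => by
      have : Tendsto (fun ε : ℝ => 2 * (l1 + l2) / k * ε) (𝓝 0) (𝓝 (2 * (l1 + l2) / k * 0)) :=
        tendsto_id.const_mul _
      rw [mul_zero] at this
      exact (this.mono_left nhdsWithin_le_nhds).eventually (eventually_le_nhds ha)
    filter_upwards [hT.eventually hΔ, hs _ (half_pos ht), hs _ (half_pos hc), self_mem_nhdsWithin]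
      with ε ⟨d1, d2, d3⟩ hε1 hε2 hε
    have hε : 0 < ε := hε
    have hk2 : |k| ≤ 1 := by rwa [abs_of_pos hk]
    refine ⟨pmH_sm σ η k ρ ((sm_const ρ).smul' d1.sm) (sm_const 0), fun z hz => ?_, fun z => ?_,
      fun u => ?_, fun z h0 h1 => ?_⟩
    · have a := d1.supp (ρ⁻¹ • z) (hz.imp (fun h => hge z 0 _ (by linarith)) fun h =>
        hge z 1 _ (by linarith))
      ext i
      fin_cases i <;> simp [pmH, pmV, a]
    · refine (pmV_norm hσ hη hk2 _).trans ?_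
      rw [norm_smul, Real.norm_of_nonneg hρ.le]
      exact mul_le_one₀ (by linarith) (norm_nonneg _) (d1.bd _)
    · rw [pmH_zv' σ η k hρ.ne' d1.sm (sm_const 0),
        show Zv (V0 u) (fun _ : E2 => (0 : ℝ)) = fun _ => 0 by funext z; simp [Zv, dd_const]]
      have s2 := d1.sm.zv (smV_V0 u)
      have a := Bd.clm' smV_V0 ((pmL σ η k).comp (ContinuousLinearMap.inl ℝ _ _)) zero_le_one
        (fun x => (pmV_norm hσ hη hk2 x).trans (one_mul _).ge) (pm_dil_sm ρ⁻¹ s2)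
        (pm_dil_bd (inv_pos.2 hρ).le s2 (d3 u))
      rw [show ρ⁻¹ * (ε / ρ)⁻¹ = ε⁻¹ by field_simp, one_mul] at a
      exact a.mono (by positivity) hCK
    · have e : (fun z => pmH σ η k ρ (fun z => ρ • Ψ z) R z + qf η κ l1 l2 z +
          pmH σ η k ρ (fun z => ρ • Δ (ε / ρ) z) (fun _ => 0) z) =
          pmH σ η k ρ (fun z => ρ • (Ψ z + Δ (ε / ρ) z)) fun z => R z + pmq κ l1 l2 z := by
        rw [← pm_add_del, ← pm_add_qf]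
      have s3 := H.sm.add' d1.sm
      have b0 : |z 0| ≤ ρ * D := by linarith
      have b1 : |z 1| ≤ ρ * D := by linarith
      have c0 := hle z 0 (s1 / 2) (by linarith)
      have c1 := hle z 1 (7 / 2) (by linarith)
      rw [e]
      refine ⟨?_, pm_II hσ hη hκ hk hl1 hl2 hρ hε s3 sR (hR0 z (by linarith) (by linarith))
        (hx _ b0) (hy _ b1) hδ1 hB1 hB2 (by linarith) (by linarith) hε1 hε2 (d2 _ c0 c1)⟩
      rw [pm_pX σ η κ k l1 l2 hρ.ne' s3 sR, pm_pY σ η κ k l1 l2 hρ.ne' s3 sR]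
      simp only [pmH, hRX z (by linarith) (by linarith), hRY z (by linarith) (by linarith), zero_add]
      exact pm_iso hσ hη hk (d1.iso _ c0 c1) (by linarith) (by linarith) (hx _ b0) (hy _ b1)
        (by linarith)

end Crest.Agent.R216
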