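import Crest.Agent.R216.Model
/-! # R216: algebra and calculus for the rescaling of the plane model -/

set_option autoImplicit false
open scoped Manifold ContDiff Topology Matrix
open Set Filter

namespace Crest.Agent.R216

/-- rescaling of the third component -/
def sc (a : ℝ) (v : Fin 3 → ℝ) : Fin 3 → ℝ := ![v 0, v 1, a * v 2]

def pmV (σ η k : ℝ) (A : Fin 3 → ℝ) (x : ℝ) : Fin 3 → ℝ := ![A 0, σ * A 1, η * (k * A 2 + x)]

noncomputable def pmL (σ η k : ℝ) : (Fin 3 → ℝ) × ℝ →L[ℝ] (Fin 3 → ℝ) :=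
  LinearMap.toContinuousLinearMap
    { toFun := fun p => pmV σ η k p.1 p.2
      map_add' := fun p q => by
        ext i; fin_cases i <;> simp [pmV] <;> ring
      map_smul' := fun c p => by
        ext i; fin_cases i <;> simp [pmV] <;> ring }

theorem pmL_apply (σ η k : ℝ) (A : Fin 3 → ℝ) (x : ℝ) : pmL σ η k (A, x) = pmV σ η k A x := rfl

noncomputable def pmH (σ η k ρ : ℝ) (f : E2 → Fin 3 → ℝ) (q : E2 → ℝ) (z : E2) : Fin 3 → ℝ :=
  pmV σ η k (f (ρ⁻¹ • z)) (q z)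

section dil
variable {F : Type} [NormedAddCommGroup F] [NormedSpace ℝ F]

theorem pm_dil_sm (c : ℝ) {f : E2 → F} (hf : Sm f) : Sm fun z : E2 => f (c • z) :=
  sm_plane.2 ((sm_plane.1 hf).comp (contDiff_id.const_smul c))

theorem pm_dil_zv (c : ℝ) {f : E2 → F} (hf : Sm f) (u : Fin 2) :
    Zv (V0 u) (fun z : E2 => f (c • z)) = fun z => c • Zv (V0 u) f (c • z) := by
  funext z
  have h1 : HasFDerivAt (fun z : E2 => c • z) (c • ContinuousLinearMap.id ℝ E2) z :=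
    (hasFDerivAt_id z).const_smul c
  have h2 := (((sm_plane.1 hf).differentiable (by simp)) (c • z)).hasFDerivAt.comp z h1
  simp only [Zv, dd_plane, V0]
  rw [show (fun z : E2 => f (c • z)) = f ∘ fun z : E2 => c • z from rfl, h2.fderiv]
  simp

theorem pm_dil_bd {c : ℝ} (hc : 0 ≤ c) {k : ℕ} {l : ℝ} : ∀ {C : ℝ} {f : E2 → F}, Sm f →
    Bd V0 k l f C → Bd V0 k (c * l) (fun z : E2 => f (c • z)) C := by
  induction k with
  | zero => exact fun _ h p => h _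
  | succ k ih =>
    intro C f hf h
    refine ⟨fun p => h.1 _, fun u => ?_⟩
    rw [pm_dil_zv c hf u]
    have := Bd.csmul smV_V0 c (pm_dil_sm c (hf.zv (smV_V0 u))) (ih (hf.zv (smV_V0 u)) (h.2 u))
    rwa [abs_of_nonneg hc, ← mul_assoc] at this

theorem pm_zv_csmul (c : ℝ) {f : E2 → F} (hf : Sm f) (u : Fin 2) :
    Zv (V0 u) (fun z => c • f z) = fun z => c • Zv (V0 u) f z := by
  funext z
  exact dd_const_smul c (hf.df z) _

theorem pm_zv_add {f g : E2 → F} (hf : Sm f) (hg : Sm g) (u : Fin 2) :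
    Zv (V0 u) (fun z => f z + g z) = fun z => Zv (V0 u) f z + Zv (V0 u) g z := by
  funext z
  exact dd_add (hf.df z) (hg.df z) _

theorem pm_zv_germ {f : E2 → F} {z : E2} (h : f =ᶠ[𝓝 z] fun _ => 0) (u : Fin 2) :
    Zv (V0 u) f =ᶠ[𝓝 z] fun _ => 0 := by
  filter_upwards [h.eventually_nhds] with y hy
  have : dd f y = 0 := (dd_congr hy).trans (dd_const (0 : F) y)
  simp [Zv, this]

end dil

theorem pmH_sm (σ η k ρ : ℝ) {f : E2 → Fin 3 → ℝ} {q : E2 → ℝ} (hf : Sm f) (hq : Sm q) :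
    Sm (pmH σ η k ρ f q) :=
  ((pm_dil_sm ρ⁻¹ hf).prod' hq).clm (pmL σ η k)

theorem pmH_zv (σ η k ρ : ℝ) {f : E2 → Fin 3 → ℝ} {q : E2 → ℝ} (hf : Sm f) (hq : Sm q) (u : Fin 2) :
    Zv (V0 u) (pmH σ η k ρ f q) =
      pmH σ η k ρ (fun z => ρ⁻¹ • Zv (V0 u) f z) (Zv (V0 u) q) := by
  funext z
  have h1 := dd_clm (pmL σ η k) (((pm_dil_sm ρ⁻¹ hf).prod' hq).df z) (V0 u z)
  rw [dd_prod ((pm_dil_sm ρ⁻¹ hf).df z) (hq.df z)] at h1
  have h2 := congrFun (pm_dil_zv ρ⁻¹ hf u) z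
  simp only [Zv] at h2
  rw [h2] at h1
  exact h1

theorem pmH_zv' (σ η k : ℝ) {ρ : ℝ} (hρ : ρ ≠ 0) {f : E2 → Fin 3 → ℝ} {q : E2 → ℝ} (hf : Sm f)
    (hq : Sm q) (u : Fin 2) :
    Zv (V0 u) (pmH σ η k ρ (fun z => ρ • f z) q) = pmH σ η k ρ (Zv (V0 u) f) (Zv (V0 u) q) := by
  rw [pmH_zv σ η k ρ ((sm_const ρ).smul' hf) hq u, pm_zv_csmul ρ hf u]
  simp only [smul_smul, inv_mul_cancel₀ hρ, one_smul]

theorem pm_coord_sm (i : Fin 2) : Sm fun z : E2 => z i := Cut.profb_sm i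

theorem pm_zv_coord (c : ℝ) (i u : Fin 2) (z : E2) :
    Zv (V0 u) (fun z : E2 => c * z i) z = if i = u then c else 0 := by
  have := dd_const_smul c ((pm_coord_sm i).df z) (V0 u z)
  simp only [smul_eq_mul] at this
  rw [Zv, this, Cut.profb_dd]
  by_cases h : i = u
  · subst h; simp [V0]
  · simp [V0, h]

/-- the quadratic form -/
def pmq (κ l1 l2 : ℝ) (z : E2) : ℝ := l1 * z 0 ^ 2 + κ * (l2 * z 1 ^ 2)

theorem pmq_sm (κ l1 l2 : ℝ) : Sm (pmq κ l1 l2) := by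
  refine sm_plane.2 ?_
  have h0 := sm_plane.1 (pm_coord_sm 0)
  have h1 := sm_plane.1 (pm_coord_sm 1)
  unfold pmq
  fun_prop

theorem pmq_dd (κ l1 l2 : ℝ) (z v : E2) :
    dd (pmq κ l1 l2) z v = 2 * l1 * z 0 * v 0 + κ * (2 * l2) * z 1 * v 1 := by
  have h0 : HasFDerivAt (fun z : E2 => z 0) (EuclideanSpace.proj (𝕜 := ℝ) 0 : E2 →L[ℝ] ℝ) z :=
    (EuclideanSpace.proj (𝕜 := ℝ) 0 : E2 →L[ℝ] ℝ).hasFDerivAt
  have h1 : HasFDerivAt (fun z : E2 => z 1) (EuclideanSpace.proj (𝕜 := ℝ) 1 : E2 →L[ℝ] ℝ) z :=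
    (EuclideanSpace.proj (𝕜 := ℝ) 1 : E2 →L[ℝ] ℝ).hasFDerivAt
  have h := ((h0.pow 2).const_mul l1).add (((h1.pow 2).const_mul l2).const_mul κ)
  rw [dd_plane]
  have e : pmq κ l1 l2 = (fun y : E2 => l1 * y 0 ^ 2) + fun y : E2 => κ * (l2 * y 1 ^ 2) := rfl
  rw [e, h.fderiv]
  simp
  ring

theorem pmq_pX (κ l1 l2 : ℝ) : pX (pmq κ l1 l2) = fun z => 2 * l1 * z 0 := by
  funext z
  simp [Zv, pmq_dd, V0]

theorem pmq_pY (κ l1 l2 : ℝ) : pY (pmq κ l1 l2) = fun z => κ * (2 * l2) * z 1 := by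
  funext z
  simp [Zv, pmq_dd, V0]

/-! ### pointwise algebra -/

theorem AIso.norm_le {A B : Fin 3 → ℝ} {t : ℝ} (h : AIso A B t) (ht : t ≤ 1) :
    ‖A‖ ≤ 2 ∧ ‖B‖ ≤ 2 := by
  have h1 := (abs_le.1 (h 1 0)).2
  have h2 := (abs_le.1 (h 0 1)).2
  simp only [one_smul, zero_smul, add_zero, zero_add, dotProduct, Fin.sum_univ_three] at h1 h2
  constructor
  · refine (pi_norm_le_iff_of_nonneg (by norm_num)).2 fun i => ?_
    rw [Real.norm_eq_abs, abs_le]
    fin_cases i <;> simp only [Fin.zero_eta, Fin.mk_one, Fin.reduceFinMk] <;> constructor <;>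
      nlinarith [mul_self_nonneg (A 0), mul_self_nonneg (A 1), mul_self_nonneg (A 2)]
  · refine (pi_norm_le_iff_of_nonneg (by norm_num)).2 fun i => ?_
    rw [Real.norm_eq_abs, abs_le]
    fin_cases i <;> simp only [Fin.zero_eta, Fin.mk_one, Fin.reduceFinMk] <;> constructor <;>
      nlinarith [mul_self_nonneg (B 0), mul_self_nonneg (B 1), mul_self_nonneg (B 2)]

theorem AIso.pert {A B A' B' : Fin 3 → ℝ} {t δ t' : ℝ} (h : AIso A B t) (ht : t ≤ 1) (hδ : δ ≤ 1)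
    (hA : ‖A' - A‖ ≤ δ) (hB : ‖B' - B‖ ≤ δ) (ht' : t + 30 * δ ≤ t') : AIso A' B' t' := by
  intro a b
  have h1 := quad_pert (by simp) hδ (h.norm_le ht).1 (h.norm_le ht).2 hA hB a b
  have h2 := h a b
  have h3 : (t + 30 * δ) * (a ^ 2 + b ^ 2) ≤ t' * (a ^ 2 + b ^ 2) :=
    mul_le_mul_of_nonneg_right ht' (by positivity)
  rw [abs_le] at *
  constructor <;> nlinarith [h1.1, h1.2, h2.1, h2.2]

section alg
variable {σ η k : ℝ} (hσ : σ = 1 ∨ σ = -1) (hη : η = 1 ∨ η = -1) (hk : 0 < k)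
include hσ hη hk

theorem pm_iso {A B : Fin 3 → ℝ} {x y t δ t' : ℝ} (h : AIso A B t) (ht : t ≤ 1) (hδ : δ ≤ 1)
    (hx : |x| ≤ k * δ) (hy : |y| ≤ k * δ) (ht' : t + 30 * δ ≤ t') :
    AIso (sc k⁻¹ (pmV σ η k A x)) (sc k⁻¹ (pmV σ η k B y)) t' := by
  have hδ0 : 0 ≤ δ := by
    by_contra hc
    push Not at hc
    nlinarith [abs_nonneg x]
  have h0 : AIso ![A 0, σ * A 1, η * A 2] ![B 0, σ * B 1, η * B 2] t := by
    intro a b
    have := h a b
    have e : (a • ![A 0, σ * A 1, η * A 2] + b • ![B 0, σ * B 1, η * B 2]) ⬝ᵥ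
        (a • ![A 0, σ * A 1, η * A 2] + b • ![B 0, σ * B 1, η * B 2]) =
        (a • A + b • B) ⬝ᵥ (a • A + b • B) := by
      simp only [dotProduct, Fin.sum_univ_three, Pi.add_apply, Pi.smul_apply, smul_eq_mul]
      rcases hσ with rfl | rfl <;> rcases hη with rfl | rfl <;> simp <;> ring
    rwa [e]
  have hn : ∀ (A : Fin 3 → ℝ) (x : ℝ), |x| ≤ k * δ →
      ‖sc k⁻¹ (pmV σ η k A x) - ![A 0, σ * A 1, η * A 2]‖ ≤ δ := by
    intro A x hx
    refine (pi_norm_le_iff_of_nonneg hδ0).2 fun i => ?_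
    fin_cases i
    · simpa [sc, pmV] using hδ0
    · simpa [sc, pmV] using hδ0
    · have e : k⁻¹ * (η * (k * A 2 + x)) - η * A 2 = η * (x / k) := by field_simp; ring
      have h1 : |η| = 1 := by rcases hη with rfl | rfl <;> simp
      simp only [sc, pmV, Fin.reduceFinMk, Pi.sub_apply, Matrix.cons_val, Real.norm_eq_abs]
      rw [e, abs_mul, h1, one_mul, abs_div, abs_of_pos hk, div_le_iff₀ hk]
      linarith
  exact h0.pert ht hδ (hn A x hx) (hn B y hy) ht'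

theorem pm_kpt {A B : Fin 3 → ℝ} {x y t δ t' C : ℝ} (h : PKPt A B 1000 t) (hk1 : k ≤ 1)
    (hx : |x| ≤ k * δ) (hy : |y| ≤ k * δ) (ht' : t + δ ≤ t') (hC : 1000 ≤ C) :
    PKPt (pmV σ η k A x) (pmV σ η k B y) C t' := by
  have hδ0 : 0 ≤ δ := by
    by_contra hc
    push Not at hc
    nlinarith [abs_nonneg x]
  obtain ⟨g00, g01, g11, τ0, τ1, h1, h2, h3, h4, h5⟩ := h
  have e1 : |η| = 1 := by rcases hη with rfl | rfl <;> simp
  have e2 : η ^ 2 = 1 := by rcases hη with rfl | rfl <;> simp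
  have e3 : σ ^ 2 = 1 := by rcases hσ with rfl | rfl <;> simp
  have key : ∀ g a x : ℝ, |g - a| ≤ t → |x| ≤ k * δ → |η * k * g - η * (k * a + x)| ≤ t' := by
    intro g a x hg hx
    have e : η * k * g - η * (k * a + x) = η * (k * (g - a) - x) := by ring
    rw [e, abs_mul, e1, one_mul]
    have := abs_sub (k * (g - a)) x
    rw [abs_mul, abs_of_pos hk] at this
    have h6 : k * |g - a| ≤ 1 * t := mul_le_mul hk1 hg (abs_nonneg _) zero_le_one
    nlinarith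
  refine ⟨g00, g01, g11, η * k * τ0, η * k * τ1, h1, ?_, ?_, ?_, fun a b => ?_⟩
  · have e : (η * k * τ0) ^ 2 + (η * k * τ1) ^ 2 = η ^ 2 * k ^ 2 * (τ0 ^ 2 + τ1 ^ 2) := by ring
    rw [e, e2, one_mul]
    have : k ^ 2 ≤ 1 := by nlinarith
    have h7 : (1000 : ℝ) ^ 2 ≤ C ^ 2 := by nlinarith
    nlinarith [sq_nonneg τ0, sq_nonneg τ1]
  · have := key _ _ x h3 hx
    simp only [pmV, Matrix.cons_val]
    convert this using 2; ring
  · have := key _ _ y h4 hy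
    simp only [pmV, Matrix.cons_val]
    convert this using 2; ring
  · have := h5 a b
    have e : (a * (σ * A 1) + b * (σ * B 1)) ^ 2 = (a * A 1 + b * B 1) ^ 2 := by
      rw [← one_mul ((a * A 1 + b * B 1) ^ 2), ← e3]; ring
    simp only [pmV, Matrix.cons_val_zero, Matrix.cons_val_one]
    rw [e]
    exact this.trans (mul_le_mul_of_nonneg_right (by linarith) (by positivity))

omit hσ hη hk in
theorem pm_kpt0 {A B : Fin 3 → ℝ} {t C : ℝ} (ht : 0 ≤ t) (hA0 : A 0 = 0) (hA1 : A 1 = 0)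
    (hB0 : B 0 = 0) (hB1 : B 1 = 0) (hA : |A 2| ≤ C / 2) (hB : |B 2| ≤ C / 2) : PKPt A B C t := by
  refine ⟨1, 0, 1, A 2, B 2, fun a b => by nlinarith [sq_nonneg a, sq_nonneg b], ?_, by simpa using ht, by simpa using ht,
    fun a b => ?_⟩
  · have h1 := sq_abs (A 2)
    have h2 := sq_abs (B 2)
    nlinarith [abs_nonneg (A 2), abs_nonneg (B 2)]
  · rw [hA0, hA1, hB0, hB1]
    simp only [mul_zero, add_zero, one_mul, zero_mul]
    norm_num
    positivity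

omit hσ hη hk in
theorem pm_inj_a {x y p q α β : ℝ} (hx : |x| ≤ 1 / 4) (hy : |y| ≤ 1 / 4) (hp : 0 < p) (hq : 0 < q)
    (hp1 : p ≤ 1 / 2) (hq1 : q ≤ 1 / 2) (h : (α ^ 2 + β ^ 2) / 2 ≤ -(p * α) * -(p * α) +
      -(q * β) * -(q * β) + -(α * x + β * y) * -(α * x + β * y)) : α = 0 ∧ β = 0 := by
  have hx2 : x ^ 2 ≤ 1 / 16 := by nlinarith [sq_abs x, abs_nonneg x]
  have hy2 : y ^ 2 ≤ 1 / 16 := by nlinarith [sq_abs y, abs_nonneg y]
  have hp2 : p ^ 2 ≤ 1 / 4 := by nlinarith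
  have hq2 : q ^ 2 ≤ 1 / 4 := by nlinarith
  have c0 := mul_le_mul_of_nonneg_left (add_le_add hx2 hy2) (add_nonneg (sq_nonneg α) (sq_nonneg β))
  have c1 : (α * x + β * y) ^ 2 ≤ (α ^ 2 + β ^ 2) / 8 := by
    nlinarith [sq_nonneg (α * y - β * x)]
  have c2 := mul_le_mul_of_nonneg_left hp2 (sq_nonneg α)
  have c3 := mul_le_mul_of_nonneg_left hq2 (sq_nonneg β)
  have c4 : α ^ 2 + β ^ 2 ≤ 0 := by nlinarith
  have c5 : α ^ 2 = 0 := le_antisymm (by linarith [sq_nonneg β]) (sq_nonneg α)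
  have c6 : β ^ 2 = 0 := le_antisymm (by linarith [sq_nonneg α]) (sq_nonneg β)
  exact ⟨pow_eq_zero_iff two_ne_zero |>.1 c5, pow_eq_zero_iff two_ne_zero |>.1 c6⟩

theorem pm_inj {A B : Fin 3 → ℝ} {x y t δ p q α β : ℝ} (hδ : δ ≤ 1 / 4)
    (hx : |x| ≤ k * δ) (hy : |y| ≤ k * δ) (hp : 0 < p) (hq : 0 < q) (hp1 : p ≤ 1 / 2)
    (hq1 : q ≤ 1 / 2) (ht0 : 0 ≤ t) (htp : t ≤ p * q / 100) (hA : ‖A‖ ≤ 3)
    (h : (∀ a b : ℝ, (a ^ 2 + b ^ 2) / 2 ≤ (a • A + b • B) ⬝ᵥ (a • A + b • B)) ∨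
      (-t ≤ A 0 ∧ |B 0| ≤ t ∧ -t ≤ B 1) ∨ (|A 0| ≤ t ∧ |B 0| ≤ t ∧ k / 20 ≤ |k * B 2 + y|))
    (h0 : α * pmV σ η k A x 0 + β * pmV σ η k B y 0 + p * α = 0)
    (h1 : α * pmV σ η k A x 1 + β * pmV σ η k B y 1 + σ * (q * β) = 0)
    (h2 : α * pmV σ η k A x 2 + β * pmV σ η k B y 2 = 0) : α = 0 ∧ β = 0 := by
  simp only [pmV, Matrix.cons_val_zero, Matrix.cons_val_one, Matrix.cons_val] at h0 h1 h2
  have hσ0 : σ ≠ 0 := by rcases hσ with rfl | rfl <;> norm_num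
  have hη0 : η ≠ 0 := by rcases hη with rfl | rfl <;> norm_num
  have h1' : α * A 1 + β * B 1 + q * β = 0 := mul_left_cancel₀ hσ0 (by linarith)
  have h2' : α * (k * A 2 + x) + β * (k * B 2 + y) = 0 := mul_left_cancel₀ hη0 (by linarith)
  have hδ0 : 0 ≤ δ := by
    by_contra hc
    push Not at hc
    nlinarith [abs_nonneg x]
  have hA1 : |A 1| ≤ 3 := (norm_le_pi_norm A 1).trans hA
  have hA2 : |A 2| ≤ 3 := (norm_le_pi_norm A 2).trans hA
  have htp' : t ≤ p / 200 := by nlinarith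
  have htq' : t ≤ q / 200 := by nlinarith
  rcases h with h | ⟨a0, b0, b1⟩ | ⟨a0, b0, b2⟩
  · have h3 := h α β
    simp only [dotProduct, Fin.sum_univ_three, Pi.add_apply, Pi.smul_apply, smul_eq_mul] at h3
    have e0 : α * A 0 + β * B 0 = -(p * α) := by linarith
    have e1 : α * A 1 + β * B 1 = -(q * β) := by linarith
    have e2 : α * A 2 + β * B 2 = -(α * (x / k) + β * (y / k)) := by field_simp; linarith
    have hx' : |x / k| ≤ 1 / 4 := by
      rw [abs_div, abs_of_pos hk, div_le_iff₀ hk]; nlinarith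
    have hy' : |y / k| ≤ 1 / 4 := by
      rw [abs_div, abs_of_pos hk, div_le_iff₀ hk]; nlinarith
    rw [e0, e1, e2] at h3
    exact pm_inj_a hx' hy' hp hq hp1 hq1 h3
  · have d1 : p / 2 ≤ p + A 0 := by linarith
    have d2 : q / 2 ≤ q + B 1 := by linarith
    have d3 : p / 2 * (q / 2) ≤ (p + A 0) * (q + B 1) :=
      mul_le_mul d1 d2 (by positivity) (by linarith)
    have d4 : |A 1 * B 0| ≤ 3 * t := by
      rw [abs_mul]; exact mul_le_mul hA1 b0 (abs_nonneg _) (by norm_num)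
    have d5 : 0 < (p + A 0) * (q + B 1) - A 1 * B 0 := by
      have := le_abs_self (A 1 * B 0)
      nlinarith [mul_pos hp hq]
    constructor
    · refine mul_left_cancel₀ d5.ne' ?_
      linear_combination (q + B 1) * h0 - B 0 * h1'
    · refine mul_left_cancel₀ d5.ne' ?_
      linear_combination (p + A 0) * h1' - A 1 * h0
  · have d1 : |k * A 2 + x| ≤ 4 * k := by
      have := abs_add_le (k * A 2) x
      rw [abs_mul, abs_of_pos hk] at this
      nlinarith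
    have d2 : |β| * |k * B 2 + y| = |α| * |k * A 2 + x| := by
      rw [← abs_mul, ← abs_mul, show β * (k * B 2 + y) = -(α * (k * A 2 + x)) by linarith, abs_neg]
    have d3 : |β| ≤ 80 * |α| := by
      have d4 : |β| * (k / 20) ≤ |α| * (4 * k) := by
        calc |β| * (k / 20) ≤ |β| * |k * B 2 + y| := mul_le_mul_of_nonneg_left b2 (abs_nonneg _)
          _ = _ := d2
          _ ≤ _ := mul_le_mul_of_nonneg_left d1 (abs_nonneg _)
      nlinarith
    have d5 : p * |α| ≤ |α| * t + |β| * t := by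
      have e : p * α = -(α * A 0 + β * B 0) := by linarith
      rw [← abs_of_pos hp, ← abs_mul, e, abs_neg]
      refine (abs_add_le _ _).trans ?_
      rw [abs_mul, abs_mul]
      exact add_le_add (mul_le_mul_of_nonneg_left a0 (abs_nonneg _))
        (mul_le_mul_of_nonneg_left b0 (abs_nonneg _))
    have d6 : |α| = 0 := by
      refine le_antisymm ?_ (abs_nonneg _)
      by_contra hc
      push Not at hc
      nlinarith [mul_le_mul_of_nonneg_right d3 ht0, mul_le_mul_of_nonneg_left htp' hc.le,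
        mul_pos hp hc]
    rw [d6] at d3
    exact ⟨abs_eq_zero.1 d6, abs_eq_zero.1 (le_antisymm (by linarith) (abs_nonneg _))⟩

/-- pairing with the reflected normal -/
theorem pm_dot (m A : Fin 3 → ℝ) (x : ℝ) :
    ![m 0, σ * m 1, η * m 2] ⬝ᵥ sc k⁻¹ (pmV σ η k A x) = m ⬝ᵥ A + m 2 * (x / k) := by
  simp only [dotProduct, Fin.sum_univ_three, sc, pmV, Matrix.cons_val_zero, Matrix.cons_val_one,
    Matrix.cons_val]
  rcases hσ with rfl | rfl <;> rcases hη with rfl | rfl <;> field_simp <;> ring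

theorem pm_dot_le {m : Fin 3 → ℝ} (hm : m ⬝ᵥ m ≤ 1) (A : Fin 3 → ℝ) {x δ : ℝ} (hx : |x| ≤ k * δ) :
    |![m 0, σ * m 1, η * m 2] ⬝ᵥ sc k⁻¹ (pmV σ η k A x)| ≤ |m ⬝ᵥ A| + δ ∧
      |m ⬝ᵥ A| - δ ≤ |![m 0, σ * m 1, η * m 2] ⬝ᵥ sc k⁻¹ (pmV σ η k A x)| := by
  rw [pm_dot hσ hη hk]
  have h1 : |m 2| ≤ 1 := by
    simp only [dotProduct, Fin.sum_univ_three] at hm
    rw [abs_le]
    constructor <;> nlinarith [mul_self_nonneg (m 0), mul_self_nonneg (m 1)]
  have h2 : |x / k| ≤ δ := by rw [abs_div, abs_of_pos hk, div_le_iff₀ hk]; linarith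
  have h3 : |m 2 * (x / k)| ≤ δ := by
    rw [abs_mul]
    exact (mul_le_of_le_one_left (abs_nonneg _) h1).trans h2
  constructor
  · exact (abs_add_le _ _).trans (by linarith)
  · have := abs_sub (m ⬝ᵥ A + m 2 * (x / k)) (m 2 * (x / k))
    rw [add_sub_cancel_right] at this
    linarith

omit hk in
theorem pm_dot_self (m : Fin 3 → ℝ) :
    ![m 0, σ * m 1, η * m 2] ⬝ᵥ ![m 0, σ * m 1, η * m 2] = m ⬝ᵥ m := by
  simp only [dotProduct, Fin.sum_univ_three, Matrix.cons_val_zero, Matrix.cons_val_one,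
    Matrix.cons_val]
  rcases hσ with rfl | rfl <;> rcases hη with rfl | rfl <;> ring

omit hk in
theorem pmV_norm {k : ℝ} (hk : |k| ≤ 1) (A : Fin 3 → ℝ) : ‖pmV σ η k A 0‖ ≤ ‖A‖ := by
  have e1 : |η| = 1 := by rcases hη with rfl | rfl <;> simp
  have e2 : |σ| = 1 := by rcases hσ with rfl | rfl <;> simp
  refine (pi_norm_le_iff_of_nonneg (norm_nonneg _)).2 fun i => ?_
  fin_cases i
  · simpa [pmV] using norm_le_pi_norm A 0
  · simpa [pmV, e2] using norm_le_pi_norm A 1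
  · simp only [pmV, Fin.reduceFinMk, Matrix.cons_val, add_zero, Real.norm_eq_abs, abs_mul, e1,
      one_mul]
    exact (mul_le_of_le_one_left (abs_nonneg _) hk).trans (norm_le_pi_norm A 2)

end alg

end Crest.Agent.R216
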