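import Crest.Agent.R216.AIter
import Crest.Agent.R216.AStart
/-! # R216: the perturbation theorem (A), see notes216/R216.md §A -/

set_option autoImplicit false
open scoped Manifold ContDiff Topology Matrix
open Set Filter

namespace Crest.Agent.R216
universe u
variable {M : Type u} [TopologicalSpace M] [ChartedSpace E2 M] [IsManifold (𝓡 2) ∞ M]
  [T2Space M] [CompactSpace M]

/-- An almost isometric map with geometry bounded by `B` at scale `1/μ` and second fundamental form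
`≥ c μ` can be corrected to an exact smooth isometric map; `K` is absolute (it must not depend on
`B, c`), `σ` does not depend on `μ`. -/
theorem perturb {g : Met M} (C : Calc g) : ∃ K : ℕ, ∀ (B c : ℝ), 0 < c →
    ∃ σ : ℝ, 0 < σ ∧ ∀ (mu : ℝ) (F : M → Fin 4 → ℝ), 1 ≤ mu → Sm F →
      Bd C.V 1 1 F B → (∀ a b, Bd C.V K mu (C.Z a (C.Z b F)) (B * mu)) → C.Geo F mu c σ →
      (∀ a b p, |C.Z a F p ⬝ᵥ C.Z b F p - C.G a b p| ≤ σ) →
      ∃ G : M → Fin 4 → ℝ, Sm G ∧ ∀ a b p, C.Z a G p ⬝ᵥ C.Z b G p = C.G a b p := by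
  refine ⟨Kb 10, fun B c hc => ?_⟩
  obtain ⟨B', η, s, e, hB, hC⟩ := C.exists_cst B hc
  obtain ⟨T₀, hT₀⟩ := Calc.iterate hC
  obtain ⟨T, σ, hT, hσ, h⟩ := C.start hB hC T₀
  refine ⟨σ, hσ, fun mu F h1 h2 h3 h4 h5 h6 => ?_⟩
  obtain ⟨F₀, X, hP, hX, hS⟩ := h mu F h1 h2 h3 h4 h5 h6
  obtain ⟨G, hG, hG'⟩ := hT₀ mu T X F₀ F₀ hP hT hX hS
  refine ⟨G, hG, fun a b p => ?_⟩
  have := hG' a b p
  unfold Calc.hh at this
  linarith

end Crest.Agent.R216
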