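import Crest.Agent.R216.BdL
/-! # R216: profile of the crease, cut-off functions -/

set_option autoImplicit false
open scoped Manifold ContDiff Topology Matrix
open Set Filter

namespace Crest.Agent.R216

/-- `∂/∂X` and `∂/∂Y` on the plane -/
noncomputable abbrev pX {F : Type} [NormedAddCommGroup F] [NormedSpace ℝ F] (f : E2 → F) : E2 → F :=
  Zv (V0 0) f
noncomputable abbrev pY {F : Type} [NormedAddCommGroup F] [NormedSpace ℝ F] (f : E2 → F) : E2 → F :=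
  Zv (V0 1) f

/-- A unit speed U-turn `(G1, G2)` with tangent `(cs, sn) = (cos α, sin α)`, `om = α'`,
`α = ±π/2` for `±t ≥ 1`. -/
structure Prof where
  sn : ℝ → ℝ
  cs : ℝ → ℝ
  om : ℝ → ℝ
  G1 : ℝ → ℝ
  G2 : ℝ → ℝ
  γ : ℝ
  c : ℝ
  sn_sm : ContDiff ℝ ∞ sn
  cs_sm : ContDiff ℝ ∞ cs
  om_sm : ContDiff ℝ ∞ om
  G1_sm : ContDiff ℝ ∞ G1
  G2_sm : ContDiff ℝ ∞ G2
  sq : ∀ t, sn t ^ 2 + cs t ^ 2 = 1
  dG1 : ∀ t, HasDerivAt G1 (cs t) t
  dG2 : ∀ t, HasDerivAt G2 (sn t) t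
  dsn : ∀ t, HasDerivAt sn (om t * cs t) t
  dcs : ∀ t, HasDerivAt cs (-(om t * sn t)) t
  cs_nonneg : ∀ t, 0 ≤ cs t
  pos : ∀ t, 1 ≤ t → sn t = 1 ∧ cs t = 0 ∧ om t = 0 ∧ G2 t = t - γ
  neg : ∀ t, t ≤ -1 → sn t = -1 ∧ cs t = 0 ∧ om t = 0 ∧ G2 t = -t - γ
  G1_bd : ∀ t, |G1 t| ≤ 1
  G2_nonneg : ∀ t, 0 ≤ G2 t
  G2_le : ∀ t, G2 t ≤ |t|
  G2_ge : ∀ t, |t| - 1 ≤ G2 t
  c_pos : 0 < c
  om_ge : ∀ t, |sn t| ≤ 1 / 2 → c ≤ om t

theorem profa_primitive {f : ℝ → ℝ} (hf : ContDiff ℝ ∞ f) :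
    ∃ G : ℝ → ℝ, ContDiff ℝ ∞ G ∧ G 0 = 0 ∧ ∀ t, HasDerivAt G (f t) t := by
  have h : ∀ t, HasDerivAt (fun u => ∫ x in (0 : ℝ)..u, f x) (f t) t := fun t =>
    (hf.continuous.integral_hasStrictDerivAt 0 t).hasDerivAt
  refine ⟨fun u => ∫ x in (0 : ℝ)..u, f x, ?_, by simp, h⟩
  rw [contDiff_infty_iff_deriv]
  refine ⟨fun t => (h t).differentiableAt, ?_⟩
  have : deriv (fun u => ∫ x in (0 : ℝ)..u, f x) = f := funext fun t => (h t).deriv
  rw [this]; exact hf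

theorem profa_mvt {f f' : ℝ → ℝ} (h : ∀ t, HasDerivAt f (f' t) t) {a b : ℝ} (hab : a < b) :
    ∃ ξ ∈ Ioo a b, f b - f a = f' ξ * (b - a) := by
  obtain ⟨ξ, hξ, e⟩ := exists_hasDerivAt_eq_slope f f' hab
    (fun t _ => (h t).continuousAt.continuousWithinAt) (fun t _ => h t)
  refine ⟨ξ, hξ, ?_⟩
  rw [e, div_mul_cancel₀ _ (sub_pos.2 hab).ne']

theorem profa_mvt' {f f' : ℝ → ℝ} (h : ∀ t, HasDerivAt f (f' t) t) {a b : ℝ} (hab : a ≤ b) :
    ∃ ξ ∈ Icc a b, f b - f a = f' ξ * (b - a) := by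
  rcases hab.eq_or_lt with rfl | hab
  · exact ⟨a, ⟨le_rfl, le_rfl⟩, by simp⟩
  · obtain ⟨ξ, hξ, e⟩ := profa_mvt h hab
    exact ⟨ξ, Ioo_subset_Icc_self hξ, e⟩

theorem profa_sym {f f' : ℝ → ℝ} (h : ∀ t, HasDerivAt f (f' t) t) (h0 : f 0 = 0) (σ : ℝ)
    (hs : ∀ t, f' (-t) = -(σ * f' t)) (t : ℝ) : f (-t) = σ * f t := by
  have hd : ∀ t, HasDerivAt (fun u => f (-u) - σ * f u) ((fun _ => (0 : ℝ)) t) t := by
    intro t
    have h1 : HasDerivAt (fun u => f (-u)) (f' (-t) * (-1)) t :=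
      (h (-t)).comp t (hasDerivAt_neg t)
    have h2 := h1.sub ((h t).const_mul σ)
    exact h2.congr_deriv (by rw [hs]; ring)
  have hc := is_const_of_deriv_eq_zero (f := fun u => f (-u) - σ * f u)
    (fun u => (hd u).differentiableAt) (fun u => (hd u).deriv) t 0
  simp only [neg_zero, h0, mul_zero, sub_zero] at hc
  linarith

theorem profa_angle : ∃ α om : ℝ → ℝ, ContDiff ℝ ∞ α ∧ ContDiff ℝ ∞ om ∧
    (∀ t, HasDerivAt α (om t) t) ∧ (∀ t, α (-t) = -α t) ∧ (∀ t, om (-t) = om t) ∧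
    (∀ t, 0 ≤ t → 0 ≤ α t ∧ α t ≤ Real.pi / 2) ∧
    (∀ t, 1 ≤ t → α t = Real.pi / 2 ∧ om t = 0) ∧ ∀ t, |t| < 1 → 0 < om t := by
  have hb : ContDiff ℝ ∞ fun t : ℝ => expNegInvGlue (1 - t ^ 2) :=
    expNegInvGlue.contDiff.comp (contDiff_const.sub (contDiff_id.pow 2))
  obtain ⟨B, hB, hB0, hBd⟩ := profa_primitive hb
  have hpos : ∀ t : ℝ, |t| < 1 → 0 < expNegInvGlue (1 - t ^ 2) := fun t ht =>
    expNegInvGlue.pos_of_pos (by have := abs_lt.1 ht; nlinarith)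
  have hz : ∀ t : ℝ, 1 ≤ t → expNegInvGlue (1 - t ^ 2) = 0 := fun t ht =>
    expNegInvGlue.zero_of_nonpos (by nlinarith)
  have hB1 : 0 < B 1 := by
    obtain ⟨ξ, hξ, e⟩ := profa_mvt hBd zero_lt_one
    have := hpos ξ (abs_lt.2 ⟨by linarith [hξ.1], hξ.2⟩)
    rw [hB0] at e; linarith
  have hmono : ∀ a b, a ≤ b → B a ≤ B b := by
    intro a b hab
    obtain ⟨ξ, -, e⟩ := profa_mvt' hBd hab
    have := mul_nonneg (expNegInvGlue.nonneg (1 - ξ ^ 2)) (sub_nonneg.2 hab)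
    linarith
  have hc : ∀ t, 1 ≤ t → B t = B 1 := by
    intro t ht
    obtain ⟨ξ, hξ, e⟩ := profa_mvt' hBd ht
    rw [hz ξ hξ.1] at e; linarith
  have hodd : ∀ t, B (-t) = -1 * B t := profa_sym hBd hB0 (-1) fun t => by simp
  have hk : 0 < Real.pi / 2 / B 1 := by have := Real.pi_pos; positivity
  have hk1 : Real.pi / 2 / B 1 * B 1 = Real.pi / 2 := div_mul_cancel₀ _ hB1.ne'
  refine ⟨fun t => Real.pi / 2 / B 1 * B t, fun t => Real.pi / 2 / B 1 * expNegInvGlue (1 - t ^ 2),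
    contDiff_const.mul hB, contDiff_const.mul hb, fun t => (hBd t).const_mul _, fun t => ?_,
    fun t => by simp, fun t ht => ⟨?_, ?_⟩, fun t ht => ⟨?_, ?_⟩, fun t ht => mul_pos hk (hpos t ht)⟩
  · simp only [hodd]; ring
  · exact mul_nonneg hk.le (hB0 ▸ hmono 0 t ht)
  · refine le_of_le_of_eq (mul_le_mul_of_nonneg_left ?_ hk.le) hk1
    rcases le_total t 1 with h | h
    · exact hmono _ _ h
    · exact (hc t h).le
  · simp only [hc t ht, hk1]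
  · simp only [hz t ht, mul_zero]

/-- `α = (π/2) ∫₀ᵗ b / ∫₀¹ b` with `b` an even bump, positive on `(-1,1)`; `G1, G2` are the
primitives of `cos α, sin α` vanishing at `0`. -/
theorem exists_prof : Nonempty Prof := by
  obtain ⟨α, om, hα, hom, hd, hodd, hev, hbd, h1, hpos⟩ := profa_angle
  have hsn : ContDiff ℝ ∞ fun t => Real.sin (α t) := Real.contDiff_sin.comp hα
  have hcs : ContDiff ℝ ∞ fun t => Real.cos (α t) := Real.contDiff_cos.comp hα
  obtain ⟨G1, hG1, hG10, hG1d⟩ := profa_primitive hcs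
  obtain ⟨G2, hG2, hG20, hG2d⟩ := profa_primitive hsn
  have hG1o : ∀ t, G1 (-t) = -1 * G1 t := profa_sym hG1d hG10 (-1) fun t => by simp [hodd]
  have hG2e : ∀ t, G2 (-t) = 1 * G2 t := profa_sym hG2d hG20 1 fun t => by simp [hodd]
  have hpi := Real.pi_pos
  have hcs0 : ∀ t, 0 ≤ t → 0 ≤ Real.cos (α t) := fun t ht =>
    Real.cos_nonneg_of_neg_pi_div_two_le_of_le (by linarith [(hbd t ht).1]) (hbd t ht).2
  have hsn0 : ∀ t, 0 ≤ t → 0 ≤ Real.sin (α t) := fun t ht =>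
    Real.sin_nonneg_of_nonneg_of_le_pi (hbd t ht).1 (by linarith [(hbd t ht).2])
  have hP : ∀ t, 1 ≤ t → Real.sin (α t) = 1 ∧ Real.cos (α t) = 0 ∧ om t = 0 ∧
      G2 t = t - (1 - G2 1) := by
    have hs : ∀ t, 1 ≤ t → Real.sin (α t) = 1 := fun t ht => by
      rw [(h1 t ht).1, Real.sin_pi_div_two]
    intro t ht
    refine ⟨hs t ht, by rw [(h1 t ht).1, Real.cos_pi_div_two], (h1 t ht).2, ?_⟩
    obtain ⟨ξ, hξ, e⟩ := profa_mvt' hG2d ht
    rw [hs ξ hξ.1] at e; linarith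
  have hG1b : ∀ t, 0 ≤ t → |G1 t| ≤ 1 := by
    have h01 : ∀ t, 0 ≤ t → t ≤ 1 → |G1 t| ≤ 1 := by
      intro t ht ht1
      obtain ⟨ξ, hξ, e⟩ := profa_mvt' hG1d ht
      rw [hG10, sub_zero, sub_zero] at e
      rw [e, abs_mul, abs_of_nonneg ht]
      have := Real.abs_cos_le_one (α ξ)
      have := abs_nonneg (Real.cos (α ξ))
      nlinarith
    intro t ht
    rcases le_total t 1 with h | h
    · exact h01 t ht h
    · obtain ⟨ξ, hξ, e⟩ := profa_mvt' hG1d h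
      rw [(hP ξ hξ.1).2.1, zero_mul, sub_eq_zero] at e
      rw [e]; exact h01 1 zero_le_one le_rfl
  have hG2b : ∀ t, 0 ≤ t → 0 ≤ G2 t ∧ G2 t ≤ t := by
    intro t ht
    obtain ⟨ξ, hξ, e⟩ := profa_mvt' hG2d ht
    rw [hG20, sub_zero, sub_zero] at e
    rw [e]
    exact ⟨mul_nonneg (hsn0 ξ hξ.1) ht, mul_le_of_le_one_left ht (Real.sin_le_one _)⟩
  have hG2c : ∀ t, 0 ≤ t → t - 1 ≤ G2 t := by
    intro t ht
    rcases le_total t 1 with h | h
    · linarith [(hG2b t ht).1]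
    · rw [(hP t h).2.2.2]; linarith [(hG2b 1 zero_le_one).1]
  have hG2a : ∀ t, G2 t = G2 |t| := by
    intro t
    rcases le_total 0 t with h | h
    · rw [abs_of_nonneg h]
    · rw [abs_of_nonpos h, hG2e, one_mul]
  have hN : ∀ t, t ≤ -1 → Real.sin (α t) = -1 ∧ Real.cos (α t) = 0 ∧ om t = 0 ∧
      G2 t = -t - (1 - G2 1) := by
    intro t ht
    obtain ⟨p1, p2, p3, p4⟩ := hP (-t) (by linarith)
    rw [hodd] at p1 p2
    rw [Real.sin_neg] at p1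
    rw [Real.cos_neg] at p2
    rw [hev] at p3
    rw [hG2e, one_mul] at p4
    exact ⟨by linarith, p2, p3, p4⟩
  have hK : ∀ t, |Real.sin (α t)| ≤ 1 / 2 → |t| < 1 := by
    intro t ht
    by_contra hc
    rcases le_abs'.1 (not_lt.1 hc) with h | h
    · rw [(hN t h).1] at ht; norm_num at ht
    · rw [(hP t h).1] at ht; norm_num at ht
  have hcpt : IsCompact {t : ℝ | |Real.sin (α t)| ≤ 1 / 2} := by
    refine (isCompact_Icc (a := (-1 : ℝ)) (b := 1)).of_isClosed_subset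
      (isClosed_le hsn.continuous.abs continuous_const) fun t ht => ?_
    have := abs_lt.1 (hK t ht)
    exact ⟨this.1.le, this.2.le⟩
  have hne : {t : ℝ | |Real.sin (α t)| ≤ 1 / 2}.Nonempty := by
    refine ⟨0, ?_⟩
    have : α 0 = 0 := by have := hodd 0; rw [neg_zero] at this; linarith
    simp [this]
  obtain ⟨t₀, ht₀, hmin⟩ := hcpt.exists_isMinOn hne hom.continuous.continuousOn
  refine ⟨{ sn := fun t => Real.sin (α t), cs := fun t => Real.cos (α t), om := om, G1 := G1,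
            G2 := G2, γ := 1 - G2 1, c := om t₀, sn_sm := hsn, cs_sm := hcs, om_sm := hom,
            G1_sm := hG1, G2_sm := hG2, sq := fun t => Real.sin_sq_add_cos_sq _, dG1 := hG1d,
            dG2 := hG2d, dsn := fun t => ?_, dcs := fun t => ?_, cs_nonneg := fun t => ?_,
            pos := hP, neg := hN, G1_bd := fun t => ?_, G2_nonneg := fun t => ?_,
            G2_le := fun t => ?_, G2_ge := fun t => ?_, c_pos := hpos t₀ (hK t₀ ht₀),
            om_ge := fun t ht => hmin ht }⟩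
  · convert (hd t).sin using 1; ring
  · convert (hd t).cos using 1; ring
  · rcases le_total 0 t with h | h
    · exact hcs0 t h
    · have := hcs0 (-t) (by linarith)
      rwa [hodd, Real.cos_neg] at this
  · rcases le_total 0 t with h | h
    · exact hG1b t h
    · have := hG1b (-t) (by linarith)
      rwa [hG1o, neg_one_mul, abs_neg] at this
  · rw [hG2a]; exact (hG2b _ (abs_nonneg t)).1
  · rw [hG2a]; exact (hG2b _ (abs_nonneg t)).2
  · rw [hG2a]; exact hG2c _ (abs_nonneg t)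

/-- a smooth step from `1` (on `t ≤ 1`) to `0` (on `t ≥ 2`) -/
structure Cut where
  χ : ℝ → ℝ
  L : ℝ
  sm : ContDiff ℝ ∞ χ
  one : ∀ t, t ≤ 1 → χ t = 1
  zero : ∀ t, 2 ≤ t → χ t = 0
  nonneg : ∀ t, 0 ≤ χ t
  le_one : ∀ t, χ t ≤ 1
  d_bd : ∀ t, |deriv χ t| ≤ L

theorem exists_cut : Nonempty Cut := by
  have hsm : ContDiff ℝ ∞ fun t : ℝ => 1 - Real.smoothTransition (t - 1) :=
    contDiff_const.sub (Real.smoothTransition.contDiff.comp (contDiff_id.sub contDiff_const))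
  have h1 : ∀ t : ℝ, t ≤ 1 → 1 - Real.smoothTransition (t - 1) = 1 := fun t ht => by
    rw [Real.smoothTransition.zero_of_nonpos (by linarith), sub_zero]
  have h0 : ∀ t : ℝ, 2 ≤ t → 1 - Real.smoothTransition (t - 1) = 0 := fun t ht => by
    rw [Real.smoothTransition.one_of_one_le (by linarith), sub_self]
  have hc : Continuous (deriv fun t : ℝ => 1 - Real.smoothTransition (t - 1)) :=
    hsm.continuous_deriv (by simp)
  obtain ⟨L, hL⟩ := (isCompact_Icc (a := (1 : ℝ)) (b := 2)).exists_bound_of_continuousOn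
    hc.continuousOn
  have hL0 : 0 ≤ L := (norm_nonneg _).trans (hL 1 ⟨le_rfl, by norm_num⟩)
  refine ⟨{ χ := fun t => 1 - Real.smoothTransition (t - 1), L := L, sm := hsm, one := h1,
            zero := h0, nonneg := fun t => sub_nonneg.2 (Real.smoothTransition.le_one _),
            le_one := fun t => sub_le_self _ (Real.smoothTransition.nonneg _),
            d_bd := fun t => ?_ }⟩
  rcases lt_or_ge t 1 with h | h
  · have : (fun t : ℝ => 1 - Real.smoothTransition (t - 1)) =ᶠ[𝓝 t] fun _ => 1 := by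
      filter_upwards [Iio_mem_nhds h] with u hu using h1 u (le_of_lt hu)
    rw [this.deriv_eq]; simpa using hL0
  rcases lt_or_ge 2 t with h' | h'
  · have : (fun t : ℝ => 1 - Real.smoothTransition (t - 1)) =ᶠ[𝓝 t] fun _ => 0 := by
      filter_upwards [Ioi_mem_nhds h'] with u hu using h0 u (le_of_lt hu)
    rw [this.deriv_eq]; simpa using hL0
  · exact hL t ⟨h, h'⟩

namespace Cut
variable (χ : Cut)

/-- `1` on `|y| ≤ a`, `0` on `|y| ≥ a + 1` -/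
def ev (a y : ℝ) : ℝ := χ.χ (y - a + 1) * χ.χ (-y - a + 1)

theorem ev_sm (a : ℝ) : ContDiff ℝ ∞ (χ.ev a) :=
  (χ.sm.comp ((contDiff_id.sub contDiff_const).add contDiff_const)).mul
    (χ.sm.comp ((contDiff_id.neg.sub contDiff_const).add contDiff_const))
theorem ev_one {a y : ℝ} (h : |y| ≤ a) : χ.ev a y = 1 := by
  have := abs_le.1 h
  rw [ev, χ.one _ (by linarith), χ.one _ (by linarith), mul_one]
theorem ev_zero {a y : ℝ} (h : a + 1 ≤ |y|) : χ.ev a y = 0 := by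
  rcases le_abs'.1 h with h | h
  · rw [ev, χ.zero (-y - a + 1) (by linarith), mul_zero]
  · rw [ev, χ.zero (y - a + 1) (by linarith), zero_mul]
theorem ev_nonneg (a y : ℝ) : 0 ≤ χ.ev a y := mul_nonneg (χ.nonneg _) (χ.nonneg _)
theorem ev_le_one (a y : ℝ) : χ.ev a y ≤ 1 := mul_le_one₀ (χ.le_one _) (χ.nonneg _) (χ.le_one _)
theorem ev_d_bd (a y : ℝ) : |deriv (χ.ev a) y| ≤ 2 * χ.L := by
  have hd : ∀ t, HasDerivAt χ.χ (deriv χ.χ t) t := fun t =>
    (χ.sm.differentiable (by simp) t).hasDerivAt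
  have h1 : HasDerivAt (fun y => χ.χ (y - a + 1)) (deriv χ.χ (y - a + 1) * 1) y :=
    (hd _).comp y (((hasDerivAt_id y).sub_const a).add_const 1)
  have h2 : HasDerivAt (fun y => χ.χ (-y - a + 1)) (deriv χ.χ (-y - a + 1) * (-1)) y :=
    (hd _).comp y (((hasDerivAt_neg y).sub_const a).add_const 1)
  have h3 : HasDerivAt (χ.ev a) _ y := h1.mul h2
  rw [h3.deriv]
  have a1 := abs_le.1 (χ.d_bd (y - a + 1))
  have a2 := abs_le.1 (χ.d_bd (-y - a + 1))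
  have b1 := χ.nonneg (y - a + 1)
  have b2 := χ.nonneg (-y - a + 1)
  have c1 := χ.le_one (y - a + 1)
  have c2 := χ.le_one (-y - a + 1)
  have hL : 0 ≤ χ.L := (abs_nonneg _).trans (χ.d_bd 0)
  rw [abs_le]
  constructor <;> nlinarith
theorem L_nonneg : 0 ≤ χ.L := (abs_nonneg _).trans (χ.d_bd 0)

/-- width of the crease: `ε` for `|y| ≤ 2`, `s` for `|y| ≥ 3` -/
def ef (s ε y : ℝ) : ℝ := s * (1 - χ.ev 2 y) + ε * χ.ev 2 y

theorem ef_sm (s ε : ℝ) : ContDiff ℝ ∞ (χ.ef s ε) :=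
  (contDiff_const.mul (contDiff_const.sub (χ.ev_sm 2))).add (contDiff_const.mul (χ.ev_sm 2))
theorem ef_mem {s ε : ℝ} (h : ε ≤ s) (y : ℝ) : ε ≤ χ.ef s ε y ∧ χ.ef s ε y ≤ s := by
  have h1 := χ.ev_nonneg 2 y
  have h2 := χ.ev_le_one 2 y
  unfold ef
  constructor <;> nlinarith
theorem ef_d_bd {s ε : ℝ} (h0 : 0 ≤ ε) (h : ε ≤ s) (y : ℝ) :
    |deriv (χ.ef s ε) y| ≤ 2 * χ.L * s := by
  have hd : HasDerivAt (χ.ev 2) (deriv (χ.ev 2) y) y :=
    ((χ.ev_sm 2).differentiable (by simp) y).hasDerivAt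
  have h1 : HasDerivAt (χ.ef s ε) _ y := ((hd.const_sub 1).const_mul s).add (hd.const_mul ε)
  rw [h1.deriv]
  have e : s * -deriv (χ.ev 2) y + ε * deriv (χ.ev 2) y = -((s - ε) * deriv (χ.ev 2) y) := by ring
  rw [e, abs_neg, abs_mul, abs_of_nonneg (sub_nonneg.2 h), mul_comm]
  exact mul_le_mul (χ.ev_d_bd 2 y) (by linarith) (sub_nonneg.2 h)
    (by have := χ.L_nonneg; positivity)

theorem profb_sm (i : Fin 2) : Sm fun z : E2 => z i :=
  sm_plane.2 (EuclideanSpace.proj (𝕜 := ℝ) i : E2 →L[ℝ] ℝ).contDiff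

theorem profb_dd (i : Fin 2) (p v : E2) : dd (fun z : E2 => z i) p v = v i := by
  rw [dd_plane]
  exact congrArg (fun L : E2 →L[ℝ] ℝ => L v) (EuclideanSpace.proj (𝕜 := ℝ) i : E2 →L[ℝ] ℝ).fderiv

theorem profb_dz {φ : ℝ → ℝ} {R : ℝ} (h : ∀ t, R < |t| → φ t = 0) (t : ℝ) (ht : R < |t|) :
    deriv φ t = 0 := by
  have : φ =ᶠ[𝓝 t] fun _ => 0 := by
    filter_upwards [(isOpen_lt continuous_const continuous_abs).mem_nhds ht] with y hy
    exact h y hy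
  rw [this.deriv_eq, deriv_const]

theorem profb_bdd {φ : ℝ → ℝ} {R : ℝ} (hR : 0 ≤ R) (hφ : Differentiable ℝ φ)
    (h : ∀ t, R < |t| → deriv φ t = 0) : ∃ C : ℝ, ∀ t, |φ t| ≤ C := by
  obtain ⟨C, hC⟩ := (isCompact_Icc (a := -R) (b := R)).exists_bound_of_continuousOn
    hφ.continuous.continuousOn
  refine ⟨C, fun t => ?_⟩
  rcases lt_or_ge R t with h1 | h1
  · obtain ⟨c, hc, hc'⟩ := exists_deriv_eq_slope φ h1 hφ.continuous.continuousOn
      hφ.differentiableOn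
    rw [h c (hc.1.trans_le (le_abs_self c)), eq_comm, div_eq_zero_iff, sub_eq_zero,
      sub_eq_zero] at hc'
    rw [hc'.resolve_right h1.ne']
    exact hC R ⟨by linarith, le_rfl⟩
  rcases lt_or_ge t (-R) with h2 | h2
  · obtain ⟨c, hc, hc'⟩ := exists_deriv_eq_slope φ h2 hφ.continuous.continuousOn
      hφ.differentiableOn
    rw [h c (by linarith [hc.2, neg_le_abs c]), eq_comm, div_eq_zero_iff, sub_eq_zero,
      sub_eq_zero] at hc'
    rw [← hc'.resolve_right h2.ne']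
    exact hC (-R) ⟨le_rfl, by linarith⟩
  · exact hC t ⟨h2, h1⟩

theorem profb_deriv {φ : ℝ → ℝ} (hφ : ContDiff ℝ ∞ φ) : ContDiff ℝ ∞ (deriv φ) :=
  (contDiff_infty_iff_deriv.1 hφ).2

theorem profb_diff {φ : ℝ → ℝ} (hφ : ContDiff ℝ ∞ φ) : Differentiable ℝ φ :=
  (contDiff_infty_iff_deriv.1 hφ).1

theorem profb_zv {φ : ℝ → ℝ} (hφ : Differentiable ℝ φ) :
    Zv (V0 0) (fun z : E2 => φ (z 1)) = (fun _ => 0) ∧
      Zv (V0 1) (fun z : E2 => φ (z 1)) = fun z => deriv φ (z 1) := by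
  have h : ∀ p v : E2, dd (fun z : E2 => φ (z 1)) p v = v 1 • deriv φ (p 1) := fun p v => by
    rw [dd_comp_deriv (f := fun z : E2 => z 1) (hφ (p 1)).hasDerivAt ((profb_sm 1).df p), profb_dd]
  constructor <;> funext z <;> simp [Zv, h, V0]

theorem profb_zero (k : ℕ) {l c : ℝ} (hl : 0 ≤ l) (hc : 0 ≤ c) :
    Bd V0 k l (fun _ : E2 => (0 : ℝ)) c :=
  (Bd.const k hl (0 : ℝ)).mono hl (by simpa using hc)

theorem profb_y (k : ℕ) : ∀ {φ : ℝ → ℝ}, ContDiff ℝ ∞ φ → (∀ t, 3 < |t| → deriv φ t = 0) →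
    ∃ C : ℝ, 0 ≤ C ∧ Bd V0 k 1 (fun z : E2 => φ (z 1)) C := by
  induction k with
  | zero =>
    intro φ hφ h
    obtain ⟨C, hC⟩ := profb_bdd (by norm_num) (profb_diff hφ) h
    exact ⟨C, (abs_nonneg _).trans (hC 0), fun p => hC _⟩
  | succ k ih =>
    intro φ hφ h
    obtain ⟨C, hC⟩ := profb_bdd (by norm_num) (profb_diff hφ) h
    obtain ⟨C', hC'0, hC'⟩ := ih (profb_deriv hφ) (profb_dz h)
    have h0 : 0 ≤ C := (abs_nonneg _).trans (hC 0)
    refine ⟨C + C', by positivity, fun p => (hC _).trans (by linarith), ?_⟩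
    rw [Fin.forall_fin_two, (profb_zv (profb_diff hφ)).1, (profb_zv (profb_diff hφ)).2]
    exact ⟨profb_zero k zero_le_one (by positivity), hC'.mono zero_le_one (by linarith)⟩

theorem bd_def (k : ℕ) : ∃ C : ℝ, ∀ s ε : ℝ, 0 < ε → ε ≤ s →
    Bd V0 k 1 (fun z : E2 => deriv (χ.ef s ε) (z 1)) (C * s) := by
  have hz : ∀ t, 3 < |t| → χ.ev 2 t = 0 := fun t ht => χ.ev_zero (by linarith)
  obtain ⟨C, hC0, hC⟩ := profb_y k (profb_deriv (χ.ev_sm 2)) (profb_dz (profb_dz hz))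
  refine ⟨C, fun s ε hε hs => ?_⟩
  have h1 : (fun z : E2 => deriv (χ.ef s ε) (z 1)) =
      fun z : E2 => (ε - s) • deriv (χ.ev 2) (z 1) := by
    funext z
    have hd := (profb_diff (χ.ev_sm 2) (z 1)).hasDerivAt
    have : HasDerivAt (χ.ef s ε)
        (s * (-deriv (χ.ev 2) (z 1)) + ε * deriv (χ.ev 2) (z 1)) (z 1) :=
      ((hd.const_sub 1).const_mul s).add (hd.const_mul ε)
    rw [this.deriv, smul_eq_mul]
    ring
  rw [h1]
  refine (Bd.csmul smV_V0 (ε - s) ((profb_sm 1).comp' (profb_deriv (χ.ev_sm 2))) hC).mono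
    zero_le_one ?_
  rw [mul_comm, abs_of_nonpos (by linarith)]
  exact mul_le_mul_of_nonneg_left (by linarith) hC0

theorem profb_pos {s ε : ℝ} (hε : 0 < ε) (hs : ε ≤ s) (y : ℝ) : 0 < χ.ef s ε y :=
  hε.trans_le (χ.ef_mem hs y).1

theorem profb_ratio_sm {s ε : ℝ} (hε : 0 < ε) (hs : ε ≤ s) :
    ContDiff ℝ ∞ fun y => ε / χ.ef s ε y :=
  contDiff_const.div (χ.ef_sm s ε) fun y => (χ.profb_pos hε hs y).ne'

theorem profb_def (k : ℕ) : ∃ C : ℝ, 0 ≤ C ∧ ∀ s ε : ℝ, 0 < ε → ε ≤ s → s ≤ 1 →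
    Bd V0 k ε⁻¹ (fun z : E2 => deriv (χ.ef s ε) (z 1)) C := by
  obtain ⟨C, hC⟩ := χ.bd_def k
  refine ⟨|C|, abs_nonneg C, fun s ε hε hs hs1 => ?_⟩
  refine ((hC s ε hε hs).mono_l zero_le_one ((one_le_inv₀ hε).2 (by linarith))).mono
    (by positivity) ?_
  calc C * s ≤ |C| * s := mul_le_mul_of_nonneg_right (le_abs_self C) (by linarith)
    _ ≤ |C| := mul_le_of_le_one_right (abs_nonneg C) hs1

/-- induction on `k`: `∂_Y (ε/e) = -(ε/e)² e' / ε` -/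
theorem bd_ratio (k : ℕ) : ∃ C : ℝ, ∀ s ε : ℝ, 0 < ε → ε ≤ s → s ≤ 1 →
    Bd V0 k ε⁻¹ (fun z : E2 => ε / χ.ef s ε (z 1)) C := by
  have hsup : ∀ s ε : ℝ, 0 < ε → ε ≤ s → ∀ z : E2, ‖ε / χ.ef s ε (z 1)‖ ≤ 1 := by
    intro s ε hε hs z
    have := χ.profb_pos hε hs (z 1)
    rw [Real.norm_of_nonneg (by positivity), div_le_one this]
    exact (χ.ef_mem hs _).1
  induction k with
  | zero => exact ⟨1, fun s ε hε hs _ => hsup s ε hε hs⟩
  | succ k ih =>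
    obtain ⟨C, hC⟩ := ih
    obtain ⟨D, hD0, hD⟩ := χ.profb_def k
    refine ⟨max 1 (2 ^ k * (2 ^ k * C * C) * D), fun s ε hε hs hs1 =>
      ⟨fun z => (hsup s ε hε hs z).trans (le_max_left _ _), ?_⟩⟩
    have hl : 0 ≤ ε⁻¹ := by positivity
    have hr := χ.profb_ratio_sm hε hs
    have hzv := profb_zv (profb_diff hr)
    rw [Fin.forall_fin_two, hzv.1, hzv.2]
    refine ⟨profb_zero k hl (by positivity), ?_⟩
    have h1 : (fun z : E2 => deriv (fun y => ε / χ.ef s ε y) (z 1)) = fun z : E2 =>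
        (-ε⁻¹) • (ε / χ.ef s ε (z 1) * (ε / χ.ef s ε (z 1)) * deriv (χ.ef s ε) (z 1)) := by
      funext z
      have hp := (χ.profb_pos hε hs (z 1)).ne'
      have := (hasDerivAt_const (z 1) ε).div (profb_diff (χ.ef_sm s ε) (z 1)).hasDerivAt hp
      rw [show (fun y => ε / χ.ef s ε y) = (fun _ => ε) / χ.ef s ε from rfl, this.deriv,
        smul_eq_mul]
      field_simp
      ring
    rw [h1]
    have hrs := (profb_sm 1).comp' hr
    have hes := (profb_sm 1).comp' (profb_deriv (χ.ef_sm s ε))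
    refine (Bd.csmul smV_V0 (-ε⁻¹) ((hrs.mul' hrs).mul' hes)
      (Bd.mul smV_V0 hl (hrs.mul' hrs) hes
        (Bd.mul smV_V0 hl hrs hrs (hC s ε hε hs hs1) (hC s ε hε hs hs1))
        (hD s ε hε hs hs1))).mono hl ?_
    rw [abs_neg, abs_of_nonneg hl]
    exact mul_le_mul_of_nonneg_left (le_max_right _ _) hl

/-- induction on `k` over all `Θ`: `∂_X Θ(X/e) = (ε/e) Θ'(X/e) / ε`,
`∂_Y Θ(X/e) = -(ε/e) e' (t Θ')(X/e) / ε` -/
theorem bd_scaled {Θ : ℝ → ℝ} (hΘ : ContDiff ℝ ∞ Θ) (h1 : ∀ t, 1 < |t| → deriv Θ t = 0) (k : ℕ) :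
    ∃ C : ℝ, ∀ s ε : ℝ, 0 < ε → ε ≤ s → s ≤ 1 →
      Bd V0 k ε⁻¹ (fun z : E2 => Θ (z 0 / χ.ef s ε (z 1))) C := by
  induction k generalizing Θ with
  | zero =>
    obtain ⟨C, hC⟩ := profb_bdd zero_le_one (profb_diff hΘ) h1
    exact ⟨C, fun s ε _ _ _ p => hC _⟩
  | succ k ih =>
    obtain ⟨C₀, hC₀⟩ := profb_bdd zero_le_one (profb_diff hΘ) h1
    have hΘ₂ : ContDiff ℝ ∞ fun t => t * deriv Θ t := contDiff_id.mul (profb_deriv hΘ)
    obtain ⟨C₁, hC₁⟩ := ih (profb_deriv hΘ) (profb_dz h1)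
    obtain ⟨C₂, hC₂⟩ := ih hΘ₂ (profb_dz fun t ht => by rw [h1 t ht, mul_zero])
    obtain ⟨C, hC⟩ := χ.bd_ratio k
    obtain ⟨D, -, hD⟩ := χ.profb_def k
    refine ⟨max C₀ (max (2 ^ k * C * C₁) (2 ^ k * (2 ^ k * C * D) * C₂)), fun s ε hε hs hs1 =>
      ⟨fun z => (hC₀ _).trans (le_max_left _ _), ?_⟩⟩
    have hl : 0 ≤ ε⁻¹ := by positivity
    have hrs := (profb_sm 1).comp' (χ.profb_ratio_sm hε hs)
    have hes := (profb_sm 1).comp' (profb_deriv (χ.ef_sm s ε))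
    have hinv : ContDiff ℝ ∞ fun y => (χ.ef s ε y)⁻¹ :=
      (χ.ef_sm s ε).inv fun y => (χ.profb_pos hε hs y).ne'
    have hq : Sm fun z : E2 => z 0 / χ.ef s ε (z 1) := by
      simp only [div_eq_mul_inv]
      exact (profb_sm 0).mul' ((profb_sm 1).comp' hinv)
    have hdq : ∀ p v : E2, dd (fun z : E2 => z 0 / χ.ef s ε (z 1)) p v =
        p 0 * (v 1 * (-deriv (χ.ef s ε) (p 1) / χ.ef s ε (p 1) ^ 2)) +
          v 0 * (χ.ef s ε (p 1))⁻¹ := by
      intro p v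
      simp only [div_eq_mul_inv (_ : ℝ) (χ.ef s ε _)]
      have h2 := ((profb_diff (χ.ef_sm s ε) (p 1)).hasDerivAt).inv (χ.profb_pos hε hs (p 1)).ne'
      rw [dd_mul ((profb_sm 0).df p) (((profb_sm 1).comp' hinv).df p), profb_dd,
        dd_comp_deriv (Φ := fun y => (χ.ef s ε y)⁻¹) (f := fun z : E2 => z 1) h2
          ((profb_sm 1).df p), profb_dd, smul_eq_mul]
    have hd : ∀ p v : E2, dd (fun z : E2 => Θ (z 0 / χ.ef s ε (z 1))) p v =
        (p 0 * (v 1 * (-deriv (χ.ef s ε) (p 1) / χ.ef s ε (p 1) ^ 2)) +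
          v 0 * (χ.ef s ε (p 1))⁻¹) * deriv Θ (p 0 / χ.ef s ε (p 1)) := by
      intro p v
      rw [dd_comp_deriv (f := fun z : E2 => z 0 / χ.ef s ε (z 1))
        (profb_diff hΘ _).hasDerivAt (hq.df p), hdq, smul_eq_mul]
    have e0 : Zv (V0 0) (fun z : E2 => Θ (z 0 / χ.ef s ε (z 1))) = fun z : E2 =>
        ε⁻¹ • (ε / χ.ef s ε (z 1) * deriv Θ (z 0 / χ.ef s ε (z 1))) := by
      funext z
      have hp := (χ.profb_pos hε hs (z 1)).ne'
      simp [Zv, hd, V0]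
      field_simp
    have e1 : Zv (V0 1) (fun z : E2 => Θ (z 0 / χ.ef s ε (z 1))) = fun z : E2 =>
        (-ε⁻¹) • (ε / χ.ef s ε (z 1) * deriv (χ.ef s ε) (z 1) *
          (z 0 / χ.ef s ε (z 1) * deriv Θ (z 0 / χ.ef s ε (z 1)))) := by
      funext z
      have hp := (χ.profb_pos hε hs (z 1)).ne'
      simp [Zv, hd, V0]
      field_simp
    rw [Fin.forall_fin_two, e0, e1]
    constructor
    · have h3 := hq.comp' (profb_deriv hΘ)
      refine (Bd.csmul smV_V0 ε⁻¹ (hrs.mul' h3)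
        (Bd.mul smV_V0 hl hrs h3 (hC s ε hε hs hs1) (hC₁ s ε hε hs hs1))).mono hl ?_
      rw [abs_of_nonneg hl]
      exact mul_le_mul_of_nonneg_left ((le_max_left _ _).trans (le_max_right _ _)) hl
    · have h3 := hq.comp' hΘ₂
      refine (Bd.csmul smV_V0 (-ε⁻¹) ((hrs.mul' hes).mul' h3)
        (Bd.mul smV_V0 hl (hrs.mul' hes) h3
          (Bd.mul smV_V0 hl hrs hes (hC s ε hε hs hs1) (hD s ε hε hs hs1))
          (hC₂ s ε hε hs hs1))).mono hl ?_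
      rw [abs_neg, abs_of_nonneg hl]
      exact mul_le_mul_of_nonneg_left ((le_max_right _ _).trans (le_max_right _ _)) hl

end Cut

/-- `dd` on the plane in terms of the partial derivatives -/
theorem dd_plane_eq {F : Type} [NormedAddCommGroup F] [NormedSpace ℝ F] (f : E2 → F) (z v : E2) :
    dd f z v = v 0 • pX f z + v 1 • pY f z := by
  have hv : v = v 0 • EuclideanSpace.single (0 : Fin 2) (1 : ℝ) +
      v 1 • EuclideanSpace.single (1 : Fin 2) (1 : ℝ) := by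
    ext i; fin_cases i <;> simp
  conv_lhs => rw [hv]
  rw [map_add, map_smul, map_smul]
  rfl

/-- smooth primitives -/
theorem exists_primitive {f : ℝ → ℝ} (hf : ContDiff ℝ ∞ f) :
    ∃ G : ℝ → ℝ, ContDiff ℝ ∞ G ∧ G 0 = 0 ∧ ∀ t, HasDerivAt G (f t) t := profa_primitive hf

end Crest.Agent.R216
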