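import Crest.Agent.R216.TY
/-!
# R216 (T): assembling `Crit g`

Recipe.  Enumerate the critical points `p j` (`Set.Finite.equivFin`), `choose` charts and constants.  `flat_chart`: fields `V, W` of
`IsCh.exists_frame`; near `p`, `v = (dd e q v 0) • V q + (dd e q v 1) • W q` (`IsCh.bij`), the functions `g V V, g V W, g W W` are continuous
(`g.sm`) with values `1, 0, 1` at `p`.  Take pairwise disjoint open `O j ∋ p j` (`Set.Finite.t2_separation`) inside `source` on which the normal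
forms of `f` and `Ω` hold and `x j = e j` (`IsCh.exists_ext` with `K = {p j}`), `R > 0` with the closed box
`Q = {|z 0| ≤ R, |z 1| ≤ R} ⊆ e j '' O j` for all `j`; `K j = (e j).symm '' Q` (compact), `B j = source ∩ e ⁻¹' (open box R)`.
`Yl j q v = dd (x j) q v 0 + ε * dd (x j) q v 1 * I`; `exists_Y`; `Y = ![re, im]`, `y1 = y2 = 1`.
On `O j`: `dd f q w = 2 η (l1 x dx w + κ l2 y dy w)`, `Ω q = jac e q • rep`, `det2 (dd e q w) (dd e q v) = jac e q * det2 w v`.
-/

set_option autoImplicit false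
open scoped Manifold ContDiff Topology Matrix
open Set Filter Function Metric

namespace Crest.Agent.R216
universe u

theorem tasm_norm_le (z : E2) : ‖z‖ ≤ |z 0| + |z 1| := by
  conv_lhs => rw [vec_eq z]
  refine (norm_add_le _ _).trans (le_of_eq ?_)
  simp [norm_smul, b0, b1]

theorem tasm_box {P : E2 → Prop} (h : ∀ᶠ z in 𝓝 (0 : E2), P z) :
    ∀ᶠ R in 𝓝[>] (0 : ℝ), ∀ z : E2, |z 0| ≤ R → |z 1| ≤ R → P z := by
  obtain ⟨δ, hδ, hP⟩ := Metric.eventually_nhds_iff.1 h
  have h1 : ∀ᶠ R in 𝓝[>] (0 : ℝ), R < δ / 2 :=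
    nhdsWithin_le_nhds (Iio_mem_nhds (by positivity))
  filter_upwards [h1] with R hR z h0 h1
  refine hP ?_
  rw [dist_zero_right]
  have := tasm_norm_le z
  linarith

theorem tasm_compact (r : ℝ) : IsCompact {z : E2 | |z 0| ≤ r ∧ |z 1| ≤ r} := by
  refine (isCompact_closedBall (0 : E2) (2 * r)).of_isClosed_subset ?_ ?_
  · exact (isClosed_le (f := fun z : E2 => |z 0|) (by fun_prop) continuous_const).inter
      (isClosed_le (f := fun z : E2 => |z 1|) (by fun_prop) continuous_const)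
  · intro z hz
    rw [mem_closedBall, dist_zero_right]
    have := tasm_norm_le z
    linarith [hz.1, hz.2]

variable {M : Type u} [TopologicalSpace M] [ChartedSpace E2 M] [IsManifold (𝓡 2) ∞ M]
  [T2Space M] [CompactSpace M]

theorem flat_chart (g : Met M) {e : OpenPartialHomeomorph M E2} (he : IsCh e) {p : M}
    (hp : p ∈ e.source) (ho : ∀ v, g.g p v v = dd e p v 0 ^ 2 + dd e p v 1 ^ 2) {t : ℝ}
    (ht : 0 < t) : ∀ᶠ q in 𝓝 p, ∀ v, |g.g q v v - (dd e q v 0 ^ 2 + dd e q v 1 ^ 2)| ≤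
      t * (dd e q v 0 ^ 2 + dd e q v 1 ^ 2) := by
  obtain ⟨V, W, hV, hW, hVW⟩ := he.exists_frame hp
  have h0 := hVW.self_of_nhds
  have ha : g.g p (V p) (V p) = 1 := by rw [ho, h0.1]; simp [b0]
  have hc : g.g p (W p) (W p) = 1 := by rw [ho, h0.2]; simp [b1]
  have hb : g.g p (V p) (W p) = 0 := by
    have h1 := ho (V p + W p)
    rw [map_add (dd e p), h0.1, h0.2] at h1
    simp only [map_add, add_apply, ha, hc, g.symm p (W p) (V p)] at h1
    simp [b0, b1] at h1
    linarith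
  have hev : ∀ {φ : M → ℝ}, Continuous φ → ∀ᶠ q in 𝓝 p, |φ q - φ p| ≤ t / 2 := by
    intro φ hφ
    have := Metric.tendsto_nhds.1 (hφ.tendsto p) (t / 2) (by positivity)
    filter_upwards [this] with q hq
    exact (Real.dist_eq _ _ ▸ hq).le
  filter_upwards [hVW, e.open_source.mem_nhds hp, hev (g.sm V V hV hV).cont,
    hev (g.sm V W hV hW).cont, hev (g.sm W W hW hW).cont] with q hq hqs h1 h2 h3 v
  rw [ha] at h1
  rw [hb, sub_zero] at h2
  rw [hc] at h3
  have hv : v = dd e q v 0 • V q + dd e q v 1 • W q := by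
    apply (he.bij hqs).1
    rw [map_add, map_smul, map_smul, hq.1, hq.2]
    exact vec_eq _
  set s := dd e q v 0
  set r := dd e q v 1
  have hg : g.g q v v = s ^ 2 * g.g q (V q) (V q) + 2 * s * r * g.g q (V q) (W q) +
      r ^ 2 * g.g q (W q) (W q) := by
    conv_lhs => rw [hv]
    simp only [map_add, map_smul, add_apply, smul_apply,
      smul_eq_mul, g.symm q (W q) (V q)]
    ring
  rw [hg, abs_le] at *
  constructor <;> nlinarith [sq_nonneg s, sq_nonneg r, sq_nonneg (s + r), sq_nonneg (s - r),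
    mul_nonneg (sq_nonneg s) (sub_nonneg.2 h1.1), mul_nonneg (sq_nonneg s) (sub_nonneg.2 h1.2),
    mul_nonneg (sq_nonneg r) (sub_nonneg.2 h3.1), mul_nonneg (sq_nonneg r) (sub_nonneg.2 h3.2),
    mul_nonneg (sq_nonneg (s + r)) (sub_nonneg.2 h2.1),
    mul_nonneg (sq_nonneg (s + r)) (sub_nonneg.2 h2.2),
    mul_nonneg (sq_nonneg (s - r)) (sub_nonneg.2 h2.1),
    mul_nonneg (sq_nonneg (s - r)) (sub_nonneg.2 h2.2)]

omit [IsManifold (𝓡 2) ∞ M] [T2Space M] [CompactSpace M] in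
theorem tasm_dd_coord {X : M → E2} (hX : Sm X) (i : Fin 2) (q : M) (v : E2) :
    dd (fun q => X q i) q v = dd X q v i :=
  dd_clm (EuclideanSpace.proj i : E2 →L[ℝ] ℝ) (hX.df q) v

omit [IsManifold (𝓡 2) ∞ M] [T2Space M] [CompactSpace M] in
theorem tasm_dd_quad {X : M → E2} (hX : Sm X) (c η κ l1 l2 : ℝ) (q : M) (v : E2) :
    dd (fun q => c + η * (l1 * X q 0 ^ 2 + κ * (l2 * X q 1 ^ 2))) q v =
      2 * η * l1 * X q 0 * dd X q v 0 + 2 * η * κ * l2 * X q 1 * dd X q v 1 := by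
  have h0 : HasFDerivAt (fun z : E2 => z 0) (EuclideanSpace.proj (0 : Fin 2) : E2 →L[ℝ] ℝ) (X q) :=
    (EuclideanSpace.proj (0 : Fin 2) : E2 →L[ℝ] ℝ).hasFDerivAt
  have h1 : HasFDerivAt (fun z : E2 => z 1) (EuclideanSpace.proj (1 : Fin 2) : E2 →L[ℝ] ℝ) (X q) :=
    (EuclideanSpace.proj (1 : Fin 2) : E2 →L[ℝ] ℝ).hasFDerivAt
  have h2 := (((((h0.pow 2).const_mul l1).add
    (((h1.pow 2).const_mul l2).const_mul κ)).const_mul η).const_add c)
  have h3 := dd_comp (Φ := fun z : E2 => c + η * (l1 * z 0 ^ 2 + κ * (l2 * z 1 ^ 2)))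
    h2.differentiableAt (hX.df q) v
  rw [h3]
  erw [h2.fderiv]
  simp
  ring

theorem assemble (g : Met M) {f : M → ℝ} (hf : Sm f) {Ω : M → ℂ} (hΩ : SmF Ω)
    (hfin : {p | dd f p = 0}.Finite) (hz : ∀ p, Ω p = 0 → dd f p = 0)
    (h : ∀ p, dd f p = 0 → ∃ (e : OpenPartialHomeomorph M E2) (η κ l1 l2 ε : ℝ),
      NF g f e p η κ l1 l2 ∧ (ε = 1 ∨ ε = -1) ∧ rep e Ω =ᶠ[𝓝 0] fun z =>
        (⟨-(2 * η * κ * l2 * z 1), ε * (2 * η * l1 * z 0)⟩ : ℂ)) : Nonempty (Crit g) := by
  classical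
  obtain ⟨m, p, hp⟩ := hfin.fin_embedding
  have hpc : ∀ j, dd f (p j) = 0 := fun j => by
    have : p j ∈ range p := mem_range_self j
    rwa [hp] at this
  choose e η κ l1 l2 ε hN hε hr using fun j => h (p j) (hpc j)
  obtain ⟨U, hU, hUd⟩ := hfin.t2_separation
  have hX : ∀ j, ∃ X : M → E2, Sm X ∧ ∀ᶠ q in 𝓝 (p j), X q = e j q := fun j => by
    have := (hN j).ch.exists_ext (isCompact_singleton (x := p j))
      (singleton_subset_iff.2 (hN j).mem)
    rwa [nhdsSet_singleton] at this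
  choose X hXs hXe using hX
  have hO : ∀ j, ∃ O : Set M, (∀ q ∈ O, q ∈ U (p j) ∧ X j q = e j q ∧
      f q = f (p j) + η j * (l1 j * e j q 0 ^ 2 + κ j * (l2 j * e j q 1 ^ 2)) ∧
      q ∈ (e j).source ∧ rep (e j) Ω (e j q) =
        (⟨-(2 * η j * κ j * l2 j * e j q 1), ε j * (2 * η j * l1 j * e j q 0)⟩ : ℂ)) ∧
      IsOpen O ∧ p j ∈ O := fun j => by
    have h1 := hr j
    rw [← (hN j).zero] at h1
    exact eventually_nhds_iff.1 (((hU (p j)).2.eventually_mem (hU (p j)).1).and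
      ((hXe j).and ((hN j).nf.and (eventually_chart (hN j).mem h1))))
  choose O hO hOo hpO using hO
  have hdX : ∀ j, ∀ q ∈ O j, dd (X j) q = dd (e j) q := fun j q hq =>
    dd_congr (by filter_upwards [(hOo j).mem_nhds hq] with x hx using (hO j x hx).2.1)
  have hbox : ∀ j, ∀ {P : M → Prop}, (∀ᶠ q in 𝓝 (p j), P q) → ∀ᶠ R in 𝓝[>] (0 : ℝ),
      ∀ z : E2, |z 0| ≤ R → |z 1| ≤ R → z ∈ (e j).target ∧ P ((e j).symm z) := by
    intro j P hP
    refine tasm_box ?_
    rw [← (hN j).zero]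
    exact ((e j).open_target.eventually_mem ((e j).map_source (hN j).mem)).and
      (eventually_symm (hN j).mem hP)
  obtain ⟨R, hR, hR0⟩ := ((eventually_all.2 fun j => hbox j ((hOo j).eventually_mem (hpO j))).and
    self_mem_nhdsWithin).exists
  have hR0 : 0 < R := hR0
  let K : Fin m → ℝ → Set M := fun j r => (e j).symm '' {z : E2 | |z 0| ≤ r ∧ |z 1| ≤ r}
  have hKc : ∀ j r, r ≤ R → IsClosed (K j r) := fun j r hr =>
    ((tasm_compact r).image_of_continuousOn ((e j).continuousOn_symm.mono fun z hz =>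
      (hR j z (hz.1.trans hr) (hz.2.trans hr)).1)).isClosed
  have hKO : ∀ j, K j R ⊆ O j := by
    rintro j _ ⟨z, hz, rfl⟩
    exact (hR j z hz.1 hz.2).2
  let B : Fin m → Set M := fun j => (e j).source ∩ e j ⁻¹' {z : E2 | |z 0| < R ∧ |z 1| < R}
  have hBK : ∀ j, B j ⊆ K j R := fun j q hq =>
    ⟨e j q, ⟨hq.2.1.le, hq.2.2.le⟩, (e j).left_inv hq.1⟩
  have hBO : ∀ j, B j ⊆ O j := fun j => (hBK j).trans (hKO j)
  have hOd : ∀ i j, i ≠ j → Disjoint (O i) (O j) := fun i j hij =>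
    (hUd (hpc i) (hpc j) fun h => hij (p.injective h)).mono (fun q hq => (hO i q hq).1)
      fun q hq => (hO j q hq).1
  have hxs : ∀ j i, Sm fun q => X j q i := fun j i =>
    (hXs j).clm (EuclideanSpace.proj i : E2 →L[ℝ] ℝ)
  let Yl : Fin m → M → E2 →L[ℝ] ℂ := fun j q =>
    (dd (fun q => X j q 0) q).smulRight (1 : ℂ) +
      (dd (fun q => X j q 1) q).smulRight ((ε j : ℂ) * Complex.I)
  have hYl : ∀ j q v, Yl j q v = (⟨dd (X j) q v 0, ε j * dd (X j) q v 1⟩ : ℂ) := by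
    intro j q v
    apply Complex.ext <;> simp [Yl, tasm_dd_coord (hXs j), mul_comm]
  have hdf : ∀ j, ∀ q ∈ O j, ∀ v, dd f q v = 2 * η j * l1 j * X j q 0 * dd (X j) q v 0 +
      2 * η j * κ j * l2 j * X j q 1 * dd (X j) q v 1 := by
    intro j q hq v
    rw [← tasm_dd_quad (hXs j) (f (p j)), dd_congr]
    filter_upwards [(hOo j).mem_nhds hq] with x hx
    rw [(hO j x hx).2.2.1, (hO j x hx).2.1]
  have hpB : ∀ j, p j ∈ B j := fun j => ⟨(hN j).mem, by simp [(hN j).zero, hR0]⟩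
  have hcrit : ∀ q, dd f q = 0 → ∃ j, q = p j := fun q hq => by
    have : q ∈ range p := by rw [hp]; exact hq
    obtain ⟨j, hj⟩ := this
    exact ⟨j, hj.symm⟩
  obtain ⟨Y, hYs, hYK, hYw⟩ := exists_Y hf hΩ (fun j => K j R) O (fun j => hKc j R le_rfl) hOo hKO
    hOd Yl (fun j V hV => by
      exact (((hxs j 0).zv hV).smul' (sm_const _)).add' (((hxs j 1).zv hV).smul' (sm_const _)))
    (fun j q hq v w => by
      have h1 := det2_map (dd (e j) q) w v
      have h2 := (hO j q hq)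
      rw [(hN j).ch.rep_apply Ω h2.2.2.2.1, h2.2.2.2.2, smul_smul, mul_comm (det2 w v), jac, ← h1,
        hYl, hYl, hdf j q hq, hdf j q hq, hdX j q hq, h2.2.1]
      apply Complex.ext <;> simp [det2] <;> ring)
    (fun q hq => by
      obtain ⟨j, rfl⟩ := hcrit q hq
      exact ⟨j, hBK j (hpB j)⟩)
  let ri : ℂ →L[ℝ] (Fin 2 → ℝ) := ContinuousLinearMap.pi ![Complex.reCLM, Complex.imCLM]
  have hri : ∀ z, ri z = ![z.re, z.im] := fun z => by
    ext i
    fin_cases i <;> rfl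
  refine ⟨{
    m := m, u := f, u_sm := hf, x := fun j q => X j q 0, y := fun j q => X j q 1
    x_sm := fun j => hxs j 0, y_sm := fun j => hxs j 1, R := R, R_pos := hR0, B := B
    B_open := fun j => (e j).isOpen_inter_preimage
      ((isOpen_lt (f := fun z : E2 => |z 0|) (by fun_prop) continuous_const).inter
        (isOpen_lt (f := fun z : E2 => |z 1|) (by fun_prop) continuous_const))
    B_disj := fun j k hjk => (hOd j k hjk).mono (hBO j) (hBO k)
    box_closed := ?_, surj := ?_, flat := ?_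
    c := fun j => f (p j), η := η, κ := κ, ε := ε
    η_sq := fun j => (hN j).η_sq, κ_sq := fun j => (hN j).κ_sq, ε_sq := hε
    l1 := l1, l2 := l2, l1_pos := fun j => (hN j).l1_pos, l2_pos := fun j => (hN j).l2_pos
    nf := ?_, reg := ?_
    Y := fun q => ri.comp (Y q), Y_sm := fun V hV => (hYs V hV).clm ri
    y1 := fun _ => 1, y2 := fun _ => 1, y1_pos := fun _ => one_pos, y2_pos := fun _ => one_pos
    Y_nf := ?_, Y_inj := ?_ }⟩
  · intro j r hr
    convert hKc j r hr.le using 1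
    ext q
    constructor
    · rintro ⟨hq, h0, h1⟩
      rw [(hO j q (hBO j hq)).2.1] at h0 h1
      exact ⟨e j q, ⟨h0, h1⟩, (e j).left_inv hq.1⟩
    · rintro ⟨z, hz, rfl⟩
      have h1 := hR j z (hz.1.trans hr.le) (hz.2.trans hr.le)
      have h2 := (e j).right_inv h1.1
      refine ⟨⟨(e j).map_target h1.1, ?_⟩, ?_⟩
      · rw [mem_preimage, h2]
        exact ⟨hz.1.trans_lt hr, hz.2.trans_lt hr⟩
      · rw [(hO j _ h1.2).2.1, h2]
        exact hz
  · intro j q hq a b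
    obtain ⟨v, hv⟩ := ((hN j).ch.bij hq.1).2 (a • b0 + b • b1)
    refine ⟨v, ?_, ?_⟩ <;> rw [tasm_dd_coord (hXs j), hdX j q (hBO j hq), hv] <;> simp [b0, b1]
  · intro t ht
    obtain ⟨r, hr, hr0⟩ := ((eventually_all.2 fun j =>
      hbox j (flat_chart g (hN j).ch (hN j).mem (hN j).orth ht)).and self_mem_nhdsWithin).exists
    refine ⟨r, hr0, fun j q hq h0 h1 v => ?_⟩
    rw [(hO j q (hBO j hq)).2.1] at h0 h1
    have h2 := (hr j (e j q) h0 h1).2 v
    rw [(e j).left_inv hq.1] at h2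
    rwa [tasm_dd_coord (hXs j), tasm_dd_coord (hXs j), hdX j q (hBO j hq)]
  · intro j q hq
    rw [(hO j q (hBO j hq)).2.1]
    exact (hO j q (hBO j hq)).2.2.1
  · intro q hq
    obtain ⟨j, rfl⟩ := hcrit q hq
    refine ⟨j, hpB j, ?_, ?_⟩ <;> rw [(hO j _ (hpO j)).2.1, (hN j).zero] <;> rfl
  · intro j q hq v
    rw [ContinuousLinearMap.comp_apply, hYK j q (hBK j hq), hYl, hri, tasm_dd_coord (hXs j),
      tasm_dd_coord (hXs j), one_mul, one_mul]
  · intro q v h0 h1
    have h2 : Y q v = 0 := by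
      rw [ContinuousLinearMap.comp_apply, hri] at h1
      exact Complex.ext (congrFun h1 0) (congrFun h1 1)
    by_cases hq : dd f q = 0
    · obtain ⟨j, rfl⟩ := hcrit q hq
      rw [hYK j _ (hBK j (hpB j)), hYl, hdX j _ (hpO j)] at h2
      have h3 : dd (e j) (p j) v 0 = 0 := congrArg Complex.re h2
      have h4 : ε j * dd (e j) (p j) v 1 = 0 := congrArg Complex.im h2
      have h5 : ε j ≠ 0 := by rcases hε j with h | h <;> rw [h] <;> norm_num
      apply ((hN j).ch.bij (hN j).mem).1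
      rw [map_zero]
      ext i
      fin_cases i
      · exact h3
      · exact (mul_eq_zero.1 h4).resolve_left h5
    · have h3 : ∀ w, det2 w v = 0 := fun w => by
        have h4 := hYw q v w
        rw [h0, h2, smul_zero, zero_smul, sub_zero] at h4
        exact (smul_eq_zero.1 h4.symm).resolve_right fun h => hq (hz q h)
      have h5 := h3 b0
      have h6 := h3 b1
      simp [det2, b0, b1] at h5 h6
      ext i
      fin_cases i
      · exact h6
      · exact h5

end Crest.Agent.R216
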