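import Crest.Agent.R216.TDefs
/-!
# R216 (T): planar model for the birth of two critical points

Recipe.  `birth_1d`: `b s = λ * expNegInvGlue (1 - s)`; `expNegInvGlue' t = (t⁻¹)^2 * expNegInvGlue t` for all `t`
(`expNegInvGlue.hasDerivAt_polynomial_eval_inv_mul`).  `κ x = x * ((1 - x^2)⁻¹)^2 * expNegInvGlue (1 - x^2)` is `≤ 0` off
`(0,1)`, `κ 0 = κ 1 = 0`, continuous, and `κ' x = expNegInvGlue (1 - x^2) * (1 - 3 x^4) / (1 - x^2)^4` on `(0,1)`: strictly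
monotone on `[0, x₀]`, antitone on `[x₀, 1]`, `3 x₀^4 = 1`.  Take `2 λ = 2 / κ x₀`; `1 + 2 x b'(x²) = 1 - 2 λ κ x`; IVT.
`birth_model`: `β z = r * b (‖z‖^2 / r^2)`; `fderiv (y 0 + β y) z v = v 0 + (2 / r) * b' (‖z‖²/r²) * ⟪z, v⟫`; a zero has
`z 1 = 0`, `x = z 0 / r` solves the equation (and `|x| < 1` because `b' = 0` on `[1, ∞)`).
-/

set_option autoImplicit false
open scoped Manifold ContDiff Topology Matrix
open Set Filter Function Metric

namespace Crest.Agent.R216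
universe u

theorem tbirtha_d1 (t : ℝ) : HasDerivAt expNegInvGlue (t⁻¹ ^ 2 * expNegInvGlue t) t := by
  simpa using expNegInvGlue.hasDerivAt_polynomial_eval_inv_mul 1 t

theorem tbirtha_d2 (t : ℝ) : HasDerivAt (fun t => t⁻¹ ^ 2 * expNegInvGlue t)
    (t⁻¹ ^ 2 * (t⁻¹ ^ 2 - 2 * t⁻¹) * expNegInvGlue t) t := by
  have := expNegInvGlue.hasDerivAt_polynomial_eval_inv_mul (Polynomial.X ^ 2) t
  simp only [Polynomial.eval_pow, Polynomial.eval_X, Polynomial.eval_mul, Polynomial.eval_sub,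
    Polynomial.derivative_X_pow, Polynomial.eval_C] at this
  convert this using 3
  norm_num

theorem tbirtha_two {κ : ℝ → ℝ} (hc : Continuous κ) {x₀ : ℝ} (h0 : 0 < x₀) (h1 : x₀ < 1)
    (hle : ∀ x, x ≤ 0 ∨ 1 ≤ x → κ x ≤ 0) (hm : StrictMonoOn κ (Icc 0 x₀))
    (ha : StrictAntiOn κ (Icc x₀ 1)) {c : ℝ} (hc0 : 0 < c) (hc1 : c < κ x₀) :
    ∃ x₁ ∈ Ioo 0 x₀, ∃ x₂ ∈ Ioo x₀ 1, ∀ x, κ x = c ↔ x = x₁ ∨ x = x₂ := by
  obtain ⟨x₁, hx₁, e₁⟩ := intermediate_value_Ioo h0.le hc.continuousOn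
    (⟨(hle 0 (Or.inl le_rfl)).trans_lt hc0, hc1⟩ : c ∈ Ioo (κ 0) (κ x₀))
  obtain ⟨x₂, hx₂, e₂⟩ := intermediate_value_Ioo' h1.le hc.continuousOn
    (⟨(hle 1 (Or.inr le_rfl)).trans_lt hc0, hc1⟩ : c ∈ Ioo (κ 1) (κ x₀))
  refine ⟨x₁, hx₁, x₂, hx₂, fun x => ⟨fun hx => ?_, ?_⟩⟩
  · have h2 : ¬ (x ≤ 0 ∨ 1 ≤ x) := fun h => by linarith [hle x h]
    rw [not_or, not_le, not_le] at h2
    rcases le_total x x₀ with h | h
    · exact Or.inl (hm.injOn ⟨h2.1.le, h⟩ (Ioo_subset_Icc_self hx₁) (hx.trans e₁.symm))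
    · exact Or.inr (ha.injOn ⟨h, h2.2.le⟩ (Ioo_subset_Icc_self hx₂) (hx.trans e₂.symm))
  · rintro (rfl | rfl)
    exacts [e₁, e₂]

theorem tbirtha_κ (x : ℝ) : HasDerivAt (fun x : ℝ => x * ((1 - x ^ 2)⁻¹ ^ 2 * expNegInvGlue (1 - x ^ 2)))
    ((1 - x ^ 2)⁻¹ ^ 2 * expNegInvGlue (1 - x ^ 2) - 2 * x ^ 2 *
      ((1 - x ^ 2)⁻¹ ^ 2 * ((1 - x ^ 2)⁻¹ ^ 2 - 2 * (1 - x ^ 2)⁻¹) * expNegInvGlue (1 - x ^ 2))) x := by
  have h1 : HasDerivAt (fun x : ℝ => 1 - x ^ 2) (-(2 * x)) x := by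
    simpa using (hasDerivAt_pow 2 x).const_sub 1
  refine ((hasDerivAt_id' x).fun_mul ((tbirtha_d2 (1 - x ^ 2)).comp x h1)).congr_deriv ?_
  simp only [comp_apply]
  ring

theorem tbirtha_sign {x : ℝ} (h0 : 0 < x) (h1 : x < 1) : ∃ P : ℝ, 0 < P ∧
    (1 - x ^ 2)⁻¹ ^ 2 * expNegInvGlue (1 - x ^ 2) - 2 * x ^ 2 *
      ((1 - x ^ 2)⁻¹ ^ 2 * ((1 - x ^ 2)⁻¹ ^ 2 - 2 * (1 - x ^ 2)⁻¹) * expNegInvGlue (1 - x ^ 2)) =
      P * (1 - 3 * x ^ 4) := by
  have h2 : 0 < 1 - x ^ 2 := by nlinarith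
  refine ⟨(1 - x ^ 2)⁻¹ ^ 4 * expNegInvGlue (1 - x ^ 2),
    mul_pos (by positivity) (expNegInvGlue.pos_of_pos h2), ?_⟩
  field_simp
  ring

theorem birth_1d : ∃ (b : ℝ → ℝ) (x₁ x₂ : ℝ), ContDiff ℝ ∞ b ∧ (∀ s, 1 ≤ s → b s = 0) ∧ x₁ ≠ x₂ ∧
    |x₁| < 1 ∧ |x₂| < 1 ∧ (∀ x, 1 + 2 * x * deriv b (x ^ 2) = 0 ↔ x = x₁ ∨ x = x₂) ∧
    ∀ x, x = x₁ ∨ x = x₂ → deriv b (x ^ 2) + 2 * x ^ 2 * deriv (deriv b) (x ^ 2) ≠ 0 := by
  set κ : ℝ → ℝ := fun x => x * ((1 - x ^ 2)⁻¹ ^ 2 * expNegInvGlue (1 - x ^ 2)) with hκ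
  obtain ⟨x₀, h0, h4⟩ : ∃ x₀ : ℝ, 0 < x₀ ∧ x₀ ^ 4 = 1 / 3 :=
    ⟨√(√(1 / 3)), by positivity, by
      rw [show (4 : ℕ) = 2 * 2 from rfl, pow_mul, Real.sq_sqrt (Real.sqrt_nonneg _),
        Real.sq_sqrt (by norm_num)]⟩
  have h1 : x₀ < 1 := lt_of_pow_lt_pow_left₀ 4 zero_le_one (by rw [h4]; norm_num)
  have hc : Continuous κ := continuous_iff_continuousAt.2 fun x => (tbirtha_κ x).continuousAt
  have hpos : ∀ x ∈ Ioo 0 x₀, 0 < deriv κ x := fun x hx => by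
    obtain ⟨P, hP, e⟩ := tbirtha_sign hx.1 (hx.2.trans h1)
    have := pow_lt_pow_left₀ hx.2 hx.1.le (n := 4) (by norm_num)
    rw [(tbirtha_κ x).deriv, e]
    exact mul_pos hP (by linarith)
  have hneg : ∀ x ∈ Ioo x₀ 1, deriv κ x < 0 := fun x hx => by
    obtain ⟨P, hP, e⟩ := tbirtha_sign (h0.trans hx.1) hx.2
    have := pow_lt_pow_left₀ hx.1 h0.le (n := 4) (by norm_num)
    rw [(tbirtha_κ x).deriv, e]
    exact mul_neg_of_pos_of_neg hP (by linarith)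
  have hm : StrictMonoOn κ (Icc 0 x₀) :=
    strictMonoOn_of_deriv_pos (convex_Icc _ _) hc.continuousOn (by rwa [interior_Icc])
  have ha : StrictAntiOn κ (Icc x₀ 1) :=
    strictAntiOn_of_deriv_neg (convex_Icc _ _) hc.continuousOn (by rwa [interior_Icc])
  have hle : ∀ x, x ≤ 0 ∨ 1 ≤ x → κ x ≤ 0 := by
    rintro x (h | h)
    · exact mul_nonpos_of_nonpos_of_nonneg h (mul_nonneg (sq_nonneg _) (expNegInvGlue.nonneg _))
    · simp only [hκ]
      rw [expNegInvGlue.zero_of_nonpos (by nlinarith), mul_zero, mul_zero]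
  have hk0 : 0 < κ x₀ := by
    have := hm ⟨le_rfl, h0.le⟩ ⟨h0.le, le_rfl⟩ h0
    simpa [hκ] using this
  obtain ⟨x₁, hx₁, x₂, hx₂, hiff⟩ := tbirtha_two hc h0 h1 hle hm ha (half_pos hk0) (half_lt_self hk0)
  have hs : ∀ s : ℝ, HasDerivAt (fun s : ℝ => 1 - s) (-1) s := fun s =>
    (hasDerivAt_id' s).const_sub 1
  have d1 : deriv (fun s => (κ x₀)⁻¹ * expNegInvGlue (1 - s)) =
      fun s => -(κ x₀)⁻¹ * ((1 - s)⁻¹ ^ 2 * expNegInvGlue (1 - s)) := by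
    funext s
    refine ((((tbirtha_d1 (1 - s)).comp s (hs s)).const_mul _).deriv).trans ?_
    ring
  have d2 : deriv (fun s => -(κ x₀)⁻¹ * ((1 - s)⁻¹ ^ 2 * expNegInvGlue (1 - s))) =
      fun s => (κ x₀)⁻¹ *
        ((1 - s)⁻¹ ^ 2 * ((1 - s)⁻¹ ^ 2 - 2 * (1 - s)⁻¹) * expNegInvGlue (1 - s)) := by
    funext s
    refine ((((tbirtha_d2 (1 - s)).comp s (hs s)).const_mul _).deriv).trans ?_
    ring
  refine ⟨fun s => (κ x₀)⁻¹ * expNegInvGlue (1 - s), x₁, x₂,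
    contDiff_const.mul (expNegInvGlue.contDiff.comp (contDiff_const.sub contDiff_id)),
    fun s hs => mul_eq_zero_of_right _ (expNegInvGlue.zero_of_nonpos (by linarith)),
    (hx₁.2.trans hx₂.1).ne, abs_lt.2 ⟨by linarith [hx₁.1], hx₁.2.trans h1⟩,
    abs_lt.2 ⟨by linarith [hx₂.1], hx₂.2⟩, fun x => ?_, fun x hx => ?_⟩
  · rw [← hiff, d1]
    have e : 1 + 2 * x * (-(κ x₀)⁻¹ * ((1 - x ^ 2)⁻¹ ^ 2 * expNegInvGlue (1 - x ^ 2))) =
        (-2 * (κ x₀)⁻¹) * (κ x - κ x₀ / 2) := by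
      rw [show κ x = x * ((1 - x ^ 2)⁻¹ ^ 2 * expNegInvGlue (1 - x ^ 2)) from rfl]
      generalize (1 - x ^ 2)⁻¹ ^ 2 * expNegInvGlue (1 - x ^ 2) = A
      field_simp
      ring
    simp only
    rw [e, mul_eq_zero, sub_eq_zero, or_iff_right (mul_ne_zero (by norm_num) (inv_ne_zero hk0.ne'))]
  · have h5 : deriv κ x ≠ 0 := by
      rcases hx with rfl | rfl
      exacts [(hpos _ hx₁).ne', (hneg _ hx₂).ne]
    rw [(tbirtha_κ x).deriv] at h5
    rw [d1, d2]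
    refine fun h => mul_ne_zero (neg_ne_zero.2 (inv_ne_zero hk0.ne')) h5 ?_
    simp only at h
    linear_combination h

theorem tbirthb_N (r : ℝ) (z : E2) :
    HasFDerivAt (fun y : E2 => ‖y‖ ^ 2 / r ^ 2) ((2 / r ^ 2) • innerSL ℝ z) z := by
  have h := ((hasStrictFDerivAt_norm_sq z).hasFDerivAt).mul_const (r ^ 2)⁻¹
  simp only [← div_eq_mul_inv] at h
  refine h.congr_fderiv ?_
  ext v
  simp only [smul_apply, smul_eq_mul, nsmul_eq_mul]
  push_cast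
  ring

theorem tbirthb_inner (z v : E2) : innerSL ℝ z v = z 0 * v 0 + z 1 * v 1 := by
  simp only [innerSL_apply_apply, PiLp.inner_apply, Fin.sum_univ_two, RCLike.inner_apply, conj_trivial]
  ring

theorem tbirthb_fd {b : ℝ → ℝ} (hb : Differentiable ℝ b) {r : ℝ} (hr : r ≠ 0) :
    fderiv ℝ (fun y : E2 => y 0 + r * b (‖y‖ ^ 2 / r ^ 2)) = fun z =>
      (EuclideanSpace.proj 0 : E2 →L[ℝ] ℝ) + (2 / r * deriv b (‖z‖ ^ 2 / r ^ 2)) • innerSL ℝ z := by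
  funext z
  have h1 : HasFDerivAt (fun y : E2 => y 0) (EuclideanSpace.proj 0 : E2 →L[ℝ] ℝ) z :=
    (EuclideanSpace.proj (𝕜 := ℝ) (0 : Fin 2)).hasFDerivAt
  have h2 := ((hb _).hasDerivAt.comp_hasFDerivAt z (tbirthb_N r z)).const_mul r
  have h3 := (h1.add h2).fderiv
  refine Eq.trans h3 ?_
  congr 1
  rw [smul_smul, smul_smul]
  congr 1
  field_simp

theorem tbirthb_fd2 {c : ℝ → ℝ} (hc : Differentiable ℝ c) (r : ℝ) (z v w : E2) :
    fderiv ℝ (fun z : E2 =>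
      (EuclideanSpace.proj 0 : E2 →L[ℝ] ℝ) + (2 / r * c (‖z‖ ^ 2 / r ^ 2)) • innerSL ℝ z) z v w =
      2 / r * c (‖z‖ ^ 2 / r ^ 2) * (v 0 * w 0 + v 1 * w 1) +
        2 / r * (deriv c (‖z‖ ^ 2 / r ^ 2) * (2 / r ^ 2 * (z 0 * v 0 + z 1 * v 1))) * (z 0 * w 0 + z 1 * w 1) := by
  have h2 := ((hc _).hasDerivAt.comp_hasFDerivAt z (tbirthb_N r z)).const_mul (2 / r)
  have h3 : HasFDerivAt (fun z : E2 => (innerSL ℝ z : E2 →L[ℝ] ℝ)) (innerSL ℝ : E2 →L[ℝ] E2 →L[ℝ] ℝ) z :=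
    (innerSL ℝ : E2 →L[ℝ] E2 →L[ℝ] ℝ).hasFDerivAt
  have h4 := ((h2.smul h3).const_add (EuclideanSpace.proj 0 : E2 →L[ℝ] ℝ)).fderiv
  have h5 := congrArg (fun L : E2 →L[ℝ] E2 →L[ℝ] ℝ => L v w) h4
  refine Eq.trans h5 ?_
  simp only [add_apply, smul_apply, ContinuousLinearMap.smulRight_apply,
    smul_eq_mul, tbirthb_inner, Function.comp]
  congr 2
  exact tbirthb_inner v w

theorem tbirthb_normsq (z : E2) : ‖z‖ ^ 2 = z 0 ^ 2 + z 1 ^ 2 := by
  rw [EuclideanSpace.norm_sq_eq, Fin.sum_univ_two]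
  simp only [Real.norm_eq_abs, sq_abs]

theorem birth_model {r : ℝ} (hr : 0 < r) : ∃ (β : E2 → ℝ) (a b : E2), ContDiff ℝ ∞ β ∧
    (∀ z, r ≤ ‖z‖ → β z = 0) ∧ a ≠ b ∧ ‖a‖ < r ∧ ‖b‖ < r ∧
    (∀ z, fderiv ℝ (fun y : E2 => y 0 + β y) z = 0 ↔ z = a ∨ z = b) ∧
    ∀ z, z = a ∨ z = b → Injective (fderiv ℝ (fderiv ℝ fun y : E2 => y 0 + β y) z) := by
  obtain ⟨b, x₁, x₂, hb, hb0, hne, h1, h2, hz, hnd⟩ := birth_1d
  have hbd : Differentiable ℝ b := hb.differentiable (by simp)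
  have hbd2 : Differentiable ℝ (deriv b) := (contDiff_infty_iff_deriv.1 hb).2.differentiable (by simp)
  have hr0 : r ≠ 0 := hr.ne'
  have hN : ∀ x : ℝ, ‖(EuclideanSpace.single 0 (r * x) : E2)‖ ^ 2 / r ^ 2 = x ^ 2 := by
    intro x
    rw [tbirthb_normsq]
    simp only [PiLp.single_apply]
    simp
    field_simp
  have hlt : ∀ x : ℝ, |x| < 1 → ‖(EuclideanSpace.single 0 (r * x) : E2)‖ < r := by
    intro x hx
    rw [PiLp.norm_single, Real.norm_eq_abs, abs_mul, abs_of_pos hr]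
    nlinarith
  refine ⟨fun z => r * b (‖z‖ ^ 2 / r ^ 2), EuclideanSpace.single 0 (r * x₁), EuclideanSpace.single 0 (r * x₂),
    contDiff_const.mul (hb.comp ((contDiff_norm_sq ℝ).div_const _)), ?_, ?_, hlt _ h1, hlt _ h2, ?_, ?_⟩
  · intro z hz
    show r * b _ = 0
    rw [hb0, mul_zero]
    rw [le_div_iff₀ (by positivity), one_mul]
    exact pow_le_pow_left₀ hr.le hz 2
  · intro h
    have := congrArg (fun z : E2 => z 0) h
    simp only [PiLp.single_apply, if_true] at this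
    exact hne (mul_left_cancel₀ hr0 this)
  · intro z
    rw [tbirthb_fd hbd hr0]
    constructor
    · intro h
      have e0 := congrArg (fun L : E2 →L[ℝ] ℝ => L (EuclideanSpace.single 0 1)) h
      have e1 := congrArg (fun L : E2 →L[ℝ] ℝ => L (EuclideanSpace.single 1 1)) h
      simp only [add_apply, smul_apply, smul_eq_mul, tbirthb_inner,
        zero_apply] at e0 e1
      simp at e0 e1
      have hd : deriv b (‖z‖ ^ 2 / r ^ 2) ≠ 0 := by
        intro h0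
        rw [h0] at e0
        simp at e0
      have hz1 : z 1 = 0 := by
        rcases e1 with (e1 | e1) | e1
        · exact absurd e1 hr0
        · exact absurd e1 hd
        · exact e1
      have hzz : z = EuclideanSpace.single 0 (r * (z 0 / r)) := by
        ext i
        fin_cases i
        · simp
          field_simp
        · simpa using hz1
      have hNz : ‖z‖ ^ 2 / r ^ 2 = (z 0 / r) ^ 2 := by
        rw [← hN (z 0 / r), ← hzz]
      rw [hNz] at e0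
      have := (hz (z 0 / r)).1 (by rw [← e0]; ring)
      rcases this with h | h
      · left; rw [hzz, h]
      · right; rw [hzz, h]
    · have key : ∀ x : ℝ, 1 + 2 * x * deriv b (x ^ 2) = 0 → (EuclideanSpace.proj 0 : E2 →L[ℝ] ℝ) +
          (2 / r * deriv b (‖(EuclideanSpace.single 0 (r * x) : E2)‖ ^ 2 / r ^ 2)) •
            innerSL ℝ (EuclideanSpace.single 0 (r * x) : E2) = 0 := by
        intro x hx
        ext v
        rw [hN]
        simp only [add_apply, smul_apply, smul_eq_mul, tbirthb_inner,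
          zero_apply]
        simp
        have : 2 / r * deriv b (x ^ 2) * (r * x * v 0) = 2 * x * deriv b (x ^ 2) * v 0 := by field_simp
        rw [this]
        linear_combination v 0 * hx
      rintro (rfl | rfl)
      · exact key _ ((hz _).2 (.inl rfl))
      · exact key _ ((hz _).2 (.inr rfl))
  · have key : ∀ x : ℝ, x = x₁ ∨ x = x₂ → Injective (fderiv ℝ (fderiv ℝ fun y : E2 => y 0 + r * b (‖y‖ ^ 2 / r ^ 2))
        (EuclideanSpace.single 0 (r * x) : E2)) := by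
      intro x hx
      have a1 := (hz x).2 hx
      have a2 := hnd x hx
      have hd : deriv b (x ^ 2) ≠ 0 := by
        intro h0
        rw [h0] at a1
        simp at a1
      rw [tbirthb_fd hbd hr0, injective_iff_map_eq_zero]
      intro v hv
      have e0 := tbirthb_fd2 hbd2 r (EuclideanSpace.single 0 (r * x)) v (EuclideanSpace.single 0 1)
      have e1 := tbirthb_fd2 hbd2 r (EuclideanSpace.single 0 (r * x)) v (EuclideanSpace.single 1 1)
      rw [hv, hN] at e0 e1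
      simp at e0 e1
      have hv1 : v 1 = 0 := by
        rcases e1 with (e1 | e1) | e1
        · exact absurd e1 hr0
        · exact absurd e1 hd
        · exact e1
      have hv0 : v 0 = 0 := by
        have : 2 / r * ((deriv b (x ^ 2) + 2 * x ^ 2 * deriv (deriv b) (x ^ 2)) * v 0) = 0 := by
          rw [e0]
          field_simp
        rcases mul_eq_zero.1 this with h | h
        · exact absurd h (by positivity)
        · exact (mul_eq_zero.1 h).resolve_left a2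
      ext i
      fin_cases i
      · simpa using hv0
      · simpa using hv1
    rintro z (rfl | rfl)
    · exact key _ (.inl rfl)
    · exact key _ (.inr rfl)

end Crest.Agent.R216
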