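import Crest.Agent.R216.TChart
/-!
# R216 (T): replacing a function by its Taylor polynomial; simultaneous diagonalisation

Recipe.  `cut`: `χ₁ : ContDiffBump (0 : E2) = ⟨1, 2, ..⟩`, `‖fderiv χ₁‖ ≤ C`; `f' z = f z + χ₁ (r⁻¹ • z) * (P z - f z)`,
`K = closedBall 0 (2 r)`.  With `‖D(f - P) z‖ ≤ s ‖z‖^k` on a ball the mean value inequality on `closedBall 0 ‖z‖` gives
`|f z - P z| ≤ s ‖z‖^(k+1)`, so `‖Df' z - DP z‖ ≤ s ‖z‖^k (1 + 2 C) < c ‖z‖^k`.
`diag2`: Gram–Schmidt for `γ` gives `w₀, w₁`; `v₀ = cos t w₀ + sin t w₁`, `v₁ = -sin t w₀ + cos t w₁`; `t ↦ H v₀ v₁` changes sign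
between `0` and `π/2` (IVT, `intermediate_value_uIcc`).  `L a = a 0 • v₀ + a 1 • v₁` is injective since `γ (L a) (L a) = ‖a‖²`
(`LinearEquiv.ofInjectiveEndo`, `toContinuousLinearEquiv`); `μ i ≠ 0` since `H` is injective and `L` onto.
-/

set_option autoImplicit false
open scoped Manifold ContDiff Topology Matrix
open Set Filter Function Metric

namespace Crest.Agent.R216
universe u

theorem cut (k : ℕ) {U : Set E2} (hU : IsOpen U) (h0 : (0 : E2) ∈ U) {f P : E2 → ℝ}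
    (hf : ContDiffOn ℝ ∞ f U) (hP : ContDiff ℝ ∞ P) (hfP : f 0 = P 0) {c : ℝ} (hc : 0 < c)
    (hlow : ∀ z, c * ‖z‖ ^ k ≤ ‖fderiv ℝ P z‖)
    (ho : (fun z => fderiv ℝ f z - fderiv ℝ P z) =o[𝓝 0] fun z : E2 => ‖z‖ ^ k) :
    ∃ (f' : E2 → ℝ) (K : Set E2), IsCompact K ∧ K ⊆ U ∧ ContDiffOn ℝ ∞ f' U ∧
      (∀ z, z ∉ K → f' z = f z) ∧ f' =ᶠ[𝓝 0] P ∧
      ∀ z ∈ K, z ≠ 0 → fderiv ℝ f' z ≠ 0 ∧ fderiv ℝ f z ≠ 0 := by
  let χ : ContDiffBump (0 : E2) := ⟨1, 2, one_pos, one_lt_two⟩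
  have hχ : ContDiff ℝ ∞ χ := χ.contDiff
  obtain ⟨C, hC⟩ := (hχ.continuous_fderiv (by simp)).bounded_above_of_compact_support
    (χ.hasCompactSupport.fderiv ℝ)
  have hC0 : 0 ≤ C := (norm_nonneg _).trans (hC 0)
  obtain ⟨s, hs, hsc⟩ : ∃ s : ℝ, 0 < s ∧ s * (1 + 2 * C) < c := by
    refine ⟨c / (2 + 2 * C), by positivity, ?_⟩
    rw [div_mul_eq_mul_div, div_lt_iff₀ (by positivity)]
    nlinarith
  obtain ⟨R, hR, hRb⟩ := Metric.eventually_nhds_iff_ball.1 ((ho.def hs).and (hU.mem_nhds h0))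
  obtain ⟨r, hr, hrR⟩ : ∃ r : ℝ, 0 < r ∧ 2 * r < R := ⟨R / 3, by positivity, by linarith⟩
  have hKb : closedBall (0 : E2) (2 * r) ⊆ ball 0 R := closedBall_subset_ball hrR
  have hfd : ∀ z ∈ ball (0 : E2) R, HasFDerivAt f (fderiv ℝ f z) z := fun z hz =>
    ((hf.contDiffAt (hU.mem_nhds (hRb z hz).2)).differentiableAt (by simp)).hasFDerivAt
  have hPd : ∀ z, HasFDerivAt P (fderiv ℝ P z) z := fun z =>
    (hP.differentiable (by simp) z).hasFDerivAt
  have hgd : ∀ z ∈ ball (0 : E2) R,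
      HasFDerivAt (fun z => P z - f z) (fderiv ℝ P z - fderiv ℝ f z) z := fun z hz =>
    (hPd z).sub (hfd z hz)
  have hgb : ∀ z ∈ ball (0 : E2) R, ‖fderiv ℝ P z - fderiv ℝ f z‖ ≤ s * ‖z‖ ^ k := by
    intro z hz
    have := (hRb z hz).1
    rwa [norm_sub_rev, Real.norm_of_nonneg (by positivity)] at this
  have hg : ∀ z ∈ ball (0 : E2) R, ‖P z - f z‖ ≤ s * ‖z‖ ^ k * ‖z‖ := by
    intro z hz
    have hsub : closedBall (0 : E2) ‖z‖ ⊆ ball 0 R :=
      closedBall_subset_ball (mem_ball_zero_iff.1 hz)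
    have := (convex_closedBall (0 : E2) ‖z‖).norm_image_sub_le_of_norm_hasFDerivWithin_le
      (f := fun z => P z - f z) (f' := fun z => fderiv ℝ P z - fderiv ℝ f z) (C := s * ‖z‖ ^ k)
      (fun w hw => (hgd w (hsub hw)).hasFDerivWithinAt)
      (fun w hw => (hgb w (hsub hw)).trans (by
        have := mem_closedBall_zero_iff.1 hw
        gcongr))
      (mem_closedBall_self (norm_nonneg z)) (mem_closedBall_zero_iff.2 le_rfl)
    simpa [hfP] using this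
  have hsc' : ContDiff ℝ ∞ fun z : E2 => χ (r⁻¹ • z) := hχ.comp (contDiff_id.const_smul r⁻¹)
  have hne : ∀ z : E2, z ≠ 0 → ∀ D : E2 →L[ℝ] ℝ,
      ‖fderiv ℝ P z - D‖ ≤ s * (1 + 2 * C) * ‖z‖ ^ k → D ≠ 0 := by
    intro z hz D hD h
    rw [h, sub_zero] at hD
    have h1 : 0 < ‖z‖ ^ k := pow_pos (norm_pos_iff.2 hz) k
    have := hlow z
    nlinarith
  refine ⟨fun z => f z + χ (r⁻¹ • z) * (P z - f z), closedBall 0 (2 * r), isCompact_closedBall _ _,
    fun z hz => (hRb z (hKb hz)).2, hf.add (hsc'.contDiffOn.mul (hP.contDiffOn.sub hf)),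
    fun z hz => ?_, ?_, fun z hz hz0 => ⟨?_, ?_⟩⟩
  · have : χ (r⁻¹ • z) = 0 := by
      refine χ.zero_of_le_dist ?_
      rw [mem_closedBall_zero_iff, not_le] at hz
      rw [dist_zero_right, norm_smul, norm_inv, Real.norm_of_nonneg hr.le]
      change (2 : ℝ) ≤ _
      rw [inv_mul_eq_div, le_div_iff₀ hr]
      exact hz.le
    simp only [this, zero_mul, add_zero]
  · filter_upwards [closedBall_mem_nhds (0 : E2) hr] with z hz
    have : χ (r⁻¹ • z) = 1 := by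
      refine χ.one_of_mem_closedBall ?_
      rw [mem_closedBall_zero_iff] at hz ⊢
      rw [norm_smul, norm_inv, Real.norm_of_nonneg hr.le]
      change _ ≤ (1 : ℝ)
      rw [inv_mul_eq_div, div_le_one hr]
      exact hz
    simp only [this, one_mul, add_sub_cancel]
  · have hzb := hKb hz
    have hz2 := mem_closedBall_zero_iff.1 hz
    have h1 : HasFDerivAt (fun z : E2 => χ (r⁻¹ • z))
        ((fderiv ℝ χ (r⁻¹ • z)).comp (r⁻¹ • ContinuousLinearMap.id ℝ E2)) z :=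
      (hχ.differentiable (by simp) _).hasFDerivAt.comp z ((hasFDerivAt_id z).const_smul r⁻¹)
    have h2 : HasFDerivAt (fun z => f z + χ (r⁻¹ • z) * (P z - f z)) _ z :=
      (hfd z hzb).add (h1.mul (hgd z hzb))
    rw [h2.fderiv]
    refine hne z hz0 _ ?_
    have e : fderiv ℝ P z - (fderiv ℝ f z + (χ (r⁻¹ • z) • (fderiv ℝ P z - fderiv ℝ f z) +
        (P z - f z) • (fderiv ℝ χ (r⁻¹ • z)).comp (r⁻¹ • ContinuousLinearMap.id ℝ E2))) =
        (1 - χ (r⁻¹ • z)) • (fderiv ℝ P z - fderiv ℝ f z) -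
          ((P z - f z) * r⁻¹) • fderiv ℝ χ (r⁻¹ • z) := by
      ext v
      simp only [sub_apply, add_apply,
        smul_apply, ContinuousLinearMap.comp_apply,
        ContinuousLinearMap.id_apply, map_smul, smul_eq_mul]
      ring
    rw [e]
    refine (norm_sub_le _ _).trans ?_
    rw [norm_smul, norm_smul, norm_mul, norm_inv, Real.norm_of_nonneg hr.le,
      Real.norm_of_nonneg (sub_nonneg.2 χ.le_one)]
    have a1 : (1 - χ (r⁻¹ • z)) * ‖fderiv ℝ P z - fderiv ℝ f z‖ ≤ s * ‖z‖ ^ k :=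
      (mul_le_of_le_one_left (norm_nonneg _) (sub_le_self _ χ.nonneg)).trans (hgb z hzb)
    have a2 : ‖P z - f z‖ * r⁻¹ ≤ s * ‖z‖ ^ k * 2 := by
      rw [← div_eq_mul_inv, div_le_iff₀ hr]
      refine (hg z hzb).trans ?_
      rw [mul_assoc (s * ‖z‖ ^ k)]
      exact mul_le_mul_of_nonneg_left hz2 (by positivity)
    have a3 := mul_le_mul a2 (hC (r⁻¹ • z)) (norm_nonneg _) (by positivity)
    linarith
  · refine hne z hz0 _ ((hgb z (hKb hz)).trans ?_)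
    have : 0 ≤ s * ‖z‖ ^ k * C := by positivity
    linarith

theorem tcutb_exp (γ : E2 →L[ℝ] E2 →L[ℝ] ℝ) (hγ : ∀ v w, γ v w = γ w v) (v w : E2) (a b c d : ℝ) :
    γ (a • v + b • w) (c • v + d • w) =
      a * c * γ v v + (a * d + b * c) * γ v w + b * d * γ w w := by
  simp only [map_add, map_smul, add_apply, smul_apply,
    smul_eq_mul, hγ w v]
  ring

theorem tcutb_unit (γ : E2 →L[ℝ] E2 →L[ℝ] ℝ) {v : E2} (h : 0 < γ v v) :
    γ ((√(γ v v))⁻¹ • v) ((√(γ v v))⁻¹ • v) = 1 := by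
  simp only [map_smul, smul_apply, smul_eq_mul]
  rw [← mul_assoc, ← mul_inv, Real.mul_self_sqrt h.le, inv_mul_cancel₀ h.ne']

theorem tcutb_gs (γ : E2 →L[ℝ] E2 →L[ℝ] ℝ)
    (hpos : ∀ v, v ≠ 0 → 0 < γ v v) : ∃ v w, γ v v = 1 ∧ γ w w = 1 ∧ γ v w = 0 := by
  have h0 : 0 < γ b0 b0 := hpos _ fun h => by simpa [b0] using congrArg (fun v : E2 => v 0) h
  set u : E2 := (-(γ b0 b1 / γ b0 b0)) • b0 + (1 : ℝ) • b1 with hu
  have h1 : 0 < γ u u := hpos _ fun h => by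
    simpa [hu, b0, b1] using congrArg (fun v : E2 => v 1) h
  have h2 : γ b0 u = 0 := by
    simp only [hu, map_add, map_smul, smul_eq_mul]
    field_simp
    ring
  refine ⟨_, _, tcutb_unit γ h0, tcutb_unit γ h1, ?_⟩
  simp only [map_smul, smul_apply, h2, smul_zero]

theorem tcutb_rot (x y : ℝ) : ∃ c s : ℝ, c ^ 2 + s ^ 2 = 1 ∧ c * s * x + (c ^ 2 - s ^ 2) * y = 0 := by
  have hc : Continuous fun t : ℝ =>
      Real.cos t * Real.sin t * x + (Real.cos t ^ 2 - Real.sin t ^ 2) * y := by fun_prop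
  obtain ⟨t, -, ht⟩ := intermediate_value_uIcc (a := 0) (b := Real.pi / 2) hc.continuousOn
    (show (0 : ℝ) ∈ _ by
      simp only [Real.cos_zero, Real.sin_zero, Real.cos_pi_div_two, Real.sin_pi_div_two]
      rcases le_total 0 y with h | h
      · exact mem_uIcc_of_ge (by linarith) (by linarith)
      · exact mem_uIcc_of_le (by linarith) (by linarith))
  exact ⟨_, _, Real.cos_sq_add_sin_sq t, ht⟩

theorem diag2 (γ H : E2 →L[ℝ] E2 →L[ℝ] ℝ) (hγ : ∀ v w, γ v w = γ w v)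
    (hpos : ∀ v, v ≠ 0 → 0 < γ v v) (hH : ∀ v w, H v w = H w v) (hi : Injective H) :
    ∃ (L : E2 ≃L[ℝ] E2) (μ₁ μ₂ : ℝ), μ₁ ≠ 0 ∧ μ₂ ≠ 0 ∧
      (∀ a, γ (L a) (L a) = a 0 ^ 2 + a 1 ^ 2) ∧
      ∀ a b, H (L a) (L b) = μ₁ * (a 0 * b 0) + μ₂ * (a 1 * b 1) := by
  obtain ⟨w₀, w₁, g0, g1, g2⟩ := tcutb_gs γ hpos
  obtain ⟨c, s, hcs, hr⟩ := tcutb_rot (H w₁ w₁ - H w₀ w₀) (H w₀ w₁)
  obtain ⟨v, w, k0, k1, k2, k3⟩ : ∃ v w, γ v v = 1 ∧ γ w w = 1 ∧ γ v w = 0 ∧ H v w = 0 := by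
    refine ⟨c • w₀ + s • w₁, (-s) • w₀ + c • w₁, ?_, ?_, ?_, ?_⟩
    · rw [tcutb_exp γ hγ, g0, g1, g2]
      linear_combination hcs
    · rw [tcutb_exp γ hγ, g0, g1, g2]
      linear_combination hcs
    · rw [tcutb_exp γ hγ, g0, g1, g2]
      ring
    · rw [tcutb_exp H hH]
      linear_combination hr
  let T : E2 →ₗ[ℝ] E2 :=
    { toFun := fun a => a 0 • v + a 1 • w
      map_add' := fun a b => by
        simp only [PiLp.add_apply, add_smul]
        abel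
      map_smul' := fun r a => by
        simp only [PiLp.smul_apply, smul_eq_mul, RingHom.id_apply, smul_add, smul_smul] }
  have hT : ∀ a, T a = a 0 • v + a 1 • w := fun _ => rfl
  have h1 : ∀ a, γ (T a) (T a) = a 0 ^ 2 + a 1 ^ 2 := fun a => by
    rw [hT, tcutb_exp γ hγ, k0, k1, k2]
    ring
  have h2 : ∀ a b, H (T a) (T b) = H v v * (a 0 * b 0) + H w w * (a 1 * b 1) := fun a b => by
    rw [hT, hT, tcutb_exp H hH, k3]
    ring
  have hinj : Injective T := by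
    refine (injective_iff_map_eq_zero T).2 fun a ha => ?_
    have h3 := h1 a
    rw [ha, map_zero] at h3
    ext i
    fin_cases i
    · change a 0 = 0
      nlinarith [sq_nonneg (a 0), sq_nonneg (a 1)]
    · change a 1 = 0
      nlinarith [sq_nonneg (a 0), sq_nonneg (a 1)]
  have hsurj : Surjective T := LinearMap.injective_iff_surjective.1 hinj
  have hne : ∀ x, γ x x = 1 → H x v = 0 → H x w = 0 → False := by
    intro x hx ha hb
    have h3 : H x = H 0 := by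
      ext y
      obtain ⟨a, rfl⟩ := hsurj y
      rw [hT, map_add, map_smul, map_smul, ha, hb]
      simp
    rw [hi h3] at hx
    simp at hx
  exact ⟨(LinearEquiv.ofInjectiveEndo T hinj).toContinuousLinearEquiv, H v v, H w w,
    fun h => hne v k0 h k3, fun h => hne w k1 (by rw [hH, k3]) h, h1, h2⟩

end Crest.Agent.R216
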