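import Crest.Agent.R216.Basic
/-!
# R216 (T): definitions for the topological input `Top.exists_crit` (owner helper36)

Route.  `du ∧ Y` is a `ℂ`-valued 2-form; a 2-form is encoded by its value `Ω q : ℂ` on the basis
`(b0, b1)` of `T_q M = E2`; `rep e Ω` is its coefficient in the chart `e`.
1. (`TSard`, `TGen`, `TLink`) generic `F = (W, u, w) : M → ℂ × ℝ × ℝ`: `u` Morse, `du ∧ dW` has simple zeros,
   at the critical points of `u` and at the points where `(0,0,1)` is tangent to `F`.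
2. (`TDeg`, `TPar`, `TFam`, `TLoc`, `TCount`) the number of tangency points on a clopen set is even:
   count the solutions of `F x - F y = t v` on `M × M` (even, mod 2 degree).
3. (`TBirth`, `TCut`, `TMorse`, `TMove`, `TBal`) create pairs of critical points and move the extra zeros there.
4. (`TMorse`, `TNorm`, `TY`, `TAsm`) normal forms, `Y` from `Ω`.
-/

set_option autoImplicit false
open scoped Manifold ContDiff Topology Matrix
open Set Filter Function Metric

namespace Crest.Agent.R216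
universe u

variable {M : Type u} [TopologicalSpace M] [ChartedSpace E2 M]

/-- smooth charts -/
structure IsCh (e : OpenPartialHomeomorph M E2) : Prop where
  sm : ContMDiffOn (𝓡 2) (𝓡 2) ∞ e e.source
  sm_symm : ContMDiffOn (𝓡 2) (𝓡 2) ∞ e.symm e.target

/-- first basis vector -/
noncomputable def b0 : E2 := EuclideanSpace.single 0 1
/-- second basis vector -/
noncomputable def b1 : E2 := EuclideanSpace.single 1 1

/-- determinant of two vectors of the plane -/
def det2 (v w : E2) : ℝ := v 0 * w 1 - v 1 * w 0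

/-- Jacobian of a chart -/
noncomputable def jac (e : M → E2) (q : M) : ℝ := det2 (dd e q b0) (dd e q b1)

/-- coefficient of the 2-form `Ω` in the chart `e` -/
noncomputable def rep (e : OpenPartialHomeomorph M E2) (Ω : M → ℂ) (z : E2) : ℂ :=
  (jac e (e.symm z))⁻¹ • Ω (e.symm z)

/-- smooth 2-forms -/
def SmF (Ω : M → ℂ) : Prop :=
  ∀ e : OpenPartialHomeomorph M E2, IsCh e → ContDiffOn ℝ ∞ (rep e Ω) e.target

/-- nondegeneracy of a zero of a 2-form -/
def SZ (Ω : M → ℂ) (p : M) : Prop :=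
  ∀ e : OpenPartialHomeomorph M E2, IsCh e → p ∈ e.source → Injective (fderiv ℝ (rep e Ω) (e p))

/-- smooth 2-forms with simple zeros -/
def GoodF (Ω : M → ℂ) : Prop := SmF Ω ∧ ∀ p, Ω p = 0 → SZ Ω p

/-- nondegeneracy of a critical point -/
def ND (f : M → ℝ) (p : M) : Prop :=
  ∀ e : OpenPartialHomeomorph M E2, IsCh e → p ∈ e.source →
    Injective (fderiv ℝ (fderiv ℝ (f ∘ e.symm)) (e p))

/-- Morse functions -/
def Morse (f : M → ℝ) : Prop := Sm f ∧ ∀ p, dd f p = 0 → ND f p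

/-- the 2-form `df ∧ dW` -/
noncomputable def wedge (f : M → ℝ) (W : M → ℂ) (q : M) : ℂ :=
  dd f q b0 • dd W q b1 - dd f q b1 • dd W q b0

/-- planar version of `wedge` -/
noncomputable def pwedge (f : E2 → ℝ) (W : E2 → ℂ) (z : E2) : ℂ :=
  fderiv ℝ f z b0 • fderiv ℝ W z b1 - fderiv ℝ f z b1 • fderiv ℝ W z b0

/-- normal form of `f` at `p` in a chart `e` that is `g`-orthonormal at `p` -/
structure NF [IsManifold (𝓡 2) ∞ M] (g : Met M) (f : M → ℝ) (e : OpenPartialHomeomorph M E2) (p : M)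
    (η κ l1 l2 : ℝ) : Prop where
  ch : IsCh e
  mem : p ∈ e.source
  zero : e p = 0
  orth : ∀ v, g.g p v v = dd e p v 0 ^ 2 + dd e p v 1 ^ 2
  η_sq : η = 1 ∨ η = -1
  κ_sq : κ = 1 ∨ κ = -1
  l1_pos : 0 < l1
  l2_pos : 0 < l2
  nf : f =ᶠ[𝓝 p] fun q => f p + η * (l1 * e q 0 ^ 2 + κ * (l2 * e q 1 ^ 2))

/-- the target `ℝ⁴` of the generic map `(W, u, w)` -/
abbrev T4 := ℂ × ℝ × ℝ

/-- exactly one solution of `f z - f' z' = t v` near `(a, a')` for small `t > 0`, transverse -/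
def Loc1 {T : Type} [NormedAddCommGroup T] [NormedSpace ℝ T] (f f' : E2 → T) (a a' : E2) (v : T) :
    Prop :=
  (∃ r > 0, ∀ᶠ t in 𝓝[>] (0 : ℝ),
    {x : E2 × E2 | x.1 ∈ ball a r ∧ x.2 ∈ ball a' r ∧ f x.1 - f' x.2 = t • v}.Subsingleton ∧
    ∀ z ∈ ball a r, ∀ z' ∈ ball a' r, f z - f' z' = t • v →
      ∀ α β, fderiv ℝ f z α = fderiv ℝ f' z' β → α = 0 ∧ β = 0) ∧
  ∀ r > 0, ∀ᶠ t in 𝓝[>] (0 : ℝ), ∃ z ∈ ball a r, ∃ z' ∈ ball a' r, f z - f' z' = t • v

end Crest.Agent.R216
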