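import Mathlib
/-!
# R216 (T): inverse function theorem for families, counting limit points

Recipe.  `ift_family`: for `c < ‖L.symm‖⁻¹ / 2` the mean value inequality (`Convex.norm_image_sub_le_of_norm_hasFDerivWithin_le'`
or `Convex.lipschitzOnWith_of_nnnorm_fderiv_le` for `K t - L`) gives `ApproximatesLinearOn (K t) L (ball a r) c`; use
`ApproximatesLinearOn.injOn`, `surjOn_closedBall_of_nonlinearRightInverse` (`L.toNonlinearRightInverse`); treat
`Subsingleton E` apart or argue directly with `‖L.symm y‖ ≤ C ‖y‖`.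
`count_lim`: `I` is closed (`ha`, `hc`) and discrete (`hb`, `hc`, `T2`), so finite.  Take pairwise disjoint open
`N x ⊆` the set of `hb`, `x ∈ I`; the compact set `(⋃ N x)ᶜ` is covered by finitely many sets of `ha`.  Eventually
`Z t ⊆ ⋃ N x` and each `Z t ∩ N x` is a single point: `Z t` is the image of `I` under an injection.
-/

set_option autoImplicit false
open scoped Topology
open Set Filter Function Metric

namespace Crest.Agent.R216

theorem ift_family {E E' : Type} [NormedAddCommGroup E] [NormedSpace ℝ E] [FiniteDimensional ℝ E]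
    [NormedAddCommGroup E'] [NormedSpace ℝ E'] (L : E ≃L[ℝ] E') {τ : Type} (l : Filter τ)
    (K : τ → E → E') (a : E) (b : E')
    (hK : ∀ c > 0, ∃ r > 0, ∀ᶠ t in l, ∀ x ∈ ball a r,
      DifferentiableAt ℝ (K t) x ∧ ‖fderiv ℝ (K t) x - (L : E →L[ℝ] E')‖ ≤ c)
    (h0 : Tendsto (fun t => K t a) l (𝓝 b)) :
    (∃ r > 0, ∀ᶠ t in l, InjOn (K t) (ball a r) ∧
      ∀ x ∈ ball a r, DifferentiableAt ℝ (K t) x ∧ Injective (fderiv ℝ (K t) x)) ∧
    ∀ r > 0, ∀ᶠ t in l, ∃ x ∈ ball a r, K t x = b := by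
  have : CompleteSpace E := FiniteDimensional.complete ℝ E
  set C : NNReal := ‖(L.symm : E' →L[ℝ] E)‖₊ + 1 with hC
  have hC0 : (0 : ℝ) < C := by rw [hC]; positivity
  have hbd : ∀ y, ‖L.symm y‖ ≤ C * ‖y‖ := fun y => by
    refine ((L.symm : E' →L[ℝ] E).le_opNorm y).trans ?_
    rw [hC]
    push_cast
    nlinarith [norm_nonneg y]
  set c : NNReal := C⁻¹ / 2 with hc
  have hc' : (c : ℝ) = (C : ℝ)⁻¹ / 2 := by rw [hc]; push_cast; rfl
  have hc0 : (0 : ℝ) < c := by rw [hc']; positivity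
  have hzero : ∀ v : E, ‖L v‖ ≤ c * ‖v‖ → v = 0 := by
    intro v hv
    have h1 := hbd (L v)
    rw [L.symm_apply_apply] at h1
    have h2 : (C : ℝ) * (c * ‖v‖) = ‖v‖ / 2 := by rw [hc']; field_simp
    have h3 := mul_le_mul_of_nonneg_left hv hC0.le
    exact norm_eq_zero.mp (le_antisymm (by linarith) (norm_nonneg v))
  obtain ⟨r₀, hr₀, hK⟩ := hK c hc0
  have happ : ∀ᶠ t in l, ApproximatesLinearOn (K t) (L : E →L[ℝ] E') (ball a r₀) c := by
    filter_upwards [hK] with t ht x hx y hy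
    exact (convex_ball a r₀).norm_image_sub_le_of_norm_fderiv_le' (fun z hz => (ht z hz).1)
      (fun z hz => (ht z hz).2) hy hx
  refine ⟨⟨r₀, hr₀, ?_⟩, fun r hr => ?_⟩
  · filter_upwards [hK, happ] with t ht ht'
    refine ⟨fun x hx y hy hxy => ?_, fun x hx => ⟨(ht x hx).1, ?_⟩⟩
    · have h := ht' x hx y hy
      rw [hxy, sub_self, zero_sub, norm_neg] at h
      exact sub_eq_zero.mp (hzero _ h)
    · rw [injective_iff_map_eq_zero]
      intro v hv
      refine hzero v ?_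
      have h := (fderiv ℝ (K t) x - (L : E →L[ℝ] E')).le_opNorm v
      rw [sub_apply, hv, zero_sub, norm_neg] at h
      exact h.trans (mul_le_mul_of_nonneg_right (ht x hx).2 (norm_nonneg v))
  · let R : (L : E →L[ℝ] E').NonlinearRightInverse :=
      { toFun := L.symm, nnnorm := C, bound' := hbd, right_inv' := L.apply_symm_apply }
    have hm : 0 < min r r₀ := lt_min hr hr₀
    have hpos : 0 < ((C : ℝ)⁻¹ - c) * (min r r₀ / 2) := by
      refine mul_pos ?_ (half_pos hm)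
      rw [hc']
      linarith [inv_pos.mpr hC0]
    filter_upwards [happ, h0.eventually (ball_mem_nhds b hpos)] with t ht hb
    obtain ⟨x, hx, hxb⟩ := ht.surjOn_closedBall_of_nonlinearRightInverse R (b := a) (half_pos hm).le
      (closedBall_subset_ball (by linarith [min_le_right r r₀]))
      (mem_closedBall'.mpr (mem_ball.mp hb).le)
    exact ⟨x, closedBall_subset_ball (by linarith [min_le_left r r₀]) hx, hxb⟩

theorem count_lim {X : Type*} [TopologicalSpace X] [T2Space X] [CompactSpace X] {τ : Type}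
    (l : Filter τ) [l.NeBot] (Z : τ → Set X) (I : Set X)
    (ha : ∀ x ∉ I, ∃ N ∈ 𝓝 x, ∀ᶠ t in l, Disjoint (Z t) N)
    (hb : ∀ x ∈ I, ∃ N ∈ 𝓝 x, ∀ᶠ t in l, (Z t ∩ N).Subsingleton)
    (hc : ∀ x ∈ I, ∀ N ∈ 𝓝 x, ∀ᶠ t in l, (Z t ∩ N).Nonempty) :
    I.Finite ∧ ∀ᶠ t in l, (Z t).ncard = I.ncard := by
  have h1 : ∀ x, ∃ N ∈ 𝓝 x, ∀ y ∈ N, y ∈ I → y = x := by
    intro x
    by_cases hx : x ∈ I
    · obtain ⟨N, hN, h⟩ := hb x hx
      refine ⟨interior N, interior_mem_nhds.2 hN, fun y hy hyI => by_contra fun hne => ?_⟩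
      obtain ⟨U, V, hU, hV, hyU, hxV, hUV⟩ := t2_separation hne
      obtain ⟨t, h2, ⟨a, ha1, ha2⟩, b, hb1, hb2⟩ := (h.and ((hc y hyI (N ∩ U)
        (inter_mem (mem_interior_iff_mem_nhds.1 hy) (hU.mem_nhds hyU))).and
          (hc x hx (N ∩ V) (inter_mem hN (hV.mem_nhds hxV))))).exists
      have hab : a = b := h2 ⟨ha1, ha2.1⟩ ⟨hb1, hb2.1⟩
      exact disjoint_left.1 hUV ha2.2 (hab ▸ hb2.2)
    · obtain ⟨N, hN, h⟩ := ha x hx
      refine ⟨interior N, interior_mem_nhds.2 hN, fun y hy hyI => ?_⟩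
      obtain ⟨t, h2, a, ha1, ha2⟩ :=
        (h.and (hc y hyI N (mem_interior_iff_mem_nhds.1 hy))).exists
      exact (disjoint_left.1 h2 ha1 ha2).elim
  have hI : I.Finite := by
    choose N hN h using h1
    obtain ⟨s, -, hs⟩ := isCompact_univ.elim_nhds_subcover N fun x _ => hN x
    refine s.finite_toSet.subset fun y hy => ?_
    obtain ⟨x, hx, hyx⟩ := mem_iUnion₂.1 (hs (mem_univ y))
    rwa [h x y hyx hy]
  refine ⟨hI, ?_⟩
  obtain ⟨U, hU, hUd⟩ := hI.t2_separation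
  choose! B hB hB' using hb
  have hN : ∀ x ∈ I, U x ∩ B x ∈ 𝓝 x := fun x hx =>
    inter_mem ((hU x).2.mem_nhds (hU x).1) (hB x hx)
  have h2 : ∀ᶠ t in l, ∀ z, z ∈ Z t → ∃ x ∈ I, z ∈ U x ∩ B x := by
    have h3 : ∀ y, ∃ N ∈ 𝓝 y, ∀ᶠ t in l, ∀ z ∈ N, z ∈ Z t → ∃ x ∈ I, z ∈ U x ∩ B x := by
      intro y
      by_cases hy : y ∈ I
      · exact ⟨_, hN y hy, Eventually.of_forall fun t z hz _ => ⟨y, hy, hz⟩⟩
      · obtain ⟨N, hN, h⟩ := ha y hy
        exact ⟨N, hN, h.mono fun t ht z hz hz' => (disjoint_left.1 ht hz' hz).elim⟩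
    choose N hN' h using h3
    obtain ⟨s, -, hs⟩ := isCompact_univ.elim_nhds_subcover N fun x _ => hN' x
    filter_upwards [(eventually_all_finset s).2 fun x _ => h x] with t ht z
    obtain ⟨x, hx, hzx⟩ := mem_iUnion₂.1 (hs (mem_univ z))
    exact ht x hx z hzx
  filter_upwards [h2, (eventually_all_finite hI).2 hB',
    (eventually_all_finite hI).2 fun x hx => hc x hx _ (hN x hx)] with t h3 h4 h5
  choose! f hf using h5
  have h6 : Z t = f '' I := by
    refine Subset.antisymm (fun z hz => ?_) ?_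
    · obtain ⟨x, hx, hzx⟩ := h3 z hz
      exact ⟨x, hx, h4 x hx ⟨(hf x hx).1, (hf x hx).2.2⟩ ⟨hz, hzx.2⟩⟩
    · rintro _ ⟨x, hx, rfl⟩
      exact (hf x hx).1
  rw [h6]
  refine InjOn.ncard_image fun x hx y hy hxy => by_contra fun hne => ?_
  exact disjoint_left.1 (hUd hx hy hne) (hf x hx).2.1 (hxy ▸ (hf y hy).2.1)

theorem eventually_all {X : Type*} [TopologicalSpace X] [CompactSpace X] {τ : Type} (l : Filter τ)
    (P : τ → X → Prop) (h : ∀ x, ∃ N ∈ 𝓝 x, ∀ᶠ t in l, ∀ y ∈ N, P t y) :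
    ∀ᶠ t in l, ∀ y, P t y := by
  choose N hN hP using h
  obtain ⟨s, hs⟩ := CompactSpace.elim_nhds_subcover N hN
  filter_upwards [(Filter.eventually_all_finset s).mpr fun x _ => hP x] with t ht y
  have hy : y ∈ ⋃ x ∈ s, N x := hs ▸ mem_univ y
  obtain ⟨x, hx, hy⟩ := mem_iUnion₂.mp hy
  exact ht x hx y hy

theorem even_swap {X : Type*} {D : Set (X × X)} (hD : D.Finite) (hs : ∀ x ∈ D, x.swap ∈ D)
    (hne : ∀ x ∈ D, x.1 ≠ x.2) : Even D.ncard := by
  rw [Set.ncard_eq_toFinset_card D hD, ← ZMod.natCast_eq_zero_iff_even, Finset.card_eq_sum_ones,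
    Nat.cast_sum]
  refine Finset.sum_involution (fun x _ => x.swap) (fun _ _ => by decide) (fun x hx _ h => ?_)
    (fun x hx => ?_) (fun x _ => x.swap_swap)
  · exact hne x (hD.mem_toFinset.mp hx) (congrArg Prod.snd h)
  · exact hD.mem_toFinset.mpr (hs x (hD.mem_toFinset.mp hx))

end Crest.Agent.R216
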