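import Crest.Agent.R216.TChart
/-!
# R216 (T): 2-forms, simple zeros, nondegenerate critical points: change of chart

Recipe.  For two charts `e, e'` at `p` put `τ = e ∘ e'.symm` (`ContDiffAt` at `e' p` by `contDiffAt_symm` with
`f = e`, `smAt`).  Near `p`: `dd e q v = fderiv τ (e' q) (dd e' q v)` (`dd_eq`), so
`jac e q = det2 (Dτ b0) (Dτ b1) * jac e' q` (`det2_map` twice) and near `e' p`
`rep e' Ω z = det2 (fderiv τ z b0) (fderiv τ z b1) • rep e Ω (τ z)`, `f ∘ e'.symm = (f ∘ e.symm) ∘ τ`.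
`fderiv τ (e' p)` is injective (`bij`).  At a zero (critical point) the term with the derivative of the factor vanishes.
`SmF.sm`: near `p`, `det2 (V q) (W q) • Ω q = det2 (dd e q (V q)) (dd e q (W q)) • rep e Ω (e q)` (`field_smAt`).
`GoodF.finite`: the zero set is closed (complement open, in a chart) and every zero is isolated
(`HasFDerivAt.eventually_ne`), `IsCompact.finite` / `isCompact_univ.elim_nhds_subcover`.
`exists_patchF`: `Ω' q = if q ∈ e.source then jac e q • φ (e q) else Ω q`, `SmF.of_local`.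
-/

set_option autoImplicit false
open scoped Manifold ContDiff Topology Matrix
open Set Filter Function Metric

namespace Crest.Agent.R216
universe u

variable {M : Type u} [TopologicalSpace M] [ChartedSpace E2 M]
variable {e : OpenPartialHomeomorph M E2} {Ω Ω' : M → ℂ} {f f' : M → ℝ} {p : M}

theorem IsCh.rep_apply (he : IsCh e) (Ω : M → ℂ) {q : M} (hq : q ∈ e.source) :
    Ω q = jac e q • rep e Ω (e q) := by
  rw [rep, e.left_inv hq, smul_smul, mul_inv_cancel₀ (he.jac_ne hq), one_smul]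
theorem IsCh.rep_eq_zero (he : IsCh e) (Ω : M → ℂ) {q : M} (hq : q ∈ e.source) :
    rep e Ω (e q) = 0 ↔ Ω q = 0 := by
  rw [rep, e.left_inv hq, smul_eq_zero, or_iff_right (inv_ne_zero (he.jac_ne hq))]
theorem rep_congr (hp : p ∈ e.source) (h : Ω =ᶠ[𝓝 p] Ω') : rep e Ω =ᶠ[𝓝 (e p)] rep e Ω' := by
  filter_upwards [eventually_symm hp h] with z hz
  rw [rep, rep, hz]

theorem tforma_tau {e' : OpenPartialHomeomorph M E2} (he : IsCh e) (he' : IsCh e')
    (hp : p ∈ e.source) (hp' : p ∈ e'.source) : ContDiffAt ℝ ∞ (e ∘ e'.symm) (e' p) :=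
  he'.contDiffAt_symm hp' (he.smAt hp)

theorem tforma_bij {e' : OpenPartialHomeomorph M E2} (he : IsCh e) (he' : IsCh e')
    (hp : p ∈ e.source) (hp' : p ∈ e'.source) : Bijective (fderiv ℝ (e ∘ e'.symm) (e' p)) := by
  refine ⟨(he'.dd_inj hp' (he.df hp)).1 (he.bij hp).1, fun w => ?_⟩
  obtain ⟨v, rfl⟩ := (he.bij hp).2 w
  exact ⟨_, (he'.dd_eq hp' (he.df hp) v).symm⟩

theorem tforma_jac {e' : OpenPartialHomeomorph M E2} (he : IsCh e) (he' : IsCh e')
    (hp : p ∈ e.source) (hp' : p ∈ e'.source) :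
    jac e p = det2 (fderiv ℝ (e ∘ e'.symm) (e' p) b0) (fderiv ℝ (e ∘ e'.symm) (e' p) b1) *
      jac e' p := by
  rw [jac, he'.dd_eq hp' (he.df hp) b0, he'.dd_eq hp' (he.df hp) b1, det2_map, jac]

theorem tforma_rep {e' : OpenPartialHomeomorph M E2} (he : IsCh e) (he' : IsCh e')
    (hp : p ∈ e.source) (hp' : p ∈ e'.source) (Ω : M → ℂ) :
    rep e' Ω =ᶠ[𝓝 (e' p)] fun z =>
      det2 (fderiv ℝ (e ∘ e'.symm) z b0) (fderiv ℝ (e ∘ e'.symm) z b1) •
        rep e Ω ((e ∘ e'.symm) z) := by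
  filter_upwards [e'.open_target.mem_nhds (e'.map_source hp'),
    eventually_symm hp' (e.open_source.eventually_mem hp)] with z hz hq
  have hq' := e'.map_target hz
  have h1 := tforma_jac he he' hq hq'
  rw [e'.right_inv hz] at h1
  have h2 := he.jac_ne hq
  have h3 := he'.jac_ne hq'
  rw [h1] at h2
  have h4 := left_ne_zero_of_mul h2
  rw [Function.comp_apply, rep, rep, e.left_inv hq, h1, smul_smul]
  congr 1
  field_simp

theorem tforma_det {τ : E2 → E2} {z : E2} (h : ContDiffAt ℝ ∞ τ z) :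
    ContDiffAt ℝ ∞ (fun z => det2 (fderiv ℝ τ z b0) (fderiv ℝ τ z b1)) z := by
  have h1 : ContDiffAt ℝ ∞ (fderiv ℝ τ) z := h.fderiv_right (by simp)
  have h2 : ∀ (v : E2) (i : Fin 2), ContDiffAt ℝ ∞ (fun z => fderiv ℝ τ z v i) z := fun v i =>
    (EuclideanSpace.proj (𝕜 := ℝ) i).contDiff.contDiffAt.comp z (h1.clm_apply contDiffAt_const)
  exact ((h2 _ _).mul (h2 _ _)).sub ((h2 _ _).mul (h2 _ _))

theorem tforma_hess {g : E2 → ℝ} {τ : E2 → E2} {z : E2} (hτ : ContDiffAt ℝ ∞ τ z)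
    (hg : ContDiffAt ℝ ∞ g (τ z)) (h0 : fderiv ℝ g (τ z) = 0) (v : E2) :
    fderiv ℝ (fderiv ℝ (g ∘ τ)) z v =
      (fderiv ℝ (fderiv ℝ g) (τ z) (fderiv ℝ τ z v)).comp (fderiv ℝ τ z) := by
  have hτ1 : ContDiffAt ℝ 1 τ z := hτ.of_le (by simp)
  have hg1 : ContDiffAt ℝ 1 g (τ z) := hg.of_le (by simp)
  have h1 : fderiv ℝ (g ∘ τ) =ᶠ[𝓝 z] fun y => (fderiv ℝ g (τ y)).comp (fderiv ℝ τ y) := by
    filter_upwards [hτ1.eventually (by simp),
      hτ.continuousAt.eventually (hg1.eventually (by simp))] with y hy hy'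
    exact fderiv_comp y (hy'.differentiableAt (by simp)) (hy.differentiableAt (by simp))
  have h2 : DifferentiableAt ℝ (fderiv ℝ τ) z :=
    (hτ.fderiv_right (m := ∞) (by simp)).differentiableAt (by simp)
  have h3 : DifferentiableAt ℝ (fderiv ℝ g) (τ z) :=
    (hg.fderiv_right (m := ∞) (by simp)).differentiableAt (by simp)
  have h4 := h3.hasFDerivAt.comp z (hτ.differentiableAt (by simp)).hasFDerivAt
  have h5 := h4.clm_comp h2.hasFDerivAt
  rw [h1.fderiv_eq]
  refine (congrArg (fun L : E2 →L[ℝ] E2 →L[ℝ] ℝ => L v) h5.fderiv).trans ?_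
  ext w
  simp [h0]

theorem SmF.of_local (h : ∀ p, ∃ e : OpenPartialHomeomorph M E2, IsCh e ∧ p ∈ e.source ∧
    ContDiffAt ℝ ∞ (rep e Ω) (e p)) : SmF Ω := by
  intro e' he' z hz
  obtain ⟨e, he, hp, h1⟩ := h (e'.symm z)
  have hp' := e'.map_target hz
  have h2 := tforma_tau he he' hp hp'
  have h3 := tforma_rep he he' hp hp' Ω
  rw [e'.right_inv hz] at h2 h3
  exact (((tforma_det h2).smul (ContDiffAt.comp z h1 h2)).congr_of_eventuallyEq
    h3).contDiffWithinAt
theorem SZ.of_chart (he : IsCh e) (hp : p ∈ e.source) (h0 : Ω p = 0)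
    (hd : DifferentiableAt ℝ (rep e Ω) (e p)) (h : Injective (fderiv ℝ (rep e Ω) (e p))) :
    SZ Ω p := by
  intro e' he' hp'
  have h2 := tforma_tau he he' hp hp'
  have hb := tforma_bij he he' hp hp'
  have e1 : (e ∘ e'.symm) (e' p) = e p := by rw [Function.comp_apply, e'.left_inv hp']
  have h3 : HasFDerivAt (rep e Ω) (fderiv ℝ (rep e Ω) (e p)) ((e ∘ e'.symm) (e' p)) := by
    rw [e1]
    exact hd.hasFDerivAt
  have h4 := h3.comp (e' p) (h2.differentiableAt (by simp)).hasFDerivAt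
  have h5 := ((tforma_det h2).differentiableAt (by simp)).hasFDerivAt.smul h4
  have h6 : (rep e Ω ∘ e ∘ e'.symm) (e' p) = 0 := by
    rw [Function.comp_apply, e1, he.rep_eq_zero Ω hp, h0]
  rw [(h5.congr_of_eventuallyEq (tforma_rep he he' hp hp' Ω)).fderiv, h6]
  intro v w hvw
  have h7 := det2_ne_zero hb.1
  simp only [_root_.add_apply, _root_.smul_apply,
    ContinuousLinearMap.comp_apply, ContinuousLinearMap.smulRight_apply, smul_zero,
    add_zero] at hvw
  exact hb.1 (h (smul_right_injective ℂ h7 hvw))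
theorem SZ.congr (h : SZ Ω p) (h' : Ω' =ᶠ[𝓝 p] Ω) : SZ Ω' p := by
  intro e he hp
  rw [(rep_congr hp h').fderiv_eq]
  exact h e he hp
theorem ND.of_chart (he : IsCh e) (hp : p ∈ e.source) (hf : Sm f) (h0 : dd f p = 0)
    (h : Injective (fderiv ℝ (fderiv ℝ (f ∘ e.symm)) (e p))) : ND f p := by
  intro e' he' hp'
  have h2 := tforma_tau he he' hp hp'
  have hb := tforma_bij he he' hp hp'
  have e1 : (e ∘ e'.symm) (e' p) = e p := by rw [Function.comp_apply, e'.left_inv hp']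
  have h3 : f ∘ e'.symm =ᶠ[𝓝 (e' p)] (f ∘ e.symm) ∘ e ∘ e'.symm := by
    filter_upwards [eventually_symm hp' (e.open_source.eventually_mem hp)] with z hz
    simp only [Function.comp_apply, e.left_inv hz]
  have h4 := tforma_hess (g := f ∘ e.symm) h2 (by
    rw [e1]
    exact he.contDiffAt_symm hp (hf p)) (by
    rw [e1]
    exact (he.dd_eq_zero hp (hf.df p)).1 h0)
  rw [e1] at h4
  rw [h3.fderiv.fderiv_eq]
  intro v w hvw
  rw [h4, h4] at hvw
  refine hb.1 (h (ContinuousLinearMap.ext fun x => ?_))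
  obtain ⟨y, rfl⟩ := hb.2 x
  exact congrArg (fun L : E2 →L[ℝ] ℝ => L y) hvw
theorem ND.congr (h : ND f p) (h' : f' =ᶠ[𝓝 p] f) : ND f' p := by
  intro e he hp
  have h1 : f' ∘ e.symm =ᶠ[𝓝 (e p)] f ∘ e.symm := eventually_symm hp h'
  rw [h1.fderiv.fderiv_eq]
  exact h e he hp

theorem tformb_wedge (A : E2 →L[ℝ] ℝ) (B : E2 →L[ℝ] ℂ) (v w : E2) :
    A v • B w - A w • B v = det2 v w • (A b0 • B b1 - A b1 • B b0) := by
  have hA : ∀ x : E2, A x = x 0 * A b0 + x 1 * A b1 := fun x => by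
    conv_lhs => rw [vec_eq x]
    simp only [map_add, map_smul, smul_eq_mul]
  have hB : ∀ x : E2, B x = x 0 • B b0 + x 1 • B b1 := fun x => by
    conv_lhs => rw [vec_eq x]
    simp only [map_add, map_smul]
  rw [hA v, hA w, hB v, hB w, det2]
  module

theorem IsCh.rep_wedge (he : IsCh e) (hf : Sm f) {W : M → ℂ} (hW : Sm W) {z : E2}
    (hz : z ∈ e.target) : rep e (wedge f W) z = pwedge (f ∘ e.symm) (W ∘ e.symm) z := by
  have hq := e.map_target hz
  rw [rep, wedge, he.dd_eq hq (hf.df _) b0, he.dd_eq hq (hf.df _) b1, he.dd_eq hq (hW.df _) b0,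
    he.dd_eq hq (hW.df _) b1, tformb_wedge, e.right_inv hz, ← jac, smul_smul,
    inv_mul_cancel₀ (he.jac_ne hq), one_smul, pwedge]
theorem smF_wedge (hf : Sm f) {W : M → ℂ} (hW : Sm W) : SmF (wedge f W) := by
  intro e he
  have h1 := (he.contDiffOn_symm hf).fderiv_of_isOpen (m := ∞) e.open_target (by simp)
  have h2 := (he.contDiffOn_symm hW).fderiv_of_isOpen (m := ∞) e.open_target (by simp)
  refine ContDiffOn.congr ?_ fun z hz => he.rep_wedge hf hW hz
  exact ((h1.clm_apply contDiffOn_const).smul (h2.clm_apply contDiffOn_const)).sub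
    ((h1.clm_apply contDiffOn_const).smul (h2.clm_apply contDiffOn_const))

variable [IsManifold (𝓡 2) ∞ M] [T2Space M]

theorem IsCh.exists_patchF (he : IsCh e) (hΩ : SmF Ω) {φ : E2 → ℂ}
    (hφ : ContDiffOn ℝ ∞ φ e.target) {K : Set E2} (hK : IsCompact K) (hKt : K ⊆ e.target)
    (h : ∀ z ∈ e.target, z ∉ K → φ z = rep e Ω z) :
    ∃ Ω' : M → ℂ, SmF Ω' ∧ (∀ z ∈ e.target, rep e Ω' z = φ z) ∧
      ∀ q, q ∉ e.symm '' K → Ω' =ᶠ[𝓝 q] Ω := by
  classical
  have hc : IsClosed (e.symm '' K) :=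
    (hK.image_of_continuousOn (e.continuousOn_symm.mono hKt)).isClosed
  have h2 : ∀ q, q ∉ e.symm '' K →
      (fun q => if q ∈ e.source then jac e q • φ (e q) else Ω q) =ᶠ[𝓝 q] Ω := by
    intro q hq
    filter_upwards [hc.isOpen_compl.mem_nhds hq] with x hx
    split_ifs with hxs
    · rw [h _ (e.map_source hxs) fun hk => hx ⟨_, hk, e.left_inv hxs⟩, ← he.rep_apply Ω hxs]
    · rfl
  have h3 : ∀ z ∈ e.target,
      rep e (fun q => if q ∈ e.source then jac e q • φ (e q) else Ω q) z = φ z := by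
    intro z hz
    have hq := e.map_target hz
    rw [rep, if_pos hq, e.right_inv hz, smul_smul, inv_mul_cancel₀ (he.jac_ne hq), one_smul]
  refine ⟨_, SmF.of_local fun q => ?_, h3, h2⟩
  by_cases hq : q ∈ e.source
  · have hz := e.open_target.mem_nhds (e.map_source hq)
    refine ⟨e, he, hq, (hφ.contDiffAt hz).congr_of_eventuallyEq ?_⟩
    filter_upwards [hz] with z hz using h3 z hz
  · have hq' := mem_chart_source E2 q
    refine ⟨chartAt E2 q, isCh_chartAt q, hq', ((hΩ _ (isCh_chartAt q)).contDiffAt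
      ((chartAt E2 q).open_target.mem_nhds ((chartAt E2 q).map_source hq'))).congr_of_eventuallyEq
        (rep_congr hq' (h2 q ?_))⟩
    rintro ⟨z, hz, rfl⟩
    exact hq (e.map_target (hKt hz))

variable [CompactSpace M]
theorem SmF.sm (hΩ : SmF Ω) {V W : M → E2} (hV : SmV V) (hW : SmV W) :
    Sm fun q => det2 (V q) (W q) • Ω q := by
  intro p
  have he := isCh_chartAt p
  have hp := mem_chart_source E2 p
  set e := chartAt E2 p
  have h1 : ContMDiffAt (𝓡 2) 𝓘(ℝ, ℂ) ∞ (fun q => rep e Ω (e q)) p :=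
    ((hΩ e he).contDiffAt (e.open_target.mem_nhds (e.map_source hp))).comp_contMDiffAt (he.smAt hp)
  have hd : ContDiff ℝ ∞ fun x : E2 × E2 => det2 x.1 x.2 := by
    unfold det2
    fun_prop
  have h2 : ContMDiffAt (𝓡 2) 𝓘(ℝ, ℝ) ∞ (fun q => det2 (dd e q (V q)) (dd e q (W q))) p :=
    hd.contDiffAt.comp_contMDiffAt
      ((he.field_smAt hV hp).prodMk_space (he.field_smAt hW hp))
  refine (h2.smul h1).congr_of_eventuallyEq ?_
  filter_upwards [e.open_source.mem_nhds hp] with q hq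
  rw [he.rep_apply Ω hq, smul_smul, Pi.smul_apply', det2_map, jac, mul_comm]
theorem GoodF.finite (hΩ : GoodF Ω) : {q | Ω q = 0}.Finite := by
  have key : ∀ p : M, ∀ᶠ q in 𝓝 p, Ω q = 0 → q = p := by
    intro p
    have he := isCh_chartAt p
    have hp := mem_chart_source E2 p
    set e := chartAt E2 p
    have h1 : DifferentiableAt ℝ (rep e Ω) (e p) :=
      ((hΩ.1 e he).contDiffAt (e.open_target.mem_nhds (e.map_source hp))).differentiableAt (by simp)
    have h2 : ∀ᶠ z in 𝓝 (e p), z ≠ e p → rep e Ω z ≠ 0 := by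
      by_cases h0 : Ω p = 0
      · obtain ⟨C, -, hC⟩ := (fderiv ℝ (rep e Ω) (e p) : E2 →ₗ[ℝ] ℂ).exists_antilipschitzWith
          (LinearMap.ker_eq_bot.2 (hΩ.2 p h0 e he hp))
        exact eventually_nhdsWithin_iff.1 (h1.hasFDerivAt.eventually_ne ⟨C, hC⟩)
      · exact (h1.continuousAt.eventually_ne
          (fun h => h0 ((he.rep_eq_zero Ω hp).1 h))).mono fun z hz _ => hz
    filter_upwards [eventually_chart hp h2] with q hq h0
    by_contra hne
    exact hq.2 (fun h => hne (e.injOn hq.1 hp h)) ((he.rep_eq_zero Ω hq.1).2 h0)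
  obtain ⟨t, -, ht⟩ := isCompact_univ.elim_nhds_subcover (fun p => {q | Ω q = 0 → q = p})
    fun p _ => key p
  refine t.finite_toSet.subset fun q hq => ?_
  obtain ⟨p, hp, h⟩ := mem_iUnion₂.1 (ht (mem_univ q))
  rw [h hq]
  exact hp

end Crest.Agent.R216
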