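import Mathlib
/-!
# R216 (T): parametric transversality for families that are affine in the parameter

Recipe.  By Lindelöf (`TopologicalSpace.countable_cover_nhdsWithin` / `IsLindelof.elim_nhds_subcover'`,
`ae_ball_iff`) it is enough to treat a neighbourhood `V` of one point `x₀ ∈ U`.
Take `B : F →L P` with `L x₀ ∘ B = id` (`LinearMap.exists_rightInverse_of_surjective`), `K = ker (L x₀)`,
`finrank (E × K) = finrank P` (rank-nullity), `j : P ≃L E × K` (`ContinuousLinearEquiv.ofFinrankEq`).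
On `V` the endomorphism `L x ∘ B` is invertible (units are open) and
`Φ (x, κ) = -(L x ∘ B).inverse (h x + L x κ)` is differentiable (`contDiffAt_map_inverse`); `Θ (x, κ) = B (Φ (x, κ)) + κ`.
Every zero `(x, p)`, `x ∈ V`, has `p = Θ (x, κ)` with `κ = p - B (L x₀ p)`.  Differentiating
`h x + L x (Θ (x, κ)) = 0` in the direction `(ξ, 0)` with `ξ ≠ 0` in the kernel gives `L x (B (DΦ (ξ,0))) = 0`,
so `DΘ (ξ, 0) = 0` and `det (D (Θ ∘ j)) = 0`.  Conclude with
`MeasureTheory.addHaar_image_eq_zero_of_det_fderivWithin_eq_zero` applied to `Θ ∘ j` on the set of such points.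
-/

set_option autoImplicit false
open Set Filter Function MeasureTheory

namespace Crest.Agent.R216

theorem tsard_local {E F P : Type} [NormedAddCommGroup E] [NormedSpace ℝ E] [FiniteDimensional ℝ E]
    [NormedAddCommGroup F] [NormedSpace ℝ F] [FiniteDimensional ℝ F]
    [NormedAddCommGroup P] [NormedSpace ℝ P] [FiniteDimensional ℝ P]
    [MeasurableSpace P] [BorelSpace P] (μ : Measure P) [μ.IsAddHaarMeasure]
    (hdim : Module.finrank ℝ E = Module.finrank ℝ F) {U : Set E} (hU : IsOpen U)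
    {h : E → F} {L : E → P →L[ℝ] F} (hh : ContDiffOn ℝ 1 h U) (hL : ContDiffOn ℝ 1 L U)
    {x₀ : E} (hx₀ : x₀ ∈ U) (hs : Surjective (L x₀)) :
    ∃ V ∈ nhds x₀, ∀ᵐ p ∂μ, ∀ x ∈ V, h x + L x p = 0 →
      Injective (fderiv ℝ (fun y => h y + L y p) x) := by
  have := FiniteDimensional.complete ℝ F
  obtain ⟨B', hB'⟩ := (L x₀ : P →ₗ[ℝ] F).exists_rightInverse_of_surjective
    (LinearMap.range_eq_top.2 hs)
  let B : F →L[ℝ] P := LinearMap.toContinuousLinearMap B'
  have hB : ∀ y, L x₀ (B y) = y := fun y => LinearMap.congr_fun hB' y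
  let K : Submodule ℝ P := LinearMap.ker (L x₀ : P →ₗ[ℝ] F)
  have hrk : Module.finrank ℝ P = Module.finrank ℝ (E × K) := by
    have h1 := (L x₀ : P →ₗ[ℝ] F).finrank_range_add_finrank_ker
    rw [LinearMap.range_eq_top.2 hs, finrank_top] at h1
    rw [Module.finrank_prod, hdim, ← h1]
  let j : P ≃L[ℝ] E × K := ContinuousLinearEquiv.ofFinrankEq hrk
  let A : E → F →L[ℝ] F := fun x => (L x).comp B
  have hA : ContDiffOn ℝ 1 A U := hL.clm_comp contDiffOn_const
  let V : Set E := U ∩ A ⁻¹' {a | IsUnit a}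
  have hV : IsOpen V := hA.continuousOn.isOpen_inter_preimage hU Units.isOpen
  have hx₀V : x₀ ∈ V := by
    refine ⟨hx₀, ?_⟩
    have : A x₀ = 1 := by ext y; exact hB y
    change IsUnit (A x₀)
    rw [this]
    exact isUnit_one
  let Φ : E × K → F := fun q => -(Ring.inverse (A q.1)) (h q.1 + L q.1 q.2)
  let Θ : E × K → P := fun q => B (Φ q) + q.2
  have hd : ∀ x ∈ U, DifferentiableAt ℝ h x ∧ DifferentiableAt ℝ L x ∧ DifferentiableAt ℝ A x :=
    fun x hx => ⟨(hh.contDiffAt (hU.mem_nhds hx)).differentiableAt one_ne_zero,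
      (hL.contDiffAt (hU.mem_nhds hx)).differentiableAt one_ne_zero,
      (hA.contDiffAt (hU.mem_nhds hx)).differentiableAt one_ne_zero⟩
  have hsnd : ∀ q : E × K, HasFDerivAt (fun q : E × K => (q.2 : P))
      (K.subtypeL.comp (ContinuousLinearMap.snd ℝ E K)) q :=
    fun q => (K.subtypeL.comp (ContinuousLinearMap.snd ℝ E K)).hasFDerivAt
  have hΦ : ∀ q : E × K, q.1 ∈ V → DifferentiableAt ℝ Φ q := by
    intro q hq
    obtain ⟨d1, d2, d3⟩ := hd q.1 hq.1
    have e1 : DifferentiableAt ℝ (fun q : E × K => Ring.inverse (A q.1)) q :=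
      DifferentiableAt.comp q (g := Ring.inverse) (f := fun q : E × K => A q.1)
        (differentiableAt_inverse hq.2) (d3.comp q differentiableAt_fst)
    exact (e1.clm_apply ((d1.comp q differentiableAt_fst).add
      ((d2.comp q differentiableAt_fst).clm_apply (hsnd q).differentiableAt))).neg
  have hΘ : ∀ q : E × K, q.1 ∈ V → HasFDerivAt Θ
      (B.comp (fderiv ℝ Φ q) + K.subtypeL.comp (ContinuousLinearMap.snd ℝ E K)) q :=
    fun q hq => (B.hasFDerivAt.comp q (hΦ q hq).hasFDerivAt).add (hsnd q)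
  have hid : ∀ q : E × K, q.1 ∈ V → h q.1 + L q.1 (Θ q) = 0 := by
    intro q hq
    have e : A q.1 (Ring.inverse (A q.1) (h q.1 + L q.1 q.2)) = h q.1 + L q.1 q.2 := by
      rw [← mul_apply_eq_comp, Ring.mul_inverse_cancel _ hq.2]; rfl
    have e2 : L q.1 (B (Φ q)) = -(h q.1 + L q.1 q.2) := by
      rw [← e, ← map_neg]; rfl
    simp only [Θ, map_add, e2]
    abel
  have hinj : ∀ x ∈ V, Injective (A x) := fun x hx a b hab => by
    have e : ∀ a, Ring.inverse (A x) (A x a) = a := fun a => by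
      rw [← mul_apply_eq_comp, Ring.inverse_mul_cancel _ hx.2]; rfl
    rw [← e a, hab, e b]
  let D : P → P →L[ℝ] P := fun z =>
    (B.comp (fderiv ℝ Φ (j z)) + K.subtypeL.comp (ContinuousLinearMap.snd ℝ E K)).comp
      (j : P →L[ℝ] E × K)
  have hnull := addHaar_image_eq_zero_of_det_fderivWithin_eq_zero μ (f := fun z => Θ (j z)) (f' := D)
    (s := {z | (j z).1 ∈ V ∧ (D z).det = 0})
    (fun z hz => ((hΘ (j z) hz.1).comp z j.hasFDerivAt).hasFDerivWithinAt) fun z hz => hz.2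
  refine ⟨V, hV.mem_nhds hx₀V, ?_⟩
  filter_upwards [measure_eq_zero_iff_ae_notMem.1 hnull] with p hp x hx h0
  by_contra hni
  obtain ⟨ξ, hξ, hξ0⟩ : ∃ ξ, fderiv ℝ (fun y => h y + L y p) x ξ = 0 ∧ ξ ≠ 0 := by
    by_contra hcon
    push Not at hcon
    exact hni ((injective_iff_map_eq_zero _).2 hcon)
  let κ : K := ⟨p - B (L x₀ p), by
    change L x₀ (p - B (L x₀ p)) = 0
    rw [map_sub, hB, sub_self]⟩
  have hΦp : Φ (x, κ) = L x₀ p := by
    refine hinj x hx ?_
    have e := hid (x, κ) hx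
    have e' : L x (Θ (x, κ)) = L x p := by
      rw [← add_left_cancel_iff (a := h x), h0]; exact e
    change L x (B (Φ (x, κ))) = L x (B (L x₀ p))
    simp only [Θ, κ, map_add, map_sub] at e'
    rw [← sub_eq_zero]
    rw [← sub_eq_zero] at e'
    rw [← e']
    abel
  have hΘp : Θ (x, κ) = p := by
    simp only [Θ, hΦp, κ]
    abel
  obtain ⟨d1, d2, -⟩ := hd x hx.1
  have hθ : HasFDerivAt (fun y => Θ (y, κ) - p)
      ((B.comp (fderiv ℝ Φ (x, κ)) + K.subtypeL.comp (ContinuousLinearMap.snd ℝ E K)).comp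
        (ContinuousLinearMap.inl ℝ E K)) x :=
    (HasFDerivAt.comp x (g := Θ) (f := fun y : E => (y, κ)) (hΘ (x, κ) hx)
      (hasFDerivAt_prodMk_left (𝕜 := ℝ) x κ)).sub_const p
  have hG : DifferentiableAt ℝ (fun y => h y + L y p) x :=
    d1.add (d2.clm_apply (differentiableAt_const p))
  have hsum := hG.hasFDerivAt.add (d2.hasFDerivAt.clm_apply hθ)
  have hzero : HasFDerivAt (fun y => h y + L y p + L y (Θ (y, κ) - p)) (0 : E →L[ℝ] F) x := by
    refine (hasFDerivAt_const (0 : F) x).congr_of_eventuallyEq ?_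
    filter_upwards [hV.mem_nhds hx] with y hy
    rw [map_sub, ← hid (y, κ) hy]
    abel
  have huniq := congrArg (fun T : E →L[ℝ] F => T ξ) (hsum.unique hzero)
  have hker : fderiv ℝ Φ (x, κ) (ξ, 0) = 0 := by
    refine hinj x hx ?_
    simpa [hξ, hΘp, A] using huniq
  refine hp ⟨j.symm (x, κ), ⟨by simpa using hx, ?_⟩, by simp [hΘp]⟩
  refine LinearMap.det_eq_zero_iff_ker_ne_bot.2 ((Submodule.ne_bot_iff _).2 ⟨j.symm (ξ, 0), ?_, ?_⟩)
  · simp [D, hker]
  · simpa using hξ0

theorem param_sard {E F P : Type} [NormedAddCommGroup E] [NormedSpace ℝ E] [FiniteDimensional ℝ E]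
    [NormedAddCommGroup F] [NormedSpace ℝ F] [FiniteDimensional ℝ F]
    [NormedAddCommGroup P] [NormedSpace ℝ P] [FiniteDimensional ℝ P]
    [MeasurableSpace P] [BorelSpace P] (μ : Measure P) [μ.IsAddHaarMeasure]
    (hdim : Module.finrank ℝ E = Module.finrank ℝ F) {U : Set E} (hU : IsOpen U)
    {h : E → F} {L : E → P →L[ℝ] F} (hh : ContDiffOn ℝ 1 h U) (hL : ContDiffOn ℝ 1 L U)
    (hs : ∀ x ∈ U, Surjective (L x)) :
    ∀ᵐ p ∂μ, ∀ x ∈ U, h x + L x p = 0 → Injective (fderiv ℝ (fun y => h y + L y p) x) := by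
  choose! V hV hae using fun x₀ (hx₀ : x₀ ∈ U) => tsard_local μ hdim hU hh hL hx₀ (hs x₀ hx₀)
  obtain ⟨t, htU, htc, hcov⟩ := TopologicalSpace.countable_cover_nhdsWithin (f := V) (s := U)
    fun x hx => mem_nhdsWithin_of_mem_nhds (hV x hx)
  filter_upwards [(ae_ball_iff htc).2 fun x hx => hae x (htU hx)] with p hp x hx
  obtain ⟨y, hy, hxy⟩ := mem_iUnion₂.1 (hcov hx)
  exact hp y hy x hxy

end Crest.Agent.R216
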