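import Crest.Agent.R216.TChart
import Crest.Agent.R216.TSard
/-!
# R216 (T): generic linear projections of an immersed plane domain

Recipe: `param_sard` with `P = H →L T4`.  `fderiv (A ∘ γ) z = A ∘L fderiv γ z` on `U`; `fderiv γ z` has a left inverse
`λ` (`LinearMap.exists_leftInverse_of_injective`), so `A ↦ A ∘L fderiv γ z` is onto `E2 →L T4`.
* `gen_imm`, `gen_tan`: domain `{(z, ξ) | z ∈ U, ξ ≠ 0} ⊆ E2 × E2`, `L (z, ξ) A = A (fderiv γ z ξ)`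
  (`ContinuousLinearMap.apply`), `h = 0` resp. `h = -v`.  For `gen_imm`: at a zero the derivative kills `(0, ξ)`.
* `gen_morse`: domain `U`, target `E2 →L ℝ` (finrank 2), `L z A = π ∘L A ∘L fderiv γ z`; the function
  `y ↦ L y A` agrees near `z` with `fderiv (fun y => (A (γ y)).2.1)`.
* `gen_dis`: domain as in `gen_imm`, target `ℂ × (E2 →L ℝ)` (finrank 4); at a zero the derivative kills `(0, ξ)`.
* `gen_dbl`: domain `{(z, z') ∈ U × U' | γ z ≠ γ' z'}`, `L (z, z') A = A (γ z - γ' z')`.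
-/

set_option autoImplicit false
open scoped Manifold ContDiff Topology Matrix
open Set Filter Function Metric

namespace Crest.Agent.R216
universe u

open MeasureTheory
variable {H : Type} [NormedAddCommGroup H] [NormedSpace ℝ H] [FiniteDimensional ℝ H]
  [MeasurableSpace (H →L[ℝ] T4)] [BorelSpace (H →L[ℝ] T4)] (μ : Measure (H →L[ℝ] T4))
  [μ.IsAddHaarMeasure] {γ γ' : E2 → H} {U U' : Set E2}

theorem finrank_T4 : Module.finrank ℝ T4 = 4 := by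
  simp [T4, Module.finrank_prod]

theorem tgena_gen {V : Set (E2 × E2)} (hV : IsOpen V) {u : E2 × E2 → H} (hu : ContDiffOn ℝ 1 u V)
    (h0 : ∀ x ∈ V, u x ≠ 0) (c : T4) :
    ∀ᵐ A ∂μ, ∀ x ∈ V, A (u x) = c → ∀ w, A (fderiv ℝ u x w) = 0 → w = 0 := by
  have hdim : Module.finrank ℝ (E2 × E2) = Module.finrank ℝ T4 := by
    rw [finrank_T4]; simp [Module.finrank_prod]
  have hL : ContDiffOn ℝ 1 (fun x => ContinuousLinearMap.apply ℝ T4 (u x)) V :=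
    contDiffOn_clm_apply.2 fun A => A.contDiff.comp_contDiffOn hu
  have hs : ∀ x ∈ V, Surjective (ContinuousLinearMap.apply ℝ T4 (u x)) := by
    intro x hx t
    obtain ⟨l, hl⟩ := SeparatingDual.exists_eq_one (R := ℝ) (h0 x hx)
    exact ⟨l.smulRight t, by simp [hl]⟩
  have key := param_sard μ hdim hV (h := fun _ => -c)
    (L := fun x => ContinuousLinearMap.apply ℝ T4 (u x)) contDiffOn_const hL hs
  filter_upwards [key] with A hA x hx hc w hw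
  have hd : HasFDerivAt u (fderiv ℝ u x) x :=
    ((hu.contDiffAt (hV.mem_nhds hx)).differentiableAt one_ne_zero).hasFDerivAt
  have hd2 : HasFDerivAt (fun y => -c + ContinuousLinearMap.apply ℝ T4 (u y) A)
      (A.comp (fderiv ℝ u x)) x := (A.hasFDerivAt.comp x hd).const_add (-c)
  have hinj := hA x hx (by simp [hc])
  rw [hd2.fderiv] at hinj
  apply hinj
  simpa using hw

omit [FiniteDimensional ℝ H] [MeasurableSpace (H →L[ℝ] T4)] [BorelSpace (H →L[ℝ] T4)] in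
theorem tgena_fd (hU : IsOpen U) (hγ : ContDiffOn ℝ ∞ γ U) (A : H →L[ℝ] T4) {z : E2} (hz : z ∈ U) :
    fderiv ℝ (fun y => A (γ y)) z = A.comp (fderiv ℝ γ z) :=
  (A.hasFDerivAt.comp z
    ((hγ.contDiffAt (hU.mem_nhds hz)).differentiableAt (by simp)).hasFDerivAt).fderiv

omit [FiniteDimensional ℝ H] [MeasurableSpace (H →L[ℝ] T4)] [BorelSpace (H →L[ℝ] T4)] in
theorem tgena_cd (hU : IsOpen U) (hγ : ContDiffOn ℝ ∞ γ U) : ContDiffOn ℝ 1 (fderiv ℝ γ) U :=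
  (hγ.fderiv_of_isOpen (m := ∞) hU (by simp)).of_le (by exact_mod_cast le_top)

omit [FiniteDimensional ℝ H] [MeasurableSpace (H →L[ℝ] T4)] [BorelSpace (H →L[ℝ] T4)] in
theorem tgena_fd2 (hU : IsOpen U) (hγ : ContDiffOn ℝ ∞ γ U) (A : H →L[ℝ] T4) {z : E2} (hz : z ∈ U)
    (η ξ : E2) :
    fderiv ℝ (fderiv ℝ fun y => A (γ y)) z η ξ = A (fderiv ℝ (fderiv ℝ γ) z η ξ) := by
  have he : (fderiv ℝ fun y => A (γ y)) =ᶠ[𝓝 z]
      fun y => ContinuousLinearMap.compL ℝ E2 H T4 A (fderiv ℝ γ y) := by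
    filter_upwards [hU.mem_nhds hz] with y hy
    rw [tgena_fd hU hγ A hy]; rfl
  have hd : HasFDerivAt (fderiv ℝ γ) (fderiv ℝ (fderiv ℝ γ) z) z :=
    (((tgena_cd hU hγ).contDiffAt (hU.mem_nhds hz)).differentiableAt one_ne_zero).hasFDerivAt
  have hd2 := (ContinuousLinearMap.compL ℝ E2 H T4 A).hasFDerivAt.comp z hd
  rw [he.fderiv_eq]
  have := hd2.fderiv
  rw [show (fun y => ContinuousLinearMap.compL ℝ E2 H T4 A (fderiv ℝ γ y)) =
    (ContinuousLinearMap.compL ℝ E2 H T4 A) ∘ fderiv ℝ γ from rfl, this]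
  rfl

theorem tgena_tan (hU : IsOpen U) (hγ : ContDiffOn ℝ ∞ γ U)
    (hi : ∀ z ∈ U, Injective (fderiv ℝ γ z)) (c : T4) :
    ∀ᵐ A ∂μ, ∀ z ∈ U, ∀ ξ, ξ ≠ 0 → A (fderiv ℝ γ z ξ) = c → ∀ η θ,
      A (fderiv ℝ (fderiv ℝ γ) z η ξ) + A (fderiv ℝ γ z θ) = 0 → η = 0 ∧ θ = 0 := by
  have hV : IsOpen {x : E2 × E2 | x.1 ∈ U ∧ x.2 ≠ 0} :=
    (hU.preimage continuous_fst).inter (isOpen_ne.preimage continuous_snd)
  have hu : ContDiffOn ℝ 1 (fun x : E2 × E2 => fderiv ℝ γ x.1 x.2)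
      {x : E2 × E2 | x.1 ∈ U ∧ x.2 ≠ 0} :=
    ((tgena_cd hU hγ).comp contDiff_fst.contDiffOn fun x hx => hx.1).clm_apply
      contDiff_snd.contDiffOn
  have h0 : ∀ x ∈ {x : E2 × E2 | x.1 ∈ U ∧ x.2 ≠ 0}, fderiv ℝ γ x.1 x.2 ≠ 0 := by
    intro x hx h
    exact hx.2 (hi _ hx.1 (by simpa using h))
  filter_upwards [tgena_gen μ hV hu h0 c] with A hA z hz ξ hξ hc η θ hw
  have hd : HasFDerivAt (fderiv ℝ γ) (fderiv ℝ (fderiv ℝ γ) z) z :=
    (((tgena_cd hU hγ).contDiffAt (hU.mem_nhds hz)).differentiableAt one_ne_zero).hasFDerivAt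
  have hd1 : HasFDerivAt (fun x : E2 × E2 => fderiv ℝ γ x.1)
      ((fderiv ℝ (fderiv ℝ γ) z).comp (ContinuousLinearMap.fst ℝ E2 E2)) (z, ξ) :=
    HasFDerivAt.comp (z, ξ) (g := fderiv ℝ γ) (f := Prod.fst) hd hasFDerivAt_fst
  have hd2 := hd1.clm_apply (hasFDerivAt_snd (𝕜 := ℝ) (p := ((z, ξ) : E2 × E2)))
  have := hA (z, ξ) ⟨hz, hξ⟩ hc (η, θ) (by
    rw [hd2.fderiv]
    simpa [add_comm] using hw)
  exact Prod.mk_eq_zero.1 this

theorem gen_imm (hU : IsOpen U) (hγ : ContDiffOn ℝ ∞ γ U) (hi : ∀ z ∈ U, Injective (fderiv ℝ γ z)) :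
    ∀ᵐ A ∂μ, ∀ z ∈ U, Injective (fderiv ℝ (fun y => A (γ y)) z) := by
  filter_upwards [tgena_tan μ hU hγ hi 0] with A hA z hz
  rw [tgena_fd hU hγ A hz, injective_iff_map_eq_zero]
  intro ξ hξ
  by_contra h
  exact h (hA z hz ξ h hξ 0 ξ (by simpa using hξ)).2

theorem gen_tan (hU : IsOpen U) (hγ : ContDiffOn ℝ ∞ γ U) (hi : ∀ z ∈ U, Injective (fderiv ℝ γ z))
    {v : T4} (hv : v ≠ 0) :
    ∀ᵐ A ∂μ, ∀ z ∈ U, ∀ ξ, fderiv ℝ (fun y => A (γ y)) z ξ = v → ∀ η θ,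
      fderiv ℝ (fderiv ℝ fun y => A (γ y)) z η ξ + fderiv ℝ (fun y => A (γ y)) z θ = 0 →
      η = 0 ∧ θ = 0 := by
  filter_upwards [tgena_tan μ hU hγ hi v] with A hA z hz ξ hξ η θ hw
  rw [tgena_fd2 hU hγ A hz, tgena_fd hU hγ A hz] at hw
  rw [tgena_fd hU hγ A hz] at hξ
  refine hA z hz ξ ?_ hξ η θ hw
  rintro rfl
  exact hv (by simpa using hξ.symm)

/-- `A ↦ π ∘ A ∘ D` -/
noncomputable def tgenb_L (D : E2 →L[ℝ] H) : (H →L[ℝ] T4) →L[ℝ] (E2 →L[ℝ] ℝ) :=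
  LinearMap.toContinuousLinearMap
    { toFun := fun A => ((ContinuousLinearMap.fst ℝ ℝ ℝ).comp
        (ContinuousLinearMap.snd ℝ ℂ (ℝ × ℝ))).comp (A.comp D)
      map_add' := fun _ _ => rfl
      map_smul' := fun _ _ => rfl }

/-- `A ↦ (π₁ A D ξ, π ∘ A ∘ D)` -/
noncomputable def tgenb_L2 (D : E2 →L[ℝ] H) (ξ : E2) : (H →L[ℝ] T4) →L[ℝ] ℂ × (E2 →L[ℝ] ℝ) :=
  LinearMap.toContinuousLinearMap
    { toFun := fun A => ((A (D ξ)).1, tgenb_L D A)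
      map_add' := fun _ _ => rfl
      map_smul' := fun _ _ => rfl }

omit [MeasurableSpace (H →L[ℝ] T4)] [BorelSpace (H →L[ℝ] T4)] in
theorem tgenb_L2_apply (D : E2 →L[ℝ] H) (ξ : E2) (A : H →L[ℝ] T4) :
    tgenb_L2 D ξ A = ((A (D ξ)).1, tgenb_L D A) := rfl

omit [MeasurableSpace (H →L[ℝ] T4)] [BorelSpace (H →L[ℝ] T4)] in
theorem tgenb_surj {D : E2 →L[ℝ] H} (hD : Injective D) (B : E2 →L[ℝ] T4) :
    ∃ A : H →L[ℝ] T4, ∀ v, A (D v) = B v := by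
  obtain ⟨g, hg⟩ := (D : E2 →ₗ[ℝ] H).exists_leftInverse_of_injective (LinearMap.ker_eq_bot.2 hD)
  exact ⟨B.comp (LinearMap.toContinuousLinearMap g), fun v => congrArg B (LinearMap.congr_fun hg v)⟩

theorem tgenb_rank : Module.finrank ℝ (E2 →L[ℝ] ℝ) = 2 := by
  rw [← (LinearMap.toContinuousLinearMap (𝕜 := ℝ) (E := E2) (F' := ℝ)).finrank_eq,
    Module.finrank_linearMap, finrank_euclideanSpace_fin, Module.finrank_self]

omit [MeasurableSpace (H →L[ℝ] T4)] [BorelSpace (H →L[ℝ] T4)] in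
theorem tgenb_sm {X : Type} [NormedAddCommGroup X] [NormedSpace ℝ X] {D : X → E2 →L[ℝ] H}
    {S : Set X} (hD : ContDiffOn ℝ 1 D S) (A : H →L[ℝ] T4) :
    ContDiffOn ℝ 1 (fun x => tgenb_L (D x) A) S :=
  contDiffOn_clm_apply.2 fun v =>
    (A.contDiff.comp_contDiffOn (hD.clm_apply (contDiffOn_const (c := v)))).snd.fst

omit [MeasurableSpace (H →L[ℝ] T4)] [BorelSpace (H →L[ℝ] T4)] in
theorem tgenb_der (hU : IsOpen U) (hγ : ContDiffOn ℝ ∞ γ U) (A : H →L[ℝ] T4) {z : E2} (hz : z ∈ U) :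
    fderiv ℝ (fun y => (A (γ y)).2.1) z = tgenb_L (fderiv ℝ γ z) A ∧
      ∀ ξ, fderiv ℝ (fun y => (A (γ y)).1) z ξ = (A (fderiv ℝ γ z ξ)).1 := by
  have h := A.hasFDerivAt.comp z
    ((hγ.contDiffAt (hU.mem_nhds hz)).differentiableAt (by simp)).hasFDerivAt
  exact ⟨h.snd.fst.fderiv, fun ξ => congrArg (fun L : E2 →L[ℝ] ℂ => L ξ) h.fst.fderiv⟩

theorem gen_morse (hU : IsOpen U) (hγ : ContDiffOn ℝ ∞ γ U)
    (hi : ∀ z ∈ U, Injective (fderiv ℝ γ z)) :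
    ∀ᵐ A ∂μ, ∀ z ∈ U, fderiv ℝ (fun y => (A (γ y)).2.1) z = 0 →
      Injective (fderiv ℝ (fderiv ℝ fun y => (A (γ y)).2.1) z) := by
  have hD : ContDiffOn ℝ 1 (fderiv ℝ γ) U := hγ.fderiv_of_isOpen hU (by norm_cast)
  filter_upwards [param_sard μ (finrank_euclideanSpace_fin.trans tgenb_rank.symm) hU
    (h := fun _ => 0) (L := fun z => tgenb_L (fderiv ℝ γ z)) contDiffOn_const
    (contDiffOn_clm_apply.2 (tgenb_sm hD)) fun z hz ℓ => by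
      obtain ⟨A, hA⟩ := tgenb_surj (hi z hz) ((0 : E2 →L[ℝ] ℂ).prod (ℓ.prod 0))
      exact ⟨A, ContinuousLinearMap.ext fun v => congrArg (fun t : T4 => t.2.1) (hA v)⟩]
    with A hA z hz h0
  have e : (fderiv ℝ fun y => (A (γ y)).2.1) =ᶠ[𝓝 z] fun y => 0 + tgenb_L (fderiv ℝ γ y) A := by
    filter_upwards [hU.mem_nhds hz] with y hy
    rw [zero_add, (tgenb_der hU hγ A hy).1]
  rw [e.fderiv_eq]
  exact hA z hz (e.eq_of_nhds.symm.trans h0)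

theorem tgenb_line {X F : Type} [NormedAddCommGroup X] [NormedSpace ℝ X] [NormedAddCommGroup F]
    [NormedSpace ℝ F] {G : X → F} {x v : X} (hG : DifferentiableAt ℝ G x)
    (h : ∀ t : ℝ, G (x + t • v) = 0) (hi : Injective (fderiv ℝ G x)) : v = 0 := by
  have h5 : HasDerivAt (fun t : ℝ => G (x + t • v)) _ 0 := hG.hasFDerivAt.hasLineDerivAt v
  simp only [h] at h5
  exact hi ((h5.unique (hasDerivAt_const _ _)).trans (map_zero _).symm)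

theorem gen_dis (hU : IsOpen U) (hγ : ContDiffOn ℝ ∞ γ U) (hi : ∀ z ∈ U, Injective (fderiv ℝ γ z)) :
    ∀ᵐ A ∂μ, ∀ z ∈ U, fderiv ℝ (fun y => (A (γ y)).2.1) z = 0 →
      Injective (fderiv ℝ (fun y => (A (γ y)).1) z) := by
  have hD : ContDiffOn ℝ 1 (fderiv ℝ γ) U := hγ.fderiv_of_isOpen hU (by norm_cast)
  have hO : IsOpen (U ×ˢ ({0}ᶜ : Set E2)) := hU.prod isOpen_compl_singleton
  have hD' : ContDiffOn ℝ 1 (fun x : E2 × E2 => fderiv ℝ γ x.1) (U ×ˢ ({0}ᶜ : Set E2)) :=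
    hD.comp contDiffOn_fst fun x hx => hx.1
  have hL : ∀ A : H →L[ℝ] T4, ContDiffOn ℝ 1
      (fun x : E2 × E2 => tgenb_L2 (fderiv ℝ γ x.1) x.2 A) (U ×ˢ ({0}ᶜ : Set E2)) := fun A =>
    (A.contDiff.comp_contDiffOn (hD'.clm_apply contDiffOn_snd)).fst.prodMk (tgenb_sm hD' A)
  have hr : Module.finrank ℝ (E2 × E2) = Module.finrank ℝ (ℂ × (E2 →L[ℝ] ℝ)) := by
    rw [Module.finrank_prod, Module.finrank_prod, tgenb_rank, finrank_euclideanSpace_fin,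
      Complex.finrank_real_complex]
  have hs : ∀ x ∈ U ×ˢ ({0}ᶜ : Set E2), Surjective (tgenb_L2 (fderiv ℝ γ x.1) x.2) := by
    intro x hx c
    obtain ⟨φ, hφ⟩ := SeparatingDual.exists_eq_one (R := ℝ) (show x.2 ≠ 0 from hx.2)
    obtain ⟨A, hA⟩ := tgenb_surj (hi x.1 hx.1) ((φ.smulRight c.1).prod (c.2.prod 0))
    refine ⟨A, ?_⟩
    rw [tgenb_L2_apply, hA]
    exact Prod.ext (by simp [hφ])
      (ContinuousLinearMap.ext fun v => congrArg (fun t : T4 => t.2.1) (hA v))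
  filter_upwards [param_sard μ hr hO (h := fun _ => 0)
    (L := fun x => tgenb_L2 (fderiv ℝ γ x.1) x.2) contDiffOn_const (contDiffOn_clm_apply.2 hL) hs]
    with A hA z hz h0
  rw [injective_iff_map_eq_zero]
  intro ξ hξ
  by_contra hne
  obtain ⟨h1, h2⟩ := tgenb_der hU hγ A hz
  rw [h1] at h0
  rw [h2] at hξ
  have hx : (z, ξ) ∈ U ×ˢ ({0}ᶜ : Set E2) := ⟨hz, hne⟩
  refine hne (congrArg Prod.snd (tgenb_line (v := ((0 : E2), ξ))
    ((((hL A).contDiffAt (hO.mem_nhds hx)).differentiableAt one_ne_zero).const_add 0)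
    (fun t => ?_) (hA (z, ξ) hx ?_)))
  · simp [tgenb_L2_apply, h0, hξ]
  · simp [tgenb_L2_apply, h0, hξ]

theorem gen_dbl (hU : IsOpen U) (hU' : IsOpen U') (hγ : ContDiffOn ℝ ∞ γ U)
    (hγ' : ContDiffOn ℝ ∞ γ' U') :
    ∀ᵐ A ∂μ, ∀ z ∈ U, ∀ z' ∈ U', γ z ≠ γ' z' → A (γ z) = A (γ' z') → ∀ a b,
      fderiv ℝ (fun y => A (γ y)) z a = fderiv ℝ (fun y => A (γ' y)) z' b → a = 0 ∧ b = 0 := by
  have hu0 : ContDiffOn ℝ 1 (fun x : E2 × E2 => γ x.1 - γ' x.2) (U ×ˢ U') :=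
    ((hγ.of_le (by exact_mod_cast le_top)).comp contDiff_fst.contDiffOn fun x hx => hx.1).sub
      ((hγ'.of_le (by exact_mod_cast le_top)).comp contDiff_snd.contDiffOn fun x hx => hx.2)
  have hV : IsOpen (U ×ˢ U' ∩ (fun x : E2 × E2 => γ x.1 - γ' x.2) ⁻¹' {0}ᶜ) :=
    hu0.continuousOn.isOpen_inter_preimage (hU.prod hU') isOpen_compl_singleton
  filter_upwards [tgena_gen μ hV (hu0.mono inter_subset_left) (fun x hx => hx.2) 0]
    with A hA z hz z' hz' hne he a b hw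
  rw [tgena_fd hU hγ A hz, tgena_fd hU' hγ' A hz'] at hw
  have hd : HasFDerivAt γ (fderiv ℝ γ z) z :=
    ((hγ.contDiffAt (hU.mem_nhds hz)).differentiableAt (by simp)).hasFDerivAt
  have hd' : HasFDerivAt γ' (fderiv ℝ γ' z') z' :=
    ((hγ'.contDiffAt (hU'.mem_nhds hz')).differentiableAt (by simp)).hasFDerivAt
  have hd1 : HasFDerivAt (fun x : E2 × E2 => γ x.1)
      ((fderiv ℝ γ z).comp (ContinuousLinearMap.fst ℝ E2 E2)) (z, z') :=
    HasFDerivAt.comp (z, z') (g := γ) (f := Prod.fst) hd hasFDerivAt_fst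
  have hd2 : HasFDerivAt (fun x : E2 × E2 => γ' x.2)
      ((fderiv ℝ γ' z').comp (ContinuousLinearMap.snd ℝ E2 E2)) (z, z') :=
    HasFDerivAt.comp (z, z') (g := γ') (f := Prod.snd) hd' hasFDerivAt_snd
  have hd3 : HasFDerivAt (fun x : E2 × E2 => γ x.1 - γ' x.2) _ (z, z') := hd1.sub hd2
  have := hA (z, z') ⟨⟨hz, hz'⟩, sub_ne_zero.2 hne⟩ (by simp [he]) (a, b) (by
    rw [hd3.fderiv]
    simpa [sub_eq_zero] using hw)
  exact Prod.mk_eq_zero.1 this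

end Crest.Agent.R216
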