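import Crest.Agent.R216.TDefs
import Crest.Agent.R216.TFam
/-!
# R216 (T): the equation `f z - f' z' = t v` near a double point and near the diagonal

Recipe.  `loc_dbl`: `ift_family` with `K t (z, z') = f z - f' z' - t • v`, `b = 0`, `L (α, β) = Df α - Df' β`
(injective, equal dimensions: `LinearMap.linearEquivOfInjective` + `toContinuousLinearEquiv`); `ball_prod_same`.
`loc_est`: `f` is strictly differentiable at `a` (`ContDiffAt.hasStrictFDerivAt`, `.isLittleO`).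
`loc_diag0`: `Df a` is antilipschitz (`c ‖ζ‖ ≤ ‖Df a ζ‖`), its range is closed, `δ ≤ ‖v - Df a ζ‖` for all `ζ`;
with `ζ = t⁻¹ • (z - z')`, `loc_est` gives `‖v - Df a ζ‖ ≤ s ‖ζ‖`.
`loc_diag1`: `ift_family` with `K t (y, ζ) = t⁻¹ • (f (y + t • ζ) - f y)` at `(a, ξ)`, `b = v`,
`L (η, θ) = D²f a η ξ + Df a θ`.  `D (K t) (y, ζ) (η, θ) = Df (y + tζ) θ + t⁻¹ • (Df (y + tζ) - Df y) η`; `fderiv f` is strictly
differentiable at `a`, so `t⁻¹ • (Df (y + tζ) - Df y) = D²f a ζ + small`; `D²f a` is symmetric (`ContDiffAt.isSymmSndFDerivAt`).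
A solution `(z, z')` gives `(y, ζ) = (z', t⁻¹ • (z - z'))` with `c ‖ζ - ξ‖ ≤ s ‖ζ‖`, so `ζ` is close to `ξ`.
-/

set_option autoImplicit false
open scoped Manifold ContDiff Topology Matrix
open Set Filter Function Metric

namespace Crest.Agent.R216
universe u

variable {T : Type} [NormedAddCommGroup T] [NormedSpace ℝ T] [FiniteDimensional ℝ T]

theorem tloca_fderiv {f f' : E2 → T} {x : E2 × E2} (hf : DifferentiableAt ℝ f x.1)
    (hf' : DifferentiableAt ℝ f' x.2) (w : T) (α β : E2) :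
    fderiv ℝ (fun y : E2 × E2 => f y.1 - f' y.2 - w) x (α, β) =
      fderiv ℝ f x.1 α - fderiv ℝ f' x.2 β := by
  have h := ((hf.hasFDerivAt.comp x hasFDerivAt_fst).sub
    (hf'.hasFDerivAt.comp x hasFDerivAt_snd)).sub_const w
  have e : fderiv ℝ (fun y : E2 × E2 => f y.1 - f' y.2 - w) x = _ := h.fderiv
  rw [e]
  rfl

theorem tloca_diff {E : Type} [NormedAddCommGroup E] [NormedSpace ℝ E] {f : E → T} {a : E}
    (hf : ContDiffAt ℝ ∞ f a) : ∀ᶠ z in 𝓝 a, DifferentiableAt ℝ f z :=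
  ((hf.of_le (m := 1) (by exact_mod_cast le_top)).eventually (by simp)).mono fun _ hz =>
    hz.differentiableAt one_ne_zero

theorem loc_dbl (hT : Module.finrank ℝ T = 4) {f f' : E2 → T} {a a' : E2} (hf : ContDiffAt ℝ ∞ f a)
    (hf' : ContDiffAt ℝ ∞ f' a') (h0 : f a = f' a')
    (htr : ∀ α β, fderiv ℝ f a α = fderiv ℝ f' a' β → α = 0 ∧ β = 0) (v : T) :
    Loc1 f f' a a' v := by
  let g : E2 × E2 → T := fun y => f y.1 - f' y.2
  have hg : ContDiffAt ℝ ∞ g (a, a') :=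
    (ContDiffAt.comp (g := f) (a, a') hf contDiffAt_fst).sub
      (ContDiffAt.comp (g := f') (a, a') hf' contDiffAt_snd)
  have hinj : Injective (fderiv ℝ g (a, a') : E2 × E2 →ₗ[ℝ] T) := by
    rw [injective_iff_map_eq_zero]
    rintro ⟨α, β⟩ h
    have h1 := tloca_fderiv (x := (a, a')) (hf.differentiableAt (by simp))
      (hf'.differentiableAt (by simp)) 0 α β
    simp only [sub_zero] at h1
    have h2 : fderiv ℝ g (a, a') (α, β) = 0 := h
    obtain ⟨h3, h4⟩ := htr α β (sub_eq_zero.1 (h1.symm.trans h2))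
    rw [h3, h4]; rfl
  have hdim : Module.finrank ℝ (E2 × E2) = Module.finrank ℝ T := by
    rw [Module.finrank_prod, hT]; simp
  let L : (E2 × E2) ≃L[ℝ] T :=
    (LinearMap.linearEquivOfInjective _ hinj hdim).toContinuousLinearEquiv
  have hL : (L : E2 × E2 →L[ℝ] T) = fderiv ℝ g (a, a') := ContinuousLinearMap.ext fun _ => rfl
  have hcont : ContinuousAt (fderiv ℝ g) (a, a') :=
    (hg.fderiv_right (m := 0) (by exact_mod_cast le_top)).continuousAt
  obtain ⟨⟨r, hr, h1⟩, h2⟩ := ift_family L (𝓝[>] (0 : ℝ)) (fun t y => g y - t • v) (a, a') 0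
    (by
      intro c hc
      have e1 : ∀ᶠ x in 𝓝 (a, a'), dist (fderiv ℝ g x) (fderiv ℝ g (a, a')) < c :=
        Metric.tendsto_nhds.1 hcont c hc
      obtain ⟨r, hr, h⟩ := Metric.eventually_nhds_iff_ball.1 (e1.and (tloca_diff hg))
      refine ⟨r, hr, Eventually.of_forall fun t x hx => ⟨(h x hx).2.sub_const _, ?_⟩⟩
      rw [fderiv_sub_const, hL, ← dist_eq_norm]
      exact (h x hx).1.le)
    (by
      have hc : Continuous fun t : ℝ => g (a, a') - t • v := by fun_prop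
      have h := hc.tendsto 0
      have e : g (a, a') - (0 : ℝ) • v = 0 := by simp [g, h0]
      rw [e] at h
      exact h.mono_left nhdsWithin_le_nhds)
  obtain ⟨r₁, hr₁, d₁⟩ := Metric.eventually_nhds_iff_ball.1 (tloca_diff hf)
  obtain ⟨r₂, hr₂, d₂⟩ := Metric.eventually_nhds_iff_ball.1 (tloca_diff hf')
  refine ⟨⟨min r (min r₁ r₂), by positivity, ?_⟩, fun ρ hρ => ?_⟩
  · have hb : ∀ z ∈ ball a (min r (min r₁ r₂)), ∀ z' ∈ ball a' (min r (min r₁ r₂)),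
        (z, z') ∈ ball (a, a') r := by
      intro z hz z' hz'
      rw [← ball_prod_same]
      exact ⟨ball_subset_ball (min_le_left _ _) hz, ball_subset_ball (min_le_left _ _) hz'⟩
    filter_upwards [h1] with t ht
    refine ⟨?_, fun z hz z' hz' _ α β hαβ => ?_⟩
    · rintro x ⟨hx1, hx2, hx3⟩ y ⟨hy1, hy2, hy3⟩
      refine ht.1 (hb _ hx1 _ hx2) (hb _ hy1 _ hy2) ?_
      show f x.1 - f' x.2 - t • v = f y.1 - f' y.2 - t • v
      rw [hx3, hy3]
    · have h3 := tloca_fderiv (x := (z, z'))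
        (d₁ z (ball_subset_ball ((min_le_right _ _).trans (min_le_left _ _)) hz))
        (d₂ z' (ball_subset_ball ((min_le_right _ _).trans (min_le_right _ _)) hz')) (t • v) α β
      rw [hαβ, sub_self] at h3
      have h4 : ((α, β) : E2 × E2) = 0 :=
        (ht.2 _ (hb z hz z' hz')).2 (h3.trans (map_zero _).symm)
      exact ⟨congrArg Prod.fst h4, congrArg Prod.snd h4⟩
  · filter_upwards [h2 ρ hρ] with t ht
    obtain ⟨x, hx, hx0⟩ := ht
    rw [← ball_prod_same] at hx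
    exact ⟨x.1, hx.1, x.2, hx.2, sub_eq_zero.1 hx0⟩

theorem loc_est {f : E2 → T} {a : E2} (hf : ContDiffAt ℝ ∞ f a) {s : ℝ} (hs : 0 < s) :
    ∃ r > 0, ∀ z ∈ ball a r, ∀ z' ∈ ball a r,
      ‖f z - f z' - fderiv ℝ f a (z - z')‖ ≤ s * ‖z - z'‖ := by
  have h := ((hf.hasStrictFDerivAt (by simp)).isLittleO).def hs
  obtain ⟨r, hr, h'⟩ := Metric.eventually_nhds_iff_ball.1 h
  refine ⟨r, hr, fun z hz z' hz' => h' (z, z') ?_⟩
  rw [← ball_prod_same]
  exact ⟨hz, hz'⟩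

theorem loc_diag0 {f : E2 → T} {a : E2} (hf : ContDiffAt ℝ ∞ f a) (hi : Injective (fderiv ℝ f a))
    {v : T} (hv : ∀ ξ, fderiv ℝ f a ξ ≠ v) :
    ∃ r > 0, ∀ t > (0 : ℝ), ∀ z ∈ ball a r, ∀ z' ∈ ball a r, f z - f z' ≠ t • v := by
  obtain ⟨K, hK, hanti⟩ := (fderiv ℝ f a : E2 →ₗ[ℝ] T).exists_antilipschitzWith
    (LinearMap.ker_eq_bot.2 hi)
  have hK' : (0 : ℝ) < K := hK
  have hc : ∀ ζ, ‖ζ‖ ≤ K * ‖fderiv ℝ f a ζ‖ := fun ζ => by
    have := hanti.le_mul_dist ζ 0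
    simpa using this
  have hclosed : IsClosed (LinearMap.range (fderiv ℝ f a : E2 →ₗ[ℝ] T) : Set T) :=
    Submodule.closed_of_finiteDimensional _
  obtain ⟨δ, hδ, hball⟩ := Metric.isOpen_iff.1 hclosed.isOpen_compl v
    (by rintro ⟨ξ, hξ⟩; exact hv ξ hξ)
  have hδ' : ∀ ζ, δ ≤ ‖v - fderiv ℝ f a ζ‖ := fun ζ => by
    by_contra h
    refine hball (a := fderiv ℝ f a ζ) ?_ ⟨ζ, rfl⟩
    rw [mem_ball, dist_comm, dist_eq_norm]
    exact not_le.1 h
  have hs : 0 < min (1 / (2 * (K : ℝ))) (δ / (4 * K * (‖v‖ + 1))) := by positivity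
  obtain ⟨r, hr, h⟩ := loc_est hf hs
  refine ⟨r, hr, fun t ht z hz z' hz' he => ?_⟩
  set s := min (1 / (2 * (K : ℝ))) (δ / (4 * K * (‖v‖ + 1))) with hsdef
  have hs1 : s * (2 * K) ≤ 1 := (le_div_iff₀ (by positivity)).1 (min_le_left _ _)
  have hs2 : s * (4 * K * (‖v‖ + 1)) ≤ δ := (le_div_iff₀ (by positivity)).1 (min_le_right _ _)
  obtain ⟨ζ, hζ⟩ : ∃ ζ : E2, z - z' = t • ζ :=
    ⟨t⁻¹ • (z - z'), by rw [smul_smul, mul_inv_cancel₀ ht.ne', one_smul]⟩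
  have h1 := h z hz z' hz'
  rw [he, hζ, map_smul, ← smul_sub, norm_smul, norm_smul, Real.norm_of_nonneg ht.le,
    mul_left_comm] at h1
  have h2 : ‖v - fderiv ℝ f a ζ‖ ≤ s * ‖ζ‖ := le_of_mul_le_mul_left h1 ht
  have h3 : ‖fderiv ℝ f a ζ‖ ≤ ‖v‖ + s * ‖ζ‖ := by
    have := norm_sub_norm_le (fderiv ℝ f a ζ) v
    rw [norm_sub_rev] at this
    linarith
  have h4 : ‖ζ‖ ≤ 2 * K * ‖v‖ := by
    have h5 := (hc ζ).trans (mul_le_mul_of_nonneg_left h3 hK'.le)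
    have h6 := mul_le_mul_of_nonneg_right hs1 (norm_nonneg ζ)
    nlinarith
  have h7 := (hδ' ζ).trans (h2.trans (mul_le_mul_of_nonneg_left h4 hs.le))
  have h8 : 0 < s * K := mul_pos hs hK'
  have h9 : 0 ≤ s * K * ‖v‖ := by positivity
  nlinarith

theorem tlocb_slope {F τ : Type} [NormedAddCommGroup F] [NormedSpace ℝ F] {g : E2 → F}
    {g' : E2 →L[ℝ] F} {a ξ : E2} (hg : HasStrictFDerivAt g g' a) {l : Filter τ} {t : τ → ℝ}
    {y ζ : τ → E2} (ht : Tendsto t l (𝓝[>] 0)) (hy : Tendsto y l (𝓝 a)) (hζ : Tendsto ζ l (𝓝 ξ)) :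
    Tendsto (fun i => y i + t i • ζ i) l (𝓝 a) ∧
      Tendsto (fun i => (t i)⁻¹ • (g (y i + t i • ζ i) - g (y i))) l (𝓝 (g' ξ)) := by
  have h1 : Tendsto (fun i => y i + t i • ζ i) l (𝓝 a) := by
    simpa using hy.add ((ht.mono_right nhdsWithin_le_nhds).smul hζ)
  have h0 : ∀ᶠ i in l, t i ≠ 0 := (ht.eventually self_mem_nhdsWithin).mono fun _ h => ne_of_gt h
  have h2 := (Asymptotics.isBigO_refl (fun i => (t i)⁻¹) l).smul_isLittleO
    (hg.isLittleO.comp_tendsto (h1.prodMk_nhds hy))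
  have h3 := (h2.trans_isBigO ((hζ.isBigO_one ℝ).congr' (h0.mono fun i hi => by simp [hi])
    EventuallyEq.rfl))
  have h4 := ((Asymptotics.isLittleO_one_iff ℝ).1 h3).add ((g'.continuous.tendsto ξ).comp hζ)
  rw [zero_add] at h4
  exact ⟨h1, h4.congr' (h0.mono fun i hi => by simp [smul_sub, hi])⟩

omit [FiniteDimensional ℝ T] in
theorem tlocb_deriv {f : E2 → T} {t : ℝ} (ht : t ≠ 0) {x : E2 × E2}
    (h1 : DifferentiableAt ℝ f (x.1 + t • x.2)) (h2 : DifferentiableAt ℝ f x.1) :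
    HasFDerivAt (fun x : E2 × E2 => t⁻¹ • (f (x.1 + t • x.2) - f x.1))
      ((fderiv ℝ f (x.1 + t • x.2)).comp (.snd ℝ E2 E2) +
        (t⁻¹ • (fderiv ℝ f (x.1 + t • x.2) - fderiv ℝ f x.1)).comp (.fst ℝ E2 E2)) x := by
  have h := ((h1.hasFDerivAt.comp x (hasFDerivAt_fst.add (hasFDerivAt_snd.const_smul t))).sub
    (h2.hasFDerivAt.comp x hasFDerivAt_fst)).const_smul t⁻¹
  refine h.congr_fderiv (ContinuousLinearMap.ext fun p => ?_)
  simp [smul_sub, smul_add, ht]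
  abel

theorem loc_diag1 (hT : Module.finrank ℝ T = 4) {f : E2 → T} {a : E2} (hf : ContDiffAt ℝ ∞ f a)
    {v : T} {ξ : E2} (hv : fderiv ℝ f a ξ = v)
    (hr : ∀ η θ, fderiv ℝ (fderiv ℝ f) a η ξ + fderiv ℝ f a θ = 0 → η = 0 ∧ θ = 0) :
    Loc1 f f a a v := by
  set A := fderiv ℝ f a with hA
  set B := fderiv ℝ (fderiv ℝ f) a with hB
  set L₀ : E2 × E2 →L[ℝ] T := A.comp (.snd ℝ E2 E2) + (B ξ).comp (.fst ℝ E2 E2) with hL₀
  have hsym : ∀ η, B ξ η = B η ξ := (hf.isSymmSndFDerivAt (by simpa using ENat.LEInfty.out)).eq ξ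
  have hinj : Injective (L₀ : E2 × E2 →ₗ[ℝ] T) := (injective_iff_map_eq_zero _).2 fun p hp =>
    Prod.ext_iff.2 (hr p.1 p.2 (by rw [← hsym, add_comm]; exact hp))
  have hd : ∀ᶠ z in 𝓝 a, DifferentiableAt ℝ f z :=
    ((hf.of_le (m := 1) (by simp)).eventually (by simp)).mono fun z h => h.differentiableAt (by simp)
  have hg := (hf.fderiv_right (m := ∞) (by simp)).hasStrictFDerivAt (by simp)
  obtain ⟨⟨r₀, hr₀, h1⟩, h2⟩ := ift_family
    (LinearMap.linearEquivOfInjective _ hinj (by simp [hT])).toContinuousLinearEquiv (𝓝[>] (0 : ℝ))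
    (fun t x => t⁻¹ • (f (x.1 + t • x.2) - f x.1)) (a, ξ) v (fun c hc => by
      have e1 : Tendsto (fun p : ℝ × E2 × E2 => p.2.1) (𝓝[>] 0 ×ˢ 𝓝 (a, ξ)) (𝓝 a) :=
        (continuous_fst.tendsto _).comp tendsto_snd
      obtain ⟨e2, e3⟩ := tlocb_slope hg tendsto_fst e1 ((continuous_snd.tendsto _).comp tendsto_snd)
      have e4 := (((continuous_id.clm_comp (continuous_const (y := .snd ℝ E2 E2))).tendsto
        A).comp (hg.continuousAt.tendsto.comp e2)).add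
        (((continuous_id.clm_comp (continuous_const (y := .fst ℝ E2 E2))).tendsto _).comp e3)
      obtain ⟨pa, a1, ε, hε, a2⟩ := eventually_prod_nhds_iff.1
        ((tendsto_fst.eventually self_mem_nhdsWithin).and ((e2.eventually hd).and
          ((e1.eventually hd).and (e4.eventually (closedBall_mem_nhds _ hc)))))
      refine ⟨ε, hε, a1.mono fun t ht x hx => ?_⟩
      obtain ⟨b1, b2, b3, b4⟩ := a2 ht hx
      have := tlocb_deriv (ne_of_gt b1) b2 b3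
      exact ⟨this.differentiableAt, this.fderiv ▸ mem_closedBall_iff_norm.1 b4⟩)
    (hv ▸ (tlocb_slope (hf.hasStrictFDerivAt (by simp)) tendsto_id tendsto_const_nhds
      tendsto_const_nhds).2)
  constructor
  · obtain ⟨C, -, hC⟩ := (A : E2 →ₗ[ℝ] T).exists_antilipschitzWith
      (LinearMap.ker_eq_bot'.2 fun θ h => (hr 0 θ (by simpa using h)).2)
    obtain ⟨s, hs, hs'⟩ := exists_pos_mul_lt hr₀ (C * (‖ξ‖ + r₀))
    obtain ⟨r₁, hr₁, h3⟩ := loc_est hf hs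
    obtain ⟨r₂, hr₂, h4⟩ := eventually_nhds_iff_ball.1 hd
    refine ⟨min r₀ (min r₁ r₂), by positivity, ?_⟩
    filter_upwards [h1, self_mem_nhdsWithin] with t ht (ht0 : 0 < t)
    simp only [mem_ball, lt_min_iff]
    have e : ∀ z z' : E2, z' + t • t⁻¹ • (z - z') = z := fun z z' => by simp [ht0.ne']
    have key : ∀ z ∈ ball a r₁, ∀ z' ∈ ball a r₁, z' ∈ ball a r₀ → f z - f z' = t • v →
        (z', t⁻¹ • (z - z')) ∈ ball (a, ξ) r₀ := fun z hz z' hz' hz'' h => by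
      rw [← ball_prod_same]
      refine ⟨hz'', mem_ball_iff_norm'.2 ?_⟩
      have k1 := h3 z hz z' hz'
      obtain ⟨ζ, hζ⟩ : ∃ ζ, z - z' = t • ζ := ⟨_, (smul_inv_smul₀ ht0.ne' _).symm⟩
      rw [h, hζ, map_smul, ← hv, ← smul_sub, ← map_sub, norm_smul, norm_smul, mul_left_comm,
        mul_le_mul_iff_right₀ (norm_pos_iff.2 ht0.ne')] at k1
      have k2 := (hC.le_mul_norm (map_zero _) (ξ - ζ)).trans (mul_le_mul_of_nonneg_left k1 C.2)
      have k3 : ‖ζ‖ ≤ ‖ξ‖ + ‖ξ - ζ‖ := norm_le_norm_add_norm_sub ξ ζ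
      have k4 : (0 : ℝ) ≤ C * s := by positivity
      simp only [hζ, inv_smul_smul₀ ht0.ne']
      by_contra k5
      have k6 := mul_le_mul_of_nonneg_left k3 k4
      have k7 : C * s < 1 := by nlinarith [norm_nonneg ξ]
      nlinarith
    refine ⟨fun x hx x' hx' => ?_, fun z hz z' hz' h α β hαβ => ?_⟩
    · have := Prod.ext_iff.1 (ht.1 (key _ hx.1.2.1 _ hx.2.1.2.1 hx.2.1.1 hx.2.2)
        (key _ hx'.1.2.1 _ hx'.2.1.2.1 hx'.2.1.1 hx'.2.2) (by simp only [e, hx.2.2, hx'.2.2]))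
      exact Prod.ext (by rw [← e x.1 x.2, ← e x'.1 x'.2]; exact congrArg₂ (· + t • ·) this.1 this.2)
        this.1
    · have k1 := (ht.2 _ (key z hz.2.1 z' hz'.2.1 hz'.1 h)).2
      rw [(tlocb_deriv ht0.ne' (by rw [e]; exact h4 z hz.2.2) (h4 z' hz'.2.2)).fderiv] at k1
      have k2 := Prod.ext_iff.1 ((injective_iff_map_eq_zero _).1 k1 (β, t⁻¹ • (α - β))
        (by simp only [e]; simp [hαβ, smul_sub]))
      refine ⟨?_, k2.1⟩
      rw [← e α β]
      simpa using congrArg₂ (· + t • ·) k2.1 k2.2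
  · intro r hr
    have e : Tendsto (fun t : ℝ => t * (‖ξ‖ + r / 2)) (𝓝[>] 0) (𝓝 0) := by
      simpa using (tendsto_id.mono_right (nhdsWithin_le_nhds (a := (0 : ℝ)))).mul_const (‖ξ‖ + r / 2)
    filter_upwards [h2 (r / 2) (half_pos hr), self_mem_nhdsWithin,
      e.eventually (gt_mem_nhds (half_pos hr))] with t ⟨x, hx, h⟩ (ht0 : 0 < t) ht
    rw [← ball_prod_same] at hx
    refine ⟨x.1 + t • x.2, ?_, x.1, ball_subset_ball (half_le_self hr.le) hx.1, by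
      rw [← h, smul_inv_smul₀ ht0.ne']⟩
    have k1 : ‖x.2‖ ≤ ‖ξ‖ + r / 2 := norm_le_of_mem_closedBall (ball_subset_closedBall hx.2)
    have k2 : ‖x.1 - a‖ < r / 2 := mem_ball_iff_norm.1 hx.1
    rw [mem_ball_iff_norm, add_sub_right_comm]
    refine (norm_add_le _ _).trans_lt ?_
    rw [norm_smul, Real.norm_of_nonneg ht0.le]
    linarith [mul_le_mul_of_nonneg_left k1 ht0.le]

end Crest.Agent.R216
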