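import Crest.Agent.R216.TForm
import Crest.Agent.R216.TBirth
import Crest.Agent.R216.TCut
/-!
# R216 (T): birth of critical points and normal forms on the surface

Recipe.  `Morse.birth`: choose `L : E2 ≃L E2` with `(L v) 0 = dd f p v` (rotation-dilation) and the chart `e` of `exists_chart p O L`;
`φ₀ = f ∘ e.symm` has `fderiv φ₀ 0 v = v 0`.  `cut 0` with `P z = f p + z 0` gives `φ₁ = P` on some `ball 0 (2r) ⊆ target`;
`φ = φ₁ + β` (`birth_model r`), `K ∪ closedBall 0 r`; `IsCh.exists_patch`.  For `q ∈ e.source`, `f' ∘ e.symm = φ` near `e q`;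
`IsCh.dd_eq_zero`, `ND.of_chart`; for `q ∉ e.symm '' K`: `dd_congr`, `ND.congr`.
`Morse.normal`: chart `e₀` with `dd e₀ p = id`, `H = D²(f ∘ e₀.symm) 0` (symmetric, `ContDiffAt.isSymmSndFDerivAt`), `diag2 (g.g p) H`,
`e = L.symm ∘ e₀` (`IsCh.affine` with `c = 0`); `f ∘ e.symm = (f ∘ e₀.symm) ∘ L`; `cut 1` with
`P z = f p + (μ₁ z₀² + μ₂ z₁²)/2`; `η = sign μ₁`, `l1 = |μ₁|/2`, `η κ = sign μ₂`, `l2 = |μ₂|/2`.
`Morse.normal_all`: `germ_induction` with `O = (C \ {p})ᶜ`.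
-/

set_option autoImplicit false
open scoped Manifold ContDiff Topology Matrix
open Set Filter Function Metric

namespace Crest.Agent.R216
universe u

theorem germ_induction {X α : Type*} {C : Set X} (hC : C.Finite) (Inv : α → Prop)
    (P : X → α → Prop)
    (step : ∀ a, Inv a → ∀ p ∈ C, ∃ a', Inv a' ∧ P p a' ∧ ∀ q ∈ C, q ≠ p → P q a → P q a')
    {a₀ : α} (h₀ : Inv a₀) : ∃ a, Inv a ∧ ∀ p ∈ C, P p a := by
  refine hC.induction_on_subset (motive := fun s _ => ∃ a, Inv a ∧ ∀ p ∈ s, P p a) C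
    ⟨a₀, h₀, fun _ h => h.elim⟩ ?_
  rintro p t hp ht hpt ⟨a, ha, h⟩
  obtain ⟨a', h1, h2, h3⟩ := step a ha p hp
  refine ⟨a', h1, ?_⟩
  rintro q (rfl | hq)
  exacts [h2, h3 q (ht hq) (fun e => hpt (e ▸ hq)) (h q hq)]

theorem tmorsea_L {l : E2 →L[ℝ] ℝ} (hl : l ≠ 0) : ∃ L : E2 ≃L[ℝ] E2, ∀ v, L v 0 = l v := by
  let A : E2 →L[ℝ] E2 := l.smulRight b0 + (l b0 • EuclideanSpace.proj (1 : Fin 2) -
    l b1 • EuclideanSpace.proj (0 : Fin 2) : E2 →L[ℝ] ℝ).smulRight b1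
  have h0 : ∀ v, A v 0 = l v := fun v => by simp [A, b0, b1]
  have h1 : ∀ v, A v 1 = l b0 * v 1 - l b1 * v 0 := fun v => by simp [A, b0, b1]
  have h2 : ∀ v, l v = v 0 * l b0 + v 1 * l b1 := fun v => by
    conv_lhs => rw [vec_eq v]
    simp only [map_add, map_smul, smul_eq_mul]
  have h3 : l b0 ^ 2 + l b1 ^ 2 ≠ 0 := fun h => hl (ContinuousLinearMap.ext fun v => by
    rw [h2, show l b0 = 0 by nlinarith, show l b1 = 0 by nlinarith]
    simp)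
  have hi : Injective (A : E2 →ₗ[ℝ] E2) := (injective_iff_map_eq_zero _).2 fun v hv => by
    have e0 := h0 v
    have e1 := h1 v
    rw [show A v = 0 from hv] at e0 e1
    rw [h2] at e0
    simp only [PiLp.zero_apply] at e0 e1
    have e2 : v 0 = 0 := mul_left_cancel₀ h3 (by linear_combination l b1 * e1 - l b0 * e0)
    have e3 : v 1 = 0 := mul_left_cancel₀ h3 (by linear_combination -l b0 * e1 - l b1 * e0)
    rw [vec_eq v, e2, e3, zero_smul, zero_smul, add_zero]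
  exact ⟨(LinearEquiv.ofInjectiveEndo _ hi).toContinuousLinearEquiv, h0⟩

/-- the planar modification -/
theorem tmorsea_plane {U : Set E2} (hU : IsOpen U) (h0 : (0 : E2) ∈ U) {φ₀ : E2 → ℝ}
    (hφ : ContDiffOn ℝ ∞ φ₀ U) (hd : fderiv ℝ φ₀ 0 = EuclideanSpace.proj (0 : Fin 2)) :
    ∃ (φ : E2 → ℝ) (K : Set E2) (a b : E2), IsCompact K ∧ K ⊆ U ∧ ContDiffOn ℝ ∞ φ U ∧
      (∀ z, z ∉ K → φ z = φ₀ z) ∧ a ≠ b ∧ a ∈ K ∧ b ∈ K ∧ ∀ z ∈ K, fderiv ℝ φ₀ z ≠ 0 ∧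
        (fderiv ℝ φ z = 0 ↔ z = a ∨ z = b) ∧
        (fderiv ℝ φ z = 0 → Injective (fderiv ℝ (fderiv ℝ φ) z)) := by
  have hπ : (EuclideanSpace.proj (0 : Fin 2) : E2 →L[ℝ] ℝ) ≠ 0 := fun h => by
    simpa [b0] using congrArg (fun l : E2 →L[ℝ] ℝ => l b0) h
  have hP : ∀ z, fderiv ℝ (fun y : E2 => φ₀ 0 + y 0) z = EuclideanSpace.proj (0 : Fin 2) :=
    fun z => ((EuclideanSpace.proj (0 : Fin 2) : E2 →L[ℝ] ℝ).hasFDerivAt.const_add _).fderiv
  obtain ⟨φ₁, K, hK, hKU, h1, h2, h3, h4⟩ := cut 0 hU h0 (P := fun y => φ₀ 0 + y 0) hφ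
    (contDiff_const.add (EuclideanSpace.proj (0 : Fin 2) : E2 →L[ℝ] ℝ).contDiff) (by simp)
    (norm_pos_iff.2 hπ) (fun z => by rw [hP, pow_zero, mul_one]) (by
      simp only [hP, pow_zero]
      rw [Asymptotics.isLittleO_one_iff, ← hd, tendsto_sub_nhds_zero_iff]
      exact ((hφ.contDiffAt (hU.mem_nhds h0)).fderiv_right (m := 0) (by simp)).continuousAt)
  obtain ⟨ε, hε, h5⟩ := Metric.eventually_nhds_iff_ball.1 (h3.and (hU.eventually_mem h0))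
  have hr : 0 < ε / 2 := half_pos hε
  obtain ⟨β, a, b, hβ, hβ0, hab, ha, hb, h6, h7⟩ := birth_model hr
  have hsub : closedBall (0 : E2) (ε / 2) ⊆ ball 0 ε := closedBall_subset_ball (half_lt_self hε)
  refine ⟨fun z => φ₁ z + β z, K ∪ closedBall 0 (ε / 2), a, b, hK.union (isCompact_closedBall _ _),
    union_subset hKU fun z hz => (h5 z (hsub hz)).2, h1.add hβ.contDiffOn, fun z hz => ?_, hab,
    Or.inr (mem_closedBall_zero_iff.2 ha.le), Or.inr (mem_closedBall_zero_iff.2 hb.le),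
    fun z hz => ⟨?_, ?_⟩⟩
  · rw [mem_union, not_or, mem_closedBall_zero_iff, not_le] at hz
    simp only [h2 z hz.1, hβ0 z hz.2.le, add_zero]
  · by_cases hzK : z ∈ K
    · rcases eq_or_ne z 0 with rfl | hz0
      exacts [hd ▸ hπ, (h4 z hzK hz0).2]
    · have e : φ₀ =ᶠ[𝓝 z] fun y => φ₀ 0 + y 0 := by
        filter_upwards [hK.isClosed.isOpen_compl.mem_nhds hzK,
          isOpen_ball.mem_nhds (hsub (hz.resolve_left hzK))] with y hy hy'
        rw [← h2 y hy, (h5 y hy').1]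
      rwa [e.fderiv_eq, hP]
  · by_cases hzb : z ∈ ball (0 : E2) ε
    · have e : (fun z => φ₁ z + β z) =ᶠ[𝓝 z] fun y => φ₀ 0 + (y 0 + β y) := by
        filter_upwards [isOpen_ball.mem_nhds hzb] with y hy
        rw [(h5 y hy).1, add_assoc]
      have e' : fderiv ℝ (fun y : E2 => φ₀ 0 + (y 0 + β y)) = fderiv ℝ fun y : E2 => y 0 + β y :=
        funext fun y => fderiv_const_add _
      rw [e.fderiv.fderiv_eq, e.fderiv_eq, e']
      exact ⟨h6 z, fun h => h7 z ((h6 z).1 h)⟩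
    · rw [mem_ball_zero_iff, not_lt] at hzb
      have hz1 : ε / 2 < ‖z‖ := (half_lt_self hε).trans_le hzb
      have hzK : z ∈ K := hz.resolve_right fun h => hz1.not_ge (mem_closedBall_zero_iff.1 h)
      have e : (fun z => φ₁ z + β z) =ᶠ[𝓝 z] φ₁ := by
        filter_upwards [continuous_norm.continuousAt.eventually (lt_mem_nhds hz1)] with y hy
        rw [hβ0 y hy.le, add_zero]
      have h8 := (h4 z hzK (norm_pos_iff.1 (hr.trans hz1))).1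
      rw [e.fderiv_eq]
      refine ⟨iff_of_false h8 ?_, fun h => (h8 h).elim⟩
      rintro (rfl | rfl)
      exacts [hz1.not_gt ha, hz1.not_gt hb]

variable {M : Type u} [TopologicalSpace M] [ChartedSpace E2 M] [IsManifold (𝓡 2) ∞ M]
  [T2Space M] [CompactSpace M] {f : M → ℝ}

theorem Morse.birth (hf : Morse f) {O : Set M} (hO : IsOpen O) {p : M} (hp : p ∈ O)
    (hd : dd f p ≠ 0) : ∃ (f' : M → ℝ) (a b : M), Morse f' ∧ a ≠ b ∧ a ∈ O ∧ b ∈ O ∧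
      ∀ q, dd f' q = 0 ↔ dd f q = 0 ∨ q = a ∨ q = b := by
  obtain ⟨L, hL⟩ := tmorsea_L hd
  obtain ⟨e, he, hpe, heO, hep, hde⟩ := exists_chart p hO hp L
  have h0 : fderiv ℝ (f ∘ e.symm) 0 = EuclideanSpace.proj (0 : Fin 2) :=
    ContinuousLinearMap.ext fun w => by
      obtain ⟨v, rfl⟩ := L.surjective w
      have h := he.dd_eq hpe (hf.1.df p) v
      rw [hep, hde] at h
      exact h.symm.trans (hL v).symm
  obtain ⟨φ, K, a, b, hK, hKU, h1, h2, hab, ha, hb, h3⟩ :=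
    tmorsea_plane e.open_target (hep ▸ e.map_source hpe) (he.contDiffOn_symm hf.1) h0
  obtain ⟨f', hf', h4, h5⟩ := he.exists_patch hf.1 h1 hK hKU fun z _ hz => h2 z hz
  have h6 : ∀ z ∈ K, f' ∘ e.symm =ᶠ[𝓝 z] φ := fun z hz => by
    filter_upwards [e.open_target.mem_nhds (hKU hz)] with y hy
    rw [Function.comp_apply, h4 _ (e.map_target hy), e.right_inv hy]
  have h7 : ∀ z ∈ K, dd f' (e.symm z) = 0 ↔ fderiv ℝ φ z = 0 := fun z hz => by
    rw [he.dd_eq_zero (e.map_target (hKU hz)) (hf'.df _), e.right_inv (hKU hz), (h6 z hz).fderiv_eq]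
  have h8 : ∀ z ∈ K, ∀ y ∈ K, e.symm z = e.symm y ↔ z = y := fun z hz y hy =>
    e.symm.injOn.eq_iff (hKU hz) (hKU hy)
  refine ⟨f', e.symm a, e.symm b, ⟨hf', fun q hq => ?_⟩, (h8 a ha b hb).not.2 hab,
    heO (e.map_target (hKU ha)), heO (e.map_target (hKU hb)), fun q => ?_⟩
  · by_cases hqK : q ∈ e.symm '' K
    · obtain ⟨z, hz, rfl⟩ := hqK
      refine ND.of_chart he (e.map_target (hKU hz)) hf' hq ?_
      rw [e.right_inv (hKU hz), (h6 z hz).fderiv.fderiv_eq]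
      exact (h3 z hz).2.2 ((h7 z hz).1 hq)
    · exact (hf.2 q (dd_congr (h5 q hqK) ▸ hq)).congr (h5 q hqK)
  · by_cases hqK : q ∈ e.symm '' K
    · obtain ⟨z, hz, rfl⟩ := hqK
      rw [h7 z hz, (h3 z hz).2.1, h8 z hz a ha, h8 z hz b hb,
        he.dd_eq_zero (e.map_target (hKU hz)) (hf.1.df _), e.right_inv (hKU hz),
        or_iff_right (h3 z hz).1]
    · rw [dd_congr (h5 q hqK), or_iff_left]
      rintro (rfl | rfl)
      exacts [hqK ⟨a, ha, rfl⟩, hqK ⟨b, hb, rfl⟩]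

theorem tmorseb_P (c μ₁ μ₂ : ℝ) (B : E2 →L[ℝ] E2 →L[ℝ] ℝ)
    (hB : ∀ a b, B a b = μ₁ * (a 0 * b 0) + μ₂ * (a 1 * b 1)) (z : E2) :
    HasFDerivAt (fun z : E2 => c + (μ₁ * z 0 ^ 2 + μ₂ * z 1 ^ 2) / 2) (B z) z := by
  have h0 : HasFDerivAt (fun z : E2 => z 0) (EuclideanSpace.proj (𝕜 := ℝ) (0 : Fin 2)) z :=
    (EuclideanSpace.proj (𝕜 := ℝ) (0 : Fin 2)).hasFDerivAt
  have h1 : HasFDerivAt (fun z : E2 => z 1) (EuclideanSpace.proj (𝕜 := ℝ) (1 : Fin 2)) z :=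
    (EuclideanSpace.proj (𝕜 := ℝ) (1 : Fin 2)).hasFDerivAt
  have h := ((((h0.mul h0).const_mul μ₁).add ((h1.mul h1).const_mul μ₂)).const_mul (1 / 2)).const_add c
  refine (h.congr_fderiv ?_).congr_of_eventuallyEq (Eventually.of_forall fun y => ?_)
  · ext v; simp [hB]; ring
  · simp only [Pi.add_apply, Pi.mul_apply]; ring

theorem tmorseb_sign {μ : ℝ} (h : μ ≠ 0) : ∃ η l : ℝ, (η = 1 ∨ η = -1) ∧ 0 < l ∧ μ / 2 = η * l := by
  rcases lt_or_gt_of_ne h with h | h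
  · exact ⟨-1, -μ / 2, .inr rfl, by linarith, by ring⟩
  · exact ⟨1, μ / 2, .inl rfl, by linarith, by ring⟩

theorem Morse.normal (g : Met M) (hf : Morse f) {O : Set M} (hO : IsOpen O) {p : M} (hp : p ∈ O)
    (hd : dd f p = 0) : ∃ f' : M → ℝ, Morse f' ∧ (∀ q, dd f' q = 0 ↔ dd f q = 0) ∧
      (∀ q, q ∉ O → f' =ᶠ[𝓝 q] f) ∧ ∃ e η κ l1 l2, NF g f' e p η κ l1 l2 := by
  obtain ⟨e₀, he₀, hp₀, hs₀, hz₀, hd₀⟩ := exists_chart p hO hp (ContinuousLinearEquiv.refl ℝ E2)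
  have hc₀ : ContDiffAt ℝ ∞ (f ∘ e₀.symm) (e₀ p) := he₀.contDiffAt_symm hp₀ (hf.1 p)
  have hi₀ := hf.2 p hd e₀ he₀ hp₀
  have hD₀ := (he₀.dd_eq_zero hp₀ (hf.1.df p)).mp hd
  have hsym : IsSymmSndFDerivAt ℝ (f ∘ e₀.symm) (e₀ p) :=
    hc₀.isSymmSndFDerivAt (by simp only [minSmoothness_of_isRCLikeNormedField]; norm_cast)
  rw [hz₀] at hc₀ hi₀ hD₀ hsym
  obtain ⟨L, μ₁, μ₂, hμ₁, hμ₂, hL, hH⟩ := diag2 (g.g p) _ (g.symm p) (g.pos p) hsym hi₀
  obtain ⟨e, he, hse, hee, hes⟩ := he₀.affine L.symm 0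
  have hpe : p ∈ e.source := hse ▸ hp₀
  have hz : e p = 0 := by rw [hee, hz₀]; simp
  have hsp : e.symm 0 = p := by rw [← hz, e.left_inv hpe]
  have hfe : f ∘ e.symm = (f ∘ e₀.symm) ∘ L := by
    funext z; simp [hes]
  have hde : ∀ v, dd e p v = L.symm v := fun v => by
    have h1 : (e : M → E2) = fun q => (L.symm : E2 →L[ℝ] E2) (e₀ q) := by
      funext q; rw [hee]; simp
    rw [h1, dd_clm _ (he₀.df hp₀), hd₀]; simp
  set B := fderiv ℝ (fderiv ℝ (f ∘ e.symm)) 0 with hBdef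
  have hB : ∀ a b, B a b = μ₁ * (a 0 * b 0) + μ₂ * (a 1 * b 1) := fun a b => by
    have hτ : ContDiffAt ℝ ∞ (L : E2 → E2) 0 := L.contDiff.contDiffAt
    rw [hBdef, hfe, tforma_hess hτ (by rwa [map_zero]) (by rwa [map_zero]), L.fderiv, map_zero, ← hH]
    rfl
  have hBi : Injective B := by
    have := hf.2 p hd e he hpe
    rwa [hz] at this
  have hc : ContDiffAt ℝ ∞ (f ∘ e.symm) 0 := hz ▸ he.contDiffAt_symm hpe (hf.1 p)
  have hD : fderiv ℝ (f ∘ e.symm) 0 = 0 := hz ▸ (he.dd_eq_zero hpe (hf.1.df p)).mp hd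
  set P : E2 → ℝ := fun z => f p + (μ₁ * z 0 ^ 2 + μ₂ * z 1 ^ 2) / 2 with hPdef
  have hPD : fderiv ℝ P = B := funext fun z => (tmorseb_P (f p) μ₁ μ₂ B hB z).fderiv
  have hPs : ContDiff ℝ ∞ P := by
    have h0 : ContDiff ℝ ∞ (fun z : E2 => z 0) := (EuclideanSpace.proj (𝕜 := ℝ) (0 : Fin 2)).contDiff
    have h1 : ContDiff ℝ ∞ (fun z : E2 => z 1) := (EuclideanSpace.proj (𝕜 := ℝ) (1 : Fin 2)).contDiff
    exact contDiff_const.add
      (((contDiff_const.mul (h0.pow 2)).add (contDiff_const.mul (h1.pow 2))).div_const 2)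
  obtain ⟨κ₀, hκ₀, hanti⟩ := (B : E2 →ₗ[ℝ] E2 →L[ℝ] ℝ).exists_antilipschitzWith
    (LinearMap.ker_eq_bot.mpr hBi)
  have hκ₀' : (0 : ℝ) < κ₀ := hκ₀
  have hlow : ∀ z : E2, (κ₀ : ℝ)⁻¹ * ‖z‖ ^ 1 ≤ ‖fderiv ℝ P z‖ := fun z => by
    rw [hPD, pow_one, inv_mul_le_iff₀ hκ₀']
    exact hanti.le_mul_norm (map_zero _) z
  have ho : (fun z => fderiv ℝ (f ∘ e.symm) z - fderiv ℝ P z) =o[𝓝 0] fun z : E2 => ‖z‖ ^ 1 := by
    have h1 : HasFDerivAt (fderiv ℝ (f ∘ e.symm)) B 0 :=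
      ((hc.fderiv_right (m := 1) (by norm_cast)).differentiableAt one_ne_zero).hasFDerivAt
    have h2 := h1.isLittleO
    simp only [hD, sub_zero] at h2
    simp only [hPD, pow_one]
    exact h2.norm_right
  have h0t : (0 : E2) ∈ e.target := hz ▸ e.map_source hpe
  obtain ⟨φ, K, hK, hKt, hφ, hout, hφP, hne⟩ := cut 1 e.open_target h0t (he.contDiffOn_symm hf.1) hPs
    (by simp [hPdef, hsp]) (inv_pos.mpr hκ₀') hlow ho
  obtain ⟨f', hf', hin, hoff⟩ := he.exists_patch hf.1 hφ hK hKt fun z _ hz => hout z hz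
  have hloc : ∀ z ∈ e.target, f' ∘ e.symm =ᶠ[𝓝 z] φ := fun z hz => by
    filter_upwards [e.open_target.mem_nhds hz] with y hy
    rw [comp_apply, hin _ (e.map_target hy), e.right_inv hy]
  have hloc0 : f' ∘ e.symm =ᶠ[𝓝 0] P := (hloc 0 h0t).trans hφP
  have hd' : dd f' p = 0 := by
    rw [he.dd_eq_zero hpe (hf'.df p), hz, hloc0.fderiv_eq, hPD, map_zero]
  have hcase : ∀ q, q ∈ e.symm '' K → q = p ∨ (dd f' q ≠ 0 ∧ dd f q ≠ 0) := by
    rintro _ ⟨z, hzK, rfl⟩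
    by_cases hz0 : z = 0
    · exact Or.inl (by rw [hz0, hsp])
    · have hzt := hKt hzK
      have hq := e.map_target hzt
      refine Or.inr ⟨?_, ?_⟩
      · rw [Ne, he.dd_eq_zero hq (hf'.df _), e.right_inv hzt, (hloc z hzt).fderiv_eq]
        exact (hne z hzK hz0).1
      · rw [Ne, he.dd_eq_zero hq (hf.1.df _), e.right_inv hzt]
        exact (hne z hzK hz0).2
  have hcrit : ∀ q, dd f' q = 0 ↔ dd f q = 0 := fun q => by
    by_cases hq : q ∈ e.symm '' K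
    · rcases hcase q hq with rfl | ⟨h1, h2⟩
      · exact iff_of_true hd' hd
      · exact iff_of_false h1 h2
    · rw [dd_congr (hoff q hq)]
  obtain ⟨η, l1, hη, hl1, e1⟩ := tmorseb_sign hμ₁
  obtain ⟨η', l2, hη', hl2, e2⟩ := tmorseb_sign hμ₂
  refine ⟨f', ⟨hf', fun q hq => ?_⟩, hcrit, fun q hq => hoff q ?_, e, η, η * η', l1, l2, he, hpe, hz,
    fun v => ?_, hη, ?_, hl1, hl2, ?_⟩
  · by_cases hqK : q ∈ e.symm '' K
    · rcases hcase q hqK with rfl | ⟨h1, -⟩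
      · refine ND.of_chart he hpe hf' hd' ?_
        rw [hz, hloc0.fderiv.fderiv_eq, hPD, B.fderiv]
        exact hBi
      · exact absurd hq h1
    · exact (hf.2 q ((hcrit q).mp hq)).congr (hoff q hqK)
  · rintro ⟨z, hzK, rfl⟩
    exact hq (hs₀ (hse ▸ e.map_target (hKt hzK)))
  · rw [hde, ← hL, L.apply_symm_apply]
  · rcases hη with rfl | rfl <;> rcases hη' with rfl | rfl <;> simp
  · have hp' : f' p = f p := by
      rw [hin p hpe, hz, hφP.eq_of_nhds]; simp [hPdef]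
    have hηη : η * η = 1 := by rcases hη with rfl | rfl <;> simp
    filter_upwards [eventually_chart hpe (hz.symm ▸ hφP : ∀ᶠ z in 𝓝 (e p), φ z = P z)] with q hq
    rw [hin q hq.1, hq.2, hp', hPdef]
    linear_combination (e q 0 ^ 2) * e1 + (e q 1 ^ 2) * e2 - (η' * l2 * e q 1 ^ 2) * hηη

theorem Morse.normal_all (g : Met M) (hf : Morse f) (hfin : {p | dd f p = 0}.Finite) :
    ∃ f' : M → ℝ, Sm f' ∧ (∀ q, dd f' q = 0 ↔ dd f q = 0) ∧
      ∀ p, dd f p = 0 → ∃ e η κ l1 l2, NF g f' e p η κ l1 l2 := by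
  obtain ⟨f', ⟨h1, h2⟩, h3⟩ := germ_induction hfin
    (fun a : M → ℝ => Morse a ∧ ∀ q, dd a q = 0 ↔ dd f q = 0)
    (fun p a => ∃ e η κ l1 l2, NF g a e p η κ l1 l2) (a₀ := f) (fun a ha p hp => by
      have hO : IsOpen ({p | dd f p = 0} \ {p})ᶜ := (hfin.subset sdiff_subset).isClosed.isOpen_compl
      obtain ⟨a', b1, b2, b3, b4⟩ := ha.1.normal g hO (p := p) (by simp) ((ha.2 p).mpr hp)
      refine ⟨a', ⟨b1, fun q => (b2 q).trans (ha.2 q)⟩, b4, fun q hq hqp => ?_⟩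
      rintro ⟨e, η, κ, l1, l2, h⟩
      have hE := b3 q (not_not.mpr ⟨hq, hqp⟩)
      exact ⟨e, η, κ, l1, l2, h.ch, h.mem, h.zero, h.orth, h.η_sq, h.κ_sq, h.l1_pos, h.l2_pos, by
        rw [hE.eq_of_nhds]; exact hE.trans h.nf⟩) ⟨hf, fun _ => Iff.rfl⟩
  exact ⟨f', h1.1, h2, h3⟩

end Crest.Agent.R216
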