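import Crest.Agent.R216.TForm
/-!
# R216 (T): moving a simple zero of a 2-form

Recipe.  `move_plane`: `χ : ContDiffBump c = ⟨r, 2 r, ..⟩`, `φ z = z + χ z • (a - b)`, `Ω' = Ω ∘ φ`, `K = closedBall c (2 r)`.
`φ` maps `K` into `ball c (4 r)` and is the identity off `K`.  If `φ z = a` then `z = (1 - s) a + s b ∈ ball c r`, so `χ z = 1`,
`z = b`; near `b`, `φ` is a translation.
`move_loc`: chart at `q₀` restricted to `Aᶜ`, `ball c (4 r) ⊆ target`, `N = source ∩ e ⁻¹' ball c r`; `exists_patchF`, `SZ.of_chart`, `SZ.congr`.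
`preconnected_diff`: induction on `A`; for one point `a ∈ S` take the open `N = source ∩ e ⁻¹' ball (e a) r ⊆ S`;
`N \ {a}` is preconnected (`ball \ {c}` is the image of `{0}ᶜ` under `OpenPartialHomeomorph.univBall c r`,
`isConnected_compl_singleton_of_one_lt_rank`); if open `U, V` separate `S \ {a}` and `N \ {a} ⊆ U`, then `U ∪ N`, `V \ {a}` separate `S`.
`GoodF.move`: the set of `q ∉ A` for which the conclusion holds is relatively clopen in `Aᶜ` (`move_loc`);
`M` is locally connected (`ChartedSpace.locallyConnectedSpace`), components are open.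
-/

set_option autoImplicit false
open scoped Manifold ContDiff Topology Matrix
open Set Filter Function Metric

namespace Crest.Agent.R216
universe u

theorem move_plane {U : Set E2} (hU : IsOpen U) {Ω : E2 → ℂ} (hΩ : ContDiffOn ℝ ∞ Ω U) {c a b : E2}
    {r : ℝ} (hr : ball c (4 * r) ⊆ U) (ha : a ∈ ball c r) (hb : b ∈ ball c r)
    (hz : ∀ z ∈ ball c (4 * r), Ω z = 0 ↔ z = a) (hs : Injective (fderiv ℝ Ω a)) :
    ∃ (Ω' : E2 → ℂ) (K : Set E2), IsCompact K ∧ K ⊆ ball c (4 * r) ∧ ball c r ⊆ K ∧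
      ContDiffOn ℝ ∞ Ω' U ∧ (∀ z, z ∉ K → Ω' z = Ω z) ∧ (∀ z ∈ K, Ω' z = 0 ↔ z = b) ∧
      Injective (fderiv ℝ Ω' b) := by
  have hr0 : 0 < r := pos_of_mem_ball ha
  let χ : ContDiffBump c := ⟨r, 2 * r, hr0, by linarith⟩
  let φ : E2 → E2 := fun z => z + χ z • (a - b)
  have hφ : ContDiff ℝ ∞ φ := contDiff_id.add (χ.contDiff.smul contDiff_const)
  have hab : ‖a - b‖ < 2 * r := by
    have := dist_triangle_right a b c
    rw [mem_ball] at ha hb
    rw [← dist_eq_norm]
    linarith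
  have hin : ∀ z ∈ closedBall c (2 * r), φ z ∈ ball c (4 * r) := fun z hz => by
    have h1 : dist (φ z) z ≤ ‖a - b‖ := by
      rw [dist_eq_norm, show φ z - z = χ z • (a - b) from add_sub_cancel_left _ _, norm_smul,
        Real.norm_of_nonneg χ.nonneg]
      exact mul_le_of_le_one_left (norm_nonneg _) χ.le_one
    have := dist_triangle (φ z) z c
    rw [mem_closedBall] at hz
    rw [mem_ball]
    linarith
  have hout : ∀ z, z ∉ closedBall c (2 * r) → φ z = z := fun z hz => by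
    have h0 : χ z = 0 := χ.zero_of_le_dist (not_le.1 hz).le
    simp only [φ, h0, zero_smul, add_zero]
  have hone : ∀ z ∈ ball c r, φ z = z + (a - b) := fun z hz => by
    have h1 : χ z = 1 := χ.one_of_mem_closedBall (ball_subset_closedBall hz)
    simp only [φ, h1, one_smul]
  refine ⟨Ω ∘ φ, closedBall c (2 * r), isCompact_closedBall _ _, closedBall_subset_ball (by linarith),
    ball_subset_closedBall.trans (closedBall_subset_closedBall (by linarith)), ?_, ?_, ?_, ?_⟩
  · refine hΩ.comp hφ.contDiffOn fun z hzU => ?_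
    by_cases hK : z ∈ closedBall c (2 * r)
    · exact hr (hin z hK)
    · rw [hout z hK]; exact hzU
  · intro z hK
    rw [comp_apply, hout z hK]
  · intro z hK
    rw [comp_apply, hz _ (hin z hK)]
    constructor
    · intro h
      have h1 : z = (1 - χ z) • a + χ z • b := by
        have h2 : z + χ z • (a - b) = a := h
        rw [sub_smul, one_smul]
        rw [smul_sub] at h2
        linear_combination (norm := module) h2
      have h2 : z ∈ ball c r := by
        rw [h1]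
        exact convex_ball c r ha hb (sub_nonneg.2 χ.le_one) χ.nonneg (sub_add_cancel _ _)
      rw [hone z h2] at h
      linear_combination (norm := module) h
    · rintro rfl
      rw [hone z hb, add_sub_cancel]
  · have h1 : Ω ∘ φ =ᶠ[𝓝 b] fun z => Ω (z + (a - b)) := by
      filter_upwards [isOpen_ball.mem_nhds hb] with z hz'
      rw [comp_apply, hone z hz']
    rw [h1.fderiv_eq, fderiv_comp_add_right, add_sub_cancel]
    exact hs

variable {M : Type u} [TopologicalSpace M] [ChartedSpace E2 M] [IsManifold (𝓡 2) ∞ M] [T2Space M]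

theorem move_loc {A : Set M} (hA : A.Finite) {q₀ : M} (hq : q₀ ∉ A) : ∃ N ∈ 𝓝 q₀, Disjoint N A ∧
    ∀ p ∈ N, ∀ q ∈ N, ∀ Ω : M → ℂ, GoodF Ω → {x | Ω x = 0} = insert p A →
      ∃ Ω' : M → ℂ, GoodF Ω' ∧ {x | Ω' x = 0} = insert q A := by
  obtain ⟨e, he, hes, -, -⟩ := (isCh_chartAt q₀).restr hA.isClosed.isOpen_compl
  have hq₀ : q₀ ∈ e.source := by rw [hes]; exact ⟨mem_chart_source _ _, hq⟩
  have hnA : ∀ x ∈ e.source, x ∉ A := fun x hx => by rw [hes] at hx; exact hx.2
  obtain ⟨ε, hε, hb⟩ := Metric.isOpen_iff.1 e.open_target _ (e.map_source hq₀)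
  have hb4 : ball (e q₀) (4 * (ε / 4)) ⊆ e.target := by rwa [mul_div_cancel₀ _ (by norm_num)]
  refine ⟨e.source ∩ e ⁻¹' ball (e q₀) (ε / 4), ?_, ?_, ?_⟩
  · exact (e.isOpen_inter_preimage isOpen_ball).mem_nhds ⟨hq₀, mem_ball_self (by positivity)⟩
  · exact disjoint_left.2 fun x hx => hnA x hx.1
  intro p hp q hq' Ω hΩ hz
  have hz' : ∀ x, Ω x = 0 ↔ x = p ∨ x ∈ A := fun x => Set.ext_iff.1 hz x
  obtain ⟨Ω₁, K, hK, hK4, hK1, hΩ₁, hoff, hon, hinj⟩ := move_plane e.open_target (hΩ.1 e he) hb4 hp.2 hq'.2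
    (fun z hz4 => by
      have hzt := hb4 hz4
      have h1 := he.rep_eq_zero Ω (e.map_target hzt)
      rw [e.right_inv hzt] at h1
      rw [h1, hz']
      constructor
      · rintro (h | h)
        · rw [← h, e.right_inv hzt]
        · exact absurd h (hnA _ (e.map_target hzt))
      · rintro rfl
        exact Or.inl (e.left_inv hp.1))
    (hΩ.2 p ((hz' p).2 (Or.inl rfl)) e he hp.1)
  have hKt : K ⊆ e.target := hK4.trans hb4
  obtain ⟨Ω', hsm, hrep, hev⟩ := he.exists_patchF hΩ.1 hΩ₁ hK hKt fun z _ hzK => hoff z hzK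
  have hin : ∀ x ∈ e.symm '' K, (Ω' x = 0 ↔ x = q) ∧ x ∉ A := by
    rintro _ ⟨z, hzK, rfl⟩
    have hzt := hKt hzK
    refine ⟨?_, hnA _ (e.map_target hzt)⟩
    rw [← he.rep_eq_zero Ω' (e.map_target hzt), e.right_inv hzt, hrep z hzt, hon z hzK]
    constructor
    · rintro rfl
      exact e.left_inv hq'.1
    · intro h
      rw [← h, e.right_inv hzt]
  have hpK : p ∈ e.symm '' K := ⟨e p, hK1 hp.2, e.left_inv hp.1⟩
  have hqK : q ∈ e.symm '' K := ⟨e q, hK1 hq'.2, e.left_inv hq'.1⟩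
  refine ⟨Ω', ⟨hsm, fun x hx => ?_⟩, ?_⟩
  · by_cases hxK : x ∈ e.symm '' K
    · obtain rfl := (hin x hxK).1.1 hx
      have hxt := e.open_target.mem_nhds (e.map_source hq'.1)
      refine SZ.of_chart he hq'.1 hx (((hsm e he).contDiffAt hxt).differentiableAt (by simp)) ?_
      have h1 : rep e Ω' =ᶠ[𝓝 (e x)] Ω₁ := by
        filter_upwards [hxt] with z hz' using hrep z hz'
      rw [h1.fderiv_eq]
      exact hinj
    · exact (hΩ.2 x ((hev x hxK).eq_of_nhds.symm.trans hx)).congr (hev x hxK)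
  · ext x
    rw [mem_ofPred_eq, mem_insert_iff]
    by_cases hxK : x ∈ e.symm '' K
    · rw [(hin x hxK).1]
      exact ⟨Or.inl, fun h => h.resolve_right (hin x hxK).2⟩
    · rw [(hev x hxK).eq_of_nhds, hz']
      have h1 : x ≠ p := fun h => hxK (h ▸ hpK)
      have h2 : x ≠ q := fun h => hxK (h ▸ hqK)
      simp only [h1, h2, false_or]

omit [IsManifold (𝓡 2) ∞ M] [T2Space M] in
theorem tmoveb_nbhd {S : Set M} (hS : IsOpen S) {a : M} (ha : a ∈ S) :
    ∃ N : Set M, IsOpen N ∧ a ∈ N ∧ N ⊆ S ∧ IsPreconnected (N \ {a}) := by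
  let e := chartAt E2 a
  have hae : a ∈ e.source := mem_chart_source E2 a
  have ho : IsOpen (e.target ∩ e.symm ⁻¹' S) := e.isOpen_inter_preimage_symm hS
  obtain ⟨r, hr, hb⟩ := Metric.isOpen_iff.1 ho (e a)
    ⟨e.map_source hae, by rw [mem_preimage, e.left_inv hae]; exact ha⟩
  let b : OpenPartialHomeomorph E2 E2 := OpenPartialHomeomorph.univBall (e a) r
  have hbs : b.source = univ := OpenPartialHomeomorph.univBall_source _ _
  have hbt : b.target = ball (e a) r := OpenPartialHomeomorph.univBall_target _ hr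
  have hb0 : b 0 = e a := OpenPartialHomeomorph.univBall_apply_zero _ _
  have hbm : ∀ z, b z ∈ ball (e a) r := fun z => hbt ▸ b.map_source (hbs ▸ mem_univ z)
  refine ⟨e.source ∩ e ⁻¹' ball (e a) r, e.isOpen_inter_preimage isOpen_ball,
    ⟨hae, mem_ball_self hr⟩, fun x hx => ?_, ?_⟩
  · have := (hb hx.2).2
    rwa [mem_preimage, e.left_inv hx.1] at this
  have hc : IsPreconnected ({0}ᶜ : Set E2) :=
    (isConnected_compl_singleton_of_one_lt_rank (by
      rw [← Module.finrank_eq_rank, finrank_euclideanSpace_fin]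
      norm_num) 0).isPreconnected
  have hcont : ContinuousOn (e.symm ∘ b) {0}ᶜ :=
    e.continuousOn_symm.comp (b.continuousOn.mono (hbs ▸ subset_univ _)) fun z _ => (hb (hbm z)).1
  convert hc.image _ hcont using 1
  ext x
  constructor
  · rintro ⟨⟨h1, h2⟩, h3⟩
    have h4 : b (b.symm (e x)) = e x := b.right_inv (hbt ▸ h2)
    refine ⟨b.symm (e x), fun h => h3 ?_, ?_⟩
    · rw [mem_singleton_iff.1 h, hb0] at h4
      exact (e.injOn hae h1 h4).symm
    · rw [comp_apply, h4, e.left_inv h1]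
  · rintro ⟨z, hz, rfl⟩
    have h1 := (hb (hbm z)).1
    refine ⟨⟨e.map_target h1, ?_⟩, fun h => hz ?_⟩
    · rw [mem_preimage, comp_apply, e.right_inv h1]
      exact hbm z
    · have h2 : e (e.symm (b z)) = e a := congrArg e h
      rw [e.right_inv h1, ← hb0] at h2
      exact b.injOn (hbs ▸ mem_univ _) (hbs ▸ mem_univ _) h2

omit [IsManifold (𝓡 2) ∞ M] in
theorem tmoveb_single {S : Set M} (hS : IsOpen S) (hc : IsPreconnected S) (a : M) :
    IsPreconnected (S \ {a}) := by
  by_cases ha : a ∈ S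
  swap
  · rwa [sdiff_singleton_eq_self ha]
  obtain ⟨N, hN, haN, hNS, hp⟩ := tmoveb_nbhd hS ha
  have key : ∀ u v : Set M, IsOpen u → IsOpen v → S \ {a} ⊆ u ∪ v → S \ {a} ∩ (u ∩ v) = ∅ →
      N \ {a} ⊆ u → S \ {a} ⊆ u ∨ S \ {a} ⊆ v := by
    intro u v hu hv hs hd hNu
    have h1 : ∀ x ∈ S, x ≠ a → x ∈ u ∪ N → x ∈ u := fun x _ hx h =>
      h.elim id fun h => hNu ⟨h, hx⟩
    rcases isPreconnected_iff_subset_of_disjoint.1 hc (u ∪ N) (v \ {a}) (hu.union hN)
      (hv.sdiff isClosed_singleton) (fun x hx => by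
        by_cases hxa : x = a
        · exact .inl (.inr (hxa ▸ haN))
        · exact (hs ⟨hx, hxa⟩).elim (fun h => .inl (.inl h)) fun h => .inr ⟨h, hxa⟩)
      (eq_empty_of_forall_notMem fun x ⟨hx, h2, h3, h4⟩ =>
        (eq_empty_iff_forall_notMem.1 hd) x ⟨⟨hx, h4⟩, h1 x hx h4 h2, h3⟩) with h | h
    · exact .inl fun x hx => h1 x hx.1 hx.2 (h hx.1)
    · exact .inr fun x hx => (h hx.1).1
  refine isPreconnected_iff_subset_of_disjoint.2 fun u v hu hv hs hd => ?_
  have hsub : N \ {a} ⊆ S \ {a} := sdiff_subset_sdiff_left hNS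
  rcases isPreconnected_iff_subset_of_disjoint.1 hp u v hu hv (hsub.trans hs)
    (subset_eq_empty (inter_subset_inter_left _ hsub) hd) with h | h
  · exact key u v hu hv hs hd h
  · exact (key v u hv hu (by rwa [union_comm]) (by rwa [inter_comm v]) h).symm

omit [IsManifold (𝓡 2) ∞ M] in
theorem preconnected_diff {S A : Set M} (hS : IsOpen S) (hc : IsPreconnected S) (hA : A.Finite) :
    IsPreconnected (S \ A) := by
  induction A, hA using Set.Finite.induction_on generalizing S with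
  | empty => rwa [sdiff_empty]
  | @insert a A _ _ ih =>
    rw [insert_eq, ← sdiff_sdiff]
    exact ih (hS.sdiff isClosed_singleton) (tmoveb_single hS hc a)

theorem GoodF.move {Ω : M → ℂ} (hΩ : GoodF Ω) {A : Set M} (hA : A.Finite) {p q : M}
    (hz : {x | Ω x = 0} = insert p A) (hp : p ∉ A) (hq : q ∉ A)
    (hpq : q ∈ connectedComponent p) :
    ∃ Ω' : M → ℂ, GoodF Ω' ∧ {x | Ω' x = 0} = insert q A := by
  have : LocallyConnectedSpace M := ChartedSpace.locallyConnectedSpace E2 M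
  have hc := preconnected_diff (S := connectedComponent p) isOpen_connectedComponent
    isPreconnected_connectedComponent hA
  refine hc.induction₂' (fun p q => ∀ Ω : M → ℂ, GoodF Ω → {x | Ω x = 0} = insert p A →
    ∃ Ω' : M → ℂ, GoodF Ω' ∧ {x | Ω' x = 0} = insert q A) (fun x hx => ?_) ?_
    ⟨mem_connectedComponent, hp⟩ ⟨hpq, hq⟩ Ω hΩ hz
  · obtain ⟨N, hN, -, h⟩ := move_loc hA hx.2
    filter_upwards [mem_nhdsWithin_of_mem_nhds hN] with y hy
    exact ⟨h x (mem_of_mem_nhds hN) y hy, h y hy x (mem_of_mem_nhds hN)⟩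
  · intro x y z _ _ _ h1 h2 Ω hΩ hz
    obtain ⟨Ω', h3, h4⟩ := h1 Ω hΩ hz
    exact h2 Ω' h3 h4

end Crest.Agent.R216
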