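import Crest.Agent.R216.TMorse
/-!
# R216 (T): normal form of a simple zero

Recipe.  `norm_plane`: `A = fderiv Ω 0`, `c ‖z‖ ≤ ‖A z‖`, `‖Ω z - A z‖ ≤ (c/2) ‖z‖` on `closedBall 0 (2r) ⊆ U`;
`χ : ContDiffBump 0 = ⟨r, 2r, ..⟩`, `Ω₁ = Ω + χ • (A z - Ω)` has no zero but `0` in `K = closedBall 0 (2r)`.
`T = B ∘ A⁻¹ : ℂ → ℂ` is real-linear and injective: `T w = α w + β conj w`, `‖α‖ ≠ ‖β‖`; `conj (T w) = conj β w + conj α conj w`.
For `‖β‖ < ‖α‖` put `Ω' = exp (χ log α) * (Ω₁ + χ (β/α) conj Ω₁)`.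
`GoodF.normal`: restrict the chart to `O` (`IsCh.restr`, same `rep`), `exists_patchF`.
`GoodF.normal_all`: `germ_induction` with `O = (C \ {p})ᶜ`, `rep_congr`.
-/

set_option autoImplicit false
open scoped Manifold ContDiff Topology Matrix
open Set Filter Function Metric

namespace Crest.Agent.R216
universe u

theorem tnorma_lin (T : ℂ →L[ℝ] ℂ) : ∃ α β : ℂ, ∀ w, T w = α * w + β * starRingEnd ℂ w := by
  refine ⟨(T 1 - Complex.I * T Complex.I) / 2, (T 1 + Complex.I * T Complex.I) / 2, fun w => ?_⟩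
  have h : T w = w.re • T 1 + w.im • T Complex.I := by
    conv_lhs => rw [← Complex.re_add_im w]
    rw [← map_smul, ← map_smul, ← map_add]
    congr 1
    simp
  rw [h]
  apply Complex.ext <;> simp <;> ring

theorem tnorma_ne {α β : ℂ} (h : ∀ w, α * w + β * starRingEnd ℂ w = 0 → w = 0) : ‖α‖ ≠ ‖β‖ := by
  intro hn
  by_cases hα : α = 0
  · have hβ : β = 0 := by rw [← norm_eq_zero, ← hn, hα, norm_zero]
    exact one_ne_zero (h 1 (by simp [hα, hβ]))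
  obtain ⟨w, hw⟩ := IsAlgClosed.exists_pow_nat_eq (-β / α) two_pos
  have h1 : ‖w‖ = 1 := by
    have h2 : ‖w‖ ^ 2 = 1 := by
      rw [← norm_pow, hw, norm_div, norm_neg, ← hn, div_self (norm_ne_zero_iff.2 hα)]
    exact (pow_eq_one_iff_of_nonneg (norm_nonneg w) two_ne_zero).1 h2
  have hw0 : w ≠ 0 := by
    rintro rfl
    simp at h1
  have h3 : w * starRingEnd ℂ w = 1 := by
    rw [Complex.mul_conj, Complex.normSq_eq_norm_sq, h1]
    simp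
  have h4 : α * w ^ 2 = -β := by rw [hw]; field_simp
  refine hw0 (h w (mul_left_cancel₀ hw0 ?_))
  linear_combination h4 + β * h3

theorem tnorma_core {U : Set E2} (hU : IsOpen U) (h0 : (0 : E2) ∈ U) {Ω : E2 → ℂ}
    (hΩ : ContDiffOn ℝ ∞ Ω U) (hz : Ω 0 = 0) (hs : Injective (fderiv ℝ Ω 0)) {α β : ℂ}
    (hαβ : ‖β‖ < ‖α‖) : ∃ (Ω' : E2 → ℂ) (K : Set E2), IsCompact K ∧ K ⊆ U ∧ (0 : E2) ∈ K ∧
      ContDiffOn ℝ ∞ Ω' U ∧ (∀ z, z ∉ K → Ω' z = Ω z) ∧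
      (∀ z ∈ K, z ≠ 0 → Ω z ≠ 0 ∧ Ω' z ≠ 0) ∧
      Ω' =ᶠ[𝓝 0] fun z => α * fderiv ℝ Ω 0 z + β * starRingEnd ℂ (fderiv ℝ Ω 0 z) := by
  set A := fderiv ℝ Ω 0 with hA
  have hα : α ≠ 0 := norm_pos_iff.1 ((norm_nonneg β).trans_lt hαβ)
  obtain ⟨C, hC, hanti⟩ := (A : E2 →ₗ[ℝ] ℂ).exists_antilipschitzWith (LinearMap.ker_eq_bot.2 hs)
  have hC' : (0 : ℝ) < C := hC
  have hlow : ∀ z, ‖z‖ ≤ C * ‖A z‖ := fun z => by
    simpa using hanti.le_mul_dist z 0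
  have hd : HasFDerivAt Ω A 0 :=
    ((hΩ.contDiffAt (hU.mem_nhds h0)).differentiableAt (by simp)).hasFDerivAt
  have hev := (hd.isLittleO.def (c := 1 / (2 * C)) (by positivity)).and (hU.eventually_mem h0)
  obtain ⟨δ, hδ, hb⟩ := Metric.eventually_nhds_iff.1 hev
  let χ : ContDiffBump (0 : E2) := ⟨δ / 4, δ / 2, by positivity, by linarith⟩
  have hK : ∀ z ∈ closedBall (0 : E2) (δ / 2), ‖Ω z - A z‖ ≤ 1 / (2 * C) * ‖z‖ ∧ z ∈ U := by
    intro z hz'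
    have := hb (y := z) ((mem_closedBall.1 hz').trans_lt (by linarith))
    simpa [hz] using this
  have hne : ∀ z ∈ closedBall (0 : E2) (δ / 2), z ≠ 0 → ∀ s ∈ Icc (0 : ℝ) 1,
      Ω z + s • (A z - Ω z) ≠ 0 := by
    intro z hz hz0 s hs h
    have h1 : A z = (1 - s) • (A z - Ω z) := by
      rw [sub_smul, one_smul]
      linear_combination h
    have h2 : ‖A z‖ ≤ 1 / (2 * C) * ‖z‖ := by
      rw [h1, norm_smul, norm_sub_rev (A z), Real.norm_of_nonneg (by linarith [hs.2])]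
      have := (hK z hz).1
      nlinarith [norm_nonneg (Ω z - A z), hs.1]
    have h3 := hlow z
    have h4 : C * ‖A z‖ ≤ ‖z‖ / 2 := by
      calc C * ‖A z‖ ≤ C * (1 / (2 * C) * ‖z‖) := by gcongr
        _ = ‖z‖ / 2 := by field_simp
    have := norm_pos_iff.2 hz0
    linarith
  let Ω₁ : E2 → ℂ := fun z => Ω z + χ z • (A z - Ω z)
  have h₁ : ContDiffOn ℝ ∞ Ω₁ U :=
    hΩ.add (χ.contDiff.contDiffOn.smul (A.contDiff.contDiffOn.sub hΩ))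
  have hχ : ContDiff ℝ ∞ fun z => ((χ z : ℝ) : ℂ) := Complex.ofRealCLM.contDiff.comp χ.contDiff
  refine ⟨fun z => Complex.exp (χ z * Complex.log α) *
    (Ω₁ z + χ z * (β / α) * starRingEnd ℂ (Ω₁ z)), closedBall 0 (δ / 2), isCompact_closedBall _ _,
    fun z hz => (hK z hz).2, mem_closedBall_self (by positivity), ?_, fun z hz => ?_,
    fun z hz hz0 => ⟨?_, ?_⟩, ?_⟩
  · exact ((Complex.contDiff_exp (𝕜 := ℝ)).comp (hχ.mul contDiff_const)).contDiffOn.mul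
      (h₁.add ((hχ.mul contDiff_const).contDiffOn.mul
        (Complex.conjCLE.contDiff.comp_contDiffOn h₁)))
  · have h : χ z = 0 := χ.zero_of_le_dist (not_le.1 hz).le
    simp [Ω₁, h]
  · simpa using hne z hz hz0 0 ⟨le_rfl, zero_le_one⟩
  · have h2 : Ω₁ z ≠ 0 := hne z hz hz0 _ ⟨χ.nonneg, χ.le_one⟩
    refine mul_ne_zero (Complex.exp_ne_zero _) fun h => ?_
    have h3 := congrArg norm (eq_neg_of_add_eq_zero_left h)
    rw [norm_neg, norm_mul, norm_mul, Complex.norm_conj, Complex.norm_real,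
      Real.norm_of_nonneg χ.nonneg, norm_div] at h3
    have h4 : ‖β‖ / ‖α‖ < 1 := (div_lt_one (norm_pos_iff.2 hα)).2 hαβ
    have h5 : χ z * (‖β‖ / ‖α‖) < 1 :=
      (mul_le_of_le_one_left (by positivity) χ.le_one).trans_lt h4
    have := norm_pos_iff.2 h2
    nlinarith
  · filter_upwards [χ.eventuallyEq_one] with z hz
    have h : χ z = 1 := hz
    simp only [Ω₁, h, one_smul, add_sub_cancel, Complex.ofReal_one, one_mul, Complex.exp_log hα]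
    field_simp

theorem norm_plane {U : Set E2} (hU : IsOpen U) (h0 : (0 : E2) ∈ U) {Ω : E2 → ℂ}
    (hΩ : ContDiffOn ℝ ∞ Ω U) (hz : Ω 0 = 0) (hs : Injective (fderiv ℝ Ω 0)) (B : E2 →L[ℝ] ℂ)
    (hB : Injective B) : ∃ (Ω' : E2 → ℂ) (K : Set E2), IsCompact K ∧ K ⊆ U ∧ (0 : E2) ∈ K ∧
      ContDiffOn ℝ ∞ Ω' U ∧ (∀ z, z ∉ K → Ω' z = Ω z) ∧
      (∀ z ∈ K, z ≠ 0 → Ω z ≠ 0 ∧ Ω' z ≠ 0) ∧
      (Ω' =ᶠ[𝓝 0] B ∨ Ω' =ᶠ[𝓝 0] fun z => starRingEnd ℂ (B z)) := by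
  let A : E2 ≃L[ℝ] ℂ := ((fderiv ℝ Ω 0 : E2 →ₗ[ℝ] ℂ).linearEquivOfInjective hs
    (by simp [Complex.finrank_real_complex])).toContinuousLinearEquiv
  have hA : ∀ z, A z = fderiv ℝ Ω 0 z := fun z => rfl
  obtain ⟨α, β, hT⟩ := tnorma_lin (B.comp (A.symm : ℂ →L[ℝ] E2))
  have hB' : ∀ z, B z = α * fderiv ℝ Ω 0 z + β * starRingEnd ℂ (fderiv ℝ Ω 0 z) := fun z => by
    rw [← hT, ← hA]
    simp
  have hne : ‖α‖ ≠ ‖β‖ := tnorma_ne fun w hw => by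
    rw [← hT] at hw
    have h1 : A.symm w = 0 := hB (by rw [map_zero]; exact hw)
    simpa using h1
  rcases lt_or_gt_of_ne hne with h | h
  · obtain ⟨Ω', K, h1, h2, h3, h4, h5, h6, h7⟩ := tnorma_core hU h0 hΩ hz hs
      (α := starRingEnd ℂ β) (β := starRingEnd ℂ α) (by simpa using h)
    refine ⟨Ω', K, h1, h2, h3, h4, h5, h6, Or.inr (h7.trans (Eventually.of_forall fun z => ?_))⟩
    simp [hB', add_comm]
  · obtain ⟨Ω', K, h1, h2, h3, h4, h5, h6, h7⟩ := tnorma_core hU h0 hΩ hz hs h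
    exact ⟨Ω', K, h1, h2, h3, h4, h5, h6,
      Or.inl (h7.trans (Eventually.of_forall fun z => (hB' z).symm))⟩

variable {M : Type u} [TopologicalSpace M] [ChartedSpace E2 M] [IsManifold (𝓡 2) ∞ M]
  [T2Space M] {Ω : M → ℂ}

theorem GoodF.normal (hΩ : GoodF Ω) {e : OpenPartialHomeomorph M E2} (he : IsCh e) {p : M}
    (hp : p ∈ e.source) (h0 : e p = 0) (hz : Ω p = 0) (B : E2 →L[ℝ] ℂ) (hB : Injective B)
    {O : Set M} (hO : IsOpen O) (hpO : p ∈ O) :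
    ∃ Ω' : M → ℂ, GoodF Ω' ∧ (∀ q, Ω' q = 0 ↔ Ω q = 0) ∧ (∀ q, q ∉ O → Ω' =ᶠ[𝓝 q] Ω) ∧
      (rep e Ω' =ᶠ[𝓝 0] B ∨ rep e Ω' =ᶠ[𝓝 0] fun z => starRingEnd ℂ (B z)) := by
  obtain ⟨e', he', hs', h1, h2⟩ := he.restr hO
  have hrep : ∀ Θ : M → ℂ, rep e' Θ = rep e Θ := fun Θ => by
    funext z
    simp only [rep, h1, h2]
  have hp' : p ∈ e'.source := by rw [hs']; exact ⟨hp, hpO⟩
  have h0' : e' p = 0 := by rw [h1, h0]
  have ht : (0 : E2) ∈ e'.target := h0' ▸ e'.map_source hp'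
  obtain ⟨φ, K, hK, hKt, hK0, hφ, hφK, hne, hnf⟩ := norm_plane e'.open_target ht (hΩ.1 e' he')
    (by rw [← h0']; exact (he'.rep_eq_zero Ω hp').2 hz)
    (by rw [← h0']; exact hΩ.2 p hz e' he' hp') B hB
  obtain ⟨Ω', hΩ', hr, hout⟩ := he'.exists_patchF hΩ.1 hφ hK hKt fun z _ hz => hφK z hz
  have hre : rep e' Ω' =ᶠ[𝓝 0] φ := by
    filter_upwards [e'.open_target.mem_nhds ht] with z hz using hr z hz
  have hφ0 : φ 0 = 0 := by
    rcases hnf with h | h <;> simp [h.self_of_nhds]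
  have hz' : Ω' p = 0 := by
    rw [← he'.rep_eq_zero Ω' hp', h0', hre.self_of_nhds, hφ0]
  have hin : ∀ q ∈ e'.symm '' K, q ≠ p → Ω q ≠ 0 ∧ Ω' q ≠ 0 := by
    rintro _ ⟨z, hz, rfl⟩ hne'
    have hzt := hKt hz
    have hz0 : z ≠ 0 := by
      rintro rfl
      exact hne' (by rw [← h0', e'.left_inv hp'])
    have h3 := hne z hz hz0
    rw [← hr z hzt, ← e'.right_inv hzt] at h3
    exact ⟨fun h => h3.1 ((he'.rep_eq_zero Ω (e'.map_target hzt)).2 h),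
      fun h => h3.2 ((he'.rep_eq_zero Ω' (e'.map_target hzt)).2 h)⟩
  refine ⟨Ω', ⟨hΩ', fun q hq => ?_⟩, fun q => ?_, fun q hq => hout q ?_, ?_⟩
  · by_cases hqp : q = p
    · subst hqp
      refine SZ.of_chart he' hp' hq
        (((hΩ' e' he').contDiffAt (e'.open_target.mem_nhds (e'.map_source hp'))).differentiableAt
          (by simp)) ?_
      rw [h0', hre.fderiv_eq]
      rcases hnf with h | h
      · rwa [h.fderiv_eq, B.fderiv]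
      · have h4 : (fun z => starRingEnd ℂ (B z)) =
            ((Complex.conjCLE : ℂ →L[ℝ] ℂ).comp B : E2 →L[ℝ] ℂ) := rfl
        rw [h.fderiv_eq, h4, ContinuousLinearMap.fderiv]
        exact Complex.conjCLE.injective.comp hB
    · have hqK : q ∉ e'.symm '' K := fun h => (hin q h hqp).2 hq
      exact (hΩ.2 q ((hout q hqK).self_of_nhds ▸ hq)).congr (hout q hqK)
  · by_cases hqp : q = p
    · simp [hqp, hz, hz']
    · by_cases hqK : q ∈ e'.symm '' K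
      · simp [(hin q hqK hqp).1, (hin q hqK hqp).2]
      · rw [(hout q hqK).self_of_nhds]
  · rintro ⟨z, hz, rfl⟩
    have := e'.map_target (hKt hz)
    rw [hs'] at this
    exact hq this.2
  · rw [← hrep]
    exact hnf.imp hre.trans hre.trans

theorem GoodF.normal_all (hΩ : GoodF Ω) (hfin : {p | Ω p = 0}.Finite)
    (e : M → OpenPartialHomeomorph M E2) (B : M → E2 →L[ℝ] ℂ)
    (h : ∀ p, Ω p = 0 → IsCh (e p) ∧ p ∈ (e p).source ∧ e p p = 0 ∧ Injective (B p)) :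
    ∃ Ω' : M → ℂ, SmF Ω' ∧ (∀ q, Ω' q = 0 ↔ Ω q = 0) ∧ ∀ p, Ω p = 0 →
      (rep (e p) Ω' =ᶠ[𝓝 0] B p ∨ rep (e p) Ω' =ᶠ[𝓝 0] fun z => starRingEnd ℂ (B p z)) := by
  obtain ⟨Ω', ⟨h1, h2⟩, h3⟩ := germ_induction hfin
    (fun Θ : M → ℂ => GoodF Θ ∧ ∀ q, Θ q = 0 ↔ Ω q = 0)
    (fun p Θ => rep (e p) Θ =ᶠ[𝓝 0] B p ∨ rep (e p) Θ =ᶠ[𝓝 0] fun z => starRingEnd ℂ (B p z))
    (fun Θ hΘ p hp => by
      obtain ⟨a1, a2, a3, a4⟩ := h p hp
      have hO : IsOpen ({p | Ω p = 0} \ {p})ᶜ := (hfin.subset sdiff_subset).isClosed.isOpen_compl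
      obtain ⟨Θ', b1, b2, b3, b4⟩ := hΘ.1.normal a1 a2 a3 ((hΘ.2 p).2 hp) (B p) a4 hO
        (fun h => h.2 rfl)
      refine ⟨Θ', ⟨b1, fun q => (b2 q).trans (hΘ.2 q)⟩, b4, fun q hq hqp hP => ?_⟩
      have h5 := rep_congr (h q hq).2.1 (b3 q fun h => h ⟨hq, hqp⟩)
      rw [(h q hq).2.2.1] at h5
      exact hP.imp h5.trans h5.trans) (a₀ := Ω) ⟨hΩ, fun _ => Iff.rfl⟩
  exact ⟨Ω', h1.1, h2, h3⟩

end Crest.Agent.R216
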