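import Crest.Agent.R216.TForm
/-!
# R216 (T): a 1-form `Y` with `df ∧ Y = Ω`

Recipe.  Cut-offs `χ j` (`exists_cutoff`), `= 1` near `K j`, `tsupport ⊆ O j`; `ρ = 1 - ∑ χ j` vanishes near every critical point, and on `K j`
`χ j = 1`, `χ i = 0` for `i ≠ j`.  `exists_fields`: for `q` in the compact set one of the fields of `IsCh.exists_frame` has
`dd f q (V q) ≠ 0` (open condition, `Sm.zv`), finite subcover.  `N = ∑ a, (dd f q (V a q))^2`, `ρ / N` is smooth (`sm_of_closed` with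
`tsupport ρ`, `Sm.compOn`/`ContMDiffAt.div₀`).
`Y q v = ∑ j, χ j q • Yl j q v + (ρ q / N q) • ∑ a, dd f q (V a q) • det2 (V a q) v • Ω q`; the identity
`l w * det2 V v - l v * det2 V w = l V * det2 w v` holds for every linear form `l` on the plane (`vec_eq`).
-/

set_option autoImplicit false
open scoped Manifold ContDiff Topology Matrix
open Set Filter Function Metric

namespace Crest.Agent.R216
universe u

theorem ty_lin (l : E2 →L[ℝ] ℝ) (v : E2) : l v = v 0 * l b0 + v 1 * l b1 := by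
  conv_lhs => rw [vec_eq v]
  simp only [map_add, map_smul, smul_eq_mul]

theorem ty_id (l : E2 →L[ℝ] ℝ) (V v w : E2) :
    l w * det2 V v - l v * det2 V w = l V * det2 w v := by
  rw [ty_lin l w, ty_lin l v, ty_lin l V]
  simp only [det2]
  ring

/-- `det2 V ·` as a linear form -/
noncomputable def ty_det (V : E2) : E2 →L[ℝ] ℝ :=
  V 0 • (EuclideanSpace.proj (1 : Fin 2) : E2 →L[ℝ] ℝ) -
    V 1 • (EuclideanSpace.proj (0 : Fin 2) : E2 →L[ℝ] ℝ)

theorem ty_det_apply (V v : E2) : ty_det V v = det2 V v := by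
  simp [ty_det, det2]

variable {M : Type u} [TopologicalSpace M] [ChartedSpace E2 M] [IsManifold (𝓡 2) ∞ M]
  [T2Space M] [CompactSpace M] {f : M → ℝ} {Ω : M → ℂ}

theorem exists_fields (hf : Sm f) {K : Set M} (hK : IsClosed K) (h : ∀ q ∈ K, dd f q ≠ 0) :
    ∃ (n : ℕ) (V : Fin n → M → E2), (∀ a, SmV (V a)) ∧ ∀ q ∈ K, ∃ a, dd f q (V a q) ≠ 0 := by
  have h1 : ∀ q : K, ∃ V : M → E2, SmV V ∧ dd f q (V q) ≠ 0 := by
    rintro ⟨q, hq⟩
    obtain ⟨V, W, hV, hW, hVW⟩ := (isCh_chartAt q).exists_frame (mem_chart_source E2 q)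
    have h0 := hVW.self_of_nhds
    by_contra hc
    push Not at hc
    refine h q hq (ContinuousLinearMap.ext fun v => ?_)
    have hv : v = dd (chartAt E2 q) q v 0 • V q + dd (chartAt E2 q) q v 1 • W q := by
      apply ((isCh_chartAt q).bij (mem_chart_source E2 q)).1
      rw [map_add, map_smul, map_smul, h0.1, h0.2]
      exact vec_eq _
    rw [hv, map_add, map_smul, map_smul, hc V hV, hc W hW]
    simp
  choose V hV hV0 using h1
  obtain ⟨t, ht⟩ := hK.isCompact.elim_finite_subcover (fun q : K => {x | dd f x (V q x) ≠ 0})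
    (fun q => isOpen_ne_fun (hf.zv (hV q)).cont continuous_const)
    fun q hq => mem_iUnion.2 ⟨⟨q, hq⟩, hV0 ⟨q, hq⟩⟩
  refine ⟨t.card, fun i => V (t.equivFin.symm i), fun i => hV _, fun q hq => ?_⟩
  obtain ⟨x, hx, hqx⟩ := mem_iUnion₂.1 (ht hq)
  refine ⟨t.equivFin ⟨x, hx⟩, ?_⟩
  simpa using hqx

theorem exists_Y (hf : Sm f) (hΩ : SmF Ω) {m : ℕ} (K O : Fin m → Set M) (hK : ∀ j, IsClosed (K j))
    (hO : ∀ j, IsOpen (O j)) (hKO : ∀ j, K j ⊆ O j) (hd : ∀ i j, i ≠ j → Disjoint (O i) (O j))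
    (Yl : Fin m → M → E2 →L[ℝ] ℂ) (hYl : ∀ j V, SmV V → Sm fun q => Yl j q (V q))
    (hw : ∀ j, ∀ q ∈ O j, ∀ v w, dd f q w • Yl j q v - dd f q v • Yl j q w = det2 w v • Ω q)
    (hc : ∀ q, dd f q = 0 → ∃ j, q ∈ K j) :
    ∃ Y : M → E2 →L[ℝ] ℂ, (∀ V, SmV V → Sm fun q => Y q (V q)) ∧ (∀ j, ∀ q ∈ K j, Y q = Yl j q) ∧
      ∀ q v w, dd f q w • Y q v - dd f q v • Y q w = det2 w v • Ω q := by
  classical
  choose χ hχ _ hχ1 hχs using fun j => exists_cutoff (hK j) (hO j) (hKO j)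
  let ρ : M → ℝ := fun q => 1 - ∑ j, χ j q
  have hρ : Sm ρ := (sm_const 1).sub' (Sm.sum' _ fun j _ => hχ j)
  have hχ0 : ∀ j q, q ∉ O j → χ j q = 0 := fun j q hq =>
    image_eq_zero_of_notMem_tsupport fun h => hq (hχs j h)
  have hsum : ∀ j q, q ∈ O j → χ j q = 1 → ∀ i, χ i q = if i = j then 1 else 0 := by
    intro j q hq h1 i
    split_ifs with hij
    · rw [hij, h1]
    · exact hχ0 i q fun hi => disjoint_left.1 (hd i j hij) hi hq
  have hρ0 : ∀ j, ∀ q ∈ K j, ρ =ᶠ[𝓝 q] fun _ => 0 := by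
    intro j q hq
    filter_upwards [(hχ1 j).filter_mono (nhds_le_nhdsSet hq), (hO j).mem_nhds (hKO j hq)]
      with x hx hxO
    simp [ρ, hsum j x hxO hx]
  have hts : ∀ q ∈ tsupport ρ, dd f q ≠ 0 := by
    intro q hq h0
    obtain ⟨j, hj⟩ := hc q h0
    exact (notMem_tsupport_iff_eventuallyEq.2 (hρ0 j q hj)) hq
  obtain ⟨n, V, hV, hV0⟩ := exists_fields hf (isClosed_tsupport ρ) hts
  let N : M → ℝ := fun q => ∑ a, dd f q (V a q) * dd f q (V a q)
  have hN : Sm N := Sm.sum' _ fun a _ => (hf.zv (hV a)).mul' (hf.zv (hV a))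
  have hN0 : ∀ q ∈ tsupport ρ, N q ≠ 0 := by
    intro q hq h0
    obtain ⟨a, ha⟩ := hV0 q hq
    rw [Finset.sum_eq_zero_iff_of_nonneg fun a _ => mul_self_nonneg _] at h0
    exact ha (mul_self_eq_zero.1 (h0 a (Finset.mem_univ a)))
  have hq : Sm fun q => ρ q * (N q)⁻¹ := contMDiff_of_tsupport fun q hq => by
    have h1 := hN0 q (tsupport_mul_subset_left hq)
    have h2 : ContMDiffAt (𝓡 2) 𝓘(ℝ, ℝ) ∞ (fun q => (N q)⁻¹) q :=
      (contDiffAt_inv ℝ h1).comp_contMDiffAt (hN q)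
    exact (hρ q).smul h2
  have hρN : ∀ q, ρ q * (N q)⁻¹ * N q = ρ q := by
    intro q
    by_cases h : q ∈ tsupport ρ
    · rw [mul_assoc, inv_mul_cancel₀ (hN0 q h), mul_one]
    · rw [image_eq_zero_of_notMem_tsupport h, zero_mul, zero_mul]
  let Y : M → E2 →L[ℝ] ℂ := fun q => ∑ j, χ j q • Yl j q +
    (ρ q * (N q)⁻¹) • ∑ a, dd f q (V a q) • (ty_det (V a q)).smulRight (Ω q)
  have hY : ∀ q v, Y q v = ∑ j, χ j q • Yl j q v +
      (ρ q * (N q)⁻¹) • ∑ a, dd f q (V a q) • (det2 (V a q) v • Ω q) := by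
    intro q v
    simp [Y, ty_det_apply]
  refine ⟨Y, fun W hW => ?_, fun j q hqK => ?_, fun q v w => ?_⟩
  · simp only [hY]
    exact (Sm.sum' _ fun j _ => (hχ j).smul' (hYl j W hW)).add'
      (hq.smul' (Sm.sum' _ fun a _ => (hf.zv (hV a)).smul' (hΩ.sm (hV a) hW)))
  · have h1 := hsum j q (hKO j hqK) ((hχ1 j).self_of_nhdsSet q hqK)
    have h2 : ρ q = 0 := (hρ0 j q hqK).self_of_nhds
    refine ContinuousLinearMap.ext fun v => ?_
    rw [hY]
    simp [h1, h2]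
  · have h1 : ∀ j, dd f q w • χ j q • Yl j q v - dd f q v • χ j q • Yl j q w =
        χ j q • det2 w v • Ω q := by
      intro j
      by_cases hj : q ∈ O j
      · rw [← hw j q hj v w, smul_sub, smul_comm (dd f q w), smul_comm (dd f q v)]
      · simp [hχ0 j q hj]
    have h2 : ∀ a, dd f q w • dd f q (V a q) • det2 (V a q) v • Ω q -
        dd f q v • dd f q (V a q) • det2 (V a q) w • Ω q =
        (dd f q (V a q) * dd f q (V a q)) • det2 w v • Ω q := by
      intro a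
      have h3 := ty_id (dd f q) (V a q) v w
      simp only [smul_smul, ← sub_smul]
      congr 1
      linear_combination dd f q (V a q) * h3
    have h3 : dd f q w • Y q v - dd f q v • Y q w = ∑ j, χ j q • det2 w v • Ω q +
        (ρ q * (N q)⁻¹) • ∑ a, (dd f q (V a q) * dd f q (V a q)) • det2 w v • Ω q := by
      simp only [hY, ← h1, ← h2, Finset.sum_sub_distrib, ← Finset.smul_sum]
      module
    rw [h3, ← Finset.sum_smul, ← Finset.sum_smul, smul_smul (ρ q * (N q)⁻¹), hρN, ← add_smul]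
    simp [ρ]

end Crest.Agent.R216
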