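import Crest.Agent.R216.PMod
import Crest.Agent.R216.KAlg
/-! # R216: pointwise lemmas for `TData.iso1`, `inj`, `kpt` -/

set_option autoImplicit false
open scoped Manifold ContDiff Topology Matrix
open Set Filter

namespace Crest.Agent.R216

theorem trb_qf_sm (η κ l1 l2 : ℝ) : Sm (qf η κ l1 l2) := by
  refine sm_plane.2 (contDiff_pi.2 fun i => ?_)
  fin_cases i
  · exact contDiff_const
  · exact contDiff_const
  · change ContDiff ℝ ∞ fun z : E2 => η * (l1 * z 0 ^ 2 + κ * (l2 * z 1 ^ 2))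
    fun_prop

theorem trb_dd_qf {Θ : E2 → Fin 3 → ℝ} (hΘ : Sm Θ) (η κ l1 l2 : ℝ) (z v : E2) :
    dd (fun z => Θ z + qf η κ l1 l2 z) z v 0 = dd Θ z v 0 ∧
      dd (fun z => Θ z + qf η κ l1 l2 z) z v 1 = dd Θ z v 1 := by
  have h := (trb_qf_sm η κ l1 l2).df z
  rw [dd_add (hΘ.df z) h, Pi.add_apply, Pi.add_apply, dd_apply h, dd_apply h]
  have e0 : (fun z => qf η κ l1 l2 z 0) = fun _ => 0 := rfl
  have e1 : (fun z => qf η κ l1 l2 z 1) = fun _ => 0 := rfl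
  rw [e0, e1, dd_const]
  simp

theorem trb_dd_zero {Θ : E2 → Fin 3 → ℝ} (hΘ : Sm Θ) {r : ℝ} (hr : 0 < r)
    (h : ∀ z : E2, r / 2 ≤ |z 0| ∨ r / 2 ≤ |z 1| → Θ z 0 = 0 ∧ Θ z 1 = 0) {z : E2}
    (hz : r < |z 0| ∨ r < |z 1|) (v : E2) : dd Θ z v 0 = 0 ∧ dd Θ z v 1 = 0 := by
  have h1 : ∀ᶠ w in 𝓝 z, r / 2 ≤ |w 0| ∨ r / 2 ≤ |w 1| := by
    have hc : ∀ i : Fin 2, ContinuousAt (fun w : E2 => |w i|) z := fun i => by fun_prop
    rcases hz with hz | hz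
    · filter_upwards [continuousAt_const.eventually_lt (hc 0) hz] with w hw
      exact .inl (by linarith)
    · filter_upwards [continuousAt_const.eventually_lt (hc 1) hz] with w hw
      exact .inr (by linarith)
  rw [dd_apply (hΘ.df z), dd_apply (hΘ.df z),
    dd_congr (g := fun _ => (0 : ℝ)) (h1.mono fun w hw => (h w hw).1),
    dd_congr (g := fun _ => (0 : ℝ)) (h1.mono fun w hw => (h w hw).2), dd_const]
  simp

section
variable {g : E2 →L[ℝ] E2 →L[ℝ] ℝ} {w0 w1 l : E2 → ℝ}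

theorem trb_riesz (hs : ∀ v w, g v w = g w v) (hp : ∀ v, v ≠ 0 → 0 < g v v) (l : E2 →L[ℝ] ℝ)
    {B t : ℝ} (ht : 0 ≤ t) (h0 : ∀ v, w0 v = 0) (h1 : ∀ v, w1 v = 0)
    (h2 : ∀ v, l v ^ 2 ≤ B ^ 2 * g v v) (h3 : ∃ v, g v v ≤ 1 ∧ B⁻¹ ≤ l v) : KPt g w0 w1 l B t := by
  have hg0 : ∀ v, 0 ≤ g v v := fun v => by
    by_cases hv : v = 0
    · simp [hv]
    · exact (hp v hv).le
  have hd : Module.finrank ℝ E2 = Module.finrank ℝ (E2 →L[ℝ] ℝ) := by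
    rw [← (LinearMap.toContinuousLinearMap (𝕜 := ℝ) (E := E2) (F' := ℝ)).finrank_eq]
    exact Subspace.dual_finrank_eq.symm
  have hi : Function.Injective (g : E2 →ₗ[ℝ] (E2 →L[ℝ] ℝ)) :=
    (injective_iff_map_eq_zero _).2 fun v hv => by
      by_contra h
      have h4 := hp v h
      have h5 : g v = 0 := hv
      rw [h5] at h4
      exact lt_irrefl _ h4
  obtain ⟨τ, hτ⟩ := (LinearMap.injective_iff_surjective_of_finrank_eq_finrank hd).1 hi l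
  have hτ' : g τ = l := hτ
  refine ⟨h2, h3, g.toLinearMap₁₂, τ, hs, hg0, ?_, fun v => ?_, fun v => ?_⟩
  · have h4 := h2 τ
    rw [← hτ'] at h4
    rcases (hg0 τ).eq_or_lt with h5 | h5
    · rw [← h5]; positivity
    · exact le_of_mul_le_mul_right (by nlinarith) h5
  · change (g τ v - l v) ^ 2 ≤ _
    rw [hτ', sub_self]
    simpa using mul_nonneg ht (hg0 v)
  · change |g v v - _ - g v v| ≤ _
    rw [h0, h1]
    simpa using mul_nonneg ht (hg0 v)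

variable {x y : E2 →L[ℝ] ℝ}

theorem trb_l {B B' p q : ℝ} (hB : 0 < B) (hB' : 2 * B ≤ B')
    (hsurj : ∀ a b : ℝ, ∃ v, x v = a ∧ y v = b)
    (hf : ∀ v, |g v v - (x v ^ 2 + y v ^ 2)| ≤ 1 / 100 * (x v ^ 2 + y v ^ 2))
    (hl : ∀ v, l v = x v * p + y v * q) (hup : |p| ≤ B ∧ |q| ≤ B) (hlow : B⁻¹ ≤ |p| ∨ B⁻¹ ≤ |q|) :
    (∀ v, l v ^ 2 ≤ B' ^ 2 * g v v) ∧ ∃ v, g v v ≤ 1 ∧ B'⁻¹ ≤ l v := by
  constructor
  · intro v
    have h1 := (abs_le.1 (hf v)).1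
    have h2 : p ^ 2 ≤ B ^ 2 := sq_le_sq' (abs_le.1 hup.1).1 (abs_le.1 hup.1).2
    have h3 : q ^ 2 ≤ B ^ 2 := sq_le_sq' (abs_le.1 hup.2).1 (abs_le.1 hup.2).2
    have h4 : (2 * B) ^ 2 ≤ B' ^ 2 := pow_le_pow_left₀ (by positivity) hB' 2
    have hS : 0 ≤ x v ^ 2 + y v ^ 2 := by positivity
    have h5 : l v ^ 2 ≤ (p ^ 2 + q ^ 2) * (x v ^ 2 + y v ^ 2) := by
      rw [hl]; nlinarith [sq_nonneg (x v * q - y v * p)]
    have h6 : (p ^ 2 + q ^ 2) * (x v ^ 2 + y v ^ 2) ≤ (2 * B ^ 2) * (2 * g v v) :=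
      mul_le_mul (by linarith) (by linarith) hS (by positivity)
    have h7 := mul_le_mul_of_nonneg_right h4 (show 0 ≤ g v v by linarith)
    linarith
  · have h1 : B'⁻¹ ≤ B⁻¹ / 2 := by
      rw [div_eq_mul_inv, ← mul_inv_rev]
      exact inv_anti₀ (by positivity) hB'
    have key : ∀ p : ℝ, ∃ c : ℝ, c ^ 2 = 1 / 4 ∧ c * p = |p| / 2 := fun p => by
      rcases abs_cases p with h | h
      · exact ⟨1 / 2, by norm_num, by rw [h.1]; ring⟩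
      · exact ⟨-1 / 2, by norm_num, by rw [h.1]; ring⟩
    rcases hlow with h | h
    · obtain ⟨c, hc, hc'⟩ := key p
      obtain ⟨v, hx, hy⟩ := hsurj c 0
      have h2 := (abs_le.1 (hf v)).2
      rw [hx, hy, hc] at h2
      exact ⟨v, by linarith, by rw [hl, hx, hy, hc']; linarith⟩
    · obtain ⟨c, hc, hc'⟩ := key q
      obtain ⟨v, hx, hy⟩ := hsurj 0 c
      have h2 := (abs_le.1 (hf v)).2
      rw [hx, hy, hc] at h2
      exact ⟨v, by linarith, by rw [hl, hx, hy, hc']; linarith⟩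

theorem trb_pk {B B' t : ℝ} {P Q : Fin 3 → ℝ} (hB : 0 < B) (hB' : 2 * B ≤ B') (ht : 0 < t)
    (ht1 : t ≤ 1 / 100) (hsurj : ∀ a b : ℝ, ∃ v, x v = a ∧ y v = b)
    (hf : ∀ v, |g v v - (x v ^ 2 + y v ^ 2)| ≤ t * (x v ^ 2 + y v ^ 2))
    (h0 : ∀ v, w0 v = x v * P 0 + y v * Q 0) (h1 : ∀ v, w1 v = x v * P 1 + y v * Q 1)
    (hl : ∀ v, l v = x v * P 2 + y v * Q 2) (h : PKPt P Q B t) :
    ∃ (γ : E2 →ₗ[ℝ] E2 →ₗ[ℝ] ℝ) (τ : E2), (∀ v w, γ v w = γ w v) ∧ (∀ v, 0 ≤ γ v v) ∧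
      g τ τ ≤ B' ^ 2 ∧ (∀ v, (γ τ v - l v) ^ 2 ≤ 3 * t * g v v) ∧
      ∀ v, |g v v - (w0 v ^ 2 + w1 v ^ 2) - γ v v| ≤ 3 * t * g v v := by
  obtain ⟨g00, g01, g11, τ0, τ1, k1, k2, k3, k4, k5⟩ := h
  obtain ⟨τ, hx, hy⟩ := hsurj τ0 τ1
  have hS : ∀ v, 2 * (t * (x v ^ 2 + y v ^ 2)) ≤ 3 * t * g v v := fun v => by
    have h2 := (abs_le.1 (hf v)).1
    have h3 : 0 ≤ x v ^ 2 + y v ^ 2 := by positivity
    have h4 : 2 * (x v ^ 2 + y v ^ 2) ≤ 3 * g v v := by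
      nlinarith [mul_le_mul_of_nonneg_right ht1 h3]
    nlinarith [mul_le_mul_of_nonneg_left h4 ht.le]
  refine ⟨LinearMap.mk₂ ℝ (fun v w => g00 * x v * x w + g01 * (x v * y w + y v * x w) + g11 * y v * y w)
    (fun a b c => by simp only [map_add]; ring) (fun a b c => by simp only [map_smul, smul_eq_mul]; ring)
    (fun a b c => by simp only [map_add]; ring) (fun a b c => by simp only [map_smul, smul_eq_mul]; ring),
    τ, fun v w => ?_, fun v => ?_, ?_, fun v => ?_, fun v => ?_⟩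
  · simp only [LinearMap.mk₂_apply]; ring
  · simp only [LinearMap.mk₂_apply]; linarith [k1 (x v) (y v)]
  · have h2 := (abs_le.1 (hf τ)).2
    rw [hx, hy] at h2
    have h4 : (2 * B) ^ 2 ≤ B' ^ 2 := pow_le_pow_left₀ (by positivity) hB' 2
    have h3 : 0 ≤ τ0 ^ 2 + τ1 ^ 2 := by positivity
    nlinarith [mul_le_mul_of_nonneg_right ht1 h3]
  · simp only [LinearMap.mk₂_apply, hx, hy, hl]
    set p := g00 * τ0 + g01 * τ1 - P 2 with hp
    set q := g01 * τ0 + g11 * τ1 - Q 2 with hq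
    have e : g00 * τ0 * x v + g01 * (τ0 * y v + τ1 * x v) + g11 * τ1 * y v - (x v * P 2 + y v * Q 2) =
        x v * p + y v * q := by rw [hp, hq]; ring
    have h2 : p ^ 2 ≤ t ^ 2 := sq_le_sq' (abs_le.1 k3).1 (abs_le.1 k3).2
    have h3 : q ^ 2 ≤ t ^ 2 := sq_le_sq' (abs_le.1 k4).1 (abs_le.1 k4).2
    have h4 : p ^ 2 + q ^ 2 ≤ 2 * t := by nlinarith
    have h5 := mul_le_mul_of_nonneg_right h4 (show 0 ≤ x v ^ 2 + y v ^ 2 by positivity)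
    rw [e]
    nlinarith [sq_nonneg (x v * q - y v * p), hS v]
  · simp only [LinearMap.mk₂_apply, h0, h1]
    obtain ⟨h2, h3⟩ := abs_le.1 (hf v)
    obtain ⟨h4, h5⟩ := abs_le.1 (k5 (x v) (y v))
    have h6 := hS v
    exact abs_le.2 ⟨by linarith, by linarith⟩

end

end Crest.Agent.R216
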