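import Crest.Agent.R216.PMod
import Crest.Agent.R216.Kuiper
import Crest.Agent.R216.TransAuxB
/-! # R216: transplanting the plane models to the surface -/

set_option autoImplicit false
open scoped Manifold ContDiff Topology Matrix
open Set Filter

namespace Crest.Agent.R216
universe u
variable {M : Type u} [TopologicalSpace M] [ChartedSpace E2 M] [IsManifold (𝓡 2) ∞ M]

namespace Crit
variable {g : Met M} (T : Crit g)
variable {F : Type} [NormedAddCommGroup F] [NormedSpace ℝ F]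

/-- the coordinates at the `j`-th critical point -/
noncomputable def z (j : Fin T.m) (q : M) : E2 := !₂[T.x j q, T.y j q]

/-- a function of the coordinates, extended by zero -/
noncomputable def lift (j : Fin T.m) (Θ : E2 → F) : M → F :=
  (T.B j).indicator fun q => Θ (T.z j q)

theorem z_sm (j : Fin T.m) : Sm (T.z j) := by
  have h : Sm fun q => (![T.x j q, T.y j q] : Fin 2 → ℝ) := sm_pi.2 fun i => by
    fin_cases i
    · exact T.x_sm j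
    · exact T.y_sm j
  exact h.clm (EuclideanSpace.equiv (Fin 2) ℝ).symm.toContinuousLinearMap
theorem dd_z (j : Fin T.m) (q : M) (v : E2) :
    dd (T.z j) q v = !₂[dd (T.x j) q v, dd (T.y j) q v] := by
  ext i
  have h := dd_clm (EuclideanSpace.proj (𝕜 := ℝ) i : E2 →L[ℝ] ℝ) ((T.z_sm j).df q) v
  fin_cases i
  · exact h.symm
  · exact h.symm
theorem inj {j : Fin T.m} {q : M} (hq : q ∈ T.B j) {v : E2} (hx : dd (T.x j) q v = 0)
    (hy : dd (T.y j) q v = 0) : v = 0 := by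
  have hs : Function.Surjective (dd (T.z j) q : E2 →ₗ[ℝ] E2) := fun w => by
    obtain ⟨v, h0, h1⟩ := T.surj j q hq (w 0) (w 1)
    refine ⟨v, ?_⟩
    change dd (T.z j) q v = w
    rw [dd_z, h0, h1]
    ext i
    fin_cases i <;> rfl
  refine LinearMap.injective_iff_surjective.2 hs ?_
  change dd (T.z j) q v = dd (T.z j) q 0
  rw [map_zero, dd_z, hx, hy]
  ext i
  fin_cases i <;> rfl
theorem lift_germ {j : Fin T.m} {q : M} (hq : q ∈ T.B j) (Θ : E2 → F) :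
    T.lift j Θ =ᶠ[𝓝 q] fun q => Θ (T.z j q) := by
  filter_upwards [(T.B_open j).mem_nhds hq] with p hp using indicator_of_mem hp _
theorem trnsa_box (j : Fin T.m) {r r' : ℝ} (hr : r < T.R) (hr' : r' < T.R) :
    IsClosed {q | q ∈ T.B j ∧ |T.x j q| ≤ r ∧ |T.y j q| ≤ r'} := by
  have h := ((T.box_closed j _ (max_lt hr hr')).inter
    (isClosed_le (T.x_sm j).cont.abs (continuous_const (y := r)))).inter
    (isClosed_le (T.y_sm j).cont.abs (continuous_const (y := r')))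
  convert h using 1
  ext q
  exact ⟨fun ⟨h1, h2, h3⟩ => ⟨⟨⟨h1, le_max_of_le_left h2, le_max_of_le_right h3⟩, h2⟩, h3⟩,
    fun ⟨⟨⟨h1, _⟩, h2⟩, h3⟩ => ⟨h1, h2, h3⟩⟩
theorem trnsa_zero {j : Fin T.m} {Θ : E2 → F} {r r' : ℝ}
    (h : ∀ z : E2, r ≤ |z 0| ∨ r' ≤ |z 1| → Θ z = 0) {q : M}
    (hq : ¬(q ∈ T.B j ∧ |T.x j q| ≤ r ∧ |T.y j q| ≤ r')) : T.lift j Θ q = 0 := by
  by_cases hB : q ∈ T.B j
  · refine (indicator_of_mem hB _).trans (h _ ?_)
    by_contra hc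
    rw [not_or, not_le, not_le] at hc
    exact hq ⟨hB, hc.1.le, hc.2.le⟩
  · exact indicator_of_notMem hB _
theorem lift_germ_zero {j : Fin T.m} {Θ : E2 → F} {r r' : ℝ} (hr : r < T.R) (hr' : r' < T.R)
    (h : ∀ z : E2, r ≤ |z 0| ∨ r' ≤ |z 1| → Θ z = 0) {q : M}
    (hq : ¬(q ∈ T.B j ∧ |T.x j q| ≤ r ∧ |T.y j q| ≤ r')) : T.lift j Θ =ᶠ[𝓝 q] fun _ => 0 := by
  filter_upwards [(T.trnsa_box j hr hr').isOpen_compl.mem_nhds hq] with p hp
    using T.trnsa_zero h hp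
theorem box_closed' (j : Fin T.m) {r r' : ℝ} (hr : r < T.R) (hr' : r' < T.R) :
    IsClosed {q | q ∈ T.B j ∧ |T.x j q| ≤ r ∧ |T.y j q| ≤ r'} := T.trnsa_box j hr hr'
theorem lift_sm {j : Fin T.m} {Θ : E2 → F} (hΘ : Sm Θ) {r : ℝ} (hr : r < T.R)
    (h : ∀ z : E2, r ≤ |z 0| ∨ r ≤ |z 1| → Θ z = 0) : Sm (T.lift j Θ) :=
  sm_of_closed (U := T.B j) (T.box_closed j r hr) (fun _ hq => hq.1)
    (fun _ hq => ⟨_, (T.z_sm j).comp' (sm_plane.1 hΘ), T.lift_germ hq Θ⟩)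
    fun _ hq => T.trnsa_zero h hq
theorem trnsa_sum {Θ : Fin T.m → E2 → F} {j : Fin T.m} {q : M} (hq : q ∈ T.B j) :
    ∑ i, T.lift i (Θ i) q = Θ j (T.z j q) := by
  rw [Finset.sum_eq_single j (fun i _ hi => ?_) (fun h => absurd (Finset.mem_univ j) h)]
  · exact indicator_of_mem hq _
  · exact indicator_of_notMem (fun h => Set.disjoint_left.1 (T.B_disj i j hi) h hq) _
/-- on `B j` a sum of lifts (all supported in closed boxes) is the `j`-th function -/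
theorem sum_lift_germ {Θ : Fin T.m → E2 → F} {j : Fin T.m} {q : M} (hq : q ∈ T.B j) :
    (fun q => ∑ i, T.lift i (Θ i) q) =ᶠ[𝓝 q] fun q => Θ j (T.z j q) := by
  filter_upwards [(T.B_open j).mem_nhds hq] with p hp using T.trnsa_sum hp
theorem dd_comp_z {Θ : E2 → F} (hΘ : Sm Θ) (j : Fin T.m) (q : M) (v : E2) :
    dd (fun q => Θ (T.z j q)) q v =
      dd (T.x j) q v • pX Θ (T.z j q) + dd (T.y j) q v • pY Θ (T.z j q) := by
  rw [dd_pull ((sm_plane.1 hΘ).differentiable (by simp) _) ((T.z_sm j).df q), Fin.sum_univ_two,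
    dd_z]
  rfl
end Crit

/-- `sc a` as a continuous linear map -/
noncomputable def trc_scL (a : ℝ) : (Fin 3 → ℝ) →L[ℝ] (Fin 3 → ℝ) :=
  ContinuousLinearMap.pi fun i => (![1, 1, a] i : ℝ) • ContinuousLinearMap.proj i

theorem trc_scL_apply (a : ℝ) (v : Fin 3 → ℝ) : trc_scL a v = sc a v := by
  funext i
  fin_cases i <;> simp [trc_scL, sc]

theorem trc_qf_sm (η κ l1 l2 : ℝ) : Sm (qf η κ l1 l2) := by
  rw [sm_plane]
  unfold qf
  refine contDiff_pi.2 fun i => ?_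
  fin_cases i
  · exact contDiff_const
  · exact contDiff_const
  · show ContDiff ℝ ∞ fun z : E2 => η * (l1 * z 0 ^ 2 + κ * (l2 * z 1 ^ 2))
    fun_prop

omit [IsManifold (𝓡 2) ∞ M] in
theorem trc_Jf (G : M → Fin 3 → ℝ) (a : ℝ) (q : M) (v : E2) :
    Jf G (fun _ => a) 0 q v = trc_scL a (dd G q v) := by
  rw [trc_scL_apply]
  simp [Jf, sc]

/-- first derivatives of a transplanted function -/
theorem trc_dd {g : Met M} (T : Crit g) {j : Fin T.m} {Ψ : E2 → Fin 3 → ℝ} (hΨ : Sm Ψ)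
    {c : Fin 3 → ℝ} {G : M → Fin 3 → ℝ} {q : M} (h : G =ᶠ[𝓝 q] fun q => Ψ (T.z j q) + c)
    (v : E2) : dd G q v =
      dd (T.x j) q v • pX Ψ (T.z j q) + dd (T.y j) q v • pY Ψ (T.z j q) := by
  rw [dd_congr h, dd_add ((Sm.comp' (sm_plane.1 hΨ) (T.z_sm j)).df q) ((sm_const c).df q),
    dd_const, T.dd_comp_z hΨ]
  simp

theorem trc_J {g : Met M} (T : Crit g) {j : Fin T.m} {Ψ : E2 → Fin 3 → ℝ} (hΨ : Sm Ψ)
    {c : Fin 3 → ℝ} {G : M → Fin 3 → ℝ} {q : M} (h : G =ᶠ[𝓝 q] fun q => Ψ (T.z j q) + c)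
    (a : ℝ) (v : E2) : Jf G (fun _ => a) 0 q v =
      dd (T.x j) q v • sc a (pX Ψ (T.z j q)) + dd (T.y j) q v • sc a (pY Ψ (T.z j q)) := by
  rw [trc_Jf, trc_dd T hΨ h, map_add, map_smul, map_smul, trc_scL_apply, trc_scL_apply]

/-- second derivatives of a transplanted function -/
theorem trc_ZJ {g : Met M} (T : Crit g) {j : Fin T.m} {Ψ : E2 → Fin 3 → ℝ} (hΨ : Sm Ψ)
    {c : Fin 3 → ℝ} {G : M → Fin 3 → ℝ} {q : M} (h : G =ᶠ[𝓝 q] fun q => Ψ (T.z j q) + c)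
    (a : ℝ) {V : M → E2} (hV : SmV V) :
    Zv V (fun q => Jf G (fun _ => a) 0 q (V q)) q =
      (Zv V (T.x j) q • (Zv V (T.x j) q • sc a (pX (pX Ψ) (T.z j q)) +
          Zv V (T.y j) q • sc a (pY (pX Ψ) (T.z j q))) +
        Zv V (Zv V (T.x j)) q • sc a (pX Ψ (T.z j q))) +
      (Zv V (T.y j) q • (Zv V (T.x j) q • sc a (pX (pY Ψ) (T.z j q)) +
          Zv V (T.y j) q • sc a (pY (pY Ψ) (T.z j q))) +
        Zv V (Zv V (T.y j)) q • sc a (pY Ψ (T.z j q))) := by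
  have hX : Sm (pX Ψ) := Sm.zv (smV_V0 0) hΨ
  have hY : Sm (pY Ψ) := Sm.zv (smV_V0 1) hΨ
  have hXz : Sm fun q => pX Ψ (T.z j q) := Sm.comp' (sm_plane.1 hX) (T.z_sm j)
  have hYz : Sm fun q => pY Ψ (T.z j q) := Sm.comp' (sm_plane.1 hY) (T.z_sm j)
  have hx : Sm (Zv V (T.x j)) := Sm.zv hV (T.x_sm j)
  have hy : Sm (Zv V (T.y j)) := Sm.zv hV (T.y_sm j)
  have e : (fun q => Jf G (fun _ => a) 0 q (V q)) =ᶠ[𝓝 q] fun q =>
      Zv V (T.x j) q • trc_scL a (pX Ψ (T.z j q)) +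
        Zv V (T.y j) q • trc_scL a (pY Ψ (T.z j q)) := by
    filter_upwards [h.eventually_nhds] with q' hq'
    rw [trc_J T hΨ hq', trc_scL_apply, trc_scL_apply]
    rfl
  have e1 : dd (fun q => trc_scL a (pX Ψ (T.z j q))) q (V q) =
      Zv V (T.x j) q • sc a (pX (pX Ψ) (T.z j q)) +
        Zv V (T.y j) q • sc a (pY (pX Ψ) (T.z j q)) := by
    rw [dd_clm _ (hXz.df q), T.dd_comp_z hX, map_add, map_smul, map_smul, trc_scL_apply,
      trc_scL_apply]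
    rfl
  have e2 : dd (fun q => trc_scL a (pY Ψ (T.z j q))) q (V q) =
      Zv V (T.x j) q • sc a (pX (pY Ψ) (T.z j q)) +
        Zv V (T.y j) q • sc a (pY (pY Ψ) (T.z j q)) := by
    rw [dd_clm _ (hYz.df q), T.dd_comp_z hY, map_add, map_smul, map_smul, trc_scL_apply,
      trc_scL_apply]
    rfl
  show dd (fun q => Jf G (fun _ => a) 0 q (V q)) q (V q) = _
  rw [dd_congr e, dd_add ((hx.smul' (hXz.clm _)).df q) ((hy.smul' (hYz.clm _)).df q),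
    dd_smul (hx.df q) ((hXz.clm _).df q), dd_smul (hy.df q) ((hYz.clm _).df q), e1, e2,
    trc_scL_apply, trc_scL_apply]
  rfl

theorem trc_bound {α : Type} [Finite α] (c : α → ℝ) : ∃ C, 0 ≤ C ∧ ∀ a, c a ≤ C := by
  obtain ⟨C, hC⟩ := Finite.exists_le c
  exact ⟨max C 0, le_max_right _ _, fun a => (hC a).trans (le_max_left _ _)⟩

/-- arithmetic of the curvature estimate -/
theorem trc_arith {α β p q XX YX XY YY X Y B t ε C : ℝ} (hB : 1 ≤ B) (ht : 0 < t) (hε : 0 < ε)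
    (hBt : 1000 * B * t ≤ 1) (hC : C * ε ≤ 1) (hα : 1 / 4 ≤ |α|) (hα2 : |α| ≤ 2) (hβ : |β| ≤ 2)
    (hp : |p| ≤ C) (hq : |q| ≤ C) (hX : |X| ≤ t) (hY : |Y| ≤ t) (hXX : B⁻¹ / ε ≤ |XX|)
    (hXY : |XY| ≤ t / ε) (hYX : |YX| ≤ t / ε) (hYY : |YY| ≤ t / ε) :
    (100 * B)⁻¹ / ε ≤ |(α * (α * XX + β * YX) + p * X) + (β * (α * XY + β * YY) + q * Y)| := by
  have hB0 : 0 < B := by linarith
  have hs : 0 ≤ t / ε := by positivity
  have hC0 : 0 ≤ C := (abs_nonneg _).trans hp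
  have h1 : 1 / 16 * (B⁻¹ / ε) ≤ |α * α * XX| := by
    rw [abs_mul, abs_mul]
    have : 1 / 16 ≤ |α| * |α| := by nlinarith
    exact mul_le_mul this hXX (by positivity) (by positivity)
  have h4 : ∀ a b w : ℝ, |a| ≤ 2 → |b| ≤ 2 → |w| ≤ t / ε → |a * b * w| ≤ 4 * (t / ε) := by
    intro a b w ha hb hw
    rw [abs_mul, abs_mul]
    have : |a| * |b| ≤ 4 := by nlinarith [abs_nonneg a, abs_nonneg b]
    exact mul_le_mul this hw (abs_nonneg _) (by norm_num)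
  have h5 : ∀ a w : ℝ, |a| ≤ C → |w| ≤ t → |a * w| ≤ t / ε := by
    intro a w ha hw
    rw [abs_mul, le_div_iff₀ hε]
    have : |a| * |w| ≤ C * t := mul_le_mul ha hw (abs_nonneg _) hC0
    nlinarith
  have a1 := h4 α β YX hα2 hβ hYX
  have a2 := h4 β α XY hβ hα2 hXY
  have a3 := h4 β β YY hβ hβ hYY
  have a4 := h5 p X hp hX
  have a5 := h5 q Y hq hY
  have hts : t / ε ≤ 1 / 1000 * (B⁻¹ / ε) := by
    rw [← mul_div_assoc]
    refine div_le_div_of_nonneg_right ?_ hε.le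
    rw [← div_eq_mul_inv, le_div_iff₀ hB0]
    linarith
  have e : (100 * B)⁻¹ / ε = 1 / 100 * (B⁻¹ / ε) := by
    field_simp
  have hP : 0 ≤ B⁻¹ / ε := by positivity
  rw [e]
  have key : α * α * XX = ((α * (α * XX + β * YX) + p * X) + (β * (α * XY + β * YY) + q * Y)) -
      (α * β * YX + β * α * XY + β * β * YY + p * X + q * Y) := by ring
  have k2 : |α * β * YX + β * α * XY + β * β * YY + p * X + q * Y| ≤ 14 * (t / ε) := by
    rw [abs_le] at *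
    constructor <;> linarith [a1.1, a1.2, a2.1, a2.2, a3.1, a3.2, a4.1, a4.2, a5.1, a5.2]
  have k3 := abs_sub ((α * (α * XX + β * YX) + p * X) + (β * (α * XY + β * YY) + q * Y))
    (α * β * YX + β * α * XY + β * β * YY + p * X + q * Y)
  rw [← key] at k3
  linarith

/-- lower bound for the second fundamental form of the twisted map, at a point of the chart `i` -/
def Calc.IIM {g : Met M} (C : Calc g) (Φ : M → Fin 3 → ℝ) (a : M → ℝ) (B t ε : ℝ) (i : Fin C.n)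
    (q : M) : Prop :=
  (∃ v, g.g q v v ≤ 1 ∧ B⁻¹ ≤ |dd Φ q v 2|) ∨
    ∃ (m : Fin 3 → ℝ) (u : Fin 2), m ⬝ᵥ m ≤ 1 ∧ (∀ v, |m ⬝ᵥ Jf Φ a 0 q (C.V (i, v) q)| ≤ t) ∧
      B⁻¹ / ε ≤ |m ⬝ᵥ C.Z (i, u) (fun q => Jf Φ a 0 q (C.V (i, u) q)) q|

/-- the data glued from plane models -/
structure TData {g : Met M} (T : Crit g) where
  R0 : ℝ
  k : ℝ
  η' : ℝ
  a : Fin T.m → ℝ
  b : Fin T.m → ℝ
  Θ : Fin T.m → E2 → Fin 3 → ℝ
  Δ : Fin T.m → ℝ → E2 → Fin 3 → ℝ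

namespace TData
variable {g : Met M} {T : Crit g} (D : TData T)

noncomputable def Φ (q : M) : Fin 3 → ℝ := ![0, 0, T.u q] + ∑ j, T.lift j (D.Θ j) q
noncomputable def Del (ε : ℝ) (q : M) : Fin 3 → ℝ := ∑ j, T.lift j (D.Δ j ε) q
noncomputable def Y (q : M) : E2 →L[ℝ] (Fin 2 → ℝ) := D.η' • T.Y q
def Q0 : Set M := ⋃ j, {q | q ∈ T.B j ∧ |T.x j q| ≤ D.a j / 2 ∧ |T.y j q| ≤ 7 * D.b j / 2}
def Q1 : Set M := ⋃ j, {q | q ∈ T.B j ∧ |T.x j q| < D.a j ∧ |T.y j q| < 4 * D.b j}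

/-- the hypotheses on the glued data: the metric is `1/100`-flat on the boxes `3 R0`, `t`-flat on
the boxes `r` -/
structure Good (B CK : ℝ) (K : ℕ) (t r : ℝ) : Prop where
  R0_pos : 0 < D.R0
  R0_lt : 3 * D.R0 < T.R
  k_pos : 0 < D.k
  η_pos : 0 < D.η'
  r_le : r ≤ D.R0
  t_pos : 0 < t
  t_le : t ≤ 1 / 100
  B_ge : 1 ≤ B
  flat0 : ∀ j, ∀ q ∈ T.B j, |T.x j q| ≤ 3 * D.R0 → |T.y j q| ≤ 3 * D.R0 → ∀ v,
    |g.g q v v - (dd (T.x j) q v ^ 2 + dd (T.y j) q v ^ 2)| ≤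
      1 / 100 * (dd (T.x j) q v ^ 2 + dd (T.y j) q v ^ 2)
  flat : ∀ j, ∀ q ∈ T.B j, |T.x j q| ≤ r → |T.y j q| ≤ r → ∀ v,
    |g.g q v v - (dd (T.x j) q v ^ 2 + dd (T.y j) q v ^ 2)| ≤
      t * (dd (T.x j) q v ^ 2 + dd (T.y j) q v ^ 2)
  pm : ∀ j, PModP (T.η j) (T.κ j) (T.ε j) (T.l1 j) (T.l2 j) (T.y1 j) (T.y2 j) D.R0 D.k B CK K t r
    D.η' (D.a j) (D.b j) (D.Θ j) (D.Δ j)

variable {D} {B CK : ℝ} {K : ℕ} {t r : ℝ} (H : D.Good B CK K t r)
include H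

theorem Φ_sm : Sm D.Φ := by
  have h : Sm fun q => (![0, 0, T.u q] : Fin 3 → ℝ) := sm_pi.2 fun i => by
    fin_cases i
    · exact sm_const 0
    · exact sm_const 0
    · exact T.u_sm
  exact h.add' (Sm.sum' _ fun j _ => T.lift_sm (H.pm j).sm (r := 2 * D.R0)
    (by linarith [H.R0_lt, H.R0_pos]) (H.pm j).supp)
theorem Q0_closed : IsClosed D.Q0 :=
  isClosed_iUnion_of_finite fun j => T.box_closed' j
    (by linarith [H.R0_lt, H.R0_pos, H.r_le, (H.pm j).a_pos, (H.pm j).a_le])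
    (by linarith [H.R0_lt, H.R0_pos, H.r_le, (H.pm j).b_pos, (H.pm j).b_le])
theorem Q1_open : IsOpen D.Q1 := by
  have _ := H
  exact isOpen_iUnion fun j => (T.B_open j).inter
    ((isOpen_lt (T.x_sm j).cont.abs continuous_const).inter
      (isOpen_lt (T.y_sm j).cont.abs continuous_const))
theorem Q0_sub : D.Q0 ⊆ D.Q1 :=
  iUnion_mono fun j _ hq => ⟨hq.1, by linarith [hq.2.1, (H.pm j).a_pos],
    by linarith [hq.2.2, (H.pm j).b_pos]⟩
theorem W_bd (q : M) : |D.Φ q 0| ≤ 1 ∧ |D.Φ q 1| ≤ 1 := by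
  by_cases h : ∃ j, q ∈ T.B j
  · obtain ⟨j, hj⟩ := h
    rw [Φ, T.trnsa_sum hj]
    simpa using (H.pm j).bdW (T.z j q)
  · have h0 : ∑ j, T.lift j (D.Θ j) q = 0 :=
      Finset.sum_eq_zero fun j _ => indicator_of_notMem (fun hj => h ⟨j, hj⟩) _
    rw [Φ, h0]
    simp
/-- on `B j`: `Φ = Θ j ∘ z + qf ∘ z + (0,0,c j)` near the point -/
theorem Φ_germ {j : Fin T.m} {q : M} (hq : q ∈ T.B j) : D.Φ =ᶠ[𝓝 q] fun q =>
    (D.Θ j (T.z j q) + qf (T.η j) (T.κ j) (T.l1 j) (T.l2 j) (T.z j q)) + ![0, 0, T.c j] := by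
  have _ := H
  filter_upwards [(T.B_open j).mem_nhds hq] with p hp
  rw [Φ, T.trnsa_sum hp, T.nf j p hp]
  ext i
  rw [Pi.add_apply, Pi.add_apply, Pi.add_apply]
  fin_cases i
  · simp [qf]
  · simp [qf]
  · simp [qf, Crit.z]
    ring
/-- outside the closed boxes `2 R0`: `Φ = (0,0,u)` near the point -/
theorem Φ_germ_out {q : M} (hq : ∀ j, ¬(q ∈ T.B j ∧ |T.x j q| ≤ 2 * D.R0 ∧ |T.y j q| ≤ 2 * D.R0)) :
    D.Φ =ᶠ[𝓝 q] fun q => ![0, 0, T.u q] := by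
  have hR : 2 * D.R0 < T.R := by linarith [H.R0_lt, H.R0_pos]
  filter_upwards [eventually_all.2 fun j => T.lift_germ_zero hR hR (H.pm j).supp (hq j)] with p hp
  rw [Φ, Finset.sum_eq_zero fun j _ => hp j, add_zero]

theorem trb_dd {j : Fin T.m} {q : M} (hq : q ∈ T.B j) (v : E2) (c : Fin 3) : dd D.Φ q v c =
    dd (T.x j) q v * pX (fun z => D.Θ j z + qf (T.η j) (T.κ j) (T.l1 j) (T.l2 j) z) (T.z j q) c +
    dd (T.y j) q v * pY (fun z => D.Θ j z + qf (T.η j) (T.κ j) (T.l1 j) (T.l2 j) z) (T.z j q) c := by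
  have h1 : Sm fun z => D.Θ j z + qf (T.η j) (T.κ j) (T.l1 j) (T.l2 j) z :=
    (H.pm j).sm.add' (trb_qf_sm _ _ _ _)
  have h2 : Sm fun q => D.Θ j (T.z j q) + qf (T.η j) (T.κ j) (T.l1 j) (T.l2 j) (T.z j q) :=
    (T.z_sm j).comp' (sm_plane.1 h1)
  rw [dd_congr (Φ_germ H hq), dd_add (h2.df q) ((sm_const _).df q), dd_const, T.dd_comp_z h1]
  simp

theorem trb_dd_out {q : M}
    (hq : ∀ j, ¬(q ∈ T.B j ∧ |T.x j q| ≤ 3 * D.R0 ∧ |T.y j q| ≤ 3 * D.R0)) (v : E2) :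
    dd D.Φ q v 0 = 0 ∧ dd D.Φ q v 1 = 0 ∧ dd D.Φ q v 2 = dd T.u q v := by
  have h0 := H.R0_pos
  have h1 : Sm fun q => (![0, 0, T.u q] : Fin 3 → ℝ) := sm_pi.2 fun i => by
    fin_cases i
    · exact sm_const 0
    · exact sm_const 0
    · exact T.u_sm
  rw [dd_congr (Φ_germ_out H fun j h => hq j ⟨h.1, by linarith [h.2.1], by linarith [h.2.2]⟩),
    dd_apply (h1.df q), dd_apply (h1.df q), dd_apply (h1.df q)]
  refine ⟨?_, ?_, rfl⟩
  · change dd (fun _ : M => (0 : ℝ)) q v = 0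
    rw [dd_const]; rfl
  · change dd (fun _ : M => (0 : ℝ)) q v = 0
    rw [dd_const]; rfl

theorem iso1 : ∀ q ∈ D.Q1, ∀ v, |Jf D.Φ (fun _ => D.k⁻¹) 0 q v ⬝ᵥ Jf D.Φ (fun _ => D.k⁻¹) 0 q v -
    g.g q v v| ≤ 3 * t * g.g q v v := by
  intro q hq v
  obtain ⟨j, h1, h2, h3⟩ := mem_iUnion.1 hq
  have h4 := H.flat j q h1 (h2.le.trans (H.pm j).a_le) (h3.le.trans (H.pm j).b_le) v
  have h5 := (H.pm j).iso (T.z j q) h2.le h3.le (dd (T.x j) q v) (dd (T.y j) q v)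
  have e : Jf D.Φ (fun _ => D.k⁻¹) 0 q v = dd (T.x j) q v • sc D.k⁻¹
      (pX (fun z => D.Θ j z + qf (T.η j) (T.κ j) (T.l1 j) (T.l2 j) z) (T.z j q)) +
      dd (T.y j) q v • sc D.k⁻¹
      (pY (fun z => D.Θ j z + qf (T.η j) (T.κ j) (T.l1 j) (T.l2 j) z) (T.z j q)) := by
    ext c
    fin_cases c
    · simp [Jf, sc, trb_dd H h1]
    · simp [Jf, sc, trb_dd H h1]
    · simp [Jf, sc, trb_dd H h1]
      ring
  rw [e]
  obtain ⟨h6, h7⟩ := abs_le.1 h4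
  obtain ⟨h8, h9⟩ := abs_le.1 h5
  have h10 : 0 ≤ dd (T.x j) q v ^ 2 + dd (T.y j) q v ^ 2 := by positivity
  have h11 : 2 * (dd (T.x j) q v ^ 2 + dd (T.y j) q v ^ 2) ≤ 3 * g.g q v v := by
    nlinarith [mul_le_mul_of_nonneg_right H.t_le h10]
  have h12 := mul_le_mul_of_nonneg_left h11 H.t_pos.le
  exact abs_le.2 ⟨by linarith, by linarith⟩

theorem inj : ∀ q v, Jf D.Φ (fun _ => 1) D.Y q v = 0 → v = 0 := by
  intro q v hv
  have e0 : dd D.Φ q v 0 + D.η' * T.Y q v 0 = 0 := congrFun hv 0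
  have e1 : dd D.Φ q v 1 + D.η' * T.Y q v 1 = 0 := congrFun hv 1
  have e2 : 1 * dd D.Φ q v 2 = 0 := congrFun hv 2
  rw [one_mul] at e2
  by_cases h : ∃ j, q ∈ T.B j ∧ |T.x j q| ≤ 3 * D.R0 ∧ |T.y j q| ≤ 3 * D.R0
  · obtain ⟨j, h1, h2, h3⟩ := h
    rw [trb_dd H h1] at e0 e1 e2
    rw [T.Y_nf j q h1] at e0 e1
    have k := fun w => trb_dd_qf (H.pm j).sm (T.η j) (T.κ j) (T.l1 j) (T.l2 j) (T.z j q) w
    simp only [Zv, (k _).1, (k _).2] at e0 e1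
    obtain ⟨h4, h5⟩ := (H.pm j).inj (T.z j q) h2 h3 _ _ e0 e1 e2
    exact T.inj h1 h4 h5
  · obtain ⟨h1, h2, h3⟩ := trb_dd_out H (not_exists.1 h) v
    rw [h1, zero_add] at e0
    rw [h2, zero_add] at e1
    refine T.Y_inj q v (h3 ▸ e2) ?_
    ext c
    fin_cases c
    · exact (mul_eq_zero.1 e0).resolve_left H.η_pos.ne'
    · exact (mul_eq_zero.1 e1).resolve_left H.η_pos.ne'

/-- `Bu` bounds `du` and `1/|du|` outside the open boxes `2 R0`.  In the box `r`: transplant `PKPt`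
(`γ v w = ∑ g_{ab} dz_a v dz_b w`, `τ` by `T.surj`); elsewhere `dW = 0`, `γ = g`, `τ = ∇u` (Riesz in the
plane for the positive definite form `g`). -/
theorem kpt {Bu : ℝ} (hBu : 1 ≤ Bu)
    (hu : ∀ q, (∀ j, ¬(q ∈ T.B j ∧ |T.x j q| < 3 * D.R0 ∧ |T.y j q| < 3 * D.R0)) →
      (∀ v, dd T.u q v ^ 2 ≤ Bu ^ 2 * g.g q v v) ∧ ∃ v, g.g q v v ≤ 1 ∧ Bu⁻¹ ≤ dd T.u q v) :
    ∀ q ∉ D.Q0, KPt (g.g q) (dc D.Φ 0 q) (dc D.Φ 1 q) (dc D.Φ 2 q) (2 * (B + Bu)) (3 * t) := by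
  intro q hq
  have hB : 0 < B := by linarith [H.B_ge]
  have ht : 0 ≤ 3 * t := by linarith [H.t_pos]
  have hBB : 2 * B ≤ 2 * (B + Bu) := by linarith
  by_cases h : ∃ j, q ∈ T.B j ∧ |T.x j q| ≤ 3 * D.R0 ∧ |T.y j q| ≤ 3 * D.R0
  · obtain ⟨j, h1, h2, h3⟩ := h
    have h4 : D.a j / 2 < |T.x j q| ∨ 7 * D.b j / 2 < |T.y j q| := by
      by_contra h5
      push Not at h5
      exact hq (mem_iUnion.2 ⟨j, h1, h5.1, h5.2⟩)
    obtain ⟨h5, h6⟩ := trb_l (g := g.g q) (l := dc D.Φ 2 q) hB hBB (T.surj j q h1)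
      (H.flat0 j q h1 h2 h3) (fun v => trb_dd H h1 v 2) ((H.pm j).up (T.z j q) h2 h3)
      ((H.pm j).low (T.z j q) h2 h3 h4)
    by_cases h7 : |T.x j q| ≤ r ∧ |T.y j q| ≤ r
    · exact ⟨h5, h6, trb_pk hB hBB H.t_pos H.t_le (T.surj j q h1) (H.flat j q h1 h7.1 h7.2)
        (fun v => trb_dd H h1 v 0) (fun v => trb_dd H h1 v 1) (fun v => trb_dd H h1 v 2)
        ((H.pm j).kpt (T.z j q) h7.1 h7.2 h4)⟩
    · have h8 : r < |T.z j q 0| ∨ r < |T.z j q 1| := by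
        by_contra h9
        push Not at h9
        exact h7 h9
      have k := fun w => trb_dd_qf (H.pm j).sm (T.η j) (T.κ j) (T.l1 j) (T.l2 j) (T.z j q) w
      have k' := trb_dd_zero (H.pm j).sm ((H.pm j).a_pos.trans_le (H.pm j).a_le) (H.pm j).suppW h8
      refine trb_riesz (g.symm q) (g.pos q) _ ht (fun v => ?_) (fun v => ?_) h5 h6
      · change dd D.Φ q v 0 = 0
        rw [trb_dd H h1]
        simp only [Zv, (k _).1, (k' _).1, mul_zero, add_zero]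
      · change dd D.Φ q v 1 = 0
        rw [trb_dd H h1]
        simp only [Zv, (k _).2, (k' _).2, mul_zero, add_zero]
  · have k := trb_dd_out H (not_exists.1 h)
    obtain ⟨h1, v, h2, h3⟩ := hu q fun j h1 => h ⟨j, h1.1, h1.2.1.le, h1.2.2.le⟩
    have e : ∀ v, dc D.Φ 2 q v = dd T.u q v := fun v => (k v).2.2
    have hBu' : Bu ≤ 2 * (B + Bu) := by linarith
    refine trb_riesz (g.symm q) (g.pos q) _ ht (fun v => (k v).1) (fun v => (k v).2.1) (fun v => ?_)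
      ⟨v, h2, ?_⟩
    · rw [e]
      refine (h1 v).trans (mul_le_mul_of_nonneg_right (pow_le_pow_left₀ (by linarith) hBu' 2) ?_)
      by_cases hv : v = 0
      · simp [hv]
      · exact (g.pos q v hv).le
    · rw [e]
      exact (inv_anti₀ (by linarith) hBu').trans h3

theorem trc_germ (ε : ℝ) {j : Fin T.m} {q : M} (hq : q ∈ T.B j) :
    (fun q => D.Φ q + D.Del ε q) =ᶠ[𝓝 q] fun q =>
      (fun z => D.Θ j z + qf (T.η j) (T.κ j) (T.l1 j) (T.l2 j) z + D.Δ j ε z) (T.z j q) +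
        ![0, 0, T.c j] := by
  filter_upwards [Φ_germ H hq, T.sum_lift_germ (Θ := fun i => D.Δ i ε) hq] with q' h1 h2
  have h3 : D.Del ε q' = D.Δ j ε (T.z j q') := h2
  rw [h1, h3]
  abel

theorem trc_zero {ε : ℝ}
    (hs : ∀ j, ∀ z : E2, D.a j / 4 ≤ |z 0| ∨ 3 * D.b j ≤ |z 1| → D.Δ j ε z = 0) {q : M}
    (hq : q ∉ D.Q0) : D.Del ε =ᶠ[𝓝 q] fun _ => 0 := by
  have h : ∀ j, T.lift j (D.Δ j ε) =ᶠ[𝓝 q] fun _ => 0 := by
    intro j
    have P := H.pm j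
    have h1 := P.a_pos
    have h2 := P.b_pos
    have h3 := P.a_le
    have h4 := P.b_le
    have h5 := H.r_le
    have h6 := H.R0_pos
    have h7 := H.R0_lt
    refine T.lift_germ_zero (r := D.a j / 4) (r' := 3 * D.b j) (by linarith) (by linarith) (hs j) ?_
    rintro ⟨k1, k2, k3⟩
    exact hq (mem_iUnion.2 ⟨j, k1, by linarith, by linarith⟩)
  filter_upwards [eventually_all.2 h] with q' hq'
  exact Finset.sum_eq_zero fun j _ => hq' j

theorem del1 : ∀ᶠ ε in 𝓝[>] (0 : ℝ), Sm (D.Del ε) ∧ (∀ q ∉ D.Q0, D.Del ε =ᶠ[𝓝 q] fun _ => 0) ∧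
    (∀ q, ‖D.Del ε q‖ ≤ 1) ∧ ∀ q ∈ D.Q0, ∀ v,
      |Jf (fun q => D.Φ q + D.Del ε q) (fun _ => D.k⁻¹) 0 q v ⬝ᵥ
          Jf (fun q => D.Φ q + D.Del ε q) (fun _ => D.k⁻¹) 0 q v - g.g q v v| ≤
        3 * t * g.g q v v := by
  filter_upwards [eventually_all.2 fun j => (H.pm j).del] with ε hε
  have h5 := H.r_le
  have h6 := H.R0_pos
  have h7 := H.R0_lt
  refine ⟨?_, fun q hq => trc_zero H (fun j => (hε j).2.1) hq, fun q => ?_, fun q hq v => ?_⟩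
  · refine Sm.sum' _ fun j _ => T.lift_sm (hε j).1 (r := D.R0) (by linarith) fun z hz => ?_
    have P := H.pm j
    have h1 := P.a_pos
    have h2 := P.b_pos
    have h3 := P.a_le
    have h4 := P.b_le
    exact (hε j).2.1 z (hz.imp (fun h => by linarith) fun h => by linarith)
  · by_cases hq : ∃ j, q ∈ T.B j
    · obtain ⟨j, hj⟩ := hq
      have h3 : D.Del ε q = D.Δ j ε (T.z j q) :=
        (T.sum_lift_germ (Θ := fun i => D.Δ i ε) hj).eq_of_nhds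
      rw [h3]
      exact (hε j).2.2.1 _
    · have h3 : D.Del ε q = 0 :=
        Finset.sum_eq_zero fun j _ => indicator_of_notMem (fun h => hq ⟨j, h⟩) _
      rw [h3]
      simp
  · obtain ⟨j, hj, hx, hy⟩ := mem_iUnion.1 hq
    have P := H.pm j
    have h1 := P.a_pos
    have h2 := P.b_pos
    have h3 := P.a_le
    have h4 := P.b_le
    have hΨ : Sm fun z => D.Θ j z + qf (T.η j) (T.κ j) (T.l1 j) (T.l2 j) z + D.Δ j ε z :=
      (P.sm.add' (trc_qf_sm _ _ _ _)).add' (hε j).1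
    rw [trc_J T hΨ (trc_germ H ε hj)]
    have a1 := ((hε j).2.2.2.2 (T.z j q) hx hy).1 (dd (T.x j) q v) (dd (T.y j) q v)
    have a2 := H.flat j q hj (by linarith) (by linarith) v
    have ht := H.t_pos
    have ht' := H.t_le
    have hS : 0 ≤ dd (T.x j) q v ^ 2 + dd (T.y j) q v ^ 2 := by positivity
    generalize dd (T.x j) q v ^ 2 + dd (T.y j) q v ^ 2 = S at *
    have b1 : t * S ≤ 1 / 100 * S := mul_le_mul_of_nonneg_right ht' hS
    rw [abs_le] at a1 a2 ⊢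
    have b2 : t * (99 / 100 * S) ≤ t * g.g q v v :=
      mul_le_mul_of_nonneg_left (by linarith [a2.1]) ht.le
    have b3 : 0 ≤ t * S := mul_nonneg ht.le hS
    constructor <;> nlinarith [a1.1, a1.2, a2.1, a2.2]

/-- With `Ψ = Θ + qf + Δ ε`, `J_b = Z_b x · sc(pX Ψ) + Z_b y · sc(pY Ψ)` near `q`, so
`Z_b J_b = ∑ Z z Z z sc(∂∂Ψ) + (Z Z x) sc(pX Ψ) + (Z Z y) sc(pY Ψ)`; the last terms are `O(1)` (`AIso`).
`|Z_{(i,u)} x|, |Z_{(i,u)} y| ≤ 2` and `|Z_{(i,u)} x| ≥ 1/4` for some `u` (`flat0`, `C.g_near`, `T.surj`). -/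
theorem del2 [CompactSpace M] (C : Calc g) (ht : 1000 * B * t ≤ 1) :
    ∀ᶠ ε in 𝓝[>] (0 : ℝ), ∀ i, ∀ q ∈ D.Q0 ∩ C.O i,
      C.IIM (fun q => D.Φ q + D.Del ε q) (fun _ => D.k⁻¹) (100 * B) (4 * t) ε i q := by
  obtain ⟨c, hc0, hc⟩ : ∃ c : ℝ, 0 ≤ c ∧ ∀ a j q, |C.Z a (C.Z a (T.x j)) q| ≤ c ∧
      |C.Z a (C.Z a (T.y j)) q| ≤ c := by
    choose c1 h1 using fun x : (Fin C.n × Fin 2) × Fin T.m =>
      Bd.of_compact C.V_sm (Sm.zv (C.V_sm x.1) (Sm.zv (C.V_sm x.1) (T.x_sm x.2))) 0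
    choose c2 h2 using fun x : (Fin C.n × Fin 2) × Fin T.m =>
      Bd.of_compact C.V_sm (Sm.zv (C.V_sm x.1) (Sm.zv (C.V_sm x.1) (T.y_sm x.2))) 0
    obtain ⟨c, hc0, hc⟩ := trc_bound fun x => max (c1 x) (c2 x)
    exact ⟨c, hc0, fun a j q => ⟨((h1 (a, j)).sup q).trans ((le_max_left _ _).trans (hc _)),
      ((h2 (a, j)).sup q).trans ((le_max_right _ _).trans (hc _))⟩⟩
  have hsmall : ∀ᶠ ε in 𝓝[>] (0 : ℝ), c * ε ≤ 1 := by
    have : Tendsto (fun ε : ℝ => c * ε) (𝓝[>] 0) (𝓝 (c * 0)) :=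
      ((continuous_const.mul continuous_id).tendsto 0).mono_left nhdsWithin_le_nhds
    rw [mul_zero] at this
    exact this.eventually (ge_mem_nhds one_pos)
  filter_upwards [eventually_all.2 fun j => (H.pm j).del, hsmall, self_mem_nhdsWithin]
    with ε hε hcε hε0 i q hq
  obtain ⟨hq, hqi⟩ := hq
  obtain ⟨j, hj, hx, hy⟩ := mem_iUnion.1 hq
  have P := H.pm j
  have h1 := P.a_pos
  have h2 := P.b_pos
  have h3 := P.a_le
  have h4 := P.b_le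
  have h5 := H.r_le
  have h6 := H.R0_pos
  have hB := H.B_ge
  have ht0 := H.t_pos
  have hΨ : Sm fun z => D.Θ j z + qf (T.η j) (T.κ j) (T.l1 j) (T.l2 j) z + D.Δ j ε z :=
    (P.sm.add' (trc_qf_sm _ _ _ _)).add' (hε j).1
  have hg := trc_germ H ε hj
  have hfl := H.flat0 j q hj (by linarith) (by linarith)
  have hI := ((hε j).2.2.2.2 (T.z j q) hx hy).2
  generalize (fun z => D.Θ j z + qf (T.η j) (T.κ j) (T.l1 j) (T.l2 j) z + D.Δ j ε z) = Ψ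
    at hΨ hg hI
  have hB' : (100 * B)⁻¹ ≤ 1 / 2 * B⁻¹ := by
    have : 0 < B⁻¹ := by positivity
    rw [mul_inv]
    linarith
  rcases hI with hI | hI | ⟨m, m1, m2, m3, m4, m5, m6, m7⟩
  · obtain ⟨v, v1, v2⟩ := T.surj j q hj (1 / 2) 0
    have := hfl v
    rw [v1, v2, abs_le] at this
    refine Or.inl ⟨v, by linarith [this.2], ?_⟩
    rw [trc_dd T hΨ hg, v1, v2, zero_smul, add_zero, Pi.smul_apply, smul_eq_mul, abs_mul,
      abs_of_pos (by norm_num : (0 : ℝ) < 1 / 2)]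
    linarith
  · obtain ⟨v, v1, v2⟩ := T.surj j q hj 0 (1 / 2)
    have := hfl v
    rw [v1, v2, abs_le] at this
    refine Or.inl ⟨v, by linarith [this.2], ?_⟩
    rw [trc_dd T hΨ hg, v1, v2, zero_smul, zero_add, Pi.smul_apply, smul_eq_mul, abs_mul,
      abs_of_pos (by norm_num : (0 : ℝ) < 1 / 2)]
    linarith
  · have hub : ∀ u, |dd (T.x j) q (C.V (i, u) q)| ≤ 2 ∧ |dd (T.y j) q (C.V (i, u) q)| ≤ 2 := by
      intro u
      have a1 := hfl (C.V (i, u) q)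
      have a2 := C.near i q hqi u u
      rw [if_pos rfl] at a2
      rw [abs_le] at a1 a2
      constructor
      · refine abs_le_of_sq_le_sq ?_ (by norm_num)
        nlinarith [a1.1, a2.2, sq_nonneg (dd (T.y j) q (C.V (i, u) q))]
      · refine abs_le_of_sq_le_sq ?_ (by norm_num)
        nlinarith [a1.1, a2.2, sq_nonneg (dd (T.x j) q (C.V (i, u) q))]
    obtain ⟨u, hu⟩ : ∃ u, 1 / 4 ≤ |dd (T.x j) q (C.V (i, u) q)| := by
      by_contra hn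
      push Not at hn
      obtain ⟨v, v1, v2⟩ := T.surj j q hj 1 0
      have a1 := hfl v
      rw [v1, v2, abs_le] at a1
      have a2 := C.g_near hqi v
      have a3 := C.dd_chart hqi (T.x j) v
      rw [Fin.sum_univ_two] at a2 a3
      rw [abs_le] at a2
      rw [v1] at a3
      have b0 : |dd (C.x i 0) q v| ≤ 3 / 2 := by
        refine abs_le_of_sq_le_sq ?_ (by norm_num)
        nlinarith [a1.2, a2.1, sq_nonneg (dd (C.x i 1) q v)]
      have b1 : |dd (C.x i 1) q v| ≤ 3 / 2 := by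
        refine abs_le_of_sq_le_sq ?_ (by norm_num)
        nlinarith [a1.2, a2.1, sq_nonneg (dd (C.x i 0) q v)]
      have c0 : |dd (C.x i 0) q v * dd (T.x j) q (C.V (i, 0) q)| ≤ 3 / 2 * (1 / 4) := by
        rw [abs_mul]
        exact mul_le_mul b0 (hn 0).le (abs_nonneg _) (by norm_num)
      have c1 : |dd (C.x i 1) q v * dd (T.x j) q (C.V (i, 1) q)| ≤ 3 / 2 * (1 / 4) := by
        rw [abs_mul]
        exact mul_le_mul b1 (hn 1).le (abs_nonneg _) (by norm_num)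
      have a4 : (1 : ℝ) = dd (C.x i 0) q v * dd (T.x j) q (C.V (i, 0) q) +
        dd (C.x i 1) q v * dd (T.x j) q (C.V (i, 1) q) := a3
      linarith [(abs_le.1 c0).2, (abs_le.1 c1).2]
    refine Or.inr ⟨m, u, m1, fun v => ?_, ?_⟩
    · rw [trc_J T hΨ hg, dotProduct_add, dotProduct_smul, dotProduct_smul, smul_eq_mul, smul_eq_mul]
      refine (abs_add_le _ _).trans ?_
      rw [abs_mul, abs_mul]
      have a1 := mul_le_mul (hub v).1 m2 (abs_nonneg _) (by norm_num)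
      have a2 := mul_le_mul (hub v).2 m3 (abs_nonneg _) (by norm_num)
      linarith
    · show _ ≤ |m ⬝ᵥ Zv (C.V (i, u)) _ q|
      rw [trc_ZJ T hΨ hg _ (C.V_sm _)]
      simp only [dotProduct_add, dotProduct_smul, smul_eq_mul]
      exact trc_arith hB ht0 hε0 ht hcε hu (hub u).1 (hub u).2 (hc _ j q).1 (hc _ j q).2 m2 m3 m4
        m5 m6 m7

end TData

/-- `bd_pull` with `l = l' = ε⁻¹`, `Bd.of_local`, `Bd.of_compact` for `Z z` -/
theorem TData.del3 [CompactSpace M] {g : Met M} (T : Crit g) (C : Calc g) (K : ℕ) :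
    ∃ c : ℝ, ∀ (D : TData T) (B CK t r : ℝ), D.Good B CK K t r →
      ∀ᶠ ε in 𝓝[>] (0 : ℝ), ∀ a, Bd C.V K ε⁻¹ (C.Z a (D.Del ε)) (c * |CK|) := by
  obtain ⟨c, hc0, hc⟩ : ∃ c : ℝ, 0 ≤ c ∧ ∀ a j, Bd C.V K 1 (C.Z a (T.x j)) c ∧
      Bd C.V K 1 (C.Z a (T.y j)) c ∧ Bd C.V K 1 (C.Z a (T.z j)) c := by
    choose c1 h1 using fun x : (Fin C.n × Fin 2) × Fin T.m =>
      Bd.of_compact C.V_sm (Sm.zv (C.V_sm x.1) (T.x_sm x.2)) K
    choose c2 h2 using fun x : (Fin C.n × Fin 2) × Fin T.m =>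
      Bd.of_compact C.V_sm (Sm.zv (C.V_sm x.1) (T.y_sm x.2)) K
    choose c3 h3 using fun x : (Fin C.n × Fin 2) × Fin T.m =>
      Bd.of_compact C.V_sm (Sm.zv (C.V_sm x.1) (T.z_sm x.2)) K
    obtain ⟨c, hc0, hc⟩ := trc_bound fun x => max (max (c1 x) (c2 x)) (c3 x)
    exact ⟨c, hc0, fun a j =>
      ⟨(h1 (a, j)).mono zero_le_one (((le_max_left _ _).trans (le_max_left _ _)).trans (hc _)),
      (h2 (a, j)).mono zero_le_one (((le_max_right _ _).trans (le_max_left _ _)).trans (hc _)),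
      (h3 (a, j)).mono zero_le_one ((le_max_right _ _).trans (hc _))⟩⟩
  obtain ⟨Cp, hCp⟩ := bd_pull (M := M) (F := Fin 3 → ℝ) (ι := Fin C.n × Fin 2) K c
  refine ⟨2 * (2 ^ K * c * |Cp|), fun D B CK t r H => ?_⟩
  have hsmall : ∀ᶠ ε in 𝓝[>] (0 : ℝ), ε ≤ 1 :=
    mem_nhdsWithin_of_mem_nhds (ge_mem_nhds one_pos)
  filter_upwards [eventually_all.2 fun j => (H.pm j).del, hsmall, self_mem_nhdsWithin]
    with ε hε hε1 hε0 a
  have hε0 : 0 < ε := hε0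
  have hl : 1 ≤ ε⁻¹ := one_le_inv₀ hε0 |>.2 hε1
  have hl0 : 0 ≤ ε⁻¹ := by positivity
  refine Bd.of_local fun p => ?_
  by_cases hp : ∃ j, p ∈ T.B j
  · obtain ⟨j, hj⟩ := hp
    have hΔ := (hε j).1
    have hX : Sm (pX (D.Δ j ε)) := Sm.zv (smV_V0 0) hΔ
    have hY : Sm (pY (D.Δ j ε)) := Sm.zv (smV_V0 1) hΔ
    have hz : ∀ a, Bd C.V K ε⁻¹ (fun p => ε⁻¹ • Zv (C.V a) (T.z j) p) (c * ε⁻¹) := by
      intro a
      have := Bd.csmul C.V_sm ε⁻¹ (Sm.zv (C.V_sm a) (T.z_sm j))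
        ((hc a j).2.2.mono_l zero_le_one hl)
      rwa [abs_of_nonneg hl0, mul_comm] at this
    have hw : ∀ u, Bd C.V K ε⁻¹ (fun p => Zv (V0 u) (D.Δ j ε) (T.z j p)) (|Cp| * |CK|) := by
      intro u
      refine (hCp C.V C.V_sm ε⁻¹ ε⁻¹ CK (T.z j) _ hl0 hl0 (T.z_sm j) (Sm.zv (smV_V0 u) hΔ)
        ((hε j).2.2.2.1 u) hz).mono hl0 ?_
      rw [← abs_mul]
      exact le_abs_self _
    have hXz : Sm fun q => pX (D.Δ j ε) (T.z j q) := Sm.comp' (sm_plane.1 hX) (T.z_sm j)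
    have hYz : Sm fun q => pY (D.Δ j ε) (T.z j q) := Sm.comp' (sm_plane.1 hY) (T.z_sm j)
    have hx : Sm (C.Z a (T.x j)) := Sm.zv (C.V_sm a) (T.x_sm j)
    have hy : Sm (C.Z a (T.y j)) := Sm.zv (C.V_sm a) (T.y_sm j)
    refine ⟨fun q => C.Z a (T.x j) q • pX (D.Δ j ε) (T.z j q) +
      C.Z a (T.y j) q • pY (D.Δ j ε) (T.z j q), ?_, ?_⟩
    · filter_upwards [(T.sum_lift_germ (Θ := fun i => D.Δ i ε) hj).eventually_nhds] with q hq
      show dd (fun q => ∑ i, T.lift i (D.Δ i ε) q) q (C.V a q) = _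
      rw [dd_congr hq, T.dd_comp_z hΔ]
      rfl
    · refine (Bd.add C.V_sm (hx.smul' hXz) (hy.smul' hYz)
        (Bd.smul C.V_sm hl0 hx hXz ((hc a j).1.mono_l zero_le_one hl) (hw 0))
        (Bd.smul C.V_sm hl0 hy hYz ((hc a j).2.1.mono_l zero_le_one hl) (hw 1))).mono hl0 ?_
      exact le_of_eq (by ring)
  · have hq : p ∉ D.Q0 := fun h => by
      obtain ⟨j, hj, -⟩ := mem_iUnion.1 h
      exact hp ⟨j, hj⟩
    refine ⟨fun _ => 0, ?_, (Bd.const K hl0 _).mono hl0 ?_⟩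
    · filter_upwards [(TData.trc_zero H (fun j => (hε j).2.1) hq).eventually_nhds] with q hq
      show dd (D.Del ε) q (C.V a q) = 0
      rw [dd_congr hq, dd_const]
      rfl
    · rw [norm_zero]
      positivity

theorem trnsa_nonneg (g : Met M) (q : M) (v : E2) : 0 ≤ g.g q v v := by
  by_cases h : v = 0
  · simp [h]
  · exact (g.pos q v h).le

theorem trnsa_bound [CompactSpace M] {g : Met M} (C : Calc g) {F : Type} [NormedAddCommGroup F]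
    [NormedSpace ℝ F] (L : M → E2 →L[ℝ] F) (hL : ∀ a, Continuous fun q => L q (C.V a q)) :
    ∃ c : ℝ, 0 ≤ c ∧ ∀ q v, ‖L q v‖ ^ 2 ≤ c ^ 2 * g.g q v v := by
  obtain ⟨c, hc⟩ := isCompact_univ.exists_bound_of_continuousOn
    (continuous_pi hL).continuousOn
  refine ⟨2 * |c|, by positivity, fun q v => ?_⟩
  obtain ⟨i, hi⟩ := C.cover q
  have hb : ∀ a, ‖L q (C.V a q)‖ ≤ |c| := fun a =>
    ((norm_le_pi_norm (fun a => L q (C.V a q)) a).trans (hc q (mem_univ _))).trans (le_abs_self c)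
  have hg := (abs_le.1 (C.g_near hi v)).1
  rw [Fin.sum_univ_two] at hg
  have h1 : ‖L q v‖ ≤ |c| * (|dd (C.x i 0) q v| + |dd (C.x i 1) q v|) := by
    conv_lhs => rw [C.span i q hi v, Fin.sum_univ_two, map_add, map_smul, map_smul]
    refine (norm_add_le _ _).trans ?_
    rw [norm_smul, norm_smul, Real.norm_eq_abs, Real.norm_eq_abs]
    nlinarith [hb (i, 0), hb (i, 1), abs_nonneg (dd (C.x i 0) q v), abs_nonneg (dd (C.x i 1) q v)]
  have h2 : (|dd (C.x i 0) q v| + |dd (C.x i 1) q v|) ^ 2 ≤ 4 * g.g q v v := by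
    nlinarith [sq_abs (dd (C.x i 0) q v), sq_abs (dd (C.x i 1) q v),
      sq_nonneg (|dd (C.x i 0) q v| - |dd (C.x i 1) q v|), sq_nonneg (dd (C.x i 0) q v),
      sq_nonneg (dd (C.x i 1) q v)]
  calc ‖L q v‖ ^ 2 ≤ (|c| * (|dd (C.x i 0) q v| + |dd (C.x i 1) q v|)) ^ 2 :=
        pow_le_pow_left₀ (norm_nonneg _) h1 2
    _ = |c| ^ 2 * (|dd (C.x i 0) q v| + |dd (C.x i 1) q v|) ^ 2 := by ring
    _ ≤ |c| ^ 2 * (4 * g.g q v v) := by gcongr
    _ = (2 * |c|) ^ 2 * g.g q v v := by ring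

theorem trnsa_lower [CompactSpace M] {g : Met M} (C : Calc g) {f : M → ℝ} (hf : Sm f) {K : Set M}
    (hK : IsClosed K) (h : ∀ q ∈ K, dd f q ≠ 0) :
    ∃ c : ℝ, 0 < c ∧ ∀ q ∈ K, ∃ v, g.g q v v ≤ 1 ∧ c ≤ dd f q v := by
  have hZ : ∀ a, Continuous (C.Z a f) := fun a => (hf.zv (C.V_sm a)).cont
  have hs : Continuous fun q => ∑ a, C.Z a f q * C.Z a f q :=
    continuous_finsetSum _ fun a _ => (hZ a).mul (hZ a)
  obtain ⟨δ, hδ, hδ'⟩ := hK.isCompact.exists_forall_le' (a := 0) hs.continuousOn fun q hq => by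
    refine lt_of_le_of_ne (Finset.sum_nonneg fun a _ => mul_self_nonneg _) fun h0 => h q hq ?_
    have h1 : ∀ a, C.Z a f q = 0 := fun a => mul_self_eq_zero.1
      ((Finset.sum_eq_zero_iff_of_nonneg fun a _ => mul_self_nonneg _).1 h0.symm a
        (Finset.mem_univ a))
    obtain ⟨i, hi⟩ := C.cover q
    ext1 v
    rw [C.dd_chart hi]
    simp [h1]
  have hφ : Continuous fun q => ∑ b, C.Z b f q * ∑ a, C.Z a f q * C.G a b q :=
    continuous_finsetSum _ fun b _ => (hZ b).mul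
      (continuous_finsetSum _ fun a _ => (hZ a).mul (C.G_sm a b).cont)
  obtain ⟨c, hc⟩ := isCompact_univ.exists_bound_of_continuousOn hφ.continuousOn
  have hc1 : 0 < |c| + 1 := by positivity
  refine ⟨(|c| + 1)⁻¹ * δ, by positivity, fun q hq =>
    ⟨(|c| + 1)⁻¹ • ∑ a, C.Z a f q • C.V a q, ?_, ?_⟩⟩
  · have e : g.g q (∑ a, C.Z a f q • C.V a q) (∑ a, C.Z a f q • C.V a q) =
        ∑ b, C.Z b f q * ∑ a, C.Z a f q * C.G a b q := by
      simp only [map_sum, map_smul, smul_eq_mul, _root_.sum_apply,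
        _root_.smul_apply, Calc.G]
    have h1 : ∑ b, C.Z b f q * ∑ a, C.Z a f q * C.G a b q ≤ |c| :=
      ((le_abs_self _).trans (hc q (mem_univ _))).trans (le_abs_self c)
    rw [map_smul, map_smul, _root_.smul_apply, e, smul_eq_mul, smul_eq_mul,
      ← mul_assoc, ← mul_inv, inv_mul_le_iff₀ (by positivity)]
    nlinarith [abs_nonneg c]
  · have e : dd f q (∑ a, C.Z a f q • C.V a q) = ∑ a, C.Z a f q * C.Z a f q := by
      simp only [map_sum, map_smul, smul_eq_mul]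
      rfl
    rw [map_smul, e, smul_eq_mul]
    exact mul_le_mul_of_nonneg_left (hδ' q hq) (by positivity)

/-- bounds for `du` away from the critical points and for `Y` (compactness, charts of `C`) -/
theorem Crit.exists_bounds [CompactSpace M] {g : Met M} (T : Crit g) (C : Calc g) {r : ℝ}
    (hr : 0 < r) : ∃ Bu : ℝ, 1 ≤ Bu ∧ (∀ q v, ‖T.Y q v‖ ^ 2 ≤ Bu ^ 2 * g.g q v v) ∧
      ∀ q, (∀ j, ¬(q ∈ T.B j ∧ |T.x j q| < r ∧ |T.y j q| < r)) →
        (∀ v, dd T.u q v ^ 2 ≤ Bu ^ 2 * g.g q v v) ∧ ∃ v, g.g q v v ≤ 1 ∧ Bu⁻¹ ≤ dd T.u q v := by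
  obtain ⟨c1, hc1, h1⟩ := trnsa_bound C T.Y fun a => (T.Y_sm _ (C.V_sm a)).cont
  obtain ⟨c2, hc2, h2⟩ := trnsa_bound C (dd T.u) fun a => (T.u_sm.zv (C.V_sm a)).cont
  have hK : IsClosed {q | ∀ j, ¬(q ∈ T.B j ∧ |T.x j q| < r ∧ |T.y j q| < r)} := by
    rw [ofPred_forall]
    exact isClosed_iInter fun j => IsOpen.isClosed_compl ((T.B_open j).inter
      ((isOpen_lt (T.x_sm j).cont.abs continuous_const).inter
        (isOpen_lt (T.y_sm j).cont.abs continuous_const)))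
  obtain ⟨c, hc, h3⟩ := trnsa_lower C T.u_sm hK fun q hq h0 => by
    obtain ⟨j, hj, hx, hy⟩ := T.reg q h0
    exact hq j ⟨hj, by simpa [hx] using hr, by simpa [hy] using hr⟩
  have hci : 0 < c⁻¹ := inv_pos.2 hc
  refine ⟨1 + c1 + c2 + c⁻¹, by linarith, fun q v => (h1 q v).trans ?_, fun q hq =>
    ⟨fun v => ?_, ?_⟩⟩
  · exact mul_le_mul_of_nonneg_right (pow_le_pow_left₀ hc1 (by linarith) 2) (trnsa_nonneg g q v)
  · have := h2 q v
    rw [Real.norm_eq_abs, sq_abs] at this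
    exact this.trans
      (mul_le_mul_of_nonneg_right (pow_le_pow_left₀ hc2 (by linarith) 2) (trnsa_nonneg g q v))
  · obtain ⟨v, hv, hv'⟩ := h3 q hq
    refine ⟨v, hv, le_trans ?_ hv'⟩
    exact inv_le_of_inv_le₀ hc (by linarith)

end Crest.Agent.R216
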