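import Crest.Agent.R216.Trans
/-! # R216: the twisted map satisfies the hypotheses of the perturbation theorem -/

set_option autoImplicit false
open scoped Manifold ContDiff Topology Matrix
open Set Filter

namespace Crest.Agent.R216
universe u
variable {M : Type u} [TopologicalSpace M] [ChartedSpace E2 M] [IsManifold (𝓡 2) ∞ M]

/-- `(W, ε a e^{iu/ε})` -/
noncomputable def Fe (Φ : M → Fin 3 → ℝ) (a : M → ℝ) (ε : ℝ) (q : M) : Fin 4 → ℝ :=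
  ![Φ q 0, Φ q 1, ε * a q * Real.cos (Φ q 2 / ε), ε * a q * Real.sin (Φ q 2 / ε)]

/-- the isometric inclusion `ℝ³ → ℝ⁴` at the angle `θ` -/
noncomputable def rot (θ : ℝ) (J : Fin 3 → ℝ) : Fin 4 → ℝ :=
  ![J 0, J 1, -(J 2 * Real.sin θ), J 2 * Real.cos θ]

/-- the normal vector at the angle `θ` -/
noncomputable def nrm (θ : ℝ) : Fin 4 → ℝ := ![0, 0, Real.cos θ, Real.sin θ]

omit [IsManifold (𝓡 2) ∞ M] in
theorem twa_θ {Φ : M → Fin 3 → ℝ} (hΦ : Sm Φ) (ε : ℝ) : Sm fun q => Φ q 2 / ε :=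
  (sm_pi.1 hΦ 2).comp' (contDiff_id.div_const ε)

omit [IsManifold (𝓡 2) ∞ M] in
theorem twa_dθ {Φ : M → Fin 3 → ℝ} (hΦ : Sm Φ) (ε : ℝ) (q : M) (v : E2) :
    dd (fun q => Φ q 2 / ε) q v = ε⁻¹ * dd Φ q v 2 := by
  rw [dd_comp_deriv (Φ := fun x : ℝ => x / ε) ((hasDerivAt_id _).div_const ε)
    ((sm_pi.1 hΦ 2).df q), dd_apply (hΦ.df q), smul_eq_mul, one_div, mul_comm]

theorem Fe_sm {Φ : M → Fin 3 → ℝ} {a : M → ℝ} (hΦ : Sm Φ) (ha : Sm a) (ε : ℝ) : Sm (Fe Φ a ε) := by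
  refine sm_pi.2 fun i => ?_
  fin_cases i
  · exact sm_pi.1 hΦ 0
  · exact sm_pi.1 hΦ 1
  · exact ((sm_const ε).mul' ha).mul' ((twa_θ hΦ ε).comp' Real.contDiff_cos)
  · exact ((sm_const ε).mul' ha).mul' ((twa_θ hΦ ε).comp' Real.contDiff_sin)

theorem dd_Fe {Φ : M → Fin 3 → ℝ} {a : M → ℝ} (hΦ : Sm Φ) (ha : Sm a) {ε : ℝ} (hε : ε ≠ 0) (q : M)
    (v : E2) : dd (Fe Φ a ε) q v =
      rot (Φ q 2 / ε) (Jf Φ a 0 q v) + (ε * dd a q v) • nrm (Φ q 2 / ε) := by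
  have h1 : dd (fun q => ε * a q) q v = ε * dd a q v := dd_const_smul ε (ha.df q) v
  have h2 := ((sm_const ε).mul' ha).df q
  have h3 := (twa_θ hΦ ε).df q
  funext i
  rw [dd_apply ((Fe_sm hΦ ha ε).df q)]
  fin_cases i
  · simpa [Fe, rot, nrm, Jf] using (dd_apply (hΦ.df q) v 0).symm
  · simpa [Fe, rot, nrm, Jf] using (dd_apply (hΦ.df q) v 1).symm
  · change dd (fun q => ε * a q * Real.cos (Φ q 2 / ε)) q v = _
    rw [dd_mul h2 (((twa_θ hΦ ε).comp' Real.contDiff_cos).df q), h1,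
      dd_comp_deriv (Real.hasDerivAt_cos _) h3, twa_dθ hΦ]
    simp [rot, nrm, Jf]
    field_simp
  · change dd (fun q => ε * a q * Real.sin (Φ q 2 / ε)) q v = _
    rw [dd_mul h2 (((twa_θ hΦ ε).comp' Real.contDiff_sin).df q), h1,
      dd_comp_deriv (Real.hasDerivAt_sin _) h3, twa_dθ hΦ]
    simp [rot, nrm, Jf]
    field_simp

/-- a fixed smooth function is bounded by its `sup` at small scales -/
theorem bd_slow [CompactSpace M] {ι : Type} [Finite ι] {V : ι → M → E2} (hV : ∀ a, SmV (V a))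
    {F : Type} [NormedAddCommGroup F] [NormedSpace ℝ F] {f : M → F} (hf : Sm f) {c : ℝ} (hc : 0 < c)
    (h : ∀ p, ‖f p‖ ≤ c) (k : ℕ) : ∀ᶠ ε in 𝓝[>] (0 : ℝ), Bd V k ε⁻¹ f c := by
  obtain ⟨c', hc'⟩ := Bd.of_compact hV hf k
  filter_upwards [tendsto_inv_nhdsGT_zero.eventually_ge_atTop (1 : ℝ),
    tendsto_inv_nhdsGT_zero.eventually_ge_atTop (c' / c)] with ε h1 h2
  refine Bd.of_unw (by linarith) fun j hj => ?_
  cases j with
  | zero => simpa [Bd] using h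
  | succ j =>
    refine (hc'.mono_k hj).mono zero_le_one ?_
    rw [div_le_iff₀' hc] at h2
    exact h2.trans (mul_le_mul_of_nonneg_left (le_self_pow₀ h1 j.succ_ne_zero) hc.le)

/-- hypotheses on the slow map `Φ`, the amplitude `a` and the sharpening `Δ` -/
structure TwP {g : Met M} (C : Calc g) (B CK : ℝ) (K : ℕ) (t : ℝ) (Φ : M → Fin 3 → ℝ) (a : M → ℝ)
    (Δ : ℝ → M → Fin 3 → ℝ) : Prop where
  Φ_sm : Sm Φ
  a_sm : Sm a
  a_bd : ∀ q, B⁻¹ ≤ a q ∧ a q ≤ B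
  W_bd : ∀ q, |Φ q 0| ≤ B ∧ |Φ q 1| ≤ B
  iso : ∀ q v, |Jf Φ a 0 q v ⬝ᵥ Jf Φ a 0 q v - g.g q v v| ≤ t * g.g q v v
  del : ∀ᶠ ε in 𝓝[>] (0 : ℝ), Sm (Δ ε) ∧ (∀ q, ‖Δ ε q‖ ≤ 1) ∧
    (∀ b, Bd C.V (K + 1) ε⁻¹ (C.Z b (Δ ε)) CK) ∧
    (∀ q v, |Jf (fun q => Φ q + Δ ε q) a 0 q v ⬝ᵥ Jf (fun q => Φ q + Δ ε q) a 0 q v - g.g q v v| ≤
      t * g.g q v v) ∧
    ∀ i, ∀ q ∈ C.O i, C.IIM (fun q => Φ q + Δ ε q) a B t ε i q

variable [CompactSpace M] {g : Met M} (C : Calc g)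

theorem twa_trig (ι : Type) (k : ℕ) (B : ℝ) : ∃ C : ℝ, 0 ≤ C ∧ ∀ (V : ι → M → E2),
    (∀ a, SmV (V a)) → ∀ (l : ℝ) (f : M → ℝ), 0 ≤ l → Sm f →
      (∀ a, Bd V k l (Zv (V a) f) (B * l)) →
      Bd V k l (fun p => Real.cos (f p)) C ∧ Bd V k l (fun p => Real.sin (f p)) C := by
  obtain ⟨C1, h1⟩ := bd_comp_bdd (M := M) (ι := ι) Real.contDiff_cos (fun j => ⟨1, fun y => by
    rw [norm_iteratedFDeriv_eq_norm_iteratedDeriv]
    exact Real.abs_iteratedDeriv_cos_le_one j y⟩) k B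
  obtain ⟨C2, h2⟩ := bd_comp_bdd (M := M) (ι := ι) Real.contDiff_sin (fun j => ⟨1, fun y => by
    rw [norm_iteratedFDeriv_eq_norm_iteratedDeriv]
    exact Real.abs_iteratedDeriv_sin_le_one j y⟩) k B
  exact ⟨max 0 (max C1 C2), le_max_left _ _, fun V hV l f hl hf h =>
    ⟨(h1 V hV l f hl hf h).mono hl ((le_max_left _ _).trans (le_max_right _ _)),
      (h2 V hV l f hl hf h).mono hl ((le_max_right _ _).trans (le_max_right _ _))⟩⟩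

omit [IsManifold (𝓡 2) ∞ M] in
theorem twa_sup {Φ : M → Fin 3 → ℝ} {a : M → ℝ} {q : M} {v : E2} {B G : ℝ} (hB : 1 ≤ B)
    (hG : 0 ≤ G) (ha : B⁻¹ ≤ a q) (h : Jf Φ a 0 q v ⬝ᵥ Jf Φ a 0 q v ≤ 2 * G) :
    ‖dd Φ q v‖ ≤ B * (G + 1) := by
  have e : Jf Φ a 0 q v ⬝ᵥ Jf Φ a 0 q v =
      dd Φ q v 0 ^ 2 + dd Φ q v 1 ^ 2 + (a q * dd Φ q v 2) ^ 2 := by
    simp [Jf, dotProduct, Fin.sum_univ_three, sq]
  rw [e] at h
  have h1 : ∀ x : ℝ, x ^ 2 ≤ 2 * G → |x| ≤ G + 1 := fun x hx =>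
    abs_le_of_sq_le_sq' (by nlinarith) (by linarith) |> abs_le.2
  have h2 : G + 1 ≤ B * (G + 1) := le_mul_of_one_le_left (by linarith) hB
  refine (pi_norm_le_iff_of_nonneg (by positivity)).2 fun i => ?_
  fin_cases i
  · exact (h1 (dd Φ q v 0) (by nlinarith [sq_nonneg (dd Φ q v 1), sq_nonneg (a q * dd Φ q v 2)])).trans h2
  · exact (h1 (dd Φ q v 1) (by nlinarith [sq_nonneg (dd Φ q v 0), sq_nonneg (a q * dd Φ q v 2)])).trans h2
  · have h3 := h1 (a q * dd Φ q v 2) (by nlinarith [sq_nonneg (dd Φ q v 0), sq_nonneg (dd Φ q v 1)])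
    have hB0 : 0 < B := by linarith
    rw [abs_mul, abs_of_pos ((inv_pos.2 hB0).trans_le ha)] at h3
    have h4 := (mul_le_mul_of_nonneg_right ha (abs_nonneg (dd Φ q v 2))).trans h3
    rwa [inv_mul_le_iff₀ hB0] at h4

/-- `Z_b F = rot θ J_b + ε (Z_b a) nrm θ` with `θ = (Φ+Δ)₂/ε`; `J_b` = slow part (`bd_slow`, `sup` from
`iso`) plus `(ZΔ₀, ZΔ₁, a ZΔ₂)`; `cos θ, sin θ` by `bd_comp_bdd`.  So `Bd (K+1) ε⁻¹ (Z_b F) B'`. -/
theorem twist_bd (B CK : ℝ) (hB : 1 ≤ B) (K : ℕ) : ∃ B' : ℝ, ∀ (t : ℝ) (Φ : M → Fin 3 → ℝ)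
    (a : M → ℝ) (Δ : ℝ → M → Fin 3 → ℝ), t ≤ 1 → TwP C B CK K t Φ a Δ →
    ∀ᶠ ε in 𝓝[>] (0 : ℝ), Bd C.V 1 1 (Fe (fun q => Φ q + Δ ε q) a ε) B' ∧
      ∀ b c, Bd C.V K ε⁻¹ (C.Z b (C.Z c (Fe (fun q => Φ q + Δ ε q) a ε))) (B' * ε⁻¹) := by
  have hV := C.V_sm
  obtain ⟨G, hG0, hG⟩ : ∃ G : ℝ, 0 ≤ G ∧ ∀ b p, C.G b b p ≤ G := by
    obtain ⟨G, hG⟩ := Bd.of_compact hV (f := fun p b => C.G b b p) (sm_pi.2 fun b => C.G_sm b b) 0
    exact ⟨max G 0, le_max_right _ _, fun b p => ((le_abs_self _).trans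
      ((norm_le_pi_norm (fun b => C.G b b p) b).trans (hG p))).trans (le_max_left _ _)⟩
  have hB0 : 0 < B := by linarith
  set c₂ : ℝ := B * (G + 1) + |CK| with hc₂
  have hc₂0 : 0 ≤ c₂ := by positivity
  obtain ⟨T, hT0, hT⟩ := twa_trig (M := M) (Fin C.n × Fin 2) (K + 1) c₂
  set D : ℝ := 2 ^ (K + 1) * (2 ^ (K + 1) * B * c₂) * T + 2 ^ (K + 1) * B * T with hD
  have hD0 : 0 ≤ D := by positivity
  refine ⟨c₂ + D + (B + 1), fun t Φ a Δ ht H => ?_⟩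
  have hΦ := H.Φ_sm
  have ha := H.a_sm
  have haB : ∀ q, |a q| ≤ B := fun q => by
    rw [abs_of_pos ((inv_pos.2 hB0).trans_le (H.a_bd q).1)]
    exact (H.a_bd q).2
  have h1 : ∀ b, ∀ᶠ ε in 𝓝[>] (0 : ℝ), Bd C.V (K + 1) ε⁻¹ (C.Z b Φ) (B * (G + 1)) := fun b => by
    refine bd_slow hV (hΦ.zv (hV b)) (by positivity) (fun q => twa_sup hB hG0 (H.a_bd q).1 ?_) _
    have h2 := (le_abs_self _).trans (H.iso q (C.V b q))
    have h3 : g.g q (C.V b q) (C.V b q) ≤ G := hG b q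
    have h4 : 0 ≤ g.g q (C.V b q) (C.V b q) := by
      by_cases h : C.V b q = 0
      · simp [h]
      · exact (g.pos _ _ h).le
    nlinarith
  filter_upwards [eventually_all.2 h1, bd_slow hV ha hB0 haB (K + 2), H.del,
    Ioc_mem_nhdsGT (zero_lt_one' ℝ)] with ε h1 h2 ⟨hΔ, hΔ1, hΔ2, _⟩ ⟨hε, hε1⟩
  have hl : 0 ≤ ε⁻¹ := by positivity
  have hΨ : Sm fun q => Φ q + Δ ε q := hΦ.add' hΔ
  set Ψ : M → Fin 3 → ℝ := fun q => Φ q + Δ ε q with hΨd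
  have b1 : ∀ b i, Bd C.V (K + 1) ε⁻¹ (fun q => C.Z b Ψ q i) c₂ := fun b i => by
    have e : Zv (C.V b) Ψ = fun q => C.Z b Φ q + C.Z b (Δ ε) q :=
      funext fun q => dd_add (hΦ.df q) (hΔ.df q) _
    refine Bd.apply hV (hΨ.zv (hV b)) ?_ i
    rw [e]
    exact Bd.add hV (hΦ.zv (hV b)) (hΔ.zv (hV b)) (h1 b) ((hΔ2 b).mono hl (le_abs_self _))
  have s1 : ∀ b i, Sm fun q => C.Z b Ψ q i := fun b => sm_pi.1 (hΨ.zv (hV b))
  obtain ⟨b2, b3⟩ := hT C.V hV ε⁻¹ _ hl (twa_θ hΨ ε) fun b => by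
    have e : Zv (C.V b) (fun q => Ψ q 2 / ε) = fun q => ε⁻¹ • C.Z b Ψ q 2 :=
      funext fun q => twa_dθ hΨ ε q _
    rw [e]
    refine (Bd.csmul hV ε⁻¹ (s1 b 2) (b1 b 2)).mono hl (le_of_eq ?_)
    rw [abs_of_nonneg hl, mul_comm]
  have s2 := (twa_θ hΨ ε).comp' Real.contDiff_cos
  have s3 := (twa_θ hΨ ε).comp' Real.contDiff_sin
  have s4 : ∀ b, Sm fun q => ε • C.Z b a q := fun b => (sm_const ε).smul' (ha.zv (hV b))
  have b4 : ∀ b, Bd C.V (K + 1) ε⁻¹ (fun q => ε • C.Z b a q) B := fun b => by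
    refine (Bd.csmul hV ε (ha.zv (hV b)) (h2.zv b)).mono hl (le_of_eq ?_)
    rw [abs_of_pos hε, mul_inv_cancel_left₀ hε.ne']
  have s5 : ∀ b, Sm fun q => a q * C.Z b Ψ q 2 := fun b => ha.mul' (s1 b 2)
  have b5 : ∀ b, Bd C.V (K + 1) ε⁻¹ (fun q => a q * C.Z b Ψ q 2) (2 ^ (K + 1) * B * c₂) :=
    fun b => Bd.mul hV hl ha (s1 b 2) h2.pred (b1 b 2)
  have key : ∀ b, Bd C.V (K + 1) ε⁻¹ (C.Z b (Fe Ψ a ε)) (c₂ + D + (B + 1)) := fun b => by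
    refine Bd.pi hV hl (by positivity) ((Fe_sm hΨ ha ε).zv (hV b)) fun i => ?_
    simp only [Zv, dd_Fe hΨ ha hε.ne']
    fin_cases i
    · refine Bd.mono ?_ hl (show c₂ ≤ _ by linarith)
      simpa [rot, nrm, Jf, Zv] using b1 b 0
    · refine Bd.mono ?_ hl (show c₂ ≤ _ by linarith)
      simpa [rot, nrm, Jf, Zv] using b1 b 1
    · refine Bd.mono ?_ hl (show D ≤ _ by linarith)
      simpa [rot, nrm, Jf, Zv] using Bd.add hV ((s5 b).mul' s3).neg' ((s4 b).mul' s2)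
        (Bd.mul hV hl (s5 b) s3 (b5 b) b3).neg (Bd.mul hV hl (s4 b) s2 (b4 b) b2)
    · refine Bd.mono ?_ hl (show D ≤ _ by linarith)
      simpa [rot, nrm, Jf, Zv] using Bd.add hV ((s5 b).mul' s2) ((s4 b).mul' s3)
        (Bd.mul hV hl (s5 b) s2 (b5 b) b2) (Bd.mul hV hl (s4 b) s3 (b4 b) b3)
  refine ⟨⟨fun q => ?_, fun b q => ?_⟩, fun b c => ?_⟩
  · have h3 : ∀ i, |Δ ε q i| ≤ 1 := fun i => (norm_le_pi_norm (Δ ε q) i).trans (hΔ1 q)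
    have h4 : ∀ x : ℝ, |x| ≤ 1 → |ε * a q * x| ≤ B := fun x hx => by
      rw [abs_mul, abs_mul, abs_of_pos hε]
      calc ε * |a q| * |x| ≤ 1 * B * 1 := by
            gcongr
            exact haB q
        _ = B := by ring
    refine le_trans ((pi_norm_le_iff_of_nonneg (by positivity)).2 fun i => ?_)
      (show B + 1 ≤ _ by linarith)
    fin_cases i
    · exact (abs_add_le _ _).trans (add_le_add (H.W_bd q).1 (h3 0))
    · exact (abs_add_le _ _).trans (add_le_add (H.W_bd q).2 (h3 1))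
    · exact (h4 _ (Real.abs_cos_le_one _)).trans (by linarith)
    · exact (h4 _ (Real.abs_sin_le_one _)).trans (by linarith)
  · rw [one_mul]
    exact (key b).sup q
  · rw [mul_comm]
    exact (key c).zv b

theorem twb_dot (θ : ℝ) (J J' : Fin 3 → ℝ) (β β' : ℝ) :
    (rot θ J + β • nrm θ) ⬝ᵥ (rot θ J' + β' • nrm θ) = J ⬝ᵥ J' + β * β' := by
  simp [rot, nrm, dotProduct, Fin.sum_univ_four, Fin.sum_univ_three]
  linear_combination (J 2 * J' 2 + β * β') * Real.sin_sq_add_cos_sq θ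

theorem twb_dot_rot (θ : ℝ) (J J' : Fin 3 → ℝ) (β' : ℝ) :
    rot θ J ⬝ᵥ (rot θ J' + β' • nrm θ) = J ⬝ᵥ J' := by
  simpa using twb_dot θ J J' 0 β'

theorem twb_dot_nrm (θ : ℝ) (J' : Fin 3 → ℝ) (β' : ℝ) :
    nrm θ ⬝ᵥ (rot θ J' + β' • nrm θ) = β' := by
  have h : rot θ 0 = 0 := by
    ext k
    fin_cases k <;> simp [rot]
  simpa [h] using twb_dot θ 0 J' 1 β'

theorem twb_small (c : ℝ) {d : ℝ} (hd : 0 < d) : ∀ᶠ ε in 𝓝[>] (0 : ℝ), ε * c ≤ d := by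
  have h : Tendsto (fun ε : ℝ => ε * c) (𝓝 0) (𝓝 (0 * c)) := tendsto_id.mul_const c
  rw [zero_mul] at h
  exact mem_nhdsWithin_of_mem_nhds (h.eventually (eventually_le_nhds hd))

omit [ChartedSpace E2 M] [IsManifold (𝓡 2) ∞ M] in
theorem twb_bdd {κ : Type} [Finite κ] {f : κ → M → ℝ} (hf : ∀ k, Continuous (f k)) :
    ∃ A : ℝ, 0 < A ∧ ∀ k p, |f k p| ≤ A := by
  have := Fintype.ofFinite κ
  have h1 : Continuous fun q => ∑ k, |f k q| := continuous_finsetSum _ fun k _ => (hf k).abs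
  obtain ⟨B, hB⟩ := (isCompact_univ.image h1).bddAbove
  refine ⟨max B 1, lt_max_of_lt_right one_pos, fun k p => ?_⟩
  exact ((Finset.single_le_sum (f := fun k => |f k p|) (fun _ _ => abs_nonneg _)
    (Finset.mem_univ k)).trans (hB ⟨p, mem_univ _, rfl⟩)).trans (le_max_left _ _)

omit [IsManifold (𝓡 2) ∞ M] [CompactSpace M] in
theorem twb_dd {J : M → Fin 3 → ℝ} {β θ : M → ℝ} (hJ : Sm J) (hβ : Sm β) (hθ : Sm θ) (p : M)
    (v : E2) : dd (fun q => rot (θ q) (J q) + β q • nrm (θ q)) p v =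
      rot (θ p) (dd J p v + ![0, 0, β p * dd θ p v]) +
        (dd β p v - J p 2 * dd θ p v) • nrm (θ p) := by
  have hJ' := sm_pi.1 hJ
  have hs : Sm fun q => Real.sin (θ q) := hθ.comp' Real.contDiff_sin
  have hc : Sm fun q => Real.cos (θ q) := hθ.comp' Real.contDiff_cos
  have ds := dd_comp_deriv (Real.hasDerivAt_sin (θ p)) (hθ.df p) v
  have dc := dd_comp_deriv (Real.hasDerivAt_cos (θ p)) (hθ.df p) v
  have e : (fun q => rot (θ q) (J q) + β q • nrm (θ q)) = fun q =>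
      ![J q 0, J q 1, β q * Real.cos (θ q) - J q 2 * Real.sin (θ q),
        J q 2 * Real.cos (θ q) + β q * Real.sin (θ q)] := by
    funext q k
    fin_cases k <;> simp [rot, nrm]
    ring
  have hF : Sm fun q => ![J q 0, J q 1, β q * Real.cos (θ q) - J q 2 * Real.sin (θ q),
      J q 2 * Real.cos (θ q) + β q * Real.sin (θ q)] := by
    refine sm_pi.2 fun k => ?_
    fin_cases k
    · exact hJ' 0
    · exact hJ' 1
    · exact (hβ.mul' hc).sub' ((hJ' 2).mul' hs)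
    · exact ((hJ' 2).mul' hc).add' (hβ.mul' hs)
  rw [e]
  funext k
  rw [dd_apply (hF.df p)]
  fin_cases k
  · simp [rot, nrm, dd_apply (hJ.df p)]
  · simp [rot, nrm, dd_apply (hJ.df p)]
  · refine (dd_sub ((hβ.mul' hc).df p) (((hJ' 2).mul' hs).df p) v).trans ?_
    rw [dd_mul (hβ.df p) (hc.df p), dd_mul ((hJ' 2).df p) (hs.df p), ds, dc]
    simp [rot, nrm, dd_apply (hJ.df p)]
    ring
  · refine (dd_add (((hJ' 2).mul' hc).df p) ((hβ.mul' hs).df p) v).trans ?_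
    rw [dd_mul (hβ.df p) (hs.df p), dd_mul ((hJ' 2).df p) (hc.df p), ds, dc]
    simp [rot, nrm, dd_apply (hJ.df p)]
    ring

omit [CompactSpace M] in
theorem twb_ZZ {Ψ : M → Fin 3 → ℝ} {a : M → ℝ} (hΨ : Sm Ψ) (ha : Sm a) {ε : ℝ} (hε : ε ≠ 0)
    {V : M → E2} (hV : SmV V) (p : M) : Zv V (Zv V (Fe Ψ a ε)) p =
      rot (Ψ p 2 / ε) (Zv V (fun q => Jf Ψ a 0 q (V q)) p + ![0, 0, Zv V a p * dd Ψ p (V p) 2]) +
        (ε * Zv V (Zv V a) p - a p * dd Ψ p (V p) 2 ^ 2 / ε) • nrm (Ψ p 2 / ε) := by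
  have e : Zv V (Fe Ψ a ε) = fun q =>
      rot (Ψ q 2 / ε) (Jf Ψ a 0 q (V q)) + (ε * Zv V a q) • nrm (Ψ q 2 / ε) :=
    funext fun q => dd_Fe hΨ ha hε q (V q)
  have h2 : Sm fun q => Ψ q 2 := sm_pi.1 hΨ 2
  have hθ : Sm fun q => Ψ q 2 / ε := h2.comp' (Φ := fun x : ℝ => x / ε) (contDiff_id.div_const ε)
  have dθ : dd (fun q => Ψ q 2 / ε) p (V p) = dd Ψ p (V p) 2 / ε := by
    rw [dd_comp_deriv (f := fun q => Ψ q 2) (p := p) ((hasDerivAt_id' (Ψ p 2)).div_const ε)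
      (h2.df p), dd_apply (hΨ.df p),
      smul_eq_mul, mul_one_div]
  have dβ : dd (fun q => ε * Zv V a q) p (V p) = ε * Zv V (Zv V a) p :=
    dd_const_smul ε ((ha.zv hV).df p) (V p)
  rw [e]
  refine (twb_dd (ksa_sm_Jf hΨ ha (fun _ _ => sm_const 0) hV) ((sm_const ε).mul' (ha.zv hV)) hθ p
    (V p)).trans ?_
  rw [dθ, dβ]
  congr 2
  · congr 4
    field_simp
  · simp only [Jf, Matrix.cons_val]
    ring

/-- `Z_b F · Z_c F = J_b · J_c + ε² Z_b a Z_c a`; polarisation -/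
theorem twist_iso {σ : ℝ} (hσ : 0 < σ) : ∃ t0 > 0, ∀ (B CK : ℝ) (K : ℕ) (t : ℝ)
    (Φ : M → Fin 3 → ℝ) (a : M → ℝ) (Δ : ℝ → M → Fin 3 → ℝ), t ≤ t0 → TwP C B CK K t Φ a Δ →
    ∀ᶠ ε in 𝓝[>] (0 : ℝ), ∀ b c p, |C.Z b (Fe (fun q => Φ q + Δ ε q) a ε) p ⬝ᵥ
      C.Z c (Fe (fun q => Φ q + Δ ε q) a ε) p - C.G b c p| ≤ σ := by
  obtain ⟨Γ, hΓ, hG⟩ := twb_bdd (f := fun k : (Fin C.n × Fin 2) × (Fin C.n × Fin 2) => C.G k.1 k.2)
    fun k => (C.G_sm k.1 k.2).cont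
  refine ⟨σ / (6 * Γ), by positivity, fun B CK K t Φ a Δ ht H => ?_⟩
  obtain ⟨A, hA, hZ⟩ := twb_bdd (f := fun b => C.Z b a) fun b => (H.a_sm.zv (C.V_sm b)).cont
  filter_upwards [H.del, self_mem_nhdsWithin, twb_small (A ^ 2) (half_pos hσ),
    twb_small 1 one_pos] with ε hd hε h1 h2 b c p
  have hε0 : 0 < ε := hε
  obtain ⟨hΔ, -, -, hiso, -⟩ := hd
  have hΨ := H.Φ_sm.add' hΔ
  set Ψ := fun q => Φ q + Δ ε q
  have e := ksb_Jf_comb Ψ a 0 p 1 1 (C.V b p) (C.V c p)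
  simp only [one_smul] at e
  have i1 := abs_le.1 (hiso p (C.V b p))
  have i2 := abs_le.1 (hiso p (C.V c p))
  have i3 := abs_le.1 (hiso p (C.V b p + C.V c p))
  have n1 := ksb_g_nonneg g p (C.V b p)
  have n2 := ksb_g_nonneg g p (C.V c p)
  have n3 := ksb_g_nonneg g p (C.V b p + C.V c p)
  have eg : g.g p (C.V b p + C.V c p) (C.V b p + C.V c p) =
      C.G b b p + 2 * C.G b c p + C.G c c p := by
    simp only [map_add, _root_.add_apply, Calc.G]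
    rw [g.symm p (C.V c p) (C.V b p)]
    ring
  rw [e, eg, add_dotProduct, dotProduct_add, dotProduct_add,
    dotProduct_comm (Jf Ψ a 0 p (C.V c p)) (Jf Ψ a 0 p (C.V b p))] at i3
  rw [eg] at n3
  change _ ≤ _ - C.G b b p ∧ _ - C.G b b p ≤ t * C.G b b p at i1
  change _ ≤ _ - C.G c c p ∧ _ - C.G c c p ≤ t * C.G c c p at i2
  change -(t * C.G b b p) ≤ _ ∧ _ at i1
  change -(t * C.G c c p) ≤ _ ∧ _ at i2
  change 0 ≤ C.G b b p at n1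
  change 0 ≤ C.G c c p at n2
  have g1 := (abs_le.1 (hG (b, b) p)).2
  have g2 := (abs_le.1 (hG (c, c) p)).2
  have g3 := (abs_le.1 (hG (b, c) p)).2
  simp only at g1 g2 g3
  have hs : t * (2 * C.G b b p + 2 * C.G b c p + 2 * C.G c c p) ≤ σ := by
    calc _ ≤ σ / (6 * Γ) * (2 * C.G b b p + 2 * C.G b c p + 2 * C.G c c p) :=
          mul_le_mul_of_nonneg_right ht (by linarith)
      _ ≤ σ / (6 * Γ) * (6 * Γ) := mul_le_mul_of_nonneg_left (by linarith) (by positivity)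
      _ = σ := by field_simp
  have hz : |ε * C.Z b a p * (ε * C.Z c a p)| ≤ σ / 2 := by
    rw [abs_mul, abs_mul, abs_mul, abs_of_pos hε0]
    calc ε * |C.Z b a p| * (ε * |C.Z c a p|) ≤ 1 * A * (ε * A) := by
          gcongr
          · linarith
          · exact hZ b p
          · exact hZ c p
      _ = ε * A ^ 2 := by ring
      _ ≤ _ := h1
  have hz' := abs_le.1 hz
  change |dd (Fe Ψ a ε) p (C.V b p) ⬝ᵥ dd (Fe Ψ a ε) p (C.V c p) - C.G b c p| ≤ σ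
  rw [dd_Fe hΨ H.a_sm hε0.ne', dd_Fe hΨ H.a_sm hε0.ne', twb_dot]
  change |_ + ε * C.Z b a p * (ε * C.Z c a p) - _| ≤ σ
  exact abs_le.2 ⟨by linarith, by linarith⟩

/-- Case 1: `n = nrm θ`, `n·Z_v F = ε Z_v a`, `n·Z_u Z_u F = ε Z_u Z_u a - a (Z_u u)²/ε` and
`|Z_{(i,u)} u| ≥ 1/(4B)` for some `u`.  Case 2: `n = rot θ m`, `n·Z_v F = m·J_v`,
`n·Z_u Z_u F = m·Z_u J_u + (Z_u a)(Z_u u) m₂` with `|Z_u u| ≤ 2B`. -/
theorem twist_geo (B CK : ℝ) (hB : 1 ≤ B) (K : ℕ) {t σ : ℝ} (hσ : 0 < σ) (ht : t ≤ σ) (ht1 : t ≤ 1)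
    {Φ : M → Fin 3 → ℝ} {a : M → ℝ} {Δ : ℝ → M → Fin 3 → ℝ} (H : TwP C B CK K t Φ a Δ) :
    ∀ᶠ ε in 𝓝[>] (0 : ℝ),
      C.Geo (Fe (fun q => Φ q + Δ ε q) a ε) ε⁻¹ (1 / (100 * B ^ 3)) σ := by
  obtain ⟨A, hA, hZ⟩ := twb_bdd (f := fun b => C.Z b a) fun b => (H.a_sm.zv (C.V_sm b)).cont
  obtain ⟨A', hA', hZ'⟩ := twb_bdd (f := fun b => C.Z b (C.Z b a))
    fun b => ((H.a_sm.zv (C.V_sm b)).zv (C.V_sm b)).cont
  have hB0 : 0 < B := by linarith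
  filter_upwards [H.del, self_mem_nhdsWithin, twb_small A hσ, twb_small 1 one_pos,
    twb_small (20 * A' * B ^ 3) one_pos, twb_small (4 * A * B ^ 2) one_pos]
    with ε hd hε h1 h2 h3 h4 i p hp
  have hε0 : 0 < ε := hε
  rw [mul_one] at h2
  obtain ⟨hΔ, -, -, hiso, hII⟩ := hd
  have hΨ := H.Φ_sm.add' hΔ
  set Ψ := fun q => Φ q + Δ ε q
  have ha := (H.a_bd p).1
  have ha0 : 0 < a p := (inv_pos.2 hB0).trans_le ha
  have hBa : 1 ≤ B * a p := by rwa [inv_le_iff_one_le_mul₀' hB0] at ha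
  rcases hII i p hp with ⟨v, hv, hv'⟩ | ⟨m, u, hm, hm1, hm2⟩
  · have hn := (abs_le.1 (C.g_near hp v)).1
    rw [C.dd_chart hp Ψ v] at hv'
    simp only [Fin.sum_univ_two, Pi.add_apply, Pi.smul_apply, smul_eq_mul] at hn hv'
    have c0 : |dd (C.x i 0) p v| ≤ 2 :=
      abs_le_of_sq_le_sq (by nlinarith [sq_nonneg (dd (C.x i 1) p v)]) (by norm_num)
    have c1 : |dd (C.x i 1) p v| ≤ 2 :=
      abs_le_of_sq_le_sq (by nlinarith [sq_nonneg (dd (C.x i 0) p v)]) (by norm_num)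
    obtain ⟨u, hu⟩ : ∃ u, B⁻¹ / 4 ≤ |C.Z (i, u) Ψ p 2| := by
      by_contra hcon
      push Not at hcon
      have k := hv'.trans (abs_add_le _ _)
      rw [abs_mul, abs_mul] at k
      have k0 := mul_le_mul_of_nonneg_right c0 (abs_nonneg (C.Z (i, 0) Ψ p 2))
      have k1 := mul_le_mul_of_nonneg_right c1 (abs_nonneg (C.Z (i, 1) Ψ p 2))
      linarith [hcon 0, hcon 1]
    refine ⟨nrm (Ψ p 2 / ε), u, ?_, fun w => ?_, ?_⟩
    · refine (pi_norm_le_iff_of_nonneg zero_le_one).2 fun k => ?_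
      fin_cases k <;> simp [nrm, Real.abs_cos_le_one, Real.abs_sin_le_one]
    · change |_ ⬝ᵥ dd (Fe Ψ a ε) p (C.V (i, w) p)| ≤ σ
      rw [dd_Fe hΨ H.a_sm hε0.ne', twb_dot_nrm, abs_mul, abs_of_pos hε0]
      exact (mul_le_mul_of_nonneg_left (hZ (i, w) p) hε0.le).trans h1
    · rw [Calc.Z, Calc.Z, twb_ZZ hΨ H.a_sm hε0.ne' (C.V_sm (i, u)), twb_dot_nrm, abs_sub_comm]
      refine le_trans ?_ (le_abs_self _)
      change B⁻¹ / 4 ≤ |dd Ψ p (C.V (i, u) p) 2| at hu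
      have k1 : (B⁻¹ / 4) ^ 2 ≤ dd Ψ p (C.V (i, u) p) 2 ^ 2 := by
        rw [← sq_abs (dd Ψ p _ 2)]
        exact pow_le_pow_left₀ (by positivity) hu 2
      have k2 : B⁻¹ * (B⁻¹ / 4) ^ 2 / ε ≤ a p * dd Ψ p (C.V (i, u) p) 2 ^ 2 / ε := by gcongr
      have k3 : ε * Zv (C.V (i, u)) (Zv (C.V (i, u)) a) p ≤ 1 / (20 * B ^ 3) * ε⁻¹ := by
        have k4 := (abs_le.1 (hZ' (i, u) p)).2
        calc _ ≤ ε * A' := mul_le_mul_of_nonneg_left k4 hε0.le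
          _ ≤ 1 * A' := mul_le_mul_of_nonneg_right h2 hA'.le
          _ = ε * (20 * A' * B ^ 3) * (1 / (20 * B ^ 3) * ε⁻¹) := by field_simp
          _ ≤ _ := mul_le_of_le_one_left (by positivity) h3
      have k5 : B⁻¹ * (B⁻¹ / 4) ^ 2 / ε = 1 / (16 * B ^ 3) * ε⁻¹ := by field_simp; ring
      have k6 : 0 ≤ 1 / B ^ 3 * ε⁻¹ := by positivity
      have k7 : ∀ x : ℝ, x ≠ 0 → 1 / (x * B ^ 3) * ε⁻¹ = x⁻¹ * (1 / B ^ 3 * ε⁻¹) := fun x hx => by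
        field_simp
      rw [k5, k7 _ (by norm_num)] at k2
      rw [k7 _ (by norm_num)] at k3 ⊢
      linarith
  · have hmk : ∀ k, |m k| ≤ 1 := fun k => by
      refine abs_le_one_iff_mul_self_le_one.2 (le_trans ?_ hm)
      exact Finset.single_le_sum (f := fun k => m k * m k) (fun k _ => mul_self_nonneg _)
        (Finset.mem_univ k)
    refine ⟨rot (Ψ p 2 / ε) m, u, ?_, fun w => ?_, ?_⟩
    · refine (pi_norm_le_iff_of_nonneg zero_le_one).2 fun k => ?_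
      fin_cases k
      · exact hmk 0
      · exact hmk 1
      · simp only [rot, Fin.reduceFinMk, Matrix.cons_val, norm_neg, norm_mul, Real.norm_eq_abs]
        exact mul_le_one₀ (hmk 2) (abs_nonneg _) (Real.abs_sin_le_one _)
      · simp only [rot, Fin.reduceFinMk, Matrix.cons_val, norm_mul, Real.norm_eq_abs]
        exact mul_le_one₀ (hmk 2) (abs_nonneg _) (Real.abs_cos_le_one _)
    · change |_ ⬝ᵥ dd (Fe Ψ a ε) p (C.V (i, w) p)| ≤ σ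
      rw [dd_Fe hΨ H.a_sm hε0.ne', twb_dot_rot]
      exact (hm1 w).trans ht
    · rw [Calc.Z, Calc.Z, twb_ZZ hΨ H.a_sm hε0.ne' (C.V_sm (i, u)), twb_dot_rot, dotProduct_add]
      have j1 := (abs_le.1 (hiso p (C.V (i, u) p))).2
      have j2 := (abs_le.1 (C.near i p hp u u)).2
      have j3 := ksb_g_nonneg g p (C.V (i, u) p)
      rw [if_pos rfl] at j2
      have j4 : Jf Ψ a 0 p (C.V (i, u) p) 2 * Jf Ψ a 0 p (C.V (i, u) p) 2 ≤
          Jf Ψ a 0 p (C.V (i, u) p) ⬝ᵥ Jf Ψ a 0 p (C.V (i, u) p) :=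
        Finset.single_le_sum (f := fun k => Jf Ψ a 0 p (C.V (i, u) p) k * Jf Ψ a 0 p (C.V (i, u) p) k)
          (fun k _ => mul_self_nonneg _) (Finset.mem_univ 2)
      have j5 : |a p * dd Ψ p (C.V (i, u) p) 2| ≤ 2 := by
        refine abs_le_of_sq_le_sq ?_ (by norm_num)
        change a p * dd Ψ p (C.V (i, u) p) 2 * (a p * dd Ψ p (C.V (i, u) p) 2) ≤ _ at j4
        nlinarith [mul_le_mul_of_nonneg_right ht1 j3]
      rw [abs_mul, abs_of_pos ha0] at j5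
      have j6 : |dd Ψ p (C.V (i, u) p) 2| ≤ 2 * B := by
        nlinarith [abs_nonneg (dd Ψ p (C.V (i, u) p) 2)]
      have j7 : |m ⬝ᵥ ![0, 0, Zv (C.V (i, u)) a p * dd Ψ p (C.V (i, u) p) 2]| ≤ 1 * (A * (2 * B)) := by
        simp only [dotProduct, Fin.sum_univ_three, Matrix.cons_val, mul_zero, zero_add, abs_mul]
        gcongr
        · exact hmk 2
        · exact hZ (i, u) p
      have j8 : A * (2 * B) ≤ B⁻¹ / ε / 2 := by
        calc _ = ε * (4 * A * B ^ 2) * (B⁻¹ / ε / 2) := by field_simp; ring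
          _ ≤ _ := mul_le_of_le_one_left (by positivity) h4
      have j9 : 1 / (100 * B ^ 3) * ε⁻¹ ≤ B⁻¹ / ε / 2 := by
        calc _ ≤ 1 / (2 * B) * ε⁻¹ := by
              refine mul_le_mul_of_nonneg_right (one_div_le_one_div_of_le (by positivity) ?_)
                (by positivity)
              nlinarith [le_self_pow₀ hB (by norm_num : 3 ≠ 0)]
          _ = _ := by field_simp
      have j10 := abs_sub_abs_le_abs_add (m ⬝ᵥ Zv (C.V (i, u)) (fun q => Jf Ψ a 0 q (C.V (i, u) q)) p)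
        (m ⬝ᵥ ![0, 0, Zv (C.V (i, u)) a p * dd Ψ p (C.V (i, u) p) 2])
      change B⁻¹ / ε ≤ |m ⬝ᵥ Zv (C.V (i, u)) (fun q => Jf Ψ a 0 q (C.V (i, u) q)) p| at hm2
      linarith

end Crest.Agent.R216
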